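import Mathlib
import Crest.Prelude.Def_LubinTate

/-!
# Commutative algebra of the Lubin–Tate ring `E₀ = W(k)[[u₁,…,u_{n-1}]]`

* `isPrecomplete_sup`: precomplete for `I` and `J` implies precomplete for `I ⊔ J`.
* `LT.maximalIdeal_eq`: the maximal ideal of `E₀` is `(p) ⊔ (u)`.
* `LT.isAdicComplete`: `E₀` is complete for its maximal ideal.
* residue map facts.
-/

set_option autoImplicit false

open Crest.LubinTate

namespace Crest.Agent.LT

section General

variable {R : Type*} [CommRing R]

/-- Precompleteness is stable under sums of ideals. -/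
theorem isPrecomplete_sup {I J : Ideal R} (hI : IsPrecomplete I R) (hJ : IsPrecomplete J R) :
    IsPrecomplete (I ⊔ J) R := by
  classical
  refine ⟨fun f hf => ?_⟩
  -- the increments of `f (2 * i)`
  have hd : ∀ i, ∃ a b : R, a ∈ I ^ i ∧ b ∈ J ^ i ∧ f (2 * (i + 1)) - f (2 * i) = a + b := by
    intro i
    have h1 : f (2 * i) ≡ f (2 * (i + 1)) [SMOD ((I ⊔ J) ^ (2 * i) • ⊤ : Submodule R R)] :=
      hf (by omega)
    have h2 : f (2 * (i + 1)) - f (2 * i) ∈ (I ⊔ J) ^ (2 * i) := by
      have := (SModEq.sub_mem.mp h1)
      simp only [smul_eq_mul, Ideal.mul_top] at this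
      have h3 := Ideal.neg_mem_iff _ |>.mpr this
      simpa using h3
    have h3 : (I ⊔ J) ^ (2 * i) ≤ I ^ i ⊔ J ^ i := by
      have : 2 * i = i + i := by ring
      rw [this]
      exact Ideal.sup_pow_add_le_pow_sup_pow
    obtain ⟨a, ha, b, hb, hab⟩ := Submodule.mem_sup.mp (h3 h2)
    exact ⟨a, b, ha, hb, hab.symm⟩
  choose a b ha hb hab using hd
  let A : ℕ → R := fun N => ∑ i ∈ Finset.range N, a i
  let B : ℕ → R := fun N => ∑ i ∈ Finset.range N, b i
  have hA : ∀ {m k}, m ≤ k → A m ≡ A k [SMOD (I ^ m • ⊤ : Submodule R R)] := by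
    intro m k hmk
    rw [SModEq.sub_mem]
    simp only [smul_eq_mul, Ideal.mul_top]
    have : A m - A k = - ∑ i ∈ Finset.Ico m k, a i := by
      simp only [A]
      rw [← Finset.sum_range_add_sum_Ico _ hmk]
      ring
    rw [this, Ideal.neg_mem_iff]
    exact Ideal.sum_mem _ fun i hi =>
      Ideal.pow_le_pow_right (Finset.mem_Ico.mp hi).1 (ha i)
  have hB : ∀ {m k}, m ≤ k → B m ≡ B k [SMOD (J ^ m • ⊤ : Submodule R R)] := by
    intro m k hmk
    rw [SModEq.sub_mem]
    simp only [smul_eq_mul, Ideal.mul_top]
    have : B m - B k = - ∑ i ∈ Finset.Ico m k, b i := by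
      simp only [B]
      rw [← Finset.sum_range_add_sum_Ico _ hmk]
      ring
    rw [this, Ideal.neg_mem_iff]
    exact Ideal.sum_mem _ fun i hi =>
      Ideal.pow_le_pow_right (Finset.mem_Ico.mp hi).1 (hb i)
  obtain ⟨LA, hLA⟩ := hI.prec' A hA
  obtain ⟨LB, hLB⟩ := hJ.prec' B hB
  refine ⟨f 0 + LA + LB, fun N => ?_⟩
  have hsum : ∀ N, f (2 * N) = f 0 + A N + B N := by
    intro N
    induction N with
    | zero => simp [A, B]
    | succ k ih =>
      have := hab k
      simp only [A, B, Finset.sum_range_succ] at ih ⊢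
      linear_combination this + ih
  have h1 : f N ≡ f (2 * N) [SMOD ((I ⊔ J) ^ N • ⊤ : Submodule R R)] := hf (by omega)
  have h2 : f (2 * N) ≡ f 0 + LA + LB [SMOD ((I ⊔ J) ^ N • ⊤ : Submodule R R)] := by
    rw [SModEq.sub_mem]
    simp only [smul_eq_mul, Ideal.mul_top]
    have e : f (2 * N) - (f 0 + LA + LB) = (A N - LA) + (B N - LB) := by
      rw [hsum N]; ring
    rw [e]
    refine Ideal.add_mem _ ?_ ?_
    · have := SModEq.sub_mem.mp (hLA N)
      simp only [smul_eq_mul, Ideal.mul_top] at this
      exact Ideal.pow_right_mono le_sup_left N this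
    · have := SModEq.sub_mem.mp (hLB N)
      simp only [smul_eq_mul, Ideal.mul_top] at this
      exact Ideal.pow_right_mono le_sup_right N this
  exact h1.trans h2

end General

section MvPS

open MvPowerSeries

variable {σ : Type*} {A : Type*} [CommRing A]

/-- A power series with zero constant coefficient lies in the ideal generated by the variables. -/
theorem mem_span_X_of_constantCoeff_eq_zero [Finite σ] (f : MvPowerSeries σ A)
    (hf : constantCoeff f = 0) :
    f ∈ (Ideal.span (Set.range (X : σ → MvPowerSeries σ A))) := by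
  classical
  have := Fintype.ofFinite σ
  have key : ∀ S : Finset σ, ∃ g : MvPowerSeries σ A,
      f - g ∈ (Ideal.span (Set.range (X : σ → MvPowerSeries σ A))) ∧
      (∀ m : σ →₀ ℕ, (∃ s ∈ S, m s ≠ 0) → coeff m g = 0) ∧
      (coeff (0 : σ →₀ ℕ) g = coeff 0 f) := by
    intro S
    induction S using Finset.induction_on with
    | empty => exact ⟨f, by simp, by simp, rfl⟩
    | insert s S hs ih =>
      obtain ⟨g, hg1, hg2, hg3⟩ := ih
      -- split off the monomials that contain `X s`
      let g' : MvPowerSeries σ A := fun m => if m s = 0 then coeff m g else 0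
      have hcoeff : ∀ m, coeff m g' = if m s = 0 then coeff m g else 0 := fun m => by
        simp [g', coeff_apply]
      have hdvd : X s ∣ g - g' := by
        rw [X_dvd_iff]
        intro m hm
        simp [hcoeff, hm]
      refine ⟨g', ?_, ?_, ?_⟩
      · have : f - g' = (f - g) + (g - g') := by ring
        rw [this]
        refine Ideal.add_mem _ hg1 ?_
        obtain ⟨c, hc⟩ := hdvd
        rw [hc]
        exact Ideal.mul_mem_right _ _ (Ideal.subset_span ⟨s, rfl⟩)
      · rintro m ⟨t, ht, hmt⟩
        rw [hcoeff]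
        split_ifs with h0
        · rcases Finset.mem_insert.mp ht with rfl | ht'
          · exact absurd h0 hmt
          · exact hg2 m ⟨t, ht', hmt⟩
        · rfl
      · rw [hcoeff]
        simp [hg3]
  obtain ⟨g, hg1, hg2, hg3⟩ := key Finset.univ
  have hg0 : g = 0 := by
    ext m
    by_cases hm : m = 0
    · subst hm
      rw [hg3]
      simpa [coeff_zero_eq_constantCoeff_apply] using hf
    · obtain ⟨s, hs⟩ := Finsupp.ne_iff.mp hm
      simpa using hg2 m ⟨s, Finset.mem_univ s, by simpa using hs⟩
  simpa [hg0] using hg1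

/-- Coefficientwise description of multiples of a constant power `π^N`. -/
theorem mem_span_C_pow_iff (π : A) (N : ℕ) (f : MvPowerSeries σ A) :
    f ∈ (Ideal.span {(C π : MvPowerSeries σ A)}) ^ N ↔ ∀ m, coeff m f ∈ (Ideal.span {π}) ^ N := by
  classical
  rw [Ideal.span_singleton_pow, Ideal.span_singleton_pow, ← map_pow]
  constructor
  · intro h m
    obtain ⟨g, rfl⟩ := Ideal.mem_span_singleton.mp h
    rw [coeff_C_mul]
    exact Ideal.mul_mem_right _ _ (Ideal.mem_span_singleton_self _)
  · intro h
    have h' : ∀ m, ∃ c, coeff m f = π ^ N * c := fun m =>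
      Ideal.mem_span_singleton.mp (h m) |>.imp fun c hc => hc
    choose c hc using h'
    refine Ideal.mem_span_singleton.mpr ⟨(fun m => c m : MvPowerSeries σ A), ?_⟩
    ext m
    rw [coeff_C_mul, hc]
    rfl

/-- If `A` is `π`-adically precomplete then so is `A[[σ]]` with respect to the constant `π`. -/
theorem isPrecomplete_span_C (π : A) (hA : IsPrecomplete (Ideal.span {π}) A) :
    IsPrecomplete (Ideal.span {(C π : MvPowerSeries σ A)}) (MvPowerSeries σ A) := by
  classical
  refine ⟨fun f hf => ?_⟩
  have hcoeff : ∀ (m : σ →₀ ℕ), ∃ L : A, ∀ N,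
      coeff m (f N) ≡ L [SMOD ((Ideal.span {π}) ^ N • ⊤ : Submodule A A)] := by
    intro m
    refine hA.prec' (fun N => coeff m (f N)) ?_
    intro a b hab
    have := SModEq.sub_mem.mp (hf hab)
    simp only [smul_eq_mul, Ideal.mul_top] at this
    rw [SModEq.sub_mem]
    simp only [smul_eq_mul, Ideal.mul_top]
    have h2 := (mem_span_C_pow_iff π a _).mp this m
    simpa using h2
  choose L hL using hcoeff
  let g : MvPowerSeries σ A := fun m => L m
  refine ⟨g, fun N => ?_⟩
  rw [SModEq.sub_mem]
  simp only [smul_eq_mul, Ideal.mul_top]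
  rw [mem_span_C_pow_iff]
  intro m
  have := SModEq.sub_mem.mp (hL m N)
  simp only [smul_eq_mul, Ideal.mul_top] at this
  have e : coeff m (f N - g) = coeff m (f N) - L m := by
    rw [map_sub]; rfl
  rw [e]
  exact this

end MvPS

section LTRing

open MvPowerSeries

variable (p : ℕ) [Fact p.Prime] (n : ℕ)

local notation "k" => GaloisField p n
local notation "W" => WittVector p (GaloisField p n)
local notation "E₀" => LTRing p n

theorem residue_surjective : Function.Surjective (LTRing.residue p n) := by
  intro x
  obtain ⟨w, rfl⟩ := WittVector.constantCoeff_surjective (p := p) (R := GaloisField p n)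
    (show GaloisField p n from x)
  refine ⟨C w, ?_⟩
  simp [LTRing.residue]

theorem residue_ker : RingHom.ker (LTRing.residue p n) = IsLocalRing.maximalIdeal (LTRing p n) := by
  have : (RingHom.ker (LTRing.residue p n)).IsMaximal :=
    RingHom.ker_isMaximal_of_surjective _ (residue_surjective p n)
  exact IsLocalRing.eq_maximalIdeal this

theorem residue_comp_algebraMap :
    (LTRing.residue p n).comp (algebraMap (WittVector p (GaloisField p n)) (LTRing p n)) =
      WittVector.constantCoeff := by
  ext x
  simp [LTRing.residue, MvPowerSeries.algebraMap_apply]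

/-- The maximal ideal of `E₀` is generated by `p` and the variables. -/
theorem maximalIdeal_eq :
    IsLocalRing.maximalIdeal (LTRing p n) =
      Ideal.span {(C (p : WittVector p (GaloisField p n)) : LTRing p n)} ⊔
        Ideal.span (Set.range (X : Fin (n - 1) → LTRing p n)) := by
  apply le_antisymm
  · rw [← residue_ker]
    intro f hf
    rw [RingHom.mem_ker] at hf
    have h1 : constantCoeff f ∈ RingHom.ker (WittVector.constantCoeff :
        WittVector p (GaloisField p n) →+* GaloisField p n) := by
      rw [RingHom.mem_ker]; exact hf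
    rw [WittVector.ker_constantCoeff, Ideal.mem_span_singleton] at h1
    obtain ⟨c, hc⟩ := h1
    have h2 : f = C (p : WittVector p (GaloisField p n)) * C c + (f - C (constantCoeff f)) := by
      rw [hc, map_mul]; ring
    rw [h2]
    refine Ideal.add_mem _ (Ideal.mem_sup_left ?_) (Ideal.mem_sup_right ?_)
    · exact Ideal.mul_mem_right _ _ (Ideal.mem_span_singleton_self _)
    · apply mem_span_X_of_constantCoeff_eq_zero
      simp
  · rw [← residue_ker]
    refine sup_le ?_ ?_
    · rw [Ideal.span_singleton_le_iff_mem, RingHom.mem_ker]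
      simp [LTRing.residue, WittVector.constantCoeff]
    · rw [Ideal.span_le]
      rintro _ ⟨i, rfl⟩
      simp [LTRing.residue]

/-- `E₀` is complete for its maximal ideal. -/
theorem isAdicComplete : IsAdicComplete (IsLocalRing.maximalIdeal (LTRing p n)) (LTRing p n) := by
  have h1 : IsPrecomplete (Ideal.span {(C (p : WittVector p (GaloisField p n)) : LTRing p n)})
      (LTRing p n) :=
    isPrecomplete_span_C _ inferInstance
  have h2 : IsPrecomplete (Ideal.span (Set.range (X : Fin (n - 1) → LTRing p n))) (LTRing p n) :=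
    inferInstance
  refine { toIsHausdorff := inferInstance, toIsPrecomplete := ?_ }
  rw [maximalIdeal_eq]
  exact isPrecomplete_sup h1 h2

end LTRing

end Crest.Agent.LT
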