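/-
S0351, Action module (helper69): truncation lemmas, limits of homomorphisms over a finite ring,
continuity of the action (0e), reduction of the radical statement to the prime statement (0f).
See findings #1130 and the coordination note of helper69 on row 227.
-/
import Mathlib
import Crest.Prelude.Def_LubinTate
import Crest.Agent.Lib.LT.Ring

set_option autoImplicit false

open Crest.LubinTate

namespace Crest.Agent.LT.Cont

section Trunc

open MvPowerSeries

variable {R : Type*} [CommRing R] {τ : Type*}

/-- Series vanishing up to total degree `d`. -/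
def truncIdeal (τ : Type*) (R : Type*) [CommRing R] (d : ℕ) : Ideal (MvPowerSeries τ R) where
  carrier := {f | ∀ e : τ →₀ ℕ, e.degree ≤ d → coeff e f = 0}
  add_mem' := by
    intro a b ha hb e he
    have ha' : coeff e a = 0 := ha e he
    have hb' : coeff e b = 0 := hb e he
    rw [map_add, ha', hb', add_zero]
  zero_mem' := by
    intro e _
    simp
  smul_mem' := by
    classical
    intro c x hx e he
    rw [smul_eq_mul, coeff_mul]
    apply Finset.sum_eq_zero
    rintro ⟨a, b⟩ hab
    have hab' : a + b = e := by simpa using hab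
    have : b.degree ≤ d := by
      have h2 : e.degree = a.degree + b.degree := by
        rw [← hab', map_add]
      omega
    have hb : coeff b x = 0 := hx b this
    simp only
    rw [hb, mul_zero]

lemma mem_truncIdeal {d : ℕ} {f : MvPowerSeries τ R} :
    f ∈ truncIdeal τ R d ↔ ∀ e : τ →₀ ℕ, e.degree ≤ d → coeff e f = 0 := Iff.rfl

/-- Congruent arguments modulo the truncation ideal give congruent substitutions. -/
theorem subst_congr_trunc {S : Type*} [CommRing S] [Algebra R S] {σ : Type*}
    (f : MvPowerSeries σ R) {d : ℕ} {a a' : σ → MvPowerSeries τ S}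
    (ha : HasSubst a) (ha' : HasSubst a')
    (h : ∀ s, a s - a' s ∈ truncIdeal τ S d) :
    subst a f - subst a' f ∈ truncIdeal τ S d := by
  classical
  intro e he
  rw [map_sub, coeff_subst ha, coeff_subst ha', sub_eq_zero]
  apply finsum_congr
  intro m
  congr 1
  have hmk : (Ideal.Quotient.mk (truncIdeal τ S d))
        (m.prod fun s n => a s ^ n) =
      (Ideal.Quotient.mk (truncIdeal τ S d)) (m.prod fun s n => a' s ^ n) := by
    simp only [Finsupp.prod, map_prod, map_pow]
    apply Finset.prod_congr rfl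
    intro s _
    congr 1
    exact Ideal.Quotient.eq.2 (h s)
  have := Ideal.Quotient.eq.1 hmk
  have h2 := this e he
  rw [map_sub, sub_eq_zero] at h2
  exact h2

/-- Powers of a series without constant term vanish in low degree. -/
lemma coeff_pow_eq_zero_of_lt {F : MvPowerSeries τ R} (hF : constantCoeff F = 0) {k : ℕ}
    {e : τ →₀ ℕ} (he : e.degree < k) : coeff e (F ^ k) = 0 := by
  classical
  induction k generalizing e with
  | zero => omega
  | succ k ih =>
    rw [pow_succ, coeff_mul]
    apply Finset.sum_eq_zero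
    rintro ⟨a, b⟩ hab
    have hab' : a + b = e := by simpa using hab
    have h2 : e.degree = a.degree + b.degree := by rw [← hab', map_add]
    by_cases hb : b = 0
    · subst hb
      simp only
      rw [coeff_zero_eq_constantCoeff_apply, hF, mul_zero]
    · have : 0 < b.degree := by
        rcases Nat.eq_zero_or_pos b.degree with h | h
        · exact absurd ((Finsupp.degree_eq_zero_iff b).1 h) hb
        · exact h
      simp only
      rw [ih (by omega), zero_mul]

/-- The composite `θ ∘ F` only sees the low coefficients of `θ` in low degree. -/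
theorem coeff_powerSeries_subst_congr {F : MvPowerSeries τ R} (hF : constantCoeff F = 0)
    {θ θ' : PowerSeries R} {d : ℕ} (h : ∀ i ≤ d, PowerSeries.coeff i θ = PowerSeries.coeff i θ')
    {e : τ →₀ ℕ} (he : e.degree ≤ d) :
    coeff e (PowerSeries.subst F θ) = coeff e (PowerSeries.subst F θ') := by
  have hs : PowerSeries.HasSubst F := PowerSeries.HasSubst.of_constantCoeff_zero hF
  rw [PowerSeries.coeff_subst hs, PowerSeries.coeff_subst hs]
  apply finsum_congr
  intro k
  by_cases hk : k ≤ d
  · rw [h k hk]
  · have hlt : e.degree < k := by omega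
    simp [coeff_pow_eq_zero_of_lt hF hlt]

end Trunc

section Limit

open MvPowerSeries

variable {B : Type*} [CommRing B]

/-- The identity of `IsFGHom` is closed under coefficientwise limits. -/
theorem isFGHom_of_approx (F G : FormalGroup B) (θ : PowerSeries B)
    (h0 : PowerSeries.constantCoeff θ = 0)
    (happrox : ∀ D : ℕ, ∃ θ' : PowerSeries B, IsFGHom F G θ' ∧
      ∀ i ≤ D, PowerSeries.coeff i θ' = PowerSeries.coeff i θ) :
    IsFGHom F G θ := by
  refine ⟨h0, ?_⟩
  ext e
  obtain ⟨θ', ⟨h0', hθ'⟩, hc⟩ := happrox e.degree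
  have h1 : coeff e (PowerSeries.subst F.toPowerSeries θ)
      = coeff e (PowerSeries.subst F.toPowerSeries θ') :=
    coeff_powerSeries_subst_congr F.zero_constantCoeff (fun i hi => (hc i hi).symm) le_rfl
  rw [h1, hθ']
  -- the right hand sides
  have hX : ∀ s : Fin 2, constantCoeff (X s : MvPowerSeries (Fin 2) B) = 0 := fun s => by simp
  have hsub : ∀ ψ : PowerSeries B, PowerSeries.constantCoeff ψ = 0 → ∀ s : Fin 2,
      constantCoeff (PowerSeries.subst (X s : MvPowerSeries (Fin 2) B) ψ) = 0 := by
    intro ψ hψ s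
    exact PowerSeries.constantCoeff_subst_eq_zero (hX s) ψ hψ
  have ha : ∀ ψ : PowerSeries B, PowerSeries.constantCoeff ψ = 0 →
      HasSubst (![PowerSeries.subst (X 0 : MvPowerSeries (Fin 2) B) ψ,
        PowerSeries.subst (X 1 : MvPowerSeries (Fin 2) B) ψ]) := by
    intro ψ hψ
    apply hasSubst_of_constantCoeff_zero
    intro s
    fin_cases s
    · simpa using hsub ψ hψ 0
    · simpa using hsub ψ hψ 1
  have hd := subst_congr_trunc (R := B) (S := B) G.toPowerSeries (d := e.degree)
    (ha θ' h0') (ha θ h0) (by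
      intro s e' he'
      rw [map_sub, sub_eq_zero]
      fin_cases s
      · exact coeff_powerSeries_subst_congr (hX 0) (fun i hi => hc i (le_trans hi he')) le_rfl
      · exact coeff_powerSeries_subst_congr (hX 1) (fun i hi => hc i (le_trans hi he')) le_rfl)
  have := hd e le_rfl
  rwa [map_sub, sub_eq_zero] at this

/-- Homomorphisms push forward along ring maps. -/
theorem IsFGHom_map {S : Type*} [CommRing S] (f : B →+* S) {F G : FormalGroup B}
    {θ : PowerSeries B} (h : IsFGHom F G θ) :
    IsFGHom (F.map f) (G.map f) (PowerSeries.map f θ) := by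
  obtain ⟨h0, h1⟩ := h
  have hθ : PowerSeries.HasSubst (F.toPowerSeries) :=
    PowerSeries.HasSubst.of_constantCoeff_zero F.zero_constantCoeff
  refine ⟨?_, ?_⟩
  · have : PowerSeries.constantCoeff (PowerSeries.map f θ) = f (PowerSeries.constantCoeff θ) := by
      rw [← PowerSeries.coeff_zero_eq_constantCoeff_apply, PowerSeries.coeff_map,
        PowerSeries.coeff_zero_eq_constantCoeff_apply]
    rw [this, h0, map_zero]
  · have hl : MvPowerSeries.map f (PowerSeries.subst F.toPowerSeries θ)
        = PowerSeries.subst (F.map f).toPowerSeries (PowerSeries.map f θ) := by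
      exact PowerSeries.map_subst hθ θ
    have hX : ∀ s : Fin 2, PowerSeries.HasSubst (X s : MvPowerSeries (Fin 2) B) := fun s =>
      PowerSeries.HasSubst.X s
    have hXs : ∀ s : Fin 2, MvPowerSeries.map f (PowerSeries.subst (X s : MvPowerSeries (Fin 2) B) θ)
        = PowerSeries.subst (X s : MvPowerSeries (Fin 2) S) (PowerSeries.map f θ) := by
      intro s
      have := PowerSeries.map_subst (hX s) (h := f) θ
      rw [this]
      simp
    have hsub : HasSubst (![PowerSeries.subst (X 0 : MvPowerSeries (Fin 2) B) θ,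
        PowerSeries.subst (X 1 : MvPowerSeries (Fin 2) B) θ]) := by
      apply hasSubst_of_constantCoeff_zero
      intro s
      fin_cases s
      · exact PowerSeries.constantCoeff_subst_eq_zero (by simp) θ h0
      · exact PowerSeries.constantCoeff_subst_eq_zero (by simp) θ h0
    have hr := MvPowerSeries.map_subst hsub (h := f) G.toPowerSeries
    rw [← hl, h1, hr]
    change (MvPowerSeries.subst _ _) = (MvPowerSeries.subst _ _)
    congr 1
    funext s
    fin_cases s
    · simpa using hXs 0
    · simpa using hXs 1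

/-- Composition of push-forwards of formal group laws. -/
theorem FormalGroup_map_map {S T : Type*} [CommRing S] [CommRing T] (f : B →+* S) (g : S →+* T)
    (F : FormalGroup B) : (F.map f).map g = F.map (g.comp f) := by
  ext e
  simp [FormalGroup.map]

/-- The identity series is a homomorphism from a law to itself. -/
theorem isFGHom_X (F : FormalGroup B) : IsFGHom F F PowerSeries.X := by
  refine ⟨by simp, ?_⟩
  have h1 : PowerSeries.subst F.toPowerSeries (PowerSeries.X : PowerSeries B) = F.toPowerSeries :=
    PowerSeries.subst_X (PowerSeries.HasSubst.of_constantCoeff_zero F.zero_constantCoeff)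
  have h2 : ∀ s : Fin 2, PowerSeries.subst (X s : MvPowerSeries (Fin 2) B)
      (PowerSeries.X : PowerSeries B) = X s := fun s =>
    PowerSeries.subst_X (PowerSeries.HasSubst.X s)
  rw [h1, h2 0, h2 1]
  have : (![X 0, X 1] : Fin 2 → MvPowerSeries (Fin 2) B) = X := by
    funext s
    fin_cases s <;> rfl
  rw [this]
  rw [MvPowerSeries.subst_self]
  rfl

end Limit

section Koenig

/-- König's lemma in the form used here. -/
theorem koenig {α : Type*} [Finite α] (S : Set ℕ) (hS : S.Infinite) (f : ℕ → ℕ → α) :
    ∃ a : ℕ → α, ∀ D : ℕ, {M | M ∈ S ∧ ∀ i < D, f M i = a i}.Infinite := by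
  classical
  -- one step
  have step : ∀ (T : Set ℕ), T.Infinite → ∀ D : ℕ, ∃ b : α, {M | M ∈ T ∧ f M D = b}.Infinite := by
    intro T hT D
    by_contra hcon
    apply hT
    have hT' : T ⊆ ⋃ b : α, {M | M ∈ T ∧ f M D = b} := by
      intro M hM
      exact Set.mem_iUnion.2 ⟨f M D, hM, rfl⟩
    refine Set.Finite.subset (Set.finite_iUnion fun b => ?_) hT'
    by_contra hb
    exact hcon ⟨b, hb⟩
  -- recursion
  let stage : ℕ → {T : Set ℕ // T.Infinite} := fun D =>
    Nat.rec ⟨S, hS⟩ (fun D T => ⟨{M | M ∈ T.1 ∧ f M D = (step T.1 T.2 D).choose},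
      (step T.1 T.2 D).choose_spec⟩) D
  let a : ℕ → α := fun D => (step (stage D).1 (stage D).2 D).choose
  refine ⟨a, fun D => ?_⟩
  have hsub : ∀ D, (stage D).1 ⊆ {M | M ∈ S ∧ ∀ i < D, f M i = a i} := by
    intro D
    induction D with
    | zero =>
      intro M hM
      exact ⟨hM, fun i hi => absurd hi (by omega)⟩
    | succ D ih =>
      intro M hM
      have hM' : M ∈ (stage D).1 ∧ f M D = a D := hM
      refine ⟨(ih hM'.1).1, fun i hi => ?_⟩
      rcases Nat.lt_succ_iff_lt_or_eq.1 hi with h | h
      · exact (ih hM'.1).2 i h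
      · rw [h]
        exact hM'.2
  exact (stage D).2.mono (hsub D)

end Koenig

section TestRing

open MvPowerSeries IsLocalRing

/-- A nilpotent ideal is adically complete. -/
theorem isAdicComplete_of_pow_eq_bot {R : Type*} [CommRing R] {I : Ideal R} {c : ℕ}
    (h : I ^ c = ⊥) : IsAdicComplete I R := by
  have hle : ∀ {N : ℕ} {x : R}, c ≤ N → x ∈ I ^ N → x = 0 := by
    intro N x hN hx
    have : x ∈ I ^ c := Ideal.pow_le_pow_right hN hx
    rw [h] at this
    simpa using this
  refine { toIsHausdorff := ⟨fun x hx => ?_⟩, toIsPrecomplete := ⟨fun f hf => ?_⟩ }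
  · have := hx c
    rw [SModEq.zero] at this
    simp only [smul_eq_mul, Ideal.mul_top] at this
    exact hle le_rfl this
  · refine ⟨f c, fun N => ?_⟩
    rcases le_total N c with hN | hN
    · exact hf hN
    · have h1 : f c ≡ f N [SMOD (I ^ c • ⊤ : Submodule R R)] := hf hN
      rw [SModEq.sub_mem] at h1
      simp only [smul_eq_mul, Ideal.mul_top] at h1
      have h2 : f c - f N = 0 := hle le_rfl h1
      have h3 : f N = f c := (sub_eq_zero.1 h2).symm
      rw [h3]

variable (p : ℕ) [Fact p.Prime] (n : ℕ)

local notation "k" => GaloisField p n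
local notation "W" => WittVector p (GaloisField p n)
local notation "E₀" => LTRing p n
local notation "𝔪" => maximalIdeal (LTRing p n)

/-- The test ring `E₀ / 𝔪 ^ c`. -/
abbrev QB (c : ℕ) : Type := LTRing p n ⧸ (maximalIdeal (LTRing p n)) ^ c

/-- The quotient map as a `W`-algebra map. -/
noncomputable abbrev piB (c : ℕ) : LTRing p n →ₐ[WittVector p (GaloisField p n)] QB p n c :=
  Ideal.Quotient.mkₐ _ _

variable {p n}

lemma pow_le_maximal {c : ℕ} (hc : c ≠ 0) : (𝔪) ^ c ≤ 𝔪 :=
  Ideal.pow_le_self hc

theorem QB_nontrivial {c : ℕ} (hc : c ≠ 0) : Nontrivial (QB p n c) := by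
  apply Ideal.Quotient.nontrivial_iff.2
  intro h
  have := pow_le_maximal (p := p) (n := n) hc
  rw [h] at this
  exact (maximalIdeal.isMaximal (LTRing p n)).ne_top (top_le_iff.1 this)

theorem QB_local {c : ℕ} (hc : c ≠ 0) : IsLocalRing (QB p n c) :=
  have := QB_nontrivial (p := p) (n := n) hc
  IsLocalRing.of_surjective' (Ideal.Quotient.mk _) Ideal.Quotient.mk_surjective

theorem residue_mem_of_mem_pow {c : ℕ} (hc : c ≠ 0) :
    ∀ a ∈ (𝔪) ^ c, LTRing.residue p n a = 0 := by
  intro a ha
  have h1 : a ∈ 𝔪 := pow_le_maximal hc ha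
  rw [← Crest.Agent.LT.residue_ker] at h1
  exact h1

/-- The residue map of the test ring. -/
noncomputable def rB {c : ℕ} (hc : c ≠ 0) : QB p n c →+* GaloisField p n :=
  Ideal.Quotient.lift _ (LTRing.residue p n) (residue_mem_of_mem_pow hc)

lemma rB_mk {c : ℕ} (hc : c ≠ 0) (x : LTRing p n) :
    rB hc (Ideal.Quotient.mk _ x) = LTRing.residue p n x := rfl

lemma rB_comp {c : ℕ} (hc : c ≠ 0) :
    (rB hc).comp (piB p n c).toRingHom = LTRing.residue p n := by
  ext x
  rfl

theorem rB_surjective {c : ℕ} (hc : c ≠ 0) : Function.Surjective (rB (p := p) (n := n) hc) := by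
  intro x
  obtain ⟨y, hy⟩ := Crest.Agent.LT.residue_surjective p n x
  exact ⟨Ideal.Quotient.mk _ y, hy⟩

theorem rB_ker {c : ℕ} (hc : c ≠ 0) :
    letI := QB_local (p := p) (n := n) hc
    RingHom.ker (rB (p := p) (n := n) hc) = maximalIdeal (QB p n c) := by
  letI := QB_local (p := p) (n := n) hc
  have : (RingHom.ker (rB (p := p) (n := n) hc)).IsMaximal :=
    RingHom.ker_isMaximal_of_surjective _ (rB_surjective hc)
  exact IsLocalRing.eq_maximalIdeal this

theorem rB_alg {c : ℕ} (hc : c ≠ 0) :
    (rB (p := p) (n := n) hc).comp (algebraMap (WittVector p (GaloisField p n)) (QB p n c)) =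
      WittVector.constantCoeff := by
  have := Crest.Agent.LT.residue_comp_algebraMap p n
  rw [← this]
  ext x
  rfl

theorem QB_maximal_pow {c : ℕ} (hc : c ≠ 0) :
    letI := QB_local (p := p) (n := n) hc
    (maximalIdeal (QB p n c)) ^ c = ⊥ := by
  letI := QB_local (p := p) (n := n) hc
  rw [← rB_ker hc]
  have h1 : RingHom.ker (rB (p := p) (n := n) hc) = Ideal.map (Ideal.Quotient.mk _) 𝔪 := by
    ext x
    obtain ⟨y, rfl⟩ := Ideal.Quotient.mk_surjective x
    constructor
    · intro hy
      have : LTRing.residue p n y = 0 := hy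
      have hy' : y ∈ 𝔪 := by
        rw [← Crest.Agent.LT.residue_ker]
        exact this
      exact Ideal.mem_map_of_mem _ hy'
    · intro hy
      have hsurj : Function.Surjective (Ideal.Quotient.mk ((𝔪) ^ c)) := Ideal.Quotient.mk_surjective
      obtain ⟨z, hz, hzy⟩ := (Ideal.mem_map_iff_of_surjective _ hsurj).1 hy
      have hz' : LTRing.residue p n z = 0 := by
        rw [← RingHom.mem_ker, Crest.Agent.LT.residue_ker]
        exact hz
      have : rB hc (Ideal.Quotient.mk _ y) = rB hc (Ideal.Quotient.mk _ z) := by rw [hzy]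
      rw [rB_mk, rB_mk, hz'] at this
      exact this
  rw [h1, ← Ideal.map_pow, Ideal.map_quotient_self]

theorem QB_complete {c : ℕ} (hc : c ≠ 0) :
    letI := QB_local (p := p) (n := n) hc
    IsAdicComplete (maximalIdeal (QB p n c)) (QB p n c) := by
  letI := QB_local (p := p) (n := n) hc
  exact isAdicComplete_of_pow_eq_bot (QB_maximal_pow hc)

theorem QB_finite (c : ℕ) : Finite (QB p n c) := by
  have h : Finite (LTRing p n ⧸ maximalIdeal (LTRing p n)) := by
    have hinj : Function.Injective
        (Ideal.Quotient.lift (𝔪) (LTRing.residue p n) (fun a ha => by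
          rw [← Crest.Agent.LT.residue_ker] at ha
          exact ha)) := by
      rw [injective_iff_map_eq_zero]
      intro x hx
      obtain ⟨y, rfl⟩ := Ideal.Quotient.mk_surjective x
      have hy : LTRing.residue p n y = 0 := hx
      have : y ∈ 𝔪 := by
        rw [← Crest.Agent.LT.residue_ker]
        exact hy
      exact Ideal.Quotient.eq_zero_iff_mem.2 this
    exact Finite.of_injective _ hinj
  exact Ideal.finite_quotient_pow (IsNoetherian.noetherian _) c

end TestRing

section Continuity

open MvPowerSeries IsLocalRing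

variable {p : ℕ} [Fact p.Prime] {n : ℕ}

local notation "𝔪" => maximalIdeal (LTRing p n)

/-- Maps compatible with the residue map preserve the powers of the maximal ideal. -/
lemma map_mem_pow_of_residue {φ : LTRing p n →+* LTRing p n}
    (hφ : (LTRing.residue p n).comp φ = LTRing.residue p n) (c : ℕ) {x : LTRing p n}
    (hx : x ∈ (𝔪) ^ c) : φ x ∈ (𝔪) ^ c := by
  have h1 : Ideal.map φ 𝔪 ≤ 𝔪 := by
    rw [Ideal.map_le_iff_le_comap]
    intro a ha
    rw [Ideal.mem_comap, ← Crest.Agent.LT.residue_ker, RingHom.mem_ker]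
    rw [← Crest.Agent.LT.residue_ker, RingHom.mem_ker] at ha
    have := congrArg (fun f => f a) hφ
    simp only [RingHom.comp_apply] at this
    rw [this, ha]
  have h2 : Ideal.map φ ((𝔪) ^ c) ≤ (𝔪) ^ c := by
    rw [Ideal.map_pow]
    exact Ideal.pow_right_mono h1 c
  exact h2 (Ideal.mem_map_of_mem φ hx)

/-- Everything known at the finite level: the limit of homomorphisms into `B = E₀ / 𝔪 ^ c`.  From a
sequence of stabilizer data with `g_M → X` one extracts an infinite set on which `π ∘ φ_M` equals
`π`, and a limit `θ*`. -/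
theorem exists_limit_data (Γ : FormalGroup (GaloisField p n)) (H : FormalGroup (LTRing p n))
    (hH : IsUniversalDeformation p n Γ H) {c : ℕ} (hc : c ≠ 0)
    (g : ℕ → PowerSeries (GaloisField p n))
    (φ : ℕ → (LTRing p n →ₐ[WittVector p (GaloisField p n)] LTRing p n))
    (θ : ℕ → PowerSeries (LTRing p n))
    (hg : ∀ M, ∀ i < M, PowerSeries.coeff i (g M) = PowerSeries.coeff i PowerSeries.X)
    (hres : ∀ M, (LTRing.residue p n).comp (φ M).toRingHom = LTRing.residue p n)
    (hθ1 : ∀ M, IsFGHom (H.map (φ M).toRingHom) H (θ M))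
    (hθ2 : ∀ M, PowerSeries.map (LTRing.residue p n) (θ M) = g M) :
    ∃ (S : Set ℕ) (θs : ℕ → QB p n c), S.Infinite ∧
      (∀ M ∈ S, (piB p n c).comp (φ M) = piB p n c) ∧
      (∀ D : ℕ, {M | M ∈ S ∧ ∀ i < D, PowerSeries.coeff i (PowerSeries.map (piB p n c).toRingHom (θ M))
        = θs i}.Infinite) ∧
      IsFGHom (H.map (piB p n c).toRingHom) (H.map (piB p n c).toRingHom) (PowerSeries.mk θs) ∧
      PowerSeries.map (rB hc) (PowerSeries.mk θs) = PowerSeries.X := by
  classical
  letI := QB_local (p := p) (n := n) hc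
  haveI := QB_finite (p := p) (n := n) c
  -- pigeonhole on the action on the finite ring
  let t : ℕ → (QB p n c → QB p n c) := fun M b => piB p n c (φ M (Quotient.out b))
  obtain ⟨t0, ht0⟩ := Finite.exists_infinite_fiber t
  let S : Set ℕ := t ⁻¹' {t0}
  have hS : S.Infinite := Set.infinite_coe_iff.1 ht0
  -- factorisation through the quotient
  have hfac : ∀ M x, piB p n c (φ M x) = t M (piB p n c x) := by
    intro M x
    have h1 : x - Quotient.out (piB p n c x) ∈ (𝔪) ^ c := by
      rw [← Ideal.Quotient.eq]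
      have h2 : Ideal.Quotient.mk ((𝔪) ^ c) (Quotient.out (piB p n c x)) = piB p n c x := by
        exact Quotient.out_eq _
      rw [h2]
      rfl
    have h3 := map_mem_pow_of_residue (hres M) c h1
    have h4 : piB p n c (φ M (x - Quotient.out (piB p n c x))) = 0 :=
      Ideal.Quotient.eq_zero_iff_mem.2 h3
    have h5 : (φ M) (x - Quotient.out (piB p n c x)) = φ M x - φ M (Quotient.out (piB p n c x)) :=
      map_sub _ _ _
    rw [h5, map_sub, sub_eq_zero] at h4
    exact h4
  obtain ⟨M0, hM0⟩ := hS.nonempty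
  have hψ : ∀ M ∈ S, (piB p n c).comp (φ M) = (piB p n c).comp (φ M0) := by
    intro M hM
    refine AlgHom.ext fun x => ?_
    change piB p n c (φ M x) = piB p n c (φ M0 x)
    rw [hfac, hfac]
    have h1 : t M = t0 := hM
    have h2 : t M0 = t0 := hM0
    rw [h1, h2]
  -- the limit series
  let f : ℕ → ℕ → QB p n c := fun M i =>
    PowerSeries.coeff i (PowerSeries.map (piB p n c).toRingHom (θ M))
  obtain ⟨θs, hθs⟩ := koenig S hS f
  let ψ : LTRing p n →ₐ[WittVector p (GaloisField p n)] QB p n c := (piB p n c).comp (φ M0)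
  have hhom : ∀ M ∈ S, IsFGHom (H.map ψ.toRingHom) (H.map (piB p n c).toRingHom)
      (PowerSeries.map (piB p n c).toRingHom (θ M)) := by
    intro M hM
    have h1 := IsFGHom_map (piB p n c).toRingHom (hθ1 M)
    rw [FormalGroup_map_map] at h1
    have h2 : (piB p n c).toRingHom.comp (φ M).toRingHom = ψ.toRingHom := by
      have := hψ M hM
      ext1 x
      exact congrArg (fun F => F x) this
    rwa [h2] at h1
  have hcoef0 : PowerSeries.constantCoeff (PowerSeries.mk θs) = 0 := by
    obtain ⟨M, hM⟩ := (hθs 1).nonempty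
    have h1 := hM.2 0 (by omega)
    have h2 := (hhom M hM.1).1
    rw [← PowerSeries.coeff_zero_eq_constantCoeff_apply, PowerSeries.coeff_mk, ← h1]
    change PowerSeries.coeff 0 (PowerSeries.map (piB p n c).toRingHom (θ M)) = 0
    rw [PowerSeries.coeff_zero_eq_constantCoeff_apply]
    exact h2
  have hlim : IsFGHom (H.map ψ.toRingHom) (H.map (piB p n c).toRingHom) (PowerSeries.mk θs) := by
    refine isFGHom_of_approx _ _ _ hcoef0 fun D => ?_
    obtain ⟨M, hM⟩ := (hθs (D + 1)).nonempty
    refine ⟨_, hhom M hM.1, fun i hi => ?_⟩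
    rw [PowerSeries.coeff_mk]
    exact hM.2 i (by omega)
  have hmapX : PowerSeries.map (rB hc) (PowerSeries.mk θs) = PowerSeries.X := by
    ext i
    rw [PowerSeries.coeff_map, PowerSeries.coeff_mk]
    obtain ⟨M, hM, hMi⟩ := (hθs (i + 1)).exists_gt i
    have h1 := hM.2 i (by omega)
    rw [← h1]
    have h2 := hg M i hMi
    rw [← h2, ← hθ2 M, PowerSeries.coeff_map]
    change rB hc (PowerSeries.coeff i (PowerSeries.map (piB p n c).toRingHom (θ M))) = _
    rw [PowerSeries.coeff_map]
    rfl
  have hresψ : (rB hc).comp ψ.toRingHom = LTRing.residue p n := by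
    ext1 x
    have := congrArg (fun F => F x) (hres M0)
    exact this
  have hG : (H.map (piB p n c).toRingHom).map (rB hc) = Γ := by
    rw [FormalGroup_map_map, rB_comp]
    exact hH.1
  have huniq := (hH.2 (QB p n c) (QB_complete hc) (rB hc) (rB_surjective hc) (rB_ker hc) (rB_alg hc)
    (H.map (piB p n c).toRingHom) hG).unique
    (y₁ := ψ) (y₂ := piB p n c)
    ⟨hresψ, PowerSeries.mk θs, hlim, hmapX⟩
    ⟨rB_comp hc, PowerSeries.X, isFGHom_X _, by simp⟩
  refine ⟨S, θs, hS, ?_, hθs, ?_, hmapX⟩
  · intro M hM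
    rw [hψ M hM]
    exact huniq
  · have h2 : ψ.toRingHom = (piB p n c).toRingHom := by rw [huniq]
    rwa [h2] at hlim

/-- **Continuity of the action** (0e). -/
theorem hcont (Γ : FormalGroup (GaloisField p n)) (H : FormalGroup (LTRing p n))
    (hH : IsUniversalDeformation p n Γ H) (c : ℕ) :
    ∃ M : ℕ, ∀ (g : PowerSeries (GaloisField p n))
      (φ : LTRing p n →ₐ[WittVector p (GaloisField p n)] LTRing p n),
      (∀ i < M, PowerSeries.coeff i g = PowerSeries.coeff i PowerSeries.X) →
      IsStabilizerMap p n H g φ → ∀ a, φ a - a ∈ (𝔪) ^ c := by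
  by_cases hc : c = 0
  · subst hc
    exact ⟨0, fun _ _ _ _ a => by simp⟩
  by_contra hcon
  push Not at hcon
  choose g φ hg hφ a ha using hcon
  choose θ hθ1 hθ2 using fun M => (hφ M).2
  obtain ⟨S, θs, hS, hfix, -, -, -⟩ :=
    exists_limit_data Γ H hH hc g φ θ hg (fun M => (hφ M).1) hθ1 hθ2
  obtain ⟨M, hM⟩ := hS.nonempty
  apply ha M
  have := congrArg (fun F => F (a M)) (hfix M hM)
  exact Ideal.Quotient.eq.1 this

end Continuity

end Crest.Agent.LT.Cont
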