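import Mathlib
import Crest.Prelude.Def_LubinTate

/-!
# Basic algebra of one-dimensional formal group laws

* `fadd F x y = F(x, y)` for series `x y` in any set of variables with zero constant term;
* `ordIdeal τ R d`: series all of whose coefficients of total degree `< d` vanish;
* `cross F`: the series `Q` with `F = X₀ + X₁ + X₀ X₁ Q`;
* homomorphisms: apply on points, composition, inverse, map;
* `conj F φ hc hu`: the law `φ F(φ⁻¹ X₀, φ⁻¹ X₁)`;
* the `m`-series API.
-/

set_option autoImplicit false

open Crest.LubinTate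

namespace Crest.Agent.LT

variable {R : Type*} [CommRing R] {S : Type*} [CommRing S] {σ τ υ : Type*}

/-! ### The order filtration -/

/-- Series all of whose coefficients of total degree `< d` vanish. -/
def ordIdeal (τ R : Type*) [CommRing R] (d : ℕ) : Ideal (MvPowerSeries τ R) where
  carrier := {f | ∀ e : τ →₀ ℕ, e.degree < d → MvPowerSeries.coeff e f = 0}
  add_mem' := by
    intro a b ha hb e he
    simp [ha e he, hb e he]
  zero_mem' := by intro e _; simp
  smul_mem' := by
    classical
    intro c f hf e he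
    rw [smul_eq_mul, MvPowerSeries.coeff_mul]
    refine Finset.sum_eq_zero fun p hp => ?_
    have h1 : p.1 + p.2 = e := Finset.HasAntidiagonal.mem_antidiagonal.mp hp
    have h2 : p.2.degree < d := by
      have : p.1.degree + p.2.degree = e.degree := by rw [← map_add, h1]
      omega
    rw [hf _ h2, mul_zero]

theorem mem_ordIdeal {d : ℕ} {f : MvPowerSeries τ R} :
    f ∈ ordIdeal τ R d ↔ ∀ e : τ →₀ ℕ, e.degree < d → MvPowerSeries.coeff e f = 0 := Iff.rfl

theorem ordIdeal_mono {a b : ℕ} (h : a ≤ b) : ordIdeal τ R b ≤ ordIdeal τ R a :=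
  fun _ hf e he => hf e (lt_of_lt_of_le he h)

theorem mul_mem_ordIdeal {a b : ℕ} {f g : MvPowerSeries τ R} (hf : f ∈ ordIdeal τ R a)
    (hg : g ∈ ordIdeal τ R b) : f * g ∈ ordIdeal τ R (a + b) := by
  classical
  intro e he
  rw [MvPowerSeries.coeff_mul]
  refine Finset.sum_eq_zero fun p hp => ?_
  have h1 : p.1 + p.2 = e := Finset.HasAntidiagonal.mem_antidiagonal.mp hp
  have h3 : p.1.degree + p.2.degree = e.degree := by rw [← map_add, h1]
  by_cases h : p.1.degree < a
  · rw [hf _ h, zero_mul]
  · rw [hg _ (by omega), mul_zero]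

theorem pow_mem_ordIdeal {a : ℕ} {f : MvPowerSeries τ R} (hf : f ∈ ordIdeal τ R a) (n : ℕ) :
    f ^ n ∈ ordIdeal τ R (a * n) := by
  induction n with
  | zero => intro e he; omega
  | succ n ih =>
    rw [pow_succ, Nat.mul_succ]
    exact mul_mem_ordIdeal ih hf

theorem mem_ordIdeal_one {f : MvPowerSeries τ R} :
    f ∈ ordIdeal τ R 1 ↔ MvPowerSeries.constantCoeff f = 0 := by
  constructor
  · intro h
    have := h 0 (by simp)
    simpa using this
  · intro h e he
    have : e = 0 := (Finsupp.degree_eq_zero_iff e).mp (by omega)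
    subst this
    simpa using h

theorem X_mem_ordIdeal_one (s : τ) : (MvPowerSeries.X s : MvPowerSeries τ R) ∈ ordIdeal τ R 1 := by
  rw [mem_ordIdeal_one]; simp

theorem mem_ordIdeal_zero (f : MvPowerSeries τ R) : f ∈ ordIdeal τ R 0 := by
  intro e he; omega

theorem mem_ordIdeal_zero' {d : ℕ} : (0 : MvPowerSeries τ R) ∈ ordIdeal τ R d := zero_mem _

theorem mem_ordIdeal_iff_coeff {d : ℕ} {f : PowerSeries R} :
    f ∈ ordIdeal Unit R d ↔ ∀ n < d, PowerSeries.coeff n f = 0 := by
  constructor
  · intro h n hn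
    exact h (Finsupp.single () n) (by simpa using hn)
  · intro h e he
    have h1 : e = Finsupp.single () (e ()) := by
      ext; simp
    have h2 : e.degree = e () := by
      rw [h1]; simp
    rw [h1]
    exact h _ (by omega)

/-- A product `∏ a_s ^ d_s` has order at least `b * deg d` when all `a_s` have order `b`. -/
theorem finsuppProd_mem_ordIdeal {a : σ → MvPowerSeries τ R} {b : ℕ}
    (ha : ∀ s, a s ∈ ordIdeal τ R b) (d : σ →₀ ℕ) :
    (d.prod fun s k => a s ^ k) ∈ ordIdeal τ R (b * d.degree) := by
  classical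
  have key : ∀ T : Finset σ, (∏ s ∈ T, a s ^ d s) ∈ ordIdeal τ R (b * ∑ s ∈ T, d s) := by
    intro T
    induction T using Finset.induction_on with
    | empty => intro e he; simp at he
    | insert s T hs ih =>
      rw [Finset.prod_insert hs, Finset.sum_insert hs, Nat.mul_add]
      exact mul_mem_ordIdeal (pow_mem_ordIdeal (ha s) _) ih
  exact key d.support

/-- Substitution preserves the filtration. -/
theorem subst_mem_ordIdeal {a : σ → MvPowerSeries τ R} (has : MvPowerSeries.HasSubst a) {b c : ℕ}
    (ha : ∀ s, a s ∈ ordIdeal τ R b) {Q : MvPowerSeries σ R} (hQ : Q ∈ ordIdeal σ R c) :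
    MvPowerSeries.subst a Q ∈ ordIdeal τ R (b * c) := by
  intro e he
  rw [MvPowerSeries.coeff_subst has]
  refine finsum_eq_zero_of_forall_eq_zero fun d => ?_
  by_cases hd : d.degree < c
  · rw [hQ d hd, zero_smul]
  · have h2 : e.degree < b * d.degree :=
      lt_of_lt_of_le he (Nat.mul_le_mul_left b (not_lt.mp hd))
    rw [finsuppProd_mem_ordIdeal ha d e h2, smul_zero]

/-- Substitution is Lipschitz for the filtration. -/
theorem subst_sub_subst_mem_ordIdeal {a a' : σ → MvPowerSeries τ R} (has : MvPowerSeries.HasSubst a)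
    (has' : MvPowerSeries.HasSubst a') {k : ℕ} (h : ∀ s, a s - a' s ∈ ordIdeal τ R k)
    (Q : MvPowerSeries σ R) :
    MvPowerSeries.subst a Q - MvPowerSeries.subst a' Q ∈ ordIdeal τ R k := by
  classical
  intro e he
  rw [map_sub, MvPowerSeries.coeff_subst has, MvPowerSeries.coeff_subst has',
    ← finsum_sub_distrib (MvPowerSeries.coeff_subst_finite has Q e)
      (MvPowerSeries.coeff_subst_finite has' Q e)]
  refine finsum_eq_zero_of_forall_eq_zero fun d => ?_
  rw [← smul_sub, ← map_sub]
  have hq : (d.prod fun s j => a s ^ j) - (d.prod fun s j => a' s ^ j) ∈ ordIdeal τ R k := by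
    rw [← Ideal.Quotient.eq, map_finsuppProd, map_finsuppProd]
    refine Finset.prod_congr rfl fun s _ => ?_
    show (Ideal.Quotient.mk (ordIdeal τ R k)) (a s ^ d s) = (Ideal.Quotient.mk (ordIdeal τ R k)) (a' s ^ d s)
    rw [map_pow, map_pow, Ideal.Quotient.eq.mpr (h s)]
  rw [hq e he, smul_zero]

/-! ### Pairs -/

/-- `F(x, y)`. -/
noncomputable def fadd (F : MvPowerSeries (Fin 2) R) (x y : MvPowerSeries τ R) : MvPowerSeries τ R :=
  F.subst ![x, y]

theorem hasSubst_pair {x y : MvPowerSeries τ R}
    (hx : MvPowerSeries.constantCoeff x = 0) (hy : MvPowerSeries.constantCoeff y = 0) :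
    MvPowerSeries.HasSubst ![x, y] :=
  MvPowerSeries.hasSubst_of_constantCoeff_zero (by intro s; fin_cases s <;> simpa)

theorem hasSubst_one {x : MvPowerSeries τ R} (hx : MvPowerSeries.constantCoeff x = 0) :
    PowerSeries.HasSubst x := PowerSeries.HasSubst.of_constantCoeff_zero hx

theorem constantCoeff_fadd (F : FormalGroup R) {x y : MvPowerSeries τ R}
    (hx : MvPowerSeries.constantCoeff x = 0) (hy : MvPowerSeries.constantCoeff y = 0) :
    MvPowerSeries.constantCoeff (fadd F.toPowerSeries x y) = 0 :=
  MvPowerSeries.constantCoeff_subst_eq_zero (hasSubst_pair hx hy)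
    (by intro s; fin_cases s <;> simpa) F.zero_constantCoeff

theorem constantCoeff_PX : MvPowerSeries.constantCoeff (PowerSeries.X : PowerSeries R) = 0 :=
  PowerSeries.constantCoeff_X

theorem constantCoeff_psubst {x : MvPowerSeries τ R} (hx : MvPowerSeries.constantCoeff x = 0)
    {φ : PowerSeries R} (hφ : PowerSeries.constantCoeff φ = 0) :
    MvPowerSeries.constantCoeff (PowerSeries.subst x φ) = 0 :=
  PowerSeries.constantCoeff_subst_eq_zero hx φ hφ

/-- Substitution commutes with `fadd`. -/
theorem subst_fadd (F : MvPowerSeries (Fin 2) R) {x y : MvPowerSeries τ R}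
    (hx : MvPowerSeries.constantCoeff x = 0) (hy : MvPowerSeries.constantCoeff y = 0)
    {a : τ → MvPowerSeries υ R} (ha : MvPowerSeries.HasSubst a) :
    MvPowerSeries.subst a (fadd F x y) =
      fadd F (MvPowerSeries.subst a x) (MvPowerSeries.subst a y) := by
  unfold fadd
  rw [MvPowerSeries.subst_comp_subst_apply (hasSubst_pair hx hy) ha]
  congr 1
  ext s
  fin_cases s <;> rfl

/-- Substitution commutes with composition in one variable. -/
theorem subst_psubst {x : MvPowerSeries τ R} (hx : MvPowerSeries.constantCoeff x = 0)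
    {a : τ → MvPowerSeries υ R} (ha : MvPowerSeries.HasSubst a) (φ : PowerSeries R) :
    MvPowerSeries.subst a (PowerSeries.subst x φ) =
      PowerSeries.subst (MvPowerSeries.subst a x) φ := by
  rw [PowerSeries.subst_def, PowerSeries.subst_def,
    MvPowerSeries.subst_comp_subst_apply (hasSubst_one hx).const ha]

/-- One-variable substitution commutes with `fadd`. -/
theorem psubst_fadd (F : MvPowerSeries (Fin 2) R) {x y : PowerSeries R}
    (hx : PowerSeries.constantCoeff x = 0) (hy : PowerSeries.constantCoeff y = 0)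
    {a : MvPowerSeries υ R} (ha : MvPowerSeries.constantCoeff a = 0) :
    PowerSeries.subst a (fadd F x y) =
      fadd F (PowerSeries.subst a x) (PowerSeries.subst a y) := by
  rw [PowerSeries.subst_def, subst_fadd F hx hy (hasSubst_one ha).const]
  rfl

theorem psubst_psubst {x : PowerSeries R} (hx : PowerSeries.constantCoeff x = 0)
    {a : MvPowerSeries υ R} (ha : MvPowerSeries.constantCoeff a = 0) (φ : PowerSeries R) :
    PowerSeries.subst a (PowerSeries.subst x φ) = PowerSeries.subst (PowerSeries.subst a x) φ :=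
  PowerSeries.subst_comp_subst_apply (hasSubst_one hx) (hasSubst_one ha) φ

theorem fadd_subst_X_X (F : MvPowerSeries (Fin 2) R) :
    fadd F (MvPowerSeries.X 0 : MvPowerSeries (Fin 2) R) (MvPowerSeries.X 1) = F := by
  have : ![(MvPowerSeries.X 0 : MvPowerSeries (Fin 2) R), MvPowerSeries.X 1] = MvPowerSeries.X := by
    ext s; fin_cases s <;> rfl
  unfold fadd
  rw [this, MvPowerSeries.subst_self]
  rfl

theorem subst_pair_X0 {x y : MvPowerSeries τ R} (h : MvPowerSeries.HasSubst ![x, y]) :
    MvPowerSeries.subst ![x, y] (MvPowerSeries.X 0 : MvPowerSeries (Fin 2) R) = x := by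
  rw [MvPowerSeries.subst_X h]; rfl

theorem subst_pair_X1 {x y : MvPowerSeries τ R} (h : MvPowerSeries.HasSubst ![x, y]) :
    MvPowerSeries.subst ![x, y] (MvPowerSeries.X 1 : MvPowerSeries (Fin 2) R) = y := by
  rw [MvPowerSeries.subst_X h]; rfl

/-! ### Decomposition `F = X₀ + X₁ + X₀ X₁ Q` -/

/-- `F(X, 0)`'s coefficients are the pure `X₀` coefficients of `F`. -/
theorem coeff_subst_X_zero (F : MvPowerSeries (Fin 2) R) (k : ℕ) :
    PowerSeries.coeff k (F.subst ![PowerSeries.X, 0] : PowerSeries R) =
      MvPowerSeries.coeff (Finsupp.single 0 k) F := by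
  classical
  have hs : MvPowerSeries.HasSubst (![PowerSeries.X, 0] : Fin 2 → PowerSeries R) :=
    MvPowerSeries.HasSubst.X_zero
  rw [PowerSeries.coeff, MvPowerSeries.coeff_subst hs, finsum_eq_single _ (Finsupp.single 0 k)]
  · rw [Finsupp.prod_fintype _ _ (by simp)]
    simp [Fin.prod_univ_two, smul_eq_mul]
  · intro d hd
    rw [Finsupp.prod_fintype _ _ (by simp), Fin.prod_univ_two]
    by_cases h1 : d 1 = 0
    · have h0 : d 0 ≠ k := by
        intro h0
        apply hd
        ext i
        fin_cases i
        · simp [h0]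
        · simp [h1]
      simp only [Matrix.cons_val_zero, Matrix.cons_val_one, h1, pow_zero, mul_one, smul_eq_mul]
      rw [show (MvPowerSeries.coeff (Finsupp.single () k)) ((PowerSeries.X : PowerSeries R) ^ d 0)
        = PowerSeries.coeff k ((PowerSeries.X : PowerSeries R) ^ d 0) from rfl,
        PowerSeries.coeff_X_pow, if_neg (Ne.symm h0), mul_zero]
    · simp [h1]

/-- `F(0, X)`'s coefficients are the pure `X₁` coefficients of `F`. -/
theorem coeff_subst_zero_X (F : MvPowerSeries (Fin 2) R) (k : ℕ) :
    PowerSeries.coeff k (F.subst ![0, PowerSeries.X] : PowerSeries R) =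
      MvPowerSeries.coeff (Finsupp.single 1 k) F := by
  classical
  have hs : MvPowerSeries.HasSubst (![0, PowerSeries.X] : Fin 2 → PowerSeries R) :=
    MvPowerSeries.HasSubst.zero_X
  rw [PowerSeries.coeff, MvPowerSeries.coeff_subst hs, finsum_eq_single _ (Finsupp.single 1 k)]
  · rw [Finsupp.prod_fintype _ _ (by simp)]
    simp [Fin.prod_univ_two, smul_eq_mul]
  · intro d hd
    rw [Finsupp.prod_fintype _ _ (by simp), Fin.prod_univ_two]
    by_cases h1 : d 0 = 0
    · have h0 : d 1 ≠ k := by
        intro h0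
        apply hd
        ext i
        fin_cases i
        · simp [h1]
        · simp [h0]
      simp only [Matrix.cons_val_zero, Matrix.cons_val_one, h1, pow_zero, one_mul, smul_eq_mul]
      rw [show (MvPowerSeries.coeff (Finsupp.single () k)) ((PowerSeries.X : PowerSeries R) ^ d 1)
        = PowerSeries.coeff k ((PowerSeries.X : PowerSeries R) ^ d 1) from rfl,
        PowerSeries.coeff_X_pow, if_neg (Ne.symm h0), mul_zero]
    · simp [h1]

/-- The pure `X₀` coefficients of a law. -/
theorem coeff_single_zero (F : FormalGroup R) (k : ℕ) :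
    MvPowerSeries.coeff (Finsupp.single 0 k) F.toPowerSeries = if k = 1 then 1 else 0 := by
  rw [← coeff_subst_X_zero]
  have := F.Xzero_eq_X
  unfold FormalGroup.Xzero at this
  rw [this, PowerSeries.coeff_X]

/-- The pure `X₁` coefficients of a law. -/
theorem coeff_single_one (F : FormalGroup R) (k : ℕ) :
    MvPowerSeries.coeff (Finsupp.single 1 k) F.toPowerSeries = if k = 1 then 1 else 0 := by
  rw [← coeff_subst_zero_X]
  have := F.zeroX_eq_X
  unfold FormalGroup.zeroX at this
  rw [this, PowerSeries.coeff_X]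

/-- The series `Q` with `F = X₀ + X₁ + X₀ X₁ Q`. -/
noncomputable def cross (F : MvPowerSeries (Fin 2) R) : MvPowerSeries (Fin 2) R :=
  fun e => MvPowerSeries.coeff (e + Finsupp.single 0 1 + Finsupp.single 1 1) F

theorem coeff_cross (F : MvPowerSeries (Fin 2) R) (e : Fin 2 →₀ ℕ) :
    MvPowerSeries.coeff e (cross F) =
      MvPowerSeries.coeff (e + Finsupp.single 0 1 + Finsupp.single 1 1) F := rfl

theorem law_eq_cross (F : FormalGroup R) :
    F.toPowerSeries = MvPowerSeries.X 0 + MvPowerSeries.X 1 +
      MvPowerSeries.X 0 * MvPowerSeries.X 1 * cross F.toPowerSeries := by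
  classical
  have hXX : (MvPowerSeries.X 0 * MvPowerSeries.X 1 : MvPowerSeries (Fin 2) R) =
      MvPowerSeries.monomial (Finsupp.single 0 1 + Finsupp.single 1 1) 1 := by
    rw [MvPowerSeries.X_def, MvPowerSeries.X_def, MvPowerSeries.monomial_mul_monomial, one_mul]
  ext e
  rw [map_add, map_add, hXX, MvPowerSeries.coeff_monomial_mul, MvPowerSeries.coeff_X,
    MvPowerSeries.coeff_X]
  have hle : (Finsupp.single (0 : Fin 2) 1 + Finsupp.single 1 1 ≤ e) ↔ (1 ≤ e 0 ∧ 1 ≤ e 1) := by
    constructor
    · intro h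
      exact ⟨by simpa using h 0, by simpa using h 1⟩
    · rintro ⟨a, b⟩ i
      fin_cases i <;> simpa
  by_cases h0 : e 0 = 0
  · have h2 : ¬ (Finsupp.single (0 : Fin 2) 1 + Finsupp.single 1 1 ≤ e) := by
      rw [hle]; omega
    have h3 : e ≠ Finsupp.single 0 1 := by
      intro h; rw [h] at h0; simp at h0
    obtain ⟨k, rfl⟩ : ∃ k, e = Finsupp.single 1 k := ⟨e 1, by ext i; fin_cases i <;> simp [h0]⟩
    rw [if_neg h2, add_zero, if_neg h3, zero_add, coeff_single_one]
    by_cases h4 : k = 1
    · simp [h4]
    · have h5 : Finsupp.single (1 : Fin 2) k ≠ Finsupp.single 1 1 := by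
        intro h
        apply h4
        simpa using DFunLike.congr_fun h 1
      rw [if_neg h4, if_neg h5]
  · by_cases h1 : e 1 = 0
    · have h2 : ¬ (Finsupp.single (0 : Fin 2) 1 + Finsupp.single 1 1 ≤ e) := by
        rw [hle]; omega
      have h3 : e ≠ Finsupp.single 1 1 := by
        intro h; rw [h] at h1; simp at h1
      obtain ⟨k, rfl⟩ : ∃ k, e = Finsupp.single 0 k := ⟨e 0, by ext i; fin_cases i <;> simp [h1]⟩
      rw [if_neg h2, add_zero, if_neg h3, add_zero, coeff_single_zero]
      by_cases h4 : k = 1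
      · simp [h4]
      · have h5 : Finsupp.single (0 : Fin 2) k ≠ Finsupp.single 0 1 := by
          intro h
          apply h4
          simpa using DFunLike.congr_fun h 0
        rw [if_neg h4, if_neg h5]
    · have h2 : (Finsupp.single (0 : Fin 2) 1 + Finsupp.single 1 1 ≤ e) := by
        rw [hle]; omega
      have h3 : e ≠ Finsupp.single 0 1 := by
        intro h; rw [h] at h1; simp at h1
      have h4 : e ≠ Finsupp.single 1 1 := by
        intro h; rw [h] at h0; simp at h0
      rw [if_pos h2, if_neg h3, if_neg h4, coeff_cross, zero_add, zero_add, one_mul, add_assoc,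
        tsub_add_cancel_of_le h2]

/-- `F(x, y) = x + y + x y Q(x, y)`. -/
theorem fadd_eq_cross (F : FormalGroup R) {x y : MvPowerSeries τ R}
    (hx : MvPowerSeries.constantCoeff x = 0) (hy : MvPowerSeries.constantCoeff y = 0) :
    fadd F.toPowerSeries x y = x + y + x * y * fadd (cross F.toPowerSeries) x y := by
  have h := hasSubst_pair hx hy
  have h2 : fadd F.toPowerSeries x y = MvPowerSeries.subst ![x, y] (MvPowerSeries.X 0 +
      MvPowerSeries.X 1 + MvPowerSeries.X 0 * MvPowerSeries.X 1 * cross F.toPowerSeries) :=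
    congrArg _ (law_eq_cross F)
  rw [h2, MvPowerSeries.subst_add h, MvPowerSeries.subst_add h,
    MvPowerSeries.subst_mul h, MvPowerSeries.subst_mul h, subst_pair_X0 h, subst_pair_X1 h]
  rfl

/-- Near-additivity: `F(x, y) - x - y` has order at least `a + b`. -/
theorem fadd_sub_mem_ordIdeal (F : FormalGroup R) {x y : MvPowerSeries τ R} {a b : ℕ}
    (hx : MvPowerSeries.constantCoeff x = 0) (hy : MvPowerSeries.constantCoeff y = 0)
    (hxa : x ∈ ordIdeal τ R a) (hyb : y ∈ ordIdeal τ R b) :
    fadd F.toPowerSeries x y - x - y ∈ ordIdeal τ R (a + b) := by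
  rw [fadd_eq_cross F hx hy]
  have : x + y + x * y * fadd (cross F.toPowerSeries) x y - x - y =
      (x * y) * fadd (cross F.toPowerSeries) x y := by ring
  rw [this]
  exact Ideal.mul_mem_right _ _ (mul_mem_ordIdeal hxa hyb)

/-- `F(x + u, y) - F(x, y) - u` has order one more than `u`. -/
theorem fadd_add_left_mem_ordIdeal (F : FormalGroup R) {x y u : MvPowerSeries τ R} {d : ℕ}
    (hx : MvPowerSeries.constantCoeff x = 0) (hy : MvPowerSeries.constantCoeff y = 0)
    (hu : MvPowerSeries.constantCoeff u = 0) (hud : u ∈ ordIdeal τ R d) :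
    fadd F.toPowerSeries (x + u) y - fadd F.toPowerSeries x y - u ∈ ordIdeal τ R (d + 1) := by
  have hxu : MvPowerSeries.constantCoeff (x + u) = 0 := by simp [hx, hu]
  rw [fadd_eq_cross F hxu hy, fadd_eq_cross F hx hy]
  set Q := cross F.toPowerSeries
  have hd : fadd Q (x + u) y - fadd Q x y ∈ ordIdeal τ R d := by
    refine subst_sub_subst_mem_ordIdeal (hasSubst_pair hxu hy) (hasSubst_pair hx hy) ?_ Q
    intro s
    fin_cases s
    · simpa using hud
    · simp
  have : x + u + y + (x + u) * y * fadd Q (x + u) y - (x + y + x * y * fadd Q x y) - u =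
      u * y * fadd Q (x + u) y + x * y * (fadd Q (x + u) y - fadd Q x y) := by ring
  rw [this]
  refine add_mem ?_ ?_
  · have := mul_mem_ordIdeal hud (mem_ordIdeal_one.mpr hy)
    exact Ideal.mul_mem_right _ _ this
  · have h1 := mul_mem_ordIdeal (mem_ordIdeal_one.mpr (show MvPowerSeries.constantCoeff (x * y) = 0 by simp [hx])) hd
    rw [add_comm] at h1
    exact h1

/-! ### Homomorphisms -/

section Hom

variable {F G K : FormalGroup R} {φ ψ : PowerSeries R}

theorem hom_apply (h : IsFGHom F G φ) {x y : MvPowerSeries τ R}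
    (hx : MvPowerSeries.constantCoeff x = 0) (hy : MvPowerSeries.constantCoeff y = 0) :
    PowerSeries.subst (fadd F.toPowerSeries x y) φ =
      fadd G.toPowerSeries (PowerSeries.subst x φ) (PowerSeries.subst y φ) := by
  have hp := hasSubst_pair hx hy
  have h2 := congrArg (MvPowerSeries.subst ![x, y]) h.2
  have hX0 : MvPowerSeries.constantCoeff (MvPowerSeries.X 0 : MvPowerSeries (Fin 2) R) = 0 := by simp
  have hX1 : MvPowerSeries.constantCoeff (MvPowerSeries.X 1 : MvPowerSeries (Fin 2) R) = 0 := by simp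
  have h3 : MvPowerSeries.subst ![x, y]
      (G.toPowerSeries.subst ![PowerSeries.subst (MvPowerSeries.X 0 : MvPowerSeries (Fin 2) R) φ,
        PowerSeries.subst (MvPowerSeries.X 1 : MvPowerSeries (Fin 2) R) φ]) =
      fadd G.toPowerSeries (PowerSeries.subst x φ) (PowerSeries.subst y φ) := by
    have := subst_fadd G.toPowerSeries (constantCoeff_psubst hX0 h.1) (constantCoeff_psubst hX1 h.1) hp
    unfold fadd at this
    rw [this, subst_psubst hX0 hp, subst_psubst hX1 hp, subst_pair_X0 hp, subst_pair_X1 hp]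
    rfl
  rw [h3, subst_psubst F.zero_constantCoeff hp] at h2
  exact h2

theorem hom_comp (h : IsFGHom F G φ) (h' : IsFGHom G K ψ) :
    IsFGHom F K (PowerSeries.subst φ ψ) := by
  refine ⟨constantCoeff_psubst h.1 h'.1, ?_⟩
  have hX0 : MvPowerSeries.constantCoeff (MvPowerSeries.X 0 : MvPowerSeries (Fin 2) R) = 0 := by simp
  have hX1 : MvPowerSeries.constantCoeff (MvPowerSeries.X 1 : MvPowerSeries (Fin 2) R) = 0 := by simp
  rw [psubst_psubst h.1 F.zero_constantCoeff, h.2,
    psubst_psubst h.1 hX0, psubst_psubst h.1 hX1]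
  exact hom_apply h' (constantCoeff_psubst hX0 h.1) (constantCoeff_psubst hX1 h.1)

theorem isFGHom_X (F : FormalGroup R) : IsFGHom F F PowerSeries.X := by
  refine ⟨by simp, ?_⟩
  have hX0 : MvPowerSeries.constantCoeff (MvPowerSeries.X 0 : MvPowerSeries (Fin 2) R) = 0 := by simp
  have hX1 : MvPowerSeries.constantCoeff (MvPowerSeries.X 1 : MvPowerSeries (Fin 2) R) = 0 := by simp
  rw [PowerSeries.subst_X (hasSubst_one F.zero_constantCoeff), PowerSeries.subst_X (hasSubst_one hX0),
    PowerSeries.subst_X (hasSubst_one hX1)]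
  exact (fadd_subst_X_X _).symm

/-- The compositional inverse of a unit-linear homomorphism. -/
noncomputable abbrev pinv (φ : PowerSeries R) (hu : IsUnit (PowerSeries.coeff 1 φ)) : PowerSeries R :=
  φ.substInvOfIsUnit hu

theorem constantCoeff_pinv (hu : IsUnit (PowerSeries.coeff 1 φ)) :
    PowerSeries.constantCoeff (pinv φ hu) = 0 := PowerSeries.constantCoeff_substInvOfIsUnit φ hu

theorem pinv_psubst (hc : PowerSeries.constantCoeff φ = 0) (hu : IsUnit (PowerSeries.coeff 1 φ))
    {x : MvPowerSeries τ R} (hx : MvPowerSeries.constantCoeff x = 0) :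
    PowerSeries.subst (PowerSeries.subst x φ) (pinv φ hu) = x := by
  rw [← psubst_psubst hc hx, PowerSeries.subst_substInvOfIsUnit_left φ hc hu,
    PowerSeries.subst_X (hasSubst_one hx)]

theorem psubst_pinv (hc : PowerSeries.constantCoeff φ = 0) (hu : IsUnit (PowerSeries.coeff 1 φ))
    {x : MvPowerSeries τ R} (hx : MvPowerSeries.constantCoeff x = 0) :
    PowerSeries.subst (PowerSeries.subst x (pinv φ hu)) φ = x := by
  rw [← psubst_psubst (constantCoeff_pinv hu) hx, PowerSeries.subst_substInvOfIsUnit_right φ hc hu,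
    PowerSeries.subst_X (hasSubst_one hx)]

theorem hom_inv (h : IsFGHom F G φ) (hu : IsUnit (PowerSeries.coeff 1 φ)) :
    IsFGHom G F (pinv φ hu) := by
  refine ⟨constantCoeff_pinv hu, ?_⟩
  have hX0 : MvPowerSeries.constantCoeff (MvPowerSeries.X 0 : MvPowerSeries (Fin 2) R) = 0 := by simp
  have hX1 : MvPowerSeries.constantCoeff (MvPowerSeries.X 1 : MvPowerSeries (Fin 2) R) = 0 := by simp
  set a := PowerSeries.subst (MvPowerSeries.X 0 : MvPowerSeries (Fin 2) R) (pinv φ hu)
  set b := PowerSeries.subst (MvPowerSeries.X 1 : MvPowerSeries (Fin 2) R) (pinv φ hu)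
  have ha : MvPowerSeries.constantCoeff a = 0 := constantCoeff_psubst hX0 (constantCoeff_pinv hu)
  have hb : MvPowerSeries.constantCoeff b = 0 := constantCoeff_psubst hX1 (constantCoeff_pinv hu)
  have h1 := hom_apply h ha hb
  rw [psubst_pinv h.1 hu hX0, psubst_pinv h.1 hu hX1, fadd_subst_X_X] at h1
  rw [← h1, pinv_psubst h.1 hu (constantCoeff_fadd F ha hb)]
  rfl

theorem hom_map (f : R →+* S) (h : IsFGHom F G φ) :
    IsFGHom (F.map f) (G.map f) (PowerSeries.map f φ) := by
  refine ⟨by
    have := congrArg f h.1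
    rw [map_zero] at this
    rw [← this, ← PowerSeries.coeff_zero_eq_constantCoeff_apply, PowerSeries.coeff_map,
      PowerSeries.coeff_zero_eq_constantCoeff_apply], ?_⟩
  have hX0 : MvPowerSeries.constantCoeff (MvPowerSeries.X 0 : MvPowerSeries (Fin 2) R) = 0 := by simp
  have hX1 : MvPowerSeries.constantCoeff (MvPowerSeries.X 1 : MvPowerSeries (Fin 2) R) = 0 := by simp
  have h2 := congrArg (MvPowerSeries.map f) h.2
  rw [PowerSeries.map_subst (hasSubst_one F.zero_constantCoeff)] at h2
  have hp := hasSubst_pair (constantCoeff_psubst hX0 h.1) (constantCoeff_psubst hX1 h.1)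
  rw [MvPowerSeries.map_subst hp] at h2
  simp only [FormalGroup.map_toPowerSeries]
  rw [h2]
  congr 1
  ext s
  fin_cases s
  · simp [PowerSeries.map_subst (hasSubst_one hX0)]
  · simp [PowerSeries.map_subst (hasSubst_one hX1)]

end Hom

/-! ### Conjugate laws -/

section Conj

variable (F : FormalGroup R) (φ : PowerSeries R) (hc : PowerSeries.constantCoeff φ = 0)
  (hu : IsUnit (PowerSeries.coeff 1 φ))

/-- The series `φ F(φ⁻¹ X₀, φ⁻¹ X₁)`. -/
noncomputable def conjSeries : MvPowerSeries (Fin 2) R :=
  PowerSeries.subst (fadd F.toPowerSeries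
    (PowerSeries.subst (MvPowerSeries.X 0 : MvPowerSeries (Fin 2) R) (pinv φ hu))
    (PowerSeries.subst (MvPowerSeries.X 1 : MvPowerSeries (Fin 2) R) (pinv φ hu))) φ

private theorem cX0 : MvPowerSeries.constantCoeff (MvPowerSeries.X 0 : MvPowerSeries (Fin 2) R) = 0 := by simp
private theorem cX1 : MvPowerSeries.constantCoeff (MvPowerSeries.X 1 : MvPowerSeries (Fin 2) R) = 0 := by simp

theorem constantCoeff_conjSeries (hc' : PowerSeries.constantCoeff φ = 0) :
    MvPowerSeries.constantCoeff (conjSeries F φ hu) = 0 :=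
  constantCoeff_psubst (constantCoeff_fadd F (constantCoeff_psubst cX0 (constantCoeff_pinv hu))
    (constantCoeff_psubst cX1 (constantCoeff_pinv hu))) hc'

variable {F φ hu}

/-- `T(x, y) = φ F(φ⁻¹ x, φ⁻¹ y)` on points. -/
theorem fadd_conjSeries (hc : PowerSeries.constantCoeff φ = 0) {x y : MvPowerSeries τ R}
    (hx : MvPowerSeries.constantCoeff x = 0) (hy : MvPowerSeries.constantCoeff y = 0) :
    fadd (conjSeries F φ hu) x y = PowerSeries.subst (fadd F.toPowerSeries
      (PowerSeries.subst x (pinv φ hu)) (PowerSeries.subst y (pinv φ hu))) φ := by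
  have hp := hasSubst_pair hx hy
  have c0 := constantCoeff_psubst (cX0 (R := R)) (constantCoeff_pinv hu)
  have c1 := constantCoeff_psubst (cX1 (R := R)) (constantCoeff_pinv hu)
  show MvPowerSeries.subst ![x, y] (conjSeries F φ hu) = _
  unfold conjSeries
  rw [subst_psubst (constantCoeff_fadd F c0 c1) hp, subst_fadd _ c0 c1 hp,
    subst_psubst cX0 hp, subst_psubst cX1 hp, subst_pair_X0 hp, subst_pair_X1 hp]

theorem coeff_one_subst_X_zero' (T : MvPowerSeries (Fin 2) R) :
    MvPowerSeries.coeff (Finsupp.single 0 1) T =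
      PowerSeries.coeff 1 (T.subst ![PowerSeries.X, 0] : PowerSeries R) :=
  (coeff_subst_X_zero T 1).symm

end Conj

/-- The conjugate law `φ F(φ⁻¹ X₀, φ⁻¹ X₁)`. -/
noncomputable def conj (F : FormalGroup R) (φ : PowerSeries R)
    (hc : PowerSeries.constantCoeff φ = 0) (hu : IsUnit (PowerSeries.coeff 1 φ)) : FormalGroup R where
  toPowerSeries := conjSeries F φ hu
  zero_constantCoeff := constantCoeff_conjSeries F φ hu hc
  lin_coeff_X := by
    have hX : PowerSeries.constantCoeff (PowerSeries.X : PowerSeries R) = 0 := by simp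
    have h0 : MvPowerSeries.constantCoeff (0 : PowerSeries R) = 0 := by simp
    rw [← coeff_subst_X_zero]
    have h1 := fadd_conjSeries (F := F) (hu := hu) hc (x := PowerSeries.X) (y := 0) hX h0
    have h2 : PowerSeries.subst (0 : PowerSeries R) (pinv φ hu) = 0 := by
      exact PowerSeries.subst_zero_of_constantCoeff_zero (constantCoeff_pinv hu)
    rw [h2] at h1
    have h3 : fadd F.toPowerSeries (PowerSeries.subst (PowerSeries.X : PowerSeries R) (pinv φ hu))
        (0 : PowerSeries R) = PowerSeries.subst (PowerSeries.X : PowerSeries R) (pinv φ hu) :=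
      F.add_zero (hasSubst_one (constantCoeff_psubst hX (constantCoeff_pinv hu)))
    rw [h3, psubst_pinv hc hu hX] at h1
    show PowerSeries.coeff 1 (fadd (conjSeries F φ hu) (PowerSeries.X : PowerSeries R) 0) = 1
    rw [h1]; simp
  lin_coeff_Y := by
    have hX : PowerSeries.constantCoeff (PowerSeries.X : PowerSeries R) = 0 := by simp
    have h0 : MvPowerSeries.constantCoeff (0 : PowerSeries R) = 0 := by simp
    rw [← coeff_subst_zero_X]
    have h1 := fadd_conjSeries (F := F) (hu := hu) hc (x := 0) (y := PowerSeries.X) h0 hX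
    have h2 : PowerSeries.subst (0 : PowerSeries R) (pinv φ hu) = 0 := by
      exact PowerSeries.subst_zero_of_constantCoeff_zero (constantCoeff_pinv hu)
    rw [h2] at h1
    have h3 : fadd F.toPowerSeries (0 : PowerSeries R)
        (PowerSeries.subst (PowerSeries.X : PowerSeries R) (pinv φ hu)) =
        PowerSeries.subst (PowerSeries.X : PowerSeries R) (pinv φ hu) :=
      F.zero_add (hasSubst_one (constantCoeff_psubst hX (constantCoeff_pinv hu)))
    rw [h3, psubst_pinv hc hu hX] at h1
    show PowerSeries.coeff 1 (fadd (conjSeries F φ hu) (0 : PowerSeries R) PowerSeries.X) = 1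
    rw [h1]; simp
  assoc := by
    have hY : ∀ i : Fin 3, MvPowerSeries.constantCoeff
        (MvPowerSeries.X i : MvPowerSeries (Fin 3) R) = 0 := by intro i; simp
    have cinv := constantCoeff_pinv hu
    have c0 := constantCoeff_psubst (hY 0) cinv
    have c1 := constantCoeff_psubst (hY 1) cinv
    have c2 := constantCoeff_psubst (hY 2) cinv
    have c01 := constantCoeff_fadd F c0 c1
    have c12 := constantCoeff_fadd F c1 c2
    have e1 := fadd_conjSeries (F := F) (hu := hu) hc (hY 0) (hY 1)
    have e2 := fadd_conjSeries (F := F) (hu := hu) hc (hY 1) (hY 2)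
    have c01' : MvPowerSeries.constantCoeff
        (fadd (conjSeries F φ hu) (MvPowerSeries.X 0 : MvPowerSeries (Fin 3) R) (MvPowerSeries.X 1)) = 0 := by
      rw [e1]; exact constantCoeff_psubst c01 hc
    have c12' : MvPowerSeries.constantCoeff
        (fadd (conjSeries F φ hu) (MvPowerSeries.X 1 : MvPowerSeries (Fin 3) R) (MvPowerSeries.X 2)) = 0 := by
      rw [e2]; exact constantCoeff_psubst c12 hc
    have e3 := fadd_conjSeries (F := F) (hu := hu) hc c01' (hY 2)
    have e4 := fadd_conjSeries (F := F) (hu := hu) hc (hY 0) c12'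
    rw [e1, pinv_psubst hc hu c01] at e3
    rw [e2, pinv_psubst hc hu c12] at e4
    have e5 : fadd (conjSeries F φ hu) (fadd (conjSeries F φ hu)
        (MvPowerSeries.X 0 : MvPowerSeries (Fin 3) R) (MvPowerSeries.X 1)) (MvPowerSeries.X 2) =
        fadd (conjSeries F φ hu) (MvPowerSeries.X 0 : MvPowerSeries (Fin 3) R)
          (fadd (conjSeries F φ hu) (MvPowerSeries.X 1) (MvPowerSeries.X 2)) := by
      rw [e1, e2, e3, e4]
      congr 1
      exact F.assoc' (hasSubst_one c0) (hasSubst_one c1) (hasSubst_one c2)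
    exact e5

theorem hom_conj (F : FormalGroup R) (φ : PowerSeries R)
    (hc : PowerSeries.constantCoeff φ = 0) (hu : IsUnit (PowerSeries.coeff 1 φ)) :
    IsFGHom F (conj F φ hc hu) φ := by
  refine ⟨hc, ?_⟩
  have hX0 : MvPowerSeries.constantCoeff (MvPowerSeries.X 0 : MvPowerSeries (Fin 2) R) = 0 := by simp
  have hX1 : MvPowerSeries.constantCoeff (MvPowerSeries.X 1 : MvPowerSeries (Fin 2) R) = 0 := by simp
  have h1 := fadd_conjSeries (F := F) (hu := hu) hc (constantCoeff_psubst hX0 hc)
    (constantCoeff_psubst hX1 hc)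
  rw [pinv_psubst hc hu hX0, pinv_psubst hc hu hX1, fadd_subst_X_X] at h1
  exact h1.symm

instance instIsCommConj (F : FormalGroup R) [F.IsComm] (φ : PowerSeries R)
    (hc : PowerSeries.constantCoeff φ = 0) (hu : IsUnit (PowerSeries.coeff 1 φ)) :
    (conj F φ hc hu).IsComm where
  comm := by
    have hX0 : MvPowerSeries.constantCoeff (MvPowerSeries.X 0 : MvPowerSeries (Fin 2) R) = 0 := by simp
    have hX1 : MvPowerSeries.constantCoeff (MvPowerSeries.X 1 : MvPowerSeries (Fin 2) R) = 0 := by simp
    have h1 := fadd_conjSeries (F := F) (hu := hu) hc hX1 hX0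
    have c0 := constantCoeff_psubst hX0 (constantCoeff_pinv hu)
    have c1 := constantCoeff_psubst hX1 (constantCoeff_pinv hu)
    show conjSeries F φ hu = MvPowerSeries.subst ![MvPowerSeries.X 1, MvPowerSeries.X 0] (conjSeries F φ hu)
    refine Eq.trans ?_ h1.symm
    unfold conjSeries
    congr 1
    exact F.comm' (hasSubst_one c0) (hasSubst_one c1)

/-! ### The `m`-series -/

section MulSeries

variable {F G : FormalGroup R} {φ : PowerSeries R}

theorem mulSeries_zero (F : FormalGroup R) : mulSeries F 0 = 0 := rfl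

theorem mulSeries_succ (F : FormalGroup R) (m : ℕ) :
    mulSeries F (m + 1) = fadd F.toPowerSeries (mulSeries F m) PowerSeries.X := rfl

theorem constantCoeff_mulSeries (F : FormalGroup R) (m : ℕ) :
    PowerSeries.constantCoeff (mulSeries F m) = 0 := by
  induction m with
  | zero => simp [mulSeries_zero]
  | succ m ih =>
    rw [mulSeries_succ]
    exact constantCoeff_fadd F ih constantCoeff_PX

theorem psubst_zero {φ : PowerSeries R} (hc : PowerSeries.constantCoeff φ = 0) :
    PowerSeries.subst (0 : MvPowerSeries τ R) φ = 0 :=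
  PowerSeries.subst_zero_of_constantCoeff_zero hc

/-- `[m](x)` on points. -/
noncomputable def nmul (F : FormalGroup R) (m : ℕ) (x : MvPowerSeries τ R) : MvPowerSeries τ R :=
  PowerSeries.subst x (mulSeries F m)

theorem nmul_zero (F : FormalGroup R) {x : MvPowerSeries τ R}
    (hx : MvPowerSeries.constantCoeff x = 0) : nmul F 0 x = 0 := by
  unfold nmul
  rw [mulSeries_zero, ← PowerSeries.coe_substAlgHom (hasSubst_one hx), map_zero]

theorem constantCoeff_nmul (F : FormalGroup R) (m : ℕ) {x : MvPowerSeries τ R}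
    (hx : MvPowerSeries.constantCoeff x = 0) :
    MvPowerSeries.constantCoeff (nmul F m x) = 0 :=
  constantCoeff_psubst hx (constantCoeff_mulSeries F m)

theorem nmul_succ (F : FormalGroup R) (m : ℕ) {x : MvPowerSeries τ R}
    (hx : MvPowerSeries.constantCoeff x = 0) :
    nmul F (m + 1) x = fadd F.toPowerSeries (nmul F m x) x := by
  unfold nmul
  rw [mulSeries_succ, psubst_fadd _ (constantCoeff_mulSeries F m) constantCoeff_PX hx,
    PowerSeries.subst_X (hasSubst_one hx)]

/-- A homomorphism commutes with the `m`-series. -/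
theorem hom_nmul (h : IsFGHom F G φ) (m : ℕ) {x : MvPowerSeries τ R}
    (hx : MvPowerSeries.constantCoeff x = 0) :
    PowerSeries.subst (nmul F m x) φ = nmul G m (PowerSeries.subst x φ) := by
  have hφx := constantCoeff_psubst hx h.1
  induction m with
  | zero =>
    rw [nmul_zero F hx, nmul_zero G hφx]
    exact psubst_zero h.1
  | succ m ih =>
    rw [nmul_succ F m hx, nmul_succ G m hφx, hom_apply h (constantCoeff_nmul F m hx) hx, ih]

theorem hom_mulSeries (h : IsFGHom F G φ) (m : ℕ) :
    PowerSeries.subst (mulSeries F m) φ = PowerSeries.subst φ (mulSeries G m) := by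
  have := hom_nmul h m (x := (PowerSeries.X : PowerSeries R)) constantCoeff_PX
  unfold nmul at this
  rwa [PowerSeries.X_subst, PowerSeries.X_subst] at this

theorem mulSeries_map (f : R →+* S) (F : FormalGroup R) (m : ℕ) :
    mulSeries (F.map f) m = PowerSeries.map f (mulSeries F m) := by
  induction m with
  | zero => simp [mulSeries_zero]
  | succ m ih =>
    rw [mulSeries_succ, mulSeries_succ, ih]
    have hp := hasSubst_pair (constantCoeff_mulSeries F m)
      (show PowerSeries.constantCoeff (PowerSeries.X : PowerSeries R) = 0 by simp)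
    have : PowerSeries.map f (fadd F.toPowerSeries (mulSeries F m) PowerSeries.X) =
        MvPowerSeries.map f (MvPowerSeries.subst ![mulSeries F m, PowerSeries.X] F.toPowerSeries) := rfl
    rw [this, MvPowerSeries.map_subst hp]
    unfold fadd
    simp only [FormalGroup.map_toPowerSeries]
    congr 1
    ext s
    fin_cases s
    · rfl
    · simp [PowerSeries.X, PowerSeries.map, MvPowerSeries.map_X]

/-- Interchange law for a commutative law. -/
theorem fadd_interchange (F : FormalGroup R) [F.IsComm] {a b c d : MvPowerSeries τ R}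
    (ha : MvPowerSeries.constantCoeff a = 0) (hb : MvPowerSeries.constantCoeff b = 0)
    (hc : MvPowerSeries.constantCoeff c = 0) (hd : MvPowerSeries.constantCoeff d = 0) :
    fadd F.toPowerSeries (fadd F.toPowerSeries a b) (fadd F.toPowerSeries c d) =
      fadd F.toPowerSeries (fadd F.toPowerSeries a c) (fadd F.toPowerSeries b d) := by
  have hab := constantCoeff_fadd F ha hb
  have hcd := constantCoeff_fadd F hc hd
  have hac := constantCoeff_fadd F ha hc
  have hbd := constantCoeff_fadd F hb hd
  have hbc := constantCoeff_fadd F hb hc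
  have hcb := constantCoeff_fadd F hc hb
  have A : ∀ {x y z : MvPowerSeries τ R}, MvPowerSeries.constantCoeff x = 0 →
      MvPowerSeries.constantCoeff y = 0 → MvPowerSeries.constantCoeff z = 0 →
      fadd F.toPowerSeries (fadd F.toPowerSeries x y) z =
        fadd F.toPowerSeries x (fadd F.toPowerSeries y z) :=
    fun hx hy hz => F.assoc' (hasSubst_one hx) (hasSubst_one hy) (hasSubst_one hz)
  calc fadd F.toPowerSeries (fadd F.toPowerSeries a b) (fadd F.toPowerSeries c d)
      = fadd F.toPowerSeries a (fadd F.toPowerSeries b (fadd F.toPowerSeries c d)) := A ha hb hcd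
    _ = fadd F.toPowerSeries a (fadd F.toPowerSeries (fadd F.toPowerSeries b c) d) := by
        rw [A hb hc hd]
    _ = fadd F.toPowerSeries a (fadd F.toPowerSeries (fadd F.toPowerSeries c b) d) := by
        congr 2
        exact F.comm' (hasSubst_one hb) (hasSubst_one hc)
    _ = fadd F.toPowerSeries a (fadd F.toPowerSeries c (fadd F.toPowerSeries b d)) := by
        rw [A hc hb hd]
    _ = _ := (A ha hc hbd).symm

/-- `[m]` is an endomorphism of a commutative law, on points. -/
theorem nmul_fadd (F : FormalGroup R) [F.IsComm] (m : ℕ) {x y : MvPowerSeries τ R}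
    (hx : MvPowerSeries.constantCoeff x = 0) (hy : MvPowerSeries.constantCoeff y = 0) :
    nmul F m (fadd F.toPowerSeries x y) = fadd F.toPowerSeries (nmul F m x) (nmul F m y) := by
  have hxy := constantCoeff_fadd F hx hy
  induction m with
  | zero =>
    rw [nmul_zero F hxy, nmul_zero F hx, nmul_zero F hy]
    exact (F.add_zero (f := (0 : MvPowerSeries τ R)) (hasSubst_one (by simp))).symm
  | succ m ih =>
    rw [nmul_succ F m hxy, nmul_succ F m hx, nmul_succ F m hy, ih,
      fadd_interchange F (constantCoeff_nmul F m hx) (constantCoeff_nmul F m hy) hx hy]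

theorem isFGHom_mulSeries (F : FormalGroup R) [F.IsComm] (m : ℕ) :
    IsFGHom F F (mulSeries F m) := by
  refine ⟨constantCoeff_mulSeries F m, ?_⟩
  have hX0 : MvPowerSeries.constantCoeff (MvPowerSeries.X 0 : MvPowerSeries (Fin 2) R) = 0 := by simp
  have hX1 : MvPowerSeries.constantCoeff (MvPowerSeries.X 1 : MvPowerSeries (Fin 2) R) = 0 := by simp
  have := nmul_fadd F m hX0 hX1
  rw [fadd_subst_X_X] at this
  exact this

theorem coeff_one_mulSeries (F : FormalGroup R) (m : ℕ) :
    PowerSeries.coeff 1 (mulSeries F m) = (m : R) := by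
  induction m with
  | zero => simp [mulSeries_zero]
  | succ m ih =>
    rw [mulSeries_succ]
    have h1 := fadd_sub_mem_ordIdeal F (x := mulSeries F m) (y := PowerSeries.X) (a := 1) (b := 1)
      (constantCoeff_mulSeries F m) constantCoeff_PX (mem_ordIdeal_one.mpr (constantCoeff_mulSeries F m))
      (X_mem_ordIdeal_one ())
    have h2 := mem_ordIdeal_iff_coeff.mp h1 1 (by norm_num)
    rw [map_sub, map_sub, ih, PowerSeries.coeff_one_X, sub_sub, sub_eq_zero] at h2
    rw [h2]; push_cast; ring

/-- The `m`-series of a conjugate. -/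
theorem mulSeries_conj (F : FormalGroup R) (φ : PowerSeries R)
    (hc : PowerSeries.constantCoeff φ = 0) (hu : IsUnit (PowerSeries.coeff 1 φ)) (m : ℕ) :
    PowerSeries.subst (mulSeries F m) φ = PowerSeries.subst φ (mulSeries (conj F φ hc hu) m) :=
  hom_mulSeries (hom_conj F φ hc hu) m

end MulSeries

end Crest.Agent.LT
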