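/-
S0351, Action module (helper69): existence, uniqueness, composition and bijectivity of the maps
realising automorphisms of `Γ`.  Rigidity, continuity of the `θ`'s.
All statements for an arbitrary universal deformation `H` of an arbitrary law `Γ`.
-/
import Mathlib
import Crest.Prelude.Def_LubinTate
import Crest.Agent.Lib.LT.Ring
import Crest.Agent.Lib.LT.FGL
import Crest.Agent.Lib.LT.Cont

set_option autoImplicit false

open Crest.LubinTate IsLocalRing

namespace Crest.Agent.LT.Action

open Crest.Agent.LT
open Crest.Agent.LT.Cont (FormalGroup_map_map)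

section Law

variable {R : Type*} [CommRing R]

/-- Ring maps commute with composition of one-variable series. -/
theorem map_psubst {S : Type*} [CommRing S] (f : R →+* S) {x : PowerSeries R}
    (hx : PowerSeries.constantCoeff x = 0) (φ : PowerSeries R) :
    PowerSeries.map f (PowerSeries.subst x φ) =
      PowerSeries.subst (PowerSeries.map f x) (PowerSeries.map f φ) :=
  PowerSeries.map_subst (PowerSeries.HasSubst.of_constantCoeff_zero hx) φ

theorem constantCoeff_pmap {S : Type*} [CommRing S] (f : R →+* S) {x : PowerSeries R}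
    (hx : PowerSeries.constantCoeff x = 0) : PowerSeries.constantCoeff (PowerSeries.map f x) = 0 := by
  rw [← PowerSeries.coeff_zero_eq_constantCoeff_apply, PowerSeries.coeff_map,
    PowerSeries.coeff_zero_eq_constantCoeff_apply, hx, map_zero]

/-- The target of a unit-linear homomorphism out of a given law is determined. -/
theorem law_eq_of_hom {F G G' : FormalGroup R} {φ : PowerSeries R} (h : IsFGHom F G φ)
    (h' : IsFGHom F G' φ) (hu : IsUnit (PowerSeries.coeff 1 φ)) : G = G' := by
  have hX0 : MvPowerSeries.constantCoeff (MvPowerSeries.X 0 : MvPowerSeries (Fin 2) R) = 0 := by simp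
  have hX1 : MvPowerSeries.constantCoeff (MvPowerSeries.X 1 : MvPowerSeries (Fin 2) R) = 0 := by simp
  have key : ∀ {K : FormalGroup R}, IsFGHom F K φ →
      K.toPowerSeries = PowerSeries.subst (fadd F.toPowerSeries
        (PowerSeries.subst (MvPowerSeries.X 0 : MvPowerSeries (Fin 2) R) (pinv φ hu))
        (PowerSeries.subst (MvPowerSeries.X 1 : MvPowerSeries (Fin 2) R) (pinv φ hu))) φ := by
    intro K hK
    have c0 := constantCoeff_psubst hX0 (constantCoeff_pinv hu)
    have c1 := constantCoeff_psubst hX1 (constantCoeff_pinv hu)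
    rw [hom_apply hK c0 c1, psubst_pinv hK.1 hu hX0, psubst_pinv hK.1 hu hX1, fadd_subst_X_X]
  ext1
  rw [key h, key h']

end Law

section LocalLifts

variable (p : ℕ) [Fact p.Prime] (n : ℕ)

local notation "k" => GaloisField p n
local notation "E₀" => LTRing p n

variable {p n}

/-- Units lift along the residue map. -/
lemma isUnit_of_residue {x : LTRing p n} (hx : IsUnit (LTRing.residue p n x)) : IsUnit x := by
  by_contra h
  have h1 : x ∈ maximalIdeal (LTRing p n) := h
  rw [← Crest.Agent.LT.residue_ker] at h1
  have h2 : LTRing.residue p n x = 0 := h1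
  rw [h2] at hx
  exact not_isUnit_zero hx

/-- A lift of a series without constant term along the residue map. -/
theorem exists_lift (g : PowerSeries (GaloisField p n)) (hg : PowerSeries.constantCoeff g = 0) :
    ∃ ĝ : PowerSeries (LTRing p n), PowerSeries.constantCoeff ĝ = 0 ∧
      PowerSeries.map (LTRing.residue p n) ĝ = g := by
  classical
  have hs := Crest.Agent.LT.residue_surjective p n
  choose s hs' using hs
  refine ⟨PowerSeries.mk fun i => if i = 0 then 0 else s (PowerSeries.coeff i g), ?_, ?_⟩
  · rw [← PowerSeries.coeff_zero_eq_constantCoeff_apply, PowerSeries.coeff_mk]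
    simp
  · ext i
    rw [PowerSeries.coeff_map, PowerSeries.coeff_mk]
    split_ifs with hi
    · subst hi
      rw [map_zero, PowerSeries.coeff_zero_eq_constantCoeff_apply, hg]
    · rw [hs']

end LocalLifts

section Realise

variable {p : ℕ} [Fact p.Prime] {n : ℕ}

/-- The data for a realisation of `g`: given an automorphism `g` of `Γ`, a deformation `L` of `Γ`
and a homomorphism `L → H` over `E₀` with a unit-linear inverse `H → L`, reducing to `g` and `g⁻¹`. -/
theorem exists_conj_deformation (Γ : FormalGroup (GaloisField p n)) (H : FormalGroup (LTRing p n))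
    (hH0 : H.map (LTRing.residue p n) = Γ) (g : PowerSeries (GaloisField p n)) (hg : IsFGAut Γ g) :
    ∃ (L : FormalGroup (LTRing p n)) (a b : PowerSeries (LTRing p n)),
      L.map (LTRing.residue p n) = Γ ∧ IsFGHom H L a ∧ IsFGHom L H b ∧
      PowerSeries.subst (PowerSeries.map (LTRing.residue p n) b) (PowerSeries.map (LTRing.residue p n) a)
        = PowerSeries.X ∧
      PowerSeries.map (LTRing.residue p n) b = g := by
  obtain ⟨hgh, hgu⟩ := hg
  -- the inverse of `g`
  have hc : PowerSeries.constantCoeff g = 0 := hgh.1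
  set g' := pinv g hgu with hg'
  have hg'h : IsFGHom Γ Γ g' := hom_inv hgh hgu
  have hc' : PowerSeries.constantCoeff g' = 0 := constantCoeff_pinv hgu
  obtain ⟨a, ha0, hag⟩ := exists_lift g' hc'
  -- unit linear coefficients
  have hg'u : IsUnit (PowerSeries.coeff 1 g') := by
    rw [hg', PowerSeries.coeff_one_substInvOfIsUnit g hgu]
    exact Units.isUnit _
  have hau : IsUnit (PowerSeries.coeff 1 a) := by
    apply isUnit_of_residue
    have : LTRing.residue p n (PowerSeries.coeff 1 a) = PowerSeries.coeff 1 g' := by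
      rw [← hag, PowerSeries.coeff_map]
    rw [this]
    exact hg'u
  refine ⟨conj H a ha0 hau, a, pinv a hau, ?_, hom_conj H a ha0 hau, hom_inv (hom_conj H a ha0 hau) hau,
    ?_, ?_⟩
  · have h1 := hom_map (LTRing.residue p n) (hom_conj H a ha0 hau)
    rw [hH0, hag] at h1
    exact (law_eq_of_hom hg'h h1 hg'u).symm
  · have h1 : PowerSeries.subst (pinv a hau) a = PowerSeries.X :=
      PowerSeries.subst_substInvOfIsUnit_right a ha0 hau
    have h2 := congrArg (PowerSeries.map (LTRing.residue p n)) h1
    rw [map_psubst _ (constantCoeff_pinv hau)] at h2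
    simpa using h2
  · set bb := PowerSeries.map (LTRing.residue p n) (pinv a hau) with hbb
    have hb0 : PowerSeries.constantCoeff bb = 0 := constantCoeff_pmap _ (constantCoeff_pinv hau)
    have h1 : PowerSeries.subst (pinv a hau) a = PowerSeries.X :=
      PowerSeries.subst_substInvOfIsUnit_right a ha0 hau
    have h2 := congrArg (PowerSeries.map (LTRing.residue p n)) h1
    rw [map_psubst _ (constantCoeff_pinv hau)] at h2
    have h3 : PowerSeries.subst bb g' = PowerSeries.X := by
      have h4 : PowerSeries.map (LTRing.residue p n) a = g' := hag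
      rw [h4] at h2
      simpa using h2
    -- `g'` is a compositional inverse of `g`
    have h5 : PowerSeries.subst g' g = PowerSeries.X :=
      PowerSeries.subst_substInvOfIsUnit_right g hc hgu
    have h6 : PowerSeries.subst bb (PowerSeries.subst g' g) = PowerSeries.subst (PowerSeries.subst bb g') g :=
      psubst_psubst hc' hb0 g
    rw [h5, h3, PowerSeries.subst_X (hasSubst_one hb0), PowerSeries.X_subst] at h6
    exact h6

/-- Existence of the action. -/
theorem exists_realise {Γ : FormalGroup (GaloisField p n)} {H : FormalGroup (LTRing p n)}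
    (hH : IsUniversalDeformation p n Γ H) {g : PowerSeries (GaloisField p n)} (hg : IsFGAut Γ g) :
    ∃ φ : LTRing p n →ₐ[WittVector p (GaloisField p n)] LTRing p n, IsStabilizerMap p n H g φ := by
  obtain ⟨L, a, b, hL, ha, hb, hab, hbg⟩ := exists_conj_deformation Γ H hH.1 g hg
  obtain ⟨φ, ⟨hφ1, θ, hθ, hθX⟩, -⟩ := hH.2 (LTRing p n) (Crest.Agent.LT.isAdicComplete p n)
    (LTRing.residue p n) (Crest.Agent.LT.residue_surjective p n) (Crest.Agent.LT.residue_ker p n)
    (Crest.Agent.LT.residue_comp_algebraMap p n) L hL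
  refine ⟨φ, hφ1, PowerSeries.subst θ b, hom_comp hθ hb, ?_⟩
  rw [map_psubst _ hθ.1, hθX, hbg, PowerSeries.X_subst]

/-- Uniqueness of the action. -/
theorem realise_unique {Γ : FormalGroup (GaloisField p n)} {H : FormalGroup (LTRing p n)}
    (hH : IsUniversalDeformation p n Γ H) {g : PowerSeries (GaloisField p n)} (hg : IsFGAut Γ g)
    {φ₁ φ₂ : LTRing p n →ₐ[WittVector p (GaloisField p n)] LTRing p n}
    (h₁ : IsStabilizerMap p n H g φ₁) (h₂ : IsStabilizerMap p n H g φ₂) : φ₁ = φ₂ := by
  obtain ⟨L, a, b, hL, ha, hb, hab, hbg⟩ := exists_conj_deformation Γ H hH.1 g hg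
  have key : ∀ {φ : LTRing p n →ₐ[WittVector p (GaloisField p n)] LTRing p n},
      IsStabilizerMap p n H g φ → (LTRing.residue p n).comp φ.toRingHom = LTRing.residue p n ∧
        ∃ θ : PowerSeries (LTRing p n), IsFGHom (H.map φ.toRingHom) L θ ∧
          PowerSeries.map (LTRing.residue p n) θ = PowerSeries.X := by
    rintro φ ⟨h1, θ, hθ, hθg⟩
    refine ⟨h1, PowerSeries.subst θ a, hom_comp hθ ha, ?_⟩
    rw [map_psubst _ hθ.1, hθg, ← hbg]
    exact hab
  exact (hH.2 (LTRing p n) (Crest.Agent.LT.isAdicComplete p n)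
    (LTRing.residue p n) (Crest.Agent.LT.residue_surjective p n) (Crest.Agent.LT.residue_ker p n)
    (Crest.Agent.LT.residue_comp_algebraMap p n) L hL).unique (key h₁) (key h₂)

/-- Composition of realisations. -/
theorem realise_comp {H : FormalGroup (LTRing p n)} {g h : PowerSeries (GaloisField p n)}
    {φ ψ : LTRing p n →ₐ[WittVector p (GaloisField p n)] LTRing p n}
    (hφ : IsStabilizerMap p n H g φ) (hψ : IsStabilizerMap p n H h ψ) :
    IsStabilizerMap p n H (PowerSeries.subst h g) (φ.comp ψ) := by
  obtain ⟨h1, θ, hθ, hθg⟩ := hφ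
  obtain ⟨h2, θ', hθ', hθ'h⟩ := hψ
  have hcomp : (φ.comp ψ).toRingHom = φ.toRingHom.comp ψ.toRingHom := rfl
  refine ⟨?_, PowerSeries.subst (PowerSeries.map φ.toRingHom θ') θ, ?_, ?_⟩
  · rw [hcomp, ← RingHom.comp_assoc, h1, h2]
  · have h3 := hom_map φ.toRingHom hθ'
    rw [FormalGroup_map_map] at h3
    rw [hcomp]
    exact hom_comp h3 hθ
  · have h3 : PowerSeries.constantCoeff (PowerSeries.map φ.toRingHom θ') = 0 :=
      constantCoeff_pmap _ hθ'.1
    rw [map_psubst _ h3, hθg]
    have h4 : PowerSeries.map (LTRing.residue p n) (PowerSeries.map φ.toRingHom θ') = h := by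
      rw [← hθ'h]
      ext i
      simp only [PowerSeries.coeff_map]
      have := congrArg (fun F => F (PowerSeries.coeff i θ')) h1
      exact this
    rw [h4]

/-- The identity realises `X`. -/
theorem realise_id (H : FormalGroup (LTRing p n)) :
    IsStabilizerMap p n H PowerSeries.X
      (AlgHom.id (WittVector p (GaloisField p n)) (LTRing p n)) := by
  refine ⟨by ext x; rfl, PowerSeries.X, ?_, by simp⟩
  have : H.map (AlgHom.id (WittVector p (GaloisField p n)) (LTRing p n)).toRingHom = H := by
    ext e
    simp [FormalGroup.map]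
  rw [this]
  exact isFGHom_X H

theorem isFGAut_X (Γ : FormalGroup (GaloisField p n)) : IsFGAut Γ PowerSeries.X :=
  ⟨isFGHom_X Γ, by simp⟩

/-- The inverse of an automorphism. -/
theorem isFGAut_pinv {Γ : FormalGroup (GaloisField p n)} {g : PowerSeries (GaloisField p n)}
    (hg : IsFGAut Γ g) : IsFGAut Γ (pinv g hg.2) :=
  ⟨hom_inv hg.1 hg.2, by
    rw [PowerSeries.coeff_one_substInvOfIsUnit g hg.2]
    exact Units.isUnit _⟩

/-- **Bijectivity**: maps realising automorphisms of `Γ` are bijective. -/
theorem realise_bijective {Γ : FormalGroup (GaloisField p n)} {H : FormalGroup (LTRing p n)}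
    (hH : IsUniversalDeformation p n Γ H) {g : PowerSeries (GaloisField p n)} (hg : IsFGAut Γ g)
    {φ : LTRing p n →ₐ[WittVector p (GaloisField p n)] LTRing p n}
    (hφ : IsStabilizerMap p n H g φ) : Function.Bijective φ := by
  have hg' := isFGAut_pinv hg
  obtain ⟨φ', hφ'⟩ := exists_realise hH hg'
  have h1 : PowerSeries.subst (pinv g hg.2) g = PowerSeries.X :=
    PowerSeries.subst_substInvOfIsUnit_right g hg.1.1 hg.2
  have h2 : PowerSeries.subst g (pinv g hg.2) = PowerSeries.X :=
    PowerSeries.subst_substInvOfIsUnit_left g hg.1.1 hg.2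
  have h3 := realise_comp hφ hφ'
  rw [h1] at h3
  have h4 := realise_comp hφ' hφ
  rw [h2] at h4
  have e1 := realise_unique hH (isFGAut_X Γ) h3 (realise_id H)
  have e2 := realise_unique hH (isFGAut_X Γ) h4 (realise_id H)
  have l1 : Function.RightInverse φ' φ := fun x => congrArg (fun F => F x) e1
  have l2 : Function.LeftInverse φ' φ := fun x => congrArg (fun F => F x) e2
  exact ⟨l2.injective, l1.surjective⟩

/-- The inverse of a realisation. -/
theorem realise_inverse {Γ : FormalGroup (GaloisField p n)} {H : FormalGroup (LTRing p n)}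
    (hH : IsUniversalDeformation p n Γ H) {g : PowerSeries (GaloisField p n)} (hg : IsFGAut Γ g)
    {φ : LTRing p n →ₐ[WittVector p (GaloisField p n)] LTRing p n}
    (hφ : IsStabilizerMap p n H g φ) :
    ∃ φ' : LTRing p n →ₐ[WittVector p (GaloisField p n)] LTRing p n,
      IsStabilizerMap p n H (pinv g hg.2) φ' ∧ φ.comp φ' = AlgHom.id _ _ ∧ φ'.comp φ = AlgHom.id _ _ := by
  have hg' := isFGAut_pinv hg
  obtain ⟨φ', hφ'⟩ := exists_realise hH hg'
  have h1 : PowerSeries.subst (pinv g hg.2) g = PowerSeries.X :=
    PowerSeries.subst_substInvOfIsUnit_right g hg.1.1 hg.2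
  have h2 : PowerSeries.subst g (pinv g hg.2) = PowerSeries.X :=
    PowerSeries.subst_substInvOfIsUnit_left g hg.1.1 hg.2
  have h3 := realise_comp hφ hφ'
  rw [h1] at h3
  have h4 := realise_comp hφ' hφ
  rw [h2] at h4
  exact ⟨φ', hφ', realise_unique hH (isFGAut_X Γ) h3 (realise_id H),
    realise_unique hH (isFGAut_X Γ) h4 (realise_id H)⟩

end Realise

end Crest.Agent.LT.Action
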