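import Mathlib

/-!
# (2c) of the proof of S0351: the additive expansion `Ξ₀` of `Ψ` and the tropical hull.

Abstract setting: `R` is a complete ultrametric normed field of characteristic `p`, perfect;
`k, r : ℕ`, `q = p ^ (k + r)`; `w : ℕ → R` with `w r = 1`, `‖w j‖ < 1` for `j < r`.

* `Pi`: `Π₀ = 1`, `Π_M = Π_M^q + A_M`, `A_M = ∑_{δ=1}^{min(r,M)} w_{r-δ} Π_{M-δ}^{p^{k+r-δ}}`.
* `Xi y = ∑_M Π_M y^{p^{-M}}` satisfies `Xi y = A (Xi (y^{1/q}))`, `A x = ∑_j w_j x^{p^{k+j}}`.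
* `N x = max_M ‖Π_M‖ exp(-x/p^M)` (= `exp (- Y_H x)`) satisfies `N x = g (N (x/q))`,
  `g t = max_j ‖w_j‖ t^{p^{k+j}}` (no genericity: extremal choice).
* If `‖pH u - A u‖ ≤ g (g ‖u‖)` and `Ψ y = pH (Ψ (y^{1/q}))`, `‖Ψ y - y‖ ≤ ρ < 1`, then
  `‖Ψ y‖ ≤ N x` and `‖Ψ y - Xi y‖ ≤ g (N x) ≤ (N x)^2` when `‖y‖ = exp (-x)`.
-/

set_option autoImplicit false
set_option linter.unusedSectionVars false

namespace Crest.Agent.LT.AddExp

open Filter Topology

/-! ### Ultrametric helper -/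

section Ultra

variable {R : Type*} [NormedField R] [IsUltrametricDist R]

theorem norm_sum_eq_of_unique_max {ι : Type*} [DecidableEq ι] (s : Finset ι) (f : ι → R) {i0 : ι}
    (hi0 : i0 ∈ s) (h : ∀ i ∈ s, i ≠ i0 → ‖f i‖ < ‖f i0‖) : ‖∑ i ∈ s, f i‖ = ‖f i0‖ := by
  rw [← Finset.add_sum_erase s f hi0]
  by_cases he : (s.erase i0).Nonempty
  · obtain ⟨i, hi, hle⟩ := IsUltrametricDist.exists_norm_finsetSum_le_of_nonempty he f
    have hi' := Finset.mem_erase.mp hi
    have hlt : ‖∑ x ∈ s.erase i0, f x‖ < ‖f i0‖ := lt_of_le_of_lt hle (h i hi'.2 hi'.1)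
    rw [IsUltrametricDist.norm_add_eq_max_of_norm_ne_norm (ne_of_gt hlt)]
    exact max_eq_left hlt.le
  · rw [Finset.not_nonempty_iff_eq_empty] at he
    simp [he]

end Ultra

/-! ### Roots -/

section Roots

variable {R : Type*} [NormedField R]
variable (p : ℕ) [hp : Fact p.Prime] [CharP R p] [PerfectRing R p]

/-- `p ^ M`-th root in a perfect ring. -/
noncomputable def rt (M : ℕ) (y : R) : R := (iterateFrobeniusEquiv R p M).symm y

theorem rt_pow (M : ℕ) (y : R) : rt p M y ^ p ^ M = y := by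
  have := (iterateFrobeniusEquiv R p M).apply_symm_apply y
  rwa [iterateFrobeniusEquiv_def] at this

theorem rt_of_pow (M : ℕ) (y : R) : rt p M (y ^ p ^ M) = y := by
  have := (iterateFrobeniusEquiv R p M).symm_apply_apply y
  rwa [iterateFrobeniusEquiv_def] at this

theorem rt_zero_eq (y : R) : rt p 0 y = y := by
  have := rt_pow p 0 y
  simpa using this

theorem rt_add (M : ℕ) (x y : R) : rt p M (x + y) = rt p M x + rt p M y :=
  map_add (iterateFrobeniusEquiv R p M).symm x y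

theorem rt_rt (a b : ℕ) (y : R) : rt p a (rt p b y) = rt p (a + b) y := by
  have h : (rt p a (rt p b y)) ^ p ^ (a + b) = y := by
    rw [pow_add, pow_mul, rt_pow, rt_pow]
  conv_rhs => rw [← h]
  rw [rt_of_pow]

/-- `(y^{p^{-(a+b)}})^{p^b} = y^{p^{-a}}`. -/
theorem rt_add_pow (a b : ℕ) (y : R) : (rt p (a + b) y) ^ p ^ b = rt p a y := by
  have h : ((rt p (a + b) y) ^ p ^ b) ^ p ^ a = y := by
    rw [← pow_mul, mul_comm, ← pow_add, rt_pow]
  conv_rhs => rw [← h]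
  rw [rt_of_pow]

theorem norm_rt_pow (M : ℕ) (y : R) : ‖rt p M y‖ ^ p ^ M = ‖y‖ := by
  rw [← norm_pow, rt_pow]

/-- The norm of a root, exponential form. -/
theorem norm_rt_of_exp (M : ℕ) {y : R} {x : ℝ} (hy : ‖y‖ = Real.exp (-x)) :
    ‖rt p M y‖ = Real.exp (-(x / (p : ℝ) ^ M)) := by
  have hp0 : (p : ℝ) ≠ 0 := by exact_mod_cast (Fact.out : p.Prime).ne_zero
  have h1 : ‖rt p M y‖ ^ p ^ M = Real.exp (-(x / (p : ℝ) ^ M)) ^ p ^ M := by
    rw [norm_rt_pow, hy, ← Real.exp_nat_mul]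
    congr 1
    push_cast
    field_simp
  exact (pow_left_inj₀ (norm_nonneg _) (Real.exp_pos _).le
    (pow_ne_zero _ (Fact.out : p.Prime).ne_zero)).mp h1

theorem norm_rt_le_one (M : ℕ) {y : R} (hy : ‖y‖ ≤ 1) : ‖rt p M y‖ ≤ 1 := by
  by_contra h
  push Not at h
  have : (1 : ℝ) < ‖rt p M y‖ ^ p ^ M :=
    one_lt_pow₀ h (pow_ne_zero _ (Fact.out : p.Prime).ne_zero)
  rw [norm_rt_pow] at this
  linarith

theorem norm_rt_lt_one (M : ℕ) {y : R} (hy : ‖y‖ < 1) : ‖rt p M y‖ < 1 := by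
  by_contra h
  push Not at h
  have : (1 : ℝ) ≤ ‖rt p M y‖ ^ p ^ M := one_le_pow₀ h
  rw [norm_rt_pow] at this
  linarith

end Roots

/-! ### Artin–Schreier type equation -/

section Sol

variable {R : Type*} [NormedField R] [IsUltrametricDist R] [CompleteSpace R]

/-- The solution `∑_i a^{Q^i}` of `π - π^Q = a`. -/
noncomputable def sol (Q : ℕ) (a : R) : R := ∑' i : ℕ, a ^ (Q ^ i)

theorem summable_sol {Q : ℕ} (hQ : 2 ≤ Q) {a : R} (ha : ‖a‖ < 1) :
    Summable (fun i : ℕ => a ^ (Q ^ i)) := by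
  apply NonarchimedeanAddGroup.summable_of_tendsto_cofinite_zero
  rw [Nat.cofinite_eq_atTop, tendsto_zero_iff_norm_tendsto_zero]
  have h1 : Tendsto (fun i : ℕ => ‖a‖ ^ i) atTop (𝓝 0) :=
    tendsto_pow_atTop_nhds_zero_of_lt_one (norm_nonneg _) ha
  refine squeeze_zero (fun _ => norm_nonneg _) (fun i => ?_) h1
  rw [norm_pow]
  exact pow_le_pow_of_le_one (norm_nonneg _) ha.le (Nat.lt_pow_self (by omega)).le

theorem norm_sol_le {Q : ℕ} (hQ : 2 ≤ Q) {a : R} (ha : ‖a‖ < 1) : ‖sol Q a‖ ≤ ‖a‖ := by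
  refine IsUltrametricDist.norm_tsum_le_of_forall_le_of_nonneg (norm_nonneg _) fun i => ?_
  rw [norm_pow]
  calc ‖a‖ ^ Q ^ i ≤ ‖a‖ ^ 1 :=
        pow_le_pow_of_le_one (norm_nonneg _) ha.le (Nat.one_le_pow _ _ (by omega))
    _ = ‖a‖ := pow_one _

variable (p : ℕ) [hp : Fact p.Prime] [CharP R p]

/-- Frobenius powers commute with `tsum`. -/
theorem tsum_pow_char_pow {ι : Type*} {f : ι → R} (hf : Summable f) (n : ℕ) :
    (∑' i, f i) ^ p ^ n = ∑' i, (f i) ^ p ^ n := by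
  have hc : Continuous (iterateFrobenius R p n) := by
    show Continuous fun x : R => iterateFrobenius R p n x
    simp only [iterateFrobenius_def]
    exact continuous_pow _
  have := hf.map_tsum (iterateFrobenius R p n) hc
  simpa only [iterateFrobenius_def] using this

theorem summable_pow_char_pow {ι : Type*} {f : ι → R} (hf : Summable f) (n : ℕ) :
    Summable (fun i => (f i) ^ p ^ n) := by
  have hc : Continuous (iterateFrobenius R p n) := by
    show Continuous fun x : R => iterateFrobenius R p n x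
    simp only [iterateFrobenius_def]
    exact continuous_pow _
  have := hf.map (iterateFrobenius R p n) hc
  simpa only [Function.comp_def, iterateFrobenius_def] using this

theorem sol_eq {n : ℕ} (hn : 1 ≤ n) {a : R} (ha : ‖a‖ < 1) :
    sol (p ^ n) a = (sol (p ^ n) a) ^ p ^ n + a := by
  have hQ : 2 ≤ p ^ n := by
    calc 2 ≤ p := (Fact.out : p.Prime).two_le
      _ = p ^ 1 := (pow_one p).symm
      _ ≤ p ^ n := Nat.pow_le_pow_right (Fact.out : p.Prime).pos hn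
  have hs := summable_sol hQ ha
  have h1 : (sol (p ^ n) a) ^ p ^ n = ∑' i : ℕ, a ^ ((p ^ n) ^ (i + 1)) := by
    unfold sol
    rw [tsum_pow_char_pow p hs n]
    refine tsum_congr fun i => ?_
    rw [← pow_mul, pow_succ]
  rw [h1]
  unfold sol
  rw [hs.tsum_eq_zero_add]
  simp [add_comm]

end Sol

/-! ### The coefficients `Π_M` -/

section PiDef

variable {R : Type*} [NormedField R] [IsUltrametricDist R] [CompleteSpace R]
variable (p : ℕ) [hp : Fact p.Prime] [CharP R p] (k r : ℕ) (w : ℕ → R)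

/-- The coefficients of the additive expansion. -/
noncomputable def Pi : ℕ → R
  | 0 => 1
  | (M + 1) => sol (p ^ (k + r))
      (∑ δ : Fin r, if (δ : ℕ) ≤ M then
        w (r - 1 - δ) * Pi (M - δ) ^ p ^ (k + r - 1 - δ) else 0)
decreasing_by
  all_goals
    have := δ.2
    omega

theorem Pi_zero : Pi p k r w 0 = 1 := by rw [Pi]

/-- The term of index `δ` in the recursion for `Π_M`. -/
noncomputable def uu (δ M : ℕ) : R :=
  if δ ≤ M then w (r - δ) * Pi p k r w (M - δ) ^ p ^ (k + r - δ) else 0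

/-- The input of the Artin–Schreier equation. -/
noncomputable def AA (M : ℕ) : R :=
  ∑ δ : Fin r, if (δ : ℕ) ≤ M then
    w (r - 1 - δ) * Pi p k r w (M - δ) ^ p ^ (k + r - 1 - δ) else 0

theorem Pi_succ (M : ℕ) : Pi p k r w (M + 1) = sol (p ^ (k + r)) (AA p k r w M) := by
  rw [Pi, AA]

variable {p k r w}

/-- Standing hypotheses. -/
structure Hyp (p k r : ℕ) (w : ℕ → R) (ρ : ℝ) : Prop where
  hk : 1 ≤ k
  hwr : w r = 1
  hρ0 : 0 ≤ ρ
  hρ1 : ρ < 1
  hwlt : ∀ j < r, ‖w j‖ ≤ ρ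

variable {ρ : ℝ}

theorem Hyp.norm_w_le_one (h : Hyp p k r w ρ) {j : ℕ} (hj : j ≤ r) : ‖w j‖ ≤ 1 := by
  rcases hj.lt_or_eq with hj | rfl
  · exact (h.hwlt j hj).trans h.hρ1.le
  · rw [h.hwr]; simp

theorem Hyp.two_le_q (h : Hyp p k r w ρ) : 2 ≤ p ^ (k + r) := by
  calc 2 ≤ p := (Fact.out : p.Prime).two_le
    _ = p ^ 1 := (pow_one p).symm
    _ ≤ p ^ (k + r) := Nat.pow_le_pow_right (Fact.out : p.Prime).pos (by have := h.hk; omega)

/-- Norm bounds: `‖Π_M‖ ≤ 1` (and hence `‖A_M‖ ≤ ρ`). -/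
theorem Hyp.norm_AA_le_of (h : Hyp p k r w ρ) (M : ℕ) (hM : ∀ i ≤ M, ‖Pi p k r w i‖ ≤ 1) :
    ‖AA p k r w M‖ ≤ ρ := by
  refine IsUltrametricDist.norm_sum_le_of_forall_le_of_nonneg h.hρ0 fun δ _ => ?_
  split_ifs with hδ
  · have h1 := δ.2
    rw [norm_mul, norm_pow]
    calc ‖w (r - 1 - δ)‖ * ‖Pi p k r w (M - δ)‖ ^ p ^ (k + r - 1 - δ)
        ≤ ρ * 1 := mul_le_mul (h.hwlt _ (by omega))
            (pow_le_one₀ (norm_nonneg _) (hM _ (by omega))) (by positivity) h.hρ0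
      _ = ρ := mul_one _
  · simpa using h.hρ0

theorem Hyp.norm_Pi_le_one (h : Hyp p k r w ρ) (M : ℕ) : ‖Pi p k r w M‖ ≤ 1 := by
  induction M using Nat.strong_induction_on with
  | _ M ih =>
    rcases M with _ | M
    · rw [Pi_zero]; simp
    · rw [Pi_succ]
      have h1 := h.norm_AA_le_of M (fun i hi => ih i (by omega))
      exact (norm_sol_le h.two_le_q (h1.trans_lt h.hρ1)).trans (h1.trans h.hρ1.le)

theorem Hyp.norm_AA_le (h : Hyp p k r w ρ) (M : ℕ) : ‖AA p k r w M‖ ≤ ρ :=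
  h.norm_AA_le_of M fun i _ => h.norm_Pi_le_one i

theorem Hyp.norm_Pi_succ_le (h : Hyp p k r w ρ) (M : ℕ) : ‖Pi p k r w (M + 1)‖ ≤ ρ := by
  rw [Pi_succ]
  have h1 := h.norm_AA_le M
  exact (norm_sol_le h.two_le_q (h1.trans_lt h.hρ1)).trans h1

/-- `Π_{M+1} = Π_{M+1}^q + A_M`. -/
theorem Hyp.Pi_succ_eq (h : Hyp p k r w ρ) (M : ℕ) :
    Pi p k r w (M + 1) = Pi p k r w (M + 1) ^ p ^ (k + r) + AA p k r w M := by
  rw [Pi_succ]
  exact sol_eq p (by have := h.hk; omega) ((h.norm_AA_le M).trans_lt h.hρ1)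

/-- The recursion in closed form: `Π_M = ∑_{δ=0}^{r} w_{r-δ} Π_{M-δ}^{p^{k+r-δ}}`
(terms with `δ > M` vanish). -/
theorem Hyp.Pi_eq_sum (h : Hyp p k r w ρ) (M : ℕ) :
    Pi p k r w M = ∑ δ ∈ Finset.range (r + 1), uu p k r w δ M := by
  rw [Finset.sum_range_succ']
  rcases M with _ | M
  · have h0 : uu p k r w 0 0 = 1 := by
      simp [uu, h.hwr, Pi_zero]
    have h1 : ∀ i ∈ Finset.range r, uu p k r w (i + 1) 0 = 0 := by
      intro i _
      simp [uu]
    rw [Finset.sum_eq_zero h1, h0, Pi_zero, zero_add]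
  · have h0 : uu p k r w 0 (M + 1) = Pi p k r w (M + 1) ^ p ^ (k + r) := by
      simp [uu, h.hwr]
    have h1 : ∑ i ∈ Finset.range r, uu p k r w (i + 1) (M + 1) = AA p k r w M := by
      rw [AA, Finset.sum_range]
      refine Finset.sum_congr rfl fun δ _ => ?_
      have hδ := δ.2
      unfold uu
      by_cases hle : (δ : ℕ) ≤ M
      · rw [if_pos (by omega), if_pos hle]
        rw [show r - ((δ : ℕ) + 1) = r - 1 - δ by omega,
          show M + 1 - ((δ : ℕ) + 1) = M - δ by omega,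
          show k + r - ((δ : ℕ) + 1) = k + r - 1 - δ by omega]
      · rw [if_neg (by omega), if_neg hle]
    rw [h0, h1, add_comm (AA p k r w M)]
    exact h.Pi_succ_eq M

/-- Decay: `‖Π_M‖ ≤ ρ^{t+1}` for `M ≥ t r + 1`. -/
theorem Hyp.norm_Pi_le_pow (h : Hyp p k r w ρ) (t M : ℕ) (hM : t * r + 1 ≤ M) :
    ‖Pi p k r w M‖ ≤ ρ ^ (t + 1) := by
  induction t generalizing M with
  | zero =>
    obtain ⟨M, rfl⟩ : ∃ m, M = m + 1 := ⟨M - 1, by omega⟩
    simpa using h.norm_Pi_succ_le M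
  | succ t ih =>
    obtain ⟨M, rfl⟩ : ∃ m, M = m + 1 := ⟨M - 1, by omega⟩
    rw [Pi_succ]
    have hρ1 := h.hρ1
    have h1 := h.norm_AA_le M
    refine (norm_sol_le h.two_le_q (h1.trans_lt hρ1)).trans ?_
    refine IsUltrametricDist.norm_sum_le_of_forall_le_of_nonneg (pow_nonneg h.hρ0 _) fun δ _ => ?_
    split_ifs with hδ
    · have h2 := δ.2
      rw [norm_mul, norm_pow]
      have hle : t * r + 1 ≤ M - δ := by
        have : (t + 1) * r = t * r + r := by ring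
        omega
      have h3 := ih (M - δ) hle
      calc ‖w (r - 1 - δ)‖ * ‖Pi p k r w (M - δ)‖ ^ p ^ (k + r - 1 - δ)
          ≤ ρ * ‖Pi p k r w (M - δ)‖ := by
            apply mul_le_mul (h.hwlt _ (by omega)) _ (by positivity) h.hρ0
            calc ‖Pi p k r w (M - δ)‖ ^ p ^ (k + r - 1 - δ)
                ≤ ‖Pi p k r w (M - δ)‖ ^ 1 :=
                  pow_le_pow_of_le_one (norm_nonneg _) (h.norm_Pi_le_one _)
                    (Nat.one_le_pow _ _ (Fact.out : p.Prime).pos)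
              _ = _ := pow_one _
        _ ≤ ρ * ρ ^ (t + 1) := mul_le_mul_of_nonneg_left h3 h.hρ0
        _ = ρ ^ (t + 1 + 1) := by ring
    · simpa using pow_nonneg h.hρ0 _

theorem Hyp.tendsto_norm_Pi (h : Hyp p k r w ρ) :
    Tendsto (fun M => ‖Pi p k r w M‖) atTop (𝓝 0) := by
  rw [Metric.tendsto_atTop]
  intro ε hε
  obtain ⟨t, ht⟩ := exists_pow_lt_of_lt_one hε h.hρ1
  refine ⟨t * r + 1, fun M hM => ?_⟩
  rw [Real.dist_eq, sub_zero, abs_of_nonneg (norm_nonneg _)]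
  calc ‖Pi p k r w M‖ ≤ ρ ^ (t + 1) := h.norm_Pi_le_pow t M hM
    _ ≤ ρ ^ t := pow_le_pow_of_le_one h.hρ0 h.hρ1.le (by omega)
    _ < ε := ht

end PiDef

/-! ### The polynomial `A` and the function `g` -/

section AG

variable {R : Type*} [NormedField R] [IsUltrametricDist R]
variable (p : ℕ) (k r : ℕ) (w : ℕ → R)

/-- The additive polynomial `A x = ∑_j w_j x^{p^{k+j}}`. -/
noncomputable def Aadd (x : R) : R := ∑ j ∈ Finset.range (r + 1), w j * x ^ p ^ (k + j)

/-- `g t = max_j ‖w_j‖ t^{p^{k+j}}`. -/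
noncomputable def gg (t : ℝ) : ℝ :=
  (Finset.range (r + 1)).sup' ⟨0, by simp⟩ (fun j => ‖w j‖ * t ^ p ^ (k + j))

variable {p k r w}

theorem le_gg {j : ℕ} (hj : j ≤ r) (t : ℝ) : ‖w j‖ * t ^ p ^ (k + j) ≤ gg p k r w t :=
  Finset.le_sup' (fun j => ‖w j‖ * t ^ p ^ (k + j)) (Finset.mem_range.mpr (by omega))

theorem gg_le {t C : ℝ} (h : ∀ j ≤ r, ‖w j‖ * t ^ p ^ (k + j) ≤ C) : gg p k r w t ≤ C :=
  Finset.sup'_le _ _ fun j hj => h j (by have := Finset.mem_range.mp hj; omega)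

theorem exists_gg_eq (t : ℝ) : ∃ j ≤ r, gg p k r w t = ‖w j‖ * t ^ p ^ (k + j) := by
  obtain ⟨j, hj, he⟩ := Finset.exists_mem_eq_sup' (s := Finset.range (r + 1)) ⟨0, by simp⟩
    (fun j => ‖w j‖ * t ^ p ^ (k + j))
  exact ⟨j, by have := Finset.mem_range.mp hj; omega, he⟩

theorem gg_mono {s t : ℝ} (hs : 0 ≤ s) (hst : s ≤ t) : gg p k r w s ≤ gg p k r w t :=
  gg_le fun _ hj => (mul_le_mul_of_nonneg_left (pow_le_pow_left₀ hs hst _) (norm_nonneg _)).trans
    (le_gg hj t)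

theorem norm_Aadd_le (x : R) : ‖Aadd p k r w x‖ ≤ gg p k r w ‖x‖ := by
  have hg : 0 ≤ gg p k r w ‖x‖ := by
    have := le_gg (p := p) (k := k) (r := r) (w := w) (j := 0) (Nat.zero_le _) ‖x‖
    exact (mul_nonneg (norm_nonneg _) (pow_nonneg (norm_nonneg _) _)).trans this
  refine IsUltrametricDist.norm_sum_le_of_forall_le_of_nonneg hg fun j hj => ?_
  rw [norm_mul, norm_pow]
  exact le_gg (by have := Finset.mem_range.mp hj; omega) _

end AG

/-! ### The hull -/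

section Hull

variable {R : Type*} [NormedField R] [IsUltrametricDist R] [CompleteSpace R]
variable (p : ℕ) [hp : Fact p.Prime] [CharP R p] (k r : ℕ) (w : ℕ → R)

/-- The line of index `M`: `‖Π_M‖ exp(-x/p^M)`. -/
noncomputable def lam (M : ℕ) (x : ℝ) : ℝ := ‖Pi p k r w M‖ * Real.exp (-(x / (p : ℝ) ^ M))

/-- The hull `N x = sup_M ‖Π_M‖ exp(-x/p^M)`; `exp (- Y_H x)` in the notation of the note. -/
noncomputable def NN (x : ℝ) : ℝ := ⨆ M, lam p k r w M x

variable {p k r w} {ρ : ℝ}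

theorem lam_nonneg (M : ℕ) (x : ℝ) : 0 ≤ lam p k r w M x := by
  unfold lam; positivity

theorem lam_zero (x : ℝ) : lam p k r w 0 x = Real.exp (-x) := by
  simp [lam, Pi_zero]

theorem p_pos : (0 : ℝ) < p := by exact_mod_cast (Fact.out : p.Prime).pos

theorem one_lt_p : (1 : ℝ) < p := by exact_mod_cast (Fact.out : p.Prime).one_lt

theorem Hyp.bddAbove_lam (h : Hyp p k r w ρ) {x : ℝ} (hx : 0 ≤ x) :
    BddAbove (Set.range fun M => lam p k r w M x) := by
  refine ⟨1, ?_⟩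
  rintro _ ⟨M, rfl⟩
  have h1 : Real.exp (-(x / (p : ℝ) ^ M)) ≤ 1 := by
    rw [Real.exp_le_one_iff]
    have : 0 ≤ x / (p : ℝ) ^ M := div_nonneg hx (pow_nonneg (p_pos (p := p)).le _)
    linarith
  calc lam p k r w M x ≤ 1 * 1 :=
        mul_le_mul (h.norm_Pi_le_one M) h1 (Real.exp_pos _).le zero_le_one
    _ = 1 := one_mul 1

theorem Hyp.lam_le_NN (h : Hyp p k r w ρ) {x : ℝ} (hx : 0 ≤ x) (M : ℕ) :
    lam p k r w M x ≤ NN p k r w x :=
  le_ciSup (h.bddAbove_lam hx) M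

theorem Hyp.NN_pos (h : Hyp p k r w ρ) {x : ℝ} (hx : 0 ≤ x) : 0 < NN p k r w x := by
  have := h.lam_le_NN hx 0
  rw [lam_zero] at this
  exact (Real.exp_pos _).trans_le this

theorem Hyp.exp_le_NN (h : Hyp p k r w ρ) {x : ℝ} (hx : 0 ≤ x) : Real.exp (-x) ≤ NN p k r w x := by
  have := h.lam_le_NN hx 0
  rwa [lam_zero] at this

theorem Hyp.NN_le_one (h : Hyp p k r w ρ) {x : ℝ} (hx : 0 ≤ x) : NN p k r w x ≤ 1 := by
  refine ciSup_le fun M => ?_
  have h1 : Real.exp (-(x / (p : ℝ) ^ M)) ≤ 1 := by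
    rw [Real.exp_le_one_iff]
    have : 0 ≤ x / (p : ℝ) ^ M := div_nonneg hx (pow_nonneg (p_pos (p := p)).le _)
    linarith
  calc lam p k r w M x ≤ 1 * 1 :=
        mul_le_mul (h.norm_Pi_le_one M) h1 (Real.exp_pos _).le zero_le_one
    _ = 1 := one_mul 1

/-- Only finitely many lines are above a positive level. -/
theorem Hyp.finite_lam_ge (h : Hyp p k r w ρ) {x : ℝ} (hx : 0 ≤ x) {c : ℝ} (hc : 0 < c) :
    {M | c ≤ lam p k r w M x}.Finite := by
  have h1 := h.tendsto_norm_Pi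
  have h2 : ∀ᶠ M in atTop, ‖Pi p k r w M‖ < c := h1.eventually (gt_mem_nhds hc)
  obtain ⟨M₀, hM₀⟩ := eventually_atTop.mp h2
  refine (Set.finite_lt_nat M₀).subset fun M hM => ?_
  by_contra hcon
  simp only [Set.mem_ofPred_eq, not_lt] at hcon hM
  have h3 : Real.exp (-(x / (p : ℝ) ^ M)) ≤ 1 := by
    rw [Real.exp_le_one_iff]
    have : 0 ≤ x / (p : ℝ) ^ M := div_nonneg hx (pow_nonneg (p_pos (p := p)).le _)
    linarith
  have h4 : lam p k r w M x ≤ ‖Pi p k r w M‖ * 1 :=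
    mul_le_mul_of_nonneg_left h3 (norm_nonneg _)
  have h5 := hM₀ M hcon
  linarith

/-- The supremum is attained, at a largest index. -/
theorem Hyp.exists_largest_active (h : Hyp p k r w ρ) {x : ℝ} (hx : 0 ≤ x) :
    ∃ M, lam p k r w M x = NN p k r w x ∧ ∀ M', M < M' → lam p k r w M' x < NN p k r w x := by
  have hpos := h.NN_pos hx
  have hfin := h.finite_lam_ge hx (half_pos hpos)
  -- attained
  have hatt : ∃ M, lam p k r w M x = NN p k r w x := by
    -- the supremum over the finite set of lines above the half level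
    obtain ⟨M₁, hM₁⟩ : ∃ M₁, NN p k r w x / 2 < lam p k r w M₁ x := by
      have := exists_lt_of_lt_ciSup (show NN p k r w x / 2 < ⨆ M, lam p k r w M x from by
        change NN p k r w x / 2 < NN p k r w x
        linarith)
      exact this
    have hne : ({M | NN p k r w x / 2 ≤ lam p k r w M x}).Nonempty := ⟨M₁, hM₁.le⟩
    obtain ⟨M₂, hM₂, hmax⟩ := Set.exists_max_image _ (fun M => lam p k r w M x) hfin hne
    refine ⟨M₂, le_antisymm (h.lam_le_NN hx M₂) ?_⟩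
    refine ciSup_le fun M => ?_
    by_cases hM : NN p k r w x / 2 ≤ lam p k r w M x
    · exact hmax M hM
    · push Not at hM
      exact hM.le.trans hM₂
  -- largest active
  have hfin2 : {M | lam p k r w M x = NN p k r w x}.Finite := hfin.subset fun M hM => by
    simp only [Set.mem_ofPred_eq] at hM ⊢
    rw [hM]; linarith
  have hne2 : {M | lam p k r w M x = NN p k r w x}.Nonempty := hatt
  obtain ⟨M₃, hM₃, hmax⟩ := Set.exists_max_image _ (fun M => M) hfin2 hne2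
  refine ⟨M₃, hM₃, fun M' hM' => lt_of_le_of_ne (h.lam_le_NN hx M') fun he => ?_⟩
  have := hmax M' he
  omega

theorem Hyp.exp_eq_pow_aux {x : ℝ} {M δ : ℕ} (k' r' : ℕ) (hδ : δ ≤ M) (hδr : δ ≤ r') :
    Real.exp (-(x / (p : ℝ) ^ M)) =
      Real.exp (-((x / (p : ℝ) ^ (k' + r')) / (p : ℝ) ^ (M - δ))) ^ p ^ (k' + r' - δ) := by
  have hp0 : (p : ℝ) ≠ 0 := (p_pos (p := p)).ne'
  rw [← Real.exp_nat_mul]
  congr 1
  obtain ⟨M', rfl⟩ : ∃ M', M = M' + δ := ⟨M - δ, by omega⟩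
  obtain ⟨e, he⟩ : ∃ e, k' + r' = e + δ := ⟨k' + r' - δ, by omega⟩
  rw [he, Nat.add_sub_cancel, Nat.add_sub_cancel]
  push_cast
  rw [pow_add, pow_add]
  field_simp

/-- The scaled norm of a term of the recursion. -/
theorem Hyp.norm_uu_mul_exp {x : ℝ} {M δ : ℕ} (hδ : δ ≤ M) (hδr : δ ≤ r) :
    ‖uu p k r w δ M‖ * Real.exp (-(x / (p : ℝ) ^ M)) =
      ‖w (r - δ)‖ * lam p k r w (M - δ) (x / (p : ℝ) ^ (k + r)) ^ p ^ (k + r - δ) := by
  unfold uu lam
  rw [if_pos hδ, norm_mul, norm_pow, Hyp.exp_eq_pow_aux k r hδ hδr, mul_pow]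
  ring

/-- The functional equation of the hull. -/
theorem Hyp.NN_eq (h : Hyp p k r w ρ) {x : ℝ} (hx : 0 ≤ x) :
    NN p k r w x = gg p k r w (NN p k r w (x / (p : ℝ) ^ (k + r))) := by
  have hq : (0 : ℝ) < (p : ℝ) ^ (k + r) := pow_pos (p_pos (p := p)) _
  have hx' : 0 ≤ x / (p : ℝ) ^ (k + r) := div_nonneg hx hq.le
  set x' := x / (p : ℝ) ^ (k + r) with hx'def
  set B := NN p k r w x' with hB
  have hBpos : 0 < B := h.NN_pos hx'
  apply le_antisymm
  · -- upper bound, termwise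
    refine ciSup_le fun M => ?_
    unfold lam
    rw [h.Pi_eq_sum M]
    set E := Real.exp (-(x / (p : ℝ) ^ M)) with hE
    have hEpos : 0 < E := Real.exp_pos _
    have hg : 0 ≤ gg p k r w B := by
      have := le_gg (p := p) (k := k) (r := r) (w := w) (j := 0) (Nat.zero_le _) B
      exact (mul_nonneg (norm_nonneg _) (pow_nonneg hBpos.le _)).trans this
    have hterm : ∀ δ ∈ Finset.range (r + 1), ‖uu p k r w δ M‖ ≤ gg p k r w B / E := by
      intro δ hδ
      have hδr : δ ≤ r := by have := Finset.mem_range.mp hδ; omega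
      rw [le_div_iff₀ hEpos]
      by_cases hδM : δ ≤ M
      · rw [Hyp.norm_uu_mul_exp hδM hδr]
        have h1 : lam p k r w (M - δ) x' ≤ B := h.lam_le_NN hx' _
        have h2 : ‖w (r - δ)‖ * B ^ p ^ (k + (r - δ)) ≤ gg p k r w B :=
          le_gg (by omega) B
        rw [show k + (r - δ) = k + r - δ by omega] at h2
        exact (mul_le_mul_of_nonneg_left (pow_le_pow_left₀ (lam_nonneg _ _) h1 _)
          (norm_nonneg _)).trans h2
      · unfold uu
        rw [if_neg hδM]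
        simpa using hg
    have := IsUltrametricDist.norm_sum_le_of_forall_le_of_nonneg (div_nonneg hg hEpos.le) hterm
    calc ‖∑ δ ∈ Finset.range (r + 1), uu p k r w δ M‖ * E ≤ gg p k r w B / E * E :=
          mul_le_mul_of_nonneg_right this hEpos.le
      _ = gg p k r w B := div_mul_cancel₀ _ hEpos.ne'
  · -- lower bound: the extremal term
    classical
    obtain ⟨M', hM', hMax⟩ := h.exists_largest_active hx'
    -- smallest active `j`
    have hex : ∃ j, j ≤ r ∧ gg p k r w B = ‖w j‖ * B ^ p ^ (k + j) := exists_gg_eq B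
    let j₀ := Nat.find hex
    have hj₀ : j₀ ≤ r ∧ gg p k r w B = ‖w j₀‖ * B ^ p ^ (k + j₀) := Nat.find_spec hex
    have hj₀min : ∀ j < j₀, ¬ (j ≤ r ∧ gg p k r w B = ‖w j‖ * B ^ p ^ (k + j)) :=
      fun j hj => Nat.find_min hex hj
    have hgpos : 0 < gg p k r w B := by
      have h1 := le_gg (p := p) (k := k) (r := r) (w := w) (le_refl r) B
      rw [h.hwr, norm_one, one_mul] at h1
      exact (pow_pos hBpos _).trans_le h1
    set δ₀ := r - j₀ with hδ₀
    have hδ₀r : δ₀ ≤ r := by omega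
    set M := M' + δ₀ with hM
    set E := Real.exp (-(x / (p : ℝ) ^ M)) with hE
    have hEpos : 0 < E := Real.exp_pos _
    -- value of the maximal term
    have hmaxval : ‖uu p k r w δ₀ M‖ * E = gg p k r w B := by
      have := Hyp.norm_uu_mul_exp (p := p) (k := k) (r := r) (w := w) (x := x)
        (show δ₀ ≤ M by omega) hδ₀r
      rw [hE, this]
      rw [show M - δ₀ = M' by omega, hM', hj₀.2]
      rw [show r - δ₀ = j₀ by omega, show k + r - δ₀ = k + j₀ by omega]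
    -- the other terms are strictly smaller
    have hstrict : ∀ δ ∈ Finset.range (r + 1), δ ≠ δ₀ →
        ‖uu p k r w δ M‖ < ‖uu p k r w δ₀ M‖ := by
      intro δ hδ hne
      have hδr : δ ≤ r := by have := Finset.mem_range.mp hδ; omega
      apply lt_of_mul_lt_mul_right _ hEpos.le
      rw [hmaxval]
      by_cases hδM : δ ≤ M
      · rw [Hyp.norm_uu_mul_exp hδM hδr]
        rcases lt_or_gt_of_ne hne with hlt | hgt
        · -- `δ < δ₀`: the line `M - δ` is above `M'`, not active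
          have h1 : lam p k r w (M - δ) x' < B := hMax _ (by omega)
          have hexp0 : p ^ (k + r - δ) ≠ 0 := pow_ne_zero _ (Fact.out : p.Prime).ne_zero
          have h2 : lam p k r w (M - δ) x' ^ p ^ (k + r - δ) < B ^ p ^ (k + r - δ) :=
            pow_lt_pow_left₀ h1 (lam_nonneg _ _) hexp0
          have h3 : ‖w (r - δ)‖ * B ^ p ^ (k + (r - δ)) ≤ gg p k r w B := le_gg (by omega) B
          rw [show k + (r - δ) = k + r - δ by omega] at h3
          by_cases hw0 : ‖w (r - δ)‖ = 0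
          · rw [hw0, zero_mul]; exact hgpos
          · have hwpos : 0 < ‖w (r - δ)‖ := lt_of_le_of_ne (norm_nonneg _) (Ne.symm hw0)
            exact (mul_lt_mul_of_pos_left h2 hwpos).trans_le h3
        · -- `δ > δ₀`: the index `j = r - δ` is below `j₀`, not active
          have hjlt : r - δ < j₀ := by omega
          have hna := hj₀min _ hjlt
          have h3 : ‖w (r - δ)‖ * B ^ p ^ (k + (r - δ)) ≤ gg p k r w B := le_gg (by omega) B
          have h4 : ‖w (r - δ)‖ * B ^ p ^ (k + (r - δ)) < gg p k r w B :=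
            lt_of_le_of_ne h3 fun he => hna ⟨by omega, he.symm⟩
          rw [show k + (r - δ) = k + r - δ by omega] at h4
          have h1 : lam p k r w (M - δ) x' ≤ B := h.lam_le_NN hx' _
          exact (mul_le_mul_of_nonneg_left (pow_le_pow_left₀ (lam_nonneg _ _) h1 _)
            (norm_nonneg _)).trans_lt h4
      · unfold uu
        rw [if_neg hδM, norm_zero, zero_mul]
        exact hgpos
    have hPi : ‖Pi p k r w M‖ = ‖uu p k r w δ₀ M‖ := by
      rw [h.Pi_eq_sum M]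
      exact norm_sum_eq_of_unique_max _ _ (Finset.mem_range.mpr (by omega)) hstrict
    calc gg p k r w B = ‖Pi p k r w M‖ * E := by rw [hPi, hmaxval]
      _ = lam p k r w M x := rfl
      _ ≤ NN p k r w x := h.lam_le_NN hx M

/-- Near `x = 0`, the hull is `exp(-x)`. -/
theorem Hyp.NN_eq_exp (h : Hyp p k r w ρ) {x : ℝ} (hx : 0 ≤ x) (hxρ : ρ ≤ Real.exp (-x)) :
    NN p k r w x = Real.exp (-x) := by
  refine le_antisymm (ciSup_le fun M => ?_) (h.exp_le_NN hx)
  rcases M with _ | M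
  · rw [lam_zero]
  · have h1 : Real.exp (-(x / (p : ℝ) ^ (M + 1))) ≤ 1 := by
      rw [Real.exp_le_one_iff]
      have : 0 ≤ x / (p : ℝ) ^ (M + 1) := div_nonneg hx (pow_nonneg (p_pos (p := p)).le _)
      linarith
    calc lam p k r w (M + 1) x ≤ ρ * 1 :=
          mul_le_mul (h.norm_Pi_succ_le M) h1 (Real.exp_pos _).le h.hρ0
      _ ≤ Real.exp (-x) := by rwa [mul_one]

/-- `g t ≤ t^{p^k}` for `0 ≤ t ≤ 1`. -/
theorem Hyp.gg_le_pow (h : Hyp p k r w ρ) {t : ℝ} (ht0 : 0 ≤ t) (ht1 : t ≤ 1) :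
    gg p k r w t ≤ t ^ p ^ k := by
  refine gg_le fun j hj => ?_
  calc ‖w j‖ * t ^ p ^ (k + j) ≤ 1 * t ^ p ^ k := by
        apply mul_le_mul (h.norm_w_le_one hj) _ (by positivity) zero_le_one
        apply pow_le_pow_of_le_one ht0 ht1
        exact Nat.pow_le_pow_right (Fact.out : p.Prime).pos (by omega)
    _ = t ^ p ^ k := one_mul _

theorem Hyp.gg_le_sq (h : Hyp p k r w ρ) {t : ℝ} (ht0 : 0 ≤ t) (ht1 : t ≤ 1) :
    gg p k r w t ≤ t ^ 2 := by
  refine (h.gg_le_pow ht0 ht1).trans (pow_le_pow_of_le_one ht0 ht1 ?_)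
  calc 2 ≤ p := (Fact.out : p.Prime).two_le
    _ = p ^ 1 := (pow_one p).symm
    _ ≤ p ^ k := Nat.pow_le_pow_right (Fact.out : p.Prime).pos h.hk

theorem Hyp.pow_le_gg (h : Hyp p k r w ρ) (t : ℝ) :
    t ^ p ^ (k + r) ≤ gg p k r w t := by
  have := le_gg (p := p) (k := k) (r := r) (w := w) (le_refl r) t
  rwa [h.hwr, norm_one, one_mul] at this

/-- The hull tends to `0` at infinity. -/
theorem Hyp.NN_small (h : Hyp p k r w ρ) {ε : ℝ} (hε : 0 < ε) :
    ∃ x₁, 0 < x₁ ∧ ∀ x, x₁ ≤ x → NN p k r w x ≤ ε := by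
  have h1 := h.tendsto_norm_Pi
  obtain ⟨M₀, hM₀⟩ := eventually_atTop.mp (h1.eventually (gt_mem_nhds hε))
  set P := (p : ℝ) ^ M₀ with hP
  have hPpos : 0 < P := pow_pos (p_pos (p := p)) _
  refine ⟨P * (|Real.log ε| + 1), by positivity, fun x hx => ?_⟩
  have hxpos : 0 < x := lt_of_lt_of_le (by positivity) hx
  refine ciSup_le fun M => ?_
  by_cases hM : M₀ ≤ M
  · have h3 : Real.exp (-(x / (p : ℝ) ^ M)) ≤ 1 := by
      rw [Real.exp_le_one_iff]
      have : 0 ≤ x / (p : ℝ) ^ M := div_nonneg hxpos.le (pow_nonneg (p_pos (p := p)).le _)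
      linarith
    calc lam p k r w M x ≤ ‖Pi p k r w M‖ * 1 := mul_le_mul_of_nonneg_left h3 (norm_nonneg _)
      _ ≤ ε := by rw [mul_one]; exact (hM₀ M hM).le
  · push Not at hM
    have hle : (p : ℝ) ^ M ≤ P :=
      pow_le_pow_right₀ (one_lt_p (p := p)).le hM.le
    have hMpos : (0 : ℝ) < (p : ℝ) ^ M := pow_pos (p_pos (p := p)) _
    have h3 : x / (p : ℝ) ^ M ≥ |Real.log ε| + 1 := by
      rw [ge_iff_le, le_div_iff₀ hMpos]
      calc (|Real.log ε| + 1) * (p : ℝ) ^ M ≤ (|Real.log ε| + 1) * P := by gcongr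
        _ = P * (|Real.log ε| + 1) := mul_comm _ _
        _ ≤ x := hx
    have h4 : Real.exp (-(x / (p : ℝ) ^ M)) ≤ ε := by
      rw [← Real.le_log_iff_exp_le hε]
      have := neg_abs_le (Real.log ε)
      linarith
    calc lam p k r w M x ≤ 1 * ε :=
          mul_le_mul (h.norm_Pi_le_one M) h4 (Real.exp_pos _).le zero_le_one
      _ = ε := one_mul _

/-- The linear regime of `g`. -/
theorem Hyp.gg_eq_of_small (h : Hyp p k r w ρ) {t : ℝ} (ht0 : 0 ≤ t) (ht1 : t ≤ 1)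
    (ht : t ≤ ‖w 0‖) : gg p k r w t = ‖w 0‖ * t ^ p ^ k := by
  apply le_antisymm
  · refine gg_le fun j hj => ?_
    rcases j with _ | j
    · simp
    · have hlt : p ^ k + 1 ≤ p ^ (k + (j + 1)) := by
        have h1 : p ^ k < p ^ (k + (j + 1)) :=
          Nat.pow_lt_pow_right (Fact.out : p.Prime).one_lt (by omega)
        omega
      calc ‖w (j + 1)‖ * t ^ p ^ (k + (j + 1)) ≤ 1 * t ^ (p ^ k + 1) :=
            mul_le_mul (h.norm_w_le_one hj) (pow_le_pow_of_le_one ht0 ht1 hlt)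
              (pow_nonneg ht0 _) zero_le_one
        _ = t * t ^ p ^ k := by rw [one_mul, pow_succ]; ring
        _ ≤ ‖w 0‖ * t ^ p ^ k := mul_le_mul_of_nonneg_right ht (pow_nonneg ht0 _)
  · have := le_gg (p := p) (k := k) (r := r) (w := w) (Nat.zero_le r) t
    simpa using this

end Hull

/-! ### The series `Ξ` -/

section Xi

variable {R : Type*} [NormedField R] [IsUltrametricDist R] [CompleteSpace R]
variable (p : ℕ) [hp : Fact p.Prime] [CharP R p] [PerfectRing R p] (k r : ℕ) (w : ℕ → R)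

/-- The additive expansion `Ξ(y) = ∑_M Π_M y^{p^{-M}}`. -/
noncomputable def Xi (y : R) : R := ∑' M : ℕ, Pi p k r w M * rt p M y

variable {p k r w} {ρ : ℝ}

theorem Hyp.summable_Xi (h : Hyp p k r w ρ) {y : R} (hy : ‖y‖ ≤ 1) :
    Summable fun M : ℕ => Pi p k r w M * rt p M y := by
  apply NonarchimedeanAddGroup.summable_of_tendsto_cofinite_zero
  rw [Nat.cofinite_eq_atTop, tendsto_zero_iff_norm_tendsto_zero]
  refine squeeze_zero (fun _ => norm_nonneg _) (fun M => ?_) h.tendsto_norm_Pi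
  rw [norm_mul]
  calc ‖Pi p k r w M‖ * ‖rt p M y‖ ≤ ‖Pi p k r w M‖ * 1 :=
        mul_le_mul_of_nonneg_left (norm_rt_le_one p M hy) (norm_nonneg _)
    _ = _ := mul_one _

omit [CompleteSpace R] [PerfectRing R p] in
theorem Aadd_add (x y : R) :
    Aadd p k r w (x + y) = Aadd p k r w x + Aadd p k r w y := by
  unfold Aadd
  rw [← Finset.sum_add_distrib]
  refine Finset.sum_congr rfl fun j _ => ?_
  rw [add_pow_char_pow, mul_add]

omit [CompleteSpace R] [PerfectRing R p] in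
theorem Aadd_sub (x y : R) :
    Aadd p k r w (x - y) = Aadd p k r w x - Aadd p k r w y := by
  have := Aadd_add (p := p) (k := k) (r := r) (w := w) (x - y) y
  rw [sub_add_cancel] at this
  rw [this]; ring

/-- `Ξ` is additive. -/
theorem Hyp.Xi_add (h : Hyp p k r w ρ) {x y : R} (hx : ‖x‖ ≤ 1) (hy : ‖y‖ ≤ 1) :
    Xi p k r w (x + y) = Xi p k r w x + Xi p k r w y := by
  unfold Xi
  rw [← (h.summable_Xi hx).tsum_add (h.summable_Xi hy)]
  refine tsum_congr fun M => ?_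
  rw [rt_add, mul_add]

/-- The functional equation `Ξ(y) = A (Ξ (y^{1/q}))`. -/
theorem Hyp.Xi_eq (h : Hyp p k r w ρ) {y : R} (hy : ‖y‖ ≤ 1) :
    Xi p k r w y = Aadd p k r w (Xi p k r w (rt p (k + r) y)) := by
  set y' := rt p (k + r) y with hy'
  have hy'1 : ‖y'‖ ≤ 1 := norm_rt_le_one p _ hy
  have hs' := h.summable_Xi hy'1
  -- the double family
  let F : ℕ → ℕ → R := fun δ M => uu p k r w δ M * rt p M y
  have hshift : ∀ δ ∈ Finset.range (r + 1), ∀ M : ℕ,
      F δ (M + δ) = w (r - δ) * (Pi p k r w M * rt p M y') ^ p ^ (k + r - δ) := by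
    intro δ hδ M
    have hδr : δ ≤ r := by have := Finset.mem_range.mp hδ; omega
    show uu p k r w δ (M + δ) * rt p (M + δ) y = _
    unfold uu
    rw [if_pos (by omega), Nat.add_sub_cancel, mul_pow, mul_assoc]
    congr 2
    rw [hy', rt_rt]
    have := rt_add_pow p (M + δ) (k + r - δ) y
    rw [show M + δ + (k + r - δ) = M + (k + r) by omega] at this
    exact this.symm
  have hsF : ∀ δ ∈ Finset.range (r + 1), Summable (F δ) := by
    intro δ hδ
    rw [← summable_nat_add_iff δ]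
    have h1 := summable_pow_char_pow p hs' (k + r - δ)
    have h2 := h1.mul_left (w (r - δ))
    exact h2.congr fun M => (hshift δ hδ M).symm
  have hval : ∀ δ ∈ Finset.range (r + 1), ∑' M, F δ M =
      w (r - δ) * (Xi p k r w y') ^ p ^ (k + r - δ) := by
    intro δ hδ
    have h0 := (hsF δ hδ).sum_add_tsum_nat_add δ
    have hzero : ∑ i ∈ Finset.range δ, F δ i = 0 := by
      refine Finset.sum_eq_zero fun i hi => ?_
      have : ¬ δ ≤ i := by have := Finset.mem_range.mp hi; omega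
      simp [F, uu, this]
    rw [hzero, zero_add] at h0
    rw [← h0]
    unfold Xi
    rw [tsum_pow_char_pow p hs', ← tsum_mul_left]
    exact tsum_congr fun M => hshift δ hδ M
  calc Xi p k r w y = ∑' M, ∑ δ ∈ Finset.range (r + 1), F δ M := by
        unfold Xi
        refine tsum_congr fun M => ?_
        conv_lhs => rw [h.Pi_eq_sum M, Finset.sum_mul]
    _ = ∑ δ ∈ Finset.range (r + 1), ∑' M, F δ M := Summable.tsum_finsetSum hsF
    _ = ∑ δ ∈ Finset.range (r + 1), w (r - δ) * (Xi p k r w y') ^ p ^ (k + r - δ) :=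
        Finset.sum_congr rfl hval
    _ = Aadd p k r w (Xi p k r w y') := by
        unfold Aadd
        rw [← Finset.sum_flip]
        refine Finset.sum_congr rfl fun δ hδ => ?_
        have hδr : δ ≤ r := by have := Finset.mem_range.mp hδ; omega
        rw [show r - (r - δ) = δ by omega, show k + r - (r - δ) = k + δ by omega]

/-- `‖Ξ y - y‖ ≤ ρ`. -/
theorem Hyp.norm_Xi_sub_le (h : Hyp p k r w ρ) {y : R} (hy : ‖y‖ ≤ 1) :
    ‖Xi p k r w y - y‖ ≤ ρ := by
  have hs := h.summable_Xi hy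
  unfold Xi
  rw [hs.tsum_eq_zero_add, Pi_zero, one_mul, rt_zero_eq, add_sub_cancel_left]
  refine IsUltrametricDist.norm_tsum_le_of_forall_le_of_nonneg h.hρ0 fun M => ?_
  rw [norm_mul]
  calc ‖Pi p k r w (M + 1)‖ * ‖rt p (M + 1) y‖ ≤ ρ * 1 :=
        mul_le_mul (h.norm_Pi_succ_le M) (norm_rt_le_one p _ hy) (norm_nonneg _) h.hρ0
    _ = ρ := mul_one _

/-- **Comparison of `Ψ` with `Ξ`**.  Hypotheses: `hP` is the quadratic closeness of the `[p]`-map
with its additive part `A`; `hΨ` the functional equation of `Ψ`; `hΨ1` its closeness to the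
identity.  Conclusion: `‖Ψ y‖ ≤ N x` and `‖Ψ y - Ξ y‖ ≤ g (N x)`, if `‖y‖ = exp (-x)`, `x > 0`. -/
theorem Hyp.norm_Psi_sub_Xi (h : Hyp p k r w ρ) (pH Ψ : R → R)
    (hP : ∀ u : R, ‖u‖ < 1 → ‖pH u - Aadd p k r w u‖ ≤ gg p k r w (gg p k r w ‖u‖))
    (hΨ : ∀ y : R, ‖y‖ < 1 → Ψ y = pH (Ψ (rt p (k + r) y)))
    (hΨ1 : ∀ y : R, ‖y‖ < 1 → ‖Ψ y - y‖ ≤ ρ)
    {x : ℝ} (hx : 0 < x) {y : R} (hy : ‖y‖ = Real.exp (-x)) :
    ‖Ψ y‖ ≤ NN p k r w x ∧ ‖Ψ y - Xi p k r w y‖ ≤ gg p k r w (NN p k r w x) := by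
  have hq : (0 : ℝ) < (p : ℝ) ^ (k + r) := pow_pos (p_pos (p := p)) _
  have hq1 : (1 : ℝ) < (p : ℝ) ^ (k + r) := by
    have := h.two_le_q
    have h2 : (2 : ℝ) ≤ ((p ^ (k + r) : ℕ) : ℝ) := by exact_mod_cast this
    push_cast at h2
    linarith
  -- the threshold
  set c := max ρ (1 / 2) with hc
  have hc0 : 0 < c := lt_of_lt_of_le (by norm_num) (le_max_right _ _)
  have hc1 : c < 1 := max_lt h.hρ1 (by norm_num)
  set x₀ := - Real.log c / (p : ℝ) ^ (k + r) with hx₀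
  have hlogc : Real.log c < 0 := Real.log_neg hc0 hc1
  have hx₀pos : 0 < x₀ := div_pos (by linarith) hq
  have key : ∀ L : ℕ, ∀ x : ℝ, 0 < x → x ≤ x₀ * ((p : ℝ) ^ (k + r)) ^ L →
      ∀ y : R, ‖y‖ = Real.exp (-x) →
        ‖Ψ y‖ ≤ NN p k r w x ∧ ‖Ψ y - Xi p k r w y‖ ≤ gg p k r w (NN p k r w x) := by
    intro L
    induction L with
    | zero =>
      intro x hx hxL y hy
      have hxL' : x ≤ x₀ := by simpa using hxL
      have hy1 : ‖y‖ < 1 := by
        rw [hy, Real.exp_lt_one_iff]; linarith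
      -- `ρ ≤ exp (-q x)`
      have h1 : ρ ≤ Real.exp (-((p : ℝ) ^ (k + r) * x)) := by
        have h2 : (p : ℝ) ^ (k + r) * x ≤ - Real.log c := by
          have := mul_le_mul_of_nonneg_left hxL' hq.le
          rwa [hx₀, mul_div_cancel₀ _ hq.ne'] at this
        have h3 : Real.log c ≤ -((p : ℝ) ^ (k + r) * x) := by linarith
        calc ρ ≤ c := le_max_left _ _
          _ = Real.exp (Real.log c) := (Real.exp_log hc0).symm
          _ ≤ _ := Real.exp_le_exp.mpr h3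
      have h2 : Real.exp (-((p : ℝ) ^ (k + r) * x)) ≤ Real.exp (-x) := by
        apply Real.exp_le_exp.mpr
        have : x ≤ (p : ℝ) ^ (k + r) * x := le_mul_of_one_le_left hx.le hq1.le
        linarith
      have hN : NN p k r w x = Real.exp (-x) := h.NN_eq_exp hx.le (h1.trans h2)
      have hΨy := hΨ1 y hy1
      constructor
      · rw [hN]
        have : ‖Ψ y‖ ≤ max ‖Ψ y - y‖ ‖y‖ := by
          have := IsUltrametricDist.norm_add_le_max (Ψ y - y) y
          rwa [sub_add_cancel] at this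
        refine this.trans (max_le (hΨy.trans (h1.trans h2)) hy.le)
      · rw [hN]
        have h3 : ‖Ψ y - Xi p k r w y‖ ≤ ρ := by
          have h4 := h.norm_Xi_sub_le (y := y) hy1.le
          have : Ψ y - Xi p k r w y = (Ψ y - y) + (-(Xi p k r w y - y)) := by ring
          rw [this]
          refine (IsUltrametricDist.norm_add_le_max _ _).trans (max_le hΨy ?_)
          rwa [norm_neg]
        refine h3.trans (h1.trans ?_)
        refine le_trans ?_ (h.pow_le_gg _)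
        rw [← Real.exp_nat_mul]
        apply le_of_eq
        congr 1
        push_cast
        ring
    | succ L ih =>
      intro x hx hxL y hy
      have hx' : 0 < x / (p : ℝ) ^ (k + r) := div_pos hx hq
      have hxL' : x / (p : ℝ) ^ (k + r) ≤ x₀ * ((p : ℝ) ^ (k + r)) ^ L := by
        rw [div_le_iff₀ hq]
        rwa [pow_succ, ← mul_assoc] at hxL
      have hy1 : ‖y‖ < 1 := by
        rw [hy, Real.exp_lt_one_iff]; linarith
      set y' := rt p (k + r) y with hy'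
      have hy'n : ‖y'‖ = Real.exp (-(x / (p : ℝ) ^ (k + r))) := norm_rt_of_exp p _ hy
      have hy'1 : ‖y'‖ < 1 := norm_rt_lt_one p _ hy1
      obtain ⟨ih1, ih2⟩ := ih _ hx' hxL' y' hy'n
      set u := Ψ y' with hu
      have hu1 : ‖u‖ < 1 := by
        have h1 := hΨ1 y' hy'1
        have : ‖u‖ ≤ max ‖u - y'‖ ‖y'‖ := by
          have := IsUltrametricDist.norm_add_le_max (u - y') y'
          rwa [sub_add_cancel] at this
        exact this.trans_lt (max_lt (h1.trans_lt h.hρ1) hy'1)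
      have hfe : NN p k r w x = gg p k r w (NN p k r w (x / (p : ℝ) ^ (k + r))) := h.NN_eq hx.le
      set B := NN p k r w (x / (p : ℝ) ^ (k + r)) with hB
      have hΨe : Ψ y = pH u := hΨ y hy1
      -- `g (g t) ≤ g t`
      have hgg : ∀ t : ℝ, 0 ≤ t → t ≤ 1 → gg p k r w t ≤ t := by
        intro t ht0 ht1
        refine (h.gg_le_pow ht0 ht1).trans ?_
        calc t ^ p ^ k ≤ t ^ 1 :=
              pow_le_pow_of_le_one ht0 ht1 (Nat.one_le_pow _ _ (Fact.out : p.Prime).pos)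
          _ = t := pow_one t
      have hgnn : ∀ t : ℝ, 0 ≤ t → 0 ≤ gg p k r w t := by
        intro t ht0
        have := h.pow_le_gg t
        exact (pow_nonneg ht0 _).trans this
      have hBnn : 0 ≤ B := (h.NN_pos hx'.le).le
      have huB : gg p k r w ‖u‖ ≤ gg p k r w B := gg_mono (norm_nonneg _) ih1
      have hPu := hP u hu1
      have hgu1 : gg p k r w ‖u‖ ≤ ‖u‖ := hgg _ (norm_nonneg _) hu1.le
      constructor
      · rw [hΨe, hfe]
        have : ‖pH u‖ ≤ max ‖pH u - Aadd p k r w u‖ ‖Aadd p k r w u‖ := by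
          have := IsUltrametricDist.norm_add_le_max (pH u - Aadd p k r w u) (Aadd p k r w u)
          rwa [sub_add_cancel] at this
        refine this.trans (max_le ?_ ((norm_Aadd_le u).trans huB))
        refine hPu.trans ((hgg _ (hgnn _ (norm_nonneg _)) (hgu1.trans hu1.le)).trans huB)
      · rw [hfe]
        have hXe : Xi p k r w y = Aadd p k r w (Xi p k r w y') := h.Xi_eq hy1.le
        have hdec : Ψ y - Xi p k r w y =
            (pH u - Aadd p k r w u) + Aadd p k r w (u - Xi p k r w y') := by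
          rw [hΨe, hXe, Aadd_sub]
          ring
        rw [hdec]
        refine (IsUltrametricDist.norm_add_le_max _ _).trans (max_le ?_ ?_)
        · exact hPu.trans (gg_mono (hgnn _ (norm_nonneg _)) huB)
        · exact (norm_Aadd_le _).trans (gg_mono (norm_nonneg _) ih2)
  -- conclude
  have hcov : ∃ L : ℕ, x ≤ x₀ * ((p : ℝ) ^ (k + r)) ^ L := by
    obtain ⟨L, hL⟩ := pow_unbounded_of_one_lt (x / x₀) hq1
    refine ⟨L, ?_⟩
    rw [div_lt_iff₀ hx₀pos] at hL
    linarith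
  obtain ⟨L, hL⟩ := hcov
  exact key L x hx hL y hy

/-- The quadratic form of the comparison: `‖Ψ y - Ξ y‖ ≤ (N x)^2`. -/
theorem Hyp.norm_Psi_sub_Xi_sq (h : Hyp p k r w ρ) (pH Ψ : R → R)
    (hP : ∀ u : R, ‖u‖ < 1 → ‖pH u - Aadd p k r w u‖ ≤ gg p k r w (gg p k r w ‖u‖))
    (hΨ : ∀ y : R, ‖y‖ < 1 → Ψ y = pH (Ψ (rt p (k + r) y)))
    (hΨ1 : ∀ y : R, ‖y‖ < 1 → ‖Ψ y - y‖ ≤ ρ)
    {x : ℝ} (hx : 0 < x) {y : R} (hy : ‖y‖ = Real.exp (-x)) :
    ‖Ψ y - Xi p k r w y‖ ≤ (NN p k r w x) ^ 2 :=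
  (h.norm_Psi_sub_Xi pH Ψ hP hΨ hΨ1 hx hy).2.trans
    (h.gg_le_sq (h.NN_pos hx.le).le (h.NN_le_one hx.le))

end Xi

/-! ### The hull in the form used by Lemma R -/

section Lines

variable {R : Type*} [NormedField R] [IsUltrametricDist R] [CompleteSpace R]
variable {p : ℕ} [hp : Fact p.Prime] [CharP R p] {k r : ℕ} {w : ℕ → R} {ρ : ℝ}

/-- The hull of the lines `‖c₁ Π_N‖ exp(-x/p^N)`, in additive form:
`Y x = - log (‖c₁‖ N x)`. -/
noncomputable def YY (p k r : ℕ) [Fact p.Prime] [CharP R p] (w : ℕ → R) (c₁ : R) (x : ℝ) : ℝ :=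
  - Real.log (‖c₁‖ * NN p k r w x)

theorem Hyp.exp_neg_YY (h : Hyp p k r w ρ) {c₁ : R} (hc : c₁ ≠ 0) {x : ℝ} (hx : 0 ≤ x) :
    Real.exp (- YY p k r w c₁ x) = ‖c₁‖ * NN p k r w x := by
  unfold YY
  rw [neg_neg, Real.exp_log (mul_pos (norm_pos_iff.mpr hc) (h.NN_pos hx))]

/-- Lines lie above: `‖c₁ Π_N‖ exp(-x/p^N) ≤ exp (- Y x)`. -/
theorem Hyp.line_above (h : Hyp p k r w ρ) {c₁ : R} (hc : c₁ ≠ 0) {x : ℝ} (hx : 0 ≤ x) (N : ℕ) :
    ‖c₁ * Pi p k r w N‖ * Real.exp (-(x / (p : ℝ) ^ N)) ≤ Real.exp (- YY p k r w c₁ x) := by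
  rw [h.exp_neg_YY hc hx, norm_mul, mul_assoc]
  exact mul_le_mul_of_nonneg_left (h.lam_le_NN hx N) (norm_nonneg _)

/-- Some line touches. -/
theorem Hyp.line_tight (h : Hyp p k r w ρ) {c₁ : R} (hc : c₁ ≠ 0) {x : ℝ} (hx : 0 ≤ x) :
    ∃ N : ℕ, ‖c₁ * Pi p k r w N‖ * Real.exp (-(x / (p : ℝ) ^ N)) = Real.exp (- YY p k r w c₁ x) := by
  obtain ⟨M, hM, -⟩ := h.exists_largest_active hx
  refine ⟨M, ?_⟩
  rw [h.exp_neg_YY hc hx, norm_mul, mul_assoc]
  congr 1

/-- Homogeneity of `Y`: if `c₁^{p^k-1} = w₀ ≠ 0`, `‖c₁‖ ≤ 1`, then for `x` large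
`Y (q x) = p^k Y x`, and `Y x > 0`. -/
theorem Hyp.YY_scale (h : Hyp p k r w ρ) {c₁ : R} (hc : c₁ ≠ 0) (hc1 : ‖c₁‖ ≤ 1)
    (hw0 : w 0 ≠ 0) (hcw : c₁ ^ (p ^ k - 1) = w 0) :
    ∃ xc : ℝ, 0 < xc ∧ ∀ x, xc ≤ x →
      0 < YY p k r w c₁ x ∧
      YY p k r w c₁ ((p : ℝ) ^ (k + r) * x) = (p : ℝ) ^ k * YY p k r w c₁ x := by
  have hw0pos : 0 < ‖w 0‖ := norm_pos_iff.mpr hw0
  obtain ⟨x₁, hx₁, hsmall⟩ := h.NN_small (ε := min ‖w 0‖ (1 / 2)) (lt_min hw0pos (by norm_num))
  refine ⟨x₁, hx₁, fun x hx => ?_⟩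
  have hxpos : 0 < x := lt_of_lt_of_le hx₁ hx
  have hN := hsmall x hx
  have hNw : NN p k r w x ≤ ‖w 0‖ := hN.trans (min_le_left _ _)
  have hN2 : NN p k r w x ≤ 1 / 2 := hN.trans (min_le_right _ _)
  have hNpos := h.NN_pos hxpos.le
  have hcpos : 0 < ‖c₁‖ := norm_pos_iff.mpr hc
  constructor
  · unfold YY
    have : ‖c₁‖ * NN p k r w x < 1 := by
      calc ‖c₁‖ * NN p k r w x ≤ 1 * (1 / 2) := mul_le_mul hc1 hN2 hNpos.le zero_le_one
        _ < 1 := by norm_num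
    have hlog := Real.log_neg (mul_pos hcpos hNpos) this
    linarith
  · have hq : (0 : ℝ) < (p : ℝ) ^ (k + r) := pow_pos (p_pos (p := p)) _
    have hfe := h.NN_eq (x := (p : ℝ) ^ (k + r) * x) (by positivity)
    rw [mul_div_cancel_left₀ _ hq.ne'] at hfe
    have hg := h.gg_eq_of_small hNpos.le (hN2.trans (by norm_num)) hNw
    rw [hg] at hfe
    unfold YY
    rw [hfe]
    have hk1 : 1 ≤ p ^ k := Nat.one_le_pow _ _ (Fact.out : p.Prime).pos
    have hcn : ‖w 0‖ = ‖c₁‖ ^ (p ^ k - 1) := by rw [← hcw, norm_pow]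
    have : ‖c₁‖ * (‖w 0‖ * NN p k r w x ^ p ^ k) = (‖c₁‖ * NN p k r w x) ^ p ^ k := by
      rw [hcn, mul_pow, ← mul_assoc, ← pow_succ']
      congr 2
      omega
    rw [this, Real.log_pow]
    push_cast
    ring

end Lines

end Crest.Agent.LT.AddExp
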