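import Mathlib

/-!
# Evaluation of one-variable power series on an ultrametric complete field

`ev1 f x = ∑' j, coeff j f * x ^ j`.  `GS r f K` says `‖coeff j f‖ * r ^ j ≤ K` for all `j`: the
series has Gauss norm at most `K` at radius `r`.  For `‖x‖ < r`: `ev1` is a ring homomorphism
(`ev1_add`, `ev1_mul`, ...), `‖ev1 f x‖ ≤ K`; and the chain rule `ev1_subst` holds for
`g` with coefficients of norm at most `1` and without constant term.
-/

namespace Crest.Agent.Lib.LT.Eval1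

open PowerSeries Filter Topology

set_option linter.unusedSectionVars false

variable {𝕂 : Type*} [NormedField 𝕂] [IsUltrametricDist 𝕂] [CompleteSpace 𝕂]

/-- ultrametric bound of a `tsum`. -/
lemma norm_tsum_le {ι : Type*} {f : ι → 𝕂} {K : ℝ} (hK : 0 ≤ K) (h : ∀ i, ‖f i‖ ≤ K) :
    ‖∑' i, f i‖ ≤ K := by
  by_cases hs : Summable f
  · have h1 := hs.hasSum.norm
    refine le_of_tendsto h1 (Eventually.of_forall fun s => ?_)
    exact IsUltrametricDist.norm_sum_le_of_forall_le_of_nonneg hK (fun i _ => h i)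
  · rw [tsum_eq_zero_of_not_summable hs]; simpa using hK

/-- Value at a point. -/
noncomputable def ev1 (f : PowerSeries 𝕂) (x : 𝕂) : 𝕂 := ∑' j : ℕ, coeff j f * x ^ j

/-- Gauss bound of a power series at radius `r`. -/
def GS (r : ℝ) (f : PowerSeries 𝕂) (K : ℝ) : Prop := ∀ j, ‖coeff j f‖ * r ^ j ≤ K

/-- Coefficients of norm at most one, no constant term. -/
structure IsBdd0 (g : PowerSeries 𝕂) : Prop where
  norm_le : ∀ j, ‖coeff j g‖ ≤ 1
  const : constantCoeff g = 0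

lemma GS.mono {r K L : ℝ} {f : PowerSeries 𝕂} (h : GS r f K) (hKL : K ≤ L) : GS r f L :=
  fun j => (h j).trans hKL

lemma GS.nonneg {r K : ℝ} {f : PowerSeries 𝕂} (h : GS r f K) (hr : 0 ≤ r) : 0 ≤ K :=
  (mul_nonneg (norm_nonneg _) (pow_nonneg hr _)).trans (h 0)

lemma GS.radius_mono {r r' K : ℝ} {f : PowerSeries 𝕂} (h : GS r f K) (hr' : 0 ≤ r') (hr : r' ≤ r) :
    GS r' f K := fun j =>
  (mul_le_mul_of_nonneg_left (pow_le_pow_left₀ hr' hr j) (norm_nonneg _)).trans (h j)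

lemma gs_of_bdd {f : PowerSeries 𝕂} {r : ℝ} (hr0 : 0 ≤ r) (hr1 : r ≤ 1) (hf : ∀ j, ‖coeff j f‖ ≤ 1) :
    GS r f 1 := fun j =>
  mul_le_one₀ (hf j) (pow_nonneg hr0 j) (pow_le_one₀ hr0 hr1)

lemma GS.term_le {r K : ℝ} {f : PowerSeries 𝕂} (h : GS r f K) (hr : 0 < r) {x : 𝕂} (_hx : ‖x‖ ≤ r)
    (j : ℕ) : ‖coeff j f * x ^ j‖ ≤ K * (‖x‖ / r) ^ j := by
  rw [norm_mul, norm_pow, div_pow]
  have h1 := h j
  have hrj : 0 < r ^ j := pow_pos hr j
  calc ‖coeff j f‖ * ‖x‖ ^ j = (‖coeff j f‖ * r ^ j) * (‖x‖ ^ j / r ^ j) := by field_simp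
    _ ≤ K * (‖x‖ ^ j / r ^ j) := mul_le_mul_of_nonneg_right h1 (by positivity)

lemma GS.summable_norm {r K : ℝ} {f : PowerSeries 𝕂} (h : GS r f K) (hr : 0 < r) {x : 𝕂}
    (hx : ‖x‖ < r) : Summable (fun j => ‖coeff j f * x ^ j‖) := by
  have hq : ‖x‖ / r < 1 := (div_lt_one hr).2 hx
  refine Summable.of_nonneg_of_le (fun _ => norm_nonneg _) (fun j => h.term_le hr hx.le j)
    ((summable_geometric_of_lt_one (by positivity) hq).mul_left K)

lemma GS.summable {r K : ℝ} {f : PowerSeries 𝕂} (h : GS r f K) (hr : 0 < r) {x : 𝕂}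
    (hx : ‖x‖ < r) : Summable (fun j => coeff j f * x ^ j) :=
  (h.summable_norm hr hx).of_norm

lemma GS.norm_ev1_le {r K : ℝ} {f : PowerSeries 𝕂} (h : GS r f K) (hr : 0 < r) {x : 𝕂}
    (hx : ‖x‖ ≤ r) : ‖ev1 f x‖ ≤ K := by
  have hK := h.nonneg hr.le
  apply norm_tsum_le hK
  intro j
  refine (h.term_le hr hx j).trans ?_
  have : (‖x‖ / r) ^ j ≤ 1 := pow_le_one₀ (by positivity) ((div_le_one hr).2 hx)
  nlinarith

lemma GS.add {r K L : ℝ} {f g : PowerSeries 𝕂} (hf : GS r f K) (hg : GS r g L) (hr : 0 ≤ r) :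
    GS r (f + g) (max K L) := by
  intro j
  rw [map_add]
  have h1 : ‖coeff j f + coeff j g‖ ≤ max ‖coeff j f‖ ‖coeff j g‖ :=
    IsUltrametricDist.norm_add_le_max _ _
  have h2 : 0 ≤ r ^ j := pow_nonneg hr j
  calc _ ≤ max ‖coeff j f‖ ‖coeff j g‖ * r ^ j := mul_le_mul_of_nonneg_right h1 h2
    _ ≤ _ := by
      rcases le_total ‖coeff j f‖ ‖coeff j g‖ with h3 | h3
      · rw [max_eq_right h3]; exact (hg j).trans (le_max_right _ _)
      · rw [max_eq_left h3]; exact (hf j).trans (le_max_left _ _)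

lemma GS.sub {r K L : ℝ} {f g : PowerSeries 𝕂} (hf : GS r f K) (hg : GS r g L) (hr : 0 ≤ r) :
    GS r (f - g) (max K L) := by
  have hg' : GS r (-g) L := by
    intro j
    rw [map_neg, norm_neg]
    exact hg j
  rw [sub_eq_add_neg]
  exact hf.add hg' hr

lemma GS.smul {r K : ℝ} {f : PowerSeries 𝕂} (hf : GS r f K) (c : 𝕂) :
    GS r (c • f) (‖c‖ * K) := by
  intro j
  rw [map_smul, smul_eq_mul, norm_mul, mul_assoc]
  exact mul_le_mul_of_nonneg_left (hf j) (norm_nonneg _)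

lemma GS.mul {r K L : ℝ} {f g : PowerSeries 𝕂} (hf : GS r f K) (hg : GS r g L) (hr : 0 < r) :
    GS r (f * g) (K * L) := by
  have hK := hf.nonneg hr.le
  have hL := hg.nonneg hr.le
  intro j
  rw [coeff_mul]
  have key : ‖∑ x ∈ Finset.HasAntidiagonal.antidiagonal j, coeff x.1 f * coeff x.2 g‖ ≤ (K * L) / r ^ j := by
    apply IsUltrametricDist.norm_sum_le_of_forall_le_of_nonneg (by positivity)
    intro x hx
    have hx' : x.1 + x.2 = j := Finset.HasAntidiagonal.mem_antidiagonal.1 hx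
    rw [norm_mul, le_div_iff₀ (pow_pos hr _), ← hx', pow_add]
    calc ‖coeff x.1 f‖ * ‖coeff x.2 g‖ * (r ^ x.1 * r ^ x.2)
        = (‖coeff x.1 f‖ * r ^ x.1) * (‖coeff x.2 g‖ * r ^ x.2) := by ring
      _ ≤ K * L := mul_le_mul (hf x.1) (hg x.2) (mul_nonneg (norm_nonneg _)
          (pow_nonneg hr.le _)) hK
  calc _ ≤ (K * L) / r ^ j * r ^ j := mul_le_mul_of_nonneg_right key (pow_nonneg hr.le _)
    _ = K * L := by field_simp

lemma gs_one {r : ℝ} : GS r (1 : PowerSeries 𝕂) 1 := by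
  intro j
  rw [coeff_one]
  split_ifs with h
  · subst h; simp
  · simp

lemma gs_X {r : ℝ} (hr : 0 ≤ r) : GS r (X : PowerSeries 𝕂) r := by
  intro j
  rw [coeff_X]
  split_ifs with h
  · subst h; simp
  · simpa using hr

lemma gs_C {r : ℝ} (c : 𝕂) : GS r (C c : PowerSeries 𝕂) ‖c‖ := by
  intro j
  rw [coeff_C]
  split_ifs with h
  · subst h; simp
  · simp

lemma GS.pow {r K : ℝ} {f : PowerSeries 𝕂} (hf : GS r f K) (hr : 0 < r) (k : ℕ) :
    GS r (f ^ k) (K ^ k) := by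
  induction k with
  | zero => simpa using gs_one (𝕂 := 𝕂) (r := r)
  | succ k ih =>
    rw [pow_succ, pow_succ]
    exact ih.mul hf hr

lemma ev1_add {r K L : ℝ} {f g : PowerSeries 𝕂} (hf : GS r f K) (hg : GS r g L) (hr : 0 < r) {x : 𝕂}
    (hx : ‖x‖ < r) : ev1 (f + g) x = ev1 f x + ev1 g x := by
  unfold ev1
  rw [← (hf.summable hr hx).tsum_add (hg.summable hr hx)]
  congr 1
  ext j
  rw [map_add, add_mul]

lemma ev1_sub {r K L : ℝ} {f g : PowerSeries 𝕂} (hf : GS r f K) (hg : GS r g L) (hr : 0 < r) {x : 𝕂}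
    (hx : ‖x‖ < r) : ev1 (f - g) x = ev1 f x - ev1 g x := by
  unfold ev1
  rw [← (hf.summable hr hx).tsum_sub (hg.summable hr hx)]
  congr 1
  ext j
  rw [map_sub, sub_mul]

lemma ev1_smul (c : 𝕂) (f : PowerSeries 𝕂) (x : 𝕂) : ev1 (c • f) x = c * ev1 f x := by
  unfold ev1
  rw [← tsum_mul_left]
  congr 1
  ext j
  rw [map_smul, smul_eq_mul, mul_assoc]

lemma ev1_mul {r K L : ℝ} {f g : PowerSeries 𝕂} (hf : GS r f K) (hg : GS r g L) (hr : 0 < r) {x : 𝕂}
    (hx : ‖x‖ < r) : ev1 (f * g) x = ev1 f x * ev1 g x := by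
  unfold ev1
  rw [tsum_mul_tsum_eq_tsum_sum_antidiagonal_of_summable_norm (hf.summable_norm hr hx)
    (hg.summable_norm hr hx)]
  congr 1
  ext j
  rw [coeff_mul, Finset.sum_mul]
  apply Finset.sum_congr rfl
  intro y hy
  have hy' : y.1 + y.2 = j := Finset.HasAntidiagonal.mem_antidiagonal.1 hy
  rw [← hy', pow_add]
  ring

lemma ev1_X (x : 𝕂) : ev1 (X : PowerSeries 𝕂) x = x := by
  unfold ev1
  rw [tsum_eq_single 1]
  · simp
  · intro j hj
    rw [coeff_X, if_neg hj, zero_mul]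

lemma ev1_C (c x : 𝕂) : ev1 (C c : PowerSeries 𝕂) x = c := by
  unfold ev1
  rw [tsum_eq_single 0]
  · simp
  · intro j hj
    rw [coeff_C, if_neg hj, zero_mul]

lemma ev1_one (x : 𝕂) : ev1 (1 : PowerSeries 𝕂) x = 1 := by
  simpa using ev1_C (1 : 𝕂) x

lemma ev1_pow {r K : ℝ} {f : PowerSeries 𝕂} (hf : GS r f K) (hr : 0 < r) {x : 𝕂}
    (hx : ‖x‖ < r) (k : ℕ) : ev1 (f ^ k) x = ev1 f x ^ k := by
  induction k with
  | zero => simpa using ev1_one x
  | succ k ih =>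
    rw [pow_succ, pow_succ, ev1_mul (hf.pow hr k) hf hr hx, ih]

section chain

lemma IsBdd0.hasSubst {g : PowerSeries 𝕂} (hg : IsBdd0 g) : HasSubst g :=
  HasSubst.of_constantCoeff_zero' hg.const

lemma IsBdd0.gs {g : PowerSeries 𝕂} (hg : IsBdd0 g) {r : ℝ} (hr0 : 0 ≤ r) (hr1 : r ≤ 1) : GS r g r := by
  intro j
  cases j with
  | zero =>
    have : coeff 0 g = 0 := by simpa using hg.const
    simpa [this] using hr0
  | succ j =>
    rw [pow_succ]
    have h1 : r ^ j ≤ 1 := pow_le_one₀ hr0 hr1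
    have h2 := hg.norm_le (j + 1)
    nlinarith [norm_nonneg (coeff (j + 1) g), mul_nonneg (norm_nonneg (coeff (j + 1) g)) hr0]

lemma IsBdd0.norm_ev1_le {g : PowerSeries 𝕂} (hg : IsBdd0 g) {x : 𝕂} (hx : ‖x‖ ≤ 1) :
    ‖ev1 g x‖ ≤ ‖x‖ := by
  apply norm_tsum_le (norm_nonneg _)
  intro j
  cases j with
  | zero =>
    have : coeff 0 g = 0 := by simpa using hg.const
    simp [this]
  | succ j =>
    rw [norm_mul, norm_pow, pow_succ]
    have h1 : ‖x‖ ^ j ≤ 1 := pow_le_one₀ (norm_nonneg _) hx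
    have h2 := hg.norm_le (j + 1)
    have h3 : ‖coeff (j + 1) g‖ * (‖x‖ ^ j * ‖x‖) ≤ 1 * (1 * ‖x‖) := by
      apply mul_le_mul h2 _ (by positivity) zero_le_one
      exact mul_le_mul_of_nonneg_right h1 (norm_nonneg _)
    simpa using h3

lemma pow_order {g : PowerSeries 𝕂} (hg : IsBdd0 g) (d j : ℕ) (hj : j < d) : coeff j (g ^ d) = 0 := by
  have hX : (X : PowerSeries 𝕂) ∣ g := by
    rw [X_dvd_iff]; simpa using hg.const
  have hXd : (X : PowerSeries 𝕂) ^ d ∣ g ^ d := pow_dvd_pow_of_dvd hX d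
  exact (X_pow_dvd_iff.1 hXd) j hj

lemma pow_bdd {g : PowerSeries 𝕂} (hg : IsBdd0 g) (d j : ℕ) : ‖coeff j (g ^ d)‖ ≤ 1 := by
  have h := (gs_of_bdd (r := 1) zero_le_one le_rfl hg.norm_le).pow one_pos d
  have h2 := h j
  simpa using h2

/-- substitution does not increase the Gauss norm. -/
lemma GS.subst {r K : ℝ} {f g : PowerSeries 𝕂} (hf : GS r f K) (hg : IsBdd0 g) (hr0 : 0 < r)
    (hr1 : r ≤ 1) : GS r (f.subst g) K := by
  have hK := hf.nonneg hr0.le
  intro j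
  have hfin := coeff_subst_finite' hg.hasSubst f j
  rw [coeff_subst' hg.hasSubst, finsum_eq_sum _ hfin]
  have key : ‖∑ d ∈ hfin.toFinset, coeff d f • coeff j (g ^ d)‖ ≤ K / r ^ j := by
    apply IsUltrametricDist.norm_sum_le_of_forall_le_of_nonneg (by positivity)
    intro d _
    rw [smul_eq_mul, norm_mul, le_div_iff₀ (pow_pos hr0 _)]
    by_cases hj : j < d
    · rw [pow_order hg d j hj]; simpa using hK
    · have h1 : r ^ j ≤ r ^ d := pow_le_pow_of_le_one hr0.le hr1 (by omega)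
      calc ‖coeff d f‖ * ‖coeff j (g ^ d)‖ * r ^ j ≤ ‖coeff d f‖ * 1 * r ^ d := by
            gcongr
            exact pow_bdd hg d j
        _ ≤ K := by simpa using hf d
  calc _ ≤ K / r ^ j * r ^ j := mul_le_mul_of_nonneg_right key (pow_nonneg hr0.le _)
    _ = K := by field_simp

/-- the chain rule for a monomial. -/
lemma ev1_subst_monomial {g : PowerSeries 𝕂} (hg : IsBdd0 g) {x : 𝕂} (hx : ‖x‖ < 1) (c : 𝕂) (d : ℕ) :
    ev1 ((C c * X ^ d : PowerSeries 𝕂).subst g) x = c * ev1 g x ^ d := by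
  have hs := hg.hasSubst
  have h1 : (C c * X ^ d : PowerSeries 𝕂).subst g = c • g ^ d := by
    rw [subst_mul hs, subst_pow hs, subst_X hs, subst_C]
    rw [smul_eq_C_mul]
    rfl
  rw [h1, ev1_smul, ev1_pow (hg.gs (r := 1) zero_le_one le_rfl) one_pos hx]

/-- truncation -/
noncomputable def truncS (f : PowerSeries 𝕂) (D : ℕ) : PowerSeries 𝕂 :=
  ∑ d ∈ Finset.range D, (C (coeff d f) * X ^ d)

lemma coeff_truncS (f : PowerSeries 𝕂) (D j : ℕ) :
    coeff j (truncS f D) = if j < D then coeff j f else 0 := by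
  classical
  rw [truncS, map_sum]
  simp only [coeff_C_mul, coeff_X_pow]
  by_cases hj : j < D
  · rw [if_pos hj, Finset.sum_eq_single j]
    · simp
    · intro b _ hb
      rw [if_neg (fun h => hb h.symm), mul_zero]
    · intro h
      exact absurd (Finset.mem_range.2 hj) h
  · rw [if_neg hj]
    apply Finset.sum_eq_zero
    intro d hd
    have : j ≠ d := fun h => hj (h ▸ Finset.mem_range.1 hd)
    rw [if_neg this, mul_zero]

lemma GS.rest {r r' K : ℝ} {f : PowerSeries 𝕂} (hf : GS r f K) (hr : 0 < r) (hr'0 : 0 < r')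
    (hr' : r' ≤ r) (D : ℕ) : GS r' (f - truncS f D) (K * (r' / r) ^ D) := by
  have hK := hf.nonneg hr.le
  intro j
  rw [map_sub, coeff_truncS]
  by_cases hj : j < D
  · rw [if_pos hj, sub_self, norm_zero, zero_mul]
    positivity
  · rw [if_neg hj, sub_zero]
    have hq0 : 0 ≤ r' / r := by positivity
    have hq1 : r' / r ≤ 1 := (div_le_one hr).2 hr'
    have h1 : (r' / r) ^ j ≤ (r' / r) ^ D := pow_le_pow_of_le_one hq0 hq1 (by omega)
    calc ‖coeff j f‖ * r' ^ j = (‖coeff j f‖ * r ^ j) * (r' / r) ^ j := by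
          rw [div_pow]; field_simp
      _ ≤ K * (r' / r) ^ D := mul_le_mul (hf j) h1 (by positivity) hK

lemma gs_truncS {r K : ℝ} {f : PowerSeries 𝕂} (hf : GS r f K) (hr : 0 ≤ r) (D : ℕ) :
    GS r (truncS f D) K := by
  have hK := hf.nonneg hr
  intro j
  rw [coeff_truncS]
  split_ifs
  · exact hf j
  · simpa using hK

lemma truncS_succ (f : PowerSeries 𝕂) (D : ℕ) :
    truncS f (D + 1) = truncS f D + C (coeff D f) * X ^ D := by
  rw [truncS, Finset.sum_range_succ, truncS]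

lemma exists_gs_truncS (f : PowerSeries 𝕂) (D : ℕ) : ∃ K, GS 1 (truncS f D) K := by
  induction D with
  | zero =>
    refine ⟨0, fun j => ?_⟩
    simp [truncS]
  | succ D ih =>
    obtain ⟨K, hK⟩ := ih
    have h1 : GS 1 (C (coeff D f) * X ^ D : PowerSeries 𝕂) (‖coeff D f‖ * 1 ^ D) :=
      (gs_C _).mul ((gs_X zero_le_one).pow one_pos D) one_pos
    rw [truncS_succ]
    exact ⟨_, hK.add h1 zero_le_one⟩

lemma exists_gs_monomial (c : 𝕂) (D : ℕ) : ∃ K, GS 1 (C c * X ^ D : PowerSeries 𝕂) K :=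
  ⟨_, (gs_C _).mul ((gs_X zero_le_one).pow one_pos D) one_pos⟩

/-- the chain rule for a polynomial-truncation. -/
lemma ev1_subst_truncS {f g : PowerSeries 𝕂} (hg : IsBdd0 g) {x : 𝕂} (hx : ‖x‖ < 1) (D : ℕ) :
    ev1 ((truncS f D).subst g) x = ev1 (truncS f D) (ev1 g x) := by
  have hs := hg.hasSubst
  have hgx : ‖ev1 g x‖ < 1 := (hg.norm_ev1_le hx.le).trans_lt hx
  induction D with
  | zero =>
    have h0 : ((0 : PowerSeries 𝕂).subst g) = 0 := by
      rw [← coe_substAlgHom hs]; simp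
    simp [truncS, ev1, h0]
  | succ D ih =>
    obtain ⟨K, hK⟩ := exists_gs_truncS f D
    obtain ⟨L, hL⟩ := exists_gs_monomial (coeff D f) D
    rw [truncS_succ, subst_add hs]
    rw [ev1_add (hK.subst hg one_pos le_rfl) (hL.subst hg one_pos le_rfl) one_pos hx, ih,
      ev1_subst_monomial hg hx, ev1_add hK hL one_pos hgx]
    have : ev1 (C (coeff D f) * X ^ D : PowerSeries 𝕂) (ev1 g x) = coeff D f * ev1 g x ^ D := by
      rw [ev1_mul (gs_C _) ((gs_X zero_le_one).pow one_pos D) one_pos hgx, ev1_C,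
        ev1_pow (gs_X zero_le_one) one_pos hgx, ev1_X]
    rw [this]

/-- **Chain rule**: `f (g x) = (f ∘ g) x`. -/
theorem ev1_subst {r K : ℝ} {f g : PowerSeries 𝕂} (hf : GS r f K) (hg : IsBdd0 g) (hr1 : r ≤ 1)
    {x : 𝕂} (hx : ‖x‖ < r) :
    ev1 (f.subst g) x = ev1 f (ev1 g x) := by
  have hr0 : 0 < r := (norm_nonneg x).trans_lt hx
  have hx1 : ‖x‖ < 1 := hx.trans_le hr1
  have hK := hf.nonneg hr0.le
  have hs := hg.hasSubst
  have hgx : ‖ev1 g x‖ ≤ ‖x‖ := hg.norm_ev1_le hx1.le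
  -- an intermediate radius
  set r' : ℝ := (‖x‖ + r) / 2 with hr'
  have hr'0 : 0 < r' := by rw [hr']; positivity
  have hxr' : ‖x‖ < r' := by rw [hr']; linarith
  have hr'r : r' < r := by rw [hr']; linarith
  have hr'1 : r' ≤ 1 := hr'r.le.trans hr1
  have hq0 : 0 ≤ r' / r := by positivity
  have hq1 : r' / r < 1 := (div_lt_one hr0).2 hr'r
  have hlim : Tendsto (fun D : ℕ => K * (r' / r) ^ D) atTop (𝓝 0) := by
    simpa using (tendsto_pow_atTop_nhds_zero_of_lt_one hq0 hq1).const_mul K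
  have key : ∀ D : ℕ, ‖ev1 (f.subst g) x - ev1 f (ev1 g x)‖ ≤ K * (r' / r) ^ D := by
    intro D
    have hrest := hf.rest hr0 hr'0 hr'r.le D
    have htr := gs_truncS hf hr0.le D
    have htr' := htr.radius_mono hr'0.le hr'r.le
    have hfr' := hf.radius_mono hr'0.le hr'r.le
    have hdec : f = truncS f D + (f - truncS f D) := by ring
    have h1 : ev1 (f.subst g) x = ev1 ((truncS f D).subst g) x +
        ev1 ((f - truncS f D).subst g) x := by
      conv_lhs => rw [hdec, subst_add hs]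
      rw [ev1_add (htr'.subst hg hr'0 hr'1) (hrest.subst hg hr'0 hr'1) hr'0 hxr']
    have h2 : ev1 f (ev1 g x) = ev1 (truncS f D) (ev1 g x) + ev1 (f - truncS f D) (ev1 g x) := by
      conv_lhs => rw [hdec]
      exact ev1_add htr' hrest hr'0 (hgx.trans_lt hxr')
    rw [h1, h2, ev1_subst_truncS hg hx1, add_sub_add_left_eq_sub]
    have hK' : 0 ≤ K * (r' / r) ^ D := by positivity
    rw [sub_eq_add_neg]
    refine (IsUltrametricDist.norm_add_le_max _ _).trans (max_le ?_ ?_)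
    · exact (hrest.subst hg hr'0 hr'1).norm_ev1_le hr'0 hxr'.le
    · rw [norm_neg]
      exact hrest.norm_ev1_le hr'0 (hgx.trans hxr'.le)
  have hzero : ‖ev1 (f.subst g) x - ev1 f (ev1 g x)‖ ≤ 0 :=
    ge_of_tendsto' hlim key
  have := norm_le_zero_iff.1 hzero
  exact sub_eq_zero.1 this

end chain

end Crest.Agent.Lib.LT.Eval1
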