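import Mathlib

/-!
# Formal implicit function theorem in one dependent variable

If `G ∈ K⟦σ⟧` has zero constant term and a unit coefficient at the variable `i0`, there is
`g ∈ K⟦σ \ {i0}⟧` without constant term with `G(g, X_b) = 0`.  Proof: contraction for the order.
-/

set_option autoImplicit false

namespace Crest.Agent.Lib.LT.FormalIFT

open MvPowerSeries Finsupp

variable {σ τ K : Type*} [Field K]

/-- `u` has order at least `n`. -/
def Ord (n : ℕ) (u : MvPowerSeries τ K) : Prop := ∀ e : τ →₀ ℕ, degree e < n → coeff e u = 0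

lemma Ord.mono {m n : ℕ} {u : MvPowerSeries τ K} (h : Ord n u) (hmn : m ≤ n) : Ord m u :=
  fun e he => h e (by omega)

lemma Ord.add {n : ℕ} {u v : MvPowerSeries τ K} (hu : Ord n u) (hv : Ord n v) : Ord n (u + v) :=
  fun e he => by rw [map_add, hu e he, hv e he, add_zero]

lemma Ord.sub {n : ℕ} {u v : MvPowerSeries τ K} (hu : Ord n u) (hv : Ord n v) : Ord n (u - v) :=
  fun e he => by rw [map_sub, hu e he, hv e he, sub_zero]

lemma Ord.zero (n : ℕ) : Ord n (0 : MvPowerSeries τ K) := fun e _ => by simp

lemma Ord.C_mul {n : ℕ} {u : MvPowerSeries τ K} (a : K) (hu : Ord n u) : Ord n (C a * u) :=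
  fun e he => by rw [coeff_C_mul, hu e he, mul_zero]

lemma Ord.mul {a b : ℕ} {u v : MvPowerSeries τ K} (hu : Ord a u) (hv : Ord b v) :
    Ord (a + b) (u * v) := by
  classical
  intro e he
  rw [coeff_mul]
  refine Finset.sum_eq_zero fun x hx => ?_
  have hx' : x.1 + x.2 = e := by simpa using hx
  have hdeg : degree x.1 + degree x.2 = degree e := by rw [← hx', map_add]
  by_cases h : degree x.1 < a
  · rw [hu _ h, zero_mul]
  · rw [hv x.2 (by omega), mul_zero]

lemma ord_one_iff {u : MvPowerSeries τ K} : Ord 1 u ↔ constantCoeff u = 0 := by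
  constructor
  · intro h
    have := h 0 (by simp)
    simpa using this
  · intro h e he
    have : e = 0 := (degree_eq_zero_iff e).mp (by omega)
    subst this
    simpa using h

lemma ord_zero (u : MvPowerSeries τ K) : Ord 0 u := fun _ he => absurd he (by omega)

section Prod

variable (a a' : σ → MvPowerSeries τ K)

lemma ord_pow {u : MvPowerSeries τ K} (hu : Ord 1 u) (k : ℕ) : Ord k (u ^ k) := by
  induction k with
  | zero => exact ord_zero _
  | succ k ih =>
    rw [pow_succ]
    exact ih.mul hu

lemma prod_ord (ha : ∀ i, Ord 1 (a i)) (d : σ →₀ ℕ) :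
    Ord (degree d) (d.prod fun s e => a s ^ e) := by
  classical
  induction d using Finsupp.induction_linear with
  | zero => simpa using ord_zero _
  | add f g hf hg =>
    rw [Finsupp.prod_add_index' (by simp) (by intros; exact pow_add _ _ _), map_add]
    exact hf.mul hg
  | single i k =>
    rw [Finsupp.prod_single_index (by simp), degree_single]
    exact ord_pow (ha i) k

lemma pow_diff_ord {u v : MvPowerSeries τ K} {n : ℕ} (hu : Ord 1 u) (hv : Ord 1 v)
    (h : Ord n (u - v)) (k : ℕ) : Ord (n + k - 1) (u ^ k - v ^ k) := by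
  induction k with
  | zero => simpa using Ord.zero _
  | succ k ih =>
    have e : u ^ (k + 1) - v ^ (k + 1) = u ^ k * (u - v) + (u ^ k - v ^ k) * v := by ring
    rw [e]
    refine Ord.add (((ord_pow hu k).mul h).mono (by omega)) ((ih.mul hv).mono (by omega))

lemma prod_diff_ord {n : ℕ} (ha : ∀ i, Ord 1 (a i)) (ha' : ∀ i, Ord 1 (a' i))
    (h : ∀ i, Ord n (a i - a' i)) (d : σ →₀ ℕ) :
    Ord (n + degree d - 1) ((d.prod fun s e => a s ^ e) - (d.prod fun s e => a' s ^ e)) := by
  classical
  induction d using Finsupp.induction_linear with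
  | zero => simpa using Ord.zero _
  | add f g hf hg =>
    rw [Finsupp.prod_add_index' (by simp) (by intros; exact pow_add _ _ _),
      Finsupp.prod_add_index' (by simp) (by intros; exact pow_add _ _ _), map_add]
    set A := f.prod fun s e => a s ^ e
    set B := g.prod fun s e => a s ^ e
    set A' := f.prod fun s e => a' s ^ e
    set B' := g.prod fun s e => a' s ^ e
    have e : A * B - A' * B' = A * (B - B') + (A - A') * B' := by ring
    rw [e]
    have hA : Ord (degree f) A := prod_ord a ha f
    have hB' : Ord (degree g) B' := prod_ord a' ha' g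
    exact Ord.add ((hA.mul hg).mono (by omega)) ((hf.mul hB').mono (by omega))
  | single i k =>
    rw [Finsupp.prod_single_index (by simp), Finsupp.prod_single_index (by simp), degree_single]
    exact pow_diff_ord (ha i) (ha' i) (h i) k

end Prod

section Subst

variable [Finite σ] {a a' : σ → MvPowerSeries τ K}

lemma hasSubst_of_ord (ha : ∀ i, Ord 1 (a i)) : HasSubst a :=
  hasSubst_of_constantCoeff_zero fun i => ord_one_iff.mp (ha i)

lemma subst_ord (ha : ∀ i, Ord 1 (a i)) {m : ℕ} {f : MvPowerSeries σ K} (hf : Ord m f) :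
    Ord m (f.subst a) := by
  intro e he
  rw [coeff_subst (hasSubst_of_ord ha)]
  refine finsum_eq_zero_of_forall_eq_zero fun d => ?_
  by_cases hd : degree d < m
  · rw [hf d hd, zero_smul]
  · rw [prod_ord a ha d e (by omega), smul_zero]

/-- If `f` has order `≥ 2` then substitution is a contraction. -/
lemma subst_congr (ha : ∀ i, Ord 1 (a i)) (ha' : ∀ i, Ord 1 (a' i)) {n : ℕ} (hn : 1 ≤ n)
    (h : ∀ i, Ord n (a i - a' i)) {f : MvPowerSeries σ K} (hf : Ord 2 f) :
    Ord (n + 1) (f.subst a - f.subst a') := by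
  intro e he
  rw [map_sub, coeff_subst (hasSubst_of_ord ha), coeff_subst (hasSubst_of_ord ha'), sub_eq_zero]
  refine finsum_congr fun d => ?_
  by_cases hd : degree d < 2
  · rw [hf d hd, zero_smul, zero_smul]
  · have := prod_diff_ord a a' ha ha' h d e (by omega)
    rw [map_sub, sub_eq_zero] at this
    rw [this]

end Subst

section IFT

variable [Fintype σ] [DecidableEq σ]

/-- The substitution `X_{i0} ↦ g`, `X_b ↦ X_b`. -/
noncomputable def aG (i0 : σ) (g : MvPowerSeries {b : σ // b ≠ i0} K) :
    σ → MvPowerSeries {b : σ // b ≠ i0} K :=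
  fun i => if h : i = i0 then g else X ⟨i, h⟩

lemma aG_self (i0 : σ) (g : MvPowerSeries {b : σ // b ≠ i0} K) : aG i0 g i0 = g := by
  simp [aG]

lemma aG_ne (i0 : σ) (g : MvPowerSeries {b : σ // b ≠ i0} K) (b : {b : σ // b ≠ i0}) :
    aG i0 g b = X b := by
  simp [aG, b.2]

lemma aG_ord (i0 : σ) {g : MvPowerSeries {b : σ // b ≠ i0} K} (hg : Ord 1 g) (i : σ) :
    Ord 1 (aG i0 g i) := by
  by_cases h : i = i0
  · subst h
    rwa [aG_self]
  · have : aG i0 g i = X ⟨i, h⟩ := aG_ne i0 g ⟨i, h⟩
    rw [this, ord_one_iff]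
    simp

lemma aG_diff (i0 : σ) {g g' : MvPowerSeries {b : σ // b ≠ i0} K} {n : ℕ} (h : Ord n (g - g'))
    (i : σ) : Ord n (aG i0 g i - aG i0 g' i) := by
  by_cases hi : i = i0
  · subst hi
    rwa [aG_self, aG_self]
  · have h1 : aG i0 g i = X ⟨i, hi⟩ := aG_ne i0 g ⟨i, hi⟩
    have h2 : aG i0 g' i = X ⟨i, hi⟩ := aG_ne i0 g' ⟨i, hi⟩
    rw [h1, h2, sub_self]
    exact Ord.zero _

/-- The linear part. -/
noncomputable def linPart (G : MvPowerSeries σ K) : MvPowerSeries σ K :=
  ∑ j : σ, C (coeff (single j 1) G) * X j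

lemma coeff_linPart (G : MvPowerSeries σ K) (e : σ →₀ ℕ) :
    coeff e (linPart G) = ∑ j : σ, if e = single j 1 then coeff (single j 1) G else 0 := by
  simp only [linPart, map_sum, coeff_C_mul, coeff_X]
  refine Finset.sum_congr rfl fun j _ => ?_
  split_ifs <;> simp

lemma ord_two_sub_linPart (G : MvPowerSeries σ K) (hG : constantCoeff G = 0) :
    Ord 2 (G - linPart G) := by
  intro e he
  rw [map_sub, coeff_linPart]
  by_cases h0 : degree e = 0
  · have : e = 0 := (degree_eq_zero_iff e).mp h0
    subst this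
    have : ∀ j : σ, ¬ (0 : σ →₀ ℕ) = single j 1 := by
      intro j hj
      have := congrArg degree hj
      simp at this
    simp [this, hG]
  · have h1 : degree e = 1 := by omega
    obtain ⟨j, rfl⟩ : ∃ j, e = single j 1 := by
      have h2 : e ≠ 0 := fun h => h0 (by simp [h])
      obtain ⟨j, hj⟩ : ∃ j, e j ≠ 0 := by
        by_contra hc
        push Not at hc
        exact h2 (Finsupp.ext hc)
      refine ⟨j, ?_⟩
      have hsum : ∑ i ∈ e.support, e i = 1 := h1
      have hjs : j ∈ e.support := by simpa using hj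
      ext i
      by_cases hij : j = i
      · subst hij
        have := Finset.single_le_sum (f := fun i => e i) (fun i _ => Nat.zero_le _) hjs
        simp only [hsum] at this
        simp only [single_eq_same]
        omega
      · rw [single_eq_of_ne (by tauto)]
        by_contra hei
        have his : i ∈ e.support := by simpa using hei
        have : e j + e i ≤ ∑ i ∈ e.support, e i := by
          have := Finset.add_le_sum (f := fun i => e i) (fun i _ => Nat.zero_le _) hjs his hij
          exact this
        omega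
    rw [Finset.sum_eq_single j]
    · simp
    · intro b _ hb
      rw [if_neg]
      intro h
      have := (single_left_inj (b := 1) (one_ne_zero)).mp h
      exact hb this.symm
    · simp

lemma subst_linPart (i0 : σ) (G : MvPowerSeries σ K) {g : MvPowerSeries {b : σ // b ≠ i0} K}
    (hg : Ord 1 g) :
    (linPart G).subst (aG i0 g) = C (coeff (single i0 1) G) * g +
      ∑ b : {b : σ // b ≠ i0}, C (coeff (single (b : σ) 1) G) * X b := by
  have hs := hasSubst_of_ord (aG_ord i0 hg)
  rw [linPart, ← substAlgHom_apply hs, map_sum]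
  rw [Fintype.sum_eq_add_sum_subtype_ne _ i0]
  congr 1
  · rw [map_mul, substAlgHom_X hs, aG_self]
    congr 1
    rw [substAlgHom_apply hs, subst_C]
  · refine Finset.sum_congr rfl fun b _ => ?_
    rw [map_mul, substAlgHom_X hs, aG_ne]
    congr 1
    rw [substAlgHom_apply hs, subst_C]

/-- **Formal implicit function theorem.** -/
theorem exists_implicit (i0 : σ) (G : MvPowerSeries σ K) (hG : constantCoeff G = 0)
    (hc : coeff (single i0 1) G ≠ 0) :
    ∃ g : MvPowerSeries {b : σ // b ≠ i0} K, constantCoeff g = 0 ∧ G.subst (aG i0 g) = 0 := by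
  classical
  set c := coeff (single i0 1) G with hc_def
  set L : MvPowerSeries {b : σ // b ≠ i0} K :=
    ∑ b : {b : σ // b ≠ i0}, C (coeff (single (b : σ) 1) G) * X b with hL
  set W := G - linPart G with hW
  have hW2 : Ord 2 W := ord_two_sub_linPart G hG
  have hL1 : Ord 1 L := by
    rw [ord_one_iff, hL, map_sum]
    refine Finset.sum_eq_zero fun b _ => ?_
    simp
  let T : MvPowerSeries {b : σ // b ≠ i0} K → MvPowerSeries {b : σ // b ≠ i0} K :=
    fun g => C (-c⁻¹) * (L + W.subst (aG i0 g))
  have hT1 : ∀ g, Ord 1 g → Ord 1 (T g) := fun g hg =>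
    (hL1.add (subst_ord (aG_ord i0 hg) (hW2.mono (by omega)))).C_mul _
  have hT2 : ∀ g g' n, 1 ≤ n → Ord 1 g → Ord 1 g' → Ord n (g - g') → Ord (n + 1) (T g - T g') := by
    intro g g' n hn hg hg' h
    have e : T g - T g' = C (-c⁻¹) * (W.subst (aG i0 g) - W.subst (aG i0 g')) := by
      simp only [T]
      ring
    rw [e]
    exact (subst_congr (aG_ord i0 hg) (aG_ord i0 hg') hn (aG_diff i0 h) hW2).C_mul _
  let g : ℕ → MvPowerSeries {b : σ // b ≠ i0} K := fun k => T^[k] 0
  have hgs : ∀ k, g (k + 1) = T (g k) := fun k => Function.iterate_succ_apply' T k 0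
  have hg1 : ∀ k, Ord 1 (g k) := by
    intro k
    induction k with
    | zero => exact Ord.zero _
    | succ k ih => rw [hgs]; exact hT1 _ ih
  have hstep : ∀ k, Ord (k + 1) (g (k + 1) - g k) := by
    intro k
    induction k with
    | zero => exact (hg1 1).sub (hg1 0)
    | succ k ih =>
      have h3 := hT2 (g (k + 1)) (g k) (k + 1) (by omega) (hg1 _) (hg1 _) ih
      rw [hgs (k + 1)]
      rw [← hgs k] at h3
      exact h3
  have hchain : ∀ k j, k ≤ j → Ord k (g j - g k) := by
    intro k j hkj
    induction j, hkj using Nat.le_induction with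
    | base => simpa using Ord.zero _
    | succ j hj ih =>
      have e : g (j + 1) - g k = (g (j + 1) - g j) + (g j - g k) := by ring
      rw [e]
      exact ((hstep j).mono (by omega)).add ih
  let gi : MvPowerSeries {b : σ // b ≠ i0} K := fun e => coeff e (g (degree e + 1))
  have hgi : ∀ e, coeff e gi = coeff e (g (degree e + 1)) := fun e => rfl
  have hgik : ∀ k, Ord k (gi - g k) := by
    intro k e he
    rw [map_sub, hgi, sub_eq_zero]
    have := hchain (degree e + 1) k (by omega) e (by omega)
    rw [map_sub, sub_eq_zero] at this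
    exact this.symm
  have hgi1 : Ord 1 gi := by
    have := (hgik 1).add (hg1 1)
    simpa using this
  have hfix : T gi = gi := by
    ext e
    set k := degree e + 1 with hk
    have h1 := hT2 gi (g k) k (by omega) hgi1 (hg1 k) (hgik k) e (by omega)
    rw [map_sub, sub_eq_zero, ← hgs] at h1
    have h2 := hgik (k + 1) e (by omega)
    rw [map_sub, sub_eq_zero] at h2
    rw [h1, h2]
  refine ⟨gi, ord_one_iff.mp hgi1, ?_⟩
  have hs := hasSubst_of_ord (aG_ord i0 hgi1)
  have hGW : G = linPart G + W := by rw [hW]; ring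
  rw [hGW, subst_add hs, subst_linPart i0 G hgi1, ← hc_def]
  have : C c * gi + L + W.subst (aG i0 gi) = C c * (gi - T gi) := by
    simp only [T]
    have hcc : (C c : MvPowerSeries {b : σ // b ≠ i0} K) * C (-c⁻¹) = -1 := by
      rw [← map_mul]
      rw [mul_neg, mul_inv_cancel₀ hc]
      simp
    have : C c * (gi - C (-c⁻¹) * (L + W.subst (aG i0 gi))) =
        C c * gi - (C c * C (-c⁻¹)) * (L + W.subst (aG i0 gi)) := by ring
    rw [this, hcc]
    ring
  rw [this, hfix, sub_self, mul_zero]

end IFT

end Crest.Agent.Lib.LT.FormalIFT
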