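import Mathlib
import Crest.Agent.Lib.LT.FormalIFT

/-!
# Evaluation of multivariate power series with bounded coefficients on the open polydisc

`R` is a complete ultrametric normed field, `σ` a finite type. For `f : MvPowerSeries σ R` with
`‖coeff‖ ≤ 1` and `x : σ → R` with `‖x‖ < 1` (sup norm),
`ev f x = ∑' m, coeff m f * x ^ m`.  It is additive and multiplicative, bounded by `‖x‖ ^ n` if
`f` has order `≥ n`, compatible with substitution, and with partial evaluation in a block of
variables.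
-/

set_option autoImplicit false

namespace Crest.Agent.Lib.LT.EvalS

open MvPowerSeries Finsupp Filter Topology
open Crest.Agent.Lib.LT.FormalIFT (Ord)

variable {R : Type*} [NormedField R] [IsUltrametricDist R] [CompleteSpace R]
variable {σ τ : Type*}

/-- Series with coefficients of norm at most one. -/
def IntS (f : MvPowerSeries σ R) : Prop := ∀ m, ‖coeff m f‖ ≤ 1

/-- The monomial `x ^ m`. -/
noncomputable def mono (x : σ → R) (m : σ →₀ ℕ) : R := m.prod fun i e => x i ^ e

/-- Evaluation. -/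
noncomputable def ev (f : MvPowerSeries σ R) (x : σ → R) : R := ∑' m, coeff m f * mono x m

lemma mono_add [DecidableEq σ] (x : σ → R) (a b : σ →₀ ℕ) : mono x (a + b) = mono x a * mono x b :=
  Finsupp.prod_add_index' (by simp) (by intros; exact pow_add _ _ _)

@[simp] lemma mono_zero (x : σ → R) : mono x 0 = 1 := by simp [mono]

lemma mono_single (x : σ → R) (i : σ) (k : ℕ) : mono x (single i k) = x i ^ k := by
  simp [mono]

lemma norm_mono_le [Fintype σ] (x : σ → R) (m : σ →₀ ℕ) : ‖mono x m‖ ≤ ‖x‖ ^ degree m := by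
  classical
  induction m using Finsupp.induction_linear with
  | zero => simp
  | add f g hf hg =>
    rw [mono_add, map_add, pow_add, norm_mul]
    exact mul_le_mul hf hg (norm_nonneg _) (by positivity)
  | single i k =>
    rw [mono_single, degree_single, norm_pow]
    exact pow_le_pow_left₀ (norm_nonneg _) (norm_le_pi_norm x i) k

variable [Fintype σ] [Fintype τ]

lemma tendsto_degree_cofinite : Tendsto (fun m : σ →₀ ℕ => degree m) cofinite atTop := by
  rw [tendsto_atTop]
  intro N
  have : {m : σ →₀ ℕ | degree m < N}.Finite := finite_of_degree_lt N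
  filter_upwards [this.compl_mem_cofinite] with m hm
  simpa using hm

lemma tendsto_pow_degree {ρ : ℝ} (h0 : 0 ≤ ρ) (h1 : ρ < 1) :
    Tendsto (fun m : σ →₀ ℕ => ρ ^ degree m) cofinite (𝓝 0) :=
  (tendsto_pow_atTop_nhds_zero_of_lt_one h0 h1).comp tendsto_degree_cofinite

lemma summable_of_bound {ι : Type*} {u : ι → R} {v : ι → ℝ} (hv : Tendsto v cofinite (𝓝 0))
    (h : ∀ i, ‖u i‖ ≤ v i) : Summable u := by
  apply NonarchimedeanAddGroup.summable_of_tendsto_cofinite_zero
  rw [tendsto_zero_iff_norm_tendsto_zero]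
  exact squeeze_zero (fun _ => norm_nonneg _) h hv

lemma norm_term_le {f : MvPowerSeries σ R} (hf : IntS f) (x : σ → R) (m : σ →₀ ℕ) :
    ‖coeff m f * mono x m‖ ≤ ‖x‖ ^ degree m := by
  rw [norm_mul]
  calc ‖coeff m f‖ * ‖mono x m‖ ≤ 1 * ‖mono x m‖ := by gcongr; exact hf m
    _ ≤ _ := by rw [one_mul]; exact norm_mono_le x m

lemma summable_ev {f : MvPowerSeries σ R} (hf : IntS f) {x : σ → R} (hx : ‖x‖ < 1) :
    Summable fun m => coeff m f * mono x m :=
  summable_of_bound (tendsto_pow_degree (norm_nonneg _) hx) (norm_term_le hf x)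

lemma norm_tsum_le_bound {ι : Type*} {u : ι → R} {C : ℝ} (hC : 0 ≤ C) (h : ∀ i, ‖u i‖ ≤ C) :
    ‖∑' i, u i‖ ≤ C :=
  IsUltrametricDist.norm_tsum_le_of_forall_le_of_nonneg hC h

/-- Bound by the order. -/
lemma norm_ev_le_of_ord {f : MvPowerSeries σ R} (hf : IntS f) {x : σ → R} (hx : ‖x‖ < 1) {n : ℕ}
    (hn : Ord n f) : ‖ev f x‖ ≤ ‖x‖ ^ n := by
  refine norm_tsum_le_bound (by positivity) fun m => ?_
  by_cases hm : degree m < n
  · rw [hn m hm, zero_mul, norm_zero]
    positivity
  · exact (norm_term_le hf x m).trans (pow_le_pow_of_le_one (norm_nonneg _) hx.le (by omega))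

lemma norm_ev_le {f : MvPowerSeries σ R} (hf : IntS f) {x : σ → R} (hx : ‖x‖ < 1) :
    ‖ev f x‖ ≤ 1 := by
  simpa using norm_ev_le_of_ord hf hx (ord_zero' f)
where ord_zero' (u : MvPowerSeries σ R) : Ord 0 u := fun _ he => absurd he (by omega)

/-! ### Closure of `IntS` -/

lemma IntS.add {f g : MvPowerSeries σ R} (hf : IntS f) (hg : IntS g) : IntS (f + g) := fun m => by
  rw [map_add]
  exact (IsUltrametricDist.norm_add_le_max _ _).trans (max_le (hf m) (hg m))

lemma IntS.neg {f : MvPowerSeries σ R} (hf : IntS f) : IntS (-f) := fun m => by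
  rw [map_neg, norm_neg]
  exact hf m

lemma IntS.sub {f g : MvPowerSeries σ R} (hf : IntS f) (hg : IntS g) : IntS (f - g) := by
  rw [sub_eq_add_neg]
  exact hf.add hg.neg

lemma IntS.zero : IntS (0 : MvPowerSeries σ R) := fun m => by simp

omit [Fintype σ] in
lemma intS_one [NormOneClass R] : IntS (1 : MvPowerSeries σ R) := fun m => by
  classical
  rw [coeff_one]
  split_ifs <;> simp

omit [Fintype σ] in
lemma intS_C {a : R} (ha : ‖a‖ ≤ 1) : IntS (C a : MvPowerSeries σ R) := fun m => by
  classical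
  rw [coeff_C]
  split_ifs
  · exact ha
  · simpa using zero_le_one

omit [Fintype σ] in
lemma intS_X [NormOneClass R] (i : σ) : IntS (X i : MvPowerSeries σ R) := fun m => by
  classical
  rw [coeff_X]
  split_ifs <;> simp

lemma IntS.mul {f g : MvPowerSeries σ R} (hf : IntS f) (hg : IntS g) : IntS (f * g) := fun m => by
  classical
  rw [coeff_mul]
  refine IsUltrametricDist.norm_sum_le_of_forall_le_of_nonneg zero_le_one fun x _ => ?_
  rw [norm_mul]
  exact mul_le_one₀ (hf _) (norm_nonneg _) (hg _)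

lemma IntS.pow {f : MvPowerSeries σ R} (hf : IntS f) (k : ℕ) : IntS (f ^ k) := by
  induction k with
  | zero =>
    rw [pow_zero]
    intro m
    classical
    rw [coeff_one]
    split_ifs
    · simp
    · simpa using zero_le_one
  | succ k ih =>
    rw [pow_succ]
    exact ih.mul hf

lemma IntS.prod_pow {a : σ → MvPowerSeries τ R} (ha : ∀ i, IntS (a i)) (d : σ →₀ ℕ) :
    IntS (d.prod fun s e => a s ^ e) := by
  classical
  induction d using Finsupp.induction_linear with
  | zero =>
    simp only [prod_zero_index]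
    intro m
    rw [coeff_one]
    split_ifs
    · simp
    · simpa using zero_le_one
  | add f g hf hg =>
    rw [Finsupp.prod_add_index' (by simp) (by intros; exact pow_add _ _ _)]
    exact hf.mul hg
  | single i k =>
    rw [Finsupp.prod_single_index (by simp)]
    exact (ha i).pow k

lemma IntS.subst {a : σ → MvPowerSeries τ R} (ha : HasSubst a) (hai : ∀ i, IntS (a i))
    {f : MvPowerSeries σ R} (hf : IntS f) : IntS (f.subst a) := fun e => by
  rw [coeff_subst ha, finsum_eq_sum _ (coeff_subst_finite ha f e)]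
  refine IsUltrametricDist.norm_sum_le_of_forall_le_of_nonneg zero_le_one fun d _ => ?_
  rw [smul_eq_mul, norm_mul]
  exact mul_le_one₀ (hf d) (norm_nonneg _) (IntS.prod_pow hai d e)

/-! ### Ring hom properties -/

lemma ev_add {f g : MvPowerSeries σ R} (hf : IntS f) (hg : IntS g) {x : σ → R} (hx : ‖x‖ < 1) :
    ev (f + g) x = ev f x + ev g x := by
  simp only [ev, map_add, add_mul]
  exact (summable_ev hf hx).tsum_add (summable_ev hg hx)

lemma ev_neg {f : MvPowerSeries σ R} (x : σ → R) : ev (-f) x = - ev f x := by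
  simp only [ev, map_neg, neg_mul]
  exact tsum_neg

lemma ev_sub {f g : MvPowerSeries σ R} (hf : IntS f) (hg : IntS g) {x : σ → R} (hx : ‖x‖ < 1) :
    ev (f - g) x = ev f x - ev g x := by
  rw [sub_eq_add_neg, ev_add hf hg.neg hx, ev_neg, sub_eq_add_neg]

lemma ev_zero (x : σ → R) : ev (0 : MvPowerSeries σ R) x = 0 := by simp [ev]

lemma ev_C (a : R) (x : σ → R) : ev (C a : MvPowerSeries σ R) x = a := by
  classical
  rw [ev, tsum_eq_single 0]
  · simp
  · intro m hm
    rw [coeff_C, if_neg hm, zero_mul]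

lemma ev_one (x : σ → R) : ev (1 : MvPowerSeries σ R) x = 1 := by
  have := ev_C (1 : R) x
  simpa using this

lemma ev_X [DecidableEq σ] (i : σ) (x : σ → R) : ev (X i : MvPowerSeries σ R) x = x i := by
  rw [ev, tsum_eq_single (single i 1)]
  · simp [mono_single]
  · intro m hm
    rw [coeff_X, if_neg hm, zero_mul]

lemma summable_prod_terms {f g : MvPowerSeries σ R} (hf : IntS f) (hg : IntS g) {x : σ → R}
    (hx : ‖x‖ < 1) :
    Summable fun q : (σ →₀ ℕ) × (σ →₀ ℕ) =>
      (coeff q.1 f * mono x q.1) * (coeff q.2 g * mono x q.2) := by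
  apply NonarchimedeanAddGroup.summable_of_tendsto_cofinite_zero
  rw [tendsto_zero_iff_norm_tendsto_zero]
  -- bound by a function tending to zero along the cofinite filter of the product
  have h1 := tendsto_pow_degree (σ := σ) (norm_nonneg x) hx
  have hb : Tendsto (fun q : (σ →₀ ℕ) × (σ →₀ ℕ) => ‖x‖ ^ degree q.1 * ‖x‖ ^ degree q.2)
      cofinite (𝓝 0) := by
    rw [← Filter.coprod_cofinite] 
    have h2 : Tendsto (fun q : (σ →₀ ℕ) × (σ →₀ ℕ) => ‖x‖ ^ degree q.1 * ‖x‖ ^ degree q.2)
        (comap Prod.fst cofinite) (𝓝 0) := by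
      have h3 : Tendsto (fun q : (σ →₀ ℕ) × (σ →₀ ℕ) => ‖x‖ ^ degree q.1)
          (comap Prod.fst cofinite) (𝓝 0) := h1.comp tendsto_comap
      refine squeeze_zero (fun _ => by positivity) (fun q => ?_) h3
      have : ‖x‖ ^ degree q.2 ≤ 1 := pow_le_one₀ (norm_nonneg _) hx.le
      exact mul_le_of_le_one_right (by positivity) this
    have h2' : Tendsto (fun q : (σ →₀ ℕ) × (σ →₀ ℕ) => ‖x‖ ^ degree q.1 * ‖x‖ ^ degree q.2)
        (comap Prod.snd cofinite) (𝓝 0) := by
      have h3 : Tendsto (fun q : (σ →₀ ℕ) × (σ →₀ ℕ) => ‖x‖ ^ degree q.2)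
          (comap Prod.snd cofinite) (𝓝 0) := h1.comp tendsto_comap
      refine squeeze_zero (fun _ => by positivity) (fun q => ?_) h3
      have : ‖x‖ ^ degree q.1 ≤ 1 := pow_le_one₀ (norm_nonneg _) hx.le
      exact mul_le_of_le_one_left (by positivity) this
    exact h2.sup h2'
  refine squeeze_zero (fun _ => norm_nonneg _) (fun q => ?_) hb
  rw [norm_mul]
  exact mul_le_mul (norm_term_le hf x _) (norm_term_le hg x _) (norm_nonneg _) (by positivity)

lemma ev_mul {f g : MvPowerSeries σ R} (hf : IntS f) (hg : IntS g) {x : σ → R} (hx : ‖x‖ < 1) :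
    ev (f * g) x = ev f x * ev g x := by
  classical
  have h := (summable_ev hf hx).tsum_mul_tsum_eq_tsum_sum_antidiagonal (summable_ev hg hx)
    (summable_prod_terms hf hg hx)
  rw [ev, ev, ev, h]
  refine tsum_congr fun m => ?_
  rw [coeff_mul, Finset.sum_mul]
  refine Finset.sum_congr rfl fun q hq => ?_
  have : q.1 + q.2 = m := by simpa using hq
  rw [← this, mono_add]
  ring

lemma ev_pow {f : MvPowerSeries σ R} (hf : IntS f) {x : σ → R} (hx : ‖x‖ < 1) (k : ℕ) :
    ev (f ^ k) x = ev f x ^ k := by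
  induction k with
  | zero => simpa using ev_one x
  | succ k ih => rw [pow_succ, ev_mul (hf.pow k) hf hx, ih, pow_succ]

lemma ev_sum {ι : Type*} (s : Finset ι) (f : ι → MvPowerSeries σ R) (hf : ∀ i ∈ s, IntS (f i))
    {x : σ → R} (hx : ‖x‖ < 1) : ev (∑ i ∈ s, f i) x = ∑ i ∈ s, ev (f i) x := by
  classical
  have hint : ∀ t ⊆ s, IntS (∑ i ∈ t, f i) := by
    intro t
    induction t using Finset.induction_on with
    | empty => intro _; simpa using IntS.zero
    | insert a t ha ih =>
      intro hts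
      rw [Finset.sum_insert ha]
      exact (hf a (hts (Finset.mem_insert_self a t))).add
        (ih ((Finset.subset_insert a t).trans hts))
  have : ∀ t ⊆ s, ev (∑ i ∈ t, f i) x = ∑ i ∈ t, ev (f i) x := by
    intro t
    induction t using Finset.induction_on with
    | empty => intro _; simpa using ev_zero x
    | insert a t ha ih =>
      intro hts
      rw [Finset.sum_insert ha, Finset.sum_insert ha, ev_add (hf a (hts (Finset.mem_insert_self a t)))
        (hint t ((Finset.subset_insert a t).trans hts)) hx, ih ((Finset.subset_insert a t).trans hts)]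
  exact this s subset_rfl


/-! ### Substitution -/

lemma ev_monomial (m : σ →₀ ℕ) (c : R) (x : σ → R) :
    ev (monomial m c : MvPowerSeries σ R) x = c * mono x m := by
  classical
  rw [ev, tsum_eq_single m]
  · simp
  · intro n hn
    rw [coeff_monomial, if_neg hn, zero_mul]

lemma eq_of_norm_sub_le_pow {u v : R} {ρ : ℝ} (h0 : 0 ≤ ρ) (h1 : ρ < 1)
    (h : ∀ B : ℕ, ‖u - v‖ ≤ ρ ^ B) : u = v := by
  have : ‖u - v‖ ≤ 0 :=
    ge_of_tendsto' (tendsto_pow_atTop_nhds_zero_of_lt_one h0 h1) (fun B => h B)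
  exact sub_eq_zero.mp (norm_le_zero_iff.mp this)

lemma norm_sub_le_max (u v w : R) : ‖u - v‖ ≤ max ‖u - w‖ ‖v - w‖ := by
  have : u - v = (u - w) + -(v - w) := by ring
  rw [this]
  refine (IsUltrametricDist.norm_add_le_max _ _).trans ?_
  rw [norm_neg]

/-- The finite set of exponents of degree `< B`. -/
noncomputable def lowDeg (σ : Type*) [Fintype σ] (B : ℕ) : Finset (σ →₀ ℕ) :=
  (finite_of_degree_lt (σ := σ) B).toFinset

lemma mem_lowDeg {B : ℕ} {m : σ →₀ ℕ} : m ∈ lowDeg σ B ↔ degree m < B := by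
  simp [lowDeg]

/-- The truncation as a power series. -/
noncomputable def trS (B : ℕ) (f : MvPowerSeries σ R) : MvPowerSeries σ R :=
  ∑ m ∈ lowDeg σ B, monomial m (coeff m f)

lemma coeff_trS (B : ℕ) (f : MvPowerSeries σ R) (m : σ →₀ ℕ) :
    coeff m (trS B f) = if degree m < B then coeff m f else 0 := by
  classical
  simp only [trS, map_sum, coeff_monomial]
  rw [Finset.sum_ite_eq]
  simp [mem_lowDeg]

lemma intS_trS {B : ℕ} {f : MvPowerSeries σ R} (hf : IntS f) : IntS (trS B f) := fun m => by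
  rw [coeff_trS]
  split_ifs
  · exact hf m
  · simpa using zero_le_one

lemma ord_sub_trS (B : ℕ) (f : MvPowerSeries σ R) : Ord B (f - trS B f) := fun m hm => by
  rw [map_sub, coeff_trS, if_pos hm, sub_self]

lemma ev_trS (B : ℕ) (f : MvPowerSeries σ R) (x : σ → R) :
    ev (trS B f) x = ∑ m ∈ lowDeg σ B, coeff m f * mono x m := by
  rw [ev]
  rw [tsum_eq_sum (s := lowDeg σ B)]
  · refine Finset.sum_congr rfl fun m hm => ?_
    rw [coeff_trS, if_pos (mem_lowDeg.mp hm)]
  · intro m hm
    rw [coeff_trS, if_neg (fun h => hm (mem_lowDeg.mpr h)), zero_mul]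

/-- The truncation of the evaluation. -/
lemma norm_ev_sub_trS_le {f : MvPowerSeries σ R} (hf : IntS f) {x : σ → R} (hx : ‖x‖ < 1) (B : ℕ) :
    ‖ev f x - ∑ m ∈ lowDeg σ B, coeff m f * mono x m‖ ≤ ‖x‖ ^ B := by
  rw [← ev_trS, ← ev_sub hf (intS_trS hf) hx]
  exact norm_ev_le_of_ord (hf.sub (intS_trS hf)) hx (ord_sub_trS B f)

lemma ev_prod_pow {a : σ → MvPowerSeries τ R} (ha : ∀ i, IntS (a i)) {y : τ → R} (hy : ‖y‖ < 1)
    (d : σ →₀ ℕ) :
    ev (d.prod fun s e => a s ^ e) y = mono (fun i => ev (a i) y) d := by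
  classical
  induction d using Finsupp.induction_linear with
  | zero => simpa using ev_one y
  | add f g hf hg =>
    rw [Finsupp.prod_add_index' (by simp) (by intros; exact pow_add _ _ _), mono_add,
      ev_mul (IntS.prod_pow ha f) (IntS.prod_pow ha g) hy, hf, hg]
  | single i k =>
    rw [Finsupp.prod_single_index (by simp), mono_single, ev_pow (ha i) hy]

lemma ev_smul' (c : R) (f : MvPowerSeries σ R) (x : σ → R) : ev (c • f) x = c * ev f x := by
  simp only [ev]
  rw [← tsum_mul_left]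
  refine tsum_congr fun m => ?_
  rw [map_smul, smul_eq_mul, mul_assoc]

/-- **Chain rule.** -/
theorem ev_subst {f : MvPowerSeries σ R} {a : σ → MvPowerSeries τ R} (hf : IntS f)
    (ha : ∀ i, IntS (a i)) (ha0 : ∀ i, Ord 1 (a i)) {y : τ → R} (hy : ‖y‖ < 1) :
    ev (f.subst a) y = ev f (fun i => ev (a i) y) := by
  classical
  have hs : HasSubst a := FormalIFT.hasSubst_of_ord ha0
  set z : σ → R := fun i => ev (a i) y with hz
  have hzy : ‖z‖ ≤ ‖y‖ := by
    refine (pi_norm_le_iff_of_nonneg (norm_nonneg _)).mpr fun i => ?_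
    simpa using norm_ev_le_of_ord (ha i) hy (ha0 i)
  have hz1 : ‖z‖ < 1 := hzy.trans_lt hy
  refine eq_of_norm_sub_le_pow (norm_nonneg y) hy fun B => ?_
  refine (norm_sub_le_max _ _ (∑ m ∈ lowDeg σ B, coeff m f * mono z m)).trans (max_le ?_ ?_)
  · -- the substituted truncation
    have hsplit : f.subst a = (trS B f).subst a + (f - trS B f).subst a := by
      rw [← subst_add hs]
      congr 1
      ring
    have hmon : ∀ m : σ →₀ ℕ, (monomial m (coeff m f)).subst a =
        C (coeff m f) * (m.prod fun s e => a s ^ e) := by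
      intro m
      rw [subst_monomial hs, MvPowerSeries.algebraMap_apply, Algebra.algebraMap_self_apply]
    have hterm : ∀ m : σ →₀ ℕ, IntS ((monomial m (coeff m f)).subst a) := by
      intro m
      rw [hmon]
      exact (intS_C (hf m)).mul (IntS.prod_pow ha m)
    have h1 : ev ((trS B f).subst a) y = ∑ m ∈ lowDeg σ B, coeff m f * mono z m := by
      rw [trS, ← substAlgHom_apply hs, map_sum]
      simp only [substAlgHom_apply hs]
      rw [ev_sum _ _ (fun m _ => hterm m) hy]
      refine Finset.sum_congr rfl fun m _ => ?_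
      rw [hmon, ev_mul (intS_C (hf m)) (IntS.prod_pow ha m) hy, ev_C, ev_prod_pow ha hy]
    have hW : IntS (f - trS B f) := hf.sub (intS_trS hf)
    have hT : IntS (trS B f) := intS_trS hf
    have hWs : IntS ((f - trS B f).subst a) := IntS.subst hs ha hW
    have hTs : IntS ((trS B f).subst a) := IntS.subst hs ha hT
    rw [hsplit, ev_add hTs hWs hy, h1, add_sub_cancel_left]
    exact norm_ev_le_of_ord hWs hy (FormalIFT.subst_ord ha0 (ord_sub_trS B f))
  · exact (norm_ev_sub_trS_le hf hz1 B).trans (pow_le_pow_left₀ (norm_nonneg _) hzy B)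


/-! ### Partial evaluation in the second block of variables -/

/-- The coefficient series of `Φ` at the exponent `a` of the first block, a series in the second
block. -/
noncomputable def slice (Φ : MvPowerSeries (σ ⊕ τ) R) (a : σ →₀ ℕ) : MvPowerSeries τ R :=
  fun m => coeff (sumElim a m) Φ

lemma coeff_slice (Φ : MvPowerSeries (σ ⊕ τ) R) (a : σ →₀ ℕ) (m : τ →₀ ℕ) :
    coeff m (slice Φ a) = coeff (sumElim a m) Φ := rfl

lemma IntS.slice {Φ : MvPowerSeries (σ ⊕ τ) R} (hΦ : IntS Φ) (a : σ →₀ ℕ) :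
    IntS (EvalS.slice Φ a) := fun m => by
  rw [coeff_slice]
  exact hΦ _

/-- Evaluate the second block at `y`: a series in the first block. -/
noncomputable def partialEv (Φ : MvPowerSeries (σ ⊕ τ) R) (y : τ → R) : MvPowerSeries σ R :=
  fun a => ev (slice Φ a) y

lemma coeff_partialEv (Φ : MvPowerSeries (σ ⊕ τ) R) (y : τ → R) (a : σ →₀ ℕ) :
    coeff a (partialEv Φ y) = ev (slice Φ a) y := rfl

lemma IntS.partialEv {Φ : MvPowerSeries (σ ⊕ τ) R} (hΦ : IntS Φ) {y : τ → R} (hy : ‖y‖ < 1) :
    IntS (EvalS.partialEv Φ y) := fun a => by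
  rw [coeff_partialEv]
  exact norm_ev_le (hΦ.slice a) hy

lemma mono_sumElim [DecidableEq σ] [DecidableEq τ] (x : σ → R) (y : τ → R) (a : σ →₀ ℕ)
    (m : τ →₀ ℕ) :
    mono (Sum.elim x y) (sumElim a m) = mono x a * mono y m := by
  simp only [mono]
  rw [Finsupp.prod_fintype _ _ (by simp), Finsupp.prod_fintype _ _ (by simp),
    Finsupp.prod_fintype _ _ (by simp), Fintype.prod_sum_type]
  simp

lemma norm_sumElim (x : σ → R) (y : τ → R) : ‖(Sum.elim x y : σ ⊕ τ → R)‖ = max ‖x‖ ‖y‖ := by
  apply le_antisymm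
  · refine (pi_norm_le_iff_of_nonneg (by positivity)).mpr ?_
    rintro (i | i)
    · exact (norm_le_pi_norm x i).trans (le_max_left _ _)
    · exact (norm_le_pi_norm y i).trans (le_max_right _ _)
  · refine max_le ?_ ?_
    · refine (pi_norm_le_iff_of_nonneg (norm_nonneg _)).mpr fun i => ?_
      exact norm_le_pi_norm (Sum.elim x y : σ ⊕ τ → R) (Sum.inl i)
    · refine (pi_norm_le_iff_of_nonneg (norm_nonneg _)).mpr fun i => ?_
      exact norm_le_pi_norm (Sum.elim x y : σ ⊕ τ → R) (Sum.inr i)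

/-- Fubini for evaluation. -/
theorem ev_partialEv {Φ : MvPowerSeries (σ ⊕ τ) R} (hΦ : IntS Φ) {x : σ → R} {y : τ → R}
    (hx : ‖x‖ < 1) (hy : ‖y‖ < 1) :
    ev (partialEv Φ y) x = ev Φ (Sum.elim x y) := by
  classical
  have hxy : ‖(Sum.elim x y : σ ⊕ τ → R)‖ < 1 := by
    rw [norm_sumElim]
    exact max_lt hx hy
  have hsum := summable_ev hΦ hxy
  -- reindex by the product
  let e : (σ ⊕ τ →₀ ℕ) ≃ (σ →₀ ℕ) × (τ →₀ ℕ) := Finsupp.sumFinsuppEquivProdFinsupp
  have he : ∀ q : (σ →₀ ℕ) × (τ →₀ ℕ), e.symm q = sumElim q.1 q.2 := by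
    intro q
    ext (i | i) <;> simp [e, Finsupp.sumFinsuppEquivProdFinsupp]
  have hsum' : Summable fun q : (σ →₀ ℕ) × (τ →₀ ℕ) =>
      coeff (sumElim q.1 q.2) Φ * (mono x q.1 * mono y q.2) := by
    have := (e.symm.summable_iff).mpr hsum
    refine this.congr fun q => ?_
    simp only [Function.comp_apply, he, mono_sumElim]
  have hE : ev Φ (Sum.elim x y) =
      ∑' n : σ ⊕ τ →₀ ℕ, coeff n Φ * mono (Sum.elim x y) n := rfl
  rw [hE, ← e.symm.tsum_eq]
  simp only [he, mono_sumElim]
  rw [hsum'.tsum_prod]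
  simp only [ev, coeff_partialEv]
  refine tsum_congr fun a => ?_
  rw [← tsum_mul_right]
  refine tsum_congr fun m => ?_
  rw [coeff_slice]
  ring

end Crest.Agent.Lib.LT.EvalS
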