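import Mathlib
import Crest.Agent.Lib.LT.FGL

/-!
# (2d) of the proof of S0351: linearization of a formal group law over a complete
algebraically closed field of characteristic `p`.

Given `g(Y) = a₁ Y + …` with `a₁ ≠ 0`, `‖a₁‖ < 1` and coefficients of norm `≤ 1`, we construct
`ι(X) = ∑ c_j X^j` with `ι(g(Y)) = ι^σ(Y)` (`σ` = the `q`-Frobenius on coefficients); consequently
`ι(g(X^q)) = ι(X)^q`.  The coefficients satisfy `‖c_j‖ ‖c₁‖^(j-2) ≤ 1`.
-/

set_option autoImplicit false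

namespace Crest.Agent.LT.Linearize

open PowerSeries

section Coeff

variable {R : Type*} [CommRing R]

theorem coeff_pow_eq_zero_of_lt (g : PowerSeries R) (hg : constantCoeff g = 0) {i j : ℕ}
    (h : j < i) : coeff j (g ^ i) = 0 := by
  apply coeff_of_lt_order
  calc (j : ℕ∞) < i := by exact_mod_cast h
    _ ≤ order (g ^ i) := le_order_pow_of_constantCoeff_eq_zero i hg

theorem coeff_pow_self (g : PowerSeries R) (hg : constantCoeff g = 0) (j : ℕ) :
    coeff j (g ^ j) = (coeff 1 g) ^ j := by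
  obtain ⟨h, rfl⟩ : X ∣ g := X_dvd_iff.mpr hg
  rw [mul_pow, coeff_X_pow_mul', if_pos le_rfl, Nat.sub_self, coeff_zero_eq_constantCoeff_apply]
  have : coeff 1 (X * h) = constantCoeff h := by
    rw [show (1 : ℕ) = 0 + 1 from rfl, coeff_succ_X_mul, coeff_zero_eq_constantCoeff_apply]
  rw [this, map_pow]

/-- Coefficients of a composition: finite sum form. -/
theorem coeff_subst_eq_sum (g f : PowerSeries R) (hg : constantCoeff g = 0) (j : ℕ) :
    coeff j (f.subst g) = ∑ i ∈ Finset.range (j + 1), coeff i f * coeff j (g ^ i) := by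
  have hs : HasSubst g := HasSubst.of_constantCoeff_zero' hg
  rw [coeff_subst' hs]
  rw [finsum_eq_sum_of_support_subset (s := Finset.range (j + 1))]
  · simp [smul_eq_mul]
  · intro i hi
    simp only [Function.mem_support, smul_eq_mul] at hi
    simp only [Finset.coe_range, Set.mem_Iio]
    by_contra hij
    apply hi
    rw [coeff_pow_eq_zero_of_lt g hg (by omega : j < i), mul_zero]

end Coeff

section Norm

variable {R : Type*} [NormedField R] [IsUltrametricDist R]

/-- Coefficients of norm `≤ 1` are stable under products. -/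
theorem norm_coeff_mul_le_one {f h : PowerSeries R} (hf : ∀ j, ‖coeff j f‖ ≤ 1)
    (hh : ∀ j, ‖coeff j h‖ ≤ 1) (j : ℕ) : ‖coeff j (f * h)‖ ≤ 1 := by
  rw [coeff_mul]
  apply IsUltrametricDist.norm_sum_le_of_forall_le_of_nonneg zero_le_one
  intro x _
  rw [norm_mul]
  exact mul_le_one₀ (hf _) (norm_nonneg _) (hh _)

theorem norm_coeff_pow_le_one {f : PowerSeries R} (hf : ∀ j, ‖coeff j f‖ ≤ 1) (i j : ℕ) :
    ‖coeff j (f ^ i)‖ ≤ 1 := by
  induction i generalizing j with
  | zero =>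
    rw [pow_zero, coeff_one]
    split_ifs <;> simp
  | succ i ih =>
    rw [pow_succ]
    exact norm_coeff_mul_le_one ih hf j

end Norm

section Construction

variable {R : Type*} [Field R] [IsAlgClosed R]

theorem exists_root_aux (q : ℕ) (hq : 2 ≤ q) (A b : R) : ∃ x : R, x ^ q - A * x = b := by
  classical
  let P : Polynomial R := Polynomial.X ^ q - (Polynomial.C A * Polynomial.X + Polynomial.C b)
  have hdeg : P.degree = q := by
    have h1 : (Polynomial.C A * Polynomial.X + Polynomial.C b : Polynomial R).degree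
        < (Polynomial.X ^ q : Polynomial R).degree := by
      rw [Polynomial.degree_X_pow]
      calc _ ≤ ((1 : ℕ) : WithBot ℕ) := Polynomial.degree_linear_le
        _ < (q : WithBot ℕ) := by exact_mod_cast (by omega : 1 < q)
    have := Polynomial.degree_sub_eq_left_of_degree_lt h1
    simpa [P, Polynomial.degree_X_pow] using this
  have hne : P.degree ≠ 0 := by
    rw [hdeg]
    have : (q : WithBot ℕ) ≠ ((0 : ℕ) : WithBot ℕ) := by
      exact_mod_cast (by omega : q ≠ 0)
    simpa using this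
  obtain ⟨x, hx⟩ := IsAlgClosed.exists_root P hne
  refine ⟨x, ?_⟩
  have : x ^ q - (A * x + b) = 0 := by simpa [P, Polynomial.IsRoot] using hx
  linear_combination this

/-- The recursively chosen coefficients of the linearizing series. -/
noncomputable def cSeq (q : ℕ) (hq : 2 ≤ q) (g : PowerSeries R) (c₁ : R) : ℕ → R
  | 0 => 0
  | 1 => c₁
  | (j + 2) => Classical.choose (exists_root_aux q hq ((coeff 1 g) ^ (j + 2))
      (∑ i : Fin (j + 2), cSeq q hq g c₁ i * coeff (j + 2) (g ^ (i : ℕ))))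
decreasing_by
  all_goals exact i.2

theorem cSeq_spec (q : ℕ) (hq : 2 ≤ q) (g : PowerSeries R) (c₁ : R) (j : ℕ) :
    (cSeq q hq g c₁ (j + 2)) ^ q - (coeff 1 g) ^ (j + 2) * cSeq q hq g c₁ (j + 2) =
      ∑ i ∈ Finset.range (j + 2), cSeq q hq g c₁ i * coeff (j + 2) (g ^ i) := by
  rw [cSeq]
  rw [Classical.choose_spec (exists_root_aux q hq ((coeff 1 g) ^ (j + 2))
      (∑ i : Fin (j + 2), cSeq q hq g c₁ i * coeff (j + 2) (g ^ (i : ℕ))))]
  rw [Finset.sum_range]

/-- The linearizing series. -/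
noncomputable def iotaSeries (q : ℕ) (hq : 2 ≤ q) (g : PowerSeries R) (c₁ : R) : PowerSeries R :=
  PowerSeries.mk (cSeq q hq g c₁)

theorem coeff_iotaSeries (q : ℕ) (hq : 2 ≤ q) (g : PowerSeries R) (c₁ : R) (j : ℕ) :
    coeff j (iotaSeries q hq g c₁) = cSeq q hq g c₁ j := by
  simp [iotaSeries]

theorem cSeq_zero (q : ℕ) (hq : 2 ≤ q) (g : PowerSeries R) (c₁ : R) : cSeq q hq g c₁ 0 = 0 := by
  rw [cSeq]

theorem cSeq_one (q : ℕ) (hq : 2 ≤ q) (g : PowerSeries R) (c₁ : R) : cSeq q hq g c₁ 1 = c₁ := by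
  rw [cSeq]

/-- Coefficient form of the functional equation `ι(g(Y)) = ι^σ(Y)`: the `j`-th coefficient of
`ι(g(Y))` is `(c_j)^q`. -/
theorem coeff_subst_iotaSeries (q : ℕ) (hq : 2 ≤ q) (g : PowerSeries R) (hg : constantCoeff g = 0)
    (c₁ : R) (hc : c₁ ^ (q - 1) = coeff 1 g) (j : ℕ) :
    coeff j ((iotaSeries q hq g c₁).subst g) = (cSeq q hq g c₁ j) ^ q := by
  rw [coeff_subst_eq_sum g _ hg]
  simp only [coeff_iotaSeries]
  rcases j with _ | _ | j
  · simp [cSeq_zero, show q ≠ 0 by omega]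
  · simp only [zero_add, Finset.sum_range_succ, Finset.sum_range_zero, cSeq_zero, cSeq_one, zero_mul,
      pow_one]
    rw [← hc, ← pow_succ']
    congr 1
    omega
  · have h := cSeq_spec q hq g c₁ j
    rw [Finset.sum_range_succ, ← h, show j + 1 + 1 = j + 2 from rfl, coeff_pow_self g hg]
    ring

end Construction

section Frobenius

variable {R : Type*} [CommRing R] (p : ℕ) [Fact p.Prime] [ExpChar R p]

/-- In characteristic `p`: `f^(p^k) = (f^σ)(X^(p^k))`. -/
theorem pow_eq_expand_map (k : ℕ) (f : PowerSeries R) :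
    f ^ p ^ k = expand (p ^ k) (pow_ne_zero k (Fact.out : p.Prime).ne_zero)
      (PowerSeries.map (iterateFrobenius R p k) f) := by
  have := MvPowerSeries.map_iterateFrobenius_expand (R := R) (σ := Unit) p
    (Fact.out : p.Prime).ne_zero f k
  rw [← PowerSeries.map_expand]
  exact this.symm

end Frobenius

section Main

variable {R : Type*} [NormedField R] [IsUltrametricDist R] [IsAlgClosed R]

/-- Norm bound of the coefficients. -/
theorem norm_cSeq_le (q : ℕ) (hq : 2 ≤ q) (g : PowerSeries R)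
    (hgn : ∀ j, ‖coeff j g‖ ≤ 1) (c₁ : R) (hρ : ‖c₁‖ ≤ 1) (j : ℕ) :
    ‖cSeq q hq g c₁ j‖ * ‖c₁‖ ^ (j - 2) ≤ 1 := by
  induction j using Nat.strong_induction_on with
  | _ j ih =>
    rcases j with _ | _ | j
    · simp [cSeq_zero]
    · simpa [cSeq_one] using hρ
    · by_contra hcon
      push Not at hcon
      set ρ := ‖c₁‖ with hρdef
      set x := cSeq q hq g c₁ (j + 2) with hx
      have hρ0 : 0 ≤ ρ := norm_nonneg _
      simp only [show j + 2 - 2 = j by omega] at hcon
      have hρj : ρ ^ j ≤ 1 := pow_le_one₀ hρ0 hρ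
      have hxgt : 1 < ‖x‖ := by
        by_contra hle
        push Not at hle
        have : ‖x‖ * ρ ^ j ≤ 1 * 1 :=
          mul_le_mul hle hρj (by positivity) zero_le_one
        linarith
      -- the right-hand side of the recursion
      set b := ∑ i ∈ Finset.range (j + 2), cSeq q hq g c₁ i * coeff (j + 2) (g ^ i) with hb
      have hspec : x ^ q - (coeff 1 g) ^ (j + 2) * x = b := cSeq_spec q hq g c₁ j
      -- lower bound: `‖b‖ = ‖x‖^q`
      have ha1 : ‖(coeff 1 g) ^ (j + 2) * x‖ ≤ ‖x‖ := by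
        rw [norm_mul, norm_pow]
        calc ‖coeff 1 g‖ ^ (j + 2) * ‖x‖ ≤ 1 * ‖x‖ := by
              gcongr
              exact pow_le_one₀ (norm_nonneg _) (hgn 1)
          _ = ‖x‖ := one_mul _
      have hqx : ‖x‖ < ‖x ^ q‖ := by
        rw [norm_pow]
        calc ‖x‖ = ‖x‖ ^ 1 := (pow_one _).symm
          _ < ‖x‖ ^ q := pow_lt_pow_right₀ hxgt (by omega)
      have hbn : ‖b‖ = ‖x‖ ^ q := by
        rw [← hspec, ← norm_pow]
        have hlt : ‖(coeff 1 g) ^ (j + 2) * x‖ < ‖x ^ q‖ := lt_of_le_of_lt ha1 hqx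
        have hne : ‖x ^ q‖ ≠ ‖-((coeff 1 g) ^ (j + 2) * x)‖ := by
          rw [norm_neg]; exact ne_of_gt hlt
        have := IsUltrametricDist.norm_add_eq_max_of_norm_ne_norm hne
        rw [sub_eq_add_neg, this, norm_neg]
        exact max_eq_left hlt.le
      -- upper bound
      have hbup : ‖b‖ * ρ ^ (2 * j) ≤ 1 := by
        have hρ2 : 0 ≤ ρ ^ (2 * j) := by positivity
        by_cases hρzero : ρ ^ (2 * j) = 0
        · rw [hρzero]; simp
        have hρ2pos : 0 < ρ ^ (2 * j) := lt_of_le_of_ne hρ2 (Ne.symm hρzero)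
        have : ‖b‖ ≤ (ρ ^ (2 * j))⁻¹ := by
          apply IsUltrametricDist.norm_sum_le_of_forall_le_of_nonneg (inv_nonneg.mpr hρ2)
          intro i hi
          have hij : i < j + 2 := Finset.mem_range.mp hi
          have hih := ih i hij
          rw [norm_mul]
          have h1 : ‖coeff (j + 2) (g ^ i)‖ ≤ 1 := norm_coeff_pow_le_one hgn i _
          have h2 : ρ ^ (2 * j) ≤ ρ ^ (i - 2) :=
            pow_le_pow_of_le_one hρ0 hρ (by omega)
          have h3 : ‖cSeq q hq g c₁ i‖ * ρ ^ (2 * j) ≤ 1 :=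
            le_trans (mul_le_mul_of_nonneg_left h2 (norm_nonneg _)) hih
          have h4 : ‖cSeq q hq g c₁ i‖ ≤ (ρ ^ (2 * j))⁻¹ := by
            have := mul_le_mul_of_nonneg_right h3 (inv_nonneg.mpr hρ2)
            rwa [mul_assoc, mul_inv_cancel₀ hρzero, mul_one, one_mul] at this
          calc ‖cSeq q hq g c₁ i‖ * ‖coeff (j + 2) (g ^ i)‖
              ≤ ‖cSeq q hq g c₁ i‖ * 1 := by gcongr
            _ ≤ (ρ ^ (2 * j))⁻¹ := by rw [mul_one]; exact h4
        calc ‖b‖ * ρ ^ (2 * j) ≤ (ρ ^ (2 * j))⁻¹ * ρ ^ (2 * j) := by gcongr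
          _ = 1 := inv_mul_cancel₀ hρzero
      -- contradiction
      have h2 : 1 < ‖x‖ ^ 2 * ρ ^ (2 * j) := by
        have : 1 < (‖x‖ * ρ ^ j) ^ 2 := one_lt_pow₀ hcon (by norm_num)
        calc 1 < (‖x‖ * ρ ^ j) ^ 2 := this
          _ = ‖x‖ ^ 2 * ρ ^ (2 * j) := by ring
      have h3 : ‖x‖ ^ 2 ≤ ‖x‖ ^ q := pow_le_pow_right₀ hxgt.le hq
      have h4 : ‖x‖ ^ 2 * ρ ^ (2 * j) ≤ ‖b‖ * ρ ^ (2 * j) := by
        rw [hbn]; gcongr
      linarith

/-- **Linearization, series level.**  Let `R` be an algebraically closed ultrametric normed field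
of characteristic `p`, `q = p^k ≥ 2`, `g = a₁ Y + …` with `a₁ ≠ 0` and all coefficients of norm
`≤ 1`.  There is `ι` with zero constant term, `ι' (0)^(q-1) = a₁`, `ι(g(Y)) = ι^σ(Y)`
with `σ` the `q`-Frobenius, hence `ι(g(X^q)) = ι(X)^q`, and `‖c_j‖ ‖c₁‖^(j-2) ≤ 1`. -/
theorem exists_iota (p : ℕ) [Fact p.Prime] [CharP R p] (k : ℕ) (hk : 1 ≤ k)
    (g : PowerSeries R) (hg : constantCoeff g = 0) (ha : coeff 1 g ≠ 0)
    (hgn : ∀ j, ‖coeff j g‖ ≤ 1) (ha1 : ‖coeff 1 g‖ < 1) :
    ∃ iota : PowerSeries R, constantCoeff iota = 0 ∧ coeff 1 iota ≠ 0 ∧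
      (coeff 1 iota) ^ (p ^ k - 1) = coeff 1 g ∧
      ‖coeff 1 iota‖ < 1 ∧
      iota.subst g = PowerSeries.map (iterateFrobenius R p k) iota ∧
      iota.subst (expand (p ^ k) (pow_ne_zero k (Fact.out : p.Prime).ne_zero) g) = iota ^ p ^ k ∧
      ∀ j, ‖coeff j iota‖ * ‖coeff 1 iota‖ ^ (j - 2) ≤ 1 := by
  have hp2 : 2 ≤ p := (Fact.out : p.Prime).two_le
  have hq : 2 ≤ p ^ k := by
    calc 2 ≤ p := hp2
      _ = p ^ 1 := (pow_one p).symm
      _ ≤ p ^ k := Nat.pow_le_pow_right (by omega) hk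
  obtain ⟨c₁, hc₁⟩ := IsAlgClosed.exists_pow_nat_eq (coeff 1 g) (show 0 < p ^ k - 1 by omega)
  have hc₁0 : c₁ ≠ 0 := by
    rintro rfl
    rw [zero_pow (by omega)] at hc₁
    exact ha hc₁.symm
  have hρ : ‖c₁‖ < 1 := by
    by_contra hcon
    push Not at hcon
    have : 1 ≤ ‖c₁‖ ^ (p ^ k - 1) := one_le_pow₀ hcon
    rw [← norm_pow, hc₁] at this
    linarith
  set iota := iotaSeries (p ^ k) hq g c₁ with hiota
  have hco1 : coeff 1 iota = c₁ := by rw [hiota, coeff_iotaSeries, cSeq_one]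
  have hfun : iota.subst g = PowerSeries.map (iterateFrobenius R p k) iota := by
    ext j
    rw [hiota, coeff_subst_iotaSeries (p ^ k) hq g hg c₁ hc₁, coeff_map, coeff_iotaSeries]
    simp [iterateFrobenius_def]
  refine ⟨iota, ?_, ?_, ?_, ?_, hfun, ?_, ?_⟩
  · rw [← coeff_zero_eq_constantCoeff_apply, hiota, coeff_iotaSeries, cSeq_zero]
  · rwa [hco1]
  · rw [hco1, hc₁]
  · rwa [hco1]
  · have hs : HasSubst g := HasSubst.of_constantCoeff_zero' hg
    have h1 : expand (p ^ k) (pow_ne_zero k (Fact.out : p.Prime).ne_zero) (subst g iota) =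
        subst (expand (p ^ k) (pow_ne_zero k (Fact.out : p.Prime).ne_zero) g) iota :=
      expand_subst (p ^ k) (pow_ne_zero k (Fact.out : p.Prime).ne_zero) hs iota
    rw [← h1, hfun]
    exact (pow_eq_expand_map p k iota).symm
  · intro j
    rw [hco1, hiota, coeff_iotaSeries]
    exact norm_cSeq_le (p ^ k) hq g hgn c₁ hρ.le j

end Main

section Law

open Crest.LubinTate Crest.Agent.LT

variable {R : Type*} [Field R] (p : ℕ) [Fact p.Prime] [CharP R p]

/-- If `[p]_F = X^q`, then the coefficients of `F` are fixed by `x ↦ x^q`. -/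
theorem coeff_pow_eq_self_of_mulSeries (k : ℕ) (F : FormalGroup R) [F.IsComm]
    (hF : mulSeries F p = PowerSeries.X ^ p ^ k) (m : Fin 2 →₀ ℕ) :
    (MvPowerSeries.coeff m F.toPowerSeries) ^ p ^ k = MvPowerSeries.coeff m F.toPowerSeries := by
  have hq : p ^ k ≠ 0 := pow_ne_zero k (Fact.out : p.Prime).ne_zero
  have hX0 : MvPowerSeries.constantCoeff (MvPowerSeries.X 0 : MvPowerSeries (Fin 2) R) = 0 := by simp
  have hX1 : MvPowerSeries.constantCoeff (MvPowerSeries.X 1 : MvPowerSeries (Fin 2) R) = 0 := by simp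
  obtain ⟨-, h2⟩ := isFGHom_mulSeries F p
  rw [hF] at h2
  have hXs : PowerSeries.HasSubst (MvPowerSeries.X 0 : MvPowerSeries (Fin 2) R) := hasSubst_one hX0
  have hXs1 : PowerSeries.HasSubst (MvPowerSeries.X 1 : MvPowerSeries (Fin 2) R) := hasSubst_one hX1
  have hF0 := hasSubst_one (R := R) F.zero_constantCoeff
  rw [PowerSeries.subst_pow hF0, PowerSeries.subst_X hF0,
    PowerSeries.subst_pow hXs, PowerSeries.subst_X hXs,
    PowerSeries.subst_pow hXs1, PowerSeries.subst_X hXs1] at h2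
  -- `G^q = G(X₀^q, X₁^q) = expand q G`
  have h3 : MvPowerSeries.subst ![(MvPowerSeries.X 0 : MvPowerSeries (Fin 2) R) ^ p ^ k,
      MvPowerSeries.X 1 ^ p ^ k] F.toPowerSeries =
      MvPowerSeries.expand (p ^ k) hq F.toPowerSeries := by
    have : ![(MvPowerSeries.X 0 : MvPowerSeries (Fin 2) R) ^ p ^ k, MvPowerSeries.X 1 ^ p ^ k] =
        fun i => MvPowerSeries.X i ^ p ^ k := by
      ext1 s; fin_cases s <;> rfl
    rw [this]
    simp [MvPowerSeries.expand]
  rw [h3] at h2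
  -- `G^q = σ(expand q G)`
  have h4 := MvPowerSeries.map_iterateFrobenius_expand (R := R) (σ := Fin 2) p
    (Fact.out : p.Prime).ne_zero F.toPowerSeries k
  rw [h2] at h4
  -- compare coefficients at `q • m`
  have h5 := congrArg (MvPowerSeries.coeff ((p ^ k) • m)) h4
  rw [MvPowerSeries.coeff_map, MvPowerSeries.coeff_expand_smul] at h5
  simpa [iterateFrobenius_def] using h5

end Law

section Final

open Crest.LubinTate Crest.Agent.LT

variable {R : Type*} [NormedField R] [IsUltrametricDist R] [IsAlgClosed R]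
  (p : ℕ) [Fact p.Prime] [CharP R p]

/-- **Linearization, law level** (`(2d)` of the math note).  Let `H` be a commutative law over an
algebraically closed ultrametric normed field of characteristic `p`, with
`[p]_H(X) = g(X^q)`, `q = p^k`, `g = a₁ Y + …`, `a₁ ≠ 0`, `‖a₁‖ < 1`, and coefficients of `g` of
norm `≤ 1`.  There are `ι` and a commutative law `Γ'` with `ι : H → Γ'` a homomorphism,
`[p]_{Γ'} = X^q`, coefficients of `Γ'` fixed by `x ↦ x^q`, `ι'(0)^(q-1) = a₁`, and the growth bound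
`‖c_j‖ ‖c₁‖^(j-2) ≤ 1`. -/
theorem exists_linearization_core (k : ℕ) (hk : 1 ≤ k) (H : FormalGroup R) [H.IsComm]
    (g : PowerSeries R)
    (hp : mulSeries H p = PowerSeries.expand (p ^ k) (pow_ne_zero k (Fact.out : p.Prime).ne_zero) g)
    (hg : PowerSeries.constantCoeff g = 0) (ha : PowerSeries.coeff 1 g ≠ 0)
    (hgn : ∀ j, ‖PowerSeries.coeff j g‖ ≤ 1) (ha1 : ‖PowerSeries.coeff 1 g‖ < 1) :
    ∃ (ι : PowerSeries R) (Γ' : FormalGroup R),
      Γ'.IsComm ∧
      PowerSeries.constantCoeff ι = 0 ∧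
      PowerSeries.coeff 1 ι ≠ 0 ∧
      (PowerSeries.coeff 1 ι) ^ (p ^ k - 1) = PowerSeries.coeff 1 g ∧
      ‖PowerSeries.coeff 1 ι‖ < 1 ∧
      (∀ j, ‖PowerSeries.coeff j ι‖ * ‖PowerSeries.coeff 1 ι‖ ^ (j - 2) ≤ 1) ∧
      IsFGHom H Γ' ι ∧
      (∀ m, (MvPowerSeries.coeff m Γ'.toPowerSeries) ^ (p ^ k) =
        MvPowerSeries.coeff m Γ'.toPowerSeries) ∧
      mulSeries Γ' p = PowerSeries.X ^ (p ^ k) ∧
      PowerSeries.subst (mulSeries H p) ι = ι ^ p ^ k := by
  obtain ⟨ι, hc, hne, hpow, hlt, -, hexp, hbd⟩ := exists_iota p k hk g hg ha hgn ha1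
  have hu : IsUnit (PowerSeries.coeff 1 ι) := isUnit_iff_ne_zero.mpr hne
  have hPs : PowerSeries.subst (mulSeries H p) ι = ι ^ p ^ k := by rw [hp, hexp]
  have hcomm : (conj H ι hc hu).IsComm := instIsCommConj H ι hc hu
  have hps : mulSeries (conj H ι hc hu) p = PowerSeries.X ^ (p ^ k) := by
    have h1 := mulSeries_conj H ι hc hu p
    rw [hPs] at h1
    set P := mulSeries (conj H ι hc hu) p with hP
    have hcinv := constantCoeff_pinv (φ := ι) hu
    have h2 := congrArg (PowerSeries.subst (pinv ι hu)) h1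
    have hinv : PowerSeries.subst (pinv ι hu) ι = PowerSeries.X :=
      PowerSeries.subst_substInvOfIsUnit_right ι hc hu
    have hs := hasSubst_one (R := R) hcinv
    rw [psubst_psubst hc hcinv, hinv, PowerSeries.subst_pow hs, hinv] at h2
    rw [PowerSeries.X_subst] at h2
    exact h2.symm
  refine ⟨ι, conj H ι hc hu, hcomm, hc, hne, hpow, hlt, hbd, hom_conj H ι hc hu, ?_, hps, hPs⟩
  intro m
  exact coeff_pow_eq_self_of_mulSeries p k _ hps m

end Final

end Crest.Agent.LT.Linearize
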