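import Mathlib
import Crest.Agent.Lib.LT.Linearize
import Crest.Agent.Lib.LT.EvalS
import Crest.Agent.Lib.LT.Eval1

/-!
# (2d) of S0351, point level: evaluation of the linearizing series `ι`.

`ι` does not have bounded coefficients, only `‖c_j‖ ‖c₁‖^(j-2) ≤ 1`.  On the disc `‖x‖ < ‖c₁‖` it
converges, `‖ι x - c₁ x‖ ≤ ‖x‖²`, `‖ι x‖ = ‖c₁‖ ‖x‖`, and it is a homomorphism on points:
`ι (H(x, y)) = Γ'(ι x, ι y)`, `ι ([p]_H x) = (ι x)^q`.  Proofs by rescaling by `c₁`.
-/

set_option autoImplicit false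
set_option linter.unusedSectionVars false

namespace Crest.Agent.LT.Linearize

open Crest.LubinTate Crest.Agent.LT
open Crest.Agent.Lib.LT.FormalIFT (Ord)

section EvUnit

open Crest.Agent.Lib.LT.EvalS

variable {R : Type*} [NormedField R] [IsUltrametricDist R] [CompleteSpace R]

theorem coeff_unit (f : PowerSeries R) (m : Unit →₀ ℕ) :
    MvPowerSeries.coeff m f = PowerSeries.coeff (m ()) f := by
  have hm : Finsupp.single () (m ()) = m := by ext; simp
  conv_lhs => rw [← hm]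
  rfl

/-- Evaluation in one variable, `EvalS` versus `Eval1`. -/
theorem ev_unit (f : PowerSeries R) (t : R) :
    ev (σ := Unit) f (fun _ => t) = Crest.Agent.Lib.LT.Eval1.ev1 f t := by
  classical
  unfold ev Crest.Agent.Lib.LT.Eval1.ev1
  let e : (Unit →₀ ℕ) ≃ ℕ :=
    { toFun := fun m => m ()
      invFun := fun n => Finsupp.single () n
      left_inv := fun m => by ext; simp
      right_inv := fun n => by simp }
  rw [← e.tsum_eq]
  refine tsum_congr fun m => ?_
  show _ = PowerSeries.coeff (m ()) f * t ^ (m ())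
  have hm : Finsupp.single () (m ()) = m := by ext; simp
  rw [← coeff_unit]
  congr 1
  unfold mono
  rw [← hm]
  simp

/-- Evaluation of a rescaled series. -/
theorem ev_rescale {σ : Type*} [Fintype σ] (s : R) (f : MvPowerSeries σ R) (z : σ → R) :
    ev (MvPowerSeries.rescale (fun _ => s) f) z = ev f (fun i => s * z i) := by
  unfold ev
  refine tsum_congr fun m => ?_
  rw [MvPowerSeries.coeff_rescale]
  unfold mono
  have : (m.prod fun i e => (s * z i) ^ e) =
      (m.prod fun _ e => s ^ e) * m.prod fun i e => z i ^ e := by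
    rw [← Finsupp.prod_mul]
    exact Finsupp.prod_congr fun i _ => mul_pow _ _ _
  rw [this]
  ring

/-- Evaluation of a one-variable rescaled series. -/
theorem ev1_rescale (s : R) (f : PowerSeries R) (t : R) :
    Crest.Agent.Lib.LT.Eval1.ev1 (PowerSeries.rescale s f) t =
      Crest.Agent.Lib.LT.Eval1.ev1 f (s * t) := by
  unfold Crest.Agent.Lib.LT.Eval1.ev1
  refine tsum_congr fun j => ?_
  rw [PowerSeries.coeff_rescale, mul_pow]
  ring

end EvUnit

section Point

open Crest.Agent.Lib.LT.EvalS Crest.Agent.Lib.LT.Eval1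

variable {R : Type*} [NormedField R] [IsUltrametricDist R] [CompleteSpace R]

/-- The growth condition of `ι`. -/
def Growth (ι : PowerSeries R) : Prop :=
  ∀ j, ‖PowerSeries.coeff j ι‖ * ‖PowerSeries.coeff 1 ι‖ ^ (j - 2) ≤ 1

variable {ι : PowerSeries R}

/-- Gauss bound of `ι` at the radius `‖c₁‖`. -/
theorem Growth.gs (h : Growth ι) (hc0 : PowerSeries.constantCoeff ι = 0)
    (hρ1 : ‖PowerSeries.coeff 1 ι‖ ≤ 1) :
    GS ‖PowerSeries.coeff 1 ι‖ ι 1 := by
  intro j
  set ρ := ‖PowerSeries.coeff 1 ι‖ with hρ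
  have hρ0 : 0 ≤ ρ := norm_nonneg _
  rcases j with _ | _ | j
  · simp [PowerSeries.coeff_zero_eq_constantCoeff_apply, hc0]
  · simp only [zero_add, pow_one]
    exact mul_le_one₀ hρ1 hρ0 hρ1
  · have h1 := h (j + 2)
    simp only [Nat.add_sub_cancel] at h1
    have : ‖PowerSeries.coeff (j + 1 + 1) ι‖ * ρ ^ (j + 1 + 1) =
        (‖PowerSeries.coeff (j + 2) ι‖ * ρ ^ j) * ρ ^ 2 := by
      rw [show j + 1 + 1 = j + 2 from rfl, pow_add]; ring
    rw [this]
    exact mul_le_one₀ h1 (by positivity) (pow_le_one₀ hρ0 hρ1)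

/-- The rescaled series is bounded. -/
theorem Growth.intS_rescale (h : Growth ι) (hc0 : PowerSeries.constantCoeff ι = 0)
    (hρ1 : ‖PowerSeries.coeff 1 ι‖ ≤ 1) :
    IntS (σ := Unit) (PowerSeries.rescale (PowerSeries.coeff 1 ι) ι) := by
  intro m
  have hgs := h.gs hc0 hρ1
  have h1 : MvPowerSeries.coeff m (PowerSeries.rescale (PowerSeries.coeff 1 ι) ι) =
      PowerSeries.coeff (m ()) (PowerSeries.rescale (PowerSeries.coeff 1 ι) ι) := coeff_unit _ m
  rw [h1, PowerSeries.coeff_rescale, norm_mul, norm_pow, mul_comm]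
  exact hgs _

/-- Term bound: for `‖x‖ < ‖c₁‖` and `j ≥ 2`, `‖c_j x^j‖ ≤ ‖x‖² (‖x‖/‖c₁‖)^(j-2)`. -/
theorem Growth.term_le (h : Growth ι) {x : R} (hx : ‖x‖ < ‖PowerSeries.coeff 1 ι‖) (j : ℕ) :
    ‖PowerSeries.coeff (j + 2) ι * x ^ (j + 2)‖ ≤
      ‖x‖ ^ 2 * (‖x‖ / ‖PowerSeries.coeff 1 ι‖) ^ j := by
  set ρ := ‖PowerSeries.coeff 1 ι‖ with hρ
  have hρ0 : 0 < ρ := (norm_nonneg x).trans_lt hx
  have h1 := h (j + 2)
  simp only [Nat.add_sub_cancel] at h1
  rw [norm_mul, norm_pow]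
  have h2 : ‖x‖ ^ (j + 2) = ρ ^ j * (‖x‖ ^ 2 * (‖x‖ / ρ) ^ j) := by
    rw [div_pow]
    field_simp
    ring
  rw [h2, ← mul_assoc]
  calc _ ≤ 1 * (‖x‖ ^ 2 * (‖x‖ / ρ) ^ j) := by
        apply mul_le_mul_of_nonneg_right h1 (by positivity)
    _ = _ := one_mul _

theorem Growth.summable (h : Growth ι) {x : R} (hx : ‖x‖ < ‖PowerSeries.coeff 1 ι‖) :
    Summable fun j => PowerSeries.coeff j ι * x ^ j := by
  set ρ := ‖PowerSeries.coeff 1 ι‖ with hρ
  have hρ0 : 0 < ρ := (norm_nonneg x).trans_lt hx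
  rw [← summable_nat_add_iff 2]
  apply NonarchimedeanAddGroup.summable_of_tendsto_cofinite_zero
  rw [Nat.cofinite_eq_atTop, tendsto_zero_iff_norm_tendsto_zero]
  have hτ : ‖x‖ / ρ < 1 := (div_lt_one hρ0).mpr hx
  have h1 : Filter.Tendsto (fun j : ℕ => ‖x‖ ^ 2 * (‖x‖ / ρ) ^ j) Filter.atTop (nhds 0) := by
    simpa using (tendsto_pow_atTop_nhds_zero_of_lt_one (by positivity) hτ).const_mul (‖x‖ ^ 2)
  exact squeeze_zero (fun _ => norm_nonneg _) (fun j => h.term_le hx j) h1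

/-- Second order expansion of `ι` on the disc. -/
theorem Growth.norm_ev1_sub_le (h : Growth ι) (hc0 : PowerSeries.constantCoeff ι = 0) {x : R}
    (hx : ‖x‖ < ‖PowerSeries.coeff 1 ι‖) :
    ‖ev1 ι x - PowerSeries.coeff 1 ι * x‖ ≤ ‖x‖ ^ 2 := by
  set ρ := ‖PowerSeries.coeff 1 ι‖ with hρ
  have hρ0 : 0 < ρ := (norm_nonneg x).trans_lt hx
  have hs := h.summable hx
  have hs2 : Summable fun j => PowerSeries.coeff (j + 2) ι * x ^ (j + 2) :=
    (summable_nat_add_iff 2).mpr hs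
  have h1 : ev1 ι x = PowerSeries.coeff 1 ι * x + ∑' j, PowerSeries.coeff (j + 2) ι * x ^ (j + 2) := by
    unfold ev1
    rw [← hs.sum_add_tsum_nat_add 2]
    simp [Finset.sum_range_succ, PowerSeries.coeff_zero_eq_constantCoeff_apply, hc0]
  rw [h1, add_sub_cancel_left]
  refine IsUltrametricDist.norm_tsum_le_of_forall_le_of_nonneg (by positivity) fun j => ?_
  refine (h.term_le hx j).trans ?_
  have hτ0 : 0 ≤ ‖x‖ / ρ := by positivity
  have hτ : ‖x‖ / ρ ≤ 1 := ((div_lt_one hρ0).mpr hx).le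
  calc ‖x‖ ^ 2 * (‖x‖ / ρ) ^ j ≤ ‖x‖ ^ 2 * 1 :=
        mul_le_mul_of_nonneg_left (pow_le_one₀ hτ0 hτ) (by positivity)
    _ = _ := mul_one _

/-- The norm of `ι x`. -/
theorem Growth.norm_ev1 (h : Growth ι) (hc0 : PowerSeries.constantCoeff ι = 0) {x : R}
    (hx : ‖x‖ < ‖PowerSeries.coeff 1 ι‖) :
    ‖ev1 ι x‖ = ‖PowerSeries.coeff 1 ι‖ * ‖x‖ := by
  set c := PowerSeries.coeff 1 ι with hc
  have hle := h.norm_ev1_sub_le hc0 hx
  by_cases hx0 : x = 0
  · subst hx0
    have : ‖ev1 ι 0‖ ≤ 0 := by simpa using hle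
    simpa using this
  have hxpos : 0 < ‖x‖ := norm_pos_iff.mpr hx0
  have hlt : ‖ev1 ι x - c * x‖ < ‖c * x‖ := by
    rw [norm_mul]
    refine hle.trans_lt ?_
    rw [sq]
    exact mul_lt_mul_of_pos_right hx hxpos
  have h2 : ev1 ι x = c * x + (ev1 ι x - c * x) := by ring
  rw [h2, IsUltrametricDist.norm_add_eq_max_of_norm_ne_norm (ne_of_gt hlt),
    max_eq_left hlt.le, norm_mul]

/-- `ι` with a bounded series without constant term: the chain rule on the disc. -/
theorem Growth.ev1_subst (h : Growth ι) (hc0 : PowerSeries.constantCoeff ι = 0)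
    (hρ1 : ‖PowerSeries.coeff 1 ι‖ ≤ 1) {g : PowerSeries R} (hg : IsBdd0 g) {x : R}
    (hx : ‖x‖ < ‖PowerSeries.coeff 1 ι‖) :
    ev1 (ι.subst g) x = ev1 ι (ev1 g x) :=
  Crest.Agent.Lib.LT.Eval1.ev1_subst (h.gs hc0 hρ1) hg hρ1 hx

end Point

section Hom

open Crest.Agent.Lib.LT.EvalS Crest.Agent.Lib.LT.Eval1

variable {R : Type*} [NormedField R] [IsUltrametricDist R] [CompleteSpace R]

/-- The rescaled law `s⁻¹ F (s X₀, s X₁)`. -/
noncomputable def scaledLaw (s : R) (G : MvPowerSeries (Fin 2) R) : MvPowerSeries (Fin 2) R :=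
  s⁻¹ • MvPowerSeries.rescale (fun _ => s) G

theorem coeff_rescale_const {σ : Type*} (s : R) (G : MvPowerSeries σ R) (m : σ →₀ ℕ) :
    MvPowerSeries.coeff m (MvPowerSeries.rescale (fun _ => s) G) =
      s ^ (m.degree) * MvPowerSeries.coeff m G := by
  rw [MvPowerSeries.coeff_rescale]
  congr 1
  rw [Finsupp.prod, Finset.prod_pow_eq_pow_sum]
  rfl

theorem intS_scaledLaw {s : R} (hs0 : s ≠ 0) (hs1 : ‖s‖ ≤ 1) {G : MvPowerSeries (Fin 2) R}
    (hG : IntS G) (hG0 : MvPowerSeries.constantCoeff G = 0) : IntS (scaledLaw s G) := by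
  intro m
  unfold scaledLaw
  rw [MvPowerSeries.coeff_smul, coeff_rescale_const]
  by_cases hm : m = 0
  · subst hm
    have : MvPowerSeries.coeff (0 : Fin 2 →₀ ℕ) G = 0 := by
      simpa using hG0
    simp [this]
  · have hd : m.degree ≠ 0 := by
      intro h
      exact hm ((Finsupp.degree_eq_zero_iff m).mp h)
    obtain ⟨d, hd'⟩ := Nat.exists_eq_succ_of_ne_zero hd
    rw [hd', pow_succ, norm_mul, norm_mul, norm_mul, norm_inv]
    have hspos : 0 < ‖s‖ := norm_pos_iff.mpr hs0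
    have h1 : ‖s‖⁻¹ * (‖s‖ ^ d * ‖s‖ * ‖MvPowerSeries.coeff m G‖) =
        ‖s‖ ^ d * ‖MvPowerSeries.coeff m G‖ := by
      field_simp
    have h2 : ‖s ^ d‖ = ‖s‖ ^ d := norm_pow _ _
    rw [h2, h1]
    exact mul_le_one₀ (pow_le_one₀ hspos.le hs1) (norm_nonneg _) (hG m)

theorem ev_scaledLaw {s : R} (G : MvPowerSeries (Fin 2) R) (z : Fin 2 → R) :
    ev (scaledLaw s G) z = s⁻¹ * ev G (fun i => s * z i) := by
  unfold scaledLaw
  rw [ev_smul', ev_rescale]

theorem ord_one_of_constantCoeff {σ : Type*} {f : MvPowerSeries σ R}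
    (hf : MvPowerSeries.constantCoeff f = 0) : Ord 1 f :=
  Crest.Agent.Lib.LT.FormalIFT.ord_one_iff.mpr hf

/-- **`ι` is a homomorphism on points of the disc.**  `H, Γ'` have coefficients of norm `≤ 1`. -/
theorem Growth.ev1_hom {ι : PowerSeries R} (h : Growth ι) (hc0 : PowerSeries.constantCoeff ι = 0)
    (hc1 : PowerSeries.coeff 1 ι ≠ 0) (hρ1 : ‖PowerSeries.coeff 1 ι‖ ≤ 1)
    {H Γ' : FormalGroup R} (hH : IntS H.toPowerSeries) (hΓ : IntS Γ'.toPowerSeries)
    (hom : IsFGHom H Γ' ι) {x y : R} (hx : ‖x‖ < ‖PowerSeries.coeff 1 ι‖)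
    (hy : ‖y‖ < ‖PowerSeries.coeff 1 ι‖) :
    ev1 ι (ev H.toPowerSeries ![x, y]) = ev Γ'.toPowerSeries ![ev1 ι x, ev1 ι y] := by
  classical
  set s := PowerSeries.coeff 1 ι with hs
  have hspos : 0 < ‖s‖ := norm_pos_iff.mpr hc1
  set ιs : PowerSeries R := PowerSeries.rescale s ι with hιs
  have hιsInt : IntS (σ := Unit) ιs := h.intS_rescale hc0 hρ1
  have hιs0 : PowerSeries.constantCoeff ιs = 0 := by
    rw [← PowerSeries.coeff_zero_eq_constantCoeff_apply, hιs, PowerSeries.coeff_rescale,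
      PowerSeries.coeff_zero_eq_constantCoeff_apply, hc0, mul_zero]
  set Hs := scaledLaw s H.toPowerSeries with hHs
  have hHsInt : IntS Hs := intS_scaledLaw hc1 hρ1 hH H.zero_constantCoeff
  have hHs0 : MvPowerSeries.constantCoeff Hs = 0 := by
    rw [hHs]
    unfold scaledLaw
    rw [← MvPowerSeries.coeff_zero_eq_constantCoeff_apply, MvPowerSeries.coeff_smul,
      coeff_rescale_const, MvPowerSeries.coeff_zero_eq_constantCoeff_apply, H.zero_constantCoeff]
    simp
  -- the point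
  set z : Fin 2 → R := ![s⁻¹ * x, s⁻¹ * y] with hz
  have hzlt : ‖z‖ < 1 := by
    rw [pi_norm_lt_iff one_pos]
    intro i
    fin_cases i
    · show ‖s⁻¹ * x‖ < 1
      rw [norm_mul, norm_inv, inv_mul_lt_iff₀ hspos, mul_one]; exact hx
    · show ‖s⁻¹ * y‖ < 1
      rw [norm_mul, norm_inv, inv_mul_lt_iff₀ hspos, mul_one]; exact hy
  have hsz : (fun i => s * z i) = ![x, y] := by
    ext i
    fin_cases i
    · show s * (s⁻¹ * x) = x
      field_simp
    · show s * (s⁻¹ * y) = y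
      field_simp
  -- the two substitutions
  have hX0 : MvPowerSeries.constantCoeff (MvPowerSeries.X 0 : MvPowerSeries (Fin 2) R) = 0 := by simp
  have hX1 : MvPowerSeries.constantCoeff (MvPowerSeries.X 1 : MvPowerSeries (Fin 2) R) = 0 := by simp
  -- the rescaling substitution
  have hT : MvPowerSeries.HasSubst ((fun _ : Fin 2 => s) • (MvPowerSeries.X : Fin 2 → MvPowerSeries (Fin 2) R)) := by
    apply MvPowerSeries.hasSubst_of_constantCoeff_zero
    intro i
    simp
  set T : MvPowerSeries (Fin 2) R → MvPowerSeries (Fin 2) R :=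
    fun f => MvPowerSeries.rescale (fun _ : Fin 2 => s) f with hTdef
  have hTsubst : ∀ f, T f = MvPowerSeries.subst ((fun _ : Fin 2 => s) • MvPowerSeries.X) f :=
    fun f => MvPowerSeries.rescale_eq_subst _ f
  have hTX : ∀ i : Fin 2, T (MvPowerSeries.X i) = s • MvPowerSeries.X i := by
    intro i
    rw [hTsubst, MvPowerSeries.subst_X hT]
    rfl
  have hhom := hom.2
  have hscale : s • Hs = T H.toPowerSeries := by
    rw [hHs]
    unfold scaledLaw
    rw [smul_smul, mul_inv_cancel₀ hc1, one_smul]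
  -- `ι (T H) = ιs (Hs)`
  have hsubst1 : PowerSeries.subst Hs ιs = PowerSeries.subst (T H.toPowerSeries) ι := by
    rw [hιs, PowerSeries.rescale_eq_subst]
    rw [psubst_psubst (by simp) hHs0]
    congr 1
    rw [← hscale]
    rw [PowerSeries.subst_smul (hasSubst_one hHs0), PowerSeries.subst_X (hasSubst_one hHs0)]
  -- `T (ι X_i) = ιs X_i`
  have hsubst2 : ∀ i : Fin 2, T (PowerSeries.subst (MvPowerSeries.X i : MvPowerSeries (Fin 2) R) ι) =
      PowerSeries.subst (MvPowerSeries.X i : MvPowerSeries (Fin 2) R) ιs := by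
    intro i
    have hXi : MvPowerSeries.constantCoeff (MvPowerSeries.X i : MvPowerSeries (Fin 2) R) = 0 := by simp
    rw [hTsubst, subst_psubst hXi hT, hιs, PowerSeries.rescale_eq_subst,
      psubst_psubst (by simp) hXi, PowerSeries.subst_smul (hasSubst_one hXi),
      PowerSeries.subst_X (hasSubst_one hXi), ← hTsubst, hTX]
  -- the series identity
  have hkey : PowerSeries.subst Hs ιs = fadd Γ'.toPowerSeries
      (PowerSeries.subst (MvPowerSeries.X 0 : MvPowerSeries (Fin 2) R) ιs)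
      (PowerSeries.subst (MvPowerSeries.X 1 : MvPowerSeries (Fin 2) R) ιs) := by
    have h1 := congrArg T hhom
    rw [hTsubst, subst_psubst H.zero_constantCoeff hT, ← hTsubst, ← hsubst1] at h1
    rw [h1]
    rw [hTsubst]
    have h2 := subst_fadd Γ'.toPowerSeries (constantCoeff_psubst hX0 hc0)
      (constantCoeff_psubst hX1 hc0) hT
    unfold fadd at h2 ⊢
    rw [h2, ← hTsubst, ← hTsubst, hsubst2, hsubst2]
  -- evaluate
  have hl : ev (PowerSeries.subst Hs ιs) z = ev1 ι (ev H.toPowerSeries ![x, y]) := by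
    have h1 := ev_subst (σ := Unit) (f := ιs) (a := fun _ => Hs) hιsInt (fun _ => hHsInt)
      (fun _ => ord_one_of_constantCoeff hHs0) hzlt
    have h2 : PowerSeries.subst Hs ιs = MvPowerSeries.subst (fun _ : Unit => Hs) ιs := rfl
    rw [h2, h1, ev_unit, hιs, ev1_rescale, hHs, ev_scaledLaw, hsz, ← mul_assoc,
      mul_inv_cancel₀ hc1, one_mul]
  have hXev : ∀ (i : Fin 2), ev (PowerSeries.subst (MvPowerSeries.X i : MvPowerSeries (Fin 2) R) ιs) z =
      ev1 ι (s * z i) := by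
    intro i
    have hXi : MvPowerSeries.constantCoeff (MvPowerSeries.X i : MvPowerSeries (Fin 2) R) = 0 := by simp
    have h1 := ev_subst (σ := Unit) (f := ιs) (a := fun _ => (MvPowerSeries.X i : MvPowerSeries (Fin 2) R))
      hιsInt (fun _ => intS_X i) (fun _ => ord_one_of_constantCoeff hXi) hzlt
    have h2 : PowerSeries.subst (MvPowerSeries.X i : MvPowerSeries (Fin 2) R) ιs =
        MvPowerSeries.subst (fun _ : Unit => (MvPowerSeries.X i : MvPowerSeries (Fin 2) R)) ιs := rfl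
    rw [h2, h1, ev_unit, ev_X, hιs, ev1_rescale]
  have hr : ev (fadd Γ'.toPowerSeries
      (PowerSeries.subst (MvPowerSeries.X 0 : MvPowerSeries (Fin 2) R) ιs)
      (PowerSeries.subst (MvPowerSeries.X 1 : MvPowerSeries (Fin 2) R) ιs)) z =
      ev Γ'.toPowerSeries ![ev1 ι x, ev1 ι y] := by
    have hI : ∀ i : Fin 2, IntS (![PowerSeries.subst (MvPowerSeries.X 0 : MvPowerSeries (Fin 2) R) ιs,
        PowerSeries.subst (MvPowerSeries.X 1 : MvPowerSeries (Fin 2) R) ιs] i) := by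
      intro i
      have hXi : MvPowerSeries.constantCoeff (MvPowerSeries.X i : MvPowerSeries (Fin 2) R) = 0 := by simp
      fin_cases i
      · exact IntS.subst (σ := Unit) (hasSubst_one hX0).const (fun _ => intS_X 0) hιsInt
      · exact IntS.subst (σ := Unit) (hasSubst_one hX1).const (fun _ => intS_X 1) hιsInt
    have hO : ∀ i : Fin 2, Ord 1 (![PowerSeries.subst (MvPowerSeries.X 0 : MvPowerSeries (Fin 2) R) ιs,
        PowerSeries.subst (MvPowerSeries.X 1 : MvPowerSeries (Fin 2) R) ιs] i) := by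
      intro i
      fin_cases i
      · exact ord_one_of_constantCoeff (constantCoeff_psubst hX0 hιs0)
      · exact ord_one_of_constantCoeff (constantCoeff_psubst hX1 hιs0)
    have h1 := ev_subst hΓ hI hO hzlt
    unfold fadd
    rw [h1]
    congr 1
    ext i
    fin_cases i
    · show ev (PowerSeries.subst (MvPowerSeries.X 0 : MvPowerSeries (Fin 2) R) ιs) z = ev1 ι x
      rw [hXev]
      exact congrArg (ev1 ι) (congrFun hsz 0)
    · show ev (PowerSeries.subst (MvPowerSeries.X 1 : MvPowerSeries (Fin 2) R) ιs) z = ev1 ι y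
      rw [hXev]
      exact congrArg (ev1 ι) (congrFun hsz 1)
  rw [← hl, hkey, hr]

/-- `ι ([p]_H x) = (ι x)^q` on the disc, for a bounded `[p]`. -/
theorem Growth.ev1_mulP {ι : PowerSeries R} (h : Growth ι) (hc0 : PowerSeries.constantCoeff ι = 0)
    (hρ1 : ‖PowerSeries.coeff 1 ι‖ ≤ 1) {P : PowerSeries R} (hP : IsBdd0 P) {q : ℕ}
    (hiota : ι.subst P = ι ^ q) {x : R} (hx : ‖x‖ < ‖PowerSeries.coeff 1 ι‖) :
    ev1 ι (ev1 P x) = (ev1 ι x) ^ q := by
  rw [← h.ev1_subst hc0 hρ1 hP hx, hiota]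
  have hρ0 : 0 < ‖PowerSeries.coeff 1 ι‖ := (norm_nonneg x).trans_lt hx
  exact Crest.Agent.Lib.LT.Eval1.ev1_pow (h.gs hc0 hρ1) hρ0 hx q

end Hom

end Crest.Agent.LT.Linearize
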