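import Crest.Agent.Lib.LT.StdEnd

/-!
# Coefficient structure of the standard law

If `2 ≤ |e| < p^h`, `h ≤ n`, the coefficient of `X^e` in the standard law lies in the ideal
`(u_1, …, u_{h-1})`: killing `u_1, …, u_{h-1}` kills `lam_1, …, lam_{h-1}`, so the logarithm is
`X` modulo degree `p^h`, so the law is `X + Y` modulo degree `p^h`.
-/

set_option autoImplicit false

open Crest.LubinTate

namespace Crest.Agent.LT.Std

section Low

variable {K : Type*} [CommRing K] {p : ℕ} [hp : Fact p.Prime] {τ : Type*}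

/-- If `c_m = 0` for `0 < m < h`, `f = ∑ c_m X^(p^m)` is `X` in degree `< p^h`. -/
theorem coeff_subst_logSeries_low (c : ℕ → K) (hc0 : c 0 = 1) {h : ℕ}
    (hc : ∀ m, 0 < m → m < h → c m = 0) {G : MvPowerSeries τ K}
    (hG : MvPowerSeries.constantCoeff G = 0) (e : τ →₀ ℕ) (he : e.degree < p ^ h) :
    MvPowerSeries.coeff e ((logSeries p c).subst G) = MvPowerSeries.coeff e G := by
  classical
  have hp1 : 1 < p := hp.out.one_lt
  rw [coeff_subst_logSeries hp1 c hG e (Nat.lt_succ_self _),
    Finset.sum_eq_single 0]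
  · simp [hc0]
  · intro m _ hm0
    by_cases hmh : m < h
    · rw [hc m (Nat.pos_of_ne_zero hm0) hmh, zero_mul]
    · have h1 := (ordGE_of_constantCoeff hG).pow (p ^ m)
      rw [h1 e, mul_zero]
      have : p ^ h ≤ p ^ m := Nat.pow_le_pow_right hp.out.pos (by omega)
      omega
  · intro h0
    simp at h0

end Low

section Concrete

open MvPolynomial

variable (p n : ℕ) [hp : Fact p.Prime]

/-- the variables `u_j`, `j < h` -/
def lowVars (h : ℕ) : Set (Fin (n - 1)) := {i | (i : ℕ) + 1 < h}

/-- kill `u_1, …, u_{h-1}` over `ℤ` -/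
noncomputable def killA (h : ℕ) : StdA n →+* StdA n :=
  (MvPolynomial.aeval (R := ℤ) (fun i : Fin (n - 1) => if (i : ℕ) + 1 < h then 0 else X i) :
    StdA n →ₐ[ℤ] StdA n).toRingHom

/-- kill `u_1, …, u_{h-1}` over `ℚ` -/
noncomputable def killL (h : ℕ) : StdL n →+* StdL n :=
  (MvPolynomial.aeval (R := ℚ) (fun i : Fin (n - 1) => if (i : ℕ) + 1 < h then 0 else X i) :
    StdL n →ₐ[ℚ] StdL n).toRingHom

theorem killL_comp (h : ℕ) : (killL n h).comp (stdι n) = (stdι n).comp (killA n h) := by
  apply MvPolynomial.ringHom_ext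
  · intro r
    simp [killL, killA, stdι]
  · intro i
    by_cases hi : (i : ℕ) + 1 < h <;> simp [killL, killA, stdι, hi]

theorem killL_lam {h : ℕ} (hn : h ≤ n) (m : ℕ) (hm0 : 0 < m) (hmh : m < h) :
    killL n h (stdLam p n m) = 0 := by
  have hinv : killL n h (stdPinv p n) * (p : StdL n) = 1 := by
    have := congrArg (killL n h) (stdPinv_spec p n)
    rw [map_mul, map_natCast, map_one] at this
    rw [mul_comm]; exact this
  have h1 := congrArg (killL n h) (stdLam_left p n m hm0)
  rw [map_mul, map_natCast, map_sum, Finset.sum_eq_zero] at h1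
  · have := congrArg (fun z => killL n h (stdPinv p n) * z) h1
    simpa [← mul_assoc, hinv] using this
  · intro j hj
    rw [Finset.mem_Icc] at hj
    have hj1 : 1 ≤ j := hj.1
    have hjm : j ≤ m := le_trans hj.2 (min_le_right _ _)
    have hlt : j - 1 < n - 1 := by omega
    have h2 : stdι n (stdUA n j) = X ⟨j - 1, hlt⟩ := by
      simp only [stdUA]
      rw [dif_pos hlt]
      simp [stdι]
    have h3 : killL n h (X ⟨j - 1, hlt⟩) = 0 := by
      have h4 : j - 1 + 1 < h := by omega
      simp [killL, h4]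
    rw [map_mul, map_pow, h2, h3, zero_pow (pow_ne_zero _ hp.out.ne_zero), mul_zero]

theorem sub_killA_mem (h : ℕ) (a : StdA n) :
    a - killA n h a ∈ Ideal.span ((X : Fin (n - 1) → StdA n) '' lowVars n h) := by
  induction a using MvPolynomial.induction_on with
  | C r =>
    simp [killA]
  | add a b ha hb =>
    rw [map_add, add_sub_add_comm]
    exact add_mem ha hb
  | mul_X a i ha =>
    by_cases hi : (i : ℕ) + 1 < h
    · have h1 : killA n h (X i) = 0 := by simp [killA, hi]
      rw [map_mul, h1, mul_zero, sub_zero]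
      exact Ideal.mul_mem_left _ _ (Ideal.subset_span ⟨i, hi, rfl⟩)
    · have h1 : killA n h (X i) = X i := by simp [killA, hi]
      rw [map_mul, h1, ← sub_mul]
      exact Ideal.mul_mem_right _ _ ha

/-- **Coefficient structure over `ℤ[u]`**: the coefficient of `X^e`, `2 ≤ |e| < p^h`, `h ≤ n`, lies
in the ideal `(u_1, …, u_{h-1})`. -/
theorem coeff_lawA_mem {h : ℕ} (hn : h ≤ n) (e : Fin 2 →₀ ℕ) (he2 : 2 ≤ e.degree)
    (he : e.degree < p ^ h) :
    MvPowerSeries.coeff e (lawA p n).toPowerSeries ∈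
      Ideal.span ((X : Fin (n - 1) → StdA n) '' lowVars n h) := by
  classical
  have hlog := isLog_map_law p n (killL n h)
  set F' := ((lawA p n).map (stdι n)).map (killL n h) with hF'
  set c : ℕ → StdL n := fun m => killL n h (stdLam p n m) with hc
  have hc0 : c 0 = 1 := by simp [hc, stdLam_zero]
  have hcl : ∀ m, 0 < m → m < h → c m = 0 := fun m h0 h1 => killL_lam p n hn m h0 h1
  have hX0 : MvPowerSeries.constantCoeff (MvPowerSeries.X 0 : MvPowerSeries (Fin 2) (StdL n)) = 0 := by
    simp
  have hX1 : MvPowerSeries.constantCoeff (MvPowerSeries.X 1 : MvPowerSeries (Fin 2) (StdL n)) = 0 := by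
    simp
  have h1 := congrArg (MvPowerSeries.coeff e) hlog
  rw [map_add, coeff_subst_logSeries_low c hc0 hcl F'.zero_constantCoeff e he,
    coeff_subst_logSeries_low c hc0 hcl hX0 e he,
    coeff_subst_logSeries_low c hc0 hcl hX1 e he] at h1
  have hne : ∀ s : Fin 2, e ≠ Finsupp.single s 1 := by
    intro s hs
    rw [hs] at he2
    simp at he2
  rw [MvPowerSeries.coeff_X, MvPowerSeries.coeff_X, if_neg (hne 0), if_neg (hne 1), add_zero] at h1
  -- transport to `killA`
  have h2 : killA n h (MvPowerSeries.coeff e (lawA p n).toPowerSeries) = 0 := by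
    apply stdι_inj n
    have h3 := RingHom.congr_fun (killL_comp n h) (MvPowerSeries.coeff e (lawA p n).toPowerSeries)
    simp only [RingHom.comp_apply] at h3
    rw [← h3, map_zero]
    have h4 : MvPowerSeries.coeff e F'.toPowerSeries =
        killL n h (stdι n (MvPowerSeries.coeff e (lawA p n).toPowerSeries)) := by
      simp [hF', MvPowerSeries.coeff_map]
    rw [← h4]
    exact h1
  have h5 := sub_killA_mem n h (MvPowerSeries.coeff e (lawA p n).toPowerSeries)
  rwa [h2, sub_zero] at h5

/-- **Coefficient structure over `E₀`.** -/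
theorem coeff_stdLaw_mem {h : ℕ} (hn : h ≤ n) (e : Fin 2 →₀ ℕ) (he2 : 2 ≤ e.degree)
    (he : e.degree < p ^ h) :
    MvPowerSeries.coeff e (stdLaw p n).toPowerSeries ∈
      Ideal.span ((MvPowerSeries.X : Fin (n - 1) → LTRing p n) '' lowVars n h) := by
  have h1 := Ideal.mem_map_of_mem (toE0 p n) (coeff_lawA_mem p n hn e he2 he)
  rw [Ideal.map_span] at h1
  have h2 : (toE0 p n) '' ((X : Fin (n - 1) → StdA n) '' lowVars n h) =
      (MvPowerSeries.X : Fin (n - 1) → LTRing p n) '' lowVars n h := by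
    rw [Set.image_image]
    simp only [toE0_X]
  rw [h2] at h1
  have h3 : MvPowerSeries.coeff e (stdLaw p n).toPowerSeries =
      toE0 p n (MvPowerSeries.coeff e (lawA p n).toPowerSeries) := by
    simp [stdLaw, MvPowerSeries.coeff_map]
  rw [h3]
  exact h1

/-- **Norm bound at a point.** Let `χ : E₀ → R` be a ring map with values of norm `≤ 1` into an
ultrametric normed ring.  If `‖χ (u_j)‖ ≤ r` for `1 ≤ j < h` then every coefficient of the
push-forward of the standard law of total degree in `[2, p^h)` has norm `≤ r`. -/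
theorem norm_coeff_stdLaw_map_le {R : Type*} [NormedCommRing R] [IsUltrametricDist R]
    (χ : LTRing p n →+* R) (hχ : ∀ a, ‖χ a‖ ≤ 1) {h : ℕ} (hn : h ≤ n) (e : Fin 2 →₀ ℕ)
    (he2 : 2 ≤ e.degree) (he : e.degree < p ^ h) {r : ℝ} (hr0 : 0 ≤ r)
    (hr : ∀ i : Fin (n - 1), (i : ℕ) + 1 < h → ‖χ (MvPowerSeries.X i)‖ ≤ r) :
    ‖MvPowerSeries.coeff e ((stdLaw p n).map χ).toPowerSeries‖ ≤ r := by
  have hmem := coeff_stdLaw_mem p n hn e he2 he
  have h1 : MvPowerSeries.coeff e ((stdLaw p n).map χ).toPowerSeries =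
      χ (MvPowerSeries.coeff e (stdLaw p n).toPowerSeries) := by
    simp [MvPowerSeries.coeff_map]
  rw [h1]
  have key : ∀ a ∈ Ideal.span ((MvPowerSeries.X : Fin (n - 1) → LTRing p n) '' lowVars n h),
      ‖χ a‖ ≤ r := by
    intro a ha
    induction ha using Submodule.span_induction with
    | mem x hx =>
      obtain ⟨i, hi, rfl⟩ := hx
      exact hr i hi
    | zero => simpa using hr0
    | add x y _ _ hx hy =>
      rw [map_add]
      exact (IsUltrametricDist.norm_add_le_max _ _).trans (max_le hx hy)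
    | smul a x _ hx =>
      rw [smul_eq_mul, map_mul]
      exact (norm_mul_le _ _).trans (by
        calc ‖χ a‖ * ‖χ x‖ ≤ 1 * r := mul_le_mul (hχ a) hx (norm_nonneg _) zero_le_one
          _ = r := one_mul r)
  exact key _ hmem

end Concrete

end Crest.Agent.LT.Std
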