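import Mathlib
import Crest.Agent.Lib.LT.AddExp
import Crest.Agent.Lib.LT.StdHB
import Crest.Agent.Lib.LT.LinearizeEval

/-!
# (2c) of S0351: the `[p]`-map of the standard law at a point is quadratically close to its
additive part.

For `χ : E₀ → R` with `‖χ‖ ≤ 1`, `χ p = 0`, `χ u_j = 0` for `1 ≤ j < k` and `χ u_{k+j} = w_j`,
the `[p]`-map of `F = χ_* stdLaw` satisfies `‖[p]_F u - A u‖ ≤ g (g ‖u‖)`,
which is the hypothesis `hP` of `AddExp.Hyp.norm_Psi_sub_Xi`.
-/

set_option autoImplicit false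
set_option linter.unusedSectionVars false

namespace Crest.Agent.LT.AddExp

open Crest.LubinTate Crest.Agent.LT Crest.Agent.LT.Std
open Crest.Agent.Lib.LT.EvalS
open Crest.Agent.Lib.LT.FormalIFT (Ord)

section Cross

variable {R : Type*} [NormedField R] [IsUltrametricDist R] [CompleteSpace R]

theorem degree_fin2 (e : Fin 2 →₀ ℕ) : e.degree = e 0 + e 1 := by
  rw [Finsupp.degree_eq_sum, Fin.sum_univ_two]

/-- Cross bound for a law with coefficient bound. -/
theorem norm_ev_law_sub_le {F : FormalGroup R} (hInt : IntS F.toPowerSeries) {G T : ℝ} (hG0 : 0 ≤ G)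
    (hT1 : T < 1)
    (hB : ∀ e : Fin 2 →₀ ℕ, 2 ≤ e.degree → ‖MvPowerSeries.coeff e F.toPowerSeries‖ * T ^ e.degree ≤ G)
    {a b : R} (ha : ‖a‖ ≤ T) (hb : ‖b‖ ≤ T) :
    ‖ev F.toPowerSeries ![a, b] - a - b‖ ≤ G := by
  classical
  set z : Fin 2 → R := ![a, b] with hz
  have hT0 : 0 ≤ T := (norm_nonneg a).trans ha
  have hzT : ‖z‖ ≤ T := by
    rw [pi_norm_le_iff_of_nonneg hT0]
    intro i
    fin_cases i
    · exact ha
    · exact hb
  have hz1 : ‖z‖ < 1 := hzT.trans_lt hT1
  set Q : MvPowerSeries (Fin 2) R := F.toPowerSeries - MvPowerSeries.X 0 - MvPowerSeries.X 1 with hQ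
  have hX0 : IntS (MvPowerSeries.X 0 : MvPowerSeries (Fin 2) R) := intS_X 0
  have hX1 : IntS (MvPowerSeries.X 1 : MvPowerSeries (Fin 2) R) := intS_X 1
  have hQI : IntS Q := (hInt.sub hX0).sub hX1
  have hev : ev Q z = ev F.toPowerSeries z - a - b := by
    rw [hQ, ev_sub (hInt.sub hX0) hX1 hz1, ev_sub hInt hX0 hz1, ev_X, ev_X]
    rfl
  rw [← hev]
  -- coefficients of `Q`
  have hne01 : (Finsupp.single (0 : Fin 2) 1 : Fin 2 →₀ ℕ) ≠ Finsupp.single 1 1 := by
    intro h
    have := DFunLike.congr_fun h 0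
    simp at this
  have hz0 : (0 : Fin 2 →₀ ℕ) ≠ Finsupp.single 0 1 := by
    intro h
    have := DFunLike.congr_fun h 0
    simp at this
  have hz1 : (0 : Fin 2 →₀ ℕ) ≠ Finsupp.single 1 1 := by
    intro h
    have := DFunLike.congr_fun h 1
    simp at this
  have hcoeff : ∀ e : Fin 2 →₀ ℕ, e.degree < 2 → MvPowerSeries.coeff e Q = 0 := by
    intro e he
    rw [degree_fin2] at he
    rw [hQ, map_sub, map_sub, MvPowerSeries.coeff_X, MvPowerSeries.coeff_X]
    have h00 : e 0 = 0 ∨ e 0 = 1 := by omega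
    rcases h00 with h0 | h0
    · have h11 : e 1 = 0 ∨ e 1 = 1 := by omega
      rcases h11 with h1 | h1
      · have : e = 0 := by
          ext i; fin_cases i <;> simp [h0, h1]
        subst this
        have hc : MvPowerSeries.coeff (0 : Fin 2 →₀ ℕ) F.toPowerSeries = 0 := by
          simpa using F.zero_constantCoeff
        rw [hc, if_neg hz0, if_neg hz1]
        simp
      · have : e = Finsupp.single 1 1 := by
          ext i; fin_cases i <;> simp [h0, h1]
        subst this
        rw [F.lin_coeff_Y, if_neg hne01.symm, if_pos rfl]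
        simp
    · have h1 : e 1 = 0 := by omega
      have : e = Finsupp.single 0 1 := by
        ext i; fin_cases i <;> simp [h0, h1]
      subst this
      rw [F.lin_coeff_X, if_pos rfl, if_neg hne01]
      simp
  have hcoeff2 : ∀ e : Fin 2 →₀ ℕ, 2 ≤ e.degree →
      MvPowerSeries.coeff e Q = MvPowerSeries.coeff e F.toPowerSeries := by
    intro e he
    rw [degree_fin2] at he
    rw [hQ, map_sub, map_sub, MvPowerSeries.coeff_X, MvPowerSeries.coeff_X]
    have h1 : e ≠ Finsupp.single 0 1 := by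
      rintro rfl
      simp at he
    have h2 : e ≠ Finsupp.single 1 1 := by
      rintro rfl
      simp at he
    rw [if_neg h1, if_neg h2]
    simp
  refine norm_tsum_le_bound hG0 fun e => ?_
  by_cases he : e.degree < 2
  · rw [hcoeff e he, zero_mul, norm_zero]
    exact hG0
  · push Not at he
    rw [hcoeff2 e he, norm_mul]
    have h1 : ‖mono z e‖ ≤ T ^ e.degree :=
      (norm_mono_le z e).trans (pow_le_pow_left₀ (norm_nonneg _) hzT _)
    exact (mul_le_mul_of_nonneg_left h1 (norm_nonneg _)).trans (hB e he)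

/-- Chain rule for the law on one-variable series. -/
theorem ev1_fadd {F : MvPowerSeries (Fin 2) R} (hF : IntS F) {A B : PowerSeries R}
    (hA : IntS (σ := Unit) A) (hB : IntS (σ := Unit) B)
    (hA0 : PowerSeries.constantCoeff A = 0) (hB0 : PowerSeries.constantCoeff B = 0)
    {u : R} (hu : ‖u‖ < 1) :
    Crest.Agent.Lib.LT.Eval1.ev1 (fadd F A B) u =
      ev F ![Crest.Agent.Lib.LT.Eval1.ev1 A u, Crest.Agent.Lib.LT.Eval1.ev1 B u] := by
  have hy : ‖(fun _ : Unit => u)‖ < 1 := by
    rw [pi_norm_lt_iff one_pos]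
    exact fun _ => hu
  have hI : ∀ i : Fin 2, IntS (σ := Unit) (![A, B] i) := by
    intro i
    fin_cases i
    · exact hA
    · exact hB
  have hO : ∀ i : Fin 2, Ord 1 (![A, B] i : MvPowerSeries Unit R) := by
    intro i
    fin_cases i
    · exact Crest.Agent.LT.Linearize.ord_one_of_constantCoeff hA0
    · exact Crest.Agent.LT.Linearize.ord_one_of_constantCoeff hB0
  have h1 := ev_subst hF hI hO hy
  rw [← Crest.Agent.LT.Linearize.ev_unit]
  unfold fadd
  rw [h1]
  congr 1
  ext i
  fin_cases i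
  · exact Crest.Agent.LT.Linearize.ev_unit A u
  · exact Crest.Agent.LT.Linearize.ev_unit B u

theorem ev1_C_mul_X_pow (c u : R) (m : ℕ) :
    Crest.Agent.Lib.LT.Eval1.ev1 (PowerSeries.C c * PowerSeries.X ^ m : PowerSeries R) u = c * u ^ m := by
  unfold Crest.Agent.Lib.LT.Eval1.ev1
  rw [tsum_eq_single m]
  · rw [PowerSeries.coeff_C_mul, PowerSeries.coeff_X_pow, if_pos rfl, mul_one]
  · intro j hj
    rw [PowerSeries.coeff_C_mul, PowerSeries.coeff_X_pow, if_neg hj, mul_zero, zero_mul]

end Cross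

section Std

variable {p : ℕ} [hp : Fact p.Prime] {n k r : ℕ}
variable {R : Type*} [NormedField R] [IsUltrametricDist R] [CompleteSpace R] [CharP R p]
variable {w : ℕ → R} {ρ : ℝ}

/-- The data of a point of the stratum `k`: `χ : E₀ → R`, `χ p = 0`, `χ u_j = 0`, `1 ≤ j < k`,
`χ u_{k+j} = w j`. -/
structure PointData (p n k r : ℕ) [Fact p.Prime] (χ : LTRing p n →+* R) (w : ℕ → R) : Prop where
  hn : k + r = n
  hχ : ∀ a, ‖χ a‖ ≤ 1
  hχp : χ (p : LTRing p n) = 0
  hlow : ∀ j, 1 ≤ j → j < k → χ (stdU p n j) = 0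
  hhigh : ∀ j, j ≤ r → χ (stdU p n (k + j)) = w j

variable {χ : LTRing p n →+* R}

theorem PointData.norm_X_eq_zero (D : PointData p n k r χ w) (i : Fin (n - 1))
    (hi : (i : ℕ) + 1 < k) : χ (MvPowerSeries.X i) = 0 := by
  have h1 : ((i : ℕ) + 1) - 1 < n - 1 := by have := i.2; omega
  have h2 := stdU_of_lt p n h1
  have h3 : (⟨(i : ℕ) + 1 - 1, h1⟩ : Fin (n - 1)) = i := by
    ext; simp
  rw [h3] at h2
  rw [← h2]
  exact D.hlow _ (by omega) hi

theorem PointData.X_eq_w (D : PointData p n k r χ w) (i : Fin (n - 1)) (j : ℕ)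
    (hi : (i : ℕ) + 1 = k + j) (hj : j ≤ r) : χ (MvPowerSeries.X i) = w j := by
  have h1 : (k + j) - 1 < n - 1 := by have := i.2; omega
  have h2 := stdU_of_lt p n h1
  have h3 : (⟨k + j - 1, h1⟩ : Fin (n - 1)) = i := by
    ext; simp; omega
  rw [h3] at h2
  rw [← h2]
  exact D.hhigh j hj

theorem PointData.intS (D : PointData p n k r χ w) :
    IntS ((stdLaw p n).map χ).toPowerSeries := by
  intro e
  simp only [FormalGroup.map_toPowerSeries, MvPowerSeries.coeff_map]
  exact D.hχ _

theorem gg_nonneg {t : ℝ} (ht : 0 ≤ t) : 0 ≤ gg p k r w t := by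
  have := le_gg (p := p) (k := k) (r := r) (w := w) (Nat.zero_le r) t
  exact (mul_nonneg (norm_nonneg _) (pow_nonneg ht _)).trans this

/-- The coefficient bound. -/
theorem PointData.coeff_bound (D : PointData p n k r χ w) (H : Hyp p k r w ρ) {T : ℝ} (hT0 : 0 ≤ T)
    (hT1 : T ≤ 1) (e : Fin 2 →₀ ℕ) (he : 2 ≤ e.degree) :
    ‖MvPowerSeries.coeff e ((stdLaw p n).map χ).toPowerSeries‖ * T ^ e.degree ≤ gg p k r w T := by
  classical
  have hn := D.hn
  have hg0 : 0 ≤ gg p k r w T := gg_nonneg hT0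
  have hpos : 0 < p := (Fact.out : p.Prime).pos
  by_cases hd : p ^ n ≤ e.degree
  · have h1 : ‖MvPowerSeries.coeff e ((stdLaw p n).map χ).toPowerSeries‖ ≤ 1 := D.intS e
    have h2 : T ^ e.degree ≤ T ^ p ^ (k + r) := by
      apply pow_le_pow_of_le_one hT0 hT1
      rw [hn]; exact hd
    refine (mul_le_mul h1 h2 (pow_nonneg hT0 _) zero_le_one).trans ?_
    rw [one_mul]
    exact H.pow_le_gg T
  · push Not at hd
    have hex : ∃ h, e.degree < p ^ h := ⟨n, hd⟩
    set h := Nat.find hex with hh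
    have hh1 : e.degree < p ^ h := Nat.find_spec hex
    have hhn : h ≤ n := Nat.find_min' hex hd
    have hh0 : h ≠ 0 := by
      intro h0
      rw [h0, pow_zero] at hh1
      omega
    have hhmin : p ^ (h - 1) ≤ e.degree := by
      have := Nat.find_min hex (show h - 1 < h by omega)
      omega
    by_cases hhk : h ≤ k
    · have := norm_coeff_stdLaw_map_le p n χ D.hχ hhn e he hh1 (r := 0) le_rfl
        (fun i hi => by
          rw [D.norm_X_eq_zero i (by omega), norm_zero])
      have h0 : ‖MvPowerSeries.coeff e ((stdLaw p n).map χ).toPowerSeries‖ = 0 :=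
        le_antisymm this (norm_nonneg _)
      rw [h0, zero_mul]
      exact hg0
    · push Not at hhk
      obtain ⟨j, hj⟩ : ∃ j, h = k + j + 1 := ⟨h - 1 - k, by omega⟩
      have hjr : j < r := by omega
      obtain ⟨j₀, hj₀, hmax⟩ := Finset.exists_max_image (Finset.range (j + 1)) (fun i => ‖w i‖)
        ⟨0, by simp⟩
      have hj₀le : j₀ ≤ j := by have := Finset.mem_range.mp hj₀; omega
      have hb := norm_coeff_stdLaw_map_le p n χ D.hχ hhn e he hh1 (r := ‖w j₀‖) (norm_nonneg _)
        (fun i hi => by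
          by_cases hik : (i : ℕ) + 1 < k
          · rw [D.norm_X_eq_zero i hik, norm_zero]
            exact norm_nonneg _
          · push Not at hik
            obtain ⟨j', hj'⟩ : ∃ j', (i : ℕ) + 1 = k + j' := ⟨(i : ℕ) + 1 - k, by omega⟩
            rw [D.X_eq_w i j' hj' (by omega)]
            exact hmax j' (Finset.mem_range.mpr (by omega)))
      have hexp : p ^ (k + j₀) ≤ e.degree := by
        refine le_trans ?_ hhmin
        exact Nat.pow_le_pow_right hpos (by omega)
      have h2 : T ^ e.degree ≤ T ^ p ^ (k + j₀) := pow_le_pow_of_le_one hT0 hT1 hexp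
      calc ‖MvPowerSeries.coeff e ((stdLaw p n).map χ).toPowerSeries‖ * T ^ e.degree
          ≤ ‖w j₀‖ * T ^ p ^ (k + j₀) := mul_le_mul hb h2 (pow_nonneg hT0 _) (norm_nonneg _)
        _ ≤ gg p k r w T := le_gg (by omega) T

/-- **The hypothesis `hP` of `AddExp.Hyp.norm_Psi_sub_Xi`** for the standard law at a point. -/
theorem PointData.norm_pH_sub_Aadd (D : PointData p n k r χ w) (H : Hyp p k r w ρ) {u : R}
    (hu : ‖u‖ < 1) :
    ‖Crest.Agent.Lib.LT.Eval1.ev1 (mulSeries ((stdLaw p n).map χ) p) u - Aadd p k r w u‖ ≤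
      gg p k r w (gg p k r w ‖u‖) := by
  classical
  have hn := D.hn
  set F := (stdLaw p n).map χ with hF
  have hFI : IntS F.toPowerSeries := D.intS
  set v : ℕ → R := fun j => χ (stdU p n j) with hv
  set T := gg p k r w ‖u‖ with hT
  have hT0 : 0 ≤ T := gg_nonneg (norm_nonneg _)
  have hgg : ∀ t : ℝ, 0 ≤ t → t ≤ 1 → gg p k r w t ≤ t := by
    intro t ht0 ht1
    refine (H.gg_le_pow ht0 ht1).trans ?_
    calc t ^ p ^ k ≤ t ^ 1 :=
          pow_le_pow_of_le_one ht0 ht1 (Nat.one_le_pow _ _ (Fact.out : p.Prime).pos)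
      _ = t := pow_one t
  have hTu : T ≤ ‖u‖ := hgg _ (norm_nonneg _) hu.le
  have hT1 : T < 1 := hTu.trans_lt hu
  have hgT : gg p k r w T ≤ T := hgg T hT0 hT1.le
  have hgT0 : 0 ≤ gg p k r w T := gg_nonneg hT0
  -- the terms
  have hterm : ∀ j, 1 ≤ j → j ≤ n → ‖v j * u ^ p ^ j‖ ≤ T := by
    intro j hj1 hjn
    by_cases hjk : j < k
    · rw [hv]
      simp only
      rw [D.hlow j hj1 hjk, zero_mul, norm_zero]
      exact hT0
    · obtain ⟨j', rfl⟩ : ∃ j', j = k + j' := ⟨j - k, by omega⟩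
      rw [hv]
      simp only
      rw [D.hhigh j' (by omega), norm_mul, norm_pow]
      exact le_gg (by omega) _
  have hvI : ∀ j, ‖v j‖ ≤ 1 := fun j => D.hχ _
  -- the partial sums
  let G : ℕ → PowerSeries R := GsumMono F p v
  let S : ℕ → R := fun J => ∑ j ∈ Finset.range J, v (j + 1) * u ^ p ^ (j + 1)
  have hG0 : ∀ J, PowerSeries.constantCoeff (G J) = 0 := fun J => constantCoeff_GsumMono (p := p) F v J
  have hmonoI : ∀ j, IntS (σ := Unit) (PowerSeries.C (v j) * PowerSeries.X ^ p ^ j : PowerSeries R) := by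
    intro j
    refine IntS.mul (intS_C (hvI j)) (IntS.pow (intS_X ()) _)
  have hmono0 : ∀ j, PowerSeries.constantCoeff (PowerSeries.C (v j) * PowerSeries.X ^ p ^ j : PowerSeries R) = 0 :=
    fun j => constantCoeff_mono (p := p) v j
  have hGI : ∀ J, IntS (σ := Unit) (G J) := by
    intro J
    induction J with
    | zero =>
      show IntS (σ := Unit) (GsumMono F p v 0)
      have : GsumMono F p v 0 = 0 := rfl
      rw [this]
      exact IntS.zero
    | succ J ih =>
      show IntS (σ := Unit) (GsumMono F p v (J + 1))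
      rw [GsumMono_succ]
      refine IntS.subst (hasSubst_pair (hG0 J) (hmono0 (J + 1))) ?_ hFI
      intro i
      fin_cases i
      · exact ih
      · exact hmonoI (J + 1)
  have key : ∀ J, J ≤ n →
      ‖Crest.Agent.Lib.LT.Eval1.ev1 (G J) u - S J‖ ≤ gg p k r w T ∧
        ‖Crest.Agent.Lib.LT.Eval1.ev1 (G J) u‖ ≤ T := by
    intro J
    induction J with
    | zero =>
      intro _
      have : Crest.Agent.Lib.LT.Eval1.ev1 (G 0) u = 0 := by
        show Crest.Agent.Lib.LT.Eval1.ev1 (GsumMono F p v 0) u = 0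
        have h0 : GsumMono F p v 0 = 0 := rfl
        rw [h0]
        simp [Crest.Agent.Lib.LT.Eval1.ev1]
      rw [this]
      simp [S, hgT0, hT0]
    | succ J ih =>
      intro hJ
      obtain ⟨ih1, ih2⟩ := ih (by omega)
      have hstep : Crest.Agent.Lib.LT.Eval1.ev1 (G (J + 1)) u =
          ev F.toPowerSeries ![Crest.Agent.Lib.LT.Eval1.ev1 (G J) u, v (J + 1) * u ^ p ^ (J + 1)] := by
        show Crest.Agent.Lib.LT.Eval1.ev1 (GsumMono F p v (J + 1)) u = _
        rw [GsumMono_succ]
        rw [ev1_fadd hFI (hGI J) (hmonoI (J + 1)) (hG0 J) (hmono0 (J + 1)) hu, ev1_C_mul_X_pow]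
      set a := Crest.Agent.Lib.LT.Eval1.ev1 (G J) u with ha
      set b := v (J + 1) * u ^ p ^ (J + 1) with hb
      have hbT : ‖b‖ ≤ T := hterm (J + 1) (by omega) hJ
      have hcross : ‖ev F.toPowerSeries ![a, b] - a - b‖ ≤ gg p k r w T :=
        norm_ev_law_sub_le hFI hgT0 hT1 (fun e he => D.coeff_bound H hT0 hT1.le e he) ih2 hbT
      rw [hstep]
      constructor
      · have : ev F.toPowerSeries ![a, b] - S (J + 1) =
            (ev F.toPowerSeries ![a, b] - a - b) + (a - S J) := by
          simp only [S]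
          rw [Finset.sum_range_succ]
          ring
        rw [this]
        exact (IsUltrametricDist.norm_add_le_max _ _).trans (max_le hcross ih1)
      · have : ev F.toPowerSeries ![a, b] = (ev F.toPowerSeries ![a, b] - a - b) + (a + b) := by ring
        rw [this]
        refine (IsUltrametricDist.norm_add_le_max _ _).trans (max_le (hcross.trans hgT) ?_)
        exact (IsUltrametricDist.norm_add_le_max _ _).trans (max_le ih2 hbT)
  have hfin := (key n le_rfl).1
  have hmul : mulSeries F p = G n := by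
    rw [hF]
    exact mulSeries_stdLaw_map_char p n χ D.hχp
  have hS : S n = Aadd p k r w u := by
    have hk1 := H.hk
    obtain ⟨k', rfl⟩ : ∃ k', k = k' + 1 := ⟨k - 1, by omega⟩
    have hn' : n = k' + (r + 1) := by omega
    have hr : Finset.range n = Finset.range (k' + (r + 1)) := by rw [← hn']
    simp only [S, Aadd]
    rw [hr, Finset.sum_range_add]
    have h1 : ∑ j ∈ Finset.range k', v (j + 1) * u ^ p ^ (j + 1) = 0 := by
      refine Finset.sum_eq_zero fun j hj => ?_
      have hj' := Finset.mem_range.mp hj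
      rw [hv]
      simp only
      rw [D.hlow (j + 1) (by omega) (by omega), zero_mul]
    rw [h1, zero_add]
    refine Finset.sum_congr rfl fun j hj => ?_
    have hj' : j ≤ r := by have := Finset.mem_range.mp hj; omega
    rw [hv]
    simp only
    have h2 := D.hhigh j hj'
    rw [show k' + j + 1 = k' + 1 + j by omega, h2]
  rw [hmul, ← hS]
  exact hfin

end Std

end Crest.Agent.LT.AddExp
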