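import Crest.Agent.Lib.LT.LemmaRRow

/-! # S0351, Lemma R (2h), main theorem (helper89). See `LemmaRBase` for definitions. -/

set_option linter.unusedSectionVars false

open Real Filter Topology

namespace Crest.Agent.Lib.LT.LemmaR

variable {R : Type*} [NormedField R] (p : ℕ) [Fact p.Prime] [CharP R p] [PerfectRing R p]

variable [IsUltrametricDist R] [CompleteSpace R]

section Prep

omit [CharP R p] [PerfectRing R p] [IsUltrametricDist R] [CompleteSpace R] in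
include p in
lemma tendsto_p_pow_mul {n : ℕ} (hn : 0 < n) {x : ℝ} (hx : 0 < x) :
    Tendsto (fun a : ℕ => (p : ℝ) ^ (n * a) * x) atTop atTop := by
  have h1 : Tendsto (fun a : ℕ => ((p : ℝ) ^ n) ^ a) atTop atTop :=
    tendsto_pow_atTop_atTop_of_one_lt (one_lt_pow₀ (one_lt_p_real (p := p)) hn.ne')
  have h2 := h1.atTop_mul_const hx
  exact h2.congr (fun a => by rw [pow_mul])

omit [IsUltrametricDist R] [CompleteSpace R] in
/-- Choice of the vertex. -/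
lemma exists_vertex {k r : ℕ} {P : ℕ → R} {Y : ℝ → ℝ} {xc : ℝ} (hL : Lines p k r P Y xc)
    (hk : 1 ≤ k) {ι : Type*} (S : Finset ι) (hS : S.Nonempty) (V : ι → ℝ) (hV : ∀ i, 0 < V i)
    (l : ι → ℕ) (j0 : ℕ) (C' : ℝ) :
    ∃ (A : ι) (t : ℕ), A ∈ S ∧ j0 ≤ t ∧
      (∀ i ∈ S, xc * (p : ℝ) ^ (k + r) ≤ (p : ℝ) ^ ((k + r) * t) * V i) ∧
      (∀ i ∈ S, V i ≤ (p : ℝ) ^ ((k + r) * t) * V A) ∧
      (∀ i ∈ S, (p : ℝ) ^ l A * Y ((p : ℝ) ^ ((k + r) * t) * V A)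
        ≤ (p : ℝ) ^ l i * Y ((p : ℝ) ^ ((k + r) * t) * V i)) ∧
      C' * ((p : ℝ) ^ (k + r) - 1) < ((p : ℝ) ^ k - 1) * Y ((p : ℝ) ^ ((k + r) * t) * V A) := by
  have hn : 0 < k + r := by omega
  set n := k + r with hndef
  have hpp : (1 : ℝ) < p := one_lt_p_real
  have h1 : ∀ᶠ t : ℕ in atTop, ∀ i ∈ S, xc * (p : ℝ) ^ n ≤ (p : ℝ) ^ (n * t) * V i :=
    (Filter.eventually_all_finset S).mpr
      (fun i _ => (tendsto_p_pow_mul p hn (hV i)).eventually_ge_atTop _)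
  obtain ⟨t1, ht1⟩ := eventually_atTop.mp h1
  have hq1 : (1 : ℝ) ≤ (p : ℝ) ^ n := one_le_pow₀ hpp.le
  have hxc := hL.xc_pos
  have hx : ∀ i ∈ S, xc ≤ (p : ℝ) ^ (n * t1) * V i := by
    intro i hi
    have := ht1 t1 le_rfl i hi
    nlinarith
  obtain ⟨A, hAS, hAmin⟩ := Finset.exists_min_image S
    (fun i => (p : ℝ) ^ l i * Y ((p : ℝ) ^ (n * t1) * V i)) hS
  have hxpow : ∀ (a : ℕ) (i : ι), (p : ℝ) ^ (n * (t1 + a)) * V i
      = (p : ℝ) ^ (n * a) * ((p : ℝ) ^ (n * t1) * V i) := by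
    intro a i
    rw [mul_add, pow_add]; ring
  have hYA := hL.tendsto_Y hk (hx A hAS)
  have hXA : Tendsto (fun a : ℕ => (p : ℝ) ^ (n * a) * ((p : ℝ) ^ (n * t1) * V A)) atTop atTop :=
    tendsto_p_pow_mul p hn (mul_pos (p_pow_pos _) (hV A))
  have hkpos : (0 : ℝ) < (p : ℝ) ^ k - 1 := by
    have : (1 : ℝ) < (p : ℝ) ^ k := one_lt_pow₀ hpp (by omega)
    linarith
  have e1 : ∀ᶠ a : ℕ in atTop, j0 ≤ a := eventually_ge_atTop _
  have e2 : ∀ᶠ a : ℕ in atTop, ∀ i ∈ S, V i ≤ (p : ℝ) ^ (n * a) * ((p : ℝ) ^ (n * t1) * V A) :=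
    (Filter.eventually_all_finset S).mpr (fun i _ => hXA.eventually_ge_atTop _)
  have e3 : ∀ᶠ a : ℕ in atTop, C' * ((p : ℝ) ^ n - 1)
      < ((p : ℝ) ^ k - 1) * Y ((p : ℝ) ^ (n * a) * ((p : ℝ) ^ (n * t1) * V A)) :=
    (hYA.const_mul_atTop hkpos).eventually_gt_atTop _
  obtain ⟨a, ha1, ha2, ha3⟩ := (e1.and (e2.and e3)).exists
  refine ⟨A, t1 + a, hAS, by omega, ?_, ?_, ?_, ?_⟩
  · intro i hi
    exact ht1 _ (by omega) i hi
  · intro i hi
    rw [hxpow]; exact ha2 i hi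
  · intro i hi
    rw [hxpow, hxpow, hL.scale_pow a (hx A hAS), hL.scale_pow a (hx i hi)]
    have := hAmin i hi
    have h0 : (0 : ℝ) < (p : ℝ) ^ (k * a) := p_pow_pos _
    calc (p : ℝ) ^ l A * ((p : ℝ) ^ (k * a) * Y ((p : ℝ) ^ (n * t1) * V A))
        = (p : ℝ) ^ (k * a) * ((p : ℝ) ^ l A * Y ((p : ℝ) ^ (n * t1) * V A)) := by ring
      _ ≤ (p : ℝ) ^ (k * a) * ((p : ℝ) ^ l i * Y ((p : ℝ) ^ (n * t1) * V i)) :=
          mul_le_mul_of_nonneg_left this h0.le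
      _ = _ := by ring
  · rw [hxpow]; exact ha3

omit [IsUltrametricDist R] [CompleteSpace R] in
lemma exists_exp_form {a : R} (h : a ≠ 0) : ∃ v : ℝ, ‖a‖ = exp (-v) :=
  ⟨-Real.log ‖a‖, by rw [neg_neg, Real.exp_log (norm_pos_iff.mpr h)]⟩

omit [CompleteSpace R] in
lemma norm_termA_exp {P : ℕ → R} {L j N : ℕ} {a v : ℝ} {w : R} (ha : ‖P N‖ = exp (-a))
    (hw : ‖w‖ = exp (-v)) :
    ‖termA p P L j w N‖ = exp (-((p : ℝ) ^ L * a + (p : ℝ) ^ ((L : ℤ) - N + j) * v)) := by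
  rw [termA, norm_mul, norm_fr_exp _ ha, norm_fr_exp _ hw, ← Real.exp_add, zpow_natCast]
  congr 1; ring

omit [CharP R p] [PerfectRing R p] [IsUltrametricDist R] [CompleteSpace R] in
/-- Division with remainder in the exponent of Frobenius. -/
lemma exists_of_emod_eq {a E : ℤ} {n : ℕ} (h : a % (n : ℤ) = E % (n : ℤ)) :
    ∃ b : ℤ, a = E + (n : ℤ) * b := by
  refine ⟨a / n - E / n, ?_⟩
  have h1 := Int.emod_add_mul_ediv a n
  have h2 := Int.emod_add_mul_ediv E n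
  rw [h] at h1
  linear_combination -h1 + h2

end Prep

/-- **Lemma R**, core form. `z i` are the orthogonal basis elements, `V i` their valuations.
`hT`: combinations of the `z i ^ (q ^ e i)` of the same valuation `x` are close to a point `w` of
`T = ker Ψ` (Γ-sum), of the same norm, and `Ξ` is tiny there. `hE`: `ell i j c = ι (Ψ (c z_i ^ (p ^ j)))`
is `Ξ (c z_i ^ (p ^ j))` up to the quadratic error. `hrel`: leading form of the relation
`∑^{Γ'} G_i (l_i π) = 0` at `π = c X ^ (p ^ j)`, where `G_i (u) = κ_i u ^ (p ^ l_i) + O(u ^ (2 p ^ l_i))`. -/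
theorem no_relation (k r : ℕ) (hk : 1 ≤ k) (hr : 1 ≤ r)
    {𝔽 : Type*} [Field 𝔽] [Fintype 𝔽] (h𝔽 : Fintype.card 𝔽 = p ^ (k + r)) (φ : 𝔽 →+* R)
    {P : ℕ → R} {Y : ℝ → ℝ} {xc : ℝ} (hL : Lines p k r P Y xc)
    {ι : Type*} (z : ι → R) (V : ι → ℝ) (hV : ∀ i, 0 < V i) (hz : ∀ i, ‖z i‖ = exp (-V i))
    (C : ℝ)
    (hT : ∀ (g : Finset ι) (e : ι → ℕ) (x : ℝ), xc ≤ x →
      (∀ i ∈ g, (p : ℝ) ^ ((k + r) * e i) * V i = x) →
      ∀ n : ι → ℕ, (∃ i ∈ g, ¬ p ∣ n i) →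
      ∃ w : R, ‖w‖ = exp (-x) ∧
        ‖w - ∑ i ∈ g, (n i : R) * z i ^ p ^ ((k + r) * e i)‖ < exp (-x) ∧
        ‖Xi p P w‖ ≤ exp (C - 2 * Y x))
    (S : Finset ι) (hS : S.Nonempty) (κ : ι → R) (hκ : ∀ i ∈ S, ‖κ i‖ = 1) (l : ι → ℕ)
    (j0 : ℕ) (ell : ι → ℕ → 𝔽 → R)
    (hE : ∀ i ∈ S, ∀ j, j0 ≤ j → ∀ c : 𝔽, c ≠ 0 →
      ‖ell i j c - Xi p P (φ c * z i ^ p ^ j)‖ ≤ exp (C - 2 * Y ((p : ℝ) ^ j * V i)))
    (hrel : ∀ j, j0 ≤ j → ∀ c : 𝔽, c ≠ 0 → ∃ i0 ∈ S,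
      ‖∑ i ∈ S, κ i * ell i j c ^ p ^ l i‖ ≤ ‖ell i0 j c‖ ^ (2 * p ^ l i0)) : False := by
  classical
  have hn : 0 < k + r := by omega
  have hP := hL.tendsto_norm_P hk
  have hpp : (1 : ℝ) < p := one_lt_p_real
  have hp0 : (0 : ℝ) < p := p_pos_real
  have hxc := hL.xc_pos
  have hz1 : ∀ i, ‖z i‖ ≤ 1 := by
    intro i
    rw [hz i, Real.exp_le_one_iff]
    have := hV i
    linarith
  -- constants
  set Lmax := S.sup l with hLmax
  set Cp := max C 0 with hCp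
  have hCp0 : 0 ≤ Cp := le_max_right _ _
  have hCCp : C ≤ Cp := le_max_left _ _
  set C' := (p : ℝ) ^ Lmax * Cp with hC'
  have hLm1 : (1 : ℝ) ≤ (p : ℝ) ^ Lmax := one_le_pow₀ hpp.le
  have hC'0 : 0 ≤ C' := mul_nonneg (by linarith) hCp0
  have hCpC' : Cp ≤ C' := by nlinarith
  obtain ⟨A, t, hAS, ht0, hxq, hVA, hmin, hYt⟩ := exists_vertex p hL hk S hS V hV l j0 C'
  set n := k + r with hndef
  set X := (p : ℝ) ^ (n * t) * V A with hX
  have hXq : xc * (p : ℝ) ^ n ≤ X := hxq A hAS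
  have hq1 : (1 : ℝ) < (p : ℝ) ^ n := one_lt_pow₀ hpp hn.ne'
  have hxle : ∀ i ∈ S, xc ≤ (p : ℝ) ^ (n * t) * V i := fun i hi => by
    have := hxq i hi
    nlinarith
  have hXc : xc ≤ X := hxle A hAS
  have hXpos : 0 < X := lt_of_lt_of_le hxc hXc
  have hYXpos : 0 < Y X := hL.pos X hXc
  have hpk : (1 : ℝ) < (p : ℝ) ^ k := one_lt_pow₀ hpp (by omega)
  have hpkn : (p : ℝ) ^ k ≤ (p : ℝ) ^ n := pow_le_pow_right₀ hpp.le (by omega)
  have hYC' : C' < Y X := by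
    have h1 : C' * ((p : ℝ) ^ n - 1) < Y X * ((p : ℝ) ^ n - 1) := by
      refine lt_of_lt_of_le hYt ?_
      rw [mul_comm (Y X)]
      exact mul_le_mul_of_nonneg_right (by linarith) hYXpos.le
    exact lt_of_mul_lt_mul_right h1 (by linarith)
  have hCX : C < Y X := by linarith
  -- the tight lines
  obtain ⟨N0, hN0⟩ := eventually_atTop.mp (hP.eventually (gt_mem_nhds (Real.exp_pos (-Y X))))
  set Tg := (Finset.range N0).filter
    (fun N => ‖P N‖ * exp (-(X / (p : ℝ) ^ N)) = exp (-Y X)) with hTgdef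
  have hTg : ∀ N, N ∈ Tg ↔ ‖P N‖ * exp (-(X / (p : ℝ) ^ N)) = exp (-Y X) := by
    intro N
    rw [hTgdef, Finset.mem_filter, Finset.mem_range]
    constructor
    · exact fun h => h.2
    · intro h
      refine ⟨?_, h⟩
      by_contra hge
      have h1 := hN0 N (not_lt.mp hge)
      have h0 : 0 < X / (p : ℝ) ^ N := div_pos hXpos (p_pow_pos _)
      have h2 : exp (-(X / (p : ℝ) ^ N)) ≤ 1 := Real.exp_le_one_iff.mpr (by linarith)
      have h3 : ‖P N‖ * exp (-(X / (p : ℝ) ^ N)) ≤ ‖P N‖ :=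
        mul_le_of_le_one_right (norm_nonneg _) h2
      rw [h] at h3
      linarith
  have hTgne : Tg.Nonempty := by
    obtain ⟨N, hN⟩ := hL.tight X hXc
    exact ⟨N, (hTg N).mpr hN⟩
  set Np := Tg.max' hTgne with hNpdef
  set Nm := Tg.min' hTgne with hNmdef
  have hNp : Np ∈ Tg := Finset.max'_mem _ _
  have hNm : Nm ∈ Tg := Finset.min'_mem _ _
  have hmaxN : ∀ N ∈ Tg, N ≤ Np := fun N hN => Finset.le_max' _ _ hN
  have hminN : ∀ N ∈ Tg, Nm ≤ N := fun N hN => Finset.min'_le _ _ hN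
  have hNmNp : Nm ≤ Np := hmaxN _ hNm
  have hPne : ∀ N ∈ Tg, P N ≠ 0 := by
    intro N hN h0
    have := (hTg N).mp hN
    rw [h0, norm_zero, zero_mul] at this
    exact (Real.exp_pos _).ne this
  obtain ⟨ap, hap⟩ := exists_exp_form (hPne Np hNp)
  obtain ⟨am, ham⟩ := exists_exp_form (hPne Nm hNm)
  have htp : ap + X / (p : ℝ) ^ Np = Y X := by
    have := (hTg Np).mp hNp
    rw [hap, ← Real.exp_add, Real.exp_eq_exp] at this
    linarith
  have htm : am + X / (p : ℝ) ^ Nm = Y X := by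
    have := (hTg Nm).mp hNm
    rw [ham, ← Real.exp_add, Real.exp_eq_exp] at this
    linarith
  have hamp : 0 < am := tight_intercept_pos hL hk hr hXq ham htm
  -- the group of `A`
  set G : ι → ℤ → Prop := fun i b => (p : ℝ) ^ ((n : ℤ) * b) * V i = V A ∧
    (l i : ℤ) - (k : ℤ) * b = l A ∧ 0 ≤ (Np : ℤ) - (r : ℤ) * b with hG
  set g := S.filter (fun i => ∃ b, G i b) with hg
  set bf : ι → ℤ := fun i => if h : ∃ b, G i b then h.choose else 0 with hbf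
  have hbfG : ∀ i ∈ g, G i (bf i) := by
    intro i hi
    have h := (Finset.mem_filter.mp hi).2
    have h2 : bf i = h.choose := dif_pos h
    rw [h2]
    exact h.choose_spec
  have hguniq : ∀ (i : ι) (b b' : ℤ), (p : ℝ) ^ ((n : ℤ) * b) * V i = V A →
      (p : ℝ) ^ ((n : ℤ) * b') * V i = V A → b = b' := by
    intro i b b' h1 h2
    have h3 : (p : ℝ) ^ ((n : ℤ) * b) = (p : ℝ) ^ ((n : ℤ) * b') :=
      mul_right_cancel₀ (hV i).ne' (h1.trans h2.symm)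
    have h4 := zpow_right_injective₀ hp0 hpp.ne' h3
    exact mul_left_cancel₀ (by exact_mod_cast hn.ne') h4
  have hAg : A ∈ g := Finset.mem_filter.mpr ⟨hAS, 0, by simp [hG]⟩
  have hbfA : bf A = 0 := hguniq A _ _ (hbfG A hAg).1 (by simp)
  have hgS : ∀ i ∈ g, i ∈ S := fun i hi => (Finset.mem_filter.mp hi).1
  have htb : ∀ i ∈ g, 0 ≤ (t : ℤ) + bf i := by
    intro i hi
    by_contra hneg
    push Not at hneg
    have hG1 := (hbfG i hi).1
    have h1 : V i ≤ X := hVA i (hgS i hi)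
    have h2 : (p : ℝ) ^ (n * t) * (p : ℝ) ^ ((n : ℤ) * bf i)
        = (p : ℝ) ^ ((n : ℤ) * ((t : ℤ) + bf i)) := by
      rw [← zpow_natCast, ← zpow_add₀ hp0.ne']
      congr 1
      push_cast
      ring
    have h3 : (p : ℝ) ^ ((n : ℤ) * ((t : ℤ) + bf i)) < 1 :=
      zpow_lt_one_of_neg₀ hpp (mul_neg_of_pos_of_neg (by exact_mod_cast hn) hneg)
    have h4 := hV i
    have h5 : X = (p : ℝ) ^ ((n : ℤ) * ((t : ℤ) + bf i)) * V i := by
      rw [← h2, mul_assoc, hG1]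
    rw [h5] at h1
    nlinarith
  set e : ι → ℕ := fun i => ((t : ℤ) + bf i).toNat with he_def
  have heq : ∀ i ∈ g, ((e i : ℕ) : ℤ) = (t : ℤ) + bf i :=
    fun i hi => Int.toNat_of_nonneg (htb i hi)
  have he : ∀ i ∈ g, (p : ℝ) ^ (n * e i) * V i = X := by
    intro i hi
    have h1 : (p : ℝ) ^ (n * e i) = (p : ℝ) ^ (n * t) * (p : ℝ) ^ ((n : ℤ) * bf i) := by
      rw [← zpow_natCast, ← zpow_natCast, ← zpow_add₀ hp0.ne']
      congr 1
      push_cast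
      rw [heq i hi]
      ring
    rw [h1, mul_assoc, (hbfG i hi).1]
  set Ni : ι → ℕ := fun i => ((Np : ℤ) - (r : ℤ) * bf i).toNat with hNidef
  have hNi : ∀ i ∈ g, ((Ni i : ℕ) : ℤ) = (Np : ℤ) - (r : ℤ) * bf i :=
    fun i hi => Int.toNat_of_nonneg (hbfG i hi).2.2
  have hNiA : Ni A = Np := by simp [hNidef, hbfA]
  have heA : e A = t := by simp [he_def, hbfA]
  have hcard : g.card ≤ Np - Nm :=
    card_group_le p hP hL z V hz C hT hXc hCX Tg hTg hNp hNm hmaxN hminN g e he hAg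
  have hcard1 : 1 ≤ g.card := Finset.card_pos.mpr ⟨A, hAg⟩
  -- index bookkeeping
  set E0 : ℤ := (l A : ℤ) - Np with hE0
  have hnk : ((n : ℕ) : ℤ) = (k : ℤ) + (r : ℤ) := by
    rw [hndef]
    push_cast
    rfl
  have hidx : ∀ i ∈ g, (l i : ℤ) - Ni i = E0 + ((k + r : ℕ) : ℤ) * bf i := by
    intro i hi
    rw [hNi i hi, hE0]
    have h2 := (hbfG i hi).2.1
    push_cast
    linear_combination h2
  set e0 : ℕ := (E0 % (n : ℤ)).toNat with he0def
  have he0nn : 0 ≤ E0 % (n : ℤ) := Int.emod_nonneg _ (by exact_mod_cast hn.ne')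
  have he0eq : (e0 : ℤ) = E0 % (n : ℤ) := Int.toNat_of_nonneg he0nn
  have he0lt : e0 < n := by
    have := Int.emod_lt_of_pos E0 (show (0 : ℤ) < n by exact_mod_cast hn)
    omega
  set Eh : ℝ := (p : ℝ) ^ (E0 + (n : ℤ) * t) with hEh
  set Mh : ℝ := Eh * V A with hMh
  have hMhX : Mh = (p : ℝ) ^ E0 * X := by
    have h1 : (p : ℝ) ^ ((n : ℤ) * (t : ℤ)) = (p : ℝ) ^ (n * t) := by
      rw [← zpow_natCast]
      congr 1
    rw [hMh, hEh, zpow_add₀ hp0.ne', h1, hX]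
    ring
  have hMhX2 : Mh = (p : ℝ) ^ l A * (X / (p : ℝ) ^ Np) := by
    rw [hMhX, hE0, zpow_sub₀ hp0.ne', zpow_natCast, zpow_natCast]
    ring
  set yA := (p : ℝ) ^ l A * Y X with hyA
  have hlA1 : (1 : ℝ) ≤ (p : ℝ) ^ l A := one_le_pow₀ hpp.le
  have hyA1 : yA = (p : ℝ) ^ l A * ap + Mh := by
    rw [hyA, hMhX2, ← htp]
    ring
  have hyA2 : yA = (p : ℝ) ^ l A * am + Mh * (p : ℝ) ^ (Np - Nm) := by
    have h1 : X / (p : ℝ) ^ Nm = X / (p : ℝ) ^ Np * (p : ℝ) ^ (Np - Nm) := by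
      have : (p : ℝ) ^ Np = (p : ℝ) ^ Nm * (p : ℝ) ^ (Np - Nm) := by
        rw [← pow_add]
        congr 1
        omega
      rw [this]
      have h2 := p_pow_pos (p := p) Nm
      have h3 := p_pow_pos (p := p) (Np - Nm)
      field_simp
    rw [hyA, hMhX2, ← htm, h1]
    ring
  have hMhpos : 0 < Mh := mul_pos (p_zpow_pos _) (hV A)
  have hslope : C' < Mh := by
    have h1 := tight_slope_lower hL hXc hap htp
    have h2 : C' * ((p : ℝ) ^ n - 1) < (X / (p : ℝ) ^ Np) * ((p : ℝ) ^ n - 1) := by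
      rw [mul_comm (X / (p : ℝ) ^ Np)]
      exact lt_of_lt_of_le hYt h1
    have h3 : C' < X / (p : ℝ) ^ Np := lt_of_mul_lt_mul_right h2 (by linarith)
    have h4 : 0 < X / (p : ℝ) ^ Np := div_pos hXpos (p_pow_pos _)
    rw [hMhX2]
    nlinarith
  set T : ℕ → ℝ := fun s => (p : ℝ) ^ l A * ap + Mh * (p : ℝ) ^ s with hTdef
  have hTlt : ∀ s, s ≤ Np - Nm → T s + C' < 2 * yA := by
    intro s hs
    have h1 : (p : ℝ) ^ s ≤ (p : ℝ) ^ (Np - Nm) := pow_le_pow_right₀ hpp.le hs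
    have h2 : Mh * (p : ℝ) ^ s ≤ Mh * (p : ℝ) ^ (Np - Nm) :=
      mul_le_mul_of_nonneg_left h1 hMhpos.le
    have h3 : 0 < (p : ℝ) ^ l A * am := mul_pos (p_pow_pos _) hamp
    simp only [hTdef]
    have h4 : 2 * yA = yA + yA := by ring
    nth_rewrite 1 [hyA1] at h4
    rw [hyA2] at h4
    linarith
  -- bounds at `j = n * t + s`
  have hxS : ∀ (s : ℕ), ∀ i ∈ S, xc ≤ (p : ℝ) ^ (n * t + s) * V i ∧
      yA ≤ (p : ℝ) ^ l i * Y ((p : ℝ) ^ (n * t + s) * V i) ∧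
      Cp ≤ Y ((p : ℝ) ^ (n * t + s) * V i) := by
    intro s i hi
    have h1 : (p : ℝ) ^ (n * t) * V i ≤ (p : ℝ) ^ (n * t + s) * V i :=
      mul_le_mul_of_nonneg_right (pow_le_pow_right₀ hpp.le (by omega)) (hV i).le
    have h2 := hxle i hi
    have h3 : xc ≤ (p : ℝ) ^ (n * t + s) * V i := h2.trans h1
    have h4 := hL.mono h2 h1
    have hli : (0 : ℝ) < (p : ℝ) ^ l i := p_pow_pos _
    have h5 : yA ≤ (p : ℝ) ^ l i * Y ((p : ℝ) ^ (n * t + s) * V i) :=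
      (hmin i hi).trans (mul_le_mul_of_nonneg_left h4 hli.le)
    refine ⟨h3, h5, ?_⟩
    have h6 : (p : ℝ) ^ l i ≤ (p : ℝ) ^ Lmax :=
      pow_le_pow_right₀ hpp.le (Finset.le_sup (f := l) hi)
    have h7 := hL.pos _ h3
    have h8 : yA ≥ Y X := by
      rw [hyA]
      nlinarith
    have h9 : (p : ℝ) ^ Lmax * Cp < (p : ℝ) ^ Lmax * Y ((p : ℝ) ^ (n * t + s) * V i) := by
      calc (p : ℝ) ^ Lmax * Cp = C' := rfl
        _ < Y X := hYC'
        _ ≤ yA := h8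
        _ ≤ (p : ℝ) ^ l i * Y ((p : ℝ) ^ (n * t + s) * V i) := h5
        _ ≤ (p : ℝ) ^ Lmax * Y ((p : ℝ) ^ (n * t + s) * V i) :=
            mul_le_mul_of_nonneg_right h6 h7.le
    exact (lt_of_mul_lt_mul_left h9 (by linarith)).le
  have hphi : ∀ c : 𝔽, c ≠ 0 → ‖φ c‖ = 1 :=
    fun c hc => norm_phi_unit p h𝔽 φ hn (Units.mk0 c hc)
  have hy : ∀ (i : ι) (j : ℕ) (c : 𝔽), c ≠ 0 →
      ‖φ c * z i ^ p ^ j‖ = exp (-((p : ℝ) ^ j * V i)) := by
    intro i j c hc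
    rw [norm_mul, hphi c hc, one_mul, norm_pow, hz i, ← Real.exp_nat_mul]
    congr 1
    push_cast
    ring
  have hj0 : ∀ s : ℕ, j0 ≤ n * t + s := by
    intro s
    have : t ≤ n * t := Nat.le_mul_of_pos_left t hn
    omega
  have hell : ∀ (s : ℕ), ∀ i ∈ S, ∀ c : 𝔽, c ≠ 0 →
      ‖ell i (n * t + s) c‖ ≤ exp (-Y ((p : ℝ) ^ (n * t + s) * V i)) := by
    intro s i hi c hc
    obtain ⟨hx1, -, hx3⟩ := hxS s i hi
    have h1 := hE i hi _ (hj0 s) c hc
    have h2 := norm_Xi_le hL hx1 (hy i _ c hc)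
    have h3 : ell i (n * t + s) c = (ell i (n * t + s) c -
        Xi p P (φ c * z i ^ p ^ (n * t + s))) + Xi p P (φ c * z i ^ p ^ (n * t + s)) := by ring
    rw [h3]
    refine (IsUltrametricDist.norm_add_le_max _ _).trans (max_le (h1.trans ?_) h2)
    exact Real.exp_le_exp.mpr (by linarith)
  have htp' : ap + (p : ℝ) ^ ((k + r) * t) * V A / (p : ℝ) ^ Np
      = Y ((p : ℝ) ^ ((k + r) * t) * V A) := htp
  have htm' : am + (p : ℝ) ^ ((k + r) * t) * V A / (p : ℝ) ^ Nm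
      = Y ((p : ℝ) ^ ((k + r) * t) * V A) := htm
  -- the rows
  have hrow : ∀ s, 1 ≤ s → s ≤ Np - Nm →
      ‖∑ i ∈ g, κ i * termA p P (l i) (n * t + s) (z i) (Ni i)‖ < exp (-T s) := by
    intro s hs1 hs2
    refine row_core p h𝔽 φ hP hn he0lt S g (Finset.filter_subset _ _) κ hκ l z (fun i _ => hz1 i)
      (n * t + s) (fun i c => ell i (n * t + s) c) Ni ?_ (Real.exp_pos _) ?_ ?_ ?_
    · intro i hi
      rw [hidx i hi, he0eq]
      exact Int.add_mul_emod_self_left _ _ _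
    · intro i hi N hc hnot
      by_cases hPN : P N = 0
      · have : termA p P (l i) (n * t + s) (z i) N = 0 := by simp [termA, hPN]
        rw [this, norm_zero]
        exact Real.exp_pos _
      · obtain ⟨a, ha⟩ := exists_exp_form hPN
        obtain ⟨b, hb⟩ := exists_of_emod_eq (a := (l i : ℤ) - N) (E := E0) (n := n)
          (by rw [hc, he0eq])
        have hcomp := competitor hL hk hr (hV A) (hV i) (hxle i hi) (hxle A hAS) htp' htm' hamp
          hNmNp ha hb (hmin i hi) hs1 hs2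
        rw [norm_termA_exp p ha (hz i)]
        have hexp : (p : ℝ) ^ ((l i : ℤ) - N + ((n * t + s : ℕ) : ℤ)) * V i
            = Eh * ((p : ℝ) ^ ((n : ℤ) * b) * V i) * (p : ℝ) ^ s := by
          rw [hb, hEh, ← zpow_natCast (p : ℝ) s]
          have : E0 + (n : ℤ) * b + ((n * t + s : ℕ) : ℤ)
              = (E0 + (n : ℤ) * t) + (n : ℤ) * b + (s : ℤ) := by
            push_cast
            ring
          rw [this, zpow_add₀ hp0.ne', zpow_add₀ hp0.ne']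
          ring
        rw [hexp, Real.exp_lt_exp]
        refine neg_lt_neg (hcomp.2 ?_)
        rintro ⟨hb1, hb2⟩
        have hN : (N : ℤ) = (Np : ℤ) - (r : ℤ) * b := by
          have hb' : (l i : ℤ) - N = E0 + ((k : ℤ) + (r : ℤ)) * b := by
            rw [hb, hnk]
          rw [hE0] at hb'
          linear_combination -hb' + hb2
        have hGib : G i b := ⟨hb1, hb2, by rw [← hN]; omega⟩
        have hig : i ∈ g := Finset.mem_filter.mpr ⟨hi, b, hGib⟩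
        have hbb : bf i = b := hguniq i _ _ (hbfG i hig).1 hb1
        apply hnot hig
        have := hNi i hig
        rw [hbb, ← hN] at this
        omega
    · intro c
      obtain ⟨i0, hi0, h⟩ := hrel (n * t + s) (hj0 s) c c.ne_zero
      refine lt_of_le_of_lt h ?_
      have h1 := hell s i0 hi0 c c.ne_zero
      have h2 := pow_le_pow_left₀ (norm_nonneg _) h1 (2 * p ^ l i0)
      refine lt_of_le_of_lt h2 ?_
      rw [← Real.exp_nat_mul, Real.exp_lt_exp]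
      push_cast
      have h3 := (hxS s i0 hi0).2.1
      have h4 := hTlt s hs2
      linarith
    · intro c i hi
      rw [fr_natCast, norm_pow]
      have h1 := hE i hi (n * t + s) (hj0 s) c c.ne_zero
      refine lt_of_le_of_lt (pow_le_pow_left₀ (norm_nonneg _) h1 _) ?_
      rw [← Real.exp_nat_mul, Real.exp_lt_exp]
      push_cast
      have h2 : (p : ℝ) ^ l i * C ≤ C' := by
        have h3 : (p : ℝ) ^ l i ≤ (p : ℝ) ^ Lmax :=
          pow_le_pow_right₀ hpp.le (Finset.le_sup (f := l) hi)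
        have h4 : (0 : ℝ) < (p : ℝ) ^ l i := p_pow_pos _
        calc (p : ℝ) ^ l i * C ≤ (p : ℝ) ^ l i * Cp := mul_le_mul_of_nonneg_left hCCp h4.le
          _ ≤ (p : ℝ) ^ Lmax * Cp := mul_le_mul_of_nonneg_right h3 hCp0
      have h3 := (hxS s i hi).2.1
      have h4 := hTlt s hs2
      nlinarith
  -- the residue step
  set κt : ι → R := fun i => κ i * fr (R := R) p (l i : ℤ) (P (Ni i)) with hκt
  set ζ : ι → R := fun i => fr (R := R) p E0 (z i ^ p ^ (n * e i)) with hζ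
  have hζnorm : ∀ i ∈ g, ‖ζ i‖ = exp (-((p : ℝ) ^ E0 * X)) := by
    intro i hi
    have h1 : ‖z i ^ p ^ (n * e i)‖ = exp (-X) := by
      rw [norm_pow, hz i, ← he i hi, ← Real.exp_nat_mul]
      congr 1
      push_cast
      ring
    exact norm_fr_exp E0 h1
  have hterm : ∀ s, ∀ i ∈ g, κ i * termA p P (l i) (n * t + s) (z i) (Ni i) = κt i * ζ i ^ p ^ s := by
    intro s i hi
    simp only [termA, hκt, hζ]
    rw [mul_assoc]
    congr 2
    rw [← fr_natCast (p := p) s, ← fr_natCast (p := p) (n * e i) (z i), ← fr_add, ← fr_add]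
    congr 2
    rw [hidx i hi]
    push_cast
    rw [heq i hi, hnk]
    ring
  have hind : ∀ m : ι → ℕ, (∃ i ∈ g, ¬ p ∣ m i) → ‖∑ i ∈ g, (m i : R) * ζ i‖ = ‖ζ A‖ := by
    intro m hm
    obtain ⟨w, hw1, hw2, -⟩ := hT g e X hXc he m hm
    have h1 := norm_eq_of_norm_sub_lt (a := w) (b := ∑ i ∈ g, (m i : R) * z i ^ p ^ (n * e i))
      (by rw [hw1]; exact hw2)
    rw [hw1] at h1
    have h2 : ∑ i ∈ g, (m i : R) * ζ i
        = fr (R := R) p E0 (∑ i ∈ g, (m i : R) * z i ^ p ^ (n * e i)) := by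
      rw [map_sum]
      refine Finset.sum_congr rfl (fun i _ => ?_)
      rw [map_mul, map_natCast]
    rw [h2, norm_fr_exp E0 h1, hζnorm A hAg]
  have hκAnorm : ‖κt A‖ = exp (-((p : ℝ) ^ l A * ap)) := by
    simp only [hκt, norm_mul, hκ A hAS, one_mul, hNiA]
    rw [norm_fr_exp _ hap, zpow_natCast]
  have hκA0 : κt A ≠ 0 := by
    rw [← norm_ne_zero_iff, hκAnorm]
    exact (Real.exp_pos _).ne'
  have hζA0 : ζ A ≠ 0 := by
    rw [← norm_ne_zero_iff, hζnorm A hAg]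
    exact (Real.exp_pos _).ne'
  have hκle : ∀ i ∈ g, ‖κt i‖ ≤ ‖κt A‖ := by
    intro i hi
    have hiS := hgS i hi
    rw [hκAnorm]
    simp only [hκt, norm_mul, hκ i hiS, one_mul]
    by_cases hPN : P (Ni i) = 0
    · rw [hPN, map_zero, norm_zero]
      exact (Real.exp_pos _).le
    · obtain ⟨a, ha⟩ := exists_exp_form hPN
      have hcomp := competitor hL hk hr (hV A) (hV i) (hxle i hiS) (hxle A hAS) htp' htm' hamp
        hNmNp ha (hidx i hi) (hmin i hiS) (le_refl 1) (hcard1.trans hcard)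
      have hEq := (hbfG i hi).1
      have h1 := hcomp.1
      rw [hEq] at h1
      rw [norm_fr_exp _ ha, Real.exp_le_exp, zpow_natCast]
      linarith
  have hζeq : ∀ i ∈ g, ‖ζ i‖ = ‖ζ A‖ := by
    intro i hi
    rw [hζnorm i hi, hζnorm A hAg]
  have hrow' : ∀ s, 1 ≤ s → s ≤ g.card →
      ‖∑ i ∈ g, κt i * ζ i ^ p ^ s‖ < ‖κt A‖ * ‖ζ A‖ ^ p ^ s := by
    intro s hs1 hs2
    have h1 := hrow s hs1 (hs2.trans hcard)
    have h2 : ∑ i ∈ g, κt i * ζ i ^ p ^ s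
        = ∑ i ∈ g, κ i * termA p P (l i) (n * t + s) (z i) (Ni i) :=
      Finset.sum_congr rfl (fun i hi => (hterm s i hi).symm)
    rw [h2]
    have h3 : ‖κt A‖ * ‖ζ A‖ ^ p ^ s = exp (-T s) := by
      rw [hκAnorm, hζnorm A hAg, ← Real.exp_nat_mul, ← Real.exp_add]
      congr 1
      simp only [hTdef]
      rw [hMhX]
      push_cast
      ring
    rw [h3]
    exact h1
  exact residue_contra p g hAg κt ζ hκA0 hζA0 hκle hζeq hind hrow'

end Crest.Agent.Lib.LT.LemmaR
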