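import Mathlib
import Crest.Agent.Lib.LT.AddExp
import Crest.Agent.Lib.LT.LemmaR
import Crest.Agent.Lib.LT.LinearizeEval

/-!
# (2c) + (2d) of S0351: the hypotheses of Lemma R about the lines and `Ξ`.
-/

set_option autoImplicit false
set_option linter.unusedSectionVars false

namespace Crest.Agent.LT.AddExp

open Crest.Agent.Lib.LT

variable {R : Type*} [NormedField R] [IsUltrametricDist R] [CompleteSpace R]
variable {p : ℕ} [hp : Fact p.Prime] [CharP R p] [PerfectRing R p] {k r : ℕ} {w : ℕ → R} {ρ : ℝ}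

omit [IsUltrametricDist R] [CompleteSpace R] in
theorem fr_pow_apply (N : ℕ) (z : R) :
    (((frobeniusEquiv R p : R ≃+* R) : RingAut R) ^ N) z = z ^ p ^ N := by
  induction N generalizing z with
  | zero => simp
  | succ N ih =>
    rw [pow_succ, RingAut.mul_apply, ih]
    have : ((frobeniusEquiv R p : R ≃+* R) : RingAut R) z = z ^ p := frobeniusEquiv_apply R p z
    rw [this, ← pow_mul, pow_succ, mul_comm]

omit [IsUltrametricDist R] [CompleteSpace R] in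
/-- The integer power of Frobenius with negative exponent is the root. -/
theorem fr_neg_eq_rt (N : ℕ) (y : R) : LemmaR.fr p (-(N : ℤ)) y = rt p N y := by
  unfold LemmaR.fr
  rw [zpow_neg, zpow_natCast]
  set a : RingAut R := ((frobeniusEquiv R p : R ≃+* R) : RingAut R) ^ N with ha
  have h1 : a (rt p N y) = y := by
    rw [ha, fr_pow_apply, rt_pow]
  calc a⁻¹ y = a⁻¹ (a (rt p N y)) := by rw [h1]
    _ = (a⁻¹ * a) (rt p N y) := rfl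
    _ = rt p N y := by rw [inv_mul_cancel]; rfl

theorem LemmaR_Xi_eq (c₁ : R) (y : R) :
    LemmaR.Xi p (fun N => c₁ * Pi p k r w N) y = c₁ * Xi p k r w y := by
  unfold LemmaR.Xi Xi
  rw [← tsum_mul_left]
  refine tsum_congr fun N => ?_
  rw [fr_neg_eq_rt, mul_assoc]

/-- The `Lines` structure of Lemma R for `P N = c₁ Π_N`, `Y = YY`. -/
theorem Hyp.lines_inst (h : Hyp p k r w ρ) {c₁ : R} (hc : c₁ ≠ 0) (hc1 : ‖c₁‖ ≤ 1)
    (hw0 : w 0 ≠ 0) (hcw : c₁ ^ (p ^ k - 1) = w 0) (x₂ : ℝ) :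
    ∃ xc, x₂ ≤ xc ∧ LemmaR.Lines p k r (fun N => c₁ * Pi p k r w N) (YY p k r w c₁) xc := by
  obtain ⟨xc, hxc, hY⟩ := h.YY_scale hc hc1 hw0 hcw
  refine ⟨max xc x₂, le_max_right _ _, ?_⟩
  have hpos : 0 < max xc x₂ := lt_of_lt_of_le hxc (le_max_left _ _)
  refine ⟨hpos, fun x hx => (hY x ((le_max_left _ _).trans hx)).1, fun x hx N => ?_, fun x hx => ?_,
    fun x hx => (hY x ((le_max_left _ _).trans hx)).2⟩
  · exact h.line_above hc (hpos.le.trans hx) N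
  · exact h.line_tight hc (hpos.le.trans hx)

theorem Hyp.exp_C_sub (h : Hyp p k r w ρ) {c₁ : R} (hc : c₁ ≠ 0) {x : ℝ} (hx : 0 ≤ x) :
    Real.exp (-2 * Real.log ‖c₁‖ - 2 * YY p k r w c₁ x) = (NN p k r w x) ^ 2 := by
  have hcpos : 0 < ‖c₁‖ := norm_pos_iff.mpr hc
  have hN := h.NN_pos hx
  unfold YY
  rw [Real.log_mul hcpos.ne' hN.ne']
  have : -2 * Real.log ‖c₁‖ - 2 * -(Real.log ‖c₁‖ + Real.log (NN p k r w x)) =
      2 * Real.log (NN p k r w x) := by ring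
  rw [this, mul_comm, Real.exp_mul, Real.exp_log hN]
  norm_cast

/-- **(hE) of Lemma R**: `ι Ψ y` versus `c₁ Ξ y`. -/
theorem Hyp.hE_core (h : Hyp p k r w ρ) {ι : PowerSeries R} (G : Linearize.Growth ι)
    (hι0 : PowerSeries.constantCoeff ι = 0) (hc : PowerSeries.coeff 1 ι ≠ 0)
    (hc1 : ‖PowerSeries.coeff 1 ι‖ ≤ 1)
    (pH Ψ : R → R)
    (hP : ∀ u : R, ‖u‖ < 1 → ‖pH u - Aadd p k r w u‖ ≤ gg p k r w (gg p k r w ‖u‖))
    (hΨ : ∀ y : R, ‖y‖ < 1 → Ψ y = pH (Ψ (rt p (k + r) y)))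
    (hΨ1 : ∀ y : R, ‖y‖ < 1 → ‖Ψ y - y‖ ≤ ρ)
    {x : ℝ} (hx : 0 < x) (hNx : NN p k r w x < ‖PowerSeries.coeff 1 ι‖)
    {y : R} (hy : ‖y‖ = Real.exp (-x)) :
    ‖Eval1.ev1 ι (Ψ y) -
        LemmaR.Xi p (fun N => PowerSeries.coeff 1 ι * Pi p k r w N) y‖ ≤
      Real.exp (-2 * Real.log ‖PowerSeries.coeff 1 ι‖ -
        2 * YY p k r w (PowerSeries.coeff 1 ι) x) := by
  set c₁ := PowerSeries.coeff 1 ι with hc₁
  rw [h.exp_C_sub hc hx.le, LemmaR_Xi_eq]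
  obtain ⟨h1, h2⟩ := h.norm_Psi_sub_Xi pH Ψ hP hΨ hΨ1 hx hy
  have hN := h.NN_pos hx.le
  have hsq : gg p k r w (NN p k r w x) ≤ NN p k r w x ^ 2 :=
    h.gg_le_sq hN.le (h.NN_le_one hx.le)
  have h3 : ‖Ψ y‖ < ‖c₁‖ := h1.trans_lt hNx
  have h4 := G.norm_ev1_sub_le hι0 h3
  have hdec : Eval1.ev1 ι (Ψ y) - c₁ * Xi p k r w y =
      (Eval1.ev1 ι (Ψ y) - c₁ * Ψ y) + c₁ * (Ψ y - Xi p k r w y) := by ring
  rw [hdec]
  refine (IsUltrametricDist.norm_add_le_max _ _).trans (max_le ?_ ?_)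
  · exact h4.trans (pow_le_pow_left₀ (norm_nonneg _) h1 2)
  · rw [norm_mul]
    calc ‖c₁‖ * ‖Ψ y - Xi p k r w y‖ ≤ 1 * NN p k r w x ^ 2 :=
          mul_le_mul hc1 (h2.trans hsq) (norm_nonneg _) zero_le_one
      _ = _ := one_mul _

/-- **(hT) of Lemma R**: `Ξ` is tiny on `T = ker Ψ`. -/
theorem Hyp.hT_core (h : Hyp p k r w ρ) {c₁ : R} (hc : c₁ ≠ 0) (hc1 : ‖c₁‖ ≤ 1)
    (pH Ψ : R → R)
    (hP : ∀ u : R, ‖u‖ < 1 → ‖pH u - Aadd p k r w u‖ ≤ gg p k r w (gg p k r w ‖u‖))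
    (hΨ : ∀ y : R, ‖y‖ < 1 → Ψ y = pH (Ψ (rt p (k + r) y)))
    (hΨ1 : ∀ y : R, ‖y‖ < 1 → ‖Ψ y - y‖ ≤ ρ)
    {x : ℝ} (hx : 0 < x) {y : R} (hy : ‖y‖ = Real.exp (-x)) (h0 : Ψ y = 0) :
    ‖LemmaR.Xi p (fun N => c₁ * Pi p k r w N) y‖ ≤
      Real.exp (-2 * Real.log ‖c₁‖ - 2 * YY p k r w c₁ x) := by
  rw [h.exp_C_sub hc hx.le, LemmaR_Xi_eq, norm_mul]
  have h2 := h.norm_Psi_sub_Xi_sq pH Ψ hP hΨ hΨ1 hx hy
  rw [h0, zero_sub, norm_neg] at h2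
  calc ‖c₁‖ * ‖Xi p k r w y‖ ≤ 1 * NN p k r w x ^ 2 :=
        mul_le_mul hc1 h2 (norm_nonneg _) zero_le_one
    _ = _ := one_mul _

end Crest.Agent.LT.AddExp
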