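import Mathlib

/-!
# One-variable evaluation over a complete ultrametric normed commutative ring

`ev1 f x = ∑' n, coeff n f * x ^ n` for `f : PowerSeries S` with coefficients of norm `≤ 1` and
`‖x‖ < 1`.  `S` need not be a field: in the chart `S` is a ring of bounded power series with the
Gauss norm.
-/

set_option autoImplicit false

namespace Crest.Agent.LT.Chart

open Filter Topology

section General

variable {S : Type*} [NormedCommRing S] [NormOneClass S] [IsUltrametricDist S]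
variable {S' : Type*} [NormedCommRing S'] [NormOneClass S'] [IsUltrametricDist S']

/-- Value of a one-variable power series at a point. -/
noncomputable def ev1 (f : PowerSeries S) (x : S) : S := ∑' n, PowerSeries.coeff n f * x ^ n

/-- All coefficients have norm at most one. -/
def Int1 (f : PowerSeries S) : Prop := ∀ n, ‖PowerSeries.coeff n f‖ ≤ 1

theorem norm_term_le {f : PowerSeries S} (hf : Int1 f) (x : S) (n : ℕ) :
    ‖PowerSeries.coeff n f * x ^ n‖ ≤ ‖x‖ ^ n := by
  refine (norm_mul_le _ _).trans ?_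
  calc ‖PowerSeries.coeff n f‖ * ‖x ^ n‖ ≤ 1 * ‖x‖ ^ n :=
        mul_le_mul (hf n) (norm_pow_le _ _) (norm_nonneg _) zero_le_one
    _ = ‖x‖ ^ n := one_mul _

variable [CompleteSpace S] [CompleteSpace S']

theorem summable_ev1 {f : PowerSeries S} (hf : Int1 f) {x : S} (hx : ‖x‖ < 1) :
    Summable fun n => PowerSeries.coeff n f * x ^ n := by
  apply NonarchimedeanAddGroup.summable_of_tendsto_cofinite_zero
  rw [Nat.cofinite_eq_atTop, tendsto_zero_iff_norm_tendsto_zero]
  exact squeeze_zero (fun _ => norm_nonneg _) (norm_term_le hf x)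
    (tendsto_pow_atTop_nhds_zero_of_lt_one (norm_nonneg _) hx)

theorem norm_ev1_le_of_forall {f : PowerSeries S} {x : S} {c : ℝ} (hc : 0 ≤ c)
    (h : ∀ n, ‖PowerSeries.coeff n f * x ^ n‖ ≤ c) : ‖ev1 f x‖ ≤ c :=
  IsUltrametricDist.norm_tsum_le_of_forall_le_of_nonneg hc h

theorem norm_ev1_le_one {f : PowerSeries S} (hf : Int1 f) {x : S} (hx : ‖x‖ < 1) : ‖ev1 f x‖ ≤ 1 :=
  norm_ev1_le_of_forall zero_le_one fun n =>
    (norm_term_le hf x n).trans (pow_le_one₀ (norm_nonneg _) hx.le)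

/-- zero constant term: `‖f x‖ ≤ ‖x‖`. -/
theorem norm_ev1_le_norm {f : PowerSeries S} (hf : Int1 f) (h0 : PowerSeries.constantCoeff f = 0)
    {x : S} (hx : ‖x‖ < 1) : ‖ev1 f x‖ ≤ ‖x‖ := by
  refine norm_ev1_le_of_forall (norm_nonneg _) fun n => ?_
  rcases Nat.eq_zero_or_pos n with rfl | hn
  · simp [h0]
  · exact (norm_term_le hf x n).trans (by
      simpa using pow_le_pow_of_le_one (norm_nonneg x) hx.le (Nat.one_le_iff_ne_zero.mpr hn.ne'))

/-- Coefficients bounded by `ρ`. -/
theorem norm_ev1_le_of_coeff {f : PowerSeries S} {ρ : ℝ} (hρ : 0 ≤ ρ)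
    (hf : ∀ n, ‖PowerSeries.coeff n f‖ ≤ ρ) {x : S} (hx : ‖x‖ < 1) : ‖ev1 f x‖ ≤ ρ := by
  refine norm_ev1_le_of_forall hρ fun n => ?_
  refine (norm_mul_le _ _).trans ?_
  calc ‖PowerSeries.coeff n f‖ * ‖x ^ n‖ ≤ ρ * 1 :=
        mul_le_mul (hf n) ((norm_pow_le _ _).trans (pow_le_one₀ (norm_nonneg _) hx.le))
          (norm_nonneg _) hρ
    _ = ρ := mul_one _

theorem ev1_add {f g : PowerSeries S} (hf : Int1 f) (hg : Int1 g) {x : S} (hx : ‖x‖ < 1) :
    ev1 (f + g) x = ev1 f x + ev1 g x := by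
  simp only [ev1, map_add, add_mul]
  exact (summable_ev1 hf hx).tsum_add (summable_ev1 hg hx)

theorem ev1_sub {f g : PowerSeries S} (hf : Int1 f) (hg : Int1 g) {x : S} (hx : ‖x‖ < 1) :
    ev1 (f - g) x = ev1 f x - ev1 g x := by
  simp only [ev1, map_sub, sub_mul]
  exact (summable_ev1 hf hx).tsum_sub (summable_ev1 hg hx)

theorem ev1_X_pow (q : ℕ) (x : S) : ev1 (PowerSeries.X ^ q : PowerSeries S) x = x ^ q := by
  rw [ev1, tsum_eq_single q]
  · simp [PowerSeries.coeff_X_pow]
  · intro n hn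
    simp [PowerSeries.coeff_X_pow, hn]

theorem int1_X_pow (q : ℕ) : Int1 (PowerSeries.X ^ q : PowerSeries S) := fun n => by
  rw [PowerSeries.coeff_X_pow]
  split_ifs <;> simp

theorem int1_zero : Int1 (0 : PowerSeries S) := fun n => by simp

theorem Int1.add {f g : PowerSeries S} (hf : Int1 f) (hg : Int1 g) : Int1 (f + g) := fun n => by
  rw [map_add]
  exact (IsUltrametricDist.norm_add_le_max _ _).trans (max_le (hf n) (hg n))

theorem Int1.neg {f : PowerSeries S} (hf : Int1 f) : Int1 (-f) := fun n => by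
  rw [map_neg, norm_neg]
  exact hf n

theorem Int1.sub {f g : PowerSeries S} (hf : Int1 f) (hg : Int1 g) : Int1 (f - g) := by
  rw [sub_eq_add_neg]
  exact hf.add hg.neg

theorem Int1.mul {f g : PowerSeries S} (hf : Int1 f) (hg : Int1 g) : Int1 (f * g) := fun n => by
  rw [PowerSeries.coeff_mul]
  refine IsUltrametricDist.norm_sum_le_of_forall_le_of_nonneg zero_le_one fun x _ => ?_
  refine (norm_mul_le _ _).trans ?_
  exact mul_le_one₀ (hf _) (norm_nonneg _) (hg _)

theorem int1_one : Int1 (1 : PowerSeries S) := fun n => by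
  rw [PowerSeries.coeff_one]
  split_ifs <;> simp

theorem Int1.pow {f : PowerSeries S} (hf : Int1 f) (m : ℕ) : Int1 (f ^ m) := by
  induction m with
  | zero => simpa using int1_one
  | succ m ih => rw [pow_succ]; exact ih.mul hf

/-- Lipschitz bound. -/
theorem norm_ev1_sub_ev1_le {f : PowerSeries S} (hf : Int1 f) {a b : S} (ha : ‖a‖ < 1)
    (hb : ‖b‖ < 1) : ‖ev1 f a - ev1 f b‖ ≤ ‖a - b‖ := by
  have hsub : ev1 f a - ev1 f b = ∑' n, PowerSeries.coeff n f * (a ^ n - b ^ n) := by
    simp only [ev1]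
    rw [← (summable_ev1 hf ha).tsum_sub (summable_ev1 hf hb)]
    exact tsum_congr fun n => by ring
  rw [hsub]
  refine IsUltrametricDist.norm_tsum_le_of_forall_le_of_nonneg (norm_nonneg _) fun n => ?_
  have hgeom : a ^ n - b ^ n = (∑ i ∈ Finset.range n, a ^ i * b ^ (n - 1 - i)) * (a - b) :=
    (Commute.all a b).geom_sum₂_mul n |>.symm
  have hsum : ‖∑ i ∈ Finset.range n, a ^ i * b ^ (n - 1 - i)‖ ≤ 1 := by
    refine IsUltrametricDist.norm_sum_le_of_forall_le_of_nonneg zero_le_one fun i _ => ?_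
    refine (norm_mul_le _ _).trans ?_
    exact mul_le_one₀ ((norm_pow_le _ _).trans (pow_le_one₀ (norm_nonneg _) ha.le)) (norm_nonneg _)
      ((norm_pow_le _ _).trans (pow_le_one₀ (norm_nonneg _) hb.le))
  rw [hgeom]
  calc ‖PowerSeries.coeff n f * ((∑ i ∈ Finset.range n, a ^ i * b ^ (n - 1 - i)) * (a - b))‖
      ≤ ‖PowerSeries.coeff n f‖ * (‖∑ i ∈ Finset.range n, a ^ i * b ^ (n - 1 - i)‖ * ‖a - b‖) :=
        (norm_mul_le _ _).trans (mul_le_mul_of_nonneg_left (norm_mul_le _ _) (norm_nonneg _))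
    _ ≤ 1 * (1 * ‖a - b‖) := by
        refine mul_le_mul (hf n) (mul_le_mul_of_nonneg_right hsum (norm_nonneg _)) (by positivity)
          zero_le_one
    _ = ‖a - b‖ := by ring

/-- Continuity of evaluation on the ball. -/
theorem continuousAt_ev1 {f : PowerSeries S} (hf : Int1 f) {a : S} (ha : ‖a‖ < 1) :
    ContinuousAt (ev1 f) a := by
  rw [Metric.continuousAt_iff]
  intro ε hε
  refine ⟨min ε (1 - ‖a‖), lt_min hε (by linarith), fun x hx => ?_⟩
  rw [dist_eq_norm] at hx ⊢
  have h1 : ‖x - a‖ < ε := lt_of_lt_of_le hx (min_le_left _ _)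
  have h2 : ‖x - a‖ < 1 - ‖a‖ := lt_of_lt_of_le hx (min_le_right _ _)
  have hx1 : ‖x‖ < 1 := by
    have : x = (x - a) + a := by abel
    rw [this]
    exact lt_of_le_of_lt (norm_add_le _ _) (by linarith)
  exact lt_of_le_of_lt (norm_ev1_sub_ev1_le hf hx1 ha) h1

/-- Evaluation of `expand`. -/
theorem ev1_expand (k : ℕ) (hk : k ≠ 0) (g : PowerSeries S) (x : S) :
    ev1 (PowerSeries.expand k hk g) x = ev1 g (x ^ k) := by
  simp only [ev1]
  have hinj : Function.Injective (fun m : ℕ => k * m) := fun a b h => by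
    simpa [Nat.mul_right_inj hk] using h
  have hsupp : Function.support (fun n => PowerSeries.coeff n (PowerSeries.expand k hk g) * x ^ n) ⊆
      Set.range (fun m : ℕ => k * m) := by
    intro n hn
    by_contra hcon
    have hnd : ¬ k ∣ n := by
      rintro ⟨m, rfl⟩
      exact hcon ⟨m, rfl⟩
    simp [PowerSeries.coeff_expand_of_not_dvd k hk _ hnd] at hn
  rw [← hinj.tsum_eq hsupp]
  refine tsum_congr fun m => ?_
  rw [PowerSeries.coeff_expand_mul, pow_mul]

/-- Naturality under contractive ring homomorphisms. -/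
theorem map_ev1 (φ : S →+* S') (hφ : ∀ a, ‖φ a‖ ≤ ‖a‖) {f : PowerSeries S} (hf : Int1 f)
    {x : S} (hx : ‖x‖ < 1) : φ (ev1 f x) = ev1 (PowerSeries.map φ f) (φ x) := by
  have hcont : Continuous φ := by
    refine AddMonoidHomClass.continuous_of_bound φ 1 fun a => ?_
    simpa using hφ a
  simp only [ev1]
  rw [(summable_ev1 hf hx).map_tsum φ hcont]
  refine tsum_congr fun n => ?_
  simp

end General

end Crest.Agent.LT.Chart
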