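import Mathlib

/-!
# The map `Ψ` attached to a deformation of a Honda law (abstract core)

Section (2a) of the proof of S0351 (finding #1130).  Everything here is phrased over abstract group
structures on the open unit ball `m_R` of a complete ultrametric field `R`.

`BallGroup R G` says that the abelian group `G` is identified, by a map `c : G → R`, with the open
unit ball of `R` in such a way that the group law is `1`-Lipschitz in the ultrametric sense.  This
is what evaluating a formal group law with coefficients of norm `≤ 1` gives.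

`PsiSetup` consists of two such groups `G` (the Honda law, `[p]_G x = x ^ q`) and `H` (the
deformation, `[p]_H = g (X ^ q_k)` so that `|p • a| ≤ |a| ^ q_k`), such that the two laws are close:
the difference is at most `ρ < 1`.

Main output: `Psi : G →+ H`, `Ψ y = lim p^N • pt (root^N y)`, `|Ψ y - y| ≤ ρ`, continuity at `0`,
`natural`: `θ ∘ Ψ' = Ψ ∘ α` for a homomorphism `θ : H' → H` reducing to `α`.
-/

set_option autoImplicit false
set_option linter.unusedSectionVars false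
set_option linter.dupNamespace false

namespace Crest.Agent.Lib.LT.PsiGroup

open Filter Topology

variable {R : Type*} [NormedField R] [IsUltrametricDist R]

/-- The abelian group `G` is identified by `c` with the open unit ball of `R`, and the group law
is `1`-Lipschitz in the ultrametric sense. -/
structure BallGroup (R : Type*) [NormedField R] (G : Type*) [AddCommGroup G] where
  /-- the coordinate of a point of `G` -/
  c : G → R
  inj : Function.Injective c
  range_eq : ∀ x : R, ‖x‖ < 1 ↔ ∃ g, c g = x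
  c_zero : c 0 = 0
  lip : ∀ a b a' b' : G, ‖c (a + b) - c (a' + b')‖ ≤ max ‖c a - c a'‖ ‖c b - c b'‖

namespace BallGroup

variable {G : Type*} [AddCommGroup G] (B : BallGroup R G)

/-- The norm of a point. -/
def nrm (g : G) : ℝ := ‖B.c g‖

theorem nrm_lt_one (g : G) : B.nrm g < 1 := (B.range_eq (B.c g)).mpr ⟨g, rfl⟩

theorem nrm_nonneg (g : G) : 0 ≤ B.nrm g := norm_nonneg _

@[simp] theorem nrm_zero : B.nrm 0 = 0 := by simp [nrm, B.c_zero]

theorem nrm_eq_zero {g : G} : B.nrm g = 0 ↔ g = 0 := by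
  constructor
  · intro h
    have : B.c g = 0 := by simpa [nrm] using h
    exact B.inj (by rw [this, B.c_zero])
  · rintro rfl; simp

theorem nrm_add_le (a b : G) : B.nrm (a + b) ≤ max (B.nrm a) (B.nrm b) := by
  have := B.lip a b 0 0
  simpa [nrm, B.c_zero] using this

theorem nrm_neg_le (a : G) : B.nrm (-a) ≤ B.nrm a := by
  have := B.lip a (-a) 0 (-a)
  simpa [nrm, B.c_zero, norm_neg] using this

theorem nrm_neg (a : G) : B.nrm (-a) = B.nrm a :=
  le_antisymm (B.nrm_neg_le a) (by simpa using B.nrm_neg_le (-a))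

theorem nrm_sub_le (a b : G) : B.nrm (a - b) ≤ max (B.nrm a) (B.nrm b) := by
  rw [sub_eq_add_neg]
  have := B.nrm_add_le a (-b)
  rwa [B.nrm_neg] at this

/-- The norm of a difference is the distance of the coordinates. -/
theorem nrm_sub (a b : G) : B.nrm (a - b) = ‖B.c a - B.c b‖ := by
  apply le_antisymm
  · have := B.lip a (-b) b (-b)
    simp only [sub_self, norm_zero] at this
    rw [max_eq_left (norm_nonneg _)] at this
    simpa [nrm, sub_eq_add_neg, B.c_zero] using this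
  · have := B.lip (a - b) b 0 b
    simp only [sub_self, norm_zero, sub_add_cancel, zero_add] at this
    rw [max_eq_left (norm_nonneg _)] at this
    simpa [nrm, B.c_zero] using this

theorem nrm_nsmul_le (n : ℕ) (a : G) : B.nrm (n • a) ≤ B.nrm a := by
  induction n with
  | zero => simpa using B.nrm_nonneg a
  | succ n ih =>
    rw [succ_nsmul]
    exact (B.nrm_add_le _ _).trans (max_le ih le_rfl)

theorem nrm_zsmul_le (n : ℤ) (a : G) : B.nrm (n • a) ≤ B.nrm a := by
  cases n with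
  | ofNat n => simpa using B.nrm_nsmul_le n a
  | negSucc n =>
    rw [negSucc_zsmul, B.nrm_neg]
    exact B.nrm_nsmul_le _ a

theorem nrm_finset_sum_le {ι : Type*} (s : Finset ι) (f : ι → G) {C : ℝ} (hC : 0 ≤ C)
    (h : ∀ i ∈ s, B.nrm (f i) ≤ C) : B.nrm (∑ i ∈ s, f i) ≤ C := by
  classical
  induction s using Finset.induction_on with
  | empty => simpa using hC
  | insert a s ha ih =>
    rw [Finset.sum_insert ha]
    refine (B.nrm_add_le _ _).trans (max_le (h a (Finset.mem_insert_self _ _)) ?_)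
    exact ih fun i hi => h i (Finset.mem_insert_of_mem hi)

/-- Completeness of the ball group: a sequence with small differences converges. -/
theorem exists_limit [CompleteSpace R] (u : ℕ → G) (C : ℝ) (hC : C < 1) (hu : ∀ n, B.nrm (u n) ≤ C)
    (hcau : CauchySeq fun n => B.c (u n)) :
    ∃ g : G, Tendsto (fun n => B.c (u n)) atTop (𝓝 (B.c g)) := by
  obtain ⟨x, hx⟩ := cauchySeq_tendsto_of_complete hcau
  have hxC : ‖x‖ ≤ C := le_of_tendsto hx.norm (Eventually.of_forall hu)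
  obtain ⟨g, rfl⟩ := (B.range_eq x).mp (hxC.trans_lt hC)
  exact ⟨g, hx⟩

theorem eq_of_tendsto {u : ℕ → G} {a b : G} [T2Space R]
    (ha : Tendsto (fun n => B.c (u n)) atTop (𝓝 (B.c a)))
    (hb : Tendsto (fun n => B.c (u n)) atTop (𝓝 (B.c b))) : a = b :=
  B.inj (tendsto_nhds_unique ha hb)

end BallGroup

/-- Elementary: powers of `ρ < 1` with exponent `Q ^ N`, `Q ≥ 2`, go to zero. -/
theorem tendsto_pow_pow {ρ : ℝ} (h0 : 0 ≤ ρ) (h1 : ρ < 1) {Q : ℕ} (hQ : 2 ≤ Q) :
    Tendsto (fun N : ℕ => ρ ^ (Q ^ N)) atTop (𝓝 0) := by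
  have h2 : Tendsto (fun N : ℕ => Q ^ N) atTop atTop :=
    tendsto_pow_atTop_atTop_of_one_lt (by omega)
  exact (tendsto_pow_atTop_nhds_zero_of_lt_one h0 h1).comp h2

/-- Setup for `Ψ`.  `G` carries the Honda law, `H` a deformation. -/
structure PsiSetup (R : Type*) [NormedField R] (G H : Type*) [AddCommGroup G] [AddCommGroup H]
    (p q qk : ℕ) where
  BG : BallGroup R G
  BH : BallGroup R H
  /-- same coordinate -/
  pt : G → H
  c_pt : ∀ g, BH.c (pt g) = BG.c g
  /-- `[p]_G x = x ^ q` -/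
  c_p : ∀ g : G, BG.c (p • g) = BG.c g ^ q
  /-- division by `p` on `G` -/
  root : G → G
  p_root : ∀ g, p • root g = g
  root_p : ∀ g, root (p • g) = g
  /-- closeness of the two laws -/
  ρ : ℝ
  ρ_pos : 0 < ρ
  ρ_lt : ρ < 1
  close_add : ∀ x y : G, ‖BH.c (pt x + pt y) - BG.c (x + y)‖ ≤ ρ
  /-- `[p]_H (X) = g (X ^ q_k)` -/
  H_frob : ∀ a : H, BH.nrm (p • a) ≤ BH.nrm a ^ qk
  two_le_qk : 2 ≤ qk
  two_le_q : 2 ≤ q

namespace PsiSetup

variable {G H : Type*} [AddCommGroup G] [AddCommGroup H] {p q qk : ℕ}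
variable (S : PsiSetup R G H p q qk)

omit [NormedField R] [IsUltrametricDist R] in
theorem pow_succ_smul {A : Type*} [AddCommMonoid A] (p N : ℕ) (a : A) :
    (p ^ (N + 1)) • a = (p ^ N) • (p • a) := by
  rw [pow_succ, mul_smul]

omit [NormedField R] [IsUltrametricDist R] in
theorem pow_succ_smul' {A : Type*} [AddCommMonoid A] (p N : ℕ) (a : A) :
    (p ^ (N + 1)) • a = p • ((p ^ N) • a) := by
  rw [pow_succ', mul_smul]

theorem nrm_pt (g : G) : S.BH.nrm (S.pt g) = S.BG.nrm g := by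
  simp [BallGroup.nrm, S.c_pt]

/-- the point map is surjective -/
theorem pt_surj (h : H) : ∃ g, S.pt g = h := by
  obtain ⟨g, hg⟩ := (S.BG.range_eq (S.BH.c h)).mp (S.BH.nrm_lt_one h)
  exact ⟨g, S.BH.inj (by rw [S.c_pt, hg])⟩

theorem pt_inj {a b : G} (h : S.pt a = S.pt b) : a = b :=
  S.BG.inj (by rw [← S.c_pt, ← S.c_pt, h])

theorem nrm_p (g : G) : S.BG.nrm (p • g) = S.BG.nrm g ^ q := by
  simp [BallGroup.nrm, S.c_p, norm_pow]

theorem nrm_pow_p (N : ℕ) (g : G) : S.BG.nrm ((p ^ N) • g) = S.BG.nrm g ^ (q ^ N) := by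
  induction N generalizing g with
  | zero => simp
  | succ N ih =>
    rw [pow_succ_smul, ih, S.nrm_p, ← pow_mul, pow_succ' q N]

theorem H_frob_iter (N : ℕ) (a : H) : S.BH.nrm ((p ^ N) • a) ≤ S.BH.nrm a ^ (qk ^ N) := by
  induction N generalizing a with
  | zero => simp
  | succ N ih =>
    rw [pow_succ_smul]
    refine (ih _).trans ?_
    have h1 : S.BH.nrm (p • a) ≤ S.BH.nrm a ^ qk := S.H_frob a
    calc S.BH.nrm (p • a) ^ (qk ^ N) ≤ (S.BH.nrm a ^ qk) ^ (qk ^ N) :=
          pow_le_pow_left₀ (S.BH.nrm_nonneg _) h1 _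
      _ = S.BH.nrm a ^ (qk ^ (N + 1)) := by
          rw [← pow_mul, pow_succ' qk N]

/-- The two laws are close on sums. -/
theorem close_add' (x y : G) : S.BH.nrm (S.pt x + S.pt y - S.pt (x + y)) ≤ S.ρ := by
  rw [S.BH.nrm_sub, S.c_pt]
  exact S.close_add x y

/-- The two laws are close on multiples. -/
theorem close_nsmul (n : ℕ) (x : G) : S.BH.nrm (n • S.pt x - S.pt (n • x)) ≤ S.ρ := by
  induction n with
  | zero =>
    have : S.pt (0 : G) = 0 := S.BH.inj (by rw [S.c_pt, S.BG.c_zero, S.BH.c_zero])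
    simp [this, S.ρ_pos.le]
  | succ n ih =>
    rw [succ_nsmul, succ_nsmul]
    have h1 : n • S.pt x + S.pt x - S.pt (n • x + x)
        = (n • S.pt x - S.pt (n • x)) + (S.pt (n • x) + S.pt x - S.pt (n • x + x)) := by abel
    rw [h1]
    exact (S.BH.nrm_add_le _ _).trans (max_le ih (S.close_add' _ _))

theorem pt_zero : S.pt 0 = 0 := S.BH.inj (by rw [S.c_pt, S.BG.c_zero, S.BH.c_zero])

/-- iterated division by `p` on `G` -/
def rootN (N : ℕ) (y : G) : G := S.root^[N] y

theorem pow_rootN (N : ℕ) (y : G) : (p ^ N) • S.rootN N y = y := by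
  induction N generalizing y with
  | zero => simp [rootN]
  | succ N ih =>
    have : S.rootN (N + 1) y = S.rootN N (S.root y) := by simp [rootN]
    rw [this, pow_succ_smul', ih, S.p_root]

include S in
theorem pow_injective (N : ℕ) (a b : G) (h : (p ^ N) • a = (p ^ N) • b) : a = b := by
  induction N generalizing a b with
  | zero => simpa using h
  | succ N ih =>
    rw [pow_succ_smul, pow_succ_smul] at h
    have := ih _ _ h
    rw [← S.root_p a, ← S.root_p b, this]

theorem rootN_succ' (N : ℕ) (y : G) : S.rootN N y = p • S.rootN (N + 1) y := by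
  have h : (p ^ (N+1)) • S.rootN (N + 1) y = y := S.pow_rootN (N+1) y
  apply S.pow_injective N
  rw [S.pow_rootN, ← pow_succ_smul, h]

theorem rootN_add (N : ℕ) (a b : G) : S.rootN N (a + b) = S.rootN N a + S.rootN N b := by
  apply S.pow_injective N
  rw [S.pow_rootN, nsmul_add, S.pow_rootN, S.pow_rootN]

/-- The approximating sequence of `Ψ y`. -/
def X (N : ℕ) (y : G) : H := (p ^ N) • S.pt (S.rootN N y)

theorem X_zero (y : G) : S.X 0 y = S.pt y := by simp [X, rootN]

theorem X_succ_sub (N : ℕ) (y : G) : S.BH.nrm (S.X (N + 1) y - S.X N y) ≤ S.ρ ^ (qk ^ N) := by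
  have h : S.X (N + 1) y - S.X N y
      = (p ^ N) • (p • S.pt (S.rootN (N + 1) y) - S.pt (p • S.rootN (N + 1) y)) := by
    simp only [X]
    rw [← S.rootN_succ', nsmul_sub, pow_succ_smul]
  rw [h]
  refine (S.H_frob_iter N _).trans ?_
  exact pow_le_pow_left₀ (S.BH.nrm_nonneg _) (S.close_nsmul p _) _

theorem X_sub_pt (N : ℕ) (y : G) : S.BH.nrm (S.X N y - S.pt y) ≤ S.ρ := by
  induction N with
  | zero => simp [X_zero, S.ρ_pos.le]
  | succ N ih =>
    have h1 : S.X (N + 1) y - S.pt y = (S.X (N + 1) y - S.X N y) + (S.X N y - S.pt y) := by abel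
    rw [h1]
    refine (S.BH.nrm_add_le _ _).trans (max_le ((S.X_succ_sub N y).trans ?_) ih)
    have hQ : 1 ≤ qk ^ N := Nat.one_le_pow _ _ (by have := S.two_le_qk; omega)
    calc S.ρ ^ (qk ^ N) ≤ S.ρ ^ 1 := pow_le_pow_of_le_one S.ρ_pos.le S.ρ_lt.le hQ
      _ = S.ρ := pow_one _

theorem tendsto_rho : Tendsto (fun N : ℕ => S.ρ ^ (qk ^ N)) atTop (𝓝 0) :=
  tendsto_pow_pow S.ρ_pos.le S.ρ_lt S.two_le_qk

/-- The approximating sequence is Cauchy. -/
theorem cauchy_X (y : G) : CauchySeq fun N => S.BH.c (S.X N y) := by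
  apply NonarchimedeanAddGroup.cauchySeq_of_tendsto_sub_nhds_zero
  have h : Tendsto (fun N : ℕ => ‖S.BH.c (S.X (N + 1) y) - S.BH.c (S.X N y)‖) atTop (𝓝 0) := by
    refine squeeze_zero (fun _ => norm_nonneg _) (fun N => ?_) S.tendsto_rho
    rw [← S.BH.nrm_sub]
    exact S.X_succ_sub N y
  exact tendsto_zero_iff_norm_tendsto_zero.mpr h

theorem nrm_X_le (N : ℕ) (y : G) : S.BH.nrm (S.X N y) ≤ max S.ρ (S.BG.nrm y) := by
  have h1 : S.X N y = (S.X N y - S.pt y) + S.pt y := by abel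
  rw [h1]
  refine (S.BH.nrm_add_le _ _).trans ?_
  rw [S.nrm_pt]
  exact max_le_max (S.X_sub_pt N y) le_rfl

variable [CompleteSpace R]

theorem exists_Psi (y : G) :
    ∃ h : H, Tendsto (fun N => S.BH.c (S.X N y)) atTop (𝓝 (S.BH.c h)) :=
  S.BH.exists_limit _ (max S.ρ (S.BG.nrm y)) (max_lt S.ρ_lt (S.BG.nrm_lt_one y))
    (fun N => S.nrm_X_le N y) (S.cauchy_X y)

/-- `Ψ` as a function. -/
noncomputable def PsiFun (y : G) : H := (S.exists_Psi y).choose

theorem tendsto_PsiFun (y : G) :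
    Tendsto (fun N => S.BH.c (S.X N y)) atTop (𝓝 (S.BH.c (S.PsiFun y))) :=
  (S.exists_Psi y).choose_spec

/-- Limits in `H`: if `a N` tends to `h`, and `b N - a N` tends to zero in norm, `b N` tends to `h`. -/
theorem tendsto_of_close {a b : ℕ → H} {h : H}
    (ha : Tendsto (fun N => S.BH.c (a N)) atTop (𝓝 (S.BH.c h)))
    (hab : Tendsto (fun N => S.BH.nrm (b N - a N)) atTop (𝓝 0)) :
    Tendsto (fun N => S.BH.c (b N)) atTop (𝓝 (S.BH.c h)) := by
  have h1 : Tendsto (fun N => S.BH.c (b N) - S.BH.c (a N)) atTop (𝓝 0) := by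
    rw [tendsto_zero_iff_norm_tendsto_zero]
    simpa [S.BH.nrm_sub] using hab
  simpa using h1.add ha

/-- Addition is continuous in the coordinates. -/
theorem tendsto_add {a b : ℕ → H} {h k : H}
    (ha : Tendsto (fun N => S.BH.c (a N)) atTop (𝓝 (S.BH.c h)))
    (hb : Tendsto (fun N => S.BH.c (b N)) atTop (𝓝 (S.BH.c k))) :
    Tendsto (fun N => S.BH.c (a N + b N)) atTop (𝓝 (S.BH.c (h + k))) := by
  have ha' : Tendsto (fun N => ‖S.BH.c (a N) - S.BH.c h‖) atTop (𝓝 0) := by
    have := tendsto_zero_iff_norm_tendsto_zero.mp (tendsto_sub_nhds_zero_iff.mpr ha)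
    exact this
  have hb' : Tendsto (fun N => ‖S.BH.c (b N) - S.BH.c k‖) atTop (𝓝 0) := by
    have := tendsto_zero_iff_norm_tendsto_zero.mp (tendsto_sub_nhds_zero_iff.mpr hb)
    exact this
  rw [← tendsto_sub_nhds_zero_iff, tendsto_zero_iff_norm_tendsto_zero]
  have hm : Tendsto (fun N => max ‖S.BH.c (a N) - S.BH.c h‖ ‖S.BH.c (b N) - S.BH.c k‖) atTop (𝓝 0) := by
    simpa using ha'.max hb'
  exact squeeze_zero (fun _ => norm_nonneg _) (fun N => S.BH.lip _ _ _ _) hm

theorem X_add_close (N : ℕ) (a b : G) :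
    S.BH.nrm (S.X N (a + b) - (S.X N a + S.X N b)) ≤ S.ρ ^ (qk ^ N) := by
  have h : S.X N (a + b) - (S.X N a + S.X N b)
      = (p ^ N) • (S.pt (S.rootN N a + S.rootN N b) - (S.pt (S.rootN N a) + S.pt (S.rootN N b))) := by
    simp only [X, S.rootN_add, nsmul_sub, nsmul_add]
  rw [h]
  refine (S.H_frob_iter N _).trans ?_
  refine pow_le_pow_left₀ (S.BH.nrm_nonneg _) ?_ _
  have := S.close_add' (S.rootN N a) (S.rootN N b)
  rw [← S.BH.nrm_neg] at this
  simpa using this

/-- `Ψ` is additive. -/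
theorem PsiFun_add (a b : G) : S.PsiFun (a + b) = S.PsiFun a + S.PsiFun b := by
  have h1 := S.tendsto_add (S.tendsto_PsiFun a) (S.tendsto_PsiFun b)
  have h2 : Tendsto (fun N => S.BH.c (S.X N (a + b))) atTop (𝓝 (S.BH.c (S.PsiFun a + S.PsiFun b))) := by
    refine S.tendsto_of_close h1 ?_
    refine squeeze_zero (fun _ => S.BH.nrm_nonneg _) (fun N => S.X_add_close N a b) S.tendsto_rho
  exact S.BH.eq_of_tendsto (S.tendsto_PsiFun _) h2

/-- `Ψ` as a group homomorphism `G →+ H`. -/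
noncomputable def Psi : G →+ H where
  toFun := S.PsiFun
  map_zero' := by
    have h := S.PsiFun_add 0 0
    simpa using h
  map_add' := S.PsiFun_add

theorem tendsto_Psi (y : G) :
    Tendsto (fun N => S.BH.c (S.X N y)) atTop (𝓝 (S.BH.c (S.Psi y))) := S.tendsto_PsiFun y

/-- `|Ψ y - y| ≤ ρ`. -/
theorem nrm_Psi_sub (y : G) : S.BH.nrm (S.Psi y - S.pt y) ≤ S.ρ := by
  rw [S.BH.nrm_sub, S.c_pt]
  have h : Tendsto (fun N => ‖S.BH.c (S.X N y) - S.BG.c y‖) atTop (𝓝 ‖S.BH.c (S.Psi y) - S.BG.c y‖) :=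
    ((S.tendsto_Psi y).sub_const _).norm
  refine le_of_tendsto h (Eventually.of_forall fun N => ?_)
  rw [← S.c_pt y, ← S.BH.nrm_sub]
  exact S.X_sub_pt N y

theorem Psi_p (y : G) : S.Psi (p • y) = p • S.Psi y := map_nsmul S.Psi p y

theorem Psi_pow_p (N : ℕ) (y : G) : S.Psi ((p ^ N) • y) = (p ^ N) • S.Psi y :=
  map_nsmul S.Psi _ y

theorem Psi_rootN (N : ℕ) (y : G) : S.Psi y = (p ^ N) • S.Psi (S.rootN N y) := by
  rw [← S.Psi_pow_p, S.pow_rootN]

/-- norms of roots -/
theorem nrm_rootN (N : ℕ) (y : G) : S.BG.nrm (S.rootN N y) ^ (q ^ N) = S.BG.nrm y := by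
  rw [← S.nrm_pow_p, S.pow_rootN]

/-- Continuity of `Ψ` at zero, quantitative: `|u| ≤ ρ^(q^m)` implies `|Ψ u| ≤ ρ^(q_k^m)`. -/
theorem nrm_Psi_le (m : ℕ) (u : G) (hu : S.BG.nrm u ≤ S.ρ ^ (q ^ m)) :
    S.BH.nrm (S.Psi u) ≤ S.ρ ^ (qk ^ m) := by
  rw [S.Psi_rootN m u]
  refine (S.H_frob_iter m _).trans ?_
  refine pow_le_pow_left₀ (S.BH.nrm_nonneg _) ?_ _
  set s := S.rootN m u
  have hs : S.BG.nrm s ≤ S.ρ := by
    have h1 : S.BG.nrm s ^ (q ^ m) ≤ S.ρ ^ (q ^ m) := by rw [S.nrm_rootN]; exact hu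
    have hq : q ^ m ≠ 0 := by have := S.two_le_q; positivity
    exact (pow_le_pow_iff_left₀ (S.BG.nrm_nonneg _) S.ρ_pos.le hq).mp h1
  have h2 : S.Psi s = (S.Psi s - S.pt s) + S.pt s := by abel
  rw [h2]
  refine (S.BH.nrm_add_le _ _).trans (max_le (S.nrm_Psi_sub s) ?_)
  rw [S.nrm_pt]; exact hs

/-- Naturality of `Ψ`. Here `S'` is a second deformation with the same `G`, `θ : H' → H` a group hom
with `|θ a| ≤ |a|`, `α : G → G` a group hom, and `θ` reduces to `α`. -/
theorem natural {H' : Type*} [AddCommGroup H'] (S' : PsiSetup R G H' p q qk)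
    (θ : H' →+ H) (hθ : ∀ a, S.BH.nrm (θ a) ≤ S'.BH.nrm a) (α : G →+ G)
    (hclose : ∀ g, S.BH.nrm (θ (S'.pt g) - S.pt (α g)) ≤ S.ρ) (y : G) :
    θ (S'.Psi y) = S.Psi (α y) := by
  have hroot : ∀ N (a : G), α (S.rootN N a) = S.rootN N (α a) := by
    intro N a
    apply S.pow_injective N
    rw [S.pow_rootN, ← map_nsmul, S.pow_rootN]
  have hroot' : ∀ N (a : G), S'.rootN N a = S.rootN N a := by
    intro N a
    apply S.pow_injective N
    rw [S.pow_rootN, S'.pow_rootN]
  -- `θ (X' N y)` tends to `θ (Ψ' y)`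
  have h1 : Tendsto (fun N => S.BH.c (θ (S'.X N y))) atTop (𝓝 (S.BH.c (θ (S'.Psi y)))) := by
    rw [← tendsto_sub_nhds_zero_iff, tendsto_zero_iff_norm_tendsto_zero]
    have h0 := tendsto_zero_iff_norm_tendsto_zero.mp (tendsto_sub_nhds_zero_iff.mpr (S'.tendsto_Psi y))
    refine squeeze_zero (fun _ => norm_nonneg _) (fun N => ?_) h0
    rw [← S.BH.nrm_sub, ← map_sub, ← S'.BH.nrm_sub]
    exact hθ _
  have h2 : Tendsto (fun N => S.BH.c (S.X N (α y))) atTop (𝓝 (S.BH.c (θ (S'.Psi y)))) := by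
    refine S.tendsto_of_close h1 ?_
    refine squeeze_zero (fun _ => S.BH.nrm_nonneg _) (fun N => ?_) S.tendsto_rho
    have h3 : S.X N (α y) - θ (S'.X N y)
        = -((p ^ N) • (θ (S'.pt (S.rootN N y)) - S.pt (α (S.rootN N y)))) := by
      simp only [X, map_nsmul, hroot, hroot', nsmul_sub, neg_sub]
    rw [h3, S.BH.nrm_neg]
    refine (S.H_frob_iter N _).trans ?_
    exact pow_le_pow_left₀ (S.BH.nrm_nonneg _) (hclose _) _
  exact S.BH.eq_of_tendsto h2 (S.tendsto_Psi _)

end PsiSetup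

end Crest.Agent.Lib.LT.PsiGroup
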