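import Crest.Agent.Lib.LT.EvalS
import Crest.Agent.Lib.LT.FGL
import Crest.Agent.Lib.LT.ChartEval
import Crest.Agent.Lib.LT.PsiGroup

/-!
# The group of points of a formal group law on the open unit ball

`F` a commutative formal group law over a complete ultrametric field `R`, with coefficients of
norm `≤ 1`.  `FGPt F` is the open unit ball with the group law `x +_F y = ev F ![x, y]`.

* `FGPt.instAddCommGroup`, `ballGroup F : BallGroup R (FGPt F)`;
* `c_nsmul`: `n • a` has coordinate `ev1 [n]_F a`;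
* `quad`: `‖(x +_F y) - x - y‖ ≤ ‖x‖ ‖y‖`.
-/

set_option autoImplicit false
set_option linter.unusedSectionVars false

namespace Crest.Agent.Lib.LT.BallFG

open Filter Topology
open Crest.Agent.Lib.LT.EvalS
open Crest.Agent.Lib.LT.FormalIFT (Ord)
open Crest.Agent.LT (cross coeff_cross law_eq_cross)

variable {R : Type*} [NormedField R] [IsUltrametricDist R] [CompleteSpace R]

section ev_lip

variable {σ : Type*} [Fintype σ]

theorem norm_pow_sub_pow_le {x y : R} (hx : ‖x‖ ≤ 1) (hy : ‖y‖ ≤ 1) (k : ℕ) :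
    ‖x ^ k - y ^ k‖ ≤ ‖x - y‖ := by
  induction k with
  | zero => simp
  | succ k ih =>
    have h1 : x ^ (k + 1) - y ^ (k + 1) = x * (x ^ k - y ^ k) + (x - y) * y ^ k := by ring
    rw [h1]
    refine (IsUltrametricDist.norm_add_le_max _ _).trans (max_le ?_ ?_)
    · rw [norm_mul]
      calc ‖x‖ * ‖x ^ k - y ^ k‖ ≤ 1 * ‖x - y‖ := mul_le_mul hx ih (norm_nonneg _) zero_le_one
        _ = ‖x - y‖ := one_mul _
    · rw [norm_mul, norm_pow]
      calc ‖x - y‖ * ‖y‖ ^ k ≤ ‖x - y‖ * 1 := by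
            gcongr
            exact pow_le_one₀ (norm_nonneg _) hy
        _ = ‖x - y‖ := mul_one _

theorem norm_mono_le_one {x : σ → R} (hx : ‖x‖ ≤ 1) (m : σ →₀ ℕ) : ‖mono x m‖ ≤ 1 :=
  (norm_mono_le x m).trans (pow_le_one₀ (norm_nonneg _) hx)

theorem norm_mono_sub_le {x y : σ → R} (hx : ‖x‖ ≤ 1) (hy : ‖y‖ ≤ 1) (m : σ →₀ ℕ) :
    ‖mono x m - mono y m‖ ≤ ‖x - y‖ := by
  classical
  induction m using Finsupp.induction_linear with
  | zero => simp
  | add a b ha hb =>
    have h1 : mono x (a + b) - mono y (a + b)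
        = mono x a * (mono x b - mono y b) + (mono x a - mono y a) * mono y b := by
      rw [mono_add, mono_add]; ring
    rw [h1]
    refine (IsUltrametricDist.norm_add_le_max _ _).trans (max_le ?_ ?_)
    · rw [norm_mul]
      calc ‖mono x a‖ * ‖mono x b - mono y b‖ ≤ 1 * ‖x - y‖ :=
            mul_le_mul (norm_mono_le_one hx a) hb (norm_nonneg _) zero_le_one
        _ = ‖x - y‖ := one_mul _
    · rw [norm_mul]
      calc ‖mono x a - mono y a‖ * ‖mono y b‖ ≤ ‖x - y‖ * 1 :=
            mul_le_mul ha (norm_mono_le_one hy b) (norm_nonneg _) (norm_nonneg _)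
        _ = ‖x - y‖ := mul_one _
  | single i k =>
    rw [mono_single, mono_single]
    refine (norm_pow_sub_pow_le ((norm_le_pi_norm x i).trans hx) ((norm_le_pi_norm y i).trans hy) k).trans ?_
    exact norm_le_pi_norm (x - y) i

/-- Evaluation is `1`-Lipschitz. -/
theorem norm_ev_sub_ev_le {f : MvPowerSeries σ R} (hf : IntS f) {x y : σ → R} (hx : ‖x‖ < 1)
    (hy : ‖y‖ < 1) : ‖ev f x - ev f y‖ ≤ ‖x - y‖ := by
  rw [ev, ev, ← (summable_ev hf hx).tsum_sub (summable_ev hf hy)]
  refine IsUltrametricDist.norm_tsum_le_of_forall_le_of_nonneg (norm_nonneg _) fun m => ?_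
  rw [← mul_sub, norm_mul]
  calc ‖MvPowerSeries.coeff m f‖ * ‖mono x m - mono y m‖ ≤ 1 * ‖x - y‖ :=
        mul_le_mul (hf m) (norm_mono_sub_le hx.le hy.le m) (norm_nonneg _) zero_le_one
    _ = ‖x - y‖ := one_mul _

end ev_lip

theorem norm_pair_lt {x y : R} (hx : ‖x‖ < 1) (hy : ‖y‖ < 1) : ‖(![x, y] : Fin 2 → R)‖ < 1 := by
  rw [pi_norm_lt_iff one_pos]
  intro i
  fin_cases i
  · simpa using hx
  · simpa using hy

theorem norm_pair_sub_le (x y x' y' : R) :
    ‖(![x, y] : Fin 2 → R) - ![x', y']‖ ≤ max ‖x - x'‖ ‖y - y'‖ := by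
  rw [pi_norm_le_iff_of_nonneg (le_max_of_le_left (norm_nonneg _))]
  intro i
  fin_cases i
  · simp
  · simp

theorem norm_triple_lt {x y z : R} (hx : ‖x‖ < 1) (hy : ‖y‖ < 1) (hz : ‖z‖ < 1) :
    ‖(![x, y, z] : Fin 3 → R)‖ < 1 := by
  rw [pi_norm_lt_iff one_pos]
  intro i
  fin_cases i
  · simpa using hx
  · simpa using hy
  · simpa using hz

variable (F : FormalGroup R)

/-- `x +_F y` on points. -/
noncomputable def padd (x y : R) : R := ev F.toPowerSeries ![x, y]

variable {F}
variable (hF : IntS F.toPowerSeries)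

include hF in
theorem intS_cross : IntS (cross F.toPowerSeries) := fun e => by
  rw [coeff_cross]; exact hF _

include hF in
/-- The law as `x + y + x y c(x, y)`. -/
theorem padd_eq {x y : R} (hx : ‖x‖ < 1) (hy : ‖y‖ < 1) :
    padd F x y = x + y + x * y * ev (cross F.toPowerSeries) ![x, y] := by
  have hv := norm_pair_lt hx hy
  have hX0 : IntS (MvPowerSeries.X 0 : MvPowerSeries (Fin 2) R) := intS_X 0
  have hX1 : IntS (MvPowerSeries.X 1 : MvPowerSeries (Fin 2) R) := intS_X 1
  rw [padd]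
  conv_lhs => rw [law_eq_cross F]
  rw [ev_add (hX0.add hX1) ((hX0.mul hX1).mul (intS_cross hF)) hv, ev_add hX0 hX1 hv,
    ev_mul (hX0.mul hX1) (intS_cross hF) hv, ev_mul hX0 hX1 hv, ev_X, ev_X]
  simp

include hF in
theorem norm_ev_cross_le {x y : R} (hx : ‖x‖ < 1) (hy : ‖y‖ < 1) :
    ‖ev (cross F.toPowerSeries) ![x, y]‖ ≤ 1 :=
  norm_ev_le (intS_cross hF) (norm_pair_lt hx hy)

include hF in
/-- `‖(x +_F y) - x - y‖ ≤ ‖x‖ ‖y‖`. -/
theorem quad {x y : R} (hx : ‖x‖ < 1) (hy : ‖y‖ < 1) :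
    ‖padd F x y - x - y‖ ≤ ‖x‖ * ‖y‖ := by
  rw [padd_eq hF hx hy]
  have : x + y + x * y * ev (cross F.toPowerSeries) ![x, y] - x - y
      = x * y * ev (cross F.toPowerSeries) ![x, y] := by ring
  rw [this, norm_mul, norm_mul]
  calc ‖x‖ * ‖y‖ * ‖ev (cross F.toPowerSeries) ![x, y]‖ ≤ ‖x‖ * ‖y‖ * 1 := by
        gcongr
        exact norm_ev_cross_le hF hx hy
    _ = ‖x‖ * ‖y‖ := mul_one _

include hF in
theorem padd_zero {x : R} (hx : ‖x‖ < 1) : padd F x 0 = x := by
  rw [padd_eq hF hx (by simp)]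
  simp

include hF in
theorem zero_padd {x : R} (hx : ‖x‖ < 1) : padd F 0 x = x := by
  rw [padd_eq hF (by simp) hx]
  simp

include hF in
theorem norm_padd_lt {x y : R} (hx : ‖x‖ < 1) (hy : ‖y‖ < 1) : ‖padd F x y‖ < 1 := by
  rw [padd_eq hF hx hy]
  refine (IsUltrametricDist.norm_add_le_max _ _).trans_lt (max_lt ?_ ?_)
  · exact (IsUltrametricDist.norm_add_le_max _ _).trans_lt (max_lt hx hy)
  · rw [norm_mul, norm_mul]
    calc ‖x‖ * ‖y‖ * ‖ev (cross F.toPowerSeries) ![x, y]‖ ≤ ‖x‖ * 1 * 1 :=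
          mul_le_mul (mul_le_mul le_rfl hy.le (norm_nonneg _) (norm_nonneg _))
            (norm_ev_cross_le hF hx hy) (norm_nonneg _) (by positivity)
      _ < 1 := by simpa using hx

include hF in
theorem padd_lip {a b a' b' : R} (ha : ‖a‖ < 1) (hb : ‖b‖ < 1) (ha' : ‖a'‖ < 1) (hb' : ‖b'‖ < 1) :
    ‖padd F a b - padd F a' b'‖ ≤ max ‖a - a'‖ ‖b - b'‖ :=
  (norm_ev_sub_ev_le hF (norm_pair_lt ha hb) (norm_pair_lt ha' hb')).trans (norm_pair_sub_le _ _ _ _)

theorem ord_one_law : Ord 1 F.toPowerSeries :=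
  Crest.Agent.Lib.LT.FormalIFT.ord_one_iff.mpr F.zero_constantCoeff

include hF in
/-- Associativity on points. -/
theorem padd_assoc {x y z : R} (hx : ‖x‖ < 1) (hy : ‖y‖ < 1) (hz : ‖z‖ < 1) :
    padd F (padd F x y) z = padd F x (padd F y z) := by
  have hv := norm_triple_lt hx hy hz
  have hXi : ∀ i : Fin 3, IntS (MvPowerSeries.X i : MvPowerSeries (Fin 3) R) := fun i => intS_X i
  have hXo : ∀ i : Fin 3, Ord 1 (MvPowerSeries.X i : MvPowerSeries (Fin 3) R) := fun i =>
    Crest.Agent.Lib.LT.FormalIFT.ord_one_iff.mpr (by simp)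
  -- inner evaluations
  have inner : ∀ i j : Fin 3, ev (F.toPowerSeries.subst
      ![(MvPowerSeries.X i : MvPowerSeries (Fin 3) R), MvPowerSeries.X j]) ![x, y, z]
      = padd F (![x, y, z] i) (![x, y, z] j) := by
    intro i j
    rw [padd, ev_subst hF (a := ![(MvPowerSeries.X i : MvPowerSeries (Fin 3) R), MvPowerSeries.X j])
      (fun s => by fin_cases s <;> simp [hXi]) (fun s => by fin_cases s <;> simp [hXo]) hv]
    congr 1
    funext s
    fin_cases s <;> simp [ev_X]
  have hI : ∀ i j : Fin 3, IntS (F.toPowerSeries.subst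
      ![(MvPowerSeries.X i : MvPowerSeries (Fin 3) R), MvPowerSeries.X j]) := by
    intro i j
    refine IntS.subst (Crest.Agent.Lib.LT.FormalIFT.hasSubst_of_ord
      (fun s => by fin_cases s <;> simp [hXo])) (fun s => by fin_cases s <;> simp [hXi]) hF
  have hO : ∀ i j : Fin 3, Ord 1 (F.toPowerSeries.subst
      ![(MvPowerSeries.X i : MvPowerSeries (Fin 3) R), MvPowerSeries.X j]) := by
    intro i j
    exact Crest.Agent.Lib.LT.FormalIFT.subst_ord (fun s => by fin_cases s <;> simp [hXo]) ord_one_law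
  have h : ev (F.toPowerSeries.subst ![F.toPowerSeries.subst
      ![(MvPowerSeries.X 0 : MvPowerSeries (Fin 3) R), MvPowerSeries.X 1], MvPowerSeries.X 2]) ![x, y, z]
      = ev (F.toPowerSeries.subst ![(MvPowerSeries.X 0 : MvPowerSeries (Fin 3) R), F.toPowerSeries.subst
      ![(MvPowerSeries.X 1 : MvPowerSeries (Fin 3) R), MvPowerSeries.X 2]]) ![x, y, z] :=
    congrArg (fun f => ev f ![x, y, z]) F.assoc
  rw [ev_subst hF (fun s => by fin_cases s <;> simp [hI, hXi])
    (fun s => by fin_cases s <;> simp [hO, hXo]) hv,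
    ev_subst hF (fun s => by fin_cases s <;> simp [hI, hXi])
    (fun s => by fin_cases s <;> simp [hO, hXo]) hv] at h
  have e1 : (fun i : Fin 2 => ev ((![F.toPowerSeries.subst
      ![(MvPowerSeries.X 0 : MvPowerSeries (Fin 3) R), MvPowerSeries.X 1], MvPowerSeries.X 2] : Fin 2 → _) i)
      ![x, y, z]) = ![padd F x y, z] := by
    funext s
    fin_cases s
    · simpa using inner 0 1
    · simp [ev_X]
  have e2 : (fun i : Fin 2 => ev ((![(MvPowerSeries.X 0 : MvPowerSeries (Fin 3) R), F.toPowerSeries.subst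
      ![(MvPowerSeries.X 1 : MvPowerSeries (Fin 3) R), MvPowerSeries.X 2]] : Fin 2 → _) i)
      ![x, y, z]) = ![x, padd F y z] := by
    funext s
    fin_cases s
    · simp [ev_X]
    · simpa using inner 1 2
  rw [e1, e2] at h
  exact h

include hF in
/-- Commutativity on points. -/
theorem padd_comm [F.IsComm] {x y : R} (hx : ‖x‖ < 1) (hy : ‖y‖ < 1) :
    padd F x y = padd F y x := by
  have hv := norm_pair_lt hx hy
  have hXi : ∀ i : Fin 2, IntS (MvPowerSeries.X i : MvPowerSeries (Fin 2) R) := fun i => intS_X i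
  have hXo : ∀ i : Fin 2, Ord 1 (MvPowerSeries.X i : MvPowerSeries (Fin 2) R) := fun i =>
    Crest.Agent.Lib.LT.FormalIFT.ord_one_iff.mpr (by simp)
  have h : ev F.toPowerSeries ![x, y] = ev (F.toPowerSeries.subst
      ![(MvPowerSeries.X 1 : MvPowerSeries (Fin 2) R), MvPowerSeries.X 0]) ![x, y] :=
    congrArg (fun f => ev f ![x, y]) (FormalGroup.IsComm.comm (F := F))
  rw [ev_subst hF (fun s => by fin_cases s <;> simp [hXi]) (fun s => by fin_cases s <;> simp [hXo]) hv] at h
  have e : (fun i : Fin 2 => ev ((![(MvPowerSeries.X 1 : MvPowerSeries (Fin 2) R), MvPowerSeries.X 0] : Fin 2 → _) i)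
      ![x, y]) = ![y, x] := by
    funext s
    fin_cases s <;> simp [ev_X]
  rw [e] at h
  exact h

include hF in
/-- Existence of inverses by a contraction. -/
theorem exists_padd_eq_zero {x : R} (hx : ‖x‖ < 1) : ∃ y : R, ‖y‖ < 1 ∧ padd F x y = 0 := by
  let c : R → R := fun y => ev (cross F.toPowerSeries) ![x, y]
  let T : R → R := fun y => -x - x * y * c y
  have hc1 : ∀ y, ‖y‖ < 1 → ‖c y‖ ≤ 1 := fun y hy => norm_ev_cross_le hF hx hy
  have hcl : ∀ y y', ‖y‖ < 1 → ‖y'‖ < 1 → ‖c y - c y'‖ ≤ ‖y - y'‖ := by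
    intro y y' hy hy'
    refine (norm_ev_sub_ev_le (intS_cross hF) (norm_pair_lt hx hy) (norm_pair_lt hx hy')).trans ?_
    refine (norm_pair_sub_le _ _ _ _).trans ?_
    simp
  have hT : ∀ y, ‖y‖ ≤ ‖x‖ → ‖T y‖ ≤ ‖x‖ := by
    intro y hy
    have hy1 : ‖y‖ < 1 := hy.trans_lt hx
    rw [show T y = -x + -(x * y * c y) by simp only [T]; ring]
    refine (IsUltrametricDist.norm_add_le_max _ _).trans (max_le (by simp) ?_)
    rw [norm_neg, norm_mul, norm_mul]
    calc ‖x‖ * ‖y‖ * ‖c y‖ ≤ ‖x‖ * 1 * 1 :=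
          mul_le_mul (mul_le_mul le_rfl hy1.le (norm_nonneg _) (norm_nonneg _))
            (hc1 y hy1) (norm_nonneg _) (by positivity)
      _ = ‖x‖ := by ring
  have hTl : ∀ y y', ‖y‖ < 1 → ‖y'‖ < 1 → ‖T y - T y'‖ ≤ ‖x‖ * ‖y - y'‖ := by
    intro y y' hy hy'
    have h1 : T y - T y' = x * ((y' - y) * c y' + y * (c y' - c y)) := by
      simp only [T]; ring
    rw [h1, norm_mul]
    refine mul_le_mul_of_nonneg_left ?_ (norm_nonneg _)
    refine (IsUltrametricDist.norm_add_le_max _ _).trans (max_le ?_ ?_)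
    · rw [norm_mul, norm_sub_rev]
      calc ‖y - y'‖ * ‖c y'‖ ≤ ‖y - y'‖ * 1 := by
            gcongr; exact hc1 y' hy'
        _ = ‖y - y'‖ := mul_one _
    · rw [norm_mul]
      calc ‖y‖ * ‖c y' - c y‖ ≤ 1 * ‖y' - y‖ :=
            mul_le_mul hy.le (hcl y' y hy' hy) (norm_nonneg _) zero_le_one
        _ = ‖y - y'‖ := by rw [one_mul, norm_sub_rev]
  let u : ℕ → R := fun n => T^[n] 0
  have hu : ∀ n, ‖u n‖ ≤ ‖x‖ := by
    intro n
    induction n with
    | zero => simp [u]
    | succ n ih =>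
      simp only [u, Function.iterate_succ_apply']
      exact hT _ ih
  have hu1 : ∀ n, ‖u n‖ < 1 := fun n => (hu n).trans_lt hx
  have hus : ∀ n, u (n + 1) = T (u n) := by
    intro n
    simp only [u, Function.iterate_succ_apply']
  have hstep : ∀ n, ‖u (n + 1) - u n‖ ≤ ‖x‖ ^ (n + 1) := by
    intro n
    induction n with
    | zero =>
      simp only [hus, u, Function.iterate_zero, id_eq, zero_add, pow_one, sub_zero]
      exact hT 0 (by simp)
    | succ n ih =>
      have e : u (n + 1 + 1) - u (n + 1) = T (u (n + 1)) - T (u n) := by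
        rw [← hus (n + 1), ← hus n]
      rw [e]
      refine (hTl _ _ (hu1 _) (hu1 _)).trans ?_
      rw [pow_succ' _ (n + 1)]
      exact mul_le_mul_of_nonneg_left ih (norm_nonneg _)
  have htend : Tendsto (fun n : ℕ => ‖x‖ ^ (n + 1)) atTop (𝓝 0) :=
    (tendsto_pow_atTop_nhds_zero_of_lt_one (norm_nonneg _) hx).comp (tendsto_add_atTop_nat 1)
  have hcau : CauchySeq u := by
    apply NonarchimedeanAddGroup.cauchySeq_of_tendsto_sub_nhds_zero
    rw [tendsto_zero_iff_norm_tendsto_zero]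
    exact squeeze_zero (fun _ => norm_nonneg _) hstep htend
  obtain ⟨y, hy⟩ := cauchySeq_tendsto_of_complete hcau
  have hyx : ‖y‖ ≤ ‖x‖ := le_of_tendsto hy.norm (Eventually.of_forall hu)
  have hy1 : ‖y‖ < 1 := hyx.trans_lt hx
  -- `y` is a fixed point
  have hfix : T y = y := by
    have h1 : Tendsto (fun n => u (n + 1)) atTop (𝓝 y) := hy.comp (tendsto_add_atTop_nat 1)
    have h2 : Tendsto (fun n => T (u n)) atTop (𝓝 (T y)) := by
      rw [← tendsto_sub_nhds_zero_iff, tendsto_zero_iff_norm_tendsto_zero]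
      have h3 := tendsto_zero_iff_norm_tendsto_zero.mp (tendsto_sub_nhds_zero_iff.mpr hy)
      have h4 : Tendsto (fun n => ‖x‖ * ‖u n - y‖) atTop (𝓝 0) := by simpa using h3.const_mul ‖x‖
      exact squeeze_zero (fun _ => norm_nonneg _) (fun n => hTl _ _ (hu1 n) hy1) h4
    have h5 : (fun n => u (n + 1)) = fun n => T (u n) := funext hus
    rw [h5] at h1
    exact tendsto_nhds_unique h2 h1
  refine ⟨y, hy1, ?_⟩
  rw [padd_eq hF hx hy1]
  have : y = -x - x * y * c y := hfix.symm
  change x + y + x * y * c y = 0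
  linear_combination this

/-! ### The group -/

/-- Points of `F`: the open unit ball. -/
def FGPt (_F : FormalGroup R) : Type _ := {x : R // ‖x‖ < 1}

variable (F)

/-- Fact version of the integrality. -/
abbrev IntLaw : Prop := Fact (IntS F.toPowerSeries)

variable {F}

noncomputable instance FGPt.instAdd [hI : Fact (IntS F.toPowerSeries)] : Add (FGPt F) where
  add a b := ⟨padd F a.1 b.1, norm_padd_lt hI.out a.2 b.2⟩

noncomputable instance FGPt.instZero : Zero (FGPt F) where
  zero := ⟨0, by simp⟩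

noncomputable instance FGPt.instNeg [hI : Fact (IntS F.toPowerSeries)] : Neg (FGPt F) where
  neg a := ⟨(exists_padd_eq_zero hI.out a.2).choose, (exists_padd_eq_zero hI.out a.2).choose_spec.1⟩

noncomputable instance FGPt.instAddCommGroup [hI : Fact (IntS F.toPowerSeries)] [F.IsComm] :
    AddCommGroup (FGPt F) where
  add_assoc a b c := Subtype.ext (padd_assoc hI.out a.2 b.2 c.2)
  zero_add a := Subtype.ext (zero_padd hI.out a.2)
  add_zero a := Subtype.ext (padd_zero hI.out a.2)
  nsmul := nsmulRec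
  zsmul := zsmulRec
  neg_add_cancel a := by
    apply Subtype.ext
    change padd F (exists_padd_eq_zero hI.out a.2).choose a.1 = 0
    rw [padd_comm hI.out (exists_padd_eq_zero hI.out a.2).choose_spec.1 a.2]
    exact (exists_padd_eq_zero hI.out a.2).choose_spec.2
  add_comm a b := Subtype.ext (padd_comm hI.out a.2 b.2)

section group

variable [hI : Fact (IntS F.toPowerSeries)] [F.IsComm]

@[simp] theorem FGPt.val_add (a b : FGPt F) : (a + b).1 = padd F a.1 b.1 := rfl

@[simp] theorem FGPt.val_zero : (0 : FGPt F).1 = 0 := rfl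

variable (F) in
/-- The `BallGroup` structure. -/
noncomputable def ballGroup : Crest.Agent.Lib.LT.PsiGroup.BallGroup R (FGPt F) where
  c := Subtype.val
  inj := Subtype.val_injective
  range_eq := fun x => ⟨fun h => ⟨⟨x, h⟩, rfl⟩, fun ⟨g, hg⟩ => hg ▸ g.2⟩
  c_zero := rfl
  lip := fun a b a' b' => padd_lip hI.out a.2 b.2 a'.2 b'.2

@[simp] theorem ballGroup_c (a : FGPt F) : (ballGroup F).c a = a.1 := rfl

/-- `QuadLaw`. -/
theorem ballGroup_quad (a b : FGPt F) :
    ‖(ballGroup F).c (a + b) - (ballGroup F).c a - (ballGroup F).c b‖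
      ≤ ‖(ballGroup F).c a‖ * ‖(ballGroup F).c b‖ :=
  quad hI.out a.2 b.2

end group

/-! ### One variable and multiples -/

section one

open Crest.LubinTate

/-- The equivalence between exponents of `Unit` and `ℕ`. -/
noncomputable def unitEquiv : (Unit →₀ ℕ) ≃ ℕ where
  toFun m := m ()
  invFun n := Finsupp.single () n
  left_inv m := by
    ext
    simp
  right_inv n := by simp

/-- `ev` in one variable is `ev1`. -/
theorem ev_unit (f : PowerSeries R) (x : R) :
    ev (σ := Unit) f (fun _ => x) = Crest.Agent.LT.Chart.ev1 f x := by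
  rw [ev, Crest.Agent.LT.Chart.ev1, ← unitEquiv.tsum_eq]
  refine tsum_congr fun m => ?_
  have h1 : Finsupp.single () (m ()) = m := unitEquiv.left_inv m
  have h2 : mono (fun _ : Unit => x) m = x ^ (m ()) := by
    conv_lhs => rw [← h1]
    rw [mono_single]
  have h3 : PowerSeries.coeff (unitEquiv m) f = MvPowerSeries.coeff m f := by
    change MvPowerSeries.coeff (Finsupp.single () (m ())) f = _
    rw [h1]
  rw [h2, h3]
  rfl

variable (hF : IntS F.toPowerSeries)

theorem norm_unit (x : R) : ‖(fun _ : Unit => x)‖ = ‖x‖ := pi_norm_const x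

theorem ordOne_X : Ord 1 (PowerSeries.X : PowerSeries R) :=
  Crest.Agent.Lib.LT.FormalIFT.ord_one_iff.mpr PowerSeries.constantCoeff_X

theorem intS_X1 : IntS (PowerSeries.X : PowerSeries R) := intS_X ()

theorem ordOne_mulSeries (n : ℕ) : Ord 1 (mulSeries F n : MvPowerSeries Unit R) :=
  Crest.Agent.Lib.LT.FormalIFT.ord_one_iff.mpr (Crest.Agent.LT.constantCoeff_mulSeries F n)

include hF in
theorem intS_mulSeries (n : ℕ) : IntS (mulSeries F n : MvPowerSeries Unit R) := by
  induction n with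
  | zero => exact IntS.zero
  | succ n ih =>
    rw [Crest.Agent.LT.mulSeries_succ, Crest.Agent.LT.fadd]
    refine IntS.subst (Crest.Agent.Lib.LT.FormalIFT.hasSubst_of_ord fun s => ?_) (fun s => ?_) hF
    · fin_cases s
      · exact ordOne_mulSeries n
      · exact ordOne_X
    · fin_cases s
      · exact ih
      · exact intS_X1

include hF in
theorem int1_mulSeries (n : ℕ) : Crest.Agent.LT.Chart.Int1 (mulSeries F n) := fun j => by
  exact intS_mulSeries hF n (Finsupp.single () j)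

include hF in
/-- `[n + 1]` on points. -/
theorem ev1_mulSeries_succ (n : ℕ) {x : R} (hx : ‖x‖ < 1) :
    Crest.Agent.LT.Chart.ev1 (mulSeries F (n + 1)) x
      = padd F (Crest.Agent.LT.Chart.ev1 (mulSeries F n) x) x := by
  have hv : ‖(fun _ : Unit => x)‖ < 1 := by rw [norm_unit]; exact hx
  rw [← ev_unit, Crest.Agent.LT.mulSeries_succ, Crest.Agent.LT.fadd]
  rw [ev_subst hF (a := ![(mulSeries F n : MvPowerSeries Unit R), PowerSeries.X])
    (fun s => by
      fin_cases s
      · exact intS_mulSeries hF n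
      · exact intS_X1)
    (fun s => by
      fin_cases s
      · exact ordOne_mulSeries n
      · exact ordOne_X) hv]
  rw [padd, ← ev_unit]
  congr 1
  funext s
  fin_cases s
  · rfl
  · simp only [Fin.mk_one, Fin.isValue, Matrix.cons_val_one, Matrix.cons_val_fin_one]
    exact ev_X (σ := Unit) () _

variable [hI : Fact (IntS F.toPowerSeries)] [F.IsComm]

/-- `n • a` has coordinate `[n]_F (a)`. -/
theorem c_nsmul (n : ℕ) (a : FGPt F) :
    (n • a).1 = Crest.Agent.LT.Chart.ev1 (mulSeries F n) a.1 := by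
  induction n with
  | zero =>
    simp only [zero_nsmul, FGPt.val_zero]
    change (0 : R) = Crest.Agent.LT.Chart.ev1 (0 : PowerSeries R) a.1
    simp [Crest.Agent.LT.Chart.ev1]
  | succ n ih =>
    rw [succ_nsmul, FGPt.val_add, ev1_mulSeries_succ hI.out n a.2, ih]

end one

end Crest.Agent.Lib.LT.BallFG
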