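import Mathlib

/-!
# Local endomorphisms of complete local rings: a criterion for bijectivity

`bijective_of_map_maximalIdeal`: an endomorphism `Φ` of a complete Noetherian local ring, surjective
on the residue field, with `Φ(m)E = m`, is bijective.
-/

set_option autoImplicit false

open IsLocalRing

namespace Crest.Agent.LT

section

variable {E : Type*} [CommRing E]

/-- A surjective ring endomorphism of a Noetherian ring is injective. -/
theorem injective_of_surjective_ringHom [IsNoetherianRing E] (Φ : E →+* E)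
    (hs : Function.Surjective Φ) : Function.Injective Φ := by
  classical
  let f : ℕ →o Ideal E :=
    { toFun := fun k => RingHom.ker (Φ ^ k)
      monotone' := by
        refine monotone_nat_of_le_succ fun k x hx => ?_
        rw [RingHom.mem_ker] at hx ⊢
        rw [pow_succ', RingHom.mul_def, RingHom.comp_apply, hx, map_zero] }
  obtain ⟨k, hk⟩ := monotone_stabilizes_iff_noetherian.mpr (inferInstance : IsNoetherian E E) f
  have hspow : Function.Surjective (Φ ^ k) := by
    clear hk
    induction k with
    | zero => simpa using Function.surjective_id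
    | succ k ih =>
      rw [pow_succ', RingHom.coe_mul]
      exact hs.comp ih
  rw [injective_iff_map_eq_zero]
  intro x hx
  obtain ⟨y, rfl⟩ := hspow x
  have h1 : y ∈ f (k + 1) := by
    change y ∈ RingHom.ker (Φ ^ (k + 1))
    rw [RingHom.mem_ker, pow_succ', RingHom.mul_def, RingHom.comp_apply]
    exact hx
  rw [← hk (k + 1) (Nat.le_succ k)] at h1
  exact h1

variable [IsLocalRing E]

/-- One step of the successive approximation. -/
theorem exists_approx (Φ : E →+* E)
    (hres : ∀ y, ∃ x, y - Φ x ∈ maximalIdeal E)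
    (hmap : Ideal.map Φ (maximalIdeal E) = maximalIdeal E) (c : ℕ) (y : E)
    (hy : y ∈ maximalIdeal E ^ c) :
    ∃ x ∈ maximalIdeal E ^ c, y - Φ x ∈ maximalIdeal E ^ (c + 1) := by
  have h1 : Ideal.map Φ (maximalIdeal E ^ c) = maximalIdeal E ^ c := by
    rw [Ideal.map_pow, hmap]
  rw [← h1] at hy
  refine Submodule.span_induction (p := fun y _ => ∃ x ∈ maximalIdeal E ^ c,
    y - Φ x ∈ maximalIdeal E ^ (c + 1)) ?_ ?_ ?_ ?_ hy
  · rintro _ ⟨a, ha, rfl⟩
    exact ⟨a, ha, by simp⟩
  · exact ⟨0, Ideal.zero_mem _, by simp⟩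
  · rintro a b _ _ ⟨x, hx, hxa⟩ ⟨x', hx', hxb⟩
    refine ⟨x + x', Ideal.add_mem _ hx hx', ?_⟩
    have : a + b - Φ (x + x') = (a - Φ x) + (b - Φ x') := by rw [map_add]; ring
    rw [this]
    exact Ideal.add_mem _ hxa hxb
  · intro z a ha ⟨x, hx, hxa⟩
    obtain ⟨z₀, hz₀⟩ := hres z
    refine ⟨z₀ * x, Ideal.mul_mem_left _ _ hx, ?_⟩
    have ham : a ∈ maximalIdeal E ^ c := by
      have h2 : a ∈ Ideal.map Φ (maximalIdeal E ^ c) := ha
      rwa [h1] at h2
    have : z • a - Φ (z₀ * x) = (z - Φ z₀) * a + Φ z₀ * (a - Φ x) := by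
      rw [smul_eq_mul, map_mul]; ring
    rw [this]
    refine Ideal.add_mem _ ?_ (Ideal.mul_mem_left _ _ hxa)
    rw [pow_succ']
    exact Ideal.mul_mem_mul hz₀ ham

/-- An endomorphism of a complete local ring, surjective on the residue field, with `Φ(m)E = m`, is
surjective. -/
theorem surjective_of_map_maximalIdeal (hc : IsAdicComplete (maximalIdeal E) E) (Φ : E →+* E)
    (hres : ∀ y, ∃ x, y - Φ x ∈ maximalIdeal E)
    (hmap : Ideal.map Φ (maximalIdeal E) = maximalIdeal E) : Function.Surjective Φ := by
  classical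
  intro y
  set m := maximalIdeal E with hm
  have happ := exists_approx Φ hres hmap
  choose! pick hpick1 hpick2 using happ
  -- the sequence of errors
  let Y : ℕ → E := fun c => Nat.rec y (fun c yc => yc - Φ (pick c yc)) c
  have hY0 : Y 0 = y := rfl
  have hYs : ∀ c, Y (c + 1) = Y c - Φ (pick c (Y c)) := fun c => rfl
  have hYm : ∀ c, Y c ∈ m ^ c := by
    intro c
    induction c with
    | zero => simp [hY0]
    | succ c ih =>
      rw [hYs]
      exact hpick2 c (Y c) ih
  let x : ℕ → E := fun c => pick c (Y c)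
  have hxm : ∀ c, x c ∈ m ^ c := fun c => hpick1 c (Y c) (hYm c)
  let s : ℕ → E := fun c => ∑ i ∈ Finset.range c, x i
  have hs1 : ∀ a b, a ≤ b → s b - s a ∈ m ^ a := by
    intro a b hab
    have : s b - s a = ∑ i ∈ Finset.Ico a b, x i := by
      simp only [s]
      rw [Finset.sum_Ico_eq_sub _ hab]
    rw [this]
    refine Ideal.sum_mem _ fun i hi => ?_
    exact Ideal.pow_le_pow_right (Finset.mem_Ico.mp hi).1 (hxm i)
  obtain ⟨L, hL⟩ := hc.toIsPrecomplete.prec (f := s) (by
    intro a b hab
    rw [SModEq.sub_mem]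
    simp only [smul_eq_mul, Ideal.mul_top]
    have := hs1 a b hab
    have h2 := Ideal.neg_mem_iff _ |>.mpr this
    simpa using h2)
  have hY : ∀ c, y - Φ (s c) = Y c := by
    intro c
    induction c with
    | zero => simp [s, hY0]
    | succ c ih =>
      have h3 : s (c + 1) = s c + pick c (Y c) := by
        simp only [s, x]
        rw [Finset.sum_range_succ]
      rw [hYs, h3, map_add, ← ih]
      ring
  have hpowmap : ∀ c (a : E), a ∈ m ^ c → Φ a ∈ m ^ c := by
    intro c a ha
    have h1 : Ideal.map Φ (m ^ c) = m ^ c := by rw [Ideal.map_pow, hmap]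
    rw [← h1]
    exact Ideal.mem_map_of_mem _ ha
  refine ⟨L, ?_⟩
  have hlim : ∀ c, y - Φ L ∈ m ^ c := by
    intro c
    have h1 : s c - L ∈ m ^ c := by
      have := (SModEq.sub_mem.mp (hL c))
      simpa using this
    have h2 : y - Φ L = Y c + Φ (s c - L) := by
      rw [← hY c, map_sub]; ring
    rw [h2]
    exact Ideal.add_mem _ (hYm c) (hpowmap c _ h1)
  have h0 : y - Φ L = 0 := by
    have := hc.toIsHausdorff.haus (y - Φ L) (fun c => by
      rw [SModEq.zero]
      simpa using hlim c)
    exact this
  exact (sub_eq_zero.mp h0).symm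

/-- An endomorphism of a complete Noetherian local ring, surjective on the residue field, with
`Φ(m)E = m`, is bijective. -/
theorem bijective_of_map_maximalIdeal [IsNoetherianRing E]
    (hc : IsAdicComplete (maximalIdeal E) E) (Φ : E →+* E)
    (hres : ∀ y, ∃ x, y - Φ x ∈ maximalIdeal E)
    (hmap : Ideal.map Φ (maximalIdeal E) = maximalIdeal E) : Function.Bijective Φ := by
  have hs := surjective_of_map_maximalIdeal hc Φ hres hmap
  exact ⟨injective_of_surjective_ringHom Φ hs, hs⟩

end

end Crest.Agent.LT
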