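import Mathlib

/-!
# The Gross–Hopkins period map on the open polydisc: (1a), (1b), (1c) of the S0351 proof.

No formal group law appears here: only the polynomials `λ_m ∈ ℚ[u₁,…,u_{n-1}]`
(the coefficients of the logarithm of the standard law) given by the recursion
`p λ_{m} = ∑_{j=1}^{min(m,n)} λ_{m-j} u_j^{p^{m-j}}`, `λ_0 = 1`, `u_n = 1`.
-/

set_option autoImplicit false
set_option linter.unusedSectionVars false

namespace Crest.Agent.Lib.LT.Period

open MvPolynomial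

section Poly

variable (p n : ℕ)

/-- `u_j` for `1 ≤ j < n`; `u_n = 1`; `0` otherwise. -/
noncomputable def uu (j : ℕ) : MvPolynomial (Fin (n - 1)) ℚ :=
  if h : 1 ≤ j ∧ j < n then X ⟨j - 1, by omega⟩ else if j = n then 1 else 0

/-- The polynomials `λ_m`. -/
noncomputable def Lam : ℕ → MvPolynomial (Fin (n - 1)) ℚ
  | 0 => 1
  | m + 1 => C ((p : ℚ)⁻¹) * ∑ i : Fin n,
      if h : (i : ℕ) ≤ m then Lam (m - i) * (uu n (i + 1)) ^ (p ^ (m - i)) else 0
  decreasing_by omega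

@[simp] theorem Lam_zero : Lam p n 0 = 1 := by rw [Lam]

theorem Lam_succ (m : ℕ) : Lam p n (m + 1) = C ((p : ℚ)⁻¹) * ∑ i : Fin n,
      if (i : ℕ) ≤ m then Lam p n (m - i) * (uu n (i + 1)) ^ (p ^ (m - i)) else 0 := by
  rw [Lam]
  congr 1

/-- The substitution `u_i ↦ u_i ^ (p ^ j)`. -/
noncomputable def frob (j : ℕ) : MvPolynomial (Fin (n - 1)) ℚ →ₐ[ℚ] MvPolynomial (Fin (n - 1)) ℚ :=
  aeval (fun i => X i ^ (p ^ j))

variable [hp : Fact p.Prime]

theorem frob_uu (k j : ℕ) : frob p n k (uu n j) = (uu n j) ^ (p ^ k) := by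
  unfold uu
  split_ifs with h1 h2
  · simp [frob]
  · simp [frob]
  · simp only [map_zero]
    rw [zero_pow (pow_ne_zero _ hp.out.ne_zero)]

omit hp in
theorem frob_C (k : ℕ) (a : ℚ) : frob p n k (C a) = C a := by
  simp [frob]

theorem p_mul_Lam_succ (m : ℕ) : C (p : ℚ) * Lam p n (m + 1) = ∑ i : Fin n,
      if (i : ℕ) ≤ m then Lam p n (m - i) * (uu n (i + 1)) ^ (p ^ (m - i)) else 0 := by
  rw [Lam_succ, ← mul_assoc, ← C_mul]
  have : (p : ℚ) ≠ 0 := by exact_mod_cast hp.out.ne_zero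
  rw [mul_inv_cancel₀ this]
  simp

/-- The right recursion. -/
theorem p_mul_Lam_succ_right (m : ℕ) : C (p : ℚ) * Lam p n (m + 1) = ∑ i : Fin n,
      if (i : ℕ) ≤ m then uu n (i + 1) * frob p n (i + 1) (Lam p n (m - i)) else 0 := by
  induction m using Nat.strong_induction_on with
  | _ m ih =>
    -- multiply by `p`
    have hp0 : (C (p : ℚ) : MvPolynomial (Fin (n - 1)) ℚ) ≠ 0 := by
      have : (p : ℚ) ≠ 0 := by exact_mod_cast hp.out.ne_zero
      simpa using this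
    apply mul_left_cancel₀ hp0
    -- left side
    have hL : C (p : ℚ) * (C (p : ℚ) * Lam p n (m + 1)) = ∑ j : Fin n,
        if (j : ℕ) ≤ m then
          (C (p : ℚ) * Lam p n (m - j)) * (uu n (j + 1)) ^ (p ^ (m - j)) else 0 := by
      rw [p_mul_Lam_succ, Finset.mul_sum]
      apply Finset.sum_congr rfl
      intro j _
      split_ifs
      · ring
      · simp
    -- right side
    have hR : C (p : ℚ) * (∑ i : Fin n,
        if (i : ℕ) ≤ m then uu n (i + 1) * frob p n (i + 1) (Lam p n (m - i)) else 0) =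
        ∑ i : Fin n, if (i : ℕ) ≤ m then
          uu n (i + 1) * frob p n (i + 1) (C (p : ℚ) * Lam p n (m - i)) else 0 := by
      rw [Finset.mul_sum]
      apply Finset.sum_congr rfl
      intro i _
      split_ifs
      · rw [map_mul, frob_C]
        ring
      · simp
    rw [hL, hR]
    -- expansions of both sides into a double sum
    have hL' : ∀ j : Fin n, (if (j : ℕ) ≤ m then
          (C (p : ℚ) * Lam p n (m - j)) * (uu n (j + 1)) ^ (p ^ (m - j)) else 0) =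
        (if (j : ℕ) = m then C (p : ℚ) * uu n (j + 1) else 0) +
        ∑ i : Fin n, if (i : ℕ) + j + 1 ≤ m then
          uu n (i + 1) * frob p n (i + 1) (Lam p n (m - j - 1 - i)) *
            (uu n (j + 1)) ^ (p ^ (m - j)) else 0 := by
      intro j
      by_cases hjm : (j : ℕ) ≤ m
      · rw [if_pos hjm]
        by_cases hje : (j : ℕ) = m
        · rw [if_pos hje]
          have h0 : ∀ i : Fin n, ¬ ((i : ℕ) + j + 1 ≤ m) := by intro i; omega
          simp only [h0, if_false, Finset.sum_const_zero, add_zero]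
          simp [hje]
        · rw [if_neg hje, zero_add]
          have hm1 : m - j = (m - j - 1) + 1 := by omega
          rw [hm1, ih (m - j - 1) (by omega)]
          rw [Finset.sum_mul]
          apply Finset.sum_congr rfl
          intro i _
          have : ((i : ℕ) ≤ m - j - 1) ↔ ((i : ℕ) + j + 1 ≤ m) := by omega
          simp only [this]
          split_ifs <;> simp [← hm1]
      · rw [if_neg hjm]
        have h1 : ¬ ((j : ℕ) = m) := by omega
        rw [if_neg h1]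
        have h0 : ∀ i : Fin n, ¬ ((i : ℕ) + j + 1 ≤ m) := by intro i; omega
        simp [h0]
    have hR' : ∀ i : Fin n, (if (i : ℕ) ≤ m then
          uu n (i + 1) * frob p n (i + 1) (C (p : ℚ) * Lam p n (m - i)) else 0) =
        (if (i : ℕ) = m then C (p : ℚ) * uu n (i + 1) else 0) +
        ∑ j : Fin n, if (i : ℕ) + j + 1 ≤ m then
          uu n (i + 1) * frob p n (i + 1) (Lam p n (m - j - 1 - i)) *
            (uu n (j + 1)) ^ (p ^ (m - j)) else 0 := by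
      intro i
      by_cases him : (i : ℕ) ≤ m
      · rw [if_pos him]
        by_cases hie : (i : ℕ) = m
        · rw [if_pos hie]
          have h0 : ∀ j : Fin n, ¬ ((i : ℕ) + j + 1 ≤ m) := by intro j; omega
          simp only [h0, if_false, Finset.sum_const_zero, add_zero]
          have : m - (i : ℕ) = 0 := by omega
          rw [this, Lam_zero, mul_one, frob_C, mul_comm]
        · rw [if_neg hie, zero_add]
          have hm1 : m - i = (m - i - 1) + 1 := by omega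
          rw [hm1, p_mul_Lam_succ, map_sum, Finset.mul_sum]
          apply Finset.sum_congr rfl
          intro j _
          have : ((j : ℕ) ≤ m - i - 1) ↔ ((i : ℕ) + j + 1 ≤ m) := by omega
          simp only [this]
          split_ifs with hc
          · have e1 : m - i - 1 - j = m - j - 1 - i := by omega
            have e2 : p ^ ((i : ℕ) + 1) * p ^ (m - i - 1 - j) = p ^ (m - j) := by
              rw [← pow_add]; congr 1; omega
            rw [map_mul, map_pow, frob_uu, ← pow_mul, e2, e1, mul_assoc]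
          · simp
      · rw [if_neg him]
        have h1 : ¬ ((i : ℕ) = m) := by omega
        rw [if_neg h1]
        have h0 : ∀ j : Fin n, ¬ ((i : ℕ) + j + 1 ≤ m) := by intro j; omega
        simp [h0]
    simp_rw [hL', hR', Finset.sum_add_distrib]
    congr 1
    rw [Finset.sum_comm]

theorem pderiv_frob (i : Fin (n - 1)) (j : ℕ) (f : MvPolynomial (Fin (n - 1)) ℚ) :
    pderiv i (frob p n j f) =
      frob p n j (pderiv i f) * (C ((p : ℚ) ^ j) * X i ^ (p ^ j - 1)) := by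
  classical
  induction f using MvPolynomial.induction_on with
  | C a => simp
  | add f g hf hg => simp only [map_add, hf, hg, add_mul]
  | mul_X f k hf =>
    have hfX : frob p n j (X k) = X k ^ (p ^ j) := by simp [frob]
    rw [map_mul, hfX, pderiv_mul, hf, pderiv_mul, map_add, map_mul, map_mul, hfX, pderiv_X,
      pderiv_pow, pderiv_X]
    by_cases hik : i = k
    · subst hik
      simp only [Pi.single_eq_same, map_one, mul_one]
      have : (p ^ j : MvPolynomial (Fin (n - 1)) ℚ) = C ((p : ℚ) ^ j) := by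
        simp
      push_cast
      rw [this]
      ring
    · have hk : (Pi.single i (1 : MvPolynomial (Fin (n - 1)) ℚ) : Fin (n - 1) → _) k = 0 :=
        Pi.single_eq_of_ne (Ne.symm hik) _
      rw [hk]
      simp only [map_zero, mul_zero, add_zero]
      ring

theorem pderiv_uu (i : Fin (n - 1)) (j : ℕ) :
    pderiv i (uu n j) = if j = (i : ℕ) + 1 then 1 else 0 := by
  classical
  have hi := i.2
  unfold uu
  split_ifs with h1 h2 h3 h4
  · rw [pderiv_X]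
    have : (⟨j - 1, by omega⟩ : Fin (n - 1)) = i := Fin.ext (by simp; omega)
    rw [this]; simp
  · rw [pderiv_X]
    have : (⟨j - 1, by omega⟩ : Fin (n - 1)) ≠ i := by
      intro hc
      have := congrArg Fin.val hc
      simp at this
      omega
    rw [Pi.single_apply, if_neg this]
  · omega
  · simp
  · omega
  · simp

/-- The derivative of the right recursion. -/
theorem p_mul_pderiv_Lam_succ (i : Fin (n - 1)) (m : ℕ) :
    C (p : ℚ) * pderiv i (Lam p n (m + 1)) = ∑ j : Fin n,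
      if (j : ℕ) ≤ m then
        (if (j : ℕ) = i then frob p n (j + 1) (Lam p n (m - j)) else 0) +
        uu n (j + 1) * (frob p n (j + 1) (pderiv i (Lam p n (m - j))) *
          (C ((p : ℚ) ^ ((j : ℕ) + 1)) * X i ^ (p ^ ((j : ℕ) + 1) - 1)))
      else 0 := by
  have h := congrArg (pderiv i) (p_mul_Lam_succ_right p n m)
  rw [pderiv_C_mul, map_sum] at h
  rw [h]
  apply Finset.sum_congr rfl
  intro j _
  by_cases h1 : (j : ℕ) ≤ m
  · rw [if_pos h1, if_pos h1, pderiv_mul, pderiv_frob, pderiv_uu]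
    by_cases h2 : (j : ℕ) = i
    · rw [if_pos (by omega), if_pos h2, one_mul]
    · rw [if_neg (by omega), if_neg h2, zero_mul]
  · rw [if_neg h1, if_neg h1, map_zero]

end Poly

section GaussBound

variable {K : Type*} [NormedField K] [IsUltrametricDist K]
variable {σ : Type*}

/-- Gauss bound at radius `ρ` on `K[δ]`. -/
def GB (ρ B : ℝ) (f : MvPolynomial σ K) : Prop :=
  ∀ β : σ →₀ ℕ, ‖coeff β f‖ * ρ ^ (Finsupp.degree β) ≤ B

variable {ρ B B' : ℝ} {f g : MvPolynomial σ K}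

theorem GB.mono (h : GB ρ B f) (hB : B ≤ B') : GB ρ B' f := fun β => (h β).trans hB

theorem GB.nonneg (hρ : 0 ≤ ρ) (h : GB ρ B f) : 0 ≤ B := by
  have := h 0
  simp only [map_zero, pow_zero, mul_one] at this
  exact (norm_nonneg _).trans this

theorem GB.add (hρ : 0 ≤ ρ) (hf : GB ρ B f) (hg : GB ρ B g) : GB ρ B (f + g) := by
  intro β
  rw [coeff_add]
  have h1 := IsUltrametricDist.norm_add_le_max (coeff β f) (coeff β g)
  have hp : 0 ≤ ρ ^ (Finsupp.degree β) := by positivity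
  calc ‖coeff β f + coeff β g‖ * ρ ^ (Finsupp.degree β)
      ≤ max ‖coeff β f‖ ‖coeff β g‖ * ρ ^ (Finsupp.degree β) :=
        mul_le_mul_of_nonneg_right h1 hp
    _ ≤ B := by
        rcases max_cases ‖coeff β f‖ ‖coeff β g‖ with ⟨h, _⟩ | ⟨h, _⟩ <;> rw [h]
        · exact hf β
        · exact hg β

theorem GB.neg (hf : GB ρ B f) : GB ρ B (-f) := by
  intro β
  simpa [coeff_neg] using hf β

theorem GB.sub (hρ : 0 ≤ ρ) (hf : GB ρ B f) (hg : GB ρ B g) : GB ρ B (f - g) := by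
  rw [sub_eq_add_neg]
  exact hf.add hρ hg.neg

theorem GB.zero (hB : 0 ≤ B) : GB ρ B (0 : MvPolynomial σ K) := by
  intro β
  simpa using hB

theorem GB.sum {ι : Type*} (hρ : 0 ≤ ρ) (hB : 0 ≤ B) (s : Finset ι)
    (F : ι → MvPolynomial σ K) (hF : ∀ i ∈ s, GB ρ B (F i)) : GB ρ B (∑ i ∈ s, F i) := by
  classical
  induction s using Finset.induction_on with
  | empty => simpa using GB.zero hB
  | insert a s ha ih =>
    rw [Finset.sum_insert ha]
    exact (hF a (Finset.mem_insert_self _ _)).add hρ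
      (ih (fun i hi => hF i (Finset.mem_insert_of_mem hi)))

theorem GB.mul (hρ : 0 ≤ ρ) (hB : 0 ≤ B) (hB' : 0 ≤ B') (hf : GB ρ B f) (hg : GB ρ B' g) :
    GB ρ (B * B') (f * g) := by
  classical
  intro β
  rw [coeff_mul]
  have hp : 0 ≤ ρ ^ (Finsupp.degree β) := by positivity
  by_cases hpos : ρ ^ (Finsupp.degree β) = 0
  · rw [hpos, mul_zero]; positivity
  have hpp : 0 < ρ ^ (Finsupp.degree β) := lt_of_le_of_ne hp (Ne.symm hpos)
  rw [← le_div_iff₀ hpp]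
  apply IsUltrametricDist.norm_sum_le_of_forall_le_of_nonneg (by positivity)
  rintro ⟨a, b⟩ hab
  have hab' : a + b = β := by simpa using hab
  have hdeg : Finsupp.degree β = Finsupp.degree a + Finsupp.degree b := by
    rw [← hab', map_add]
  rw [le_div_iff₀ hpp, hdeg, pow_add, norm_mul]
  simp only
  calc ‖coeff a f‖ * ‖coeff b g‖ * (ρ ^ Finsupp.degree a * ρ ^ Finsupp.degree b)
      = (‖coeff a f‖ * ρ ^ Finsupp.degree a) * (‖coeff b g‖ * ρ ^ Finsupp.degree b) := by ring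
    _ ≤ B * B' := mul_le_mul (hf a) (hg b) (by positivity) hB

theorem GB.C (a : K) (hρ : 0 ≤ ρ) : GB ρ ‖a‖ (C a : MvPolynomial σ K) := by
  classical
  intro β
  rw [coeff_C]
  split_ifs with h
  · subst h; simp
  · simp

theorem GB.one (hρ : 0 ≤ ρ) : GB ρ 1 (1 : MvPolynomial σ K) := by
  have := GB.C (σ := σ) (1 : K) hρ
  simpa using this

theorem GB.X (i : σ) (hρ : 0 ≤ ρ) : GB ρ ρ (X i : MvPolynomial σ K) := by
  classical
  intro β
  rw [coeff_X]
  split_ifs with h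
  · subst h; simp
  · simpa using hρ

theorem GB.pow (hρ : 0 ≤ ρ) (hB : 0 ≤ B) (hf : GB ρ B f) (k : ℕ) : GB ρ (B ^ k) (f ^ k) := by
  induction k with
  | zero => simpa using GB.one hρ
  | succ k ih =>
    rw [pow_succ, pow_succ]
    exact ih.mul hρ (by positivity) hB hf

theorem GB.C_mul (a : K) (hρ : 0 ≤ ρ) (hB : 0 ≤ B) (hf : GB ρ B f) :
    GB ρ (‖a‖ * B) (MvPolynomial.C a * f) :=
  (GB.C a hρ).mul hρ (norm_nonneg _) hB hf

theorem GB.of_C_mul {a : K} (ha : a ≠ 0) (hf : GB ρ B (MvPolynomial.C a * f)) :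
    GB ρ (‖a‖⁻¹ * B) f := by
  intro β
  have := hf β
  rw [coeff_C_mul, norm_mul, mul_assoc] at this
  have hane : 0 < ‖a‖ := norm_pos_iff.mpr ha
  rw [inv_mul_eq_div, le_div_iff₀ hane]
  linarith [this]

/-- A Gauss bound bounds a coefficient. -/
theorem GB.coeff_le (hρ : 0 < ρ) (hf : GB ρ B f) (β : σ →₀ ℕ) :
    ‖coeff β f‖ ≤ B / ρ ^ (Finsupp.degree β) := by
  rw [le_div_iff₀ (by positivity)]
  exact hf β

end GaussBound

section Eps

/-- The super-exponentially small error term. -/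
noncomputable def eps (π ρ : ℝ) (p n M : ℕ) : ℝ := (π⁻¹) ^ M * ρ ^ (p ^ (M + 1 - n))

theorem eps_nonneg {π ρ : ℝ} (hπ0 : 0 < π) (hρ0 : 0 ≤ ρ) (p n M : ℕ) : 0 ≤ eps π ρ p n M := by
  unfold eps; positivity

theorem exists_eventually_pow_ge (L n : ℕ) :
    ∀ᶠ k : ℕ in Filter.atTop, L * (k + n) ≤ 2 ^ k := by
  have h1 := tendsto_pow_const_div_const_pow_of_one_lt 1 (r := (2 : ℝ)) (by norm_num)
  have h0 := tendsto_pow_const_div_const_pow_of_one_lt 0 (r := (2 : ℝ)) (by norm_num)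
  have h2 := (h1.const_mul (L : ℝ)).add (h0.const_mul ((L : ℝ) * n))
  simp only [mul_zero, add_zero] at h2
  have h3 : ∀ᶠ k : ℕ in Filter.atTop, (L : ℝ) * ((k : ℝ) ^ 1 / (2 : ℝ) ^ k) +
      (L : ℝ) * n * ((k : ℝ) ^ 0 / (2 : ℝ) ^ k) < 1 :=
    h2.eventually (gt_mem_nhds (by norm_num))
  filter_upwards [h3] with k hk
  have hpos : (0 : ℝ) < 2 ^ k := by positivity
  have : (L : ℝ) * ((k : ℝ) ^ 1 / (2 : ℝ) ^ k) + (L : ℝ) * n * ((k : ℝ) ^ 0 / (2 : ℝ) ^ k)
      = ((L : ℝ) * (k + n)) / 2 ^ k := by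
    field_simp
  rw [this, div_lt_one hpos] at hk
  have h' : ((L * (k + n) : ℕ) : ℝ) ≤ ((2 ^ k : ℕ) : ℝ) := by
    push_cast
    exact hk.le
  exact_mod_cast h'

theorem tendsto_eps {π ρ : ℝ} (hπ0 : 0 < π) (hπ1 : π ≤ 1) (hρ0 : 0 ≤ ρ) (hρ1 : ρ < 1)
    {p : ℕ} (hp2 : 2 ≤ p) (n : ℕ) :
    Filter.Tendsto (eps π ρ p n) Filter.atTop (nhds 0) := by
  set t := π⁻¹ with ht
  have ht1 : 1 ≤ t := by
    rw [ht]; exact (one_le_inv₀ hπ0).mpr hπ1
  have h1 : Filter.Tendsto (fun L : ℕ => ρ ^ L) Filter.atTop (nhds 0) :=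
    tendsto_pow_atTop_nhds_zero_of_lt_one hρ0 hρ1
  have htpos : (0 : ℝ) < 1 / (2 * t) := by positivity
  obtain ⟨L, hL⟩ := (h1.eventually (gt_mem_nhds htpos)).exists
  have hst : t * ρ ^ L ≤ 1 / 2 := by
    have : ρ ^ L * (2 * t) < 1 := by
      rwa [lt_div_iff₀ (by positivity)] at hL
    nlinarith
  have hgeom : Filter.Tendsto (fun M : ℕ => ((1 : ℝ) / 2) ^ M) Filter.atTop (nhds 0) :=
    tendsto_pow_atTop_nhds_zero_of_lt_one (by norm_num) (by norm_num)
  refine squeeze_zero' (Filter.Eventually.of_forall (fun M => eps_nonneg hπ0 hρ0 p n M)) ?_ hgeom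
  -- eventually `L * M ≤ p ^ (M + 1 - n)`
  have hev := exists_eventually_pow_ge L n
  obtain ⟨k0, hk0⟩ := Filter.eventually_atTop.mp hev
  filter_upwards [Filter.eventually_ge_atTop (k0 + n)] with M hM
  set k := M + 1 - n with hk
  have hk1 : k0 ≤ k := by omega
  have hk2 : L * M ≤ p ^ k := by
    calc L * M ≤ L * (k + n) := Nat.mul_le_mul_left _ (by omega)
      _ ≤ 2 ^ k := hk0 k hk1
      _ ≤ p ^ k := Nat.pow_le_pow_left hp2 k
  unfold eps
  calc t ^ M * ρ ^ p ^ (M + 1 - n) ≤ t ^ M * ρ ^ (L * M) := by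
        apply mul_le_mul_of_nonneg_left _ (by positivity)
        exact pow_le_pow_of_le_one hρ0 hρ1.le hk2
    _ = (t * ρ ^ L) ^ M := by rw [mul_pow, pow_mul]
    _ ≤ (1 / 2) ^ M := pow_le_pow_left₀ (by positivity) hst M

end Eps

section Analysis

variable {K : Type*} [NormedField K] [IsUltrametricDist K] [CharZero K]
variable {p n : ℕ} [hp : Fact p.Prime]

/-- The Taylor map at `ξ`: `f ↦ f(ξ + δ) ∈ K[δ]`. -/
noncomputable def TT (ξ : Fin (n - 1) → K) :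
    MvPolynomial (Fin (n - 1)) ℚ →ₐ[ℚ] MvPolynomial (Fin (n - 1)) K :=
  aeval (fun i => C (ξ i) + X i)

theorem TT_C (ξ : Fin (n - 1) → K) (a : ℚ) : TT ξ (C a) = C (algebraMap ℚ K a) := by
  simp [TT]

theorem TT_C_natCast (ξ : Fin (n - 1) → K) (a : ℕ) : TT ξ (C (a : ℚ)) = C (a : K) := by
  rw [TT_C, map_natCast]

variable {ρ : ℝ}

theorem GB_TT_uu (hρ0 : 0 ≤ ρ) (hρ1 : ρ ≤ 1) {ξ : Fin (n - 1) → K} (hξ : ∀ i, ‖ξ i‖ ≤ ρ)
    (j : ℕ) : GB ρ 1 (TT ξ (uu n j)) := by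
  unfold uu
  split_ifs with h1 h2
  · simp only [TT, aeval_X]
    exact (((GB.C _ hρ0).mono (hξ _)).add hρ0 (GB.X _ hρ0)).mono hρ1
  · simpa using GB.one hρ0
  · simpa using GB.zero (by norm_num)

theorem GB_TT_uu_lt (hρ0 : 0 ≤ ρ) {ξ : Fin (n - 1) → K} (hξ : ∀ i, ‖ξ i‖ ≤ ρ)
    (j : ℕ) (hj : j < n) : GB ρ ρ (TT ξ (uu n j)) := by
  unfold uu
  split_ifs with h1 h2
  · simp only [TT, aeval_X]
    exact (((GB.C _ hρ0).mono (hξ _)).add hρ0 (GB.X _ hρ0))
  · omega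
  · simpa using GB.zero hρ0

theorem TT_uu_self (hn : 1 ≤ n) (ξ : Fin (n - 1) → K) : TT ξ (uu n n) = 1 := by
  unfold uu
  rw [dif_neg (by omega), if_pos rfl, map_one]

theorem TL_rec (ξ : Fin (n - 1) → K) (m : ℕ) :
    C (p : K) * TT ξ (Lam p n (m + 1)) = ∑ i : Fin n,
      if (i : ℕ) ≤ m then TT ξ (Lam p n (m - i)) * (TT ξ (uu n (i + 1))) ^ (p ^ (m - i)) else 0 := by
  have := congrArg (TT ξ) (p_mul_Lam_succ p n m)
  rw [map_mul, TT_C_natCast, map_sum] at this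
  rw [this]
  apply Finset.sum_congr rfl
  intro i _
  split_ifs <;> simp

theorem GB_TL (hπ0 : 0 < ‖(p : K)‖) (hπ1 : ‖(p : K)‖ ≤ 1) (hρ0 : 0 ≤ ρ) (hρ1 : ρ ≤ 1)
    {ξ : Fin (n - 1) → K} (hξ : ∀ i, ‖ξ i‖ ≤ ρ) (m : ℕ) :
    GB ρ ((‖(p : K)‖⁻¹) ^ m) (TT ξ (Lam p n m)) := by
  have ht1 : 1 ≤ ‖(p : K)‖⁻¹ := (one_le_inv₀ hπ0).mpr hπ1
  induction m using Nat.strong_induction_on with
  | _ m ih =>
    rcases m with _ | m
    · simpa using GB.one hρ0
    · have hpne : (p : K) ≠ 0 := norm_pos_iff.mp hπ0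
      have h1 : GB ρ ((‖(p : K)‖⁻¹) ^ m) (C (p : K) * TT ξ (Lam p n (m + 1))) := by
        rw [TL_rec]
        apply GB.sum hρ0 (by positivity)
        intro i _
        split_ifs with h
        · have h2 := ih (m - i) (by omega)
          have h3 := (GB_TT_uu hρ0 hρ1 hξ ((i : ℕ) + 1)).pow hρ0 (by norm_num) (p ^ (m - i))
          have h4 := h2.mul hρ0 (by positivity) (by norm_num) h3
          refine h4.mono ?_
          rw [one_pow, mul_one]
          exact pow_le_pow_right₀ ht1 (by omega)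
        · exact GB.zero (by positivity)
      have h2 := GB.of_C_mul hpne h1
      rwa [← pow_succ'] at h2

/-- The main estimate: `p λ_M ≡ λ_{M-n}` up to a super-exponentially small error. -/
theorem GB_TL_diff (hn : 1 ≤ n) (hπ0 : 0 < ‖(p : K)‖) (hπ1 : ‖(p : K)‖ ≤ 1)
    (hρ0 : 0 ≤ ρ) (hρ1 : ρ ≤ 1)
    {ξ : Fin (n - 1) → K} (hξ : ∀ i, ‖ξ i‖ ≤ ρ) (M : ℕ) (hM : n ≤ M) :
    GB ρ (eps ‖(p : K)‖ ρ p n M) (C (p : K) * TT ξ (Lam p n M) - TT ξ (Lam p n (M - n))) := by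
  have ht1 : 1 ≤ ‖(p : K)‖⁻¹ := (one_le_inv₀ hπ0).mpr hπ1
  obtain ⟨m, rfl⟩ : ∃ m, M = m + 1 := ⟨M - 1, by omega⟩
  have hm : n - 1 ≤ m := by omega
  rw [TL_rec]
  -- isolate the last term
  set F : Fin n → MvPolynomial (Fin (n - 1)) K := fun i =>
    if (i : ℕ) ≤ m then TT ξ (Lam p n (m - i)) * (TT ξ (uu n (i + 1))) ^ (p ^ (m - i)) else 0 with hF
  let last : Fin n := ⟨n - 1, by omega⟩
  have hlast : F last = TT ξ (Lam p n (m + 1 - n)) := by
    simp only [hF, last]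
    rw [if_pos hm]
    have e1 : n - 1 + 1 = n := by omega
    have e2 : m - (n - 1) = m + 1 - n := by omega
    rw [e1, e2, TT_uu_self hn, one_pow, mul_one]
  have hsum : (∑ i, F i) - TT ξ (Lam p n (m + 1 - n)) = ∑ i ∈ Finset.univ.erase last, F i := by
    rw [← hlast, ← Finset.add_sum_erase _ _ (Finset.mem_univ last)]
    ring
  rw [hsum]
  apply GB.sum hρ0 (eps_nonneg hπ0 hρ0 _ _ _)
  intro i hi
  have hne : (i : ℕ) ≠ n - 1 := by
    intro h
    apply (Finset.mem_erase.mp hi).1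
    exact Fin.ext h
  have hi2 : (i : ℕ) + 1 < n := by
    have := i.2
    omega
  simp only [hF]
  rw [if_pos (by omega)]
  have h2 := GB_TL (n := n) hπ0 hπ1 hρ0 hρ1 hξ (m - i)
  have h3 := (GB_TT_uu_lt hρ0 hξ ((i : ℕ) + 1) hi2).pow hρ0 hρ0 (p ^ (m - i))
  have h4 := h2.mul hρ0 (by positivity) (by positivity) h3
  refine h4.mono ?_
  unfold eps
  apply mul_le_mul
  · exact pow_le_pow_right₀ ht1 (by omega)
  · apply pow_le_pow_of_le_one hρ0 hρ1
    apply Nat.pow_le_pow_right hp.out.pos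
    omega
  · positivity
  · positivity

theorem nonneg_index (hn : 1 ≤ n) {b : ℤ} {m : ℕ} (hm : b.natAbs ≤ m) : 0 ≤ b + (n : ℤ) * m := by
  have h1 : (1 : ℤ) ≤ n := by exact_mod_cast hn
  have h2 : (0 : ℤ) ≤ m := by positivity
  have h3 : (m : ℤ) ≤ n * m := by nlinarith
  have h4 : (b.natAbs : ℤ) ≤ m := by exact_mod_cast hm
  omega

theorem tendsto_toNat (hn : 1 ≤ n) (b : ℤ) :
    Filter.Tendsto (fun m : ℕ => (b + (n : ℤ) * ((m : ℤ) + 1)).toNat) Filter.atTop Filter.atTop := by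
  rw [Filter.tendsto_atTop_atTop]
  intro N
  refine ⟨N + b.natAbs, fun m hm => ?_⟩
  have h1 : (1 : ℤ) ≤ n := by exact_mod_cast hn
  have h2 : (0 : ℤ) ≤ (m : ℤ) + 1 := by positivity
  have h3 : (m : ℤ) + 1 ≤ n * ((m : ℤ) + 1) := by nlinarith
  have h4 : ((N + b.natAbs : ℕ) : ℤ) ≤ m := by exact_mod_cast hm
  push_cast at h4
  omega

variable (p n) in
/-- The approximating sequence `p^m λ_{b+nm}(ξ+δ) ∈ K[δ]`. -/
noncomputable def SS (ξ : Fin (n - 1) → K) (b : ℤ) (m : ℕ) : MvPolynomial (Fin (n - 1)) K :=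
  C ((p : K) ^ m) * TT ξ (Lam p n (b + (n : ℤ) * (m : ℤ)).toNat)

theorem GB_SS_diff (hn : 1 ≤ n) (hπ0 : 0 < ‖(p : K)‖) (hπ1 : ‖(p : K)‖ ≤ 1)
    (hρ0 : 0 ≤ ρ) (hρ1 : ρ ≤ 1)
    {ξ : Fin (n - 1) → K} (hξ : ∀ i, ‖ξ i‖ ≤ ρ) (b : ℤ) (m : ℕ) (hbm : 0 ≤ b + (n : ℤ) * m) :
    GB ρ (eps ‖(p : K)‖ ρ p n (b + (n : ℤ) * ((m : ℤ) + 1)).toNat)
      (SS p n ξ b (m + 1) - SS p n ξ b m) := by
  set M := (b + (n : ℤ) * ((m : ℤ) + 1)).toNat with hM
  have hM1 : (M : ℤ) = b + (n : ℤ) * ((m : ℤ) + 1) := by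
    rw [hM, Int.toNat_of_nonneg]
    have h1 : (0 : ℤ) ≤ n := by positivity
    nlinarith
  have hM2 : n ≤ M := by
    have : (n : ℤ) ≤ M := by rw [hM1]; nlinarith
    exact_mod_cast this
  have hM3 : (b + (n : ℤ) * (m : ℤ)).toNat = M - n := by
    have : ((M - n : ℕ) : ℤ) = b + (n : ℤ) * (m : ℤ) := by
      rw [Nat.cast_sub hM2, hM1]; ring
    rw [← this, Int.toNat_natCast]
  have h1 := GB_TL_diff (K := K) (p := p) hn hπ0 hπ1 hρ0 hρ1 hξ M hM2
  have h2 := h1.C_mul ((p : K) ^ m) hρ0 (eps_nonneg hπ0 hρ0 _ _ _)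
  have h3 : SS p n ξ b (m + 1) - SS p n ξ b m = C ((p : K) ^ m) *
      (C (p : K) * TT ξ (Lam p n M) - TT ξ (Lam p n (M - n))) := by
    unfold SS
    have e1 : (b + (n : ℤ) * (((m + 1 : ℕ) : ℤ))).toNat = M := by
      rw [hM]; push_cast; rfl
    rw [e1, hM3, pow_succ, map_mul]
    ring
  rw [h3]
  refine h2.mono ?_
  have h4 : ‖(p : K) ^ m‖ ≤ 1 := by
    rw [norm_pow]; exact pow_le_one₀ (norm_nonneg _) hπ1
  have h5 := eps_nonneg hπ0 hρ0 p n M
  nlinarith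

theorem exists_GB_SS (hn : 1 ≤ n) (hπ0 : 0 < ‖(p : K)‖) (hπ1 : ‖(p : K)‖ ≤ 1)
    (hρ0 : 0 ≤ ρ) (hρ1 : ρ < 1) (b : ℤ) :
    ∃ B : ℝ, 0 ≤ B ∧ ∀ ξ : Fin (n - 1) → K, (∀ i, ‖ξ i‖ ≤ ρ) → ∀ m, b.natAbs ≤ m →
      GB ρ B (SS p n ξ b m) := by
  have ht := tendsto_eps hπ0 hπ1 hρ0 hρ1 hp.out.two_le n
  obtain ⟨E, hE⟩ := ht.bddAbove_range
  have hE' : ∀ M, eps ‖(p : K)‖ ρ p n M ≤ E := fun M => hE (Set.mem_range_self M)
  have hE0 : 0 ≤ E := (eps_nonneg hπ0 hρ0 p n 0).trans (hE' 0)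
  set B0 := (‖(p : K)‖⁻¹) ^ (b + (n : ℤ) * (b.natAbs : ℤ)).toNat with hB0
  refine ⟨max B0 E, le_max_of_le_right hE0, fun ξ hξ m hm => ?_⟩
  induction m, hm using Nat.le_induction with
  | base =>
    have h1 := GB_TL (K := K) (p := p) (n := n) hπ0 hπ1 hρ0 hρ1.le hξ
      (b + (n : ℤ) * (b.natAbs : ℤ)).toNat
    have h2 := h1.C_mul ((p : K) ^ b.natAbs) hρ0 (by positivity)
    refine h2.mono ?_
    have h4 : ‖(p : K) ^ b.natAbs‖ ≤ 1 := by
      rw [norm_pow]; exact pow_le_one₀ (norm_nonneg _) hπ1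
    have h5 : 0 ≤ B0 := by positivity
    exact le_max_of_le_left (by nlinarith)
  | succ m hm ih =>
    have h1 := GB_SS_diff (K := K) (p := p) hn hπ0 hπ1 hρ0 hρ1.le hξ b m (nonneg_index hn hm)
    have h2 := (h1.mono ((hE' _).trans (le_max_right B0 E))).add hρ0 ih
    simpa using h2

theorem cauchySeq_coeff_SS (hn : 1 ≤ n) (hπ0 : 0 < ‖(p : K)‖) (hπ1 : ‖(p : K)‖ ≤ 1)
    (hρ0 : 0 < ρ) (hρ1 : ρ < 1) {ξ : Fin (n - 1) → K} (hξ : ∀ i, ‖ξ i‖ ≤ ρ) (b : ℤ)
    (β : Fin (n - 1) →₀ ℕ) :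
    CauchySeq (fun m => coeff β (SS p n ξ b m)) := by
  apply NonarchimedeanAddGroup.cauchySeq_of_tendsto_sub_nhds_zero
  have ht := (tendsto_eps hπ0 hπ1 hρ0.le hρ1 hp.out.two_le n).comp (tendsto_toNat hn b)
  have ht2 := ht.div_const (ρ ^ Finsupp.degree β)
  rw [zero_div] at ht2
  refine squeeze_zero_norm' ?_ ht2
  filter_upwards [Filter.eventually_ge_atTop b.natAbs] with m hm
  have h1 := GB_SS_diff (K := K) (p := p) hn hπ0 hπ1 hρ0.le hρ1.le hξ b m (nonneg_index hn hm)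
  have h2 := h1.coeff_le hρ0 β
  simpa [coeff_sub] using h2

variable (p n) in
/-- The limit coefficients: `pc ξ b β` is the coefficient of `δ^β` in the Taylor expansion at `ξ`
of the period `a_b`. -/
noncomputable def pc (ξ : Fin (n - 1) → K) (b : ℤ) (β : Fin (n - 1) →₀ ℕ) : K :=
  Filter.limUnder Filter.atTop (fun m => coeff β (SS p n ξ b m))

variable [CompleteSpace K]

theorem tendsto_pc (hn : 1 ≤ n) (hπ0 : 0 < ‖(p : K)‖) (hπ1 : ‖(p : K)‖ ≤ 1)
    (hρ0 : 0 < ρ) (hρ1 : ρ < 1) {ξ : Fin (n - 1) → K} (hξ : ∀ i, ‖ξ i‖ ≤ ρ) (b : ℤ)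
    (β : Fin (n - 1) →₀ ℕ) :
    Filter.Tendsto (fun m => coeff β (SS p n ξ b m)) Filter.atTop (nhds (pc p n ξ b β)) :=
  (cauchySeq_coeff_SS hn hπ0 hπ1 hρ0 hρ1 hξ b β).tendsto_limUnder

theorem exists_radius (w : Fin (n - 1) → K) (hw : ∀ i, ‖w i‖ < 1) :
    ∃ ρ : ℝ, 0 < ρ ∧ ρ < 1 ∧ ∀ i, ‖w i‖ ≤ ρ := by
  by_cases h : Nonempty (Fin (n - 1))
  · obtain ⟨i0, -, hi0⟩ := Finset.exists_max_image Finset.univ (fun i => ‖w i‖)
      (Finset.univ_nonempty)
    refine ⟨max (1 / 2) ‖w i0‖, by positivity, max_lt (by norm_num) (hw i0), fun i => ?_⟩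
    exact (hi0 i (Finset.mem_univ i)).trans (le_max_right _ _)
  · refine ⟨1 / 2, by norm_num, by norm_num, fun i => (h ⟨i⟩).elim⟩

theorem eval_TT (ξ δ : Fin (n - 1) → K) (f : MvPolynomial (Fin (n - 1)) ℚ) :
    eval δ (TT ξ f) = aeval (fun i => ξ i + δ i) f := by
  induction f using MvPolynomial.induction_on with
  | C a => simp [TT]
  | add f g hf hg => simp [map_add, hf, hg]
  | mul_X f i hf =>
    rw [map_mul, map_mul, map_mul, hf]
    congr 1
    simp [TT]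

theorem coeff_zero_TT (ξ : Fin (n - 1) → K) (f : MvPolynomial (Fin (n - 1)) ℚ) :
    coeff 0 (TT ξ f) = aeval ξ f := by
  have h := eval_TT ξ 0 f
  simp only [Pi.zero_apply, add_zero] at h
  rw [← h, MvPolynomial.eval_zero]
  rfl

variable (p n) in
/-- `λ_m(w)`. -/
noncomputable def lamAt (w : Fin (n - 1) → K) (m : ℕ) : K := aeval w (Lam p n m)

variable (p n) in
/-- The period `a_b(w) = lim p^m λ_{b+nm}(w)`, `b ∈ ℤ`. -/
noncomputable def perZ (w : Fin (n - 1) → K) (b : ℤ) : K := pc p n w b 0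

variable (p n) in
/-- `∂_i a_b (ξ)`. -/
noncomputable def parD (ξ : Fin (n - 1) → K) (i : Fin (n - 1)) (b : ℤ) : K :=
  pc p n ξ b (Finsupp.single i 1)

theorem coeff_zero_SS (w : Fin (n - 1) → K) (b : ℤ) (m : ℕ) :
    coeff 0 (SS p n w b m) = (p : K) ^ m * lamAt p n w (b + (n : ℤ) * (m : ℤ)).toNat := by
  unfold SS lamAt
  rw [coeff_C_mul, coeff_zero_TT]

theorem tendsto_perZ (hn : 1 ≤ n) (hπ0 : 0 < ‖(p : K)‖) (hπ1 : ‖(p : K)‖ ≤ 1)
    {w : Fin (n - 1) → K} (hw : ∀ i, ‖w i‖ < 1) (b : ℤ) :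
    Filter.Tendsto (fun m : ℕ => (p : K) ^ m * lamAt p n w (b + (n : ℤ) * (m : ℤ)).toNat)
      Filter.atTop (nhds (perZ p n w b)) := by
  obtain ⟨ρ, h0, h1, h2⟩ := exists_radius w hw
  have := tendsto_pc hn hπ0 hπ1 h0 h1 h2 b 0
  unfold perZ
  simpa only [coeff_zero_SS] using this

theorem pc_bound {ξ : Fin (n - 1) → K} {b : ℤ} {B : ℝ} (hn : 1 ≤ n) (hπ0 : 0 < ‖(p : K)‖)
    (hπ1 : ‖(p : K)‖ ≤ 1) (hρ0 : 0 < ρ) (hρ1 : ρ < 1) (hξ : ∀ i, ‖ξ i‖ ≤ ρ)
    (h : ∀ m, b.natAbs ≤ m → GB ρ B (SS p n ξ b m)) (β : Fin (n - 1) →₀ ℕ) :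
    ‖pc p n ξ b β‖ * ρ ^ (Finsupp.degree β) ≤ B := by
  have h1 := tendsto_pc hn hπ0 hπ1 hρ0 hρ1 hξ b β
  have h2 := h1.norm.mul_const (ρ ^ (Finsupp.degree β))
  refine le_of_tendsto h2 ?_
  filter_upwards [Filter.eventually_ge_atTop b.natAbs] with m hm
  exact h m hm β

theorem pc_add_n (hn : 1 ≤ n) (hπ0 : 0 < ‖(p : K)‖) (hπ1 : ‖(p : K)‖ ≤ 1)
    {ξ : Fin (n - 1) → K} (hξ : ∀ i, ‖ξ i‖ < 1) (b : ℤ) (β : Fin (n - 1) →₀ ℕ) :
    pc p n ξ (b + n) β = (p : K)⁻¹ * pc p n ξ b β := by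
  obtain ⟨ρ, h0, h1, h2⟩ := exists_radius ξ hξ
  have hpne : (p : K) ≠ 0 := norm_pos_iff.mp hπ0
  have l1 := tendsto_pc hn hπ0 hπ1 h0 h1 h2 (b + n) β
  have l2 := ((Filter.tendsto_add_atTop_iff_nat 1).mpr
    (tendsto_pc hn hπ0 hπ1 h0 h1 h2 b β)).const_mul ((p : K)⁻¹)
  refine tendsto_nhds_unique l1 (l2.congr fun m => ?_)
  unfold SS
  have e : (b + (n : ℤ) * (((m + 1 : ℕ) : ℤ))) = (b + n + (n : ℤ) * (m : ℤ)) := by
    push_cast; ring
  rw [e, coeff_C_mul, coeff_C_mul, ← mul_assoc, pow_succ']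
  congr 1
  field_simp

theorem perZ_add_n (hn : 1 ≤ n) (hπ0 : 0 < ‖(p : K)‖) (hπ1 : ‖(p : K)‖ ≤ 1)
    {ξ : Fin (n - 1) → K} (hξ : ∀ i, ‖ξ i‖ < 1) (b : ℤ) :
    perZ p n ξ (b + n) = (p : K)⁻¹ * perZ p n ξ b := pc_add_n hn hπ0 hπ1 hξ b 0

theorem perZ_sub_n (hn : 1 ≤ n) (hπ0 : 0 < ‖(p : K)‖) (hπ1 : ‖(p : K)‖ ≤ 1)
    {ξ : Fin (n - 1) → K} (hξ : ∀ i, ‖ξ i‖ < 1) (b : ℤ) :
    perZ p n ξ (b - n) = (p : K) * perZ p n ξ b := by
  have hpne : (p : K) ≠ 0 := norm_pos_iff.mp hπ0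
  have := perZ_add_n hn hπ0 hπ1 hξ (b - n)
  rw [sub_add_cancel] at this
  rw [this]
  field_simp

theorem parD_add_n (hn : 1 ≤ n) (hπ0 : 0 < ‖(p : K)‖) (hπ1 : ‖(p : K)‖ ≤ 1)
    {ξ : Fin (n - 1) → K} (hξ : ∀ i, ‖ξ i‖ < 1) (i : Fin (n - 1)) (b : ℤ) :
    parD p n ξ i (b + n) = (p : K)⁻¹ * parD p n ξ i b := pc_add_n hn hπ0 hπ1 hξ b _

theorem exists_degree_le_one {σ : Type*} (d : σ →₀ ℕ) (h : Finsupp.degree d < 2) :
    d = 0 ∨ ∃ j, d = Finsupp.single j 1 := by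
  by_cases h0 : Finsupp.degree d = 0
  · left; exact (Finsupp.degree_eq_zero_iff d).mp h0
  · right
    have h1 : Finsupp.degree d = 1 := by omega
    have : d ∈ Set.range (fun a : σ ↦ Finsupp.single a 1) := by
      rw [Finsupp.range_single_one]
      exact h1
    obtain ⟨j, hj⟩ := this
    exact ⟨j, hj.symm⟩

theorem GB_taylor {σ : Type*} [Fintype σ] {r B : ℝ} (hρ : 0 < ρ) (hr : 0 ≤ r) (hrρ : r ≤ ρ)
    {g : MvPolynomial σ K} (hg : GB ρ B g) (δ : σ → K) (hδ : ∀ i, ‖δ i‖ ≤ r) :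
    ‖eval δ g - coeff 0 g - ∑ i, coeff (Finsupp.single i 1) g * δ i‖ ≤ B * (r / ρ) ^ 2 := by
  classical
  have hB : 0 ≤ B := hg.nonneg hρ.le
  set h : MvPolynomial σ K := g - C (coeff 0 g) - ∑ i, C (coeff (Finsupp.single i 1) g) * X i
    with hh
  have he : eval δ h = eval δ g - coeff 0 g - ∑ i, coeff (Finsupp.single i 1) g * δ i := by
    simp [hh, map_sum]
  have hcoef : ∀ d : σ →₀ ℕ, coeff d h = if Finsupp.degree d < 2 then 0 else coeff d g := by
    intro d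
    have hsum : coeff d (∑ i, C (coeff (Finsupp.single i 1) g) * X i) =
        ∑ i, coeff (Finsupp.single i 1) g * (if Finsupp.single i 1 = d then (1 : K) else 0) := by
      rw [coeff_sum]
      apply Finset.sum_congr rfl
      intro i _
      rw [coeff_C_mul, coeff_X]
    rw [hh, coeff_sub, coeff_sub, hsum, coeff_C]
    by_cases h2 : Finsupp.degree d < 2
    · rw [if_pos h2]
      rcases exists_degree_le_one d h2 with rfl | ⟨j, rfl⟩
      · have : ∀ i : σ, ¬ (Finsupp.single i 1 = (0 : σ →₀ ℕ)) := fun i => by simp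
        simp [this]
      · have e1 : ¬ ((0 : σ →₀ ℕ) = Finsupp.single j 1) := by
          intro hc
          have := DFunLike.congr_fun hc j
          simp at this
        have e2 : ∀ i, (Finsupp.single i 1 = Finsupp.single j 1) ↔ i = j := by
          intro i
          constructor
          · intro hij
            by_contra hne
            have := DFunLike.congr_fun hij i
            simp [hne] at this
          · rintro rfl; rfl
        simp [e1, e2]
    · rw [if_neg h2]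
      have e1 : ¬ (0 = d) := by
        rintro rfl
        simp at h2
      have e2 : ∀ i, ¬ (Finsupp.single i 1 = d) := by
        rintro i rfl
        simp [Finsupp.degree_single] at h2
      simp [e1, e2]
  rw [← he, eval_eq']
  apply IsUltrametricDist.norm_sum_le_of_forall_le_of_nonneg (by positivity)
  intro d hd
  have hd2 : 2 ≤ Finsupp.degree d := by
    by_contra hlt
    have : coeff d h = 0 := by
      rw [hcoef, if_pos (by omega)]
    exact (mem_support_iff.mp hd) this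
  rw [hcoef, if_neg (by omega), norm_mul, norm_prod]
  have hq : (0 : ℝ) ≤ r / ρ := by positivity
  have hq1 : r / ρ ≤ 1 := (div_le_one hρ).mpr hrρ
  have h1 : ∏ i, ‖δ i ^ d i‖ ≤ r ^ Finsupp.degree d := by
    rw [Finsupp.degree_eq_sum, ← Finset.prod_pow_eq_pow_sum]
    apply Finset.prod_le_prod
    · intro i _; positivity
    · intro i _
      rw [norm_pow]
      exact pow_le_pow_left₀ (norm_nonneg _) (hδ i) _
  have h2 : r ^ Finsupp.degree d = ρ ^ Finsupp.degree d * (r / ρ) ^ Finsupp.degree d := by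
    rw [← mul_pow]
    congr 1
    field_simp
  calc ‖coeff d g‖ * ∏ i, ‖δ i ^ d i‖ ≤ ‖coeff d g‖ * r ^ Finsupp.degree d :=
        mul_le_mul_of_nonneg_left h1 (norm_nonneg _)
    _ = (‖coeff d g‖ * ρ ^ Finsupp.degree d) * (r / ρ) ^ Finsupp.degree d := by
        rw [h2]; ring
    _ ≤ B * (r / ρ) ^ 2 := by
        apply mul_le_mul (hg d) _ (by positivity) hB
        exact pow_le_pow_of_le_one hq hq1 hd2

theorem eval_SS (ξ δ : Fin (n - 1) → K) (b : ℤ) (m : ℕ) :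
    eval δ (SS p n ξ b m) =
      (p : K) ^ m * lamAt p n (fun i => ξ i + δ i) (b + (n : ℤ) * (m : ℤ)).toNat := by
  unfold SS lamAt
  rw [map_mul, eval_C, eval_TT]

/-- Taylor expansion of the periods, uniformly on the polydisc of radius `ρ`. -/
theorem taylor_perZ {ξ : Fin (n - 1) → K} {b : ℤ} {B r : ℝ} (hn : 1 ≤ n) (hπ0 : 0 < ‖(p : K)‖)
    (hπ1 : ‖(p : K)‖ ≤ 1) (hρ0 : 0 < ρ) (hρ1 : ρ < 1) (hξ : ∀ i, ‖ξ i‖ ≤ ρ)
    (h : ∀ m, b.natAbs ≤ m → GB ρ B (SS p n ξ b m))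
    (hr : 0 ≤ r) (hrρ : r ≤ ρ) (δ : Fin (n - 1) → K) (hδ : ∀ i, ‖δ i‖ ≤ r) :
    ‖perZ p n (fun i => ξ i + δ i) b - perZ p n ξ b - ∑ i, parD p n ξ i b * δ i‖
      ≤ B * (r / ρ) ^ 2 := by
  have hw : ∀ i, ‖ξ i + δ i‖ < 1 := by
    intro i
    have := IsUltrametricDist.norm_add_le_max (ξ i) (δ i)
    refine lt_of_le_of_lt (this.trans (max_le (hξ i) ((hδ i).trans hrρ))) hρ1
  have l1 := tendsto_perZ hn hπ0 hπ1 hw b
  have l2 := tendsto_pc hn hπ0 hπ1 hρ0 hρ1 hξ b 0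
  have l3 : Filter.Tendsto (fun m => ∑ i, coeff (Finsupp.single i 1) (SS p n ξ b m) * δ i)
      Filter.atTop (nhds (∑ i, parD p n ξ i b * δ i)) := by
    apply tendsto_finsetSum
    intro i _
    exact (tendsto_pc hn hπ0 hπ1 hρ0 hρ1 hξ b _).mul_const _
  refine le_of_tendsto (((l1.sub l2).sub l3).norm) ?_
  filter_upwards [Filter.eventually_ge_atTop b.natAbs] with m hm
  have := GB_taylor hρ0 hr hrρ (h m hm) δ hδ
  rw [eval_SS] at this
  exact this

variable (p) in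
/-- `w ↦ w^(p^j)`. -/
noncomputable def powW (w : Fin (n - 1) → K) (j : ℕ) : Fin (n - 1) → K := fun i => w i ^ (p ^ j)

theorem powW_zero (w : Fin (n - 1) → K) : powW p w 0 = w := by
  ext i; simp [powW]

theorem powW_powW (w : Fin (n - 1) → K) (s t : ℕ) : powW p (powW p w s) t = powW p w (s + t) := by
  ext i; simp [powW, ← pow_mul, pow_add]

theorem norm_powW_lt {w : Fin (n - 1) → K} (hw : ∀ i, ‖w i‖ < 1) (j : ℕ) (i : Fin (n - 1)) :
    ‖powW p w j i‖ < 1 := by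
  simp only [powW, norm_pow]
  exact pow_lt_one₀ (norm_nonneg _) (hw i) (pow_ne_zero _ hp.out.ne_zero)

theorem norm_powW_le {w : Fin (n - 1) → K} {ρ : ℝ} (hρ1 : ρ ≤ 1) (hw : ∀ i, ‖w i‖ ≤ ρ) (j : ℕ)
    (i : Fin (n - 1)) : ‖powW p w j i‖ ≤ ρ := by
  simp only [powW, norm_pow]
  have h0 : 0 ≤ ‖w i‖ := norm_nonneg _
  calc ‖w i‖ ^ (p ^ j) ≤ ‖w i‖ ^ 1 :=
        pow_le_pow_of_le_one h0 ((hw i).trans hρ1) (Nat.one_le_pow _ _ hp.out.pos)
    _ ≤ ρ := by simpa using hw i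

variable (n) in
/-- `u_j(w)`. -/
noncomputable def uuAt (w : Fin (n - 1) → K) (j : ℕ) : K := aeval w (uu n j)

theorem uuAt_self (hn : 1 ≤ n) (w : Fin (n - 1) → K) : uuAt n w n = 1 := by
  unfold uuAt uu
  rw [dif_neg (by omega), if_pos rfl, map_one]

theorem uuAt_zero (hn : 1 ≤ n) (w : Fin (n - 1) → K) : uuAt n w 0 = 0 := by
  unfold uuAt uu
  rw [dif_neg (by omega), if_neg (by omega), map_zero]

theorem norm_uuAt_le {w : Fin (n - 1) → K} (hw : ∀ i, ‖w i‖ ≤ 1) (j : ℕ) : ‖uuAt n w j‖ ≤ 1 := by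
  unfold uuAt uu
  split_ifs
  · simpa using hw _
  · simp
  · simp

theorem norm_uuAt_le_of_lt {w : Fin (n - 1) → K} {ρ : ℝ} (hρ0 : 0 ≤ ρ) (hw : ∀ i, ‖w i‖ ≤ ρ)
    (j : ℕ) (hj : j < n) : ‖uuAt n w j‖ ≤ ρ := by
  unfold uuAt uu
  split_ifs
  · simpa using hw _
  · omega
  · simpa using hρ0

theorem uuAt_powW (w : Fin (n - 1) → K) (s j : ℕ) : uuAt n (powW p w s) j = uuAt n w j ^ (p ^ s) := by
  unfold uuAt uu
  split_ifs
  · simp [powW]
  · simp
  · simp [zero_pow (pow_ne_zero s hp.out.ne_zero)]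

theorem aeval_frob (w : Fin (n - 1) → K) (j : ℕ) (f : MvPolynomial (Fin (n - 1)) ℚ) :
    aeval w (frob p n j f) = aeval (powW p w j) f := by
  induction f using MvPolynomial.induction_on with
  | C a => simp [frob]
  | add f g hf hg => simp [map_add, hf, hg]
  | mul_X f i hf =>
    rw [map_mul, map_mul, map_mul, hf]
    congr 1
    simp [frob, powW]

theorem lamAt_succ_right (w : Fin (n - 1) → K) (m : ℕ) :
    (p : K) * lamAt p n w (m + 1) = ∑ i : Fin n,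
      if (i : ℕ) ≤ m then uuAt n w (i + 1) * lamAt p n (powW p w (i + 1)) (m - i) else 0 := by
  have := congrArg (aeval w) (p_mul_Lam_succ_right p n m)
  rw [map_mul, map_sum] at this
  simp only [map_natCast] at this
  unfold lamAt
  rw [this]
  apply Finset.sum_congr rfl
  intro i _
  split_ifs
  · rw [map_mul, aeval_frob]
    rfl
  · simp

theorem lamAt_succ_left (w : Fin (n - 1) → K) (m : ℕ) :
    (p : K) * lamAt p n w (m + 1) = ∑ i : Fin n,
      if (i : ℕ) ≤ m then lamAt p n w (m - i) * uuAt n w (i + 1) ^ (p ^ (m - i)) else 0 := by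
  have := congrArg (aeval w) (p_mul_Lam_succ p n m)
  rw [map_mul, map_sum] at this
  simp only [map_natCast] at this
  unfold lamAt
  rw [this]
  apply Finset.sum_congr rfl
  intro i _
  split_ifs
  · rw [map_mul, map_pow]
    rfl
  · simp

/-- The right recursion for the periods: `p a_b(w) = ∑_{j=1}^n u_j(w) a_{b-j}(w^{p^j})`. -/
theorem perZ_right (hn : 1 ≤ n) (hπ0 : 0 < ‖(p : K)‖) (hπ1 : ‖(p : K)‖ ≤ 1)
    {w : Fin (n - 1) → K} (hw : ∀ i, ‖w i‖ < 1) (b : ℤ) :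
    (p : K) * perZ p n w b =
      ∑ i : Fin n, uuAt n w (i + 1) * perZ p n (powW p w (i + 1)) (b - ((i : ℕ) + 1 : ℕ)) := by
  have l1 := (tendsto_perZ hn hπ0 hπ1 hw b).const_mul (p : K)
  have l2 : Filter.Tendsto (fun m : ℕ => ∑ i : Fin n, uuAt n w (i + 1) *
      ((p : K) ^ m * lamAt p n (powW p w (i + 1))
        ((b - ((i : ℕ) + 1 : ℕ)) + (n : ℤ) * (m : ℤ)).toNat)) Filter.atTop
      (nhds (∑ i : Fin n, uuAt n w (i + 1) *
        perZ p n (powW p w (i + 1)) (b - ((i : ℕ) + 1 : ℕ)))) := by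
    apply tendsto_finsetSum
    intro i _
    exact (tendsto_perZ hn hπ0 hπ1 (norm_powW_lt hw _) _).const_mul _
  refine tendsto_nhds_unique_of_eventuallyEq l1 l2 ?_
  filter_upwards [Filter.eventually_ge_atTop (b - n).natAbs] with m hm
  have h0 := nonneg_index hn hm
  obtain ⟨m', hm'⟩ : ∃ m' : ℕ, (b + (n : ℤ) * (m : ℤ)) = (m' : ℤ) + 1 := by
    refine ⟨(b + (n : ℤ) * (m : ℤ) - 1).toNat, ?_⟩
    have : (1 : ℤ) ≤ n := by exact_mod_cast hn
    rw [Int.toNat_of_nonneg (by linarith)]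
    ring
  have e1 : (b + (n : ℤ) * (m : ℤ)).toNat = m' + 1 := by
    rw [hm']; omega
  rw [e1, mul_left_comm, lamAt_succ_right, Finset.mul_sum]
  apply Finset.sum_congr rfl
  intro i _
  have hi := i.2
  have hi2 : (i : ℕ) ≤ m' := by
    have : (m' : ℤ) + 1 - n ≥ 0 := by linarith
    omega
  rw [if_pos hi2]
  have e2 : ((b - ((i : ℕ) + 1 : ℕ)) + (n : ℤ) * (m : ℤ)).toNat = m' - i := by
    have : ((b - ((i : ℕ) + 1 : ℕ)) + (n : ℤ) * (m : ℤ)) = ((m' - (i : ℕ) : ℕ) : ℤ) := by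
      rw [Nat.cast_sub hi2]
      push_cast
      linarith
    rw [this, Int.toNat_natCast]
  rw [e2]
  ring

/-- The columns `c_t(w)(b) = a_{b-t}(w^{p^t})`. -/
noncomputable def col (p n : ℕ) [Fact p.Prime] (w : Fin (n - 1) → K) (t : ℕ) (b : ℤ) : K :=
  perZ p n (powW p w t) (b - (t : ℤ))

/-- The matrix `M(w)`. -/
noncomputable def perMat (p n : ℕ) [Fact p.Prime] (w : Fin (n - 1) → K) : Matrix (Fin n) (Fin n) K :=
  fun b i => col p n w i (b : ℕ)

theorem col_shift (w : Fin (n - 1) → K) (j t : ℕ) (b : ℤ) :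
    col p n (powW p w j) t (b - (j : ℤ)) = col p n w (j + t) b := by
  unfold col
  rw [powW_powW]
  congr 1
  push_cast
  ring

theorem col_add_n (hn : 1 ≤ n) (hπ0 : 0 < ‖(p : K)‖) (hπ1 : ‖(p : K)‖ ≤ 1)
    {w : Fin (n - 1) → K} (hw : ∀ i, ‖w i‖ < 1) (t : ℕ) (b : ℤ) :
    col p n w t (b + n) = (p : K)⁻¹ * col p n w t b := by
  unfold col
  rw [← perZ_add_n hn hπ0 hπ1 (norm_powW_lt hw t)]
  congr 1
  ring

/-- `p c_t = ∑_{j=1}^{n} u_j(w^{p^t}) c_{t+j}`. -/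
theorem col_rec (hn : 1 ≤ n) (hπ0 : 0 < ‖(p : K)‖) (hπ1 : ‖(p : K)‖ ≤ 1)
    {w : Fin (n - 1) → K} (hw : ∀ i, ‖w i‖ < 1) (t : ℕ) (b : ℤ) :
    (p : K) * col p n w t b =
      ∑ i : Fin n, uuAt n (powW p w t) (i + 1) * col p n w (t + (i + 1)) b := by
  unfold col
  rw [perZ_right hn hπ0 hπ1 (norm_powW_lt hw t)]
  apply Finset.sum_congr rfl
  intro i _
  rw [powW_powW]
  congr 2
  push_cast
  ring

/-- `c_{t+n} = p c_t - ∑_{j=1}^{n-1} u_j(w^{p^t}) c_{t+j}` (as `u_0 = 0`, the sum may include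
`j = 0`). -/
theorem col_add_n_index (hn : 1 ≤ n) (hπ0 : 0 < ‖(p : K)‖) (hπ1 : ‖(p : K)‖ ≤ 1)
    {w : Fin (n - 1) → K} (hw : ∀ i, ‖w i‖ < 1) (t : ℕ) (b : ℤ) :
    col p n w (t + n) b =
      (p : K) * col p n w t b - ∑ i : Fin n, uuAt n (powW p w t) i * col p n w (t + i) b := by
  rw [col_rec hn hπ0 hπ1 hw t b]
  set f : ℕ → K := fun j => uuAt n (powW p w t) j * col p n w (t + j) b with hf
  have h1 : ∑ i : Fin n, uuAt n (powW p w t) (i + 1) * col p n w (t + (i + 1)) b =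
      ∑ i ∈ Finset.range n, f (i + 1) := by
    rw [← Fin.sum_univ_eq_sum_range (fun i => f (i + 1)) n]
  have h2 : ∑ i : Fin n, uuAt n (powW p w t) i * col p n w (t + i) b =
      ∑ i ∈ Finset.range n, f i := by
    rw [← Fin.sum_univ_eq_sum_range f n]
  rw [h1, h2]
  have h3 := Finset.sum_range_succ' f n
  have h4 := Finset.sum_range_succ f n
  have h5 : f 0 = 0 := by simp [hf, uuAt_zero hn]
  have h6 : f n = col p n w (t + n) b := by simp [hf, uuAt_self hn]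
  rw [h5, add_zero] at h3
  rw [h3] at h4
  rw [h4, h6]
  ring

/-- The cyclic shift on `Fin n`. -/
def rotE (n : ℕ) (hn : 1 ≤ n) : Fin n ≃ Fin n where
  toFun b := if h : (b : ℕ) = 0 then ⟨n - 1, by omega⟩ else ⟨b - 1, by omega⟩
  invFun i := if h : (i : ℕ) = n - 1 then ⟨0, by omega⟩ else ⟨i + 1, by omega⟩
  left_inv b := by
    have hb := b.2
    by_cases h : (b : ℕ) = 0
    · simp only [h, dite_true]
      apply Fin.ext
      simp [h]
    · simp only [h, dite_false]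
      have h2 : (b : ℕ) - 1 ≠ n - 1 := by omega
      simp only [h2, dite_false]
      apply Fin.ext
      simp only []
      omega
  right_inv i := by
    have hi := i.2
    by_cases h : (i : ℕ) = n - 1
    · simp only [h, dite_true]
      apply Fin.ext
      simp [h]
    · simp only [h, dite_false]
      have h2 : (i : ℕ) + 1 ≠ 0 := by omega
      simp only [h2, dite_false]
      apply Fin.ext
      simp only []
      omega

theorem rotE_zero (hn : 1 ≤ n) (b : Fin n) (h : (b : ℕ) = 0) : (rotE n hn b : ℕ) = n - 1 := by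
  simp [rotE, h]

theorem rotE_ne_zero (hn : 1 ≤ n) (b : Fin n) (h : (b : ℕ) ≠ 0) : (rotE n hn b : ℕ) = b - 1 := by
  simp [rotE, h]

/-- (1b): one step. -/
theorem det_perMat_step (hn : 1 ≤ n) (hπ0 : 0 < ‖(p : K)‖) (hπ1 : ‖(p : K)‖ ≤ 1)
    {w : Fin (n - 1) → K} (hw : ∀ i, ‖w i‖ < 1) :
    (perMat p n w).det = (perMat p n (powW p w 1)).det := by
  have hpne : (p : K) ≠ 0 := norm_pos_iff.mp hπ0
  let h0 : Fin n := ⟨0, by omega⟩
  let c : Fin n → K := fun i => (if i = h0 then (p : K) else 0) - uuAt n w i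
  let v0 : Fin n → K := fun b => col p n w n (b : ℕ)
  have hv0 : v0 = fun b => ∑ i, c i • perMat p n w b i := by
    funext b
    simp only [v0, c, perMat, smul_eq_mul, sub_mul, ite_mul, zero_mul]
    have h1 := col_add_n_index hn hπ0 hπ1 hw 0 ((b : ℕ) : ℤ)
    rw [powW_zero] at h1
    simp only [zero_add] at h1
    rw [h1, Finset.sum_sub_distrib, Finset.sum_ite_eq' Finset.univ h0]
    simp [h0]
  have hdet1 : ((perMat p n w).updateCol h0 v0).det = (p : K) * (perMat p n w).det := by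
    rw [hv0, Matrix.det_updateCol_sum]
    simp [c, uuAt_zero hn, h0]
  -- the rotated matrix
  let D := perMat p n (powW p w 1)
  let e := rotE n hn
  let N' := D.submatrix e e
  have hN' : N'.det = D.det := Matrix.det_submatrix_equiv_self e D
  have hcol : ∀ (b i : Fin n), ((perMat p n w).updateCol h0 v0) b i =
      (if (b : ℕ) = 0 then (p : K) else 1) * N' b i := by
    intro b i
    simp only [N', Matrix.submatrix_apply, D, perMat]
    rw [Matrix.updateCol_apply]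
    have hco : ∀ (t : ℕ) (x : ℤ), col p n (powW p w 1) t (x - 1) = col p n w (1 + t) x := by
      intro t x
      exact_mod_cast col_shift (p := p) (n := n) w 1 t x
    have he_col : ∃ t : ℕ, ((e i : Fin n) : ℕ) = t ∧
        ((i = h0 → 1 + t = n) ∧ (i ≠ h0 → 1 + t = (i : ℕ))) := by
      by_cases hi : (i : ℕ) = 0
      · refine ⟨n - 1, rotE_zero hn i hi, fun _ => by omega, fun hne => ?_⟩
        exact absurd (Fin.ext hi) hne
      · refine ⟨(i : ℕ) - 1, rotE_ne_zero hn i hi, fun he => ?_, fun _ => by omega⟩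
        exact absurd (by rw [he]) hi
    obtain ⟨t, ht, ht1, ht2⟩ := he_col
    have hM : ((e b : Fin n) : ℕ) = (if (b : ℕ) = 0 then n - 1 else (b : ℕ) - 1) := by
      split_ifs with hb
      · exact rotE_zero hn b hb
      · exact rotE_ne_zero hn b hb
    rw [ht]
    by_cases hb : (b : ℕ) = 0
    · -- row zero
      rw [if_pos hb]
      have hb2 : ((e b : Fin n) : ℕ) = n - 1 := by rw [hM, if_pos hb]
      rw [hb2]
      have hx : (((n - 1 : ℕ) : ℤ)) = ((n : ℤ)) - 1 := by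
        rw [Nat.cast_sub hn]; simp
      rw [hx, hco t (n : ℤ)]
      have hpadd := col_add_n hn hπ0 hπ1 hw (1 + t) (0 : ℤ)
      rw [zero_add] at hpadd
      rw [hpadd]
      have hb0 : ((b : ℕ) : ℤ) = 0 := by exact_mod_cast hb
      by_cases hi : i = h0
      · rw [if_pos hi]
        simp only [v0]
        rw [ht1 hi, hb0]
        field_simp
      · rw [if_neg hi]
        rw [ht2 hi]
        show col p n w (i : ℕ) ((b : ℕ) : ℤ) = _
        rw [hb0]
        field_simp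
    · rw [if_neg hb, one_mul]
      have hb2 : ((e b : Fin n) : ℕ) = (b : ℕ) - 1 := by rw [hM, if_neg hb]
      rw [hb2]
      have hx : (((b : ℕ) - 1 : ℕ) : ℤ) = ((b : ℕ) : ℤ) - 1 := by
        rw [Nat.cast_sub (by omega)]; simp
      rw [hx, hco t]
      by_cases hi : i = h0
      · rw [if_pos hi]
        simp only [v0]
        rw [ht1 hi]
      · rw [if_neg hi]
        rw [ht2 hi]
        rfl
  have hrow : ((perMat p n w).updateCol h0 v0) = N'.updateRow h0 ((p : K) • N' h0) := by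
    ext b i
    rw [hcol, Matrix.updateRow_apply]
    by_cases hb : b = h0
    · rw [if_pos hb, hb]
      simp [h0]
    · rw [if_neg hb]
      have : (b : ℕ) ≠ 0 := fun h => hb (Fin.ext h)
      rw [if_neg this, one_mul]
  have hdet2 : ((perMat p n w).updateCol h0 v0).det = (p : K) * D.det := by
    rw [hrow, Matrix.det_updateRow_smul, Matrix.updateRow_eq_self, hN']
  rw [hdet1] at hdet2
  exact mul_left_cancel₀ hpne hdet2

theorem det_perMat_iter (hn : 1 ≤ n) (hπ0 : 0 < ‖(p : K)‖) (hπ1 : ‖(p : K)‖ ≤ 1)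
    {w : Fin (n - 1) → K} (hw : ∀ i, ‖w i‖ < 1) (k : ℕ) :
    (perMat p n w).det = (perMat p n (powW p w k)).det := by
  induction k with
  | zero => rw [powW_zero]
  | succ k ih =>
    rw [ih, det_perMat_step hn hπ0 hπ1 (norm_powW_lt hw k), powW_powW]

theorem tendsto_perZ_powW (hn : 1 ≤ n) (hπ0 : 0 < ‖(p : K)‖) (hπ1 : ‖(p : K)‖ ≤ 1)
    {w : Fin (n - 1) → K} (hw : ∀ i, ‖w i‖ < 1) (t : ℤ) :
    Filter.Tendsto (fun k => perZ p n (powW p w k) t) Filter.atTop (nhds (perZ p n 0 t)) := by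
  obtain ⟨ρ, h0, h1, h2⟩ := exists_radius w hw
  obtain ⟨B, hB0, hB⟩ := exists_GB_SS (K := K) (p := p) (n := n) hn hπ0 hπ1 h0.le h1 t
  have hzero : ∀ i : Fin (n - 1), ‖(0 : Fin (n - 1) → K) i‖ ≤ ρ := fun i => by simpa using h0.le
  set r : ℕ → ℝ := fun k => ρ ^ (p ^ k) with hr
  have hr0 : Filter.Tendsto r Filter.atTop (nhds 0) :=
    (tendsto_pow_atTop_nhds_zero_of_lt_one h0.le h1).comp
      (tendsto_pow_atTop_atTop_of_one_lt hp.out.one_lt)
  have hrle : ∀ k, r k ≤ ρ := by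
    intro k
    calc ρ ^ (p ^ k) ≤ ρ ^ 1 := pow_le_pow_of_le_one h0.le h1.le (Nat.one_le_pow _ _ hp.out.pos)
      _ = ρ := pow_one ρ
  have hrnn : ∀ k, 0 ≤ r k := fun k => by simp only [hr]; positivity
  have hδ : ∀ k i, ‖powW p w k i‖ ≤ r k := by
    intro k i
    simp only [powW, norm_pow, hr]
    exact pow_le_pow_left₀ (norm_nonneg _) (h2 i) _
  have hT : ∀ k, ‖perZ p n (powW p w k) t - perZ p n 0 t -
      ∑ i, parD p n 0 i t * powW p w k i‖ ≤ B * (r k / ρ) ^ 2 := by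
    intro k
    have := taylor_perZ hn hπ0 hπ1 h0 h1 hzero (hB 0 hzero) (hrnn k) (hrle k) (powW p w k) (hδ k)
    simpa using this
  have hbd : Filter.Tendsto (fun k => B * (r k / ρ) ^ 2) Filter.atTop (nhds 0) := by
    have := ((hr0.div_const ρ).pow 2).const_mul B
    simpa using this
  have hg := squeeze_zero_norm hT hbd
  have hδ0 : ∀ i, Filter.Tendsto (fun k => powW p w k i) Filter.atTop (nhds 0) := by
    intro i
    exact squeeze_zero_norm (fun k => hδ k i) hr0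
  have hsum : Filter.Tendsto (fun k => ∑ i, parD p n 0 i t * powW p w k i) Filter.atTop (nhds 0) := by
    have : Filter.Tendsto (fun k => ∑ i, parD p n 0 i t * powW p w k i) Filter.atTop
        (nhds (∑ i : Fin (n - 1), parD p n 0 i t * 0)) := by
      apply tendsto_finsetSum
      intro i _
      exact (hδ0 i).const_mul _
    simpa using this
  have hfin := (hg.add hsum).add_const (perZ p n 0 t)
  simp only [zero_add, add_zero] at hfin
  refine hfin.congr fun k => ?_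
  ring

theorem powW_zero_fun (j : ℕ) : powW p (0 : Fin (n - 1) → K) j = 0 := by
  ext i
  simp [powW, zero_pow (pow_ne_zero j hp.out.ne_zero)]

theorem uuAt_zero_fun (hn : 1 ≤ n) (j : ℕ) : uuAt n (0 : Fin (n - 1) → K) j = if j = n then 1 else 0 := by
  unfold uuAt uu
  split_ifs with h1 h2 h3
  · omega
  · simp
  · simp
  · simp

theorem lamAt_zero_rec (hn : 1 ≤ n) (m : ℕ) :
    (p : K) * lamAt p n (0 : Fin (n - 1) → K) (m + 1) =
      if n ≤ m + 1 then lamAt p n (0 : Fin (n - 1) → K) (m + 1 - n) else 0 := by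
  rw [lamAt_succ_left]
  let last : Fin n := ⟨n - 1, by omega⟩
  rw [Finset.sum_eq_single last]
  · simp only [last]
    split_ifs with h1 h2 h2
    · have e1 : n - 1 + 1 = n := by omega
      have e2 : m - (n - 1) = m + 1 - n := by omega
      rw [e1, e2, uuAt_zero_fun hn, if_pos rfl, one_pow, mul_one]
    · omega
    · omega
    · rfl
  · intro i _ hi
    have hi2 : (i : ℕ) + 1 ≠ n := by
      intro h
      apply hi
      apply Fin.ext
      simp only [last]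
      omega
    split_ifs
    · rw [uuAt_zero_fun hn, if_neg hi2, zero_pow (pow_ne_zero _ hp.out.ne_zero), mul_zero]
    · rfl
  · intro h
    exact absurd (Finset.mem_univ _) h

theorem lamAt_zero_mul (hn : 1 ≤ n) (hπ0 : 0 < ‖(p : K)‖) (s : ℕ) :
    lamAt p n (0 : Fin (n - 1) → K) (n * s) = ((p : K)⁻¹) ^ s := by
  have hpne : (p : K) ≠ 0 := norm_pos_iff.mp hπ0
  induction s with
  | zero => simp [lamAt]
  | succ s ih =>
    have hrec := lamAt_zero_rec (K := K) (p := p) hn (n * (s + 1) - 1)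
    have e1 : n * (s + 1) - 1 + 1 = n * (s + 1) := by
      have : 0 < n * (s + 1) := by positivity
      omega
    have e2 : n ≤ n * (s + 1) := Nat.le_mul_of_pos_right n (by omega)
    have e3 : n * (s + 1) - n = n * s := by
      rw [Nat.mul_succ]; omega
    rw [e1, if_pos e2, e3, ih] at hrec
    rw [pow_succ', ← hrec]
    field_simp

theorem lamAt_zero_of_not_dvd (hn : 1 ≤ n) (hπ0 : 0 < ‖(p : K)‖) (t s : ℕ) (ht0 : 0 < t)
    (ht : t < n) : lamAt p n (0 : Fin (n - 1) → K) (t + n * s) = 0 := by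
  have hpne : (p : K) ≠ 0 := norm_pos_iff.mp hπ0
  induction s with
  | zero =>
    have hrec := lamAt_zero_rec (K := K) (p := p) hn (t - 1)
    have e1 : t - 1 + 1 = t := by omega
    rw [e1, if_neg (by omega)] at hrec
    simpa [hpne] using hrec
  | succ s ih =>
    have hrec := lamAt_zero_rec (K := K) (p := p) hn (t + n * (s + 1) - 1)
    have hpos : 0 < n * (s + 1) := by positivity
    have e1 : t + n * (s + 1) - 1 + 1 = t + n * (s + 1) := by omega
    have e2 : n ≤ t + n * (s + 1) := by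
      have : n ≤ n * (s + 1) := Nat.le_mul_of_pos_right n (by omega)
      omega
    have e3 : t + n * (s + 1) - n = t + n * s := by
      rw [Nat.mul_succ]; omega
    rw [e1, if_pos e2, e3, ih] at hrec
    simpa [hpne] using hrec

theorem perZ_zero_zero (hn : 1 ≤ n) (hπ0 : 0 < ‖(p : K)‖) (hπ1 : ‖(p : K)‖ ≤ 1) :
    perZ p n (0 : Fin (n - 1) → K) 0 = 1 := by
  have hpne : (p : K) ≠ 0 := norm_pos_iff.mp hπ0
  have h0 : ∀ i : Fin (n - 1), ‖(0 : Fin (n - 1) → K) i‖ < 1 := fun i => by simp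
  have l := tendsto_perZ (K := K) (p := p) hn hπ0 hπ1 h0 0
  refine tendsto_nhds_unique l (tendsto_const_nhds.congr fun m => ?_)
  have e : ((0 : ℤ) + (n : ℤ) * (m : ℤ)).toNat = n * m := by
    rw [zero_add]
    exact_mod_cast Int.toNat_natCast (n * m)
  rw [e, lamAt_zero_mul hn hπ0, inv_pow]
  field_simp

theorem perZ_zero_pos (hn : 1 ≤ n) (hπ0 : 0 < ‖(p : K)‖) (hπ1 : ‖(p : K)‖ ≤ 1) (t : ℕ) (ht0 : 0 < t)
    (ht : t < n) : perZ p n (0 : Fin (n - 1) → K) (t : ℤ) = 0 := by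
  have h0 : ∀ i : Fin (n - 1), ‖(0 : Fin (n - 1) → K) i‖ < 1 := fun i => by simp
  have l := tendsto_perZ (K := K) (p := p) hn hπ0 hπ1 h0 (t : ℤ)
  refine tendsto_nhds_unique l (tendsto_const_nhds.congr fun m => ?_)
  have e : ((t : ℤ) + (n : ℤ) * (m : ℤ)).toNat = t + n * m := by
    exact_mod_cast Int.toNat_natCast (t + n * m)
  rw [e, lamAt_zero_of_not_dvd hn hπ0 t m ht0 ht, mul_zero]

theorem perZ_zero_of_ne (hn : 1 ≤ n) (hπ0 : 0 < ‖(p : K)‖) (hπ1 : ‖(p : K)‖ ≤ 1) (t : ℤ)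
    (ht0 : t ≠ 0) (ht1 : -(n : ℤ) < t) (ht2 : t < n) :
    perZ p n (0 : Fin (n - 1) → K) t = 0 := by
  have h0 : ∀ i : Fin (n - 1), ‖(0 : Fin (n - 1) → K) i‖ < 1 := fun i => by simp
  by_cases hpos : 0 < t
  · obtain ⟨s, rfl⟩ : ∃ s : ℕ, t = s := ⟨t.toNat, by omega⟩
    exact perZ_zero_pos hn hπ0 hπ1 s (by omega) (by omega)
  · have hneg : t + n > 0 := by omega
    obtain ⟨s, hs⟩ : ∃ s : ℕ, t + n = s := ⟨(t + n).toNat, by omega⟩
    have h1 := perZ_add_n hn hπ0 hπ1 h0 t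
    rw [hs, perZ_zero_pos hn hπ0 hπ1 s (by omega) (by omega)] at h1
    have hpne : (p : K) ≠ 0 := norm_pos_iff.mp hπ0
    have := h1.symm
    simpa [hpne] using this

theorem perMat_zero (hn : 1 ≤ n) (hπ0 : 0 < ‖(p : K)‖) (hπ1 : ‖(p : K)‖ ≤ 1) :
    perMat p n (0 : Fin (n - 1) → K) = 1 := by
  ext b i
  simp only [perMat, col]
  rw [powW_zero_fun, Matrix.one_apply]
  split_ifs with h
  · subst h
    simpa using perZ_zero_zero hn hπ0 hπ1
  · apply perZ_zero_of_ne hn hπ0 hπ1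
    · intro hc
      apply h
      apply Fin.ext
      omega
    · have := b.2; have := i.2; omega
    · have := b.2; have := i.2; omega

/-- (1b): `det M(w) = 1`. -/
theorem det_perMat (hn : 1 ≤ n) (hπ0 : 0 < ‖(p : K)‖) (hπ1 : ‖(p : K)‖ ≤ 1)
    {w : Fin (n - 1) → K} (hw : ∀ i, ‖w i‖ < 1) : (perMat p n w).det = 1 := by
  have hc : Continuous (fun M : Matrix (Fin n) (Fin n) K => M.det) := continuous_id.matrix_det
  have ht : Filter.Tendsto (fun k => perMat p n (powW p w k)) Filter.atTop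
      (nhds (perMat p n (0 : Fin (n - 1) → K))) := by
    apply tendsto_pi_nhds.2
    intro b
    apply tendsto_pi_nhds.2
    intro i
    have h1 := (Filter.tendsto_add_atTop_iff_nat (i : ℕ)).mpr
      (tendsto_perZ_powW (K := K) (p := p) hn hπ0 hπ1 hw (((b : ℕ) : ℤ) - ((i : ℕ) : ℤ)))
    have h2 : perMat p n (0 : Fin (n - 1) → K) b i = perZ p n 0 (((b : ℕ) : ℤ) - ((i : ℕ) : ℤ)) := by
      simp only [perMat, col]
      rw [powW_zero_fun]
    rw [h2]
    refine h1.congr fun k => ?_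
    simp only [perMat, col]
    rw [powW_powW]
  have h := hc.tendsto _ |>.comp ht
  rw [perMat_zero hn hπ0 hπ1, Matrix.det_one] at h
  refine tendsto_nhds_unique (tendsto_const_nhds (x := (perMat p n w).det)) (h.congr fun k => ?_)
  exact (det_perMat_iter hn hπ0 hπ1 hw k).symm

theorem pderiv_TT (ξ : Fin (n - 1) → K) (i : Fin (n - 1)) (f : MvPolynomial (Fin (n - 1)) ℚ) :
    pderiv i (TT ξ f) = TT ξ (pderiv i f) := by
  classical
  induction f using MvPolynomial.induction_on with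
  | C a => simp [TT]
  | add f g hf hg => simp only [map_add, hf, hg]
  | mul_X f k hf =>
    rw [map_mul, pderiv_mul, hf, pderiv_mul, map_add, map_mul, map_mul]
    have h1 : TT ξ (X k) = C (ξ k) + X k := by simp [TT]
    rw [h1, map_add, pderiv_C, zero_add, pderiv_X, pderiv_X]
    by_cases hik : i = k
    · subst hik; simp
    · have hk : (Pi.single i (1 : MvPolynomial (Fin (n - 1)) K) : Fin (n - 1) → _) k = 0 :=
        Pi.single_eq_of_ne (Ne.symm hik) _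
      have hk' : (Pi.single i (1 : MvPolynomial (Fin (n - 1)) ℚ) : Fin (n - 1) → _) k = 0 :=
        Pi.single_eq_of_ne (Ne.symm hik) _
      rw [hk, hk']
      simp

theorem coeff_single_TT (ξ : Fin (n - 1) → K) (i : Fin (n - 1))
    (f : MvPolynomial (Fin (n - 1)) ℚ) :
    coeff (Finsupp.single i 1) (TT ξ f) = aeval ξ (pderiv i f) := by
  have h := coeff_pderiv (i := i) (TT ξ f) 0
  rw [pderiv_TT, coeff_zero_TT] at h
  simp only [zero_add, Finsupp.coe_zero, Pi.zero_apply, Nat.cast_zero, mul_one] at h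
  exact h.symm

variable (p n) in
/-- `(∂_i λ_m)(w)`. -/
noncomputable def derAt (w : Fin (n - 1) → K) (i : Fin (n - 1)) (m : ℕ) : K :=
  aeval w (pderiv i (Lam p n m))

theorem coeff_single_SS (w : Fin (n - 1) → K) (i : Fin (n - 1)) (b : ℤ) (m : ℕ) :
    coeff (Finsupp.single i 1) (SS p n w b m) =
      (p : K) ^ m * derAt p n w i (b + (n : ℤ) * (m : ℤ)).toNat := by
  unfold SS derAt
  rw [coeff_C_mul, coeff_single_TT]

theorem tendsto_parD (hn : 1 ≤ n) (hπ0 : 0 < ‖(p : K)‖) (hπ1 : ‖(p : K)‖ ≤ 1)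
    {w : Fin (n - 1) → K} (hw : ∀ i, ‖w i‖ < 1) (i : Fin (n - 1)) (b : ℤ) :
    Filter.Tendsto (fun m : ℕ => (p : K) ^ m * derAt p n w i (b + (n : ℤ) * (m : ℤ)).toNat)
      Filter.atTop (nhds (parD p n w i b)) := by
  obtain ⟨ρ, h0, h1, h2⟩ := exists_radius w hw
  have := tendsto_pc hn hπ0 hπ1 h0 h1 h2 b (Finsupp.single i 1)
  unfold parD
  simpa only [coeff_single_SS] using this

theorem derAt_succ (w : Fin (n - 1) → K) (i : Fin (n - 1)) (m : ℕ) :
    (p : K) * derAt p n w i (m + 1) = ∑ j : Fin n,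
      if (j : ℕ) ≤ m then
        (if (j : ℕ) = i then lamAt p n (powW p w (j + 1)) (m - j) else 0) +
        uuAt n w (j + 1) * (derAt p n (powW p w (j + 1)) i (m - j) *
          ((p : K) ^ ((j : ℕ) + 1) * w i ^ (p ^ ((j : ℕ) + 1) - 1)))
      else 0 := by
  have := congrArg (aeval w) (p_mul_pderiv_Lam_succ p n i m)
  rw [map_mul, map_sum] at this
  simp only [map_natCast] at this
  unfold derAt
  rw [this]
  apply Finset.sum_congr rfl
  intro j _
  split_ifs with h1 h2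
  · simp only [map_add, map_mul, aeval_frob]
    simp [lamAt, uuAt]
  · simp only [map_add, map_mul, aeval_frob]
    simp [uuAt]
  · simp

/-- `W_i(v)(b) = p ∂_i a_b(v)`. -/
noncomputable def WW (p n : ℕ) [Fact p.Prime] (v : Fin (n - 1) → K) (i : Fin (n - 1)) (b : ℤ) : K :=
  (p : K) * parD p n v i b

/-- The recursion for `W_i`. -/
theorem WW_rec (hn : 1 ≤ n) (hπ0 : 0 < ‖(p : K)‖) (hπ1 : ‖(p : K)‖ ≤ 1)
    {w : Fin (n - 1) → K} (hw : ∀ i, ‖w i‖ < 1) (i : Fin (n - 1)) (b : ℤ) :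
    WW p n w i b = col p n w ((i : ℕ) + 1) b + ∑ j : Fin n,
      (uuAt n w (j + 1) * ((p : K) ^ (j : ℕ) * w i ^ (p ^ ((j : ℕ) + 1) - 1))) *
        WW p n (powW p w (j + 1)) i (b - ((j : ℕ) + 1 : ℕ)) := by
  have hi := i.2
  have hpne : (p : K) ≠ 0 := norm_pos_iff.mp hπ0
  have l1 := (tendsto_parD hn hπ0 hπ1 hw i b).const_mul (p : K)
  let I : Fin n := ⟨i, by omega⟩
  have l2 : Filter.Tendsto (fun m : ℕ => ∑ j : Fin n,
      ((if (j : ℕ) = i then (p : K) ^ m * lamAt p n (powW p w (j + 1))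
          ((b - ((j : ℕ) + 1 : ℕ)) + (n : ℤ) * (m : ℤ)).toNat else 0) +
      (uuAt n w (j + 1) * ((p : K) ^ (j : ℕ) * w i ^ (p ^ ((j : ℕ) + 1) - 1))) *
        ((p : K) * ((p : K) ^ m * derAt p n (powW p w (j + 1)) i
          ((b - ((j : ℕ) + 1 : ℕ)) + (n : ℤ) * (m : ℤ)).toNat)))) Filter.atTop
      (nhds (∑ j : Fin n, ((if (j : ℕ) = i then
          perZ p n (powW p w (j + 1)) (b - ((j : ℕ) + 1 : ℕ)) else 0) +
        (uuAt n w (j + 1) * ((p : K) ^ (j : ℕ) * w i ^ (p ^ ((j : ℕ) + 1) - 1))) *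
        WW p n (powW p w (j + 1)) i (b - ((j : ℕ) + 1 : ℕ))))) := by
    apply tendsto_finsetSum
    intro j _
    apply Filter.Tendsto.add
    · split_ifs
      · exact tendsto_perZ hn hπ0 hπ1 (norm_powW_lt hw _) _
      · exact tendsto_const_nhds
    · exact ((tendsto_parD hn hπ0 hπ1 (norm_powW_lt hw _) i _).const_mul _).const_mul _
  have huniq : WW p n w i b = ∑ j : Fin n, ((if (j : ℕ) = i then
          perZ p n (powW p w (j + 1)) (b - ((j : ℕ) + 1 : ℕ)) else 0) +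
        (uuAt n w (j + 1) * ((p : K) ^ (j : ℕ) * w i ^ (p ^ ((j : ℕ) + 1) - 1))) *
        WW p n (powW p w (j + 1)) i (b - ((j : ℕ) + 1 : ℕ))) := by
    refine tendsto_nhds_unique_of_eventuallyEq l1 l2 ?_
    filter_upwards [Filter.eventually_ge_atTop (b - n).natAbs] with m hm
    have h0 := nonneg_index hn hm
    obtain ⟨m', hm'⟩ : ∃ m' : ℕ, (b + (n : ℤ) * (m : ℤ)) = (m' : ℤ) + 1 := by
      refine ⟨(b + (n : ℤ) * (m : ℤ) - 1).toNat, ?_⟩
      have : (1 : ℤ) ≤ n := by exact_mod_cast hn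
      rw [Int.toNat_of_nonneg (by linarith)]
      ring
    have e1 : (b + (n : ℤ) * (m : ℤ)).toNat = m' + 1 := by
      rw [hm']; omega
    rw [e1, mul_left_comm, derAt_succ, Finset.mul_sum]
    apply Finset.sum_congr rfl
    intro j _
    have hj := j.2
    have hj2 : (j : ℕ) ≤ m' := by
      have : (m' : ℤ) + 1 - n ≥ 0 := by linarith
      omega
    rw [if_pos hj2]
    have e2 : ((b - ((j : ℕ) + 1 : ℕ)) + (n : ℤ) * (m : ℤ)).toNat = m' - j := by
      have : ((b - ((j : ℕ) + 1 : ℕ)) + (n : ℤ) * (m : ℤ)) = ((m' - (j : ℕ) : ℕ) : ℤ) := by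
        rw [Nat.cast_sub hj2]
        push_cast
        linarith
      rw [this, Int.toNat_natCast]
    rw [e2, mul_add]
    congr 1
    · split_ifs <;> simp
    · rw [pow_succ]
      ring
  rw [huniq, Finset.sum_add_distrib]
  congr 1
  rw [Finset.sum_eq_single I]
  · simp only [I, if_true]
    rfl
  · intro j _ hj
    rw [if_neg]
    intro hc
    exact hj (Fin.ext hc)
  · intro h
    exact absurd (Finset.mem_univ _) h

/-- `x ∈ B · Lat(v)`: coordinates of size `≤ B` with respect to `c_0(v), …, c_{n-1}(v)`. -/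
def InLat (p n : ℕ) [Fact p.Prime] (v : Fin (n - 1) → K) (B : ℝ) (x : ℤ → K) : Prop :=
  ∃ μ : Fin n → K, (∀ s, ‖μ s‖ ≤ B) ∧ ∀ b : ℤ, x b = ∑ s, μ s * col p n v s b

section Lat

variable {v : Fin (n - 1) → K} {B B' : ℝ} {x y : ℤ → K}

theorem InLat.mono (h : InLat p n v B x) (hB : B ≤ B') : InLat p n v B' x := by
  obtain ⟨μ, h1, h2⟩ := h
  exact ⟨μ, fun s => (h1 s).trans hB, h2⟩

theorem InLat.add (hx : InLat p n v B x) (hy : InLat p n v B y) :
    InLat p n v B (fun b => x b + y b) := by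
  obtain ⟨μ, h1, h2⟩ := hx
  obtain ⟨μ', h1', h2'⟩ := hy
  refine ⟨fun s => μ s + μ' s, fun s => ?_, fun b => ?_⟩
  · exact (IsUltrametricDist.norm_add_le_max _ _).trans (max_le (h1 s) (h1' s))
  · show x b + y b = _
    rw [h2, h2', ← Finset.sum_add_distrib]
    apply Finset.sum_congr rfl
    intro s _
    ring

theorem InLat.smul (c : K) (hx : InLat p n v B x) :
    InLat p n v (‖c‖ * B) (fun b => c * x b) := by
  obtain ⟨μ, h1, h2⟩ := hx
  refine ⟨fun s => c * μ s, fun s => ?_, fun b => ?_⟩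
  · rw [norm_mul]
    exact mul_le_mul_of_nonneg_left (h1 s) (norm_nonneg _)
  · show c * x b = _
    rw [h2, Finset.mul_sum]
    apply Finset.sum_congr rfl
    intro s _
    ring

theorem InLat.zero (hB : 0 ≤ B) : InLat p n v B (fun _ => 0) :=
  ⟨fun _ => 0, fun _ => by simpa using hB, fun _ => by simp⟩

theorem InLat.sum {ι : Type*} (hB : 0 ≤ B) (s : Finset ι) (F : ι → ℤ → K)
    (hF : ∀ i ∈ s, InLat p n v B (F i)) : InLat p n v B (fun b => ∑ i ∈ s, F i b) := by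
  classical
  induction s using Finset.induction_on with
  | empty => simpa using InLat.zero hB
  | insert a s ha ih =>
    simp_rw [Finset.sum_insert ha]
    exact (hF a (Finset.mem_insert_self _ _)).add
      (ih (fun i hi => hF i (Finset.mem_insert_of_mem hi)))

theorem InLat.sub (hx : InLat p n v B x) (hy : InLat p n v B y) :
    InLat p n v B (fun b => x b - y b) := by
  have := hx.add ((hy.smul (-1)).mono (B' := B) (by simp))
  have h2 : (fun b => x b - y b) = (fun b => x b + -1 * y b) := by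
    funext b; ring
  rw [h2]
  exact this

end Lat

theorem InLat_col (hn : 1 ≤ n) (hπ0 : 0 < ‖(p : K)‖) (hπ1 : ‖(p : K)‖ ≤ 1)
    {v : Fin (n - 1) → K} (hv : ∀ i, ‖v i‖ < 1) (t : ℕ) : InLat p n v 1 (col p n v t) := by
  classical
  induction t using Nat.strong_induction_on with
  | _ t ih =>
    by_cases ht : t < n
    · refine ⟨Pi.single ⟨t, ht⟩ 1, fun s => ?_, fun b => ?_⟩
      · rw [Pi.single_apply]
        split_ifs <;> simp
      · rw [Finset.sum_eq_single ⟨t, ht⟩]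
        · simp
        · intro s _ hs
          rw [Pi.single_eq_of_ne hs, zero_mul]
        · intro h
          exact absurd (Finset.mem_univ _) h
    · obtain ⟨t', rfl⟩ : ∃ t', t = t' + n := ⟨t - n, by omega⟩
      have h1 : InLat p n v 1 (fun b => (p : K) * col p n v t' b) :=
        ((ih t' (by omega)).smul _).mono (by simpa using hπ1)
      have h2 : InLat p n v 1 (fun b => ∑ i : Fin n, uuAt n (powW p v t') i * col p n v (t' + i) b) := by
        apply InLat.sum (by norm_num)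
        intro i _
        have h3 := (ih (t' + i) (by have := i.2; omega)).smul (uuAt n (powW p v t') i)
        refine h3.mono ?_
        rw [mul_one]
        exact norm_uuAt_le (fun j => (norm_powW_lt hv t' j).le) _
      have h3 := h1.sub h2
      have h4 : col p n v (t' + n) = fun b => (p : K) * col p n v t' b -
          ∑ i : Fin n, uuAt n (powW p v t') i * col p n v (t' + i) b := by
        funext b
        exact col_add_n_index hn hπ0 hπ1 hv t' b
      rw [h4]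
      exact h3

theorem InLat_shift (hn : 1 ≤ n) (hπ0 : 0 < ‖(p : K)‖) (hπ1 : ‖(p : K)‖ ≤ 1)
    {v : Fin (n - 1) → K} (hv : ∀ i, ‖v i‖ < 1) {B : ℝ} (hB : 0 ≤ B) {x : ℤ → K} (j : ℕ)
    (hx : InLat p n (powW p v j) B x) : InLat p n v B (fun b => x (b - (j : ℤ))) := by
  obtain ⟨μ, h1, h2⟩ := hx
  have h3 : InLat p n v B (fun b => ∑ s : Fin n, μ s * col p n v (j + s) b) := by
    apply InLat.sum hB
    intro s _
    refine ((InLat_col hn hπ0 hπ1 hv (j + s)).smul (μ s)).mono ?_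
    rw [mul_one]
    exact h1 s
  have h4 : (fun b : ℤ => x (b - (j : ℤ))) = fun b => ∑ s : Fin n, μ s * col p n v (j + s) b := by
    funext b
    rw [h2]
    apply Finset.sum_congr rfl
    intro s _
    rw [col_shift]
  rw [h4]
  exact h3

theorem norm_det_le {m : Type*} [Fintype m] [DecidableEq m] (A : Matrix m m K) {E : ℝ} (hE : 0 ≤ E)
    (h : ∀ i j, ‖A i j‖ ≤ E) : ‖A.det‖ ≤ E ^ (Fintype.card m) := by
  rw [Matrix.det_apply]
  apply IsUltrametricDist.norm_sum_le_of_forall_le_of_nonneg (by positivity)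
  intro σ _
  have h1 : ‖∏ i, A (σ i) i‖ ≤ E ^ (Fintype.card m) := by
    rw [norm_prod]
    calc ∏ i, ‖A (σ i) i‖ ≤ ∏ _i : m, E :=
          Finset.prod_le_prod (fun _ _ => norm_nonneg _) (fun i _ => h _ _)
      _ = E ^ (Fintype.card m) := by simp
  rcases Int.units_eq_one_or (Equiv.Perm.sign σ) with hs | hs
  · simpa [hs] using h1
  · simpa [hs] using h1

theorem norm_adjugate_le {m : Type*} [Fintype m] [DecidableEq m] (A : Matrix m m K) {E : ℝ}
    (hE : 1 ≤ E) (h : ∀ i j, ‖A i j‖ ≤ E) (i j : m) :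
    ‖A.adjugate i j‖ ≤ E ^ (Fintype.card m) := by
  rw [Matrix.adjugate_apply]
  apply norm_det_le _ (by linarith)
  intro a b
  rw [Matrix.updateRow_apply]
  split_ifs
  · rw [Pi.single_apply]
    split_ifs
    · simpa using hE
    · simpa using (by linarith : (0 : ℝ) ≤ E)
  · exact h _ _

theorem twisted_zero (hn : 1 ≤ n) (hπ0 : 0 < ‖(p : K)‖) {z : ℤ → K}
    (hz : ∀ b, z (b + n) = (p : K)⁻¹ * z b) (h0 : ∀ r : Fin n, z ((r : ℕ) : ℤ) = 0) (b : ℤ) :
    z b = 0 := by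
  have hpne : (p : K) ≠ 0 := norm_pos_iff.mp hπ0
  have hnpos : (0 : ℤ) < n := by exact_mod_cast hn
  have key : ∀ (k : ℤ) (r : Fin n), z (((r : ℕ) : ℤ) + n * k) = 0 := by
    intro k r
    induction k using Int.induction_on with
    | zero => simpa using h0 r
    | succ k ih =>
      have : ((r : ℕ) : ℤ) + n * ((k : ℤ) + 1) = (((r : ℕ) : ℤ) + n * k) + n := by ring
      rw [this, hz, ih, mul_zero]
    | pred k ih =>
      have h1 := hz (((r : ℕ) : ℤ) + n * (-(k : ℤ) - 1))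
      have : ((r : ℕ) : ℤ) + n * (-(k : ℤ) - 1) + n = ((r : ℕ) : ℤ) + n * (-(k : ℤ)) := by ring
      rw [this, ih] at h1
      have h2 := h1.symm
      simpa [hpne] using h2
  have hr0 := Int.emod_nonneg b hnpos.ne'
  have hr1 := Int.emod_lt_of_pos b hnpos
  have hb : b = (((⟨(b % n).toNat, by omega⟩ : Fin n) : ℕ) : ℤ) + n * (b / n) := by
    simp only [Int.toNat_of_nonneg hr0]
    exact (Int.emod_add_mul_ediv b n).symm
  rw [hb]
  exact key _ _

/-- Coordinates of a twisted periodic vector with bounded values. -/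
theorem InLat_of_periodic (hn : 1 ≤ n) (hπ0 : 0 < ‖(p : K)‖) (hπ1 : ‖(p : K)‖ ≤ 1)
    {v : Fin (n - 1) → K} (hv : ∀ i, ‖v i‖ < 1) {E Q : ℝ} (hE : 1 ≤ E) (hQ : 0 ≤ Q)
    (hM : ∀ b i, ‖perMat p n v b i‖ ≤ E) (x : ℤ → K)
    (hx : ∀ b, x (b + n) = (p : K)⁻¹ * x b) (hxQ : ∀ b : Fin n, ‖x ((b : ℕ) : ℤ)‖ ≤ Q) :
    InLat p n v (E ^ n * Q) x := by
  set A := perMat p n v with hA
  let yy : Fin n → K := fun b => x ((b : ℕ) : ℤ)
  let μ : Fin n → K := A.adjugate.mulVec yy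
  have hμ : ∀ s, ‖μ s‖ ≤ E ^ n * Q := by
    intro s
    simp only [μ, Matrix.mulVec, dotProduct]
    apply IsUltrametricDist.norm_sum_le_of_forall_le_of_nonneg (by positivity)
    intro b _
    rw [norm_mul]
    have h1 := norm_adjugate_le A hE hM s b
    rw [Fintype.card_fin] at h1
    exact mul_le_mul h1 (hxQ b) (norm_nonneg _) (by positivity)
  have hAμ : A.mulVec μ = yy := by
    simp only [μ]
    rw [Matrix.mulVec_mulVec, Matrix.mul_adjugate, hA, det_perMat hn hπ0 hπ1 hv, one_smul,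
      Matrix.one_mulVec]
  refine ⟨μ, hμ, fun b => ?_⟩
  have hz : ∀ b, x b - ∑ s, μ s * col p n v s b = 0 := by
    apply twisted_zero (p := p) hn hπ0
    · intro b
      rw [hx, mul_sub, Finset.mul_sum]
      congr 1
      apply Finset.sum_congr rfl
      intro s _
      rw [col_add_n hn hπ0 hπ1 hv]
      ring
    · intro r
      have h1 := congrFun hAμ r
      simp only [Matrix.mulVec, dotProduct, yy] at h1
      rw [← h1, sub_eq_zero]
      apply Finset.sum_congr rfl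
      intro s _
      rw [mul_comm]
      rfl
  exact sub_eq_zero.mp (hz b)

theorem exists_perMat_bound (hn : 1 ≤ n) (hπ0 : 0 < ‖(p : K)‖) (hπ1 : ‖(p : K)‖ ≤ 1)
    (hρ0 : 0 < ρ) (hρ1 : ρ < 1) :
    ∃ E : ℝ, 1 ≤ E ∧ ∀ v : Fin (n - 1) → K, (∀ i, ‖v i‖ ≤ ρ) → ∀ b i, ‖perMat p n v b i‖ ≤ E := by
  choose B hB0 hB using fun t : ℤ =>
    exists_GB_SS (K := K) (p := p) (n := n) hn hπ0 hπ1 hρ0.le hρ1 t
  refine ⟨1 + ∑ b : Fin n, ∑ i : Fin n, B (((b : ℕ) : ℤ) - ((i : ℕ) : ℤ)), ?_, fun v hv b i => ?_⟩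
  · have : 0 ≤ ∑ b : Fin n, ∑ i : Fin n, B (((b : ℕ) : ℤ) - ((i : ℕ) : ℤ)) :=
      Finset.sum_nonneg fun _ _ => Finset.sum_nonneg fun _ _ => hB0 _
    linarith
  · have hv' : ∀ j, ‖powW p v (i : ℕ) j‖ ≤ ρ := norm_powW_le hρ1.le hv _
    have h1 := pc_bound (b := ((b : ℕ) : ℤ) - ((i : ℕ) : ℤ)) hn hπ0 hπ1 hρ0 hρ1 hv' (hB _ _ hv') 0
    simp only [map_zero, pow_zero, mul_one] at h1
    have h2 : B (((b : ℕ) : ℤ) - ((i : ℕ) : ℤ)) ≤
        ∑ b : Fin n, ∑ i : Fin n, B (((b : ℕ) : ℤ) - ((i : ℕ) : ℤ)) := by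
      refine le_trans ?_ (Finset.single_le_sum (f := fun b : Fin n =>
        ∑ i : Fin n, B (((b : ℕ) : ℤ) - ((i : ℕ) : ℤ)))
        (fun _ _ => Finset.sum_nonneg fun _ _ => hB0 _) (Finset.mem_univ b))
      exact Finset.single_le_sum (f := fun i : Fin n => B (((b : ℕ) : ℤ) - ((i : ℕ) : ℤ)))
        (fun _ _ => hB0 _) (Finset.mem_univ i)
    have h3 : ‖perMat p n v b i‖ = ‖pc p n (powW p v (i : ℕ)) (((b : ℕ) : ℤ) - ((i : ℕ) : ℤ)) 0‖ := rfl
    rw [h3]
    linarith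

theorem exists_WW_bound (hn : 1 ≤ n) (hπ0 : 0 < ‖(p : K)‖) (hπ1 : ‖(p : K)‖ ≤ 1)
    (hρ0 : 0 < ρ) (hρ1 : ρ < 1) :
    ∃ Q : ℝ, 0 ≤ Q ∧ ∀ v : Fin (n - 1) → K, (∀ i, ‖v i‖ ≤ ρ) → ∀ (i : Fin (n - 1)) (b : Fin n),
      ‖WW p n v i ((b : ℕ) : ℤ)‖ ≤ Q := by
  choose B hB0 hB using fun t : ℤ =>
    exists_GB_SS (K := K) (p := p) (n := n) hn hπ0 hπ1 hρ0.le hρ1 t
  refine ⟨∑ b : Fin n, B ((b : ℕ) : ℤ) / ρ, Finset.sum_nonneg fun _ _ => div_nonneg (hB0 _) hρ0.le,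
    fun v hv i b => ?_⟩
  have h1 := pc_bound (b := ((b : ℕ) : ℤ)) hn hπ0 hπ1 hρ0 hρ1 hv (hB _ _ hv) (Finsupp.single i 1)
  simp only [Finsupp.degree_single, pow_one] at h1
  have h2 : ‖parD p n v i ((b : ℕ) : ℤ)‖ ≤ B ((b : ℕ) : ℤ) / ρ := by
    rw [le_div_iff₀ hρ0]
    exact h1
  have h3 : ‖WW p n v i ((b : ℕ) : ℤ)‖ ≤ ‖parD p n v i ((b : ℕ) : ℤ)‖ := by
    unfold WW
    rw [norm_mul]
    exact mul_le_of_le_one_left (norm_nonneg _) hπ1
  refine h3.trans (h2.trans ?_)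
  exact Finset.single_le_sum (f := fun b : Fin n => B ((b : ℕ) : ℤ) / ρ)
    (fun _ _ => div_nonneg (hB0 _) hρ0.le) (Finset.mem_univ b)

theorem WW_add_n (hn : 1 ≤ n) (hπ0 : 0 < ‖(p : K)‖) (hπ1 : ‖(p : K)‖ ≤ 1)
    {v : Fin (n - 1) → K} (hv : ∀ i, ‖v i‖ < 1) (i : Fin (n - 1)) (b : ℤ) :
    WW p n v i (b + n) = (p : K)⁻¹ * WW p n v i b := by
  unfold WW
  rw [parD_add_n hn hπ0 hπ1 hv]
  ring

/-- One contraction step. -/
theorem InLat_WW_sub (hn : 1 ≤ n) (hπ0 : 0 < ‖(p : K)‖) (hπ1 : ‖(p : K)‖ ≤ 1)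
    (hρ0 : 0 < ρ) (hρ1 : ρ < 1) (i : Fin (n - 1)) {B : ℝ} (hB : 0 ≤ B)
    (hP : ∀ v : Fin (n - 1) → K, (∀ j, ‖v j‖ ≤ ρ) → InLat p n v B (WW p n v i))
    {v : Fin (n - 1) → K} (hv : ∀ j, ‖v j‖ ≤ ρ) :
    InLat p n v (ρ * B) (fun b => WW p n v i b - col p n v ((i : ℕ) + 1) b) := by
  have hvlt : ∀ j, ‖v j‖ < 1 := fun j => (hv j).trans_lt hρ1
  have h1 : InLat p n v (ρ * B) (fun b => ∑ j : Fin n,
      (uuAt n v (j + 1) * ((p : K) ^ (j : ℕ) * v i ^ (p ^ ((j : ℕ) + 1) - 1))) *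
        WW p n (powW p v (j + 1)) i (b - ((j : ℕ) + 1 : ℕ))) := by
    apply InLat.sum (by positivity)
    intro j _
    have h2 := hP (powW p v ((j : ℕ) + 1)) (norm_powW_le hρ1.le hv ((j : ℕ) + 1))
    have h3 := InLat_shift hn hπ0 hπ1 hvlt hB ((j : ℕ) + 1) h2
    refine (h3.smul _).mono ?_
    apply mul_le_mul_of_nonneg_right _ hB
    rw [norm_mul, norm_mul, norm_pow, norm_pow]
    have ha : ‖uuAt n v ((j : ℕ) + 1)‖ ≤ 1 := norm_uuAt_le (fun k => (hvlt k).le) _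
    have hb : ‖(p : K)‖ ^ (j : ℕ) ≤ 1 := pow_le_one₀ (norm_nonneg _) hπ1
    have hc : ‖v i‖ ^ (p ^ ((j : ℕ) + 1) - 1) ≤ ρ := by
      have hexp : 1 ≤ p ^ ((j : ℕ) + 1) - 1 := by
        have : 2 ^ ((j : ℕ) + 1) ≤ p ^ ((j : ℕ) + 1) :=
          Nat.pow_le_pow_left hp.out.two_le _
        have h2 : 2 ≤ 2 ^ ((j : ℕ) + 1) := by
          calc 2 = 2 ^ 1 := by norm_num
            _ ≤ 2 ^ ((j : ℕ) + 1) := Nat.pow_le_pow_right (by norm_num) (by omega)
        omega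
      calc ‖v i‖ ^ (p ^ ((j : ℕ) + 1) - 1) ≤ ‖v i‖ ^ 1 :=
            pow_le_pow_of_le_one (norm_nonneg _) (hvlt i).le hexp
        _ = ‖v i‖ := pow_one _
        _ ≤ ρ := hv i
    calc ‖uuAt n v ((j : ℕ) + 1)‖ * (‖(p : K)‖ ^ (j : ℕ) * ‖v i‖ ^ (p ^ ((j : ℕ) + 1) - 1))
        ≤ 1 * (1 * ρ) := by
          apply mul_le_mul ha _ (by positivity) (by norm_num)
          exact mul_le_mul hb hc (by positivity) (by norm_num)
      _ = ρ := by ring
  have h2 : (fun b => WW p n v i b - col p n v ((i : ℕ) + 1) b) = (fun b => ∑ j : Fin n,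
      (uuAt n v (j + 1) * ((p : K) ^ (j : ℕ) * v i ^ (p ^ ((j : ℕ) + 1) - 1))) *
        WW p n (powW p v (j + 1)) i (b - ((j : ℕ) + 1 : ℕ))) := by
    funext b
    rw [WW_rec hn hπ0 hπ1 hvlt i b]
    ring
  rw [h2]
  exact h1

/-- `W_i(v)` has coordinates of size at most one. -/
theorem InLat_WW_one (hn : 1 ≤ n) (hπ0 : 0 < ‖(p : K)‖) (hπ1 : ‖(p : K)‖ ≤ 1)
    (hρ0 : 0 < ρ) (hρ1 : ρ < 1) (i : Fin (n - 1))
    {v : Fin (n - 1) → K} (hv : ∀ j, ‖v j‖ ≤ ρ) : InLat p n v 1 (WW p n v i) := by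
  obtain ⟨E, hE, hEb⟩ := exists_perMat_bound (K := K) (p := p) (n := n) hn hπ0 hπ1 hρ0 hρ1
  obtain ⟨Q, hQ, hQb⟩ := exists_WW_bound (K := K) (p := p) (n := n) hn hπ0 hπ1 hρ0 hρ1
  set B0 := E ^ n * Q with hB0
  have hB00 : 0 ≤ B0 := by positivity
  have hstep : ∀ k : ℕ, ∀ v : Fin (n - 1) → K, (∀ j, ‖v j‖ ≤ ρ) →
      InLat p n v (max 1 (ρ ^ k * B0)) (WW p n v i) := by
    intro k
    induction k with
    | zero =>
      intro v hv
      have hvlt : ∀ j, ‖v j‖ < 1 := fun j => (hv j).trans_lt hρ1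
      have := InLat_of_periodic (K := K) (p := p) (n := n) hn hπ0 hπ1 hvlt hE hQ (hEb v hv)
        (WW p n v i) (WW_add_n hn hπ0 hπ1 hvlt i) (hQb v hv i)
      refine this.mono ?_
      simp [hB0]
    | succ k ih =>
      intro v hv
      have hvlt : ∀ j, ‖v j‖ < 1 := fun j => (hv j).trans_lt hρ1
      set M := max 1 (ρ ^ k * B0) with hM
      have hM0 : 0 ≤ M := le_max_of_le_left (by norm_num)
      have h1 := InLat_WW_sub hn hπ0 hπ1 hρ0 hρ1 i hM0 ih hv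
      have hbound : ρ * M ≤ max 1 (ρ ^ (k + 1) * B0) := by
        rw [hM]
        rcases le_total 1 (ρ ^ k * B0) with h | h
        · rw [max_eq_right h]
          apply le_max_of_le_right
          rw [pow_succ']
          ring_nf
          exact le_of_eq (by ring)
        · rw [max_eq_left h]
          apply le_max_of_le_left
          rw [mul_one]
          exact hρ1.le
      have h2 := (h1.mono hbound).add
        ((InLat_col hn hπ0 hπ1 hvlt ((i : ℕ) + 1)).mono (le_max_left 1 (ρ ^ (k + 1) * B0)))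
      simpa using h2
  have ht : Filter.Tendsto (fun k : ℕ => ρ ^ k * B0) Filter.atTop (nhds 0) := by
    have := (tendsto_pow_atTop_nhds_zero_of_lt_one hρ0.le hρ1).mul_const B0
    simpa using this
  obtain ⟨k, hk⟩ := (ht.eventually (gt_mem_nhds (by norm_num : (0 : ℝ) < 1))).exists
  have := hstep k v hv
  rwa [max_eq_left hk.le] at this

/-- Coordinates of `W_i(ξ) - c_{i+1}(ξ)`. -/
theorem exists_coords (hn : 1 ≤ n) (hπ0 : 0 < ‖(p : K)‖) (hπ1 : ‖(p : K)‖ ≤ 1)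
    (hρ0 : 0 < ρ) (hρ1 : ρ < 1) {ξ : Fin (n - 1) → K} (hξ : ∀ j, ‖ξ j‖ ≤ ρ) :
    ∃ μ : Fin (n - 1) → Fin n → K, (∀ i s, ‖μ i s‖ ≤ ρ) ∧
      ∀ i b, WW p n ξ i b = col p n ξ ((i : ℕ) + 1) b + ∑ s, μ i s * col p n ξ s b := by
  have h : ∀ i : Fin (n - 1), ∃ μ : Fin n → K, (∀ s, ‖μ s‖ ≤ ρ) ∧
      ∀ b, WW p n ξ i b = col p n ξ ((i : ℕ) + 1) b + ∑ s, μ s * col p n ξ s b := by
    intro i
    have h1 := InLat_WW_sub hn hπ0 hπ1 hρ0 hρ1 i (by norm_num)
      (fun v hv => InLat_WW_one hn hπ0 hπ1 hρ0 hρ1 i hv) hξ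
    obtain ⟨μ, h2, h3⟩ := h1
    refine ⟨μ, fun s => by simpa using h2 s, fun b => ?_⟩
    have := h3 b
    rw [← this]
    ring
  choose μ hμ1 hμ2 using h
  exact ⟨μ, hμ1, hμ2⟩

/-- The Jacobian matrix `[a(ξ), ∂_1 a(ξ), …, ∂_{n-1} a(ξ)]`, rows `b = 0, …, n-1`. -/
noncomputable def perJac (p n : ℕ) [Fact p.Prime] (ξ : Fin (n - 1) → K) :
    Matrix (Fin n) (Fin n) K :=
  fun b s => if h : (s : ℕ) = 0 then perZ p n ξ ((b : ℕ) : ℤ)
    else parD p n ξ ⟨(s : ℕ) - 1, by have := s.2; omega⟩ ((b : ℕ) : ℤ)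

theorem sum_fin_split (hn : 1 ≤ n) {M : Type*} [AddCommMonoid M] (F : Fin n → M) :
    ∑ s, F s = F ⟨0, by omega⟩ + ∑ i : Fin (n - 1), F ⟨(i : ℕ) + 1, by have := i.2; omega⟩ := by
  obtain ⟨k, rfl⟩ : ∃ k, n = k + 1 := ⟨n - 1, by omega⟩
  rw [Fin.sum_univ_succ]
  rfl

/-- (1c): the Jacobian determinant does not vanish. -/
theorem perJac_det_ne_zero (hn : 1 ≤ n) (hπ0 : 0 < ‖(p : K)‖) (hπ1 : ‖(p : K)‖ ≤ 1)
    {ξ : Fin (n - 1) → K} (hξ : ∀ j, ‖ξ j‖ < 1) : (perJac p n ξ).det ≠ 0 := by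
  classical
  have hpne : (p : K) ≠ 0 := norm_pos_iff.mp hπ0
  obtain ⟨ρ, hρ0, hρ1, hρ⟩ := exists_radius ξ hξ
  obtain ⟨μ, hμ1, hμ2⟩ := exists_coords (K := K) (p := p) (n := n) hn hπ0 hπ1 hρ0 hρ1 hρ
  intro hdet
  obtain ⟨y, hy0, hy⟩ := Matrix.exists_mulVec_eq_zero_iff.mpr hdet
  -- rescaled vector
  let y' : Fin n → K := fun s => if (s : ℕ) = 0 then y s else (p : K)⁻¹ * y s
  let S : Fin (n - 1) → Fin n := fun i => ⟨(i : ℕ) + 1, by have := i.2; omega⟩
  let Z0 : Fin n := ⟨0, by omega⟩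
  let z : Fin n → K := fun t => y' t + ∑ i, y' (S i) * μ i t
  have hz : (perMat p n ξ).mulVec z = 0 := by
    funext b
    have hb := congrFun hy b
    simp only [Matrix.mulVec, dotProduct, Pi.zero_apply] at hb ⊢
    rw [sum_fin_split hn] at hb
    have h1 : perJac p n ξ b ⟨0, by omega⟩ = col p n ξ 0 ((b : ℕ) : ℤ) := by
      simp [perJac, col, powW_zero]
    have h2 : ∀ i : Fin (n - 1), perJac p n ξ b ⟨(i : ℕ) + 1, by have := i.2; omega⟩ *
        y ⟨(i : ℕ) + 1, by have := i.2; omega⟩ =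
        y' (S i) * WW p n ξ i ((b : ℕ) : ℤ) := by
      intro i
      simp only [perJac, y', S, WW]
      simp only [Nat.add_eq_zero_iff, one_ne_zero, and_false, dite_false, if_false,
        Nat.add_sub_cancel]
      field_simp
    rw [h1, Finset.sum_congr rfl (fun i _ => h2 i)] at hb
    simp_rw [hμ2] at hb
    have h3 : ∑ t, perMat p n ξ b t * z t =
        ∑ t : Fin n, col p n ξ (t : ℕ) ((b : ℕ) : ℤ) * y' t +
          ∑ i, y' (S i) * ∑ t : Fin n, μ i t * col p n ξ (t : ℕ) ((b : ℕ) : ℤ) := by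
      simp only [z, mul_add, Finset.sum_add_distrib, Finset.mul_sum]
      congr 1
      rw [Finset.sum_comm]
      apply Finset.sum_congr rfl
      intro i _
      apply Finset.sum_congr rfl
      intro t _
      show col p n ξ t ((b : ℕ) : ℤ) * (y' (S i) * μ i t) = _
      ring
    rw [h3, sum_fin_split hn (fun t : Fin n => col p n ξ (t : ℕ) ((b : ℕ) : ℤ) * y' t)]
    have h4 : y' ⟨0, by omega⟩ = y ⟨0, by omega⟩ := by simp [y']
    rw [h4]
    have h5 : ∑ i, y' (S i) * (col p n ξ ((i : ℕ) + 1) ((b : ℕ) : ℤ) +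
        ∑ s, μ i s * col p n ξ s ((b : ℕ) : ℤ)) =
        ∑ i : Fin (n - 1), col p n ξ ((i : ℕ) + 1) ((b : ℕ) : ℤ) * y' (S i) +
        ∑ i, y' (S i) * ∑ s, μ i s * col p n ξ s ((b : ℕ) : ℤ) := by
      rw [← Finset.sum_add_distrib]
      apply Finset.sum_congr rfl
      intro i _
      ring
    rw [h5] at hb
    rw [add_assoc]
    exact hb
  have hzz : z = 0 := by
    apply Matrix.eq_zero_of_mulVec_eq_zero _ hz
    rw [det_perMat hn hπ0 hπ1 hξ]
    exact one_ne_zero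
  -- contraction
  obtain ⟨t0, -, ht0⟩ := Finset.exists_max_image Finset.univ (fun t => ‖y' t‖)
    (⟨Z0, Finset.mem_univ _⟩)
  have hy'0 : y' t0 = 0 := by
    have h1 : y' t0 = -∑ i, y' (S i) * μ i t0 := by
      have := congrFun hzz t0
      simp only [z, Pi.zero_apply] at this
      exact eq_neg_of_add_eq_zero_left this
    have h2 : ‖y' t0‖ ≤ ρ * ‖y' t0‖ := by
      have h2a : ‖∑ i, y' (S i) * μ i t0‖ ≤ ρ * ‖y' t0‖ := by
        apply IsUltrametricDist.norm_sum_le_of_forall_le_of_nonneg (by positivity)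
        intro i _
        rw [norm_mul, mul_comm]
        exact mul_le_mul (hμ1 i t0) (ht0 _ (Finset.mem_univ _)) (norm_nonneg _) hρ0.le
      calc ‖y' t0‖ = ‖∑ i, y' (S i) * μ i t0‖ := by
            conv_lhs => rw [h1]
            rw [norm_neg]
        _ ≤ _ := h2a
    have h3 : ‖y' t0‖ = 0 := by
      have h4 := norm_nonneg (y' t0)
      nlinarith
    exact norm_eq_zero.mp h3
  apply hy0
  funext s
  have h1 : y' s = 0 := by
    have := ht0 s (Finset.mem_univ _)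
    rw [hy'0, norm_zero] at this
    exact norm_le_zero_iff.mp this
  simp only [y'] at h1
  split_ifs at h1
  · simpa using h1
  · simpa [hpne] using h1

/-- **Output for (1f)**: the Jacobian of the period map at `ξ` is invertible, and the first order
Taylor expansion holds with a quadratic error. -/
theorem period_tangent (hn : 1 ≤ n) (hπ0 : 0 < ‖(p : K)‖) (hπ1 : ‖(p : K)‖ ≤ 1)
    {ξ : Fin (n - 1) → K} (hξ : ∀ j, ‖ξ j‖ < 1) :
    (perJac p n ξ).det ≠ 0 ∧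
    ∃ ρ C : ℝ, 0 < ρ ∧ ρ < 1 ∧ 0 ≤ C ∧ (∀ i, ‖ξ i‖ ≤ ρ) ∧
      ∀ r, 0 ≤ r → r ≤ ρ → ∀ δ : Fin (n - 1) → K, (∀ i, ‖δ i‖ ≤ r) → ∀ b : Fin n,
        ‖perZ p n (fun i => ξ i + δ i) ((b : ℕ) : ℤ) - perZ p n ξ ((b : ℕ) : ℤ) -
          ∑ i, parD p n ξ i ((b : ℕ) : ℤ) * δ i‖ ≤ C * r ^ 2 := by
  refine ⟨perJac_det_ne_zero hn hπ0 hπ1 hξ, ?_⟩
  obtain ⟨ρ, hρ0, hρ1, hρ⟩ := exists_radius ξ hξ
  choose B hB0 hB using fun t : ℤ =>
    exists_GB_SS (K := K) (p := p) (n := n) hn hπ0 hπ1 hρ0.le hρ1 t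
  refine ⟨ρ, ∑ b : Fin n, B ((b : ℕ) : ℤ) / ρ ^ 2, hρ0, hρ1,
    Finset.sum_nonneg fun _ _ => div_nonneg (hB0 _) (by positivity), hρ, ?_⟩
  intro r hr hrρ δ hδ b
  have h1 := taylor_perZ hn hπ0 hπ1 hρ0 hρ1 hρ (hB _ ξ hρ) hr hrρ δ hδ (b := ((b : ℕ) : ℤ))
  refine h1.trans ?_
  have h2 : B ((b : ℕ) : ℤ) / ρ ^ 2 ≤ ∑ b : Fin n, B ((b : ℕ) : ℤ) / ρ ^ 2 :=
    Finset.single_le_sum (f := fun b : Fin n => B ((b : ℕ) : ℤ) / ρ ^ 2)
      (fun _ _ => div_nonneg (hB0 _) (by positivity)) (Finset.mem_univ b)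
  calc B ((b : ℕ) : ℤ) * (r / ρ) ^ 2 = (B ((b : ℕ) : ℤ) / ρ ^ 2) * r ^ 2 := by
        field_simp
    _ ≤ _ := mul_le_mul_of_nonneg_right h2 (by positivity)

theorem norm_lamAt_le (hπ0 : 0 < ‖(p : K)‖) (hπ1 : ‖(p : K)‖ ≤ 1)
    {w : Fin (n - 1) → K} (hw : ∀ i, ‖w i‖ < 1) (m : ℕ) :
    ‖lamAt p n w m‖ ≤ (‖(p : K)‖⁻¹) ^ m := by
  obtain ⟨ρ, hρ0, hρ1, hρ⟩ := exists_radius w hw
  have h1 := GB_TL (K := K) (p := p) (n := n) hπ0 hπ1 hρ0.le hρ1.le hρ m 0
  simp only [map_zero, pow_zero, mul_one] at h1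
  rwa [coeff_zero_TT] at h1

/-- The left recursion at a point with the last term isolated. -/
theorem norm_lamAt_diff_le (hn : 1 ≤ n) (hπ0 : 0 < ‖(p : K)‖) (hπ1 : ‖(p : K)‖ ≤ 1)
    {w : Fin (n - 1) → K} (hρ0 : 0 ≤ ρ) (hρ1 : ρ ≤ 1) (hw : ∀ i, ‖w i‖ ≤ ρ) (M : ℕ) (hM : n ≤ M) :
    ‖(p : K) * lamAt p n w M - lamAt p n w (M - n)‖ ≤ eps ‖(p : K)‖ ρ p n M := by
  have h1 := GB_TL_diff (K := K) (p := p) hn hπ0 hπ1 hρ0 hρ1 hw M hM 0
  simp only [map_zero, pow_zero, mul_one] at h1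
  rw [coeff_sub, coeff_C_mul, coeff_zero_TT, coeff_zero_TT] at h1
  exact h1

/-- Super-exponential rate: `p^s λ_{b+ns}(w) → a_b(w)` faster than any geometric sequence. -/
theorem tendsto_rate (hn : 1 ≤ n) (hπ0 : 0 < ‖(p : K)‖) (hπ1 : ‖(p : K)‖ ≤ 1)
    {w : Fin (n - 1) → K} (hw : ∀ i, ‖w i‖ < 1) (b : ℤ) {A : ℝ} (hA : 1 ≤ A) :
    Filter.Tendsto (fun s : ℕ => A ^ s *
      ‖(p : K) ^ s * lamAt p n w (b + (n : ℤ) * (s : ℤ)).toNat - perZ p n w b‖)
      Filter.atTop (nhds 0) := by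
  obtain ⟨ρ, hρ0, hρ1, hρ⟩ := exists_radius w hw
  have hApos : 0 < A := by linarith
  set f : ℕ → K := fun s => (p : K) ^ s * lamAt p n w (b + (n : ℤ) * (s : ℤ)).toNat with hf
  have hlim : Filter.Tendsto f Filter.atTop (nhds (perZ p n w b)) := tendsto_perZ hn hπ0 hπ1 hw b
  -- difference of consecutive terms
  have hdiff : ∀ s, b.natAbs ≤ s →
      ‖f (s + 1) - f s‖ ≤ eps ‖(p : K)‖ ρ p n (b + (n : ℤ) * ((s : ℤ) + 1)).toNat := by
    intro s hs
    have h1 := GB_SS_diff (K := K) (p := p) hn hπ0 hπ1 hρ0.le hρ1.le hρ b s (nonneg_index hn hs) 0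
    simp only [map_zero, pow_zero, mul_one, coeff_sub, coeff_zero_SS] at h1
    exact h1
  -- `A^s eps(M_s) → 0`
  have hπA0 : 0 < ‖(p : K)‖ / A := by positivity
  have hπA1 : ‖(p : K)‖ / A ≤ 1 := by
    rw [div_le_one hApos]; linarith
  have ht0 := (tendsto_eps hπA0 hπA1 hρ0.le hρ1 hp.out.two_le n).comp (tendsto_toNat hn b)
  have ht := ht0.const_mul (A ^ b.natAbs)
  rw [mul_zero] at ht
  have hbound : ∀ᶠ s : ℕ in Filter.atTop, A ^ s * eps ‖(p : K)‖ ρ p n (b + (n : ℤ) * ((s : ℤ) + 1)).toNat ≤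
      A ^ b.natAbs * ((eps (‖(p : K)‖ / A) ρ p n) ∘
        fun m : ℕ => (b + (n : ℤ) * ((m : ℤ) + 1)).toNat) s := by
    filter_upwards [Filter.eventually_ge_atTop b.natAbs] with s hs
    simp only [Function.comp, eps]
    rw [← mul_assoc, ← mul_assoc]
    apply mul_le_mul_of_nonneg_right _ (by positivity)
    rw [inv_div, div_eq_mul_inv A, mul_pow, ← mul_assoc, ← pow_add]
    have hM : s ≤ b.natAbs + (b + (n : ℤ) * ((s : ℤ) + 1)).toNat := by
      have h1 : (1 : ℤ) ≤ n := by exact_mod_cast hn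
      have h2 : (s : ℤ) + 1 ≤ n * ((s : ℤ) + 1) := by nlinarith
      have h3 : (b.natAbs : ℤ) ≤ s := by exact_mod_cast hs
      generalize (n : ℤ) * ((s : ℤ) + 1) = T at h2 ⊢
      omega
    have := pow_le_pow_right₀ hA hM
    exact mul_le_mul_of_nonneg_right this (by positivity)
  -- the conclusion
  rw [Metric.tendsto_atTop]
  intro ε hε
  have hev := (ht.eventually (gt_mem_nhds (half_pos hε)))
  obtain ⟨s0, hs0⟩ := Filter.eventually_atTop.mp (hev.and hbound)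
  refine ⟨max s0 b.natAbs, fun s hs => ?_⟩
  have hs1 : s0 ≤ s := (le_max_left _ _).trans hs
  have hs2 : b.natAbs ≤ s := (le_max_right _ _).trans hs
  -- all later consecutive differences are small
  have hstep : ∀ s', s ≤ s' → A ^ s * ‖f (s' + 1) - f s'‖ ≤ ε / 2 := by
    intro s' hs'
    have h1 := hdiff s' (hs2.trans hs')
    have h2 := hs0 s' (hs1.trans hs')
    have h3 : A ^ s ≤ A ^ s' := pow_le_pow_right₀ hA hs'
    calc A ^ s * ‖f (s' + 1) - f s'‖ ≤ A ^ s' * eps ‖(p : K)‖ ρ p n (b + (n : ℤ) * ((s' : ℤ) + 1)).toNat :=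
          mul_le_mul h3 h1 (norm_nonneg _) (by positivity)
      _ ≤ _ := h2.2
      _ ≤ ε / 2 := h2.1.le
  have hall : ∀ s', s ≤ s' → A ^ s * ‖f s' - f s‖ ≤ ε / 2 := by
    intro s' hs'
    induction s', hs' using Nat.le_induction with
    | base => simp; positivity
    | succ s' hs' ih =>
      have h1 : f (s' + 1) - f s = (f (s' + 1) - f s') + (f s' - f s) := by ring
      rw [h1]
      have h2 := IsUltrametricDist.norm_add_le_max (f (s' + 1) - f s') (f s' - f s)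
      calc A ^ s * ‖(f (s' + 1) - f s') + (f s' - f s)‖
          ≤ A ^ s * max ‖f (s' + 1) - f s'‖ ‖f s' - f s‖ :=
            mul_le_mul_of_nonneg_left h2 (by positivity)
        _ ≤ ε / 2 := by
            rcases max_cases ‖f (s' + 1) - f s'‖ ‖f s' - f s‖ with ⟨h, _⟩ | ⟨h, _⟩ <;> rw [h]
            · exact hstep s' hs'
            · exact ih
  have hfin : A ^ s * ‖perZ p n w b - f s‖ ≤ ε / 2 := by
    have h1 : Filter.Tendsto (fun s' => A ^ s * ‖f s' - f s‖) Filter.atTop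
        (nhds (A ^ s * ‖perZ p n w b - f s‖)) :=
      ((hlim.sub_const (f s)).norm).const_mul _
    refine le_of_tendsto h1 ?_
    filter_upwards [Filter.eventually_ge_atTop s] with s' hs'
    exact hall s' hs'
  rw [Real.dist_eq, sub_zero, abs_of_nonneg (by positivity), norm_sub_rev]
  linarith

end Analysis

end Crest.Agent.Lib.LT.Period
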