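import Crest.Agent.Lib.LT.C0Limit
import Crest.Agent.Lib.LT.Period

/-!
# Bridge between `C0` (`aa`, `dd`; helper5) and `Period` (`perZ`, `parD`; helper11)
-/

set_option autoImplicit false
set_option linter.unusedSectionVars false

namespace Crest.Agent.Lib.LT.C0Bridge

open MvPolynomial Filter Topology
open Crest.Agent.Lib.LT.C0 (lam vv gS aa dd)
open Crest.Agent.Lib.LT.Period

variable {p : ℕ} [hp : Fact p.Prime] {n : ℕ} {K : Type*} [NormedField K] [IsUltrametricDist K]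
  [CharZero K]

theorem map_uu (i : ℕ) (hi : i < n) : map (algebraMap ℚ K) (uu n (i + 1)) = vv n K i := by
  unfold uu vv
  by_cases h : i < n - 1
  · rw [dif_pos (by omega : 1 ≤ i + 1 ∧ i + 1 < n), dif_pos h]
    simp
  · rw [dif_neg (by omega : ¬ (1 ≤ i + 1 ∧ i + 1 < n)), if_pos (by omega), dif_neg h]
    simp

theorem map_Lam (M : ℕ) : map (algebraMap ℚ K) (Lam p n M) = lam p n K M := by
  induction M using Nat.strong_induction_on with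
  | _ M ih =>
    rcases M with _ | M
    · simp
    · rw [Lam_succ, C0.lam_succ, map_mul, map_C, map_sum,
        ← Fin.sum_univ_eq_sum_range (fun i =>
          if i ≤ M then lam p n K (M - i) * (vv n K i) ^ (p ^ (M - i)) else 0) n]
      congr 1
      · simp
      · apply Finset.sum_congr rfl
        intro i _
        split_ifs with h
        · rw [map_mul, map_pow, ih (M - i) (by omega), map_uu _ i.2]
        · simp

theorem eval_map_eq_aeval (w : Fin (n - 1) → K) (f : MvPolynomial (Fin (n - 1)) ℚ) :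
    eval w (map (algebraMap ℚ K) f) = aeval w f := by
  rw [eval_map, aeval_def]

theorem eval_gS (w : Fin (n - 1) → K) (b : ℤ) (m : ℕ) :
    eval w (gS p n K b m) = (p : K) ^ m * lamAt p n w (b + (n : ℤ) * (m : ℤ)).toNat := by
  unfold gS lamAt
  rw [map_mul, eval_C, ← map_Lam, eval_map_eq_aeval]

theorem eval_pderiv_gS (w : Fin (n - 1) → K) (i : Fin (n - 1)) (b : ℤ) (m : ℕ) :
    eval w (pderiv i (gS p n K b m)) =
      (p : K) ^ m * derAt p n w i (b + (n : ℤ) * (m : ℤ)).toNat := by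
  unfold gS derAt
  rw [pderiv_C_mul, map_mul, eval_C, ← map_Lam, pderiv_map, eval_map_eq_aeval]

variable [CompleteSpace K]

theorem aa_eq_perZ (hn : 1 ≤ n) (hε : ‖(p : K)‖ < 1) (b : ℤ) (w : Fin (n - 1) → K)
    (hw : ∀ i, ‖w i‖ < 1) : aa p n b w = perZ p n w b := by
  have hπ0 : 0 < ‖(p : K)‖ := norm_pos_iff.mpr (Nat.cast_ne_zero.mpr hp.out.ne_zero)
  have l1 := C0.aa_tendsto hn hε b w hw
  simp only [eval_gS] at l1
  exact tendsto_nhds_unique l1 (tendsto_perZ hn hπ0 hε.le hw b)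

theorem dd_eq_parD (hn : 1 ≤ n) (hε : ‖(p : K)‖ < 1) (b : ℤ) (i : Fin (n - 1))
    (w : Fin (n - 1) → K) (hw : ∀ i, ‖w i‖ < 1) : dd p n b i w = parD p n w i b := by
  have hπ0 : 0 < ‖(p : K)‖ := norm_pos_iff.mpr (Nat.cast_ne_zero.mpr hp.out.ne_zero)
  have l1 := C0.dd_tendsto hn hε b i w hw
  simp only [eval_pderiv_gS] at l1
  exact tendsto_nhds_unique l1 (tendsto_parD hn hπ0 hε.le hw i b)

/-- `[a(ξ), ∂_1 a(ξ), …, ∂_{n-1} a(ξ)]` in terms of `aa`, `dd`. -/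
noncomputable def jacMat (p n : ℕ) [Fact p.Prime] (ξ : Fin (n - 1) → K) :
    Matrix (Fin n) (Fin n) K :=
  fun b s => if h : (s : ℕ) = 0 then aa p n ((b : ℕ) : ℤ) ξ
    else dd p n ((b : ℕ) : ℤ) ⟨(s : ℕ) - 1, by have := s.2; omega⟩ ξ

theorem jacMat_eq (hn : 1 ≤ n) (hε : ‖(p : K)‖ < 1) {ξ : Fin (n - 1) → K} (hξ : ∀ i, ‖ξ i‖ < 1) :
    jacMat p n ξ = perJac p n ξ := by
  ext b s
  unfold jacMat perJac
  split_ifs
  · exact aa_eq_perZ hn hε _ ξ hξ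
  · exact dd_eq_parD hn hε _ _ ξ hξ

/-- **Output for (1f)** in terms of `aa`, `dd`. -/
theorem period_tangent_C0 (hn : 1 ≤ n) (hε : ‖(p : K)‖ < 1)
    {ξ : Fin (n - 1) → K} (hξ : ∀ j, ‖ξ j‖ < 1) :
    (jacMat p n ξ).det ≠ 0 ∧
    ∃ ρ C : ℝ, 0 < ρ ∧ ρ < 1 ∧ 0 ≤ C ∧ (∀ i, ‖ξ i‖ ≤ ρ) ∧
      ∀ r, 0 ≤ r → r ≤ ρ → ∀ δ : Fin (n - 1) → K, (∀ i, ‖δ i‖ ≤ r) → ∀ b : Fin n,
        ‖aa p n ((b : ℕ) : ℤ) (fun i => ξ i + δ i) - aa p n ((b : ℕ) : ℤ) ξ -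
          ∑ i, dd p n ((b : ℕ) : ℤ) i ξ * δ i‖ ≤ C * r ^ 2 := by
  have hπ0 : 0 < ‖(p : K)‖ := norm_pos_iff.mpr (Nat.cast_ne_zero.mpr hp.out.ne_zero)
  obtain ⟨h1, ρ, C, hρ0, hρ1, hC, hρ, h2⟩ := period_tangent (p := p) hn hπ0 hε.le hξ
  refine ⟨by rw [jacMat_eq hn hε hξ]; exact h1, ρ, C, hρ0, hρ1, hC, hρ, ?_⟩
  intro r hr hrρ δ hδ b
  have hw : ∀ i, ‖ξ i + δ i‖ < 1 := by
    intro i
    have := IsUltrametricDist.norm_add_le_max (ξ i) (δ i)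
    exact lt_of_le_of_lt (this.trans (max_le (hρ i) ((hδ i).trans hrρ))) hρ1
  rw [aa_eq_perZ hn hε _ _ hw, aa_eq_perZ hn hε _ _ hξ]
  have h3 : ∀ i, dd p n ((b : ℕ) : ℤ) i ξ = parD p n ξ i ((b : ℕ) : ℤ) := fun i =>
    dd_eq_parD hn hε _ _ _ hξ
  simp only [h3]
  exact h2 r hr hrρ δ hδ b

end Crest.Agent.Lib.LT.C0Bridge
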