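import Mathlib

/-!
# Ring homomorphisms out of a power series ring into an ultrametric field

Two ring homomorphisms `MvPowerSeries σ A → R` (`σ` finite) with values in the closed unit ball,
agreeing on constants and on the variables, whose values on the variables lie in the open unit
ball, are equal.
-/

set_option autoImplicit false

namespace Crest.Agent.LT

open MvPowerSeries Finsupp

variable {σ : Type*} [Fintype σ] {A : Type*} [CommRing A]

/-- One step of the order filtration: a series of order `≥ c + 1` is a combination of the variables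
with coefficients of order `≥ c`. -/
theorem exists_decomp_of_ord (c : ℕ) (g : MvPowerSeries σ A)
    (hg : ∀ m : σ →₀ ℕ, degree m < c + 1 → coeff m g = 0) :
    ∃ b : σ → MvPowerSeries σ A, (∀ s, ∀ m : σ →₀ ℕ, degree m < c → coeff m (b s) = 0) ∧
      g = ∑ s, X s * b s := by
  classical
  have key : ∀ T : Finset σ, ∃ (g' : MvPowerSeries σ A) (b : σ → MvPowerSeries σ A),
      g = g' + ∑ s ∈ T, X s * b s ∧ (∀ s, ∀ m : σ →₀ ℕ, degree m < c → coeff m (b s) = 0) ∧
      (∀ m : σ →₀ ℕ, degree m < c + 1 → coeff m g' = 0) ∧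
      (∀ m : σ →₀ ℕ, (∃ s ∈ T, m s ≠ 0) → coeff m g' = 0) := by
    intro T
    induction T using Finset.induction_on with
    | empty => exact ⟨g, 0, by simp, by simp, hg, by simp⟩
    | insert s T hs ih =>
      obtain ⟨g', b, h1, h2, h3, h4⟩ := ih
      let g'' : MvPowerSeries σ A := fun m => if m s = 0 then coeff m g' else 0
      have hcoeff : ∀ m, coeff m g'' = if m s = 0 then coeff m g' else 0 := fun m => rfl
      have hdvd : X s ∣ g' - g'' := by
        rw [X_dvd_iff]
        intro m hm
        simp [hcoeff, hm]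
      obtain ⟨e, he⟩ := hdvd
      have he' : ∀ m : σ →₀ ℕ, degree m < c → coeff m e = 0 := by
        intro m hm
        have h5 : coeff (m + Finsupp.single s 1) (g' - g'') = coeff m e := by
          rw [he, X_def, mul_comm]
          exact coeff_add_mul_monomial m (Finsupp.single s 1) e 1 |>.trans (mul_one _)
        rw [← h5, map_sub, hcoeff]
        have h6 : degree (m + Finsupp.single s 1) < c + 1 := by
          rw [map_add, Finsupp.degree_single]
          omega
        rw [h3 _ h6]
        split_ifs <;> simp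
      refine ⟨g'', fun t => if t = s then e else b t, ?_, ?_, ?_, ?_⟩
      · rw [Finset.sum_insert hs]
        have h7 : ∑ t ∈ T, X t * (fun t => if t = s then e else b t) t = ∑ t ∈ T, X t * b t := by
          refine Finset.sum_congr rfl fun t ht => ?_
          simp only
          rw [if_neg]
          rintro rfl
          exact hs ht
        rw [h7, h1]
        simp only [if_true]
        linear_combination he
      · intro t m hm
        simp only
        split_ifs
        · exact he' m hm
        · exact h2 t m hm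
      · intro m hm
        rw [hcoeff, h3 m hm]
        simp
      · rintro m ⟨t, ht, hmt⟩
        rw [hcoeff]
        split_ifs with h0
        · rcases Finset.mem_insert.mp ht with rfl | ht'
          · exact absurd h0 hmt
          · exact h4 m ⟨t, ht', hmt⟩
        · rfl
  obtain ⟨g', b, h1, h2, h3, h4⟩ := key Finset.univ
  have hg0 : g' = 0 := by
    ext m
    by_cases hm : m = 0
    · subst hm
      simpa using h3 0 (by simp)
    · obtain ⟨s, hs⟩ := Finsupp.ne_iff.mp hm
      simpa using h4 m ⟨s, Finset.mem_univ s, by simpa using hs⟩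
  exact ⟨b, h2, by simpa [hg0] using h1⟩

variable {R : Type*} [NormedField R] [IsUltrametricDist R]

/-- A ring hom with values in the unit ball is bounded by `ρ ^ c` on series of order `≥ c`. -/
theorem norm_hom_le_of_ord (χ : MvPowerSeries σ A →+* R) (h1 : ∀ f, ‖χ f‖ ≤ 1) {ρ : ℝ} (hρ0 : 0 ≤ ρ)
    (hρ : ∀ s, ‖χ (X s)‖ ≤ ρ) (c : ℕ) :
    ∀ g : MvPowerSeries σ A, (∀ m : σ →₀ ℕ, degree m < c → coeff m g = 0) → ‖χ g‖ ≤ ρ ^ c := by
  induction c with
  | zero => intro g _; simpa using h1 g
  | succ c ih =>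
    intro g hg
    obtain ⟨b, hb, rfl⟩ := exists_decomp_of_ord c g hg
    rw [map_sum]
    apply IsUltrametricDist.norm_sum_le_of_forall_le_of_nonneg (pow_nonneg hρ0 _)
    intro s _
    rw [map_mul, norm_mul, pow_succ']
    exact mul_le_mul (hρ s) (ih _ (hb s)) (norm_nonneg _) hρ0

/-- **Uniqueness of homs.** -/
theorem ringHom_ext_of_bounded (χ₁ χ₂ : MvPowerSeries σ A →+* R)
    (hC : ∀ a, χ₁ (C a) = χ₂ (C a)) (hX : ∀ s, χ₁ (X s) = χ₂ (X s))
    (h1 : ∀ f, ‖χ₁ f‖ ≤ 1) (h2 : ∀ f, ‖χ₂ f‖ ≤ 1) (hlt : ∀ s, ‖χ₁ (X s)‖ < 1) : χ₁ = χ₂ := by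
  classical
  -- a common bound
  obtain ⟨ρ, hρ0, hρ1, hρ⟩ : ∃ ρ : ℝ, 0 ≤ ρ ∧ ρ < 1 ∧ ∀ s, ‖χ₁ (X s)‖ ≤ ρ := by
    by_cases hne : Nonempty σ
    · obtain ⟨s0, -, hs0⟩ := Finset.exists_max_image Finset.univ (fun s => ‖χ₁ (X s)‖)
        (Finset.univ_nonempty)
      exact ⟨‖χ₁ (X s0)‖, norm_nonneg _, hlt s0, fun s => hs0 s (Finset.mem_univ s)⟩
    · exact ⟨0, le_rfl, one_pos, fun s => (hne ⟨s⟩).elim⟩
  have hρ' : ∀ s, ‖χ₂ (X s)‖ ≤ ρ := fun s => by rw [← hX]; exact hρ s
  ext f
  have hmono : ∀ (m : σ →₀ ℕ) (a : A), χ₁ (monomial m a) = χ₂ (monomial m a) := by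
    intro m a
    rw [monomial_eq', map_mul, map_mul, hC]
    congr 1
    simp only [Finsupp.prod, map_prod]
    refine Finset.prod_congr rfl fun s _ => ?_
    rw [map_pow, map_pow, hX]
  by_contra hne
  have hpos : 0 < ‖χ₁ f - χ₂ f‖ := norm_pos_iff.mpr (sub_ne_zero.mpr hne)
  obtain ⟨c, hc⟩ := exists_pow_lt_of_lt_one hpos hρ1
  -- the truncation
  let S : Finset (σ →₀ ℕ) := (Finset.range c).biUnion (fun d => Finset.univ.finsuppAntidiag d)
  have hS : ∀ m : σ →₀ ℕ, m ∈ S ↔ degree m < c := by
    intro m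
    simp only [S, Finset.mem_biUnion, Finset.mem_range, Finset.mem_finsuppAntidiag]
    constructor
    · rintro ⟨d, hd, h3, -⟩
      rw [← h3] at hd
      simpa [Finsupp.degree_eq_sum] using hd
    · intro h
      refine ⟨degree m, h, ?_, fun s _ => Finset.mem_univ s⟩
      simp [Finsupp.degree_eq_sum]
  let t : MvPowerSeries σ A := ∑ m ∈ S, monomial m (coeff m f)
  have htc : ∀ m, coeff m t = if degree m < c then coeff m f else 0 := by
    intro m
    simp only [t, map_sum, coeff_monomial]
    by_cases hm : degree m < c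
    · rw [if_pos hm, Finset.sum_eq_single m]
      · simp
      · intro b _ hb
        rw [if_neg (Ne.symm hb)]
      · intro h
        exact absurd ((hS m).mpr hm) h
    · rw [if_neg hm]
      apply Finset.sum_eq_zero
      intro b hb
      rw [if_neg]
      rintro rfl
      exact hm ((hS _).mp hb)
  have hord : ∀ m : σ →₀ ℕ, degree m < c → coeff m (f - t) = 0 := by
    intro m hm
    rw [map_sub, htc, if_pos hm, sub_self]
  have ht : χ₁ t = χ₂ t := by
    simp only [t, map_sum]
    exact Finset.sum_congr rfl fun m _ => hmono m _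
  have h3 := norm_hom_le_of_ord χ₁ h1 hρ0 hρ c _ hord
  have h4 := norm_hom_le_of_ord χ₂ h2 hρ0 hρ' c _ hord
  have h5 : χ₁ f - χ₂ f = χ₁ (f - t) - χ₂ (f - t) := by
    simp only [map_sub, ht]; ring
  have h6 : ‖χ₁ f - χ₂ f‖ ≤ ρ ^ c := by
    rw [h5]
    rw [sub_eq_add_neg]
    refine (IsUltrametricDist.norm_add_le_max _ _).trans (max_le h3 ?_)
    rw [norm_neg]
    exact h4
  exact absurd (lt_of_le_of_lt h6 hc) (lt_irrefl _)

end Crest.Agent.LT
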