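import Mathlib
import Crest.Agent.Lib.LT.EvalS

/-!
# The ring of bounded power series with the Gauss norm of radius `ρ`

`GB σ R ρ` is the ring of power series in the finite variable set `σ` with coefficients of norm
`≤ 1`, over a complete ultrametric normed field `R`, with
`‖f‖ = sup_m ‖coeff m f‖ ρ ^ |m|`, `0 < ρ < 1`.  It is a complete ultrametric normed commutative
ring, and evaluation at a point of the closed polydisc of radius `ρ` is a contractive ring
homomorphism.
-/

set_option autoImplicit false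

namespace Crest.Agent.LT.Chart

open MvPowerSeries Finsupp Filter Topology
open Crest.Agent.Lib.LT.EvalS
open Crest.Agent.Lib.LT.FormalIFT (Ord)

variable (σ : Type*) (R : Type*) [NormedField R] [IsUltrametricDist R]

/-- Bounded series as a subring. -/
def bddSub : Subring (MvPowerSeries σ R) where
  carrier := {f | ∀ m, ‖coeff m f‖ ≤ 1}
  mul_mem' := by
    classical
    intro a b ha hb m
    rw [coeff_mul]
    refine IsUltrametricDist.norm_sum_le_of_forall_le_of_nonneg zero_le_one fun x _ => ?_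
    rw [norm_mul]
    exact mul_le_one₀ (ha _) (norm_nonneg _) (hb _)
  one_mem' := by
    classical
    intro m
    rw [coeff_one]
    split_ifs <;> simp
  add_mem' := by
    intro a b ha hb m
    rw [map_add]
    exact (IsUltrametricDist.norm_add_le_max _ _).trans (max_le (ha m) (hb m))
  zero_mem' := by intro m; simp
  neg_mem' := by
    intro a ha m
    rw [map_neg, norm_neg]
    exact ha m

/-- Bounded series, with a radius for the Gauss norm. -/
def GB (_ρ : ℝ) : Type _ := bddSub σ R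

namespace GB

variable {σ R} {ρ : ℝ}

noncomputable instance instCommRing : CommRing (GB σ R ρ) :=
  inferInstanceAs (CommRing (bddSub σ R))

/-- The underlying series. -/
def toSeries (f : GB σ R ρ) : MvPowerSeries σ R := f.1

theorem norm_coeff_le_one (f : GB σ R ρ) (m : σ →₀ ℕ) : ‖coeff m f.toSeries‖ ≤ 1 := f.2 m

/-- Build an element. -/
def mk (f : MvPowerSeries σ R) (hf : ∀ m, ‖coeff m f‖ ≤ 1) : GB σ R ρ := ⟨f, hf⟩

@[simp] theorem toSeries_mk (f : MvPowerSeries σ R) (hf : ∀ m, ‖coeff m f‖ ≤ 1) :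
    (mk f hf : GB σ R ρ).toSeries = f := rfl

@[ext] theorem ext' {f g : GB σ R ρ} (h : f.toSeries = g.toSeries) : f = g := Subtype.ext h

@[simp] theorem toSeries_add (f g : GB σ R ρ) : (f + g).toSeries = f.toSeries + g.toSeries := rfl
@[simp] theorem toSeries_sub (f g : GB σ R ρ) : (f - g).toSeries = f.toSeries - g.toSeries := rfl
@[simp] theorem toSeries_neg (f : GB σ R ρ) : (-f).toSeries = -f.toSeries := rfl
@[simp] theorem toSeries_mul (f g : GB σ R ρ) : (f * g).toSeries = f.toSeries * g.toSeries := rfl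
@[simp] theorem toSeries_zero : (0 : GB σ R ρ).toSeries = 0 := rfl
@[simp] theorem toSeries_one : (1 : GB σ R ρ).toSeries = 1 := rfl
@[simp] theorem toSeries_pow (f : GB σ R ρ) (n : ℕ) : (f ^ n).toSeries = f.toSeries ^ n := rfl

/-- `toSeries` as a ring homomorphism. -/
noncomputable def toSeriesHom : GB σ R ρ →+* MvPowerSeries σ R := (bddSub σ R).subtype

@[simp] theorem toSeriesHom_apply (f : GB σ R ρ) : (toSeriesHom f) = f.toSeries := rfl

theorem toSeries_injective : Function.Injective (toSeries : GB σ R ρ → MvPowerSeries σ R) :=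
  fun _ _ h => ext' h

/-- The Gauss norm. -/
noncomputable def gnorm (ρ : ℝ) (f : GB σ R ρ) : ℝ :=
  ⨆ m : σ →₀ ℕ, ‖coeff m f.toSeries‖ * ρ ^ degree m

section Norm

variable [hρ0 : Fact (0 < ρ)] [hρ1 : Fact (ρ < 1)]

theorem bdd_term (f : GB σ R ρ) :
    BddAbove (Set.range fun m : σ →₀ ℕ => ‖coeff m f.toSeries‖ * ρ ^ degree m) := by
  refine ⟨1, ?_⟩
  rintro _ ⟨m, rfl⟩
  exact mul_le_one₀ (f.norm_coeff_le_one m) (pow_nonneg hρ0.out.le _)
    (pow_le_one₀ hρ0.out.le hρ1.out.le)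

theorem le_gnorm (f : GB σ R ρ) (m : σ →₀ ℕ) :
    ‖coeff m f.toSeries‖ * ρ ^ degree m ≤ gnorm ρ f :=
  le_ciSup (bdd_term f) m

theorem gnorm_nonneg (f : GB σ R ρ) : 0 ≤ gnorm ρ f :=
  (mul_nonneg (norm_nonneg _) (pow_nonneg hρ0.out.le _)).trans (le_gnorm f 0)

theorem gnorm_le (f : GB σ R ρ) {c : ℝ} (h : ∀ m, ‖coeff m f.toSeries‖ * ρ ^ degree m ≤ c) :
    gnorm ρ f ≤ c := ciSup_le h

theorem gnorm_mul_le [DecidableEq σ] (f g : GB σ R ρ) :
    gnorm ρ (f * g) ≤ gnorm ρ f * gnorm ρ g := by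
  refine gnorm_le _ fun m => ?_
  have hpos : 0 < ρ ^ degree m := pow_pos hρ0.out _
  rw [← le_div_iff₀ hpos, toSeries_mul, coeff_mul]
  refine IsUltrametricDist.norm_sum_le_of_forall_le_of_nonneg
    (div_nonneg (mul_nonneg (gnorm_nonneg f) (gnorm_nonneg g)) hpos.le) fun x hx => ?_
  rw [le_div_iff₀ hpos, norm_mul]
  have hdeg : degree m = degree x.1 + degree x.2 := by
    have h1 : x.1 + x.2 = m := Finset.HasAntidiagonal.mem_antidiagonal.mp hx
    rw [← h1, map_add]
  rw [hdeg, pow_add]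
  calc ‖coeff x.1 f.toSeries‖ * ‖coeff x.2 g.toSeries‖ * (ρ ^ degree x.1 * ρ ^ degree x.2)
      = (‖coeff x.1 f.toSeries‖ * ρ ^ degree x.1) * (‖coeff x.2 g.toSeries‖ * ρ ^ degree x.2) := by
        ring
    _ ≤ gnorm ρ f * gnorm ρ g :=
        mul_le_mul (le_gnorm f _) (le_gnorm g _)
          (mul_nonneg (norm_nonneg _) (pow_nonneg hρ0.out.le _)) (gnorm_nonneg f)

theorem gnorm_add_le_max (f g : GB σ R ρ) :
    gnorm ρ (f + g) ≤ max (gnorm ρ f) (gnorm ρ g) := by
  refine gnorm_le _ fun m => ?_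
  rw [toSeries_add, map_add]
  have hp : 0 ≤ ρ ^ degree m := pow_nonneg hρ0.out.le _
  calc ‖coeff m f.toSeries + coeff m g.toSeries‖ * ρ ^ degree m
      ≤ max ‖coeff m f.toSeries‖ ‖coeff m g.toSeries‖ * ρ ^ degree m :=
        mul_le_mul_of_nonneg_right (IsUltrametricDist.norm_add_le_max _ _) hp
    _ = max (‖coeff m f.toSeries‖ * ρ ^ degree m) (‖coeff m g.toSeries‖ * ρ ^ degree m) :=
        max_mul_of_nonneg _ _ hp
    _ ≤ _ := max_le_max (le_gnorm f m) (le_gnorm g m)

theorem gnorm_neg (f : GB σ R ρ) : gnorm ρ (-f) = gnorm ρ f := by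
  simp [gnorm]

theorem gnorm_zero [Nonempty (σ →₀ ℕ)] : gnorm ρ (0 : GB σ R ρ) = 0 := by
  simp [gnorm]

theorem eq_zero_of_gnorm {f : GB σ R ρ} (h : gnorm ρ f = 0) : f = 0 := by
  apply ext'
  ext m
  have h1 := le_gnorm f m
  rw [h] at h1
  have hp : 0 < ρ ^ degree m := pow_pos hρ0.out _
  have h2 : ‖coeff m f.toSeries‖ ≤ 0 := by
    by_contra hcon
    rw [not_le] at hcon
    have := mul_pos hcon hp
    linarith
  simpa using norm_le_zero_iff.mp h2

/-- The Gauss norm as a ring norm. -/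
noncomputable def ringNorm [DecidableEq σ] : RingNorm (GB σ R ρ) where
  toFun := gnorm ρ
  map_zero' := gnorm_zero
  add_le' f g := (gnorm_add_le_max f g).trans
    (max_le (le_add_of_nonneg_right (gnorm_nonneg g)) (le_add_of_nonneg_left (gnorm_nonneg f)))
  neg' := gnorm_neg
  mul_le' := gnorm_mul_le
  eq_zero_of_map_eq_zero' _ h := eq_zero_of_gnorm h

noncomputable instance instNormedCommRing [DecidableEq σ] : NormedCommRing (GB σ R ρ) where
  toNormedRing := RingNorm.toNormedRing (ringNorm (σ := σ) (R := R) (ρ := ρ))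
  mul_comm := mul_comm

variable [DecidableEq σ]

theorem norm_def (f : GB σ R ρ) : ‖f‖ = gnorm ρ f := rfl

theorem coeff_mul_le (f : GB σ R ρ) (m : σ →₀ ℕ) :
    ‖coeff m f.toSeries‖ * ρ ^ degree m ≤ ‖f‖ := le_gnorm f m

theorem norm_le_iff (f : GB σ R ρ) {c : ℝ} :
    ‖f‖ ≤ c ↔ ∀ m, ‖coeff m f.toSeries‖ * ρ ^ degree m ≤ c :=
  ⟨fun h m => (coeff_mul_le f m).trans h, fun h => gnorm_le f h⟩

theorem norm_le_one (f : GB σ R ρ) : ‖f‖ ≤ 1 :=
  gnorm_le f fun m => mul_le_one₀ (f.norm_coeff_le_one m) (pow_nonneg hρ0.out.le _)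
    (pow_le_one₀ hρ0.out.le hρ1.out.le)

instance instNormOneClass [NormOneClass R] : NormOneClass (GB σ R ρ) := by
  refine ⟨le_antisymm (norm_le_one 1) ?_⟩
  have := coeff_mul_le (1 : GB σ R ρ) 0
  simpa using this

instance instUltra : IsUltrametricDist (GB σ R ρ) :=
  IsUltrametricDist.isUltrametricDist_of_forall_norm_add_le_max_norm gnorm_add_le_max

/-- Extraction of a coefficient is bounded. -/
theorem norm_coeff_le (f : GB σ R ρ) (m : σ →₀ ℕ) :
    ‖coeff m f.toSeries‖ ≤ ‖f‖ / ρ ^ degree m := by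
  rw [le_div_iff₀ (pow_pos hρ0.out _)]
  exact coeff_mul_le f m

instance instComplete [CompleteSpace R] [NormOneClass R] : CompleteSpace (GB σ R ρ) := by
  refine Metric.complete_of_cauchySeq_tendsto fun u hu => ?_
  -- coefficientwise Cauchy
  have hc : ∀ m, CauchySeq fun n => coeff m (u n).toSeries := by
    intro m
    rw [Metric.cauchySeq_iff] at hu ⊢
    intro ε hε
    have hp : 0 < ρ ^ degree m := pow_pos hρ0.out _
    obtain ⟨N, hN⟩ := hu (ε * ρ ^ degree m) (mul_pos hε hp)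
    refine ⟨N, fun a ha b hb => ?_⟩
    have h1 := hN a ha b hb
    rw [dist_eq_norm] at h1 ⊢
    have h2 := norm_coeff_le (u a - u b) m
    rw [toSeries_sub, map_sub] at h2
    refine lt_of_le_of_lt h2 ?_
    rwa [div_lt_iff₀ hp]
  choose L hL using fun m => cauchySeq_tendsto_of_complete (hc m)
  have hL1 : ∀ m, ‖L m‖ ≤ 1 := fun m =>
    le_of_tendsto (hL m).norm (Eventually.of_forall fun n => (u n).norm_coeff_le_one m)
  let f : GB σ R ρ := mk (fun m => L m) hL1
  have hf : ∀ m, coeff m f.toSeries = L m := fun m => rfl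
  refine ⟨f, ?_⟩
  rw [Metric.tendsto_atTop]
  intro ε hε
  rw [Metric.cauchySeq_iff] at hu
  obtain ⟨N, hN⟩ := hu (ε / 2) (half_pos hε)
  refine ⟨N, fun n hn => ?_⟩
  rw [dist_eq_norm]
  refine lt_of_le_of_lt ((norm_le_iff _).mpr fun m => ?_) (half_lt_self hε)
  rw [toSeries_sub, map_sub, hf]
  have hp : 0 ≤ ρ ^ degree m := pow_nonneg hρ0.out.le _
  have ht : Tendsto (fun b => ‖coeff m (u n).toSeries - coeff m (u b).toSeries‖ * ρ ^ degree m)
      atTop (𝓝 (‖coeff m (u n).toSeries - L m‖ * ρ ^ degree m)) :=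
    (((hL m).const_sub _).norm).mul_const _
  refine le_of_tendsto ht ((eventually_ge_atTop N).mono fun b hb => ?_)
  have h1 := (hN n hn b hb).le
  rw [dist_eq_norm] at h1
  have := coeff_mul_le (u n - u b) m
  rw [toSeries_sub, map_sub] at this
  exact this.trans h1

end Norm

section Eval

variable [DecidableEq σ] [Fintype σ] [CompleteSpace R] [hρ0 : Fact (0 < ρ)] [hρ1 : Fact (ρ < 1)]

/-- Evaluation at a point of the closed polydisc of radius `ρ`. -/
noncomputable def evPt (δ : σ → R) (hδ : ‖δ‖ ≤ ρ) : GB σ R ρ →+* R where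
  toFun f := ev f.toSeries δ
  map_one' := ev_one δ
  map_mul' f g := ev_mul f.2 g.2 (hδ.trans_lt hρ1.out)
  map_zero' := ev_zero δ
  map_add' f g := ev_add f.2 g.2 (hδ.trans_lt hρ1.out)

@[simp] theorem evPt_apply (δ : σ → R) (hδ : ‖δ‖ ≤ ρ) (f : GB σ R ρ) :
    evPt δ hδ f = ev f.toSeries δ := rfl

theorem norm_evPt_le (δ : σ → R) (hδ : ‖δ‖ ≤ ρ) (f : GB σ R ρ) : ‖evPt δ hδ f‖ ≤ ‖f‖ := by
  refine IsUltrametricDist.norm_tsum_le_of_forall_le_of_nonneg (norm_nonneg _) fun m => ?_
  rw [norm_mul]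
  refine le_trans ?_ (coeff_mul_le f m)
  refine mul_le_mul_of_nonneg_left ((norm_mono_le δ m).trans ?_) (norm_nonneg _)
  exact pow_le_pow_left₀ (norm_nonneg _) hδ _

end Eval

section Const

variable [DecidableEq σ] [hρ0 : Fact (0 < ρ)] [hρ1 : Fact (ρ < 1)]

/-- Constant of norm at most one. -/
noncomputable def const (c : R) (hc : ‖c‖ ≤ 1) : GB σ R ρ :=
  mk (MvPowerSeries.C c) (by
    classical
    intro m
    rw [coeff_C]
    split_ifs
    · exact hc
    · simp)

@[simp] theorem toSeries_const (c : R) (hc : ‖c‖ ≤ 1) :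
    (const c hc : GB σ R ρ).toSeries = MvPowerSeries.C c := rfl

theorem norm_const_le (c : R) (hc : ‖c‖ ≤ 1) : ‖(const c hc : GB σ R ρ)‖ ≤ ‖c‖ := by
  rw [norm_le_iff]
  intro m
  rw [toSeries_const, coeff_C]
  split_ifs with h
  · subst h
    simp
  · simp

theorem const_pow (c : R) (hc : ‖c‖ ≤ 1) (n : ℕ) (hcn : ‖c ^ n‖ ≤ 1) :
    (const c hc : GB σ R ρ) ^ n = const (c ^ n) hcn := by
  apply ext'
  simp

/-- The coordinate functions. -/
noncomputable def var [NormOneClass R] (i : σ) : GB σ R ρ :=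
  mk (MvPowerSeries.X i) (by
    classical
    intro m
    rw [coeff_X]
    split_ifs <;> simp)

@[simp] theorem toSeries_var [NormOneClass R] (i : σ) :
    (var i : GB σ R ρ).toSeries = MvPowerSeries.X i := rfl

theorem norm_var_le [NormOneClass R] (i : σ) : ‖(var i : GB σ R ρ)‖ ≤ ρ := by
  rw [norm_le_iff]
  intro m
  rw [toSeries_var, coeff_X]
  split_ifs with h
  · subst h
    simp
  · simpa using hρ0.out.le

instance instCharP [NormOneClass R] (p : ℕ) [CharP R p] : CharP (GB σ R ρ) p := by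
  have h1 : CharP (MvPowerSeries σ R) p :=
    charP_of_injective_ringHom (f := (MvPowerSeries.C : R →+* MvPowerSeries σ R))
      (fun a b h => by simpa using congrArg (MvPowerSeries.coeff 0) h) p
  exact (RingHom.charP_iff (toSeriesHom : GB σ R ρ →+* MvPowerSeries σ R)
    toSeries_injective p).mpr h1

/-- coefficient `m` of `toSeries` as an additive map: continuous. -/
theorem tendsto_coeff_of_tendsto {u : ℕ → GB σ R ρ} {a : GB σ R ρ}
    (h : Tendsto u atTop (𝓝 a)) (m : σ →₀ ℕ) :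
    Tendsto (fun n => coeff m (u n).toSeries) atTop (𝓝 (coeff m a.toSeries)) := by
  rw [tendsto_iff_norm_sub_tendsto_zero] at h ⊢
  have hp : 0 < ρ ^ degree m := pow_pos hρ0.out _
  have h2 : Tendsto (fun n => ‖u n - a‖ / ρ ^ degree m) atTop (𝓝 0) := by
    simpa using h.div_const (ρ ^ degree m)
  refine squeeze_zero (fun _ => norm_nonneg _) (fun n => ?_) h2
  have := norm_coeff_le (u n - a) m
  rwa [toSeries_sub, map_sub] at this

end Const

end GB

end Crest.Agent.LT.Chart
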