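import Mathlib
import Crest.Agent.Lib.LT.ChartGauss

/-!
# Identity theorem for bounded series, translation

* `eq_of_ev_eq`: two bounded series with the same values on a small polydisc are equal;
* `transl ξ f`: the series `δ ↦ f (ξ + δ)`.
-/

set_option autoImplicit false

namespace Crest.Agent.LT.Chart

open MvPowerSeries Finsupp Filter Topology
open Crest.Agent.Lib.LT.EvalS
open Crest.Agent.Lib.LT.FormalIFT (Ord)

variable {σ : Type*} [Fintype σ] [DecidableEq σ]
variable {R : Type*} [NontriviallyNormedField R] [IsUltrametricDist R] [CompleteSpace R]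

omit [Fintype σ] [DecidableEq σ] in
theorem mono_smul [Fintype σ] [DecidableEq σ] (t : R) (x : σ → R) (m : σ →₀ ℕ) :
    mono (fun i => t * x i) m = t ^ degree m * mono x m := by
  classical
  induction m using Finsupp.induction_linear with
  | zero => simp
  | add f g hf hg =>
    rw [mono_add, mono_add, hf, hg, map_add, pow_add]
    ring
  | single i k =>
    rw [mono_single, mono_single, degree_single, mul_pow]

/-- A bounded series vanishing on a small polydisc vanishes. -/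
theorem eq_zero_of_ev_eq_zero {f : MvPowerSeries σ R} (hf : IntS f) {r : ℝ} (hr : 0 < r)
    (hr1 : r ≤ 1) (h : ∀ δ : σ → R, ‖δ‖ < r → ev f δ = 0) : f = 0 := by
  classical
  by_contra hne
  have hex : ∃ d, ∃ m : σ →₀ ℕ, degree m = d ∧ coeff m f ≠ 0 := by
    by_contra hcon
    push Not at hcon
    apply hne
    ext m
    simpa using hcon _ m rfl
  set d := Nat.find hex with hd
  obtain ⟨m₀, hm₀, hcm₀⟩ := Nat.find_spec hex
  have hord : Ord d f := by
    intro e he
    by_contra hcon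
    exact Nat.find_min hex he ⟨e, rfl, hcon⟩
  -- the leading polynomial
  let Q : MvPolynomial σ R :=
    ∑ m ∈ lowDeg σ (d + 1), MvPolynomial.monomial m (coeff m f)
  have hQ : Q ≠ 0 := by
    intro h0
    have h1 : MvPolynomial.coeff m₀ Q = coeff m₀ f := by
      simp only [Q, MvPolynomial.coeff_sum, MvPolynomial.coeff_monomial]
      rw [Finset.sum_ite_eq']
      rw [if_pos (mem_lowDeg.mpr (by omega))]
    rw [h0] at h1
    simp only [MvPolynomial.coeff_zero] at h1
    exact hcm₀ h1.symm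
  have hex0 : ∃ x₀ : σ → R, MvPolynomial.eval x₀ Q ≠ 0 := by
    by_contra hcon
    push Not at hcon
    exact hQ (MvPolynomial.funext fun x => by simp [hcon x])
  obtain ⟨x₀, hx₀⟩ := hex0
  have hQpos : 0 < ‖MvPolynomial.eval x₀ Q‖ := norm_pos_iff.mpr hx₀
  set A : ℝ := ‖x₀‖ + 1 with hA
  have hA1 : 1 ≤ A := by simp [hA]
  have hApos : 0 < A := by linarith
  obtain ⟨t, ht0, ht⟩ := NormedField.exists_norm_lt R
    (lt_min (div_pos hr hApos) (div_pos hQpos (pow_pos hApos (d + 1))))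
  have ht1 : ‖t‖ < r / A := lt_of_lt_of_le ht (min_le_left _ _)
  have ht2 : ‖t‖ < ‖MvPolynomial.eval x₀ Q‖ / A ^ (d + 1) := lt_of_lt_of_le ht (min_le_right _ _)
  set δ : σ → R := fun i => t * x₀ i with hδ
  have hδle : ‖δ‖ ≤ ‖t‖ * ‖x₀‖ := by
    refine (pi_norm_le_iff_of_nonneg (by positivity)).mpr fun i => ?_
    simp only [hδ, norm_mul]
    exact mul_le_mul_of_nonneg_left (norm_le_pi_norm x₀ i) (norm_nonneg _)
  have hδr : ‖δ‖ < r := by
    refine lt_of_le_of_lt hδle ?_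
    rw [lt_div_iff₀ hApos] at ht1
    refine lt_of_le_of_lt ?_ ht1
    exact mul_le_mul_of_nonneg_left (by simp [hA]) (norm_nonneg _)
  have hδ1 : ‖δ‖ < 1 := lt_of_lt_of_le hδr hr1
  have hzero := h δ hδr
  -- split
  have hsplit : ev f δ = ev (trS (d + 1) f) δ + ev (f - trS (d + 1) f) δ := by
    rw [← ev_add (intS_trS hf) (hf.sub (intS_trS hf)) hδ1]
    congr 1
    ring
  have hlead : ev (trS (d + 1) f) δ = t ^ d * MvPolynomial.eval x₀ Q := by
    rw [ev_trS]
    simp only [Q, map_sum, MvPolynomial.eval_monomial]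
    rw [Finset.mul_sum]
    refine Finset.sum_congr rfl fun m hm => ?_
    have hmd : degree m < d + 1 := mem_lowDeg.mp hm
    by_cases hlt : degree m < d
    · rw [hord m hlt]
      simp
    · have hdm : degree m = d := by omega
      have hmono : mono x₀ m = m.prod fun i e => x₀ i ^ e := rfl
      rw [← hmono, hδ, mono_smul, hdm]
      ring
  have hrest : ‖ev (f - trS (d + 1) f) δ‖ ≤ ‖δ‖ ^ (d + 1) :=
    norm_ev_le_of_ord (hf.sub (intS_trS hf)) hδ1 (ord_sub_trS (d + 1) f)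
  have heq : t ^ d * MvPolynomial.eval x₀ Q = - ev (f - trS (d + 1) f) δ := by
    rw [← hlead]
    rw [hsplit] at hzero
    linear_combination hzero
  have hnorm : ‖t‖ ^ d * ‖MvPolynomial.eval x₀ Q‖ ≤ (‖t‖ * ‖x₀‖) ^ (d + 1) := by
    have h1 : ‖t ^ d * MvPolynomial.eval x₀ Q‖ = ‖t‖ ^ d * ‖MvPolynomial.eval x₀ Q‖ := by
      rw [norm_mul, norm_pow]
    rw [← h1, heq, norm_neg]
    exact hrest.trans (pow_le_pow_left₀ (norm_nonneg _) hδle _)
  have ht0' : 0 < ‖t‖ := ht0
  have hfinal : ‖MvPolynomial.eval x₀ Q‖ ≤ ‖t‖ * ‖x₀‖ ^ (d + 1) := by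
    have h2 : (‖t‖ * ‖x₀‖) ^ (d + 1) = ‖t‖ ^ d * (‖t‖ * ‖x₀‖ ^ (d + 1)) := by
      rw [mul_pow, pow_succ]
      ring
    rw [h2] at hnorm
    exact le_of_mul_le_mul_left hnorm (pow_pos ht0' d)
  have hlt : ‖t‖ * ‖x₀‖ ^ (d + 1) < ‖MvPolynomial.eval x₀ Q‖ := by
    rw [lt_div_iff₀ (pow_pos hApos _)] at ht2
    refine lt_of_le_of_lt ?_ ht2
    refine mul_le_mul_of_nonneg_left ?_ (norm_nonneg _)
    exact pow_le_pow_left₀ (norm_nonneg _) (by simp [hA]) _
  linarith

/-- Identity theorem. -/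
theorem eq_of_ev_eq {f g : MvPowerSeries σ R} (hf : IntS f) (hg : IntS g) {r : ℝ} (hr : 0 < r)
    (hr1 : r ≤ 1) (h : ∀ δ : σ → R, ‖δ‖ < r → ev f δ = ev g δ) : f = g := by
  have := eq_zero_of_ev_eq_zero (hf.sub hg) hr hr1 (fun δ hδ => by
    rw [ev_sub hf hg (hδ.trans_le hr1), h δ hδ, sub_self])
  exact sub_eq_zero.mp this

/-! ### Translation -/

/-- The series `f (x + y)` in two blocks of variables. -/
noncomputable def transΦ (f : MvPowerSeries σ R) : MvPowerSeries (σ ⊕ σ) R :=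
  f.subst (fun i => (X (Sum.inl i) + X (Sum.inr i) : MvPowerSeries (σ ⊕ σ) R))

omit [DecidableEq σ] in
theorem transΦ_arg_ord (i : σ) :
    Ord 1 (X (Sum.inl i) + X (Sum.inr i) : MvPowerSeries (σ ⊕ σ) R) := by
  classical
  refine Crest.Agent.Lib.LT.FormalIFT.ord_one_iff.mpr ?_
  simp

omit [DecidableEq σ] in
theorem transΦ_arg_int (i : σ) :
    IntS (X (Sum.inl i) + X (Sum.inr i) : MvPowerSeries (σ ⊕ σ) R) :=
  (intS_X _).add (intS_X _)

omit [DecidableEq σ] in
theorem intS_transΦ {f : MvPowerSeries σ R} (hf : IntS f) : IntS (transΦ f) :=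
  IntS.subst (Crest.Agent.Lib.LT.FormalIFT.hasSubst_of_ord transΦ_arg_ord)
    transΦ_arg_int hf

/-- `f (ξ + δ)` as a series in `δ`. -/
noncomputable def transl (ξ : σ → R) (f : MvPowerSeries σ R) : MvPowerSeries σ R :=
  partialEv (transΦ f) ξ

omit [DecidableEq σ] in
theorem intS_transl {f : MvPowerSeries σ R} (hf : IntS f) {ξ : σ → R} (hξ : ‖ξ‖ < 1) :
    IntS (transl ξ f) :=
  (intS_transΦ hf).partialEv hξ

theorem ev_transl {f : MvPowerSeries σ R} (hf : IntS f) {ξ δ : σ → R} (hξ : ‖ξ‖ < 1)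
    (hδ : ‖δ‖ < 1) : ev (transl ξ f) δ = ev f (δ + ξ) := by
  rw [transl, ev_partialEv (intS_transΦ hf) hδ hξ, transΦ]
  have hxy : ‖(Sum.elim δ ξ : σ ⊕ σ → R)‖ < 1 := by
    rw [norm_sumElim]
    exact max_lt hδ hξ
  rw [ev_subst hf transΦ_arg_int transΦ_arg_ord hxy]
  congr 1
  funext i
  rw [ev_add (intS_X _) (intS_X _) hxy, ev_X, ev_X]
  simp

theorem transl_add {f g : MvPowerSeries σ R} (hf : IntS f) (hg : IntS g) {ξ : σ → R}
    (hξ : ‖ξ‖ < 1) : transl ξ (f + g) = transl ξ f + transl ξ g := by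
  refine eq_of_ev_eq (intS_transl (hf.add hg) hξ)
    ((intS_transl hf hξ).add (intS_transl hg hξ)) (r := 1) one_pos le_rfl fun δ hδ => ?_
  rw [ev_add (intS_transl hf hξ) (intS_transl hg hξ) hδ, ev_transl (hf.add hg) hξ hδ,
    ev_transl hf hξ hδ, ev_transl hg hξ hδ]
  have : ‖δ + ξ‖ < 1 :=
    lt_of_le_of_lt (IsUltrametricDist.norm_add_le_max _ _) (max_lt hδ hξ)
  exact ev_add hf hg this

theorem transl_mul {f g : MvPowerSeries σ R} (hf : IntS f) (hg : IntS g) {ξ : σ → R}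
    (hξ : ‖ξ‖ < 1) : transl ξ (f * g) = transl ξ f * transl ξ g := by
  refine eq_of_ev_eq (intS_transl (hf.mul hg) hξ)
    ((intS_transl hf hξ).mul (intS_transl hg hξ)) (r := 1) one_pos le_rfl fun δ hδ => ?_
  rw [ev_mul (intS_transl hf hξ) (intS_transl hg hξ) hδ, ev_transl (hf.mul hg) hξ hδ,
    ev_transl hf hξ hδ, ev_transl hg hξ hδ]
  have : ‖δ + ξ‖ < 1 :=
    lt_of_le_of_lt (IsUltrametricDist.norm_add_le_max _ _) (max_lt hδ hξ)
  exact ev_mul hf hg this

theorem transl_one {ξ : σ → R} (hξ : ‖ξ‖ < 1) :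
    transl ξ (1 : MvPowerSeries σ R) = 1 := by
  refine eq_of_ev_eq (intS_transl intS_one hξ) intS_one (r := 1) one_pos le_rfl fun δ hδ => ?_
  rw [ev_transl intS_one hξ hδ, ev_one, ev_one]

theorem transl_zero {ξ : σ → R} (hξ : ‖ξ‖ < 1) :
    transl ξ (0 : MvPowerSeries σ R) = 0 := by
  refine eq_of_ev_eq (intS_transl IntS.zero hξ) IntS.zero (r := 1) one_pos le_rfl fun δ hδ => ?_
  rw [ev_transl IntS.zero hξ hδ, ev_zero, ev_zero]

theorem transl_at_zero {f : MvPowerSeries σ R} (hf : IntS f) :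
    transl (0 : σ → R) f = f := by
  refine eq_of_ev_eq (intS_transl hf (by simp)) hf (r := 1) one_pos le_rfl fun δ hδ => ?_
  rw [ev_transl hf (by simp) hδ, add_zero]

omit [DecidableEq σ] in
/-- `ev h x` is close to the constant term. -/
theorem norm_ev_sub_const_le {h : MvPowerSeries σ R} (hh : IntS h) {x : σ → R} (hx : ‖x‖ < 1) :
    ‖ev h x - coeff 0 h‖ ≤ ‖x‖ := by
  have hC : IntS (C (coeff 0 h) : MvPowerSeries σ R) := intS_C (hh 0)
  have h1 : ev h x - coeff 0 h = ev (h - C (coeff 0 h)) x := by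
    rw [ev_sub hh hC hx, ev_C]
  rw [h1]
  have hord : Ord 1 (h - C (coeff 0 h)) := by
    refine Crest.Agent.Lib.LT.FormalIFT.ord_one_iff.mpr ?_
    simp
  simpa using norm_ev_le_of_ord (hh.sub hC) hx hord

omit [DecidableEq σ] in
theorem ev_zero_pt {h : MvPowerSeries σ R} (hh : IntS h) : ev h (0 : σ → R) = coeff 0 h := by
  have := norm_ev_sub_const_le hh (x := (0 : σ → R)) (by simp)
  rw [norm_zero] at this
  exact sub_eq_zero.mp (norm_le_zero_iff.mp this)

/-- Coefficients of the translate are close to those of the series. -/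
theorem norm_coeff_transl_sub_le {f : MvPowerSeries σ R} (hf : IntS f) {ξ : σ → R} (hξ : ‖ξ‖ < 1)
    (a : σ →₀ ℕ) : ‖coeff a (transl ξ f) - coeff a f‖ ≤ ‖ξ‖ := by
  have hh : IntS (slice (transΦ f) a) := (intS_transΦ hf).slice a
  have h1 : coeff a (transl ξ f) = ev (slice (transΦ f) a) ξ := coeff_partialEv _ _ _
  have h2 : coeff a f = coeff 0 (slice (transΦ f) a) := by
    conv_lhs => rw [← transl_at_zero hf]
    rw [transl, coeff_partialEv, ev_zero_pt hh]
  rw [h1, h2]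
  exact norm_ev_sub_const_le hh hξ

end Crest.Agent.LT.Chart
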