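import Mathlib

/-!
# The limit map `Ψ` over a complete ultrametric ring (core, abstract over point maps)

`S` is a complete ultrametric normed commutative ring.  A *p-map* is a map `pH : S → S` which on
the open unit ball is close to the `q`-th power map and contracts (`‖pH a - pH b‖ ≤ ‖a - b‖ ^ qk`).
For a *tower* `x : ℕ → S`, `x (N+1) ^ q = x N`, `‖x N‖ < 1`, we set
`Ψ x := lim_N pH^[N] (x N)`.

This file contains no formal group law: the laws only enter through point maps.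
-/

set_option autoImplicit false

namespace Crest.Agent.LT.PsiCore

open Filter Topology

variable {S : Type*} [NormedCommRing S] [NormOneClass S] [IsUltrametricDist S]
variable {S' : Type*} [NormedCommRing S'] [NormOneClass S'] [IsUltrametricDist S']

/-- The open unit ball. -/
abbrev Ball (S : Type*) [NormedCommRing S] : Set S := {a | ‖a‖ < 1}

/-- A `p`-map with parameters `q`, `qk`, `ρ`. -/
structure PMap (q qk : ℕ) (ρ : ℝ) (pH : S → S) : Prop where
  ρ_nonneg : 0 ≤ ρ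
  ρ_lt : ρ < 1
  qk_pos : 2 ≤ qk
  maps : ∀ a, ‖a‖ < 1 → ‖pH a‖ < 1
  close : ∀ a, ‖a‖ < 1 → ‖pH a - a ^ q‖ ≤ ρ
  lip : ∀ a b, ‖a‖ < 1 → ‖b‖ < 1 → ‖pH a - pH b‖ ≤ ‖a - b‖ ^ qk

/-- A tower of `q`-th roots inside the open unit ball. -/
structure IsTower (q : ℕ) (x : ℕ → S) : Prop where
  pow_succ : ∀ N, x (N + 1) ^ q = x N
  lt_one : ∀ N, ‖x N‖ < 1

variable {q qk : ℕ} {ρ : ℝ} {pH : S → S}

theorem PMap.iterate_maps (h : PMap q qk ρ pH) (N : ℕ) (a : S) (ha : ‖a‖ < 1) :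
    ‖pH^[N] a‖ < 1 := by
  induction N generalizing a with
  | zero => simpa using ha
  | succ N ih => rw [Function.iterate_succ_apply]; exact ih _ (h.maps a ha)

theorem PMap.iterate_lip (h : PMap q qk ρ pH) (N : ℕ) (a b : S) (ha : ‖a‖ < 1) (hb : ‖b‖ < 1) :
    ‖pH^[N] a - pH^[N] b‖ ≤ ‖a - b‖ ^ (qk ^ N) := by
  induction N with
  | zero => simp
  | succ N ih =>
    rw [Function.iterate_succ_apply', Function.iterate_succ_apply']
    refine (h.lip _ _ (h.iterate_maps N a ha) (h.iterate_maps N b hb)).trans ?_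
    calc ‖pH^[N] a - pH^[N] b‖ ^ qk ≤ (‖a - b‖ ^ (qk ^ N)) ^ qk :=
          pow_le_pow_left₀ (norm_nonneg _) ih _
      _ = ‖a - b‖ ^ (qk ^ (N + 1)) := by rw [← pow_mul, pow_succ]

/-- The approximating sequence of `Ψ`. -/
def psiSeq (pH : S → S) (x : ℕ → S) (N : ℕ) : S := pH^[N] (x N)

theorem IsTower.pow_lt_one {x : ℕ → S} (hx : IsTower q x) (N : ℕ) : ‖x (N + 1) ^ q‖ < 1 := by
  rw [hx.pow_succ]; exact hx.lt_one N

theorem psiSeq_succ_sub (h : PMap q qk ρ pH) {x : ℕ → S} (hx : IsTower q x) (N : ℕ) :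
    ‖psiSeq pH x (N + 1) - psiSeq pH x N‖ ≤ ρ ^ (qk ^ N) := by
  unfold psiSeq
  rw [Function.iterate_succ_apply]
  have h1 := h.iterate_lip N (pH (x (N + 1))) (x N) (h.maps _ (hx.lt_one _)) (hx.lt_one _)
  refine h1.trans ?_
  have h2 := h.close (x (N + 1)) (hx.lt_one _)
  rw [hx.pow_succ] at h2
  exact pow_le_pow_left₀ (norm_nonneg _) h2 _

theorem pow_qk_tendsto (h2 : 2 ≤ qk) {r : ℝ} (h0 : 0 ≤ r) (h1 : r < 1) :
    Tendsto (fun N : ℕ => r ^ (qk ^ N)) atTop (𝓝 0) := by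
  have hq : Tendsto (fun N : ℕ => qk ^ N) atTop atTop :=
    tendsto_pow_atTop_atTop_of_one_lt (by omega)
  exact (tendsto_pow_atTop_nhds_zero_of_lt_one h0 h1).comp hq

theorem psiSeq_sub_psiSeq_le (h : PMap q qk ρ pH) {x : ℕ → S} (hx : IsTower q x) (N M : ℕ)
    (hM : N ≤ M) : ‖psiSeq pH x M - psiSeq pH x N‖ ≤ ρ ^ (qk ^ N) := by
  have hq : 1 ≤ qk := by have := h.qk_pos; omega
  induction M, hM using Nat.le_induction with
  | base => simpa using pow_nonneg h.ρ_nonneg _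
  | succ M hM ih =>
    have h1 := psiSeq_succ_sub h hx M
    have h2 : ρ ^ (qk ^ M) ≤ ρ ^ (qk ^ N) :=
      pow_le_pow_of_le_one h.ρ_nonneg h.ρ_lt.le (Nat.pow_le_pow_right hq hM)
    have : psiSeq pH x (M + 1) - psiSeq pH x N =
        (psiSeq pH x (M + 1) - psiSeq pH x M) + (psiSeq pH x M - psiSeq pH x N) := by abel
    rw [this]
    exact (IsUltrametricDist.norm_add_le_max _ _).trans (max_le (h1.trans h2) ih)

theorem cauchy_psiSeq (h : PMap q qk ρ pH) {x : ℕ → S} (hx : IsTower q x) :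
    CauchySeq (psiSeq pH x) := by
  rw [Metric.cauchySeq_iff']
  intro ε hε
  have := pow_qk_tendsto h.qk_pos h.ρ_nonneg h.ρ_lt
  obtain ⟨N, hN⟩ := ((tendsto_order.1 this).2 ε hε).exists
  refine ⟨N, fun n hn => ?_⟩
  rw [dist_eq_norm]
  exact lt_of_le_of_lt (psiSeq_sub_psiSeq_le h hx N n hn) hN

variable [CompleteSpace S] [CompleteSpace S']

open Classical in
/-- `Ψ x = lim_N pH^[N] (x N)`. -/
noncomputable def Psi (pH : S → S) (x : ℕ → S) : S := limUnder atTop (psiSeq pH x)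

theorem tendsto_psi (h : PMap q qk ρ pH) {x : ℕ → S} (hx : IsTower q x) :
    Tendsto (psiSeq pH x) atTop (𝓝 (Psi pH x)) :=
  (cauchy_psiSeq h hx).tendsto_limUnder

/-- The defining rate of convergence. -/
theorem psiSeq_sub_le (h : PMap q qk ρ pH) {x : ℕ → S} (hx : IsTower q x) (N : ℕ) :
    ‖Psi pH x - psiSeq pH x N‖ ≤ ρ ^ (qk ^ N) := by
  have ht : Tendsto (fun M => ‖psiSeq pH x M - psiSeq pH x N‖) atTop
      (𝓝 ‖Psi pH x - psiSeq pH x N‖) :=
    ((tendsto_psi h hx).sub_const _).norm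
  exact le_of_tendsto ht ((eventually_ge_atTop N).mono (fun M hM => psiSeq_sub_psiSeq_le h hx N M hM))

/-- `‖Ψ x - x 0‖ ≤ ρ`. -/
theorem psi_sub_le (h : PMap q qk ρ pH) {x : ℕ → S} (hx : IsTower q x) :
    ‖Psi pH x - x 0‖ ≤ ρ := by
  have := psiSeq_sub_le h hx 0
  simpa [psiSeq] using this

theorem psi_lt_one (h : PMap q qk ρ pH) {x : ℕ → S} (hx : IsTower q x) :
    ‖Psi pH x‖ < 1 := by
  have h1 := psi_sub_le h hx
  have : Psi pH x = (Psi pH x - x 0) + x 0 := by abel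
  rw [this]
  exact lt_of_le_of_lt (IsUltrametricDist.norm_add_le_max _ _)
    (max_lt (lt_of_le_of_lt h1 h.ρ_lt) (hx.lt_one 0))

/-- Two approximations with error tending to zero have the same limit. -/
theorem eq_of_tendsto_sub {u : ℕ → S} {a b : S} (hu : Tendsto u atTop (𝓝 a))
    {v : ℕ → S} (hv : Tendsto v atTop (𝓝 b))
    (huv : Tendsto (fun N => ‖u N - v N‖) atTop (𝓝 0)) : a = b := by
  have h1 : Tendsto (fun N => u N - v N) atTop (𝓝 (a - b)) := hu.sub hv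
  have h2 : Tendsto (fun N => u N - v N) atTop (𝓝 0) := tendsto_zero_iff_norm_tendsto_zero.mpr huv
  exact sub_eq_zero.mp (tendsto_nhds_unique h1 h2)

/-- Naturality of `Ψ`.  `θ` intertwines the `p`-maps on the ball, is close to `a`, where `a ∘ x` is
a tower, and `θ` is continuous at `Ψ x`: then `θ (Ψ x) = Ψ' (a ∘ x)`.

Taking `a = θ` and `ρ' = 0` gives naturality under contractive ring homomorphisms. -/
theorem theta_psi {pH' : S' → S'} {ρ₁ ρ' : ℝ} (h : PMap q qk ρ pH) (h' : PMap q qk ρ₁ pH')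
    {θ a : S → S'} (hθp : ∀ u, ‖u‖ < 1 → θ (pH u) = pH' (θ u))
    (hθball : ∀ u, ‖u‖ < 1 → ‖θ u‖ < 1)
    (ha : ∀ u, ‖u‖ < 1 → ‖a u‖ < 1)
    (h0 : 0 ≤ ρ') (h1 : ρ' < 1) (hclose : ∀ u, ‖u‖ < 1 → ‖θ u - a u‖ ≤ ρ')
    {x : ℕ → S} (hx : IsTower q x) (hax : IsTower q (a ∘ x))
    (hcont : ContinuousAt θ (Psi pH x)) :
    θ (Psi pH x) = Psi pH' (a ∘ x) := by
  have hit : ∀ N u, ‖u‖ < 1 → θ (pH^[N] u) = pH'^[N] (θ u) := by
    intro N u hu
    induction N with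
    | zero => rfl
    | succ N ih =>
      rw [Function.iterate_succ_apply', Function.iterate_succ_apply', hθp _ (h.iterate_maps N u hu),
        ih]
  have t1 : Tendsto (fun N => θ (psiSeq pH x N)) atTop (𝓝 (θ (Psi pH x))) :=
    hcont.tendsto.comp (tendsto_psi h hx)
  refine eq_of_tendsto_sub t1 (tendsto_psi h' hax) ?_
  refine squeeze_zero (fun _ => norm_nonneg _) (fun N => ?_) (pow_qk_tendsto h.qk_pos h0 h1)
  have : θ (psiSeq pH x N) = pH'^[N] (θ (x N)) := hit N _ (hx.lt_one N)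
  rw [this]
  refine (h'.iterate_lip N _ _ (hθball _ (hx.lt_one N)) (ha _ (hx.lt_one N))).trans ?_
  exact pow_le_pow_left₀ (norm_nonneg _) (hclose _ (hx.lt_one N)) _

/-- Additivity of `Ψ`: `Ψ (x +_G y) = Ψ x +_H Ψ y`. -/
theorem psi_add (h : PMap q qk ρ pH) {addH addG : S → S → S}
    (hHball : ∀ a b, ‖a‖ < 1 → ‖b‖ < 1 → ‖addH a b‖ < 1)
    (hGball : ∀ a b, ‖a‖ < 1 → ‖b‖ < 1 → ‖addG a b‖ < 1)
    (hhom : ∀ a b, ‖a‖ < 1 → ‖b‖ < 1 → pH (addH a b) = addH (pH a) (pH b))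
    (hlip : ∀ a b a' b', ‖a‖ < 1 → ‖b‖ < 1 → ‖a'‖ < 1 → ‖b'‖ < 1 →
      ‖addH a b - addH a' b'‖ ≤ max ‖a - a'‖ ‖b - b'‖)
    {ρ' : ℝ} (h0 : 0 ≤ ρ') (h1 : ρ' < 1)
    (hclose : ∀ a b, ‖a‖ < 1 → ‖b‖ < 1 → ‖addH a b - addG a b‖ ≤ ρ')
    {x y : ℕ → S} (hx : IsTower q x) (hy : IsTower q y)
    (hxy : IsTower q fun N => addG (x N) (y N)) :
    Psi pH (fun N => addG (x N) (y N)) = addH (Psi pH x) (Psi pH y) := by
  have hit : ∀ N a b, ‖a‖ < 1 → ‖b‖ < 1 → pH^[N] (addH a b) = addH (pH^[N] a) (pH^[N] b) := by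
    intro N a b ha hb
    induction N with
    | zero => rfl
    | succ N ih =>
      rw [Function.iterate_succ_apply', Function.iterate_succ_apply',
        Function.iterate_succ_apply', ih,
        hhom _ _ (h.iterate_maps N a ha) (h.iterate_maps N b hb)]
  have t1 : Tendsto (fun N => addH (psiSeq pH x N) (psiSeq pH y N)) atTop
      (𝓝 (addH (Psi pH x) (Psi pH y))) := by
    rw [tendsto_iff_norm_sub_tendsto_zero]
    have hsum : Tendsto (fun N : ℕ => max (ρ ^ (qk ^ N)) (ρ ^ (qk ^ N))) atTop (𝓝 0) := by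
      simpa using pow_qk_tendsto h.qk_pos h.ρ_nonneg h.ρ_lt
    refine squeeze_zero (fun _ => norm_nonneg _) (fun N => ?_) hsum
    refine (hlip _ _ _ _ (h.iterate_maps N _ (hx.lt_one N)) (h.iterate_maps N _ (hy.lt_one N))
      (psi_lt_one h hx) (psi_lt_one h hy)).trans ?_
    refine max_le_max ?_ ?_
    · rw [norm_sub_rev]; exact psiSeq_sub_le h hx N
    · rw [norm_sub_rev]; exact psiSeq_sub_le h hy N
  refine (eq_of_tendsto_sub (tendsto_psi h hxy) t1 ?_)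
  refine squeeze_zero (fun _ => norm_nonneg _) (fun N => ?_) (pow_qk_tendsto h.qk_pos h0 h1)
  have : addH (psiSeq pH x N) (psiSeq pH y N) = pH^[N] (addH (x N) (y N)) :=
    (hit N _ _ (hx.lt_one N) (hy.lt_one N)).symm
  rw [this]
  refine (h.iterate_lip N _ _ (hGball _ _ (hx.lt_one N) (hy.lt_one N))
    (hHball _ _ (hx.lt_one N) (hy.lt_one N))).trans ?_
  refine pow_le_pow_left₀ (norm_nonneg _) ?_ _
  rw [norm_sub_rev]
  exact hclose _ _ (hx.lt_one N) (hy.lt_one N)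

/-- `Ψ (x ^ q) = pH (Ψ x)`, for towers. -/
theorem psi_pow (h : PMap q qk ρ pH) {x : ℕ → S} (hx : IsTower q x)
    (hxq : IsTower q fun N => x N ^ q) :
    Psi pH (fun N => x N ^ q) = pH (Psi pH x) := by
  have t1 : Tendsto (fun N => pH (psiSeq pH x N)) atTop (𝓝 (pH (Psi pH x))) := by
    rw [tendsto_iff_norm_sub_tendsto_zero]
    have ht : Tendsto (fun N : ℕ => (ρ ^ (qk ^ N)) ^ qk) atTop (𝓝 0) := by
      have := (pow_qk_tendsto h.qk_pos h.ρ_nonneg h.ρ_lt).pow qk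
      have hq : qk ≠ 0 := by have := h.qk_pos; omega
      simpa [hq] using this
    refine squeeze_zero (fun _ => norm_nonneg _) (fun N => ?_) ht
    refine (h.lip _ _ (h.iterate_maps N _ (hx.lt_one N)) (psi_lt_one h hx)).trans ?_
    refine pow_le_pow_left₀ (norm_nonneg _) ?_ _
    rw [norm_sub_rev]; exact psiSeq_sub_le h hx N
  refine eq_of_tendsto_sub (tendsto_psi h hxq) t1 ?_
  refine squeeze_zero (fun _ => norm_nonneg _) (fun N => ?_) (pow_qk_tendsto h.qk_pos h.ρ_nonneg h.ρ_lt)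
  have he : pH (psiSeq pH x N) = pH^[N] (pH (x N)) := by
    unfold psiSeq
    rw [← Function.iterate_succ_apply' pH N (x N), Function.iterate_succ_apply]
  rw [he]
  unfold psiSeq
  refine (h.iterate_lip N _ _ (hxq.lt_one N) (h.maps _ (hx.lt_one N))).trans ?_
  refine pow_le_pow_left₀ (norm_nonneg _) ?_ _
  rw [norm_sub_rev]
  exact h.close _ (hx.lt_one N)

end Crest.Agent.LT.PsiCore
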