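import Mathlib
import Crest.Prelude.Def_LubinTate
import Crest.Agent.Lib.LT.ChartTransl
import Crest.Agent.Lib.LT.ChartEval
import Crest.Agent.Lib.LT.PsiCore
import Crest.Agent.Lib.LT.FGL

/-!
# The family of laws of a height stratum over `R` and over bounded series

`Stratum p k r K` is the formal data: a commutative law `HW` over `A = K[[w_0, …, w_{r-1}]]` with
`[p]_HW (X) = g_A (X ^ (p ^ k))`, `g_A = w_0 Y + …`, `g_A ≡ Y ^ (p ^ r)` modulo `(w)`, and the
linear part of `g_A` in the `w` below degree `p ^ r`.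
-/

set_option autoImplicit false

namespace Crest.Agent.LT.Chart

open Filter Topology Crest.LubinTate
open Crest.Agent.Lib.LT.EvalS
open Crest.Agent.Lib.LT.FormalIFT (Ord)
open Crest.Agent.LT.PsiCore

/-- Formal data of a height stratum. -/
structure Stratum (p k r : ℕ) [hp : Fact p.Prime] (K : Type*) [Field K] where
  hk : 1 ≤ k
  hr : 1 ≤ r
  HW : FormalGroup (MvPowerSeries (Fin r) K)
  comm : HW.IsComm
  gA : PowerSeries (MvPowerSeries (Fin r) K)
  hp : mulSeries HW p = PowerSeries.expand (p ^ k) (pow_ne_zero k hp.out.ne_zero) gA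
  gA_zero : PowerSeries.constantCoeff gA = 0
  gA_one : ∀ h : 0 < r, PowerSeries.coeff 1 gA = MvPowerSeries.X ⟨0, h⟩
  gA_top : PowerSeries.map (MvPowerSeries.constantCoeff (σ := Fin r) (R := K)) gA =
    PowerSeries.X ^ (p ^ r)
  gA_lin : ∀ n, n < p ^ r → ∀ m : Fin r,
    MvPowerSeries.coeff (Finsupp.single m 1) (PowerSeries.coeff n gA) =
      if n = p ^ (m : ℕ) then 1 else 0
  frob : ∀ c : K, c ^ (p ^ (k + r)) = c

variable {p k r : ℕ} [hp : Fact p.Prime] {K : Type*} [Field K] (D : Stratum p k r K)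

theorem Stratum.map_constantCoeff_mulSeries :
    PowerSeries.map (MvPowerSeries.constantCoeff (σ := Fin r) (R := K)) (mulSeries D.HW p) =
      PowerSeries.X ^ (p ^ (k + r)) := by
  rw [D.hp, PowerSeries.map_expand, D.gA_top, map_pow, PowerSeries.expand_X, ← pow_mul, ← pow_add]

theorem Stratum.constantCoeff_coeff_mulSeries (n : ℕ) :
    MvPowerSeries.constantCoeff (PowerSeries.coeff n (mulSeries D.HW p)) =
      if n = p ^ (k + r) then 1 else 0 := by
  have := congrArg (PowerSeries.coeff n) D.map_constantCoeff_mulSeries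
  rw [PowerSeries.coeff_map, PowerSeries.coeff_X_pow] at this
  exact this

section S

variable {S : Type*} [NormedCommRing S] [NormOneClass S] [IsUltrametricDist S] [CompleteSpace S]

theorem int1_map_of_hom (φ : MvPowerSeries (Fin r) K →+* S) (hφ : ∀ f, ‖φ f‖ ≤ 1)
    (g : PowerSeries (MvPowerSeries (Fin r) K)) : Int1 (PowerSeries.map φ g) := fun n => by
  rw [PowerSeries.coeff_map]
  exact hφ _

/-- The `p`-map of the family over a ring `S`. -/
noncomputable def pS (φ : MvPowerSeries (Fin r) K →+* S) (x : S) : S :=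
  ev1 (PowerSeries.map φ (mulSeries D.HW p)) x

theorem pS_eq (φ : MvPowerSeries (Fin r) K →+* S) (x : S) :
    pS D φ x = ev1 (PowerSeries.map φ D.gA) (x ^ (p ^ k)) := by
  rw [pS, D.hp, PowerSeries.map_expand, ev1_expand]

/-- The `p`-map is a `PMap`. -/
theorem pmap_of_hom [CharP S p] (φ : MvPowerSeries (Fin r) K →+* S)
    {ρ : ℝ} (h0 : 0 ≤ ρ) (h1 : ρ < 1) (hφ1 : ∀ f, ‖φ f‖ ≤ 1)
    (hφ2 : ∀ f, MvPowerSeries.constantCoeff f = 0 → ‖φ f‖ ≤ ρ) :
    PMap (p ^ (k + r)) (p ^ k) ρ (pS D φ) := by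
  have hP : Int1 (PowerSeries.map φ (mulSeries D.HW p)) := int1_map_of_hom φ hφ1 _
  have hp2 : 2 ≤ p := hp.out.two_le
  refine ⟨h0, h1, ?_, ?_, ?_, ?_⟩
  · calc 2 ≤ p := hp2
      _ = p ^ 1 := (pow_one p).symm
      _ ≤ p ^ k := Nat.pow_le_pow_right hp.out.pos D.hk
  · intro a ha
    refine lt_of_le_of_lt (norm_ev1_le_norm hP ?_ ha) ha
    rw [← PowerSeries.coeff_zero_eq_constantCoeff_apply, PowerSeries.coeff_map,
      PowerSeries.coeff_zero_eq_constantCoeff_apply,
      Crest.Agent.LT.constantCoeff_mulSeries, map_zero]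
  · intro a ha
    have hpow : ev1 (PowerSeries.X ^ (p ^ (k + r)) : PowerSeries S) a = a ^ p ^ (k + r) :=
      ev1_X_pow _ _
    rw [pS, ← hpow, ← ev1_sub hP (int1_X_pow _) ha]
    refine norm_ev1_le_of_coeff h0 (fun n => ?_) ha
    have h2 : PowerSeries.coeff n (PowerSeries.map φ (mulSeries D.HW p) -
        PowerSeries.X ^ (p ^ (k + r))) =
        φ (PowerSeries.coeff n (mulSeries D.HW p) -
          if n = p ^ (k + r) then 1 else 0) := by
      rw [map_sub, PowerSeries.coeff_map, PowerSeries.coeff_X_pow, map_sub]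
      split_ifs <;> simp
    rw [h2]
    refine hφ2 _ ?_
    rw [map_sub, D.constantCoeff_coeff_mulSeries]
    split_ifs <;> simp
  · intro a b ha hb
    rw [pS_eq, pS_eq]
    have hg : Int1 (PowerSeries.map φ D.gA) := int1_map_of_hom φ hφ1 _
    have hpa : ‖a ^ p ^ k‖ < 1 :=
      lt_of_le_of_lt (norm_pow_le _ _) (pow_lt_one₀ (norm_nonneg _) ha (pow_ne_zero _ hp.out.ne_zero))
    have hpb : ‖b ^ p ^ k‖ < 1 :=
      lt_of_le_of_lt (norm_pow_le _ _) (pow_lt_one₀ (norm_nonneg _) hb (pow_ne_zero _ hp.out.ne_zero))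
    refine (norm_ev1_sub_ev1_le hg hpa hpb).trans ?_
    rw [← sub_pow_char_pow]
    exact norm_pow_le _ _

end S

section R

variable {R : Type*} [NontriviallyNormedField R] [IsUltrametricDist R] [CompleteSpace R]
variable [Algebra K R]

include D in
theorem Stratum.norm_algebraMap_le (c : K) : ‖algebraMap K R c‖ ≤ 1 := by
  have h := congrArg (algebraMap K R) (D.frob c)
  rw [map_pow] at h
  have h2 := congrArg norm h
  rw [norm_pow] at h2
  by_contra hcon
  rw [not_le] at hcon
  have hne : k + r ≠ 0 := by have := D.hk; omega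
  have hq : 1 < p ^ (k + r) := Nat.one_lt_pow hne hp.out.one_lt
  have := pow_lt_pow_right₀ hcon hq
  rw [pow_one] at this
  linarith

/-- Coefficients in `R`. -/
noncomputable abbrev mapR (R : Type*) [CommRing R] [Algebra K R] :
    MvPowerSeries (Fin r) K →+* MvPowerSeries (Fin r) R :=
  MvPowerSeries.map (algebraMap K R)

include D in
theorem Stratum.intS_mapR (f : MvPowerSeries (Fin r) K) : IntS (mapR (K := K) (r := r) R f) := fun m => by
  rw [MvPowerSeries.coeff_map]
  exact D.norm_algebraMap_le _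

/-- Points of the open polydisc. -/
abbrev Pt (r : ℕ) (R : Type*) [NormedField R] : Type _ := {x : Fin r → R // ‖x‖ < 1}

/-- Evaluation of the coefficient ring at a point. -/
noncomputable def Stratum.evA (ξ : Pt r R) : MvPowerSeries (Fin r) K →+* R where
  toFun f := ev (mapR (K := K) R f) ξ.1
  map_one' := by rw [map_one]; exact ev_one _
  map_mul' f g := by
    rw [map_mul]
    exact ev_mul (D.intS_mapR f) (D.intS_mapR g) ξ.2
  map_zero' := by rw [map_zero]; exact ev_zero _
  map_add' f g := by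
    rw [map_add]
    exact ev_add (D.intS_mapR f) (D.intS_mapR g) ξ.2

theorem Stratum.evA_apply (ξ : Pt r R) (f : MvPowerSeries (Fin r) K) :
    D.evA ξ f = ev (mapR (K := K) R f) ξ.1 := rfl

theorem Stratum.norm_evA_le_one (ξ : Pt r R) (f : MvPowerSeries (Fin r) K) : ‖D.evA ξ f‖ ≤ 1 :=
  norm_ev_le (D.intS_mapR f) ξ.2

omit [Algebra K R] in
theorem ord_one_mapR [Algebra K R] {f : MvPowerSeries (Fin r) K}
    (hf : MvPowerSeries.constantCoeff f = 0) : Ord 1 (mapR (K := K) R f) := by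
  refine Crest.Agent.Lib.LT.FormalIFT.ord_one_iff.mpr ?_
  rw [← MvPowerSeries.coeff_zero_eq_constantCoeff_apply, MvPowerSeries.coeff_map,
    MvPowerSeries.coeff_zero_eq_constantCoeff_apply, hf, map_zero]

theorem Stratum.norm_evA_le (ξ : Pt r R) {f : MvPowerSeries (Fin r) K}
    (hf : MvPowerSeries.constantCoeff f = 0) : ‖D.evA ξ f‖ ≤ ‖ξ.1‖ := by
  have := norm_ev_le_of_ord (D.intS_mapR f) ξ.2 (ord_one_mapR hf)
  rwa [pow_one] at this

/-- The law at a point. -/
noncomputable def Stratum.HAt (ξ : Pt r R) : FormalGroup R := D.HW.map (D.evA ξ)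

/-- The `p`-map at a point. -/
noncomputable def Stratum.pAt (ξ : Pt r R) : R → R := pS D (D.evA ξ)

theorem Stratum.pAt_eq (ξ : Pt r R) (x : R) :
    D.pAt ξ x = ev1 (mulSeries (D.HAt ξ) p) x := by
  rw [Stratum.pAt, pS, Stratum.HAt, Crest.Agent.LT.mulSeries_map]

variable [CharP R p]

theorem Stratum.pmap_at (ξ : Pt r R) :
    PMap (p ^ (k + r)) (p ^ k) ‖ξ.1‖ (D.pAt ξ) :=
  pmap_of_hom D _ (norm_nonneg _) ξ.2 (D.norm_evA_le_one ξ) (fun _ hf => D.norm_evA_le ξ hf)

/-! ### Roots -/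

variable [PerfectRing R p]

variable (p R) in
/-- The `p ^ N`-th root. -/
noncomputable def rootN (N : ℕ) (y : R) : R := ((frobeniusEquiv R p).symm)^[N] y

theorem rootN_pow (N : ℕ) (y : R) : rootN p R N y ^ (p ^ N) = y := by
  induction N with
  | zero => simp [rootN]
  | succ N ih =>
    rw [rootN, Function.iterate_succ_apply', pow_succ', pow_mul]
    have : ((frobeniusEquiv R p).symm (((frobeniusEquiv R p).symm)^[N] y)) ^ p =
        ((frobeniusEquiv R p).symm)^[N] y := by
      exact frobenius_apply_frobeniusEquiv_symm R p _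
    rw [this]
    exact ih

theorem rootN_add_pow (N M : ℕ) (y : R) : rootN p R (N + M) y ^ (p ^ M) = rootN p R N y := by
  rw [rootN, Nat.add_comm, Function.iterate_add_apply]
  exact rootN_pow M _

theorem norm_rootN_lt {y : R} (hy : ‖y‖ < 1) (N : ℕ) : ‖rootN p R N y‖ < 1 := by
  by_contra hcon
  rw [not_lt] at hcon
  have h1 := rootN_pow (p := p) N y
  have h2 : ‖rootN p R N y ^ (p ^ N)‖ = ‖rootN p R N y‖ ^ (p ^ N) := norm_pow _ _
  rw [h1] at h2
  have := one_le_pow₀ (n := p ^ N) hcon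
  linarith

variable (p k r) in
/-- The tower of `q ^ N`-th roots of `y`. -/
noncomputable def tw (y : R) (N : ℕ) : R := rootN p R ((k + r) * N) y

theorem isTower_tw {y : R} (hy : ‖y‖ < 1) : IsTower (p ^ (k + r)) (tw p k r y) := by
  refine ⟨fun N => ?_, fun N => norm_rootN_lt hy _⟩
  unfold tw
  rw [Nat.mul_succ]
  exact rootN_add_pow _ _ _

/-- `Ψ_ξ (y)`. -/
noncomputable def Stratum.PsiAt (ξ : Pt r R) (y : R) : R := Psi (D.pAt ξ) (tw p k r y)

end R

end Crest.Agent.LT.Chart
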