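import Mathlib
import Crest.Agent.Lib.LT.ChartFamily

/-!
# (2e) of #1130: the definitions of the chart statement: `padd`, `ΓR`, `combo`, `lv`.
-/

set_option autoImplicit false

namespace Crest.Agent.LT.Chart

open Filter Topology Crest.LubinTate
open Crest.Agent.Lib.LT.EvalS
open Crest.Agent.Lib.LT.FormalIFT (Ord)
open Crest.Agent.LT.PsiCore

variable {p k r : ℕ} [hp : Fact p.Prime] {K : Type*} [Field K] (D : Stratum p k r K)
variable {R : Type*} [NontriviallyNormedField R] [IsUltrametricDist R] [CompleteSpace R]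
variable [Algebra K R] [CharP R p] [PerfectRing R p]

/-- `x +_F y` on points. -/
noncomputable def padd (F : FormalGroup R) (x y : R) : R := ev F.toPowerSeries ![x, y]

/-- The law `Γ` over `R`: the law of the family at the point `0`. -/
noncomputable def Stratum.ΓR (R : Type*) [NontriviallyNormedField R] [IsUltrametricDist R]
    [CompleteSpace R] [Algebra K R] : FormalGroup R :=
  D.HAt (⟨0, by simp⟩ : Pt r R)

/-- `∑^Γ [m i] z i`. -/
noncomputable def Stratum.combo (z : Fin r → R) (m : Fin r → ℕ) : R :=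
  Fin.foldr r (fun i acc => padd (D.ΓR R) (ev1 (mulSeries (D.ΓR R) (m i)) (z i)) acc) 0

/-- `l_i (π) = ι (θ_π (Ψ_{w π} (z i)))`. -/
noncomputable def lv (D : Stratum p k r K) (ι : PowerSeries R) {A : Type*} (w : A → Pt r R)
    (θ : A → PowerSeries R) (z : Fin r → R) (π : A) (i : Fin r) : R :=
  ev1 ι (ev1 (θ π) (D.PsiAt (w π) (z i)))

end Crest.Agent.LT.Chart
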