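import Mathlib
import Crest.Agent.Lib.LT.EvalS

/-!
# (2e)(c) of #1130: polynomial inversion

Given a polynomial map `E : σ → R[σ]` with zero constant terms and an invertible linear part, every
polynomial `T` can be written `P ∘ E` up to any given order; and if `l = E δ + O(‖δ‖ ^ (B + 1))`,
`T δ = O(‖δ‖ ^ (B + 1))`, then `P l = O(‖l‖ ^ (B + 1))`.
-/

set_option autoImplicit false

namespace Crest.Agent.LT.Chart

open MvPolynomial Finsupp

variable {σ : Type*} {R : Type*}

section Alg

variable [CommRing R]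

/-- `u` has order at least `n`. -/
def POrd (n : ℕ) (u : MvPolynomial σ R) : Prop := ∀ m : σ →₀ ℕ, degree m < n → coeff m u = 0

lemma POrd.mono {m n : ℕ} {u : MvPolynomial σ R} (h : POrd n u) (hmn : m ≤ n) : POrd m u :=
  fun e he => h e (by omega)

lemma POrd.add {n : ℕ} {u v : MvPolynomial σ R} (hu : POrd n u) (hv : POrd n v) : POrd n (u + v) :=
  fun e he => by rw [coeff_add, hu e he, hv e he, add_zero]

lemma POrd.sub {n : ℕ} {u v : MvPolynomial σ R} (hu : POrd n u) (hv : POrd n v) : POrd n (u - v) :=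
  fun e he => by rw [coeff_sub, hu e he, hv e he, sub_zero]

lemma POrd.zero (n : ℕ) : POrd n (0 : MvPolynomial σ R) := fun e _ => by simp

lemma POrd.C_mul {n : ℕ} {u : MvPolynomial σ R} (a : R) (hu : POrd n u) : POrd n (C a * u) :=
  fun e he => by rw [coeff_C_mul, hu e he, mul_zero]

lemma POrd.sum {ι : Type*} (s : Finset ι) {n : ℕ} {u : ι → MvPolynomial σ R}
    (hu : ∀ i ∈ s, POrd n (u i)) : POrd n (∑ i ∈ s, u i) := fun e he => by
  rw [coeff_sum]
  exact Finset.sum_eq_zero fun i hi => hu i hi e he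

lemma POrd.mul {a b : ℕ} {u v : MvPolynomial σ R} (hu : POrd a u) (hv : POrd b v) :
    POrd (a + b) (u * v) := by
  classical
  intro e he
  rw [coeff_mul]
  refine Finset.sum_eq_zero fun x hx => ?_
  have hx' : x.1 + x.2 = e := by simpa using hx
  have hdeg : degree x.1 + degree x.2 = degree e := by rw [← hx', map_add]
  by_cases h : degree x.1 < a
  · rw [hu _ h, zero_mul]
  · rw [hv x.2 (by omega), mul_zero]

lemma pOrd_one_iff {u : MvPolynomial σ R} : POrd 1 u ↔ constantCoeff u = 0 := by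
  constructor
  · intro h
    have := h 0 (by simp)
    simpa [constantCoeff_eq] using this
  · intro h e he
    have : e = 0 := (degree_eq_zero_iff e).mp (by omega)
    subst this
    simpa [constantCoeff_eq] using h

lemma pOrd_zero (u : MvPolynomial σ R) : POrd 0 u := fun _ he => absurd he (by omega)

lemma pOrd_X (i : σ) : POrd 1 (X i : MvPolynomial σ R) := pOrd_one_iff.mpr (by simp)

lemma pOrd_pow {u : MvPolynomial σ R} (hu : POrd 1 u) (k : ℕ) : POrd k (u ^ k) := by
  induction k with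
  | zero => exact pOrd_zero _
  | succ k ih =>
    rw [pow_succ]
    exact ih.mul hu

lemma prod_pOrd {a : σ → MvPolynomial σ R} (ha : ∀ i, POrd 1 (a i)) (d : σ →₀ ℕ) :
    POrd (degree d) (d.prod fun s e => a s ^ e) := by
  classical
  induction d using Finsupp.induction_linear with
  | zero => simpa using pOrd_zero _
  | add f g hf hg =>
    rw [Finsupp.prod_add_index' (by simp) (by intros; exact pow_add _ _ _), map_add]
    exact hf.mul hg
  | single i k =>
    rw [Finsupp.prod_single_index (by simp), degree_single]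
    exact pOrd_pow (ha i) k

lemma pow_diff_pOrd {u v : MvPolynomial σ R} {n : ℕ} (hu : POrd 1 u) (hv : POrd 1 v)
    (h : POrd n (u - v)) (k : ℕ) : POrd (n + k - 1) (u ^ k - v ^ k) := by
  induction k with
  | zero => simpa using POrd.zero _
  | succ k ih =>
    have e : u ^ (k + 1) - v ^ (k + 1) = u ^ k * (u - v) + (u ^ k - v ^ k) * v := by ring
    rw [e]
    refine POrd.add (((pOrd_pow hu k).mul h).mono (by omega)) ((ih.mul hv).mono (by omega))

lemma prod_diff_pOrd {a a' : σ → MvPolynomial σ R} {n : ℕ} (ha : ∀ i, POrd 1 (a i))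
    (ha' : ∀ i, POrd 1 (a' i)) (h : ∀ i, POrd n (a i - a' i)) (d : σ →₀ ℕ) :
    POrd (n + degree d - 1) ((d.prod fun s e => a s ^ e) - (d.prod fun s e => a' s ^ e)) := by
  classical
  induction d using Finsupp.induction_linear with
  | zero => simpa using POrd.zero _
  | add f g hf hg =>
    rw [Finsupp.prod_add_index' (by simp) (by intros; exact pow_add _ _ _),
      Finsupp.prod_add_index' (by simp) (by intros; exact pow_add _ _ _), map_add]
    set A := f.prod fun s e => a s ^ e
    set B := g.prod fun s e => a s ^ e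
    set A' := f.prod fun s e => a' s ^ e
    set B' := g.prod fun s e => a' s ^ e
    have e : A * B - A' * B' = A * (B - B') + (A - A') * B' := by ring
    rw [e]
    have hA : POrd (degree f) A := prod_pOrd ha f
    have hB' : POrd (degree g) B' := prod_pOrd ha' g
    exact POrd.add ((hA.mul hg).mono (by omega)) ((hf.mul hB').mono (by omega))
  | single i k =>
    rw [Finsupp.prod_single_index (by simp), Finsupp.prod_single_index (by simp), degree_single]
    exact pow_diff_pOrd (ha i) (ha' i) (h i) k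

/-- Composition respects the order, `E` having order one. -/
lemma POrd.bind₁ {n : ℕ} {P : MvPolynomial σ R} (hP : POrd n P) {E : σ → MvPolynomial σ R}
    (hE : ∀ i, POrd 1 (E i)) : POrd n (MvPolynomial.bind₁ E P) := by
  classical
  rw [P.as_sum, map_sum]
  refine POrd.sum _ fun m hm => ?_
  rw [bind₁_monomial]
  refine POrd.C_mul _ ?_
  have hm' : n ≤ degree m := by
    by_contra hcon
    exact (MvPolynomial.mem_support_iff.mp hm) (hP m (by omega))
  exact (prod_pOrd hE m).mono hm'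

lemma degree_eq_one_exists {m : σ →₀ ℕ} (hm : degree m = 1) : ∃ k, m = single k 1 := by
  classical
  have hne : m ≠ 0 := by
    rintro rfl
    simp at hm
  obtain ⟨k, hk⟩ := Finsupp.ne_iff.mp hne
  refine ⟨k, ?_⟩
  have hk1 : m k ≠ 0 := by simpa using hk
  have hsum : degree m = m k + (m - single k (m k)).degree := by
    have : m = single k (m k) + (m - single k (m k)) := by
      ext a
      by_cases ha : a = k
      · subst ha; simp
      · simp [Ne.symm ha]
    conv_lhs => rw [this]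
    rw [map_add, degree_single]
  have h1 : m k = 1 := by omega
  have h2 : (m - single k (m k)).degree = 0 := by omega
  have h3 : m - single k (m k) = 0 := (degree_eq_zero_iff _).mp h2
  ext a
  by_cases ha : a = k
  · subst ha; simp [h1]
  · have := DFunLike.congr_fun h3 a
    simp [Ne.symm ha] at this
    simp [Ne.symm ha, this]

variable [Fintype σ] [DecidableEq σ]

/-- The linear part of a polynomial map. -/
noncomputable def linPart (E : σ → MvPolynomial σ R) : Matrix σ σ R :=
  Matrix.of fun i j => coeff (single j 1) (E i)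

/-- The linear forms inverting the linear part. -/
noncomputable def invForm (E : σ → MvPolynomial σ R) (i : σ) : MvPolynomial σ R :=
  ∑ j, C ((linPart E)⁻¹ i j) * X j

lemma coeff_single_mul_X (j k : σ) (a : R) :
    coeff (single k 1) (C a * X j : MvPolynomial σ R) = if k = j then a else 0 := by
  rw [coeff_C_mul, coeff_X]
  by_cases h : k = j
  · subst h; simp
  · have : single j 1 ≠ single k 1 := by
      intro h'
      exact h ((Finsupp.single_left_inj (by omega)).mp h').symm
    simp [h, this]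

lemma invForm_ord (E : σ → MvPolynomial σ R) (i : σ) : POrd 1 (invForm E i) := by
  refine POrd.sum _ fun j _ => POrd.C_mul _ (pOrd_X j)

/-- `invForm E i ∘ E = X i` up to order two. -/
lemma invForm_comp_ord {E : σ → MvPolynomial σ R} (hE : ∀ i, POrd 1 (E i))
    (hJ : IsUnit (linPart E)) (i : σ) :
    POrd 2 (MvPolynomial.bind₁ E (invForm E i) - X i) := by
  have hdet : IsUnit (linPart E).det := (Matrix.isUnit_iff_isUnit_det _).mp hJ
  intro m hm
  rw [coeff_sub]
  have hb : MvPolynomial.bind₁ E (invForm E i) = ∑ j, C ((linPart E)⁻¹ i j) * E j := by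
    simp [invForm, map_sum]
  rw [hb, coeff_sum]
  rcases Nat.lt_or_ge (degree m) 1 with h0 | h1
  · have hm0 : m = 0 := (degree_eq_zero_iff m).mp (by omega)
    subst hm0
    rw [Finset.sum_eq_zero]
    · have : coeff 0 (X i : MvPolynomial σ R) = 0 := pOrd_X i 0 (by simp)
      rw [this, sub_zero]
    · intro j _
      rw [coeff_C_mul, hE j 0 (by simp), mul_zero]
  · obtain ⟨k, rfl⟩ := degree_eq_one_exists (m := m) (by omega)
    have hinv : ((linPart E)⁻¹ * linPart E) i k = (1 : Matrix σ σ R) i k := by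
      rw [Matrix.nonsing_inv_mul _ hdet]
    rw [Matrix.mul_apply] at hinv
    have h1 : ∑ j, coeff (single k 1) (C ((linPart E)⁻¹ i j) * E j) =
        ∑ j, (linPart E)⁻¹ i j * linPart E j k := by
      refine Finset.sum_congr rfl fun j _ => ?_
      rw [coeff_C_mul]
      rfl
    rw [h1, hinv, coeff_X]
    by_cases h : i = k
    · subst h; simp
    · have : single i 1 ≠ single k 1 := by
        intro h'
        exact h ((Finsupp.single_left_inj (by omega)).mp h')
      simp [h, this]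

/-- The monomial in the inverse forms. -/
noncomputable def invMono (E : σ → MvPolynomial σ R) (m : σ →₀ ℕ) : MvPolynomial σ R :=
  m.prod fun s e => invForm E s ^ e

lemma invMono_comp_ord {E : σ → MvPolynomial σ R} (hE : ∀ i, POrd 1 (E i))
    (hJ : IsUnit (linPart E)) (m : σ →₀ ℕ) :
    POrd (degree m + 1) (MvPolynomial.bind₁ E (invMono E m) - monomial m 1) := by
  have h1 : MvPolynomial.bind₁ E (invMono E m) =
      m.prod fun s e => (MvPolynomial.bind₁ E (invForm E s)) ^ e := by
    rw [invMono, map_finsuppProd]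
    simp
  have h2 : (monomial m 1 : MvPolynomial σ R) = m.prod fun s e => (X s : MvPolynomial σ R) ^ e :=
    monomial_eq.trans (by simp)
  rw [h1, h2]
  have := prod_diff_pOrd (a := fun s => MvPolynomial.bind₁ E (invForm E s))
    (a' := fun s => (X s : MvPolynomial σ R))
    (n := 2) (fun s => (invForm_ord E s).bind₁ hE) (fun s => pOrd_X s)
    (fun s => invForm_comp_ord hE hJ s) m
  exact this.mono (by omega)

/-- Every polynomial is a polynomial in `E` up to any given order. -/
theorem exists_poly_comp {E : σ → MvPolynomial σ R} (hE : ∀ i, POrd 1 (E i))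
    (hJ : IsUnit (linPart E)) (T : MvPolynomial σ R) (n : ℕ) :
    ∃ P : MvPolynomial σ R, POrd n (MvPolynomial.bind₁ E P - T) := by
  classical
  induction n with
  | zero => exact ⟨0, pOrd_zero _⟩
  | succ n ih =>
    obtain ⟨P, hP⟩ := ih
    set U := T - MvPolynomial.bind₁ E P with hU
    have hUord : POrd n U := fun e he => by
      have := hP e he
      rw [coeff_sub] at this
      rw [hU, coeff_sub]
      linear_combination -this
    set s := U.support.filter fun m => degree m = n with hs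
    set S : MvPolynomial σ R := ∑ m ∈ s, C (coeff m U) * invMono E m with hS
    refine ⟨P + S, ?_⟩
    set V : MvPolynomial σ R := ∑ m ∈ s, monomial m (coeff m U) with hV
    have h1 : POrd (n + 1) (MvPolynomial.bind₁ E S - V) := by
      have : MvPolynomial.bind₁ E S - V =
          ∑ m ∈ s, C (coeff m U) * (MvPolynomial.bind₁ E (invMono E m) - monomial m 1) := by
        simp only [hS, hV, map_sum, map_mul, mul_sub, bind₁_C_right, Finset.sum_sub_distrib]
        congr 1
        refine Finset.sum_congr rfl fun m _ => ?_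
        rw [C_mul_monomial, mul_one]
      rw [this]
      refine POrd.sum _ fun m hm => POrd.C_mul _ ?_
      have hm' : degree m = n := (Finset.mem_filter.mp hm).2
      rw [← hm']
      exact invMono_comp_ord hE hJ m
    have h2 : POrd (n + 1) (U - V) := by
      intro e he
      rw [coeff_sub, hV, coeff_sum]
      simp only [coeff_monomial]
      rw [Finset.sum_ite_eq']
      by_cases hlt : degree e < n
      · rw [hUord e hlt, if_neg]
        · simp
        · intro hmem
          have := (Finset.mem_filter.mp hmem).2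
          omega
      · have hen : degree e = n := by omega
        by_cases hmem : coeff e U = 0
        · rw [hmem]; simp
        · rw [if_pos (Finset.mem_filter.mpr ⟨MvPolynomial.mem_support_iff.mpr hmem, hen⟩), sub_self]
    have h3 : MvPolynomial.bind₁ E (P + S) - T = (MvPolynomial.bind₁ E S - V) - (U - V) := by
      rw [map_add, hU]
      ring
    rw [h3]
    exact h1.sub h2

/-- A nonzero coefficient of `T` in low degree passes to `P`. -/
theorem exists_coeff_ne_of_comp {E : σ → MvPolynomial σ R} (hE : ∀ i, POrd 1 (E i))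
    {P T : MvPolynomial σ R} {n : ℕ} (h : POrd n (MvPolynomial.bind₁ E P - T)) {d : ℕ}
    (hdn : d < n) {m₀ : σ →₀ ℕ} (hm₀ : degree m₀ ≤ d) (hT : coeff m₀ T ≠ 0) :
    ∃ m : σ →₀ ℕ, degree m ≤ d ∧ coeff m P ≠ 0 := by
  by_contra hcon
  push Not at hcon
  have hP : POrd (d + 1) P := fun e he => hcon e (by omega)
  have hP2 := hP.bind₁ hE
  have h1 := hP2 m₀ (by omega)
  have h2 := h m₀ (by omega)
  rw [coeff_sub, h1] at h2
  exact hT (by linear_combination -h2)

end Alg

section Analysis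

variable [NormedField R] [Fintype σ]

lemma norm_mono_le (x : σ → R) (m : σ →₀ ℕ) :
    ‖m.prod fun i e => x i ^ e‖ ≤ ‖x‖ ^ degree m := by
  classical
  induction m using Finsupp.induction_linear with
  | zero => simp
  | add f g hf hg =>
    rw [Finsupp.prod_add_index' (by simp) (by intros; exact pow_add _ _ _), map_add, pow_add,
      norm_mul]
    exact mul_le_mul hf hg (norm_nonneg _) (by positivity)
  | single i k =>
    rw [Finsupp.prod_single_index (by simp), degree_single, norm_pow]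
    exact pow_le_pow_left₀ (norm_nonneg _) (norm_le_pi_norm x i) _

/-- The bound for a polynomial of order `n`. -/
theorem exists_norm_eval_le_of_pOrd {n : ℕ} {u : MvPolynomial σ R} (hu : POrd n u) :
    ∃ C : ℝ, 0 ≤ C ∧ ∀ x : σ → R, ‖x‖ ≤ 1 → ‖eval x u‖ ≤ C * ‖x‖ ^ n := by
  classical
  refine ⟨∑ m ∈ u.support, ‖coeff m u‖, Finset.sum_nonneg fun _ _ => norm_nonneg _, fun x hx => ?_⟩
  rw [eval_eq, Finset.sum_mul]
  refine (norm_sum_le _ _).trans (Finset.sum_le_sum fun m hm => ?_)
  rw [norm_mul]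
  refine mul_le_mul_of_nonneg_left ?_ (norm_nonneg _)
  have hm' : n ≤ degree m := by
    by_contra hcon
    exact (MvPolynomial.mem_support_iff.mp hm) (hu m (by omega))
  exact (norm_mono_le x m).trans (pow_le_pow_of_le_one (norm_nonneg _) hx hm')

/-- Polynomials are Lipschitz and bounded on the unit ball. -/
theorem exists_lipschitz (P : MvPolynomial σ R) :
    ∃ C : ℝ, 0 ≤ C ∧ ∀ x y : σ → R, ‖x‖ ≤ 1 → ‖y‖ ≤ 1 →
      ‖eval x P - eval y P‖ ≤ C * ‖x - y‖ ∧ ‖eval y P‖ ≤ C := by
  induction P using MvPolynomial.induction_on with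
  | C a =>
    refine ⟨‖a‖, norm_nonneg _, fun x y _ _ => ?_⟩
    simp only [eval_C, sub_self, norm_zero]
    exact ⟨by positivity, le_rfl⟩
  | add p q hp hq =>
    obtain ⟨C₁, h₁, hC₁⟩ := hp
    obtain ⟨C₂, h₂, hC₂⟩ := hq
    refine ⟨C₁ + C₂, by positivity, fun x y hx hy => ?_⟩
    obtain ⟨a₁, b₁⟩ := hC₁ x y hx hy
    obtain ⟨a₂, b₂⟩ := hC₂ x y hx hy
    simp only [map_add]
    constructor
    · have e : eval x p + eval x q - (eval y p + eval y q) =
          (eval x p - eval y p) + (eval x q - eval y q) := by ring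
      rw [e]
      refine (norm_add_le _ _).trans ?_
      rw [add_mul]
      exact add_le_add a₁ a₂
    · exact (norm_add_le _ _).trans (add_le_add b₁ b₂)
  | mul_X p i hp =>
    obtain ⟨C, h0, hC⟩ := hp
    refine ⟨2 * C, by positivity, fun x y hx hy => ?_⟩
    obtain ⟨a, b⟩ := hC x y hx hy
    simp only [map_mul, eval_X]
    have hxi : ‖x i‖ ≤ 1 := (norm_le_pi_norm x i).trans hx
    have hyi : ‖y i‖ ≤ 1 := (norm_le_pi_norm y i).trans hy
    have hxy : ‖x i - y i‖ ≤ ‖x - y‖ := norm_le_pi_norm (x - y) i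
    constructor
    · have e : eval x p * x i - eval y p * y i =
          (eval x p - eval y p) * x i + eval y p * (x i - y i) := by ring
      rw [e]
      refine (norm_add_le _ _).trans ?_
      rw [norm_mul, norm_mul, two_mul, add_mul]
      refine add_le_add ?_ ?_
      · calc ‖eval x p - eval y p‖ * ‖x i‖ ≤ ‖eval x p - eval y p‖ * 1 :=
              mul_le_mul_of_nonneg_left hxi (norm_nonneg _)
          _ ≤ C * ‖x - y‖ := by rw [mul_one]; exact a
      · exact mul_le_mul b hxy (norm_nonneg _) h0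
    · rw [norm_mul]
      calc ‖eval y p‖ * ‖y i‖ ≤ C * 1 := mul_le_mul b hyi (norm_nonneg _) h0
        _ ≤ 2 * C := by linarith

/-- The value of a polynomial map. -/
noncomputable def evalMap (E : σ → MvPolynomial σ R) (x : σ → R) : σ → R := fun i => eval x (E i)

lemma eval_bind₁ (E : σ → MvPolynomial σ R) (x : σ → R) (P : MvPolynomial σ R) :
    eval x (MvPolynomial.bind₁ E P) = eval (evalMap E x) P := by
  have := MvPolynomial.aeval_bind₁ x E P
  unfold evalMap
  simpa [MvPolynomial.coe_aeval_eq_eval] using this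

omit [Fintype σ] in
lemma exists_sum_bound [Finite σ] {ι : Type*} [Finite ι] (c : ι → ℝ) (hc : ∀ i, 0 ≤ c i) :
    ∃ C : ℝ, 0 ≤ C ∧ ∀ i, c i ≤ C := by
  classical
  cases nonempty_fintype ι
  exact ⟨∑ i, c i, Finset.sum_nonneg fun i _ => hc i, fun i =>
    Finset.single_le_sum (fun j _ => hc j) (Finset.mem_univ i)⟩

/-- The uniform order bound for a finite family. -/
lemma exists_family_bound {n : ℕ} (u : σ → MvPolynomial σ R) (hu : ∀ i, POrd n (u i)) :
    ∃ C : ℝ, 0 ≤ C ∧ ∀ i (x : σ → R), ‖x‖ ≤ 1 → ‖eval x (u i)‖ ≤ C * ‖x‖ ^ n := by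
  classical
  choose c hc0 hc using fun i => exists_norm_eval_le_of_pOrd (hu i)
  refine ⟨∑ i, c i, Finset.sum_nonneg fun i _ => hc0 i, fun i x hx => (hc i x hx).trans ?_⟩
  exact mul_le_mul_of_nonneg_right
    (Finset.single_le_sum (fun j _ => hc0 j) (Finset.mem_univ i)) (by positivity)

variable [DecidableEq σ]

/-- **The pointwise estimate.** -/
theorem norm_eval_le_of_comp {E : σ → MvPolynomial σ R} (hE : ∀ i, POrd 1 (E i))
    (hJ : IsUnit (linPart E)) {P T : MvPolynomial σ R} {B : ℕ} (hB : 1 ≤ B)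
    (h : POrd (B + 1) (MvPolynomial.bind₁ E P - T)) {C₁ C₂ : ℝ} (hC₁ : 0 ≤ C₁) (hC₂ : 0 ≤ C₂) :
    ∃ ε : ℝ, 0 < ε ∧ ∃ C : ℝ, 0 ≤ C ∧ ∀ δ l : σ → R, ‖δ‖ < ε →
      ‖l - evalMap E δ‖ ≤ C₁ * ‖δ‖ ^ (B + 1) → ‖eval δ T‖ ≤ C₂ * ‖δ‖ ^ (B + 1) →
      ‖l‖ ≤ 1 ∧ ‖eval l P‖ ≤ C * ‖l‖ ^ (B + 1) := by
  obtain ⟨CE, hCE0, hCE⟩ := exists_family_bound E hE
  obtain ⟨C6, hC60, hC6⟩ := exists_family_bound (fun i => MvPolynomial.bind₁ E (invForm E i) - X i)
    (fun i => invForm_comp_ord hE hJ i)
  obtain ⟨C7, hC70, hC7⟩ := exists_family_bound (invForm E) (invForm_ord E)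
  obtain ⟨C3, hC30, hC3⟩ := exists_norm_eval_le_of_pOrd h
  obtain ⟨L, hL0, hL⟩ := exists_lipschitz P
  set K : ℝ := (CE + C₁ + 1) + 2 * (C7 * C₁ + C6 + 1) with hK
  have hK1 : 1 ≤ K := by
    have : 0 ≤ C7 * C₁ := by positivity
    nlinarith
  have hKpos : 0 < K := by linarith
  set C4 : ℝ := L * C₁ + C3 + C₂ with hC4
  have hC40 : 0 ≤ C4 := by positivity
  refine ⟨1 / K, by positivity, C4 * (2 * C7) ^ (B + 1), by positivity, fun δ l hδ hl hT => ?_⟩
  have hδKlt : ‖δ‖ * K < 1 := by rwa [lt_div_iff₀ hKpos] at hδ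
  have hδ0 : 0 ≤ ‖δ‖ := norm_nonneg _
  have hδ1 : ‖δ‖ ≤ 1 := by
    have : ‖δ‖ * 1 ≤ ‖δ‖ * K := mul_le_mul_of_nonneg_left hK1 hδ0
    linarith
  have hEδ : ‖evalMap E δ‖ ≤ CE * ‖δ‖ := by
    refine (pi_norm_le_iff_of_nonneg (by positivity)).mpr fun i => ?_
    have := hCE i δ hδ1
    rwa [pow_one] at this
  have hpow : ‖δ‖ ^ (B + 1) ≤ ‖δ‖ ^ 2 := pow_le_pow_of_le_one hδ0 hδ1 (by omega)
  have hpow2 : ‖δ‖ ^ 2 ≤ ‖δ‖ := by
    have := pow_le_pow_of_le_one hδ0 hδ1 (show 1 ≤ 2 by omega)
    rwa [pow_one] at this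
  have hrem : ‖l - evalMap E δ‖ ≤ C₁ * ‖δ‖ ^ 2 :=
    hl.trans (mul_le_mul_of_nonneg_left hpow hC₁)
  have hEδ1 : ‖evalMap E δ‖ ≤ 1 := by
    have : CE * ‖δ‖ ≤ ‖δ‖ * K := by
      have : 0 ≤ C7 * C₁ := by positivity
      nlinarith
    linarith
  have hl1 : ‖l‖ ≤ 1 := by
    have h1 : ‖l‖ ≤ ‖l - evalMap E δ‖ + ‖evalMap E δ‖ := by
      simpa using norm_add_le (l - evalMap E δ) (evalMap E δ)
    have h2 : C₁ * ‖δ‖ ^ 2 ≤ C₁ * ‖δ‖ := mul_le_mul_of_nonneg_left hpow2 hC₁
    have h3 : (C₁ + CE) * ‖δ‖ ≤ ‖δ‖ * K := by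
      have : 0 ≤ C7 * C₁ := by positivity
      nlinarith
    nlinarith
  refine ⟨hl1, ?_⟩
  -- lower bound for `l`
  have hδl : ‖δ‖ ≤ 2 * C7 * ‖l‖ := by
    have hmain : ‖δ‖ ≤ C7 * ‖l‖ + (C7 * C₁ + C6) * ‖δ‖ ^ 2 := by
      refine (pi_norm_le_iff_of_nonneg (by positivity)).mpr fun i => ?_
      have e : δ i = eval (evalMap E δ) (invForm E i) -
          eval δ (MvPolynomial.bind₁ E (invForm E i) - X i) := by
        rw [map_sub, eval_bind₁, eval_X]
        ring
      rw [e]
      refine (norm_sub_le _ _).trans ?_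
      have h1 := hC7 i (evalMap E δ) hEδ1
      rw [pow_one] at h1
      have h2 := hC6 i δ hδ1
      have h3 : ‖evalMap E δ‖ ≤ ‖l‖ + C₁ * ‖δ‖ ^ 2 := by
        have : ‖evalMap E δ‖ ≤ ‖l‖ + ‖l - evalMap E δ‖ := by
          have e2 : evalMap E δ = l - (l - evalMap E δ) := by abel
          conv_lhs => rw [e2]
          exact norm_sub_le _ _
        linarith
      have h4 : C7 * ‖evalMap E δ‖ ≤ C7 * (‖l‖ + C₁ * ‖δ‖ ^ 2) :=
        mul_le_mul_of_nonneg_left h3 hC70
      nlinarith
    have hsq : (C7 * C₁ + C6) * ‖δ‖ ^ 2 ≤ ‖δ‖ / 2 := by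
      have h1 : (C7 * C₁ + C6) * ‖δ‖ ≤ 1 / 2 := by
        have : 0 ≤ C7 * C₁ := by positivity
        have h2 : 2 * (C7 * C₁ + C6) * ‖δ‖ ≤ ‖δ‖ * K := by nlinarith
        linarith
      have := mul_le_mul_of_nonneg_right h1 hδ0
      nlinarith
    linarith
  -- upper bound
  have hPl : ‖eval l P‖ ≤ C4 * ‖δ‖ ^ (B + 1) := by
    have e : eval l P = (eval l P - eval (evalMap E δ) P) +
        eval δ (MvPolynomial.bind₁ E P - T) + eval δ T := by
      rw [map_sub, eval_bind₁]
      ring
    rw [e]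
    refine (norm_add_le _ _).trans ?_
    have h1 := (hL l (evalMap E δ) hl1 hEδ1).1
    have h2 := hC3 δ hδ1
    have h3 := norm_add_le (eval l P - eval (evalMap E δ) P)
      (eval δ (MvPolynomial.bind₁ E P - T))
    have h4 : L * ‖l - evalMap E δ‖ ≤ L * (C₁ * ‖δ‖ ^ (B + 1)) :=
      mul_le_mul_of_nonneg_left hl hL0
    rw [hC4]
    nlinarith
  refine hPl.trans ?_
  rw [mul_assoc, ← mul_pow]
  exact mul_le_mul_of_nonneg_left (pow_le_pow_left₀ hδ0 hδl _) hC40

end Analysis

section Series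

open Crest.Agent.Lib.LT.EvalS

variable [NontriviallyNormedField R] [IsUltrametricDist R] [CompleteSpace R]
variable [Fintype σ] [DecidableEq σ]

/-- The truncation as a polynomial. -/
noncomputable def truncP (n : ℕ) (f : MvPowerSeries σ R) : MvPolynomial σ R :=
  ∑ m ∈ lowDeg σ n, monomial m (MvPowerSeries.coeff m f)

lemma coeff_truncP (n : ℕ) (f : MvPowerSeries σ R) (m : σ →₀ ℕ) :
    coeff m (truncP n f) = if degree m < n then MvPowerSeries.coeff m f else 0 := by
  classical
  simp only [truncP, coeff_sum, coeff_monomial]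
  rw [Finset.sum_ite_eq']
  simp [mem_lowDeg]

lemma eval_truncP (n : ℕ) (f : MvPowerSeries σ R) (x : σ → R) :
    eval x (truncP n f) = ∑ m ∈ lowDeg σ n, MvPowerSeries.coeff m f * mono x m := by
  classical
  simp only [truncP, map_sum, eval_monomial]
  rfl

/-- **Wrapper of (2e)(c).**  From the expansion `l = E_B (δ) + O(‖δ‖ ^ (B + 1))`, `E_B` polynomial
with invertible linear part, and a nonzero bounded series `f` vanishing at the `δ π`, we obtain the
asymptotic polynomial relations between the `l`. -/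
theorem asymp_poly_of_expansion {A : Type*} (Lm : ℕ → Set A) (δ l : A → σ → R)
    (f : MvPowerSeries σ R) (hf : IntS f) (hne : f ≠ 0) (hδ : ∀ π, ‖δ π‖ < 1)
    (hf0 : ∀ π, ev f (δ π) = 0)
    (hexp : ∀ B : ℕ, 1 ≤ B → ∃ E : σ → MvPolynomial σ R, (∀ i, POrd 1 (E i)) ∧
      IsUnit (linPart E) ∧ ∃ C₁ : ℝ, 0 ≤ C₁ ∧ ∀ ε : ℝ, 0 < ε → ∃ M, ∀ π ∈ Lm M,
        ‖δ π‖ < ε ∧ ‖l π - evalMap E (δ π)‖ ≤ C₁ * ‖δ π‖ ^ (B + 1)) :
    ∃ d : ℕ, ∀ B : ℕ, ∃ P : MvPolynomial σ R,
      (∃ m : σ →₀ ℕ, degree m ≤ d ∧ coeff m P ≠ 0) ∧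
      ∃ (M : ℕ) (C : ℝ), ∀ π ∈ Lm M, ‖eval (l π) P‖ ≤ C * ‖l π‖ ^ (B + 1) := by
  classical
  obtain ⟨m₀, hm₀⟩ : ∃ m₀, MvPowerSeries.coeff m₀ f ≠ 0 := by
    by_contra hcon
    push Not at hcon
    exact hne (MvPowerSeries.ext fun m => by simpa using hcon m)
  refine ⟨degree m₀, fun B => ?_⟩
  set B' := max B (max (degree m₀) 1) with hB'
  have hB'1 : 1 ≤ B' := (le_max_right _ _).trans (le_max_right _ _)
  have hB'd : degree m₀ ≤ B' := (le_max_left _ _).trans (le_max_right _ _)
  have hB'B : B ≤ B' := le_max_left _ _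
  obtain ⟨E, hE, hJ, C₁, hC₁, hexpE⟩ := hexp B' hB'1
  set T := truncP (B' + 1) f with hT
  obtain ⟨P, hP⟩ := exists_poly_comp hE hJ T (B' + 1)
  refine ⟨P, exists_coeff_ne_of_comp hE hP (d := degree m₀) (by omega) le_rfl ?_, ?_⟩
  · rw [hT, coeff_truncP, if_pos (by omega)]
    exact hm₀
  · obtain ⟨ε, hε, C, hC0, hC⟩ := norm_eval_le_of_comp hE hJ hB'1 hP hC₁ (C₂ := 1) zero_le_one
    obtain ⟨M, hM⟩ := hexpE ε hε
    refine ⟨M, C, fun π hπ => ?_⟩
    obtain ⟨h1, h2⟩ := hM π hπ
    have h3 : ‖eval (δ π) T‖ ≤ 1 * ‖δ π‖ ^ (B' + 1) := by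
      have := norm_ev_sub_trS_le hf (hδ π) (B' + 1)
      rw [hf0 π, zero_sub, norm_neg] at this
      rw [hT, eval_truncP, one_mul]
      exact this
    obtain ⟨h4, h5⟩ := hC (δ π) (l π) h1 h2 h3
    refine h5.trans (mul_le_mul_of_nonneg_left ?_ hC0)
    exact pow_le_pow_of_le_one (norm_nonneg _) h4 (by omega)

end Series

end Crest.Agent.LT.Chart
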