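import Mathlib
import Crest.Agent.Lib.LT.ChartFamily

/-!
# The chart series: `Ψ` over the ring of bounded series

For a point `ξ` of the open polydisc and `ρ ≥ ‖ξ‖`, `evS` is the ring homomorphism
`K[[w]] → GB`, `f ↦ f (ξ + δ)`.  `chartS y := Ψ` over `GB` of the constant tower of `y`, is a bounded
power series in `δ` whose value at `δ₀` is `Ψ_{ξ+δ₀}(y)`.
-/

set_option autoImplicit false

namespace Crest.Agent.LT.Chart

open Filter Topology Crest.LubinTate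
open Crest.Agent.Lib.LT.EvalS
open Crest.Agent.Lib.LT.FormalIFT (Ord)
open Crest.Agent.LT.PsiCore
open GB

variable {p k r : ℕ} [hp : Fact p.Prime] {K : Type*} [Field K] (D : Stratum p k r K)
variable {R : Type*} [NontriviallyNormedField R] [IsUltrametricDist R] [CompleteSpace R]
variable [Algebra K R]

theorem map_map_eq {A B C : Type*} [CommRing A] [CommRing B] [CommRing C] (f : A →+* B)
    (g : B →+* C) (h : PowerSeries A) :
    PowerSeries.map g (PowerSeries.map f h) = PowerSeries.map (g.comp f) h := by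
  ext n
  simp

section evS

variable {ρ : ℝ} [hρ0 : Fact (0 < ρ)] [hρ1 : Fact (ρ < 1)]

/-- `f ↦ f (ξ + δ)`, as a ring homomorphism to bounded series. -/
noncomputable def Stratum.evS (ξ : Pt r R) : MvPowerSeries (Fin r) K →+* GB (Fin r) R ρ where
  toFun f := GB.mk (transl ξ.1 (mapR (K := K) R f)) (intS_transl (D.intS_mapR f) ξ.2)
  map_one' := by
    apply ext'
    simp only [toSeries_mk, map_one, toSeries_one]
    exact transl_one ξ.2
  map_mul' f g := by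
    apply ext'
    simp only [toSeries_mk, map_mul, toSeries_mul]
    exact transl_mul (D.intS_mapR f) (D.intS_mapR g) ξ.2
  map_zero' := by
    apply ext'
    simp only [toSeries_mk, map_zero, toSeries_zero]
    exact transl_zero ξ.2
  map_add' f g := by
    apply ext'
    simp only [toSeries_mk, map_add, toSeries_add]
    exact transl_add (D.intS_mapR f) (D.intS_mapR g) ξ.2

theorem Stratum.evS_toSeries (ξ : Pt r R) (f : MvPowerSeries (Fin r) K) :
    (D.evS (ρ := ρ) ξ f).toSeries = transl ξ.1 (mapR (K := K) R f) := rfl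

theorem Stratum.norm_evS_le_one (ξ : Pt r R) (f : MvPowerSeries (Fin r) K) :
    ‖D.evS (ρ := ρ) ξ f‖ ≤ 1 := norm_le_one _

theorem Stratum.norm_evS_le (ξ : Pt r R) (hξ : ‖ξ.1‖ ≤ ρ) {f : MvPowerSeries (Fin r) K}
    (hf : MvPowerSeries.constantCoeff f = 0) : ‖D.evS (ρ := ρ) ξ f‖ ≤ ρ := by
  rw [norm_le_iff]
  intro m
  by_cases hm : m = 0
  · subst hm
    have h1 := norm_coeff_transl_sub_le (D.intS_mapR f) ξ.2 0
    have h2 : MvPowerSeries.coeff 0 (mapR (K := K) R f) = 0 := by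
      rw [MvPowerSeries.coeff_map, MvPowerSeries.coeff_zero_eq_constantCoeff_apply, hf, map_zero]
    rw [h2, sub_zero] at h1
    simpa [Stratum.evS_toSeries] using h1.trans hξ
  · have hdeg : 1 ≤ Finsupp.degree m := by
      rw [Nat.one_le_iff_ne_zero]
      intro h
      exact hm ((Finsupp.degree_eq_zero_iff m).mp h)
    calc ‖MvPowerSeries.coeff m (D.evS (ρ := ρ) ξ f).toSeries‖ * ρ ^ Finsupp.degree m
        ≤ 1 * ρ ^ 1 := by
          refine mul_le_mul ((D.evS ξ f).norm_coeff_le_one m)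
            (pow_le_pow_of_le_one hρ0.out.le hρ1.out.le hdeg) (pow_nonneg hρ0.out.le _) zero_le_one
      _ = ρ := by simp

/-- The sum of a point and a small vector. -/
noncomputable def addPt (ξ : Pt r R) (δ : Fin r → R) (hδ : ‖δ‖ < 1) : Pt r R :=
  ⟨δ + ξ.1, lt_of_le_of_lt (IsUltrametricDist.norm_add_le_max _ _) (max_lt hδ ξ.2)⟩

/-- Evaluating `evS` at `δ` is evaluating at `ξ + δ`. -/
theorem Stratum.evPt_comp_evS (ξ : Pt r R) (δ : Fin r → R) (hδ : ‖δ‖ ≤ ρ) :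
    (evPt δ hδ).comp (D.evS (ρ := ρ) ξ) =
      D.evA (addPt ξ δ (hδ.trans_lt hρ1.out)) := by
  ext1 f
  simp only [RingHom.comp_apply, evPt_apply, Stratum.evS_toSeries]
  rw [ev_transl (D.intS_mapR f) ξ.2 (hδ.trans_lt hρ1.out)]
  rfl

/-- The `p`-map of the family over bounded series. -/
noncomputable def Stratum.pB (ρ : ℝ) [Fact (0 < ρ)] [Fact (ρ < 1)] (ξ : Pt r R) :
    GB (Fin r) R ρ → GB (Fin r) R ρ := pS D (D.evS ξ)

variable [CharP R p]

theorem Stratum.pmap_B (ξ : Pt r R) (hξ : ‖ξ.1‖ ≤ ρ) :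
    PMap (p ^ (k + r)) (p ^ k) ρ (D.pB ρ ξ) :=
  pmap_of_hom D _ hρ0.out.le hρ1.out (D.norm_evS_le_one ξ) (fun _ hf => D.norm_evS_le ξ hξ hf)

variable [PerfectRing R p]

/-- The tower of constants. -/
noncomputable def twB (p k r : ℕ) [Fact p.Prime] {ρ : ℝ} [Fact (0 < ρ)] [Fact (ρ < 1)] [CharP R p]
    [PerfectRing R p] {y : R} (hy : ‖y‖ < 1) (N : ℕ) : GB (Fin r) R ρ :=
  GB.const (tw p k r y N) (norm_rootN_lt hy _).le

theorem toSeries_twB {y : R} (hy : ‖y‖ < 1) (N : ℕ) :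
    (twB (R := R) (ρ := ρ) p k r hy N).toSeries = MvPowerSeries.C (tw p k r y N) := rfl

theorem isTower_twB {y : R} (hy : ‖y‖ < 1) :
    IsTower (p ^ (k + r)) (twB (R := R) (ρ := ρ) p k r hy) := by
  refine ⟨fun N => ?_, fun N => ?_⟩
  · apply ext'
    rw [toSeries_pow, toSeries_twB, toSeries_twB, ← map_pow, (isTower_tw hy).pow_succ]
  · exact lt_of_le_of_lt (GB.norm_const_le _ _) (norm_rootN_lt hy _)

/-- The chart series `δ ↦ Ψ_{ξ+δ}(y)`. -/
noncomputable def Stratum.chartS (ρ : ℝ) [Fact (0 < ρ)] [Fact (ρ < 1)] (ξ : Pt r R) {y : R}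
    (hy : ‖y‖ < 1) : GB (Fin r) R ρ :=
  Psi (D.pB ρ ξ) (twB p k r hy)

theorem evPt_twB (δ : Fin r → R) (hδ : ‖δ‖ ≤ ρ) {y : R} (hy : ‖y‖ < 1) :
    (evPt δ hδ) ∘ (twB (R := R) (ρ := ρ) p k r hy) = tw p k r y := by
  funext N
  rw [Function.comp_apply, evPt_apply, toSeries_twB]
  exact ev_C _ _

/-- The `p`-maps are intertwined by evaluation. -/
theorem Stratum.evPt_pB (ξ : Pt r R) (δ : Fin r → R) (hδ : ‖δ‖ ≤ ρ) (u : GB (Fin r) R ρ)
    (hu : ‖u‖ < 1) :
    evPt δ hδ (D.pB ρ ξ u) = D.pAt (addPt ξ δ (hδ.trans_lt hρ1.out)) (evPt δ hδ u) := by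
  have hP : Int1 (PowerSeries.map (D.evS (ρ := ρ) ξ) (mulSeries D.HW p)) :=
    int1_map_of_hom _ (D.norm_evS_le_one ξ) _
  rw [Stratum.pB, pS, map_ev1 (evPt δ hδ) (norm_evPt_le δ hδ) hP hu, map_map_eq,
    D.evPt_comp_evS ξ δ hδ]
  rfl

/-- The value of the chart series at `δ`. -/
theorem Stratum.evPt_chartS (ξ : Pt r R) (hξ : ‖ξ.1‖ ≤ ρ) (δ : Fin r → R) (hδ : ‖δ‖ ≤ ρ) {y : R}
    (hy : ‖y‖ < 1) :
    evPt δ hδ (D.chartS ρ ξ hy) = D.PsiAt (addPt ξ δ (hδ.trans_lt hρ1.out)) y := by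
  have hcont : Continuous (evPt δ hδ) :=
    AddMonoidHomClass.continuous_of_bound (evPt δ hδ) 1 fun a => by
      simpa using norm_evPt_le δ hδ a
  have h := theta_psi (D.pmap_B ξ hξ) (D.pmap_at (addPt ξ δ (hδ.trans_lt hρ1.out)))
    (θ := evPt δ hδ) (a := evPt δ hδ) (fun u hu => D.evPt_pB ξ δ hδ u hu)
    (fun u hu => lt_of_le_of_lt (norm_evPt_le δ hδ u) hu)
    (fun u hu => lt_of_le_of_lt (norm_evPt_le δ hδ u) hu)
    le_rfl one_pos (fun u _ => by simp)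
    (isTower_twB hy) (by rw [evPt_twB]; exact isTower_tw hy) hcont.continuousAt
  rw [evPt_twB] at h
  exact h

theorem Stratum.chartS_toSeries_ev (ξ : Pt r R) (hξ : ‖ξ.1‖ ≤ ρ) (δ : Fin r → R) (hδ : ‖δ‖ ≤ ρ)
    {y : R} (hy : ‖y‖ < 1) :
    ev (D.chartS ρ ξ hy).toSeries δ = D.PsiAt (addPt ξ δ (hδ.trans_lt hρ1.out)) y :=
  D.evPt_chartS ξ hξ δ hδ hy

/-- The constant term of the chart series. -/
theorem Stratum.coeff_zero_chartS (ξ : Pt r R) (hξ : ‖ξ.1‖ ≤ ρ) {y : R} (hy : ‖y‖ < 1) :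
    MvPowerSeries.coeff 0 (D.chartS ρ ξ hy).toSeries = D.PsiAt ξ y := by
  have h0 : ‖(0 : Fin r → R)‖ ≤ ρ := by simpa using hρ0.out.le
  have h := D.chartS_toSeries_ev ξ hξ 0 h0 hy
  have h1 : ev (D.chartS ρ ξ hy).toSeries (0 : Fin r → R) =
      MvPowerSeries.coeff 0 (D.chartS ρ ξ hy).toSeries :=
    ev_zero_pt (D.chartS ρ ξ hy).norm_coeff_le_one
  rw [h1] at h
  rw [h]
  congr 1
  apply Subtype.ext
  simp [addPt]

end evS

end Crest.Agent.LT.Chart
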