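import Mathlib
import Crest.Agent.Lib.LT.ChartSeries
import Crest.Agent.Lib.LT.Linearize

/-!
# (2e), piece (b): the coefficients of `ι ∘ θ_π` are polynomials in `δ = w π - ξ` to any order.

`c'_n := coeff n (ι ∘ θ_π)` satisfy `c'_n ^ (p ^ k) = ∑_{1 ≤ i ≤ n} c'_i G_{i,n}(w π)` with
`G_{i,n} := coeff n (gA ^ i)`, `G_{n,n} = w_0 ^ n`; so `c'_n` is the solution near `coeff n ι` of an
Artin-Schreier-like equation, with simple root since `ξ_0 ≠ 0`.

The formal part (`exists_frob_sol`, `exists_poly_sol`, `exists_formal`) solves the recursion in the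
polynomials in `δ` modulo degree `B + 1`; the estimate (`estimate`) compares a true solution with
the formal one.
-/

set_option autoImplicit false

namespace Crest.Agent.LT.Chart

open Filter Topology Crest.LubinTate
open Crest.Agent.Lib.LT.EvalS
open Crest.Agent.Lib.LT.FormalIFT (Ord)
open Crest.Agent.LT.PsiCore

namespace Jets

theorem nsub {E : Type*} [SeminormedAddCommGroup E] [IsUltrametricDist E] (x y : E) :
    ‖x - y‖ ≤ max ‖x‖ ‖y‖ := by
  rw [sub_eq_add_neg, ← norm_neg y]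
  exact IsUltrametricDist.norm_add_le_max x (-y)

section Solver

variable {σ : Type*} {F : Type*} [Field F]

theorem ord_pow_mul {a : ℕ} {u : MvPowerSeries σ F} (hu : Ord a u) (j : ℕ) : Ord (a * j) (u ^ j) := by
  induction j with
  | zero => simpa using Crest.Agent.Lib.LT.FormalIFT.ord_zero _
  | succ j ih =>
    rw [pow_succ, Nat.mul_succ]
    exact ih.mul hu

variable (p : ℕ) [hp : Fact p.Prime] [CharP F p]

include hp in
theorem two_le_pow {k : ℕ} (hk : 1 ≤ k) : 2 ≤ p ^ k :=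
  calc 2 ≤ p := hp.out.two_le
    _ = p ^ 1 := (pow_one p).symm
    _ ≤ p ^ k := Nat.pow_le_pow_right hp.out.pos hk

/-- Frobenius solver: `α Y - Y ^ q = γ` modulo any order. -/
theorem exists_frob_sol {k : ℕ} (hk : 1 ≤ k) (α γ : MvPowerSeries σ F)
    (hα : MvPowerSeries.constantCoeff α ≠ 0) (hγ : MvPowerSeries.constantCoeff γ = 0) (N : ℕ) :
    ∃ Y : MvPowerSeries σ F, Ord 1 Y ∧ Ord (N + 1) (α * Y - Y ^ (p ^ k) - γ) := by
  haveI : CharP (MvPowerSeries σ F) p :=
    charP_of_injective_algebraMap (algebraMap F _).injective p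
  have hq := two_le_pow p hk
  have hq0 : p ^ k ≠ 0 := by omega
  induction N with
  | zero =>
    refine ⟨0, Crest.Agent.Lib.LT.FormalIFT.Ord.zero _, ?_⟩
    have : α * 0 - 0 ^ p ^ k - γ = -γ := by rw [mul_zero, zero_pow hq0, sub_zero, zero_sub]
    rw [this, zero_add]
    refine Crest.Agent.Lib.LT.FormalIFT.ord_one_iff.mpr ?_
    rw [map_neg, hγ, neg_zero]
  | succ N ih =>
    obtain ⟨Y, hY, hE⟩ := ih
    set E := α * Y - Y ^ (p ^ k) - γ with hEdef
    have h2 : Ord (N + 1) (α⁻¹ * E) := by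
      simpa using (Crest.Agent.Lib.LT.FormalIFT.ord_zero α⁻¹).mul hE
    refine ⟨Y - α⁻¹ * E, hY.sub (h2.mono (by omega)), ?_⟩
    have hinv : α * α⁻¹ = 1 := MvPowerSeries.mul_inv_cancel α hα
    have e : α * (Y - α⁻¹ * E) - (Y - α⁻¹ * E) ^ p ^ k - γ = (α⁻¹ * E) ^ p ^ k := by
      rw [sub_pow_char_pow]
      have : α * (Y - α⁻¹ * E) = α * Y - (α * α⁻¹) * E := by ring
      rw [this, hinv, hEdef]
      ring
    rw [e]
    exact (ord_pow_mul h2 _).mono (by nlinarith)

end Solver

section Poly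

variable {σ : Type*} [Fintype σ] {R : Type*} [NontriviallyNormedField R] [IsUltrametricDist R]
  [CompleteSpace R]

/-- The truncation, as a polynomial. -/
noncomputable def polyTr (B : ℕ) (f : MvPowerSeries σ R) : MvPolynomial σ R :=
  ∑ m ∈ lowDeg σ B, MvPolynomial.monomial m (MvPowerSeries.coeff m f)

theorem coeff_polyTr (B : ℕ) (f : MvPowerSeries σ R) (m : σ →₀ ℕ) :
    MvPolynomial.coeff m (polyTr B f) =
      if Finsupp.degree m < B then MvPowerSeries.coeff m f else 0 := by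
  classical
  simp only [polyTr, MvPolynomial.coeff_sum, MvPolynomial.coeff_monomial]
  rw [Finset.sum_ite_eq']
  simp [mem_lowDeg]

theorem eval_polyTr (B : ℕ) (f : MvPowerSeries σ R) (x : σ → R) :
    MvPolynomial.eval x (polyTr B f) = ∑ m ∈ lowDeg σ B, MvPowerSeries.coeff m f * mono x m := by
  simp only [polyTr, map_sum, MvPolynomial.eval_monomial]
  rfl

theorem norm_ev_sub_eval_polyTr_le {f : MvPowerSeries σ R} (hf : IntS f) {x : σ → R}
    (hx : ‖x‖ < 1) (B : ℕ) :
    ‖ev f x - MvPolynomial.eval x (polyTr B f)‖ ≤ ‖x‖ ^ B := by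
  rw [eval_polyTr]
  exact norm_ev_sub_trS_le hf hx B

/-- A crude bound for the coefficients of a polynomial. -/
noncomputable def gb (P : MvPolynomial σ R) : ℝ := ∑ m ∈ P.support, ‖MvPolynomial.coeff m P‖

theorem gb_nonneg (P : MvPolynomial σ R) : 0 ≤ gb P :=
  Finset.sum_nonneg fun _ _ => norm_nonneg _

theorem norm_eval_le_of_ord (P : MvPolynomial σ R) {d : ℕ} (hP : Ord d (P : MvPowerSeries σ R))
    {δ : σ → R} (hδ : ‖δ‖ ≤ 1) : ‖MvPolynomial.eval δ P‖ ≤ gb P * ‖δ‖ ^ d := by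
  rw [MvPolynomial.eval_eq, gb, Finset.sum_mul]
  refine norm_sum_le_of_le _ fun m hm => ?_
  rw [norm_mul]
  refine mul_le_mul_of_nonneg_left ?_ (norm_nonneg _)
  have hd : d ≤ Finsupp.degree m := by
    by_contra hlt
    have := hP m (by omega)
    rw [MvPolynomial.coeff_coe] at this
    exact (MvPolynomial.mem_support_iff.mp hm) this
  exact (norm_mono_le δ m).trans (pow_le_pow_of_le_one (norm_nonneg _) hδ hd)

theorem norm_eval_le (P : MvPolynomial σ R) {δ : σ → R} (hδ : ‖δ‖ ≤ 1) :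
    ‖MvPolynomial.eval δ P‖ ≤ gb P := by
  simpa using norm_eval_le_of_ord P (d := 0) (Crest.Agent.Lib.LT.FormalIFT.ord_zero _) hδ

end Poly

section Formal

variable {σ : Type*} [Fintype σ] {R : Type*} [NontriviallyNormedField R] [IsUltrametricDist R]
  [CompleteSpace R]
variable (p : ℕ) [hp : Fact p.Prime] [CharP R p]

omit [Fintype σ] [IsUltrametricDist R] [CompleteSpace R] [CharP R p] hp in
theorem coe_sub' (P P' : MvPolynomial σ R) :
    ((P - P' : MvPolynomial σ R) : MvPowerSeries σ R) = (P : MvPowerSeries σ R) - P' :=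
  map_sub (MvPolynomial.coeToMvPowerSeries.ringHom (σ := σ) (R := R)) P P'

theorem ord_coe_poly_sub_trunc (B : ℕ) (Z : MvPowerSeries σ R) :
    Ord B (((polyTr B Z : MvPolynomial σ R) : MvPowerSeries σ R) - Z) := by
  intro m hm
  rw [map_sub, MvPolynomial.coeff_coe, coeff_polyTr, if_pos hm, sub_self]

/-- One step of the recursion. -/
theorem exists_poly_sol {k : ℕ} (hk : 1 ≤ k) (α β : MvPolynomial σ R) (c : R)
    (hα : MvPolynomial.coeff 0 α ≠ 0)
    (hc : c ^ p ^ k - MvPolynomial.coeff 0 α * c - MvPolynomial.coeff 0 β = 0) (B : ℕ) :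
    ∃ P : MvPolynomial σ R, MvPolynomial.coeff 0 P = c ∧
      Ord (B + 1) ((P ^ p ^ k - α * P - β : MvPolynomial σ R) : MvPowerSeries σ R) := by
  haveI : CharP (MvPowerSeries σ R) p :=
    charP_of_injective_algebraMap (algebraMap R _).injective p
  have hq := two_le_pow p hk
  have hq0 : p ^ k ≠ 0 := by omega
  set αh : MvPowerSeries σ R := (α : MvPowerSeries σ R) with hαh
  set βh : MvPowerSeries σ R := (β : MvPowerSeries σ R) with hβh
  set γ : MvPowerSeries σ R := MvPowerSeries.C (c ^ p ^ k) - αh * MvPowerSeries.C c - βh with hγ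
  have hcα : MvPowerSeries.constantCoeff αh = MvPolynomial.coeff 0 α := by
    rw [← MvPowerSeries.coeff_zero_eq_constantCoeff_apply, hαh, MvPolynomial.coeff_coe]
  have hcβ : MvPowerSeries.constantCoeff βh = MvPolynomial.coeff 0 β := by
    rw [← MvPowerSeries.coeff_zero_eq_constantCoeff_apply, hβh, MvPolynomial.coeff_coe]
  have hγ0 : MvPowerSeries.constantCoeff γ = 0 := by
    rw [hγ, map_sub, map_sub, map_mul, hcα, hcβ]
    simpa using hc
  obtain ⟨Y, hY, hE⟩ := exists_frob_sol p hk αh γ (by rw [hcα]; exact hα) hγ0 B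
  set Z : MvPowerSeries σ R := MvPowerSeries.C c + Y with hZ
  set P : MvPolynomial σ R := polyTr (B + 1) Z with hP
  have hD := ord_coe_poly_sub_trunc (B + 1) Z
  rw [← hP] at hD
  set D : MvPowerSeries σ R := (P : MvPowerSeries σ R) - Z with hDdef
  refine ⟨P, ?_, ?_⟩
  · rw [hP, coeff_polyTr, if_pos (by simp), hZ, map_add, MvPowerSeries.coeff_zero_C]
    have := hY 0 (by simp)
    rw [this, add_zero]
  · have hcoe : ((P ^ p ^ k - α * P - β : MvPolynomial σ R) : MvPowerSeries σ R) =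
        (P : MvPowerSeries σ R) ^ p ^ k - αh * (P : MvPowerSeries σ R) - βh := by
      rw [coe_sub', coe_sub', MvPolynomial.coe_mul, MvPolynomial.coe_pow]
    have hPZ : (P : MvPowerSeries σ R) = MvPowerSeries.C c + Y + D := by
      rw [hDdef, hZ]
      ring
    have e : (P : MvPowerSeries σ R) ^ p ^ k - αh * (P : MvPowerSeries σ R) - βh =
        -(αh * Y - Y ^ p ^ k - γ) + D ^ p ^ k - αh * D := by
      rw [hPZ, add_pow_char_pow, add_pow_char_pow, hγ, ← map_pow]
      ring
    rw [hcoe, e]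
    have h1 : Ord (B + 1) (D ^ p ^ k) := (ord_pow_mul hD _).mono (by nlinarith)
    have h2 : Ord (B + 1) (αh * D) := by
      simpa using (Crest.Agent.Lib.LT.FormalIFT.ord_zero αh).mul hD
    refine Crest.Agent.Lib.LT.FormalIFT.Ord.sub (Crest.Agent.Lib.LT.FormalIFT.Ord.add ?_ h1) h2
    intro m hm
    rw [map_neg, hE m hm, neg_zero]

variable {G : ℕ → ℕ → MvPowerSeries σ R} {c : ℕ → R}

/-- The recursion. -/
theorem exists_formal {k : ℕ} (hk : 1 ≤ k) (hc0 : c 0 = 0)
    (hG : ∀ n, 1 ≤ n → MvPowerSeries.coeff 0 (G n n) ≠ 0)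
    (hc : ∀ n, c n ^ p ^ k = ∑ i ∈ Finset.range (n + 1), c i * MvPowerSeries.coeff 0 (G i n))
    (B n : ℕ) :
    ∃ Q : ℕ → MvPolynomial σ R, Q 0 = 0 ∧ (∀ l ≤ n, MvPolynomial.coeff 0 (Q l) = c l) ∧
      ∀ l ≤ n, Ord (B + 1)
        (((Q l) ^ p ^ k - ∑ i ∈ Finset.range (l + 1), Q i * polyTr (B + 1) (G i l) :
          MvPolynomial σ R) : MvPowerSeries σ R) := by
  have hq := two_le_pow p hk
  have hq0 : p ^ k ≠ 0 := by omega
  induction n with
  | zero =>
    refine ⟨fun _ => 0, rfl, ?_, ?_⟩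
    · intro l hl
      obtain rfl : l = 0 := by omega
      simp [hc0]
    · intro l hl
      obtain rfl : l = 0 := by omega
      have : ((0 : MvPolynomial σ R) ^ p ^ k - ∑ i ∈ Finset.range (0 + 1),
          (0 : MvPolynomial σ R) * polyTr (B + 1) (G i 0)) = 0 := by
        rw [zero_pow hq0]
        simp
      simp only [this]
      intro m _
      simp
  | succ n ih =>
    obtain ⟨Q, hQ0, hQ1, hQ2⟩ := ih
    set α := polyTr (B + 1) (G (n + 1) (n + 1)) with hα
    set β := ∑ i ∈ Finset.range (n + 1), Q i * polyTr (B + 1) (G i (n + 1)) with hβ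
    have hα0 : MvPolynomial.coeff 0 α = MvPowerSeries.coeff 0 (G (n + 1) (n + 1)) := by
      rw [hα, coeff_polyTr, if_pos (by simp)]
    have hβ0 : MvPolynomial.coeff 0 β =
        ∑ i ∈ Finset.range (n + 1), c i * MvPowerSeries.coeff 0 (G i (n + 1)) := by
      rw [← MvPolynomial.constantCoeff_eq, hβ, map_sum]
      refine Finset.sum_congr rfl fun i hi => ?_
      rw [map_mul, MvPolynomial.constantCoeff_eq,
        hQ1 i (by have := Finset.mem_range.mp hi; omega), coeff_polyTr, if_pos (by simp)]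
    have hcn : c (n + 1) ^ p ^ k - MvPolynomial.coeff 0 α * c (n + 1) -
        MvPolynomial.coeff 0 β = 0 := by
      rw [hα0, hβ0, hc (n + 1), Finset.sum_range_succ]
      ring
    obtain ⟨P, hP0, hP1⟩ := exists_poly_sol p hk α β (c (n + 1))
      (by rw [hα0]; exact hG _ (by omega)) hcn B
    refine ⟨Function.update Q (n + 1) P, ?_, ?_, ?_⟩
    · rw [Function.update_of_ne (by omega), hQ0]
    · intro l hl
      by_cases hln : l = n + 1
      · subst hln
        rw [Function.update_self, hP0]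
      · rw [Function.update_of_ne hln]
        exact hQ1 l (by omega)
    · intro l hl
      by_cases hln : l = n + 1
      · subst hln
        have e : (Function.update Q (n + 1) P (n + 1)) ^ p ^ k -
            ∑ i ∈ Finset.range (n + 1 + 1),
              Function.update Q (n + 1) P i * polyTr (B + 1) (G i (n + 1)) =
            P ^ p ^ k - α * P - β := by
          rw [Function.update_self, Finset.sum_range_succ, Function.update_self, ← hα]
          have : ∑ i ∈ Finset.range (n + 1),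
              Function.update Q (n + 1) P i * polyTr (B + 1) (G i (n + 1)) = β := by
            refine Finset.sum_congr rfl fun i hi => ?_
            rw [Function.update_of_ne (by have := Finset.mem_range.mp hi; omega)]
          rw [this]
          ring
        rw [e]
        exact hP1
      · have e : (Function.update Q (n + 1) P l) ^ p ^ k -
            ∑ i ∈ Finset.range (l + 1),
              Function.update Q (n + 1) P i * polyTr (B + 1) (G i l) =
            (Q l) ^ p ^ k - ∑ i ∈ Finset.range (l + 1), Q i * polyTr (B + 1) (G i l) := by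
          rw [Function.update_of_ne hln]
          congr 1
          refine Finset.sum_congr rfl fun i hi => ?_
          rw [Function.update_of_ne (by have := Finset.mem_range.mp hi; omega)]
        rw [e]
        exact hQ2 l (by omega)

/-- A small solution of `e ^ q = A e + small` is small. -/
theorem frob_gap {e A : R} {q : ℕ} (hq : 2 ≤ q) (he1 : ‖e‖ < 1) (heA : ‖e‖ < ‖A‖) :
    ‖A * e‖ ≤ ‖e ^ q - A * e‖ := by
  by_cases he : e = 0
  · simp [he]
  have he0 : 0 < ‖e‖ := norm_pos_iff.mpr he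
  have h1 : ‖e ^ q‖ < ‖A * e‖ := by
    rw [norm_pow, norm_mul]
    calc ‖e‖ ^ q ≤ ‖e‖ ^ 2 := pow_le_pow_of_le_one he0.le he1.le hq
      _ = ‖e‖ * ‖e‖ := by ring
      _ < ‖A‖ * ‖e‖ := mul_lt_mul_of_pos_right heA he0
  have h2 : ‖A * e‖ ≤ max ‖e ^ q‖ ‖e ^ q - A * e‖ := by
    have : A * e = e ^ q - (e ^ q - A * e) := by ring
    conv_lhs => rw [this]
    exact Jets.nsub _ _
  rcases le_max_iff.mp h2 with h | h
  · exact absurd h (not_le.mpr h1)
  · exact h

/-- The estimate. -/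
theorem estimate {k : ℕ} (hk : 1 ≤ k) (hGi : ∀ i n, IntS (G i n))
    (hG : ∀ n, 1 ≤ n → MvPowerSeries.coeff 0 (G n n) ≠ 0) (B : ℕ)
    (Q : ℕ → MvPolynomial σ R) (hQ0 : Q 0 = 0)
    (hQ1 : ∀ l ≤ B, MvPolynomial.coeff 0 (Q l) = c l)
    (hQ2 : ∀ l ≤ B, Ord (B + 1)
        (((Q l) ^ p ^ k - ∑ i ∈ Finset.range (l + 1), Q i * polyTr (B + 1) (G i l) :
          MvPolynomial σ R) : MvPowerSeries σ R)) :
    ∀ n, n ≤ B → ∃ ε : ℝ, 0 < ε ∧ ε ≤ 1 ∧ ∃ K : ℝ, 0 ≤ K ∧
      ∀ (δ : σ → R) (c' : ℕ → R), ‖δ‖ < ε → c' 0 = 0 → (∀ j ≤ B, ‖c' j - c j‖ < ε) →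
        (∀ j ≤ B, c' j ^ p ^ k = ∑ i ∈ Finset.range (j + 1), c' i * ev (G i j) δ) →
        ∀ l ≤ n, ‖c' l - MvPolynomial.eval δ (Q l)‖ ≤ K * ‖δ‖ ^ (B + 1) := by
  have hq := two_le_pow p hk
  intro n
  induction n with
  | zero =>
    intro _
    refine ⟨1, one_pos, le_rfl, 0, le_rfl, ?_⟩
    intro δ c' _ h0 _ _ l hl
    obtain rfl : l = 0 := by omega
    simp [h0, hQ0]
  | succ n ih =>
    intro hn
    obtain ⟨ε₁, hε₁, hε₁1, K₁, hK₁, hest⟩ := ih (by omega)
    set a := MvPowerSeries.coeff 0 (G (n + 1) (n + 1)) with ha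
    have ha0 : a ≠ 0 := hG (n + 1) (by omega)
    have hapos : 0 < ‖a‖ := norm_pos_iff.mpr ha0
    set Pc : MvPolynomial σ R := Q (n + 1) - MvPolynomial.C (c (n + 1)) with hPc
    set L := gb Pc with hL
    have hL0 : 0 ≤ L := gb_nonneg _
    set η := min ‖a‖ 1 with hη
    have hηpos : 0 < η := lt_min hapos one_pos
    set ε := min ε₁ (η / (L + 1)) with hε
    have hεpos : 0 < ε := lt_min hε₁ (div_pos hηpos (by linarith))
    have hεη : ε * (L + 1) ≤ η := by
      have h1 : ε ≤ η / (L + 1) := min_le_right _ _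
      rwa [le_div_iff₀ (by linarith)] at h1
    have hεη' : ε ≤ η := by nlinarith
    have hε1 : ε ≤ 1 := hεη'.trans (min_le_right _ _)
    set E : MvPolynomial σ R := (Q (n + 1)) ^ p ^ k -
      ∑ i ∈ Finset.range (n + 1 + 1), Q i * polyTr (B + 1) (G i (n + 1)) with hE
    set S := ∑ i ∈ Finset.range (n + 1 + 1), gb (Q i) with hS
    have hS0 : 0 ≤ S := Finset.sum_nonneg fun _ _ => gb_nonneg _
    set K₃ := K₁ + S + gb E with hK₃
    have hK₃0 : 0 ≤ K₃ := by have := gb_nonneg E; positivity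
    refine ⟨ε, hεpos, hε1, K₁ + K₃ / ‖a‖, by positivity, ?_⟩
    intro δ c' hδ h0 hclose hfrob l hl
    have hδ1 : ‖δ‖ < 1 := hδ.trans_le hε1
    have hpow0 : 0 ≤ ‖δ‖ ^ (B + 1) := by positivity
    have IH := hest δ c' (hδ.trans_le (min_le_left _ _)) h0
      (fun j hj => (hclose j hj).trans_le (min_le_left _ _)) hfrob
    by_cases hln : l ≤ n
    · refine (IH l hln).trans (mul_le_mul_of_nonneg_right ?_ hpow0)
      have : 0 ≤ K₃ / ‖a‖ := by positivity
      linarith
    obtain rfl : l = n + 1 := by omega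
    set u : ℕ → R := fun i => MvPolynomial.eval δ (Q i) with hu
    set g : ℕ → R := fun i => ev (G i (n + 1)) δ with hg
    set t : ℕ → R := fun i => MvPolynomial.eval δ (polyTr (B + 1) (G i (n + 1))) with ht
    set A := g (n + 1) with hA
    set e := c' (n + 1) - u (n + 1) with he
    have hEval : MvPolynomial.eval δ E = u (n + 1) ^ p ^ k -
        ∑ i ∈ Finset.range (n + 1 + 1), u i * t i := by
      simp only [hE, hu, ht, map_sub, map_pow, map_sum, map_mul]
    have key : e ^ p ^ k - A * e =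
        ∑ i ∈ Finset.range (n + 1), (c' i - u i) * g i +
          ∑ i ∈ Finset.range (n + 1 + 1), u i * (g i - t i) - MvPolynomial.eval δ E := by
      have h1 : ∑ i ∈ Finset.range (n + 1), (c' i - u i) * g i =
          ∑ i ∈ Finset.range (n + 1), c' i * g i - ∑ i ∈ Finset.range (n + 1), u i * g i := by
        rw [← Finset.sum_sub_distrib]
        exact Finset.sum_congr rfl fun i _ => by ring
      have h2 : ∑ i ∈ Finset.range (n + 1 + 1), u i * (g i - t i) =
          ∑ i ∈ Finset.range (n + 1 + 1), u i * g i -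
            ∑ i ∈ Finset.range (n + 1 + 1), u i * t i := by
        rw [← Finset.sum_sub_distrib]
        exact Finset.sum_congr rfl fun i _ => by ring
      have h3 := hfrob (n + 1) hn
      rw [he, sub_pow_char_pow, h3, hEval, h1, h2, Finset.sum_range_succ (fun i => c' i * _) (n + 1),
        Finset.sum_range_succ (fun i => u i * g i) (n + 1)]
      simp only [hg, hA]
      ring
    -- the bounds
    have b1 : ‖∑ i ∈ Finset.range (n + 1), (c' i - u i) * g i‖ ≤ K₁ * ‖δ‖ ^ (B + 1) := by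
      refine IsUltrametricDist.norm_sum_le_of_forall_le_of_nonneg (by positivity) fun i hi => ?_
      rw [norm_mul]
      have h1 := IH i (by have := Finset.mem_range.mp hi; omega)
      have h2 : ‖g i‖ ≤ 1 := norm_ev_le (hGi _ _) hδ1
      calc ‖c' i - u i‖ * ‖g i‖ ≤ (K₁ * ‖δ‖ ^ (B + 1)) * 1 :=
            mul_le_mul h1 h2 (norm_nonneg _) (by positivity)
        _ = _ := mul_one _
    have b2 : ‖∑ i ∈ Finset.range (n + 1 + 1), u i * (g i - t i)‖ ≤ S * ‖δ‖ ^ (B + 1) := by
      rw [hS, Finset.sum_mul]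
      refine norm_sum_le_of_le _ fun i _ => ?_
      rw [norm_mul]
      exact mul_le_mul (norm_eval_le _ hδ1.le) (norm_ev_sub_eval_polyTr_le (hGi _ _) hδ1 _)
        (norm_nonneg _) (gb_nonneg _)
    have b3 : ‖MvPolynomial.eval δ E‖ ≤ gb E * ‖δ‖ ^ (B + 1) :=
      norm_eval_le_of_ord E (hQ2 (n + 1) hn) hδ1.le
    have bkey : ‖e ^ p ^ k - A * e‖ ≤ K₃ * ‖δ‖ ^ (B + 1) := by
      rw [key, hK₃, add_mul, add_mul]
      exact (norm_sub_le _ _).trans (add_le_add ((norm_add_le _ _).trans (add_le_add b1 b2)) b3)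
    -- the lower bound of the linear coefficient
    have hAa : ‖a‖ ≤ ‖A‖ := by
      have h1 : ‖A - a‖ ≤ ‖δ‖ := norm_ev_sub_const_le (hGi _ _) hδ1
      have h2 : ‖δ‖ < ‖a‖ := hδ.trans_le (hεη'.trans (min_le_left _ _))
      have h3 : ‖a‖ ≤ max ‖A‖ ‖A - a‖ := by
        have : a = A - (A - a) := by ring
        conv_lhs => rw [this]
        exact Jets.nsub _ _
      rcases le_max_iff.mp h3 with h | h
      · exact h
      · linarith
    -- `e` is small
    have hPcval : MvPolynomial.eval δ Pc = u (n + 1) - c (n + 1) := by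
      simp [hPc, hu]
    have hPcb : ‖u (n + 1) - c (n + 1)‖ ≤ L * ‖δ‖ := by
      rw [← hPcval]
      have hord : Ord 1 (Pc : MvPowerSeries σ R) := by
        refine Crest.Agent.Lib.LT.FormalIFT.ord_one_iff.mpr ?_
        rw [← MvPowerSeries.coeff_zero_eq_constantCoeff_apply, MvPolynomial.coeff_coe, hPc,
          MvPolynomial.coeff_sub, hQ1 _ hn, MvPolynomial.coeff_zero_C, sub_self]
      simpa using norm_eval_le_of_ord Pc hord hδ1.le
    have hesmall : ‖e‖ < η := by
      have h1 : e = (c' (n + 1) - c (n + 1)) - (u (n + 1) - c (n + 1)) := by rw [he]; ring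
      have h2 := hclose (n + 1) hn
      have h3 : L * ‖δ‖ ≤ L * ε := mul_le_mul_of_nonneg_left hδ.le hL0
      calc ‖e‖ ≤ ‖c' (n + 1) - c (n + 1)‖ + ‖u (n + 1) - c (n + 1)‖ := by
            rw [h1]; exact norm_sub_le _ _
        _ < ε + L * ε := by linarith
        _ = ε * (L + 1) := by ring
        _ ≤ η := hεη
    have hgap := frob_gap (e := e) (A := A) hq (hesmall.trans_le (min_le_right _ _))
      ((hesmall.trans_le (min_le_left _ _)).trans_le hAa)
    have hfinal : ‖a‖ * ‖e‖ ≤ K₃ * ‖δ‖ ^ (B + 1) := by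
      calc ‖a‖ * ‖e‖ ≤ ‖A‖ * ‖e‖ := mul_le_mul_of_nonneg_right hAa (norm_nonneg _)
        _ = ‖A * e‖ := (norm_mul _ _).symm
        _ ≤ _ := hgap.trans bkey
    have hfinal' : ‖e‖ ≤ K₃ / ‖a‖ * ‖δ‖ ^ (B + 1) := by
      rw [div_mul_eq_mul_div, le_div_iff₀ hapos]
      linarith
    refine hfinal'.trans (mul_le_mul_of_nonneg_right ?_ hpow0)
    linarith

end Formal

section Series

variable {F : Type*} [Field F] (p : ℕ) [hp : Fact p.Prime] [CharP F p]

/-- Comparing coefficients in `φ ∘ g(X ^ q) = φ ^ q`. -/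
theorem frob_coeff {k : ℕ} (g φ : PowerSeries F) (hg : PowerSeries.constantCoeff g = 0)
    (h : PowerSeries.subst (PowerSeries.expand (p ^ k) (pow_ne_zero k hp.out.ne_zero) g) φ =
      φ ^ (p ^ k)) (n : ℕ) :
    PowerSeries.coeff n φ ^ (p ^ k) =
      ∑ i ∈ Finset.range (n + 1), PowerSeries.coeff i φ * PowerSeries.coeff n (g ^ i) := by
  haveI : ExpChar F p := ExpChar.prime hp.out
  have hs : PowerSeries.HasSubst g := PowerSeries.HasSubst.of_constantCoeff_zero' hg
  have h1 : PowerSeries.expand (p ^ k) (pow_ne_zero k hp.out.ne_zero) (PowerSeries.subst g φ) =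
      PowerSeries.subst (PowerSeries.expand (p ^ k) (pow_ne_zero k hp.out.ne_zero) g) φ :=
    PowerSeries.expand_subst (p ^ k) (pow_ne_zero k hp.out.ne_zero) hs φ
  rw [h, Crest.Agent.LT.Linearize.pow_eq_expand_map p k φ] at h1
  have h2 := congrArg (PowerSeries.coeff (p ^ k * n)) h1
  rw [PowerSeries.coeff_expand_mul, PowerSeries.coeff_expand_mul, PowerSeries.coeff_map,
    Crest.Agent.LT.Linearize.coeff_subst_eq_sum g φ hg n, iterateFrobenius_def] at h2
  exact h2.symm

variable {R : Type*} [NormedField R] [IsUltrametricDist R]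

theorem norm_coeff_pow_sub_le {θ : PowerSeries R} (hθb : ∀ j, ‖PowerSeries.coeff j θ‖ ≤ 1) {ε : ℝ}
    (hε : 0 ≤ ε) {n : ℕ}
    (h : ∀ j ≤ n, ‖PowerSeries.coeff j θ - PowerSeries.coeff j PowerSeries.X‖ ≤ ε) (i : ℕ) :
    ∀ m ≤ n, ‖PowerSeries.coeff m (θ ^ i) - PowerSeries.coeff m (PowerSeries.X ^ i : PowerSeries R)‖
      ≤ ε := by
  induction i with
  | zero => intro m _; simpa using hε
  | succ i ih =>
    intro m hm
    rw [pow_succ, pow_succ, PowerSeries.coeff_mul, PowerSeries.coeff_mul, ← Finset.sum_sub_distrib]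
    refine IsUltrametricDist.norm_sum_le_of_forall_le_of_nonneg hε fun x hx => ?_
    have hx' : x.1 + x.2 = m := by simpa using hx
    have e : PowerSeries.coeff x.1 (θ ^ i) * PowerSeries.coeff x.2 θ -
        PowerSeries.coeff x.1 (PowerSeries.X ^ i : PowerSeries R) *
          PowerSeries.coeff x.2 PowerSeries.X =
        (PowerSeries.coeff x.1 (θ ^ i) - PowerSeries.coeff x.1 (PowerSeries.X ^ i : PowerSeries R)) *
            PowerSeries.coeff x.2 θ +
          PowerSeries.coeff x.1 (PowerSeries.X ^ i : PowerSeries R) *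
            (PowerSeries.coeff x.2 θ - PowerSeries.coeff x.2 PowerSeries.X) := by ring
    rw [e]
    refine (IsUltrametricDist.norm_add_le_max _ _).trans (max_le ?_ ?_)
    · rw [norm_mul]
      calc _ ≤ ε * 1 := mul_le_mul (ih _ (by omega)) (hθb _) (norm_nonneg _) hε
        _ = ε := mul_one _
    · rw [norm_mul]
      have h1 : ‖PowerSeries.coeff x.1 (PowerSeries.X ^ i : PowerSeries R)‖ ≤ 1 := by
        rw [PowerSeries.coeff_X_pow]
        split_ifs <;> simp
      calc _ ≤ 1 * ε := mul_le_mul h1 (h _ (by omega)) (norm_nonneg _) zero_le_one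
        _ = ε := one_mul _

end Series

end Jets

variable {p k r : ℕ} [hp : Fact p.Prime] {K : Type*} [Field K] (D : Stratum p k r K)
variable {R : Type*} [NontriviallyNormedField R] [IsUltrametricDist R] [CompleteSpace R]
variable [Algebra K R] [CharP R p] [PerfectRing R p]

theorem exists_jets (ξ : Pt r R) (hξ0 : ξ.1 ⟨0, D.hr⟩ ≠ 0)
    (ι : PowerSeries R) (hι0 : PowerSeries.constantCoeff ι = 0)
    (hιp : PowerSeries.subst (mulSeries (D.HAt ξ) p) ι = ι ^ (p ^ k))
    {A : Type*} (Lm : ℕ → Set A) (w : A → Pt r R) (θ : A → PowerSeries R)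
    (hθ0 : ∀ π, PowerSeries.constantCoeff (θ π) = 0)
    (hθb : ∀ π j, ‖PowerSeries.coeff j (θ π)‖ ≤ 1)
    (hθhom : ∀ π, IsFGHom (D.HAt (w π)) (D.HAt ξ) (θ π))
    (hcont : ∀ ε : ℝ, 0 < ε → ∀ B : ℕ, ∃ M, ∀ π ∈ Lm M, ‖(w π).1 - ξ.1‖ < ε ∧
      ∀ j ≤ B, ‖PowerSeries.coeff j (θ π) - PowerSeries.coeff j PowerSeries.X‖ < ε) (B : ℕ) :
    ∃ Q : ℕ → MvPolynomial (Fin r) R,
      (∀ l, MvPolynomial.coeff 0 (Q l) = PowerSeries.coeff l ι) ∧
      ∃ C : ℝ, 0 ≤ C ∧ ∀ ε : ℝ, 0 < ε → ∃ M : ℕ, ∀ π ∈ Lm M, ‖(w π).1 - ξ.1‖ < ε ∧ ∀ l ≤ B,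
        ‖PowerSeries.coeff l (PowerSeries.subst (θ π) ι) -
          MvPolynomial.eval ((w π).1 - ξ.1) (Q l)‖ ≤ C * ‖(w π).1 - ξ.1‖ ^ (B + 1) := by
  classical
  set G : ℕ → ℕ → MvPowerSeries (Fin r) R :=
    fun i n => transl ξ.1 (mapR (K := K) R (PowerSeries.coeff n (D.gA ^ i))) with hGdef
  have hGi : ∀ i n, IntS (G i n) := fun i n => intS_transl (D.intS_mapR _) ξ.2
  set c : ℕ → R := fun n => PowerSeries.coeff n ι with hcdef
  have hc0 : c 0 = 0 := by
    simp only [hcdef, PowerSeries.coeff_zero_eq_constantCoeff_apply, hι0]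
  -- the value of `G` at a point
  have hevG : ∀ (x : Pt r R) (i n : ℕ), ev (G i n) (x.1 - ξ.1) =
      PowerSeries.coeff n ((PowerSeries.map (D.evA x) D.gA) ^ i) := by
    intro x i n
    have hδ : ‖x.1 - ξ.1‖ < 1 := by
      refine lt_of_le_of_lt (Jets.nsub _ _) (max_lt x.2 ξ.2)
    rw [ev_transl (D.intS_mapR _) ξ.2 hδ, sub_add_cancel, ← map_pow, PowerSeries.coeff_map]
    rfl
  have hcoeffG : ∀ i n, MvPowerSeries.coeff 0 (G i n) =
      PowerSeries.coeff n ((PowerSeries.map (D.evA ξ) D.gA) ^ i) := by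
    intro i n
    rw [← hevG ξ i n, sub_self, ev_zero_pt (hGi i n)]
  have hGnn : ∀ n, 1 ≤ n → MvPowerSeries.coeff 0 (G n n) ≠ 0 := by
    intro n _
    rw [hcoeffG]
    have h0 : PowerSeries.constantCoeff (PowerSeries.map (D.evA ξ) D.gA) = 0 := by
      rw [← PowerSeries.coeff_zero_eq_constantCoeff_apply, PowerSeries.coeff_map,
        PowerSeries.coeff_zero_eq_constantCoeff_apply, D.gA_zero, map_zero]
    rw [Crest.Agent.LT.Linearize.coeff_pow_self _ h0, PowerSeries.coeff_map, D.gA_one D.hr]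
    have h1 : D.evA ξ (MvPowerSeries.X ⟨0, D.hr⟩) = ξ.1 ⟨0, D.hr⟩ := by
      rw [Stratum.evA_apply, mapR, MvPowerSeries.map_X, ev_X]
    rw [h1]
    exact pow_ne_zero _ hξ0
  -- the `p`-series at a point
  have hpser : ∀ x : Pt r R, mulSeries (D.HAt x) p =
      PowerSeries.expand (p ^ k) (pow_ne_zero k hp.out.ne_zero)
        (PowerSeries.map (D.evA x) D.gA) := by
    intro x
    rw [Stratum.HAt, Crest.Agent.LT.mulSeries_map, D.hp, PowerSeries.map_expand]
  have hg0 : ∀ x : Pt r R, PowerSeries.constantCoeff (PowerSeries.map (D.evA x) D.gA) = 0 := by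
    intro x
    rw [← PowerSeries.coeff_zero_eq_constantCoeff_apply, PowerSeries.coeff_map,
      PowerSeries.coeff_zero_eq_constantCoeff_apply, D.gA_zero, map_zero]
  have hc : ∀ n, c n ^ p ^ k =
      ∑ i ∈ Finset.range (n + 1), c i * MvPowerSeries.coeff 0 (G i n) := by
    intro n
    have := Jets.frob_coeff p (k := k) _ ι (hg0 ξ) (by rw [← hpser]; exact hιp) n
    rw [this]
    exact Finset.sum_congr rfl fun i _ => by rw [hcoeffG]
  -- the identity at `π`
  have hfrob : ∀ π n, PowerSeries.coeff n (PowerSeries.subst (θ π) ι) ^ p ^ k =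
      ∑ i ∈ Finset.range (n + 1), PowerSeries.coeff i (PowerSeries.subst (θ π) ι) *
        ev (G i n) ((w π).1 - ξ.1) := by
    intro π n
    have hpc := Crest.Agent.LT.constantCoeff_mulSeries (D.HAt (w π)) p
    have hpc' := Crest.Agent.LT.constantCoeff_mulSeries (D.HAt ξ) p
    have hid : PowerSeries.subst (mulSeries (D.HAt (w π)) p) (PowerSeries.subst (θ π) ι) =
        (PowerSeries.subst (θ π) ι) ^ (p ^ k) := by
      rw [Crest.Agent.LT.psubst_psubst (hθ0 π) hpc, Crest.Agent.LT.hom_mulSeries (hθhom π) p,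
        ← Crest.Agent.LT.psubst_psubst hpc' (hθ0 π), hιp]
      rw [← PowerSeries.coe_substAlgHom (Crest.Agent.LT.hasSubst_one (hθ0 π)), map_pow]
    have := Jets.frob_coeff p (k := k) _ _ (hg0 (w π)) (by rw [← hpser]; exact hid) n
    rw [this]
    exact Finset.sum_congr rfl fun i _ => by rw [hevG]
  -- the closeness of the coefficients
  set LL : ℝ := ∑ i ∈ Finset.range (B + 1), ‖c i‖ with hLL
  have hLL0 : 0 ≤ LL := Finset.sum_nonneg fun _ _ => norm_nonneg _
  have hclose : ∀ π (ε : ℝ), 0 ≤ ε →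
      (∀ j ≤ B, ‖PowerSeries.coeff j (θ π) - PowerSeries.coeff j PowerSeries.X‖ ≤ ε) →
      ∀ n ≤ B, ‖PowerSeries.coeff n (PowerSeries.subst (θ π) ι) - c n‖ ≤ LL * ε := by
    intro π ε hε hj n hn
    have h1 := Crest.Agent.LT.Linearize.coeff_subst_eq_sum (θ π) ι (hθ0 π) n
    have h2 : c n = ∑ i ∈ Finset.range (n + 1),
        PowerSeries.coeff i ι * PowerSeries.coeff n (PowerSeries.X ^ i : PowerSeries R) := by
      simp only [PowerSeries.coeff_X_pow]
      rw [Finset.sum_eq_single n]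
      · simp [hcdef]
      · intro b _ hb
        rw [if_neg (Ne.symm hb), mul_zero]
      · simp
    rw [h1, h2, ← Finset.sum_sub_distrib, hLL, Finset.sum_mul]
    refine (norm_sum_le _ _).trans ?_
    refine le_trans ?_ (Finset.sum_le_sum_of_subset_of_nonneg
      (Finset.range_subset_range.mpr (by omega : n + 1 ≤ B + 1)) fun _ _ _ => by positivity)
    refine Finset.sum_le_sum fun i _ => ?_
    rw [← mul_sub, norm_mul]
    refine mul_le_mul_of_nonneg_left ?_ (norm_nonneg _)
    exact Jets.norm_coeff_pow_sub_le (hθb π) hε (fun j hj' => hj j (by omega)) i n le_rfl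
  -- now the formal solution
  obtain ⟨Q₀, hQ0, hQ1, hQ2⟩ := Jets.exists_formal p D.hk hc0 hGnn hc B B
  obtain ⟨ε, hε, -, KK, hKK, hest⟩ := Jets.estimate p D.hk hGi hGnn B Q₀ hQ0 hQ1 hQ2 B le_rfl
  refine ⟨fun l => if l ≤ B then Q₀ l else MvPolynomial.C (c l), ?_, ?_⟩
  · intro l
    by_cases hl : l ≤ B
    · simp only [if_pos hl]
      exact hQ1 l hl
    · simp only [if_neg hl]
      rw [MvPolynomial.coeff_zero_C]
  · refine ⟨KK, hKK, fun ε' hε' => ?_⟩
    have hLpos : 0 < LL + 1 := by linarith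
    obtain ⟨M, hM⟩ := hcont (min ε' (ε / (LL + 1))) (lt_min hε' (div_pos hε hLpos)) B
    refine ⟨M, fun π hπ => ?_⟩
    obtain ⟨h1, h2⟩ := hM π hπ
    refine ⟨h1.trans_le (min_le_left _ _), fun l hl => ?_⟩
    have h1' := h1.trans_le (min_le_right _ _)
    have h2' : ∀ j ≤ B, ‖PowerSeries.coeff j (θ π) - PowerSeries.coeff j PowerSeries.X‖ ≤
        ε / (LL + 1) := fun j hj => (h2 j hj).le.trans (min_le_right _ _)
    have hεle : ε / (LL + 1) ≤ ε := div_le_self hε.le (by linarith)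
    simp only [if_pos hl]
    refine hest ((w π).1 - ξ.1) (fun n => PowerSeries.coeff n (PowerSeries.subst (θ π) ι))
      (h1'.trans_le hεle) ?_ ?_ ?_ l hl
    · rw [PowerSeries.coeff_zero_eq_constantCoeff_apply]
      exact Crest.Agent.LT.constantCoeff_psubst (hθ0 π) hι0
    · intro j hj
      refine (hclose π (ε / (LL + 1)) (by positivity) h2' j hj).trans_lt ?_
      rw [mul_div_assoc', div_lt_iff₀ hLpos]
      nlinarith
    · intro j _
      exact hfrob π j

end Crest.Agent.LT.Chart
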