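import Mathlib
import Crest.Agent.Lib.LT.ChartJets
import Crest.Agent.Lib.LT.ChartDefs
import Crest.Agent.Lib.LT.ChartInv
import Crest.Agent.Lib.LT.Eval1

/-!
# (2e): the expansion `l = E (δ) + O (‖δ‖ ^ (B + 1))` of the values `l_i = ι (θ_π (Ψ_{w π} (z i)))`.

`E_i = ∑_{1 ≤ l ≤ B} Q_l T_i ^ l`, `Q_l` the jets of `ChartJets.exists_jets`, `T_i` the truncation of
the chart series `chartS (z i)` (its value at `δ = w π - ξ` is `Ψ_{w π} (z i)`).
-/

set_option autoImplicit false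

namespace Crest.Agent.LT.Chart

open Filter Topology Crest.LubinTate
open Crest.Agent.Lib.LT.EvalS
open Crest.Agent.Lib.LT.FormalIFT (Ord)
open Crest.Agent.LT.PsiCore

section OneVar

variable {R : Type*} [NormedField R] [IsUltrametricDist R] [CompleteSpace R]

open Crest.Agent.Lib.LT.Eval1 in
/-- The tail of a series of Gauss norm `≤ 1` at radius `s`. -/
theorem norm_ev1_sub_sum_le {S : PowerSeries R} {s : ℝ} (hs : 0 < s)
    (hS : GS s S 1) {y : R} (hy : ‖y‖ < s) (n : ℕ) :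
    ‖Crest.Agent.Lib.LT.Eval1.ev1 S y - ∑ l ∈ Finset.range n, PowerSeries.coeff l S * y ^ l‖ ≤
      (‖y‖ / s) ^ n := by
  have hsum := hS.summable hs hy
  have h1 := hsum.sum_add_tsum_nat_add n
  have hq0 : 0 ≤ ‖y‖ / s := by positivity
  have hq1 : ‖y‖ / s ≤ 1 := (div_le_one hs).mpr hy.le
  have h2 : Crest.Agent.Lib.LT.Eval1.ev1 S y -
      ∑ l ∈ Finset.range n, PowerSeries.coeff l S * y ^ l =
      ∑' i, PowerSeries.coeff (i + n) S * y ^ (i + n) := by
    rw [Crest.Agent.Lib.LT.Eval1.ev1, ← h1]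
    ring
  rw [h2]
  refine norm_tsum_le (by positivity) fun i => ?_
  refine (hS.term_le hs hy.le (i + n)).trans ?_
  rw [one_mul]
  exact pow_le_pow_of_le_one hq0 hq1 (by omega)

open Crest.Agent.Lib.LT.Eval1 in
theorem coeff_zero_subst {ι θ : PowerSeries R} {s : ℝ} (hs : 0 < s) (hs1 : s ≤ 1)
    (hι : GS s ι 1) (hι0 : PowerSeries.constantCoeff ι = 0) (hθ : IsBdd0 θ) :
    PowerSeries.coeff 0 (ι.subst θ) = 0 := by
  have h0 : ‖(0 : R)‖ < s := by simpa using hs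
  have h := ev1_subst hι hθ hs1 h0
  have hev : ∀ f : PowerSeries R, Crest.Agent.Lib.LT.Eval1.ev1 f 0 = PowerSeries.coeff 0 f := by
    intro f
    rw [Crest.Agent.Lib.LT.Eval1.ev1, tsum_eq_single 0]
    · simp
    · intro j hj
      simp [hj]
  have hθ0 : PowerSeries.coeff 0 θ = 0 := by
    rw [PowerSeries.coeff_zero_eq_constantCoeff_apply]
    exact hθ.const
  rw [hev, hev, hθ0, hev] at h
  rw [h, PowerSeries.coeff_zero_eq_constantCoeff_apply]
  exact hι0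

end OneVar

section Pow

variable {R : Type*} [NormedField R] [IsUltrametricDist R]

theorem norm_pow_sub_pow_le {a b : R} (ha : ‖a‖ ≤ 1) (hb : ‖b‖ ≤ 1) (n : ℕ) :
    ‖a ^ n - b ^ n‖ ≤ ‖a - b‖ ∨ n = 0 := by
  induction n with
  | zero => exact Or.inr rfl
  | succ n ih =>
    left
    have e : a ^ (n + 1) - b ^ (n + 1) = a ^ n * (a - b) + (a ^ n - b ^ n) * b := by ring
    rw [e]
    refine (IsUltrametricDist.norm_add_le_max _ _).trans (max_le ?_ ?_)
    · rw [norm_mul, norm_pow]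
      calc ‖a‖ ^ n * ‖a - b‖ ≤ 1 * ‖a - b‖ :=
            mul_le_mul_of_nonneg_right (pow_le_one₀ (norm_nonneg _) ha) (norm_nonneg _)
        _ = ‖a - b‖ := one_mul _
    · rw [norm_mul]
      rcases ih with h | h
      · calc ‖a ^ n - b ^ n‖ * ‖b‖ ≤ ‖a - b‖ * 1 :=
              mul_le_mul h hb (norm_nonneg _) (norm_nonneg _)
          _ = ‖a - b‖ := mul_one _
      · subst h
        simp

end Pow

variable {p k r : ℕ} [hp : Fact p.Prime] {K : Type*} [Field K] (D : Stratum p k r K)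
variable {R : Type*} [NontriviallyNormedField R] [IsUltrametricDist R] [CompleteSpace R]
variable [Algebra K R] [CharP R p] [PerfectRing R p]

theorem exists_expansion {ρ : ℝ} [Fact (0 < ρ)] [hρ1 : Fact (ρ < 1)]
    (ξ : Pt r R) (hξρ : ‖ξ.1‖ ≤ ρ) (hξ0 : ξ.1 ⟨0, D.hr⟩ ≠ 0)
    (ι : PowerSeries R) (hι0 : PowerSeries.constantCoeff ι = 0) (hι1 : PowerSeries.coeff 1 ι ≠ 0)
    {r₀ : ℝ} (hr₀ : 0 < r₀) (hgrowth : ∀ j, ‖PowerSeries.coeff j ι‖ * r₀ ^ j ≤ 1)
    (hιp : PowerSeries.subst (mulSeries (D.HAt ξ) p) ι = ι ^ (p ^ k))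
    (z : Fin r → R) (hz1 : ∀ i, ‖z i‖ < 1) (hz0 : ∀ i, D.PsiAt ξ (z i) = 0)
    (hdet : (Matrix.of fun i m => MvPowerSeries.coeff (Finsupp.single m 1)
      (D.chartS ρ ξ (hz1 i)).toSeries).det ≠ 0)
    {A : Type*} (Lm : ℕ → Set A) (w : A → Pt r R) (θ : A → PowerSeries R)
    (hθ0 : ∀ π, PowerSeries.constantCoeff (θ π) = 0)
    (hθb : ∀ π j, ‖PowerSeries.coeff j (θ π)‖ ≤ 1)
    (hθhom : ∀ π, IsFGHom (D.HAt (w π)) (D.HAt ξ) (θ π))
    (hcont : ∀ ε : ℝ, 0 < ε → ∀ B : ℕ, ∃ M, ∀ π ∈ Lm M, ‖(w π).1 - ξ.1‖ < ε ∧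
      ∀ j ≤ B, ‖PowerSeries.coeff j (θ π) - PowerSeries.coeff j PowerSeries.X‖ < ε)
    (B : ℕ) (hB : 1 ≤ B) :
    ∃ E : Fin r → MvPolynomial (Fin r) R, (∀ i, POrd 1 (E i)) ∧ IsUnit (linPart E) ∧
      ∃ C₁ : ℝ, 0 ≤ C₁ ∧ ∀ ε : ℝ, 0 < ε → ∃ M, ∀ π ∈ Lm M,
        ‖(w π).1 - ξ.1‖ < ε ∧
        ‖lv D ι w θ z π - evalMap E ((w π).1 - ξ.1)‖ ≤ C₁ * ‖(w π).1 - ξ.1‖ ^ (B + 1) := by
  classical
  obtain ⟨Q, hQ0, CQ, hCQ0, hQ⟩ :=
    exists_jets D ξ hξ0 ι hι0 hιp Lm w θ hθ0 hθb hθhom hcont B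
  -- the chart series
  set F : Fin r → MvPowerSeries (Fin r) R := fun i => (D.chartS ρ ξ (hz1 i)).toSeries with hF
  have hFint : ∀ i, IntS (F i) := fun i => (D.chartS ρ ξ (hz1 i)).norm_coeff_le_one
  have hFc : ∀ i, MvPowerSeries.coeff 0 (F i) = 0 := fun i => by
    rw [hF]
    simp only
    rw [D.coeff_zero_chartS ξ hξρ (hz1 i), hz0 i]
  have hFord : ∀ i, Ord 1 (F i) := fun i => by
    refine Crest.Agent.Lib.LT.FormalIFT.ord_one_iff.mpr ?_
    rw [← MvPowerSeries.coeff_zero_eq_constantCoeff_apply]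
    exact hFc i
  set T : Fin r → MvPolynomial (Fin r) R := fun i => truncP (B + 1) (F i) with hT
  have hT1 : ∀ i, POrd 1 (T i) := fun i => by
    intro m hm
    have hm0 : m = 0 := (Finsupp.degree_eq_zero_iff m).mp (by omega)
    subst hm0
    rw [hT]
    simp only
    rw [coeff_truncP, if_pos (by simp)]
    exact hFc i
  set E : Fin r → MvPolynomial (Fin r) R := fun i => ∑ l ∈ Finset.Icc 1 B, Q l * T i ^ l with hE
  have hEord : ∀ i, POrd 1 (E i) := fun i => by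
    refine POrd.sum _ fun l hl => ?_
    have hl1 : 1 ≤ l := (Finset.mem_Icc.mp hl).1
    exact ((pOrd_zero (Q l)).mul (pOrd_pow (hT1 i) l)).mono (by omega)
  -- the linear part
  have hlin : ∀ i m, MvPolynomial.coeff (Finsupp.single m 1) (E i) =
      PowerSeries.coeff 1 ι * MvPowerSeries.coeff (Finsupp.single m 1) (F i) := by
    intro i m
    have hdeg : Finsupp.degree (Finsupp.single m 1) = 1 := by simp
    rw [hE]
    simp only
    rw [MvPolynomial.coeff_sum, Finset.sum_eq_single 1]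
    · have e : Q 1 * T i ^ 1 = MvPolynomial.C (PowerSeries.coeff 1 ι) * T i +
          (Q 1 - MvPolynomial.C (PowerSeries.coeff 1 ι)) * T i := by ring
      have h1 : POrd 1 (Q 1 - MvPolynomial.C (PowerSeries.coeff 1 ι)) := by
        refine pOrd_one_iff.mpr ?_
        rw [map_sub, MvPolynomial.constantCoeff_C, MvPolynomial.constantCoeff_eq, hQ0, sub_self]
      have h2 := (h1.mul (hT1 i)) (Finsupp.single m 1) (by rw [hdeg]; omega)
      rw [e, MvPolynomial.coeff_add, h2, add_zero, MvPolynomial.coeff_C_mul, hT]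
      simp only
      rw [coeff_truncP, if_pos (by rw [hdeg]; omega)]
    · intro l hl hl1
      have hl2 : 2 ≤ l := by
        have := (Finset.mem_Icc.mp hl).1
        omega
      have h3 := ((pOrd_zero (Q l)).mul (pOrd_pow (hT1 i) l)) (Finsupp.single m 1)
        (by rw [hdeg]; omega)
      exact h3
    · intro h
      exact absurd (Finset.mem_Icc.mpr ⟨le_rfl, hB⟩) h
  have hunit : IsUnit (linPart E) := by
    have hJ : linPart E = PowerSeries.coeff 1 ι • (Matrix.of fun i m =>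
        MvPowerSeries.coeff (Finsupp.single m 1) (D.chartS ρ ξ (hz1 i)).toSeries) := by
      ext i m
      simp only [linPart, Matrix.of_apply, Matrix.smul_apply, smul_eq_mul]
      exact hlin i m
    rw [Matrix.isUnit_iff_isUnit_det, hJ, Matrix.det_smul, isUnit_iff_ne_zero]
    exact mul_ne_zero (pow_ne_zero _ hι1) hdet
  refine ⟨E, hEord, hunit, ?_⟩
  -- the constants
  set s : ℝ := min r₀ 1 with hs
  have hs0 : 0 < s := lt_min hr₀ one_pos
  have hs1 : s ≤ 1 := min_le_right _ _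
  have hιGS : Crest.Agent.Lib.LT.Eval1.GS s ι 1 :=
    Crest.Agent.Lib.LT.Eval1.GS.radius_mono hgrowth hs0.le (min_le_left _ _)
  choose L hL0 hL using fun l => exists_lipschitz (Q l)
  set KK : ℝ := (1 / s) ^ (B + 1) with hKK
  have hKK0 : 0 ≤ KK := by positivity
  set C₁ : ℝ := KK + ∑ l ∈ Finset.Icc 1 B, (CQ + L l) with hC₁
  have hsumnn : 0 ≤ ∑ l ∈ Finset.Icc 1 B, (CQ + L l) :=
    Finset.sum_nonneg fun l _ => add_nonneg hCQ0 (hL0 l)
  refine ⟨C₁, add_nonneg hKK0 hsumnn, fun ε hε => ?_⟩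
  have hε' : 0 < min ε (min ρ s) :=
    lt_min hε (lt_min (Fact.out) hs0)
  obtain ⟨M, hM⟩ := hQ _ hε'
  refine ⟨M, fun π hπ => ?_⟩
  obtain ⟨h1, h2⟩ := hM π hπ
  set δ : Fin r → R := (w π).1 - ξ.1 with hδ
  have hδε : ‖δ‖ < ε := h1.trans_le (min_le_left _ _)
  have hδρ : ‖δ‖ < ρ := h1.trans_le ((min_le_right _ _).trans (min_le_left _ _))
  have hδs : ‖δ‖ < s := h1.trans_le ((min_le_right _ _).trans (min_le_right _ _))
  have hδ1 : ‖δ‖ < 1 := hδs.trans_le hs1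
  refine ⟨hδε, ?_⟩
  have hpt : addPt ξ δ (hδρ.le.trans_lt hρ1.out) = w π := by
    apply Subtype.ext
    simp [addPt, hδ]
  have hpow0 : 0 ≤ ‖δ‖ ^ (B + 1) := by positivity
  refine (pi_norm_le_iff_of_nonneg (mul_nonneg (add_nonneg hKK0 hsumnn) hpow0)).mpr fun i => ?_
  -- the point `y`
  set y : R := D.PsiAt (w π) (z i) with hy
  have hyev : ev (F i) δ = y := by
    rw [hF]
    simp only
    rw [D.chartS_toSeries_ev ξ hξρ δ hδρ.le (hz1 i), hpt]
  have hyδ : ‖y‖ ≤ ‖δ‖ := by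
    have := norm_ev_le_of_ord (hFint i) hδ1 (hFord i)
    rwa [pow_one, hyev] at this
  have hyT : ‖y - MvPolynomial.eval δ (T i)‖ ≤ ‖δ‖ ^ (B + 1) := by
    have := norm_ev_sub_trS_le (hFint i) hδ1 (B + 1)
    rw [hyev] at this
    rw [hT]
    simp only
    rw [eval_truncP]
    exact this
  have hy1 : ‖y‖ ≤ 1 := hyδ.trans hδ1.le
  have hTv : ‖MvPolynomial.eval δ (T i)‖ ≤ 1 := by
    have e : MvPolynomial.eval δ (T i) = y - (y - MvPolynomial.eval δ (T i)) := by ring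
    rw [e, sub_eq_add_neg]
    refine (IsUltrametricDist.norm_add_le_max _ _).trans (max_le hy1 ?_)
    rw [norm_neg]
    exact hyT.trans (pow_le_one₀ (norm_nonneg _) hδ1.le)
  have hpowdiff : ∀ l ∈ Finset.Icc 1 B,
      ‖y ^ l - (MvPolynomial.eval δ (T i)) ^ l‖ ≤ ‖δ‖ ^ (B + 1) := by
    intro l hl
    have hl1 : 1 ≤ l := (Finset.mem_Icc.mp hl).1
    rcases norm_pow_sub_pow_le hy1 hTv l with h | h
    · exact h.trans hyT
    · omega
  -- the composite series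
  have hbd : Crest.Agent.Lib.LT.Eval1.IsBdd0 (θ π) := ⟨hθb π, hθ0 π⟩
  set S : PowerSeries R := PowerSeries.subst (θ π) ι with hS
  have hSGS : Crest.Agent.Lib.LT.Eval1.GS s S 1 := hιGS.subst hbd hs0 hs1
  have hys : ‖y‖ < s := hyδ.trans_lt hδs
  have hchain : lv D ι w θ z π i = Crest.Agent.Lib.LT.Eval1.ev1 S y :=
    (Crest.Agent.Lib.LT.Eval1.ev1_subst hιGS hbd hs1 hys).symm
  have hS0 : PowerSeries.coeff 0 S = 0 := coeff_zero_subst hs0 hs1 hιGS hι0 hbd
  have htail := norm_ev1_sub_sum_le hs0 hSGS hys (B + 1)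
  have hrange : ∑ l ∈ Finset.range (B + 1), PowerSeries.coeff l S * y ^ l =
      ∑ l ∈ Finset.Icc 1 B, PowerSeries.coeff l S * y ^ l := by
    rw [Finset.range_eq_Ico, Finset.sum_eq_sum_Ico_succ_bot (by omega)]
    simp only [pow_zero, mul_one, hS0, zero_add]
    rfl
  rw [hrange] at htail
  have hevalE : evalMap E δ i =
      ∑ l ∈ Finset.Icc 1 B, MvPolynomial.eval δ (Q l) * (MvPolynomial.eval δ (T i)) ^ l := by
    simp [evalMap, hE, map_sum, map_mul, map_pow]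
  -- assembly
  have hsum : ∑ l ∈ Finset.Icc 1 B, ((PowerSeries.coeff l S - MvPolynomial.eval δ (Q l)) * y ^ l +
        MvPolynomial.eval δ (Q l) * (y ^ l - (MvPolynomial.eval δ (T i)) ^ l)) =
      ∑ l ∈ Finset.Icc 1 B, PowerSeries.coeff l S * y ^ l -
        ∑ l ∈ Finset.Icc 1 B, MvPolynomial.eval δ (Q l) * (MvPolynomial.eval δ (T i)) ^ l := by
    rw [← Finset.sum_sub_distrib]
    exact Finset.sum_congr rfl fun l _ => by ring
  have hsplit : (lv D ι w θ z π - evalMap E δ) i =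
      (Crest.Agent.Lib.LT.Eval1.ev1 S y - ∑ l ∈ Finset.Icc 1 B, PowerSeries.coeff l S * y ^ l) +
      ∑ l ∈ Finset.Icc 1 B, ((PowerSeries.coeff l S - MvPolynomial.eval δ (Q l)) * y ^ l +
        MvPolynomial.eval δ (Q l) * (y ^ l - (MvPolynomial.eval δ (T i)) ^ l)) := by
    rw [Pi.sub_apply, hchain, hevalE, hsum]
    ring
  rw [hsplit]
  refine (norm_add_le _ _).trans ?_
  rw [add_mul]
  refine add_le_add ?_ ?_
  · refine htail.trans ?_
    rw [hKK, ← mul_pow]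
    have hx : ‖y‖ / s ≤ 1 / s * ‖δ‖ := by
      rw [div_le_iff₀ hs0]
      field_simp
      exact hyδ
    exact pow_le_pow_left₀ (by positivity) hx _
  · refine (norm_sum_le _ _).trans ?_
    rw [Finset.sum_mul]
    refine Finset.sum_le_sum fun l hl => ?_
    refine (norm_add_le _ _).trans ?_
    rw [add_mul, norm_mul, norm_mul]
    have hl' : l ≤ B := (Finset.mem_Icc.mp hl).2
    refine add_le_add ?_ ?_
    · have h3 : ‖y ^ l‖ ≤ 1 := by
        rw [norm_pow]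
        exact pow_le_one₀ (norm_nonneg _) hy1
      calc _ ≤ (CQ * ‖δ‖ ^ (B + 1)) * 1 :=
            mul_le_mul (h2 l hl') h3 (norm_nonneg _) (by positivity)
        _ = _ := mul_one _
    · exact mul_le_mul (hL l δ δ hδ1.le hδ1.le).2 (hpowdiff l hl) (norm_nonneg _) (hL0 l)

end Crest.Agent.LT.Chart
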