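import Mathlib
import Crest.Agent.Lib.LT.ChartSeries

/-!
# The linear coefficients of the chart series

`coeff (single m 1) (chartS y) = (d_m g)(t ^ (p ^ k))`, `t = Ψ_ξ (y ^ (1/q))`, where `d_m g` has
as coefficients the linear coefficients in `δ_m` of the coefficients of `g_{ξ+δ}`.
-/

set_option autoImplicit false

namespace Crest.Agent.LT.Chart

open Filter Topology Crest.LubinTate
open Crest.Agent.Lib.LT.EvalS
open Crest.Agent.Lib.LT.FormalIFT (Ord)
open Crest.Agent.LT.PsiCore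
open GB

section Deriv

variable {σ : Type*} {R : Type*} [CommRing R]

theorem coeff_single_eq (m : σ) (f : MvPowerSeries σ R) [DecidableEq σ] :
    MvPowerSeries.coeff (Finsupp.single m 1) f =
      MvPowerSeries.coeff 0 (MvPowerSeries.pderiv R m f) := by
  rw [MvPowerSeries.coeff_pderiv]
  simp

theorem pderiv_pow_char {p : ℕ} [Fact p.Prime] [CharP R p] (m : σ) (A : MvPowerSeries σ R) {k : ℕ}
    (hk : 1 ≤ k) : MvPowerSeries.pderiv R m (A ^ (p ^ k)) = 0 := by
  classical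
  rw [Derivation.leibniz_pow]
  have h1 : CharP (MvPowerSeries σ R) p :=
    charP_of_injective_ringHom (f := (MvPowerSeries.C : R →+* MvPowerSeries σ R))
      (fun a b h => by simpa using congrArg (MvPowerSeries.coeff 0) h) p
  rw [nsmul_eq_mul]
  have h2 : ((p ^ k : ℕ) : MvPowerSeries σ R) = 0 := by
    rw [Nat.cast_pow, CharP.cast_eq_zero, zero_pow (by omega)]
  rw [h2, zero_mul]

/-- The linear coefficient of `g * x ^ n` if `x` has vanishing derivative. -/
theorem coeff_single_mul_pow (m : σ) [DecidableEq σ] (g x : MvPowerSeries σ R)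
    (hx : MvPowerSeries.pderiv R m x = 0) (n : ℕ) :
    MvPowerSeries.coeff (Finsupp.single m 1) (g * x ^ n) =
      MvPowerSeries.coeff (Finsupp.single m 1) g * (MvPowerSeries.coeff 0 x) ^ n := by
  rw [coeff_single_eq, coeff_single_eq, Derivation.leibniz, Derivation.leibniz_pow, hx]
  simp only [smul_eq_mul, mul_zero, nsmul_eq_mul, zero_add, map_mul, map_pow,
    MvPowerSeries.coeff_zero_eq_constantCoeff_apply]
  ring

end Deriv

variable {p k r : ℕ} [hp : Fact p.Prime] {K : Type*} [Field K] (D : Stratum p k r K)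
variable {R : Type*} [NontriviallyNormedField R] [IsUltrametricDist R] [CompleteSpace R]
variable [Algebra K R]

section Main

variable {ρ : ℝ} [hρ0 : Fact (0 < ρ)] [hρ1 : Fact (ρ < 1)]

/-- The additive map "coefficient `m`" on bounded series. -/
noncomputable def coeffHom (m : Fin r →₀ ℕ) : GB (Fin r) R ρ →+ R where
  toFun u := MvPowerSeries.coeff m u.toSeries
  map_zero' := by simp
  map_add' u v := by simp

theorem continuous_coeffHom (m : Fin r →₀ ℕ) :
    Continuous (coeffHom (R := R) (ρ := ρ) (r := r) m) := by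
  refine AddMonoidHomClass.continuous_of_bound _ (1 / ρ ^ Finsupp.degree m) fun u => ?_
  have := norm_coeff_le u m
  rw [div_eq_mul_one_div] at this
  rw [mul_comm]
  exact this

/-- The series `d_m g`, `g = g_ξ`: its coefficients are the linear coefficients in `δ_m`. -/
noncomputable def Stratum.dg (ρ : ℝ) [Fact (0 < ρ)] [Fact (ρ < 1)] (ξ : Pt r R) (m : Fin r) :
    PowerSeries R :=
  PowerSeries.mk fun n =>
    MvPowerSeries.coeff (Finsupp.single m 1) (D.evS (ρ := ρ) ξ (PowerSeries.coeff n D.gA)).toSeries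

theorem Stratum.coeff_dg (ξ : Pt r R) (m : Fin r) (n : ℕ) :
    PowerSeries.coeff n (D.dg ρ ξ m) =
      MvPowerSeries.coeff (Finsupp.single m 1)
        (D.evS (ρ := ρ) ξ (PowerSeries.coeff n D.gA)).toSeries :=
  PowerSeries.coeff_mk _ _

theorem Stratum.int1_dg (ξ : Pt r R) (m : Fin r) : Int1 (D.dg ρ ξ m) := fun n => by
  rw [D.coeff_dg]
  exact GB.norm_coeff_le_one _ _

variable [CharP R p]

/-- The linear coefficient of a value of `g` at a `p ^ k`-th power. -/
theorem Stratum.coeff_single_ev1_gA (ξ : Pt r R) (m : Fin r) (A : GB (Fin r) R ρ)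
    (hA : ‖A‖ < 1) :
    MvPowerSeries.coeff (Finsupp.single m 1)
      (ev1 (PowerSeries.map (D.evS (ρ := ρ) ξ) D.gA) (A ^ (p ^ k))).toSeries =
    ev1 (D.dg ρ ξ m) ((MvPowerSeries.coeff 0 A.toSeries) ^ (p ^ k)) := by
  have hA' : ‖A ^ (p ^ k)‖ < 1 := lt_of_le_of_lt (norm_pow_le _ _)
    (pow_lt_one₀ (norm_nonneg _) hA (pow_ne_zero _ hp.out.ne_zero))
  have hg : Int1 (PowerSeries.map (D.evS (ρ := ρ) ξ) D.gA) :=
    int1_map_of_hom _ (D.norm_evS_le_one ξ) _
  have hs := summable_ev1 hg hA'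
  have h1 : coeffHom (Finsupp.single m 1)
      (ev1 (PowerSeries.map (D.evS (ρ := ρ) ξ) D.gA) (A ^ (p ^ k))) =
      ∑' n, coeffHom (Finsupp.single m 1)
        (PowerSeries.coeff n (PowerSeries.map (D.evS (ρ := ρ) ξ) D.gA) * (A ^ (p ^ k)) ^ n) :=
    hs.map_tsum (coeffHom (Finsupp.single m 1)) (continuous_coeffHom _)
  refine h1.trans ?_
  rw [ev1]
  refine tsum_congr fun n => ?_
  rw [D.coeff_dg]
  have h2 : coeffHom (Finsupp.single m 1)
      (PowerSeries.coeff n (PowerSeries.map (D.evS (ρ := ρ) ξ) D.gA) * (A ^ (p ^ k)) ^ n) =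
      MvPowerSeries.coeff (Finsupp.single m 1)
        ((D.evS (ρ := ρ) ξ (PowerSeries.coeff n D.gA)).toSeries * (A.toSeries ^ (p ^ k)) ^ n) := by
    rw [PowerSeries.coeff_map]
    rfl
  rw [h2, coeff_single_mul_pow m _ _ (pderiv_pow_char (p := p) m _ D.hk)]
  congr 1
  rw [MvPowerSeries.coeff_zero_eq_constantCoeff_apply, map_pow,
    MvPowerSeries.coeff_zero_eq_constantCoeff_apply]

theorem addPt_zero (ξ : Pt r R) (h : ‖(0 : Fin r → R)‖ < 1) : addPt ξ 0 h = ξ := by
  apply Subtype.ext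
  simp [addPt]

variable [PerfectRing R p]

theorem rootN_add (a b : ℕ) (y : R) : rootN p R (a + b) y = rootN p R a (rootN p R b y) :=
  Function.iterate_add_apply _ a b y

theorem tw_succ (y : R) (N : ℕ) : tw p k r y (N + 1) = tw p k r (rootN p R (k + r) y) N := by
  unfold tw
  rw [Nat.mul_succ, rootN_add]

theorem Stratum.coeff_zero_iterate_pB (ξ : Pt r R) (hξ : ‖ξ.1‖ ≤ ρ) (N : ℕ)
    (u : GB (Fin r) R ρ) (hu : ‖u‖ < 1) :
    MvPowerSeries.coeff 0 ((D.pB ρ ξ)^[N] u).toSeries =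
      (D.pAt ξ)^[N] (MvPowerSeries.coeff 0 u.toSeries) := by
  have h0 : ‖(0 : Fin r → R)‖ ≤ ρ := by simpa using hρ0.out.le
  have hc : ∀ v : GB (Fin r) R ρ, MvPowerSeries.coeff 0 v.toSeries = evPt 0 h0 v := fun v =>
    (ev_zero_pt v.norm_coeff_le_one).symm
  induction N with
  | zero => rfl
  | succ N ih =>
    rw [Function.iterate_succ_apply', Function.iterate_succ_apply', hc,
      D.evPt_pB ξ 0 h0 _ ((D.pmap_B ξ hξ).iterate_maps N u hu), addPt_zero, ← hc, ih]

/-- The linear coefficients of the chart series. -/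
theorem Stratum.coeff_single_chartS (ξ : Pt r R) (hξ : ‖ξ.1‖ ≤ ρ) (m : Fin r) {y : R}
    (hy : ‖y‖ < 1) :
    MvPowerSeries.coeff (Finsupp.single m 1) (D.chartS ρ ξ hy).toSeries =
      ev1 (D.dg ρ ξ m) ((D.PsiAt ξ (rootN p R (k + r) y)) ^ (p ^ k)) := by
  have hP := D.pmap_B (ρ := ρ) ξ hξ
  have hT := isTower_twB (p := p) (k := k) (r := r) (ρ := ρ) hy
  have hroot : ‖rootN p R (k + r) y‖ < 1 := norm_rootN_lt hy _
  have hPat := D.pmap_at ξ
  have hTat := isTower_tw (p := p) (k := k) (r := r) hroot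
  have t1 : Tendsto (fun N => MvPowerSeries.coeff (Finsupp.single m 1)
      (psiSeq (D.pB ρ ξ) (twB p k r hy) (N + 1)).toSeries) atTop
      (𝓝 (MvPowerSeries.coeff (Finsupp.single m 1) (D.chartS ρ ξ hy).toSeries)) :=
    tendsto_coeff_of_tendsto ((tendsto_psi hP hT).comp (tendsto_add_atTop_nat 1)) _
  have ht : Tendsto (psiSeq (D.pAt ξ) (tw p k r (rootN p R (k + r) y))) atTop
      (𝓝 (D.PsiAt ξ (rootN p R (k + r) y))) := tendsto_psi hPat hTat
  have hlt : ‖D.PsiAt ξ (rootN p R (k + r) y)‖ < 1 := psi_lt_one hPat hTat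
  have hlt' : ‖(D.PsiAt ξ (rootN p R (k + r) y)) ^ (p ^ k)‖ < 1 := lt_of_le_of_lt (norm_pow_le _ _)
    (pow_lt_one₀ (norm_nonneg _) hlt (pow_ne_zero _ hp.out.ne_zero))
  have t2 : Tendsto (fun N => ev1 (D.dg ρ ξ m)
      ((psiSeq (D.pAt ξ) (tw p k r (rootN p R (k + r) y)) N) ^ (p ^ k))) atTop
      (𝓝 (ev1 (D.dg ρ ξ m) ((D.PsiAt ξ (rootN p R (k + r) y)) ^ (p ^ k)))) :=
    (continuousAt_ev1 (D.int1_dg ξ m) hlt').tendsto.comp (ht.pow _)
  refine tendsto_nhds_unique t1 (t2.congr fun N => ?_)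
  -- pointwise identification
  set A := (D.pB ρ ξ)^[N] (twB (R := R) (ρ := ρ) p k r hy (N + 1)) with hA
  have hA1 : ‖A‖ < 1 := hP.iterate_maps N _ (hT.lt_one _)
  have h1 : psiSeq (D.pB ρ ξ) (twB p k r hy) (N + 1) =
      ev1 (PowerSeries.map (D.evS (ρ := ρ) ξ) D.gA) (A ^ (p ^ k)) := by
    unfold psiSeq
    rw [Function.iterate_succ_apply']
    have h3 := pS_eq D (D.evS (ρ := ρ) ξ) A
    exact h3
  rw [h1, D.coeff_single_ev1_gA ξ m A hA1]
  congr 2
  rw [hA, D.coeff_zero_iterate_pB ξ hξ N _ (hT.lt_one _), toSeries_twB]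
  unfold psiSeq
  rw [tw_succ]
  simp

end Main

end Crest.Agent.LT.Chart
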