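import Crest.Agent.Lib.LT.FGL

/-!
# Height ideals: the p-power degree lemma, vanishing, invariance under isomorphism and push-forward
-/

set_option autoImplicit false

open Crest.LubinTate

namespace Crest.Agent.LT

variable {R : Type*} [CommRing R] {S : Type*} [CommRing S] {τ : Type*}

/-! ### `(s + r)^n ≡ s^n` -/

theorem add_pow_sub_pow_mem_ordIdeal {s r : MvPowerSeries τ R} (hs : s ∈ ordIdeal τ R 1)
    (hr : r ∈ ordIdeal τ R 2) (n : ℕ) : (s + r) ^ n - s ^ n ∈ ordIdeal τ R (n + 1) := by
  have hsr : s + r ∈ ordIdeal τ R 1 := add_mem hs (ordIdeal_mono (by norm_num) hr)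
  induction n with
  | zero => simp
  | succ n ih =>
    have h1 : (s + r) ^ (n + 1) - s ^ (n + 1) = (s + r) * ((s + r) ^ n - s ^ n) + r * s ^ n := by
      ring
    rw [h1]
    refine add_mem ?_ ?_
    · have := mul_mem_ordIdeal hsr ih
      rwa [show 1 + (n + 1) = n + 1 + 1 by ring] at this
    · have := mul_mem_ordIdeal hr (pow_mem_ordIdeal hs n)
      rwa [show 2 + 1 * n = n + 1 + 1 by ring] at this

/-- The coefficient of `X₀^i X₁^j` in `(X₀ + X₁)^(i + j)`. -/
theorem coeff_X_add_X_pow (i j : ℕ) :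
    MvPowerSeries.coeff (Finsupp.single 0 i + Finsupp.single 1 j)
      ((MvPowerSeries.X 0 + MvPowerSeries.X 1 : MvPowerSeries (Fin 2) R) ^ (i + j)) =
      ((i + j).choose i : R) := by
  classical
  rw [add_pow, map_sum, Finset.sum_eq_single i]
  · have hij : i + j - i = j := by omega
    rw [hij, MvPowerSeries.X_pow_eq, MvPowerSeries.X_pow_eq, MvPowerSeries.monomial_mul_monomial,
      one_mul]
    have : ((i + j).choose i : MvPowerSeries (Fin 2) R) =
        MvPowerSeries.C ((i + j).choose i : R) := by simp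
    rw [this, MvPowerSeries.coeff_mul_C, MvPowerSeries.coeff_monomial_same, one_mul]
  · intro k hk hki
    have hk' : k ≤ i + j := by simpa [Nat.lt_succ_iff] using hk
    rw [MvPowerSeries.X_pow_eq, MvPowerSeries.X_pow_eq, MvPowerSeries.monomial_mul_monomial,
      one_mul]
    have : ((i + j).choose k : MvPowerSeries (Fin 2) R) =
        MvPowerSeries.C ((i + j).choose k : R) := by simp
    rw [this, MvPowerSeries.coeff_mul_C, MvPowerSeries.coeff_monomial, if_neg, zero_mul]
    intro h
    apply hki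
    have := DFunLike.congr_fun h 0
    simpa using this.symm
  · intro h
    exfalso
    apply h
    simp

theorem coeff_X0_pow_mixed {i j : ℕ} (hj : 1 ≤ j) :
    MvPowerSeries.coeff (Finsupp.single 0 i + Finsupp.single 1 j)
      ((MvPowerSeries.X 0 : MvPowerSeries (Fin 2) R) ^ (i + j)) = 0 := by
  classical
  rw [MvPowerSeries.X_pow_eq, MvPowerSeries.coeff_monomial, if_neg]
  intro h
  have := DFunLike.congr_fun h 1
  simp at this
  omega

theorem coeff_X1_pow_mixed {i j : ℕ} (hi : 1 ≤ i) :
    MvPowerSeries.coeff (Finsupp.single 0 i + Finsupp.single 1 j)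
      ((MvPowerSeries.X 1 : MvPowerSeries (Fin 2) R) ^ (i + j)) = 0 := by
  classical
  rw [MvPowerSeries.X_pow_eq, MvPowerSeries.coeff_monomial, if_neg]
  intro h
  have := DFunLike.congr_fun h 0
  simp at this
  omega

/-- Decompose a one-variable series of order `d`: `φ(x) = c x^d + ρ(x)`. -/
theorem psubst_eq_of_ord {φ : PowerSeries R} {d : ℕ} (hφ : φ ∈ ordIdeal Unit R d)
    {x : MvPowerSeries τ R} (hx : x ∈ ordIdeal τ R 1) :
    PowerSeries.subst x φ - MvPowerSeries.C (PowerSeries.coeff d φ) * x ^ d ∈ ordIdeal τ R (d + 1) := by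
  have hx0 : MvPowerSeries.constantCoeff x = 0 := mem_ordIdeal_one.mp hx
  have hs := hasSubst_one hx0
  -- the tail
  set ρ : PowerSeries R := φ - PowerSeries.C (PowerSeries.coeff d φ) * PowerSeries.X ^ d with hρ
  have hρord : ρ ∈ ordIdeal Unit R (d + 1) := by
    rw [mem_ordIdeal_iff_coeff]
    intro n hn
    rw [hρ, map_sub, PowerSeries.coeff_C_mul, PowerSeries.coeff_X_pow]
    by_cases h : n = d
    · subst h; simp
    · have hn' : n < d := by omega
      have := mem_ordIdeal_iff_coeff.mp hφ n hn'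
      simp [this, h]
  have h1 : PowerSeries.subst x ρ = PowerSeries.subst x φ -
      MvPowerSeries.C (PowerSeries.coeff d φ) * x ^ d := by
    rw [hρ, PowerSeries.subst_sub hs, PowerSeries.subst_mul hs, PowerSeries.subst_pow hs,
      PowerSeries.subst_X hs, PowerSeries.subst_C]
  rw [← h1, PowerSeries.subst_def]
  have h2 := subst_mem_ordIdeal (a := fun _ : Unit => x) hs.const (b := 1) (c := d + 1)
    (fun _ => hx) hρord
  rwa [one_mul] at h2

/-- `φ(x)` has order at least `d` if `φ` does (and `x` has order at least one). -/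
theorem psubst_mem_ord {φ : PowerSeries R} {d : ℕ} (hφ : φ ∈ ordIdeal Unit R d)
    {x : MvPowerSeries τ R} (hx : x ∈ ordIdeal τ R 1) : PowerSeries.subst x φ ∈ ordIdeal τ R d := by
  have hx0 : MvPowerSeries.constantCoeff x = 0 := mem_ordIdeal_one.mp hx
  have h2 := subst_mem_ordIdeal (a := fun _ : Unit => x) (hasSubst_one hx0).const (b := 1) (c := d)
    (fun _ => hx) hφ
  rwa [one_mul] at h2

/-- `θ(x) = e x + O(x²)`. -/
theorem psubst_linear {θ : PowerSeries R} (hθ : θ ∈ ordIdeal Unit R 1) {x : MvPowerSeries τ R} {N : ℕ}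
    (hx : x ∈ ordIdeal τ R N) (hN : 1 ≤ N) :
    PowerSeries.subst x θ - MvPowerSeries.C (PowerSeries.coeff 1 θ) * x ∈ ordIdeal τ R (N * 2) := by
  have hx1 : x ∈ ordIdeal τ R 1 := ordIdeal_mono hN hx
  have hx0 : MvPowerSeries.constantCoeff x = 0 := mem_ordIdeal_one.mp hx1
  have hs := hasSubst_one hx0
  set ρ : PowerSeries R := θ - PowerSeries.C (PowerSeries.coeff 1 θ) * PowerSeries.X with hρ
  have hρord : ρ ∈ ordIdeal Unit R 2 := by
    rw [mem_ordIdeal_iff_coeff]
    intro n hn
    rw [hρ, map_sub, PowerSeries.coeff_C_mul, PowerSeries.coeff_X]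
    by_cases h : n = 1
    · subst h; simp
    · have hn' : n < 1 := by omega
      have := mem_ordIdeal_iff_coeff.mp hθ n hn'
      simp [this, h]
  have h1 : PowerSeries.subst x ρ = PowerSeries.subst x θ -
      MvPowerSeries.C (PowerSeries.coeff 1 θ) * x := by
    rw [hρ, PowerSeries.subst_sub hs, PowerSeries.subst_mul hs,
      PowerSeries.subst_X hs, PowerSeries.subst_C]
  rw [← h1, PowerSeries.subst_def]
  exact subst_mem_ordIdeal (a := fun _ : Unit => x) hs.const (b := N) (c := 2) (fun _ => hx) hρord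

/-- The law minus the additive part has order at least two. -/
theorem law_sub_add_mem (F : FormalGroup R) :
    F.toPowerSeries - (MvPowerSeries.X 0 + MvPowerSeries.X 1) ∈ ordIdeal (Fin 2) R 2 := by
  have h := law_eq_cross F
  have : F.toPowerSeries - (MvPowerSeries.X 0 + MvPowerSeries.X 1) =
      MvPowerSeries.X 0 * MvPowerSeries.X 1 * cross F.toPowerSeries := by
    nth_rw 1 [h]; ring
  rw [this]
  exact Ideal.mul_mem_right _ _ (mul_mem_ordIdeal (X_mem_ordIdeal_one _) (X_mem_ordIdeal_one _))

/-- **Leading coefficient of a homomorphism**: `c * binom(d, i) = 0` for `0 < i < d`. -/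
theorem hom_leading_choose {F G : FormalGroup R} {φ : PowerSeries R} (h : IsFGHom F G φ)
    {i j : ℕ} (hi : 1 ≤ i) (hj : 1 ≤ j) (hφ : φ ∈ ordIdeal Unit R (i + j)) :
    PowerSeries.coeff (i + j) φ * ((i + j).choose i : R) = 0 := by
  set d := i + j with hd
  set c := PowerSeries.coeff d φ with hc
  have hX0 := X_mem_ordIdeal_one (R := R) (τ := Fin 2) 0
  have hX1 := X_mem_ordIdeal_one (R := R) (τ := Fin 2) 1
  have hF1 : F.toPowerSeries ∈ ordIdeal (Fin 2) R 1 := mem_ordIdeal_one.mpr F.zero_constantCoeff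
  have key := h.2
  -- left side
  have hL := psubst_eq_of_ord hφ hF1
  have hL2 : MvPowerSeries.C c * F.toPowerSeries ^ d -
      MvPowerSeries.C c * (MvPowerSeries.X 0 + MvPowerSeries.X 1) ^ d ∈ ordIdeal (Fin 2) R (d + 1) := by
    have := add_pow_sub_pow_mem_ordIdeal (s := MvPowerSeries.X 0 + MvPowerSeries.X 1)
      (r := F.toPowerSeries - (MvPowerSeries.X 0 + MvPowerSeries.X 1)) (add_mem hX0 hX1)
      (law_sub_add_mem F) d
    rw [add_sub_cancel] at this
    rw [← mul_sub]
    exact Ideal.mul_mem_left _ _ this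
  -- right side
  have ha := psubst_mem_ord hφ hX0
  have hb := psubst_mem_ord hφ hX1
  have ha1 : MvPowerSeries.constantCoeff (PowerSeries.subst (MvPowerSeries.X 0 : MvPowerSeries (Fin 2) R) φ) = 0 :=
    constantCoeff_psubst (by simp) h.1
  have hb1 : MvPowerSeries.constantCoeff (PowerSeries.subst (MvPowerSeries.X 1 : MvPowerSeries (Fin 2) R) φ) = 0 :=
    constantCoeff_psubst (by simp) h.1
  have hR := fadd_sub_mem_ordIdeal G ha1 hb1 ha hb
  have hdpos : 1 ≤ d := by omega
  have hR' : fadd G.toPowerSeries (PowerSeries.subst (MvPowerSeries.X 0 : MvPowerSeries (Fin 2) R) φ)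
      (PowerSeries.subst (MvPowerSeries.X 1 : MvPowerSeries (Fin 2) R) φ) -
      PowerSeries.subst (MvPowerSeries.X 0 : MvPowerSeries (Fin 2) R) φ -
      PowerSeries.subst (MvPowerSeries.X 1 : MvPowerSeries (Fin 2) R) φ ∈ ordIdeal (Fin 2) R (d + 1) :=
    ordIdeal_mono (by omega) hR
  have hA := psubst_eq_of_ord hφ hX0
  have hB := psubst_eq_of_ord hφ hX1
  -- combine
  have total : MvPowerSeries.C c * (MvPowerSeries.X 0 + MvPowerSeries.X 1) ^ d -
      MvPowerSeries.C c * (MvPowerSeries.X 0) ^ d - MvPowerSeries.C c * (MvPowerSeries.X 1) ^ d ∈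
      ordIdeal (Fin 2) R (d + 1) := by
    have e : MvPowerSeries.C c * (MvPowerSeries.X 0 + MvPowerSeries.X 1) ^ d -
        MvPowerSeries.C c * (MvPowerSeries.X 0) ^ d - MvPowerSeries.C c * (MvPowerSeries.X 1) ^ d =
        (fadd G.toPowerSeries (PowerSeries.subst (MvPowerSeries.X 0 : MvPowerSeries (Fin 2) R) φ)
          (PowerSeries.subst (MvPowerSeries.X 1 : MvPowerSeries (Fin 2) R) φ) -
          PowerSeries.subst (MvPowerSeries.X 0 : MvPowerSeries (Fin 2) R) φ -
          PowerSeries.subst (MvPowerSeries.X 1 : MvPowerSeries (Fin 2) R) φ)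
        + (PowerSeries.subst (MvPowerSeries.X 0 : MvPowerSeries (Fin 2) R) φ -
            MvPowerSeries.C c * (MvPowerSeries.X 0) ^ d)
        + (PowerSeries.subst (MvPowerSeries.X 1 : MvPowerSeries (Fin 2) R) φ -
            MvPowerSeries.C c * (MvPowerSeries.X 1) ^ d)
        - (PowerSeries.subst F.toPowerSeries φ - MvPowerSeries.C c * F.toPowerSeries ^ d)
        - (MvPowerSeries.C c * F.toPowerSeries ^ d -
            MvPowerSeries.C c * (MvPowerSeries.X 0 + MvPowerSeries.X 1) ^ d) := by
      have key' : PowerSeries.subst F.toPowerSeries φ =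
          fadd G.toPowerSeries (PowerSeries.subst (MvPowerSeries.X 0 : MvPowerSeries (Fin 2) R) φ)
            (PowerSeries.subst (MvPowerSeries.X 1 : MvPowerSeries (Fin 2) R) φ) := key
      rw [key']; ring
    rw [e]
    exact sub_mem (sub_mem (add_mem (add_mem hR' hA) hB) hL) hL2
  have hdeg : (Finsupp.single (0 : Fin 2) i + Finsupp.single 1 j).degree < d + 1 := by
    simp [hd]
  have := total _ hdeg
  rw [map_sub, map_sub, MvPowerSeries.coeff_C_mul, MvPowerSeries.coeff_C_mul, MvPowerSeries.coeff_C_mul,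
    hd, coeff_X_add_X_pow, coeff_X0_pow_mixed hj, coeff_X1_pow_mixed hi, mul_zero, sub_zero, sub_zero]
    at this
  exact this

/-! ### The p-power degree lemma -/

section Char

variable (p : ℕ) [hp : Fact p.Prime]

theorem isUnit_natCast_of_not_dvd (hR : (p : R) = 0) {m : ℕ} (hm : ¬ p ∣ m) : IsUnit (m : R) := by
  have hc : Nat.Coprime m p := ((Nat.Prime.coprime_iff_not_dvd hp.out).mpr hm).symm
  obtain ⟨u, v, huv⟩ := (Nat.isCoprime_iff_coprime.mpr hc)
  have := congrArg (Int.cast : ℤ → R) huv
  push_cast at this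
  rw [hR, mul_zero, add_zero] at this
  exact IsUnit.of_mul_eq_one _ (by rwa [mul_comm] at this)

theorem natCast_eq_of_modEq (hR : (p : R) = 0) {a b : ℕ} (h : a ≡ b [MOD p]) : (a : R) = (b : R) := by
  obtain ⟨k, hk⟩ := (Nat.modEq_iff_dvd).mp h
  have := congrArg (Int.cast : ℤ → R) hk
  push_cast at this
  rw [hR, zero_mul, sub_eq_zero] at this
  exact this.symm

/-- Lucas: `binom(p^a m, p^a) ≡ m mod p`. -/
theorem choose_pow_mul_modEq (a m : ℕ) :
    (p ^ a * m).choose (p ^ a) ≡ m [MOD p] := by
  induction a with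
  | zero => simp [Nat.ModEq]
  | succ a ih =>
    have hpos : 0 < p := hp.out.pos
    have h1 := Choose.choose_modEq_choose_mod_mul_choose_div_nat (n := p ^ (a + 1) * m)
      (k := p ^ (a + 1)) (p := p)
    have h2 : p ^ (a + 1) * m % p = 0 := by
      rw [pow_succ]
      rw [show p ^ a * p * m = p * (p ^ a * m) by ring]
      exact Nat.mul_mod_right _ _
    have h3 : p ^ (a + 1) % p = 0 := by
      rw [pow_succ]; exact Nat.mul_mod_left _ _
    have h4 : p ^ (a + 1) * m / p = p ^ a * m := by
      rw [pow_succ, show p ^ a * p * m = p * (p ^ a * m) by ring]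
      exact Nat.mul_div_cancel_left _ hpos
    have h5 : p ^ (a + 1) / p = p ^ a := by
      rw [pow_succ]; exact Nat.mul_div_cancel _ hpos
    rw [h2, h3, h4, h5, Nat.choose_zero_right, one_mul] at h1
    exact h1.trans ih

/-- A nonzero leading coefficient of a homomorphism in characteristic `p` lives in a `p`-power
degree. -/
theorem hom_ord_succ {F G : FormalGroup R} {φ : PowerSeries R} (hR : (p : R) = 0)
    (h : IsFGHom F G φ) {d : ℕ} (hd : 1 ≤ d) (hnp : ∀ a : ℕ, d ≠ p ^ a)
    (hφ : φ ∈ ordIdeal Unit R d) : φ ∈ ordIdeal Unit R (d + 1) := by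
  rw [mem_ordIdeal_iff_coeff] at hφ ⊢
  intro n hn
  by_cases hnd : n < d
  · exact hφ n hnd
  have hnd' : n = d := by omega
  subst hnd'
  -- write `n = p^a m`
  have hn0 : n ≠ 0 := by omega
  obtain ⟨a, m, hm, hnm⟩ := Nat.exists_eq_pow_mul_and_not_dvd hn0 p hp.out.ne_one
  have hm1 : m ≠ 1 := by
    rintro rfl
    exact hnp a (by simpa using hnm)
  have hm0 : m ≠ 0 := by
    rintro rfl
    simp at hm
  have hlt : p ^ a < n := by
    rw [hnm]
    have : 1 < m := by omega
    exact lt_mul_of_one_lt_right (pow_pos hp.out.pos a) this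
  have hle : p ^ a ≤ n := hlt.le
  have hi : 1 ≤ p ^ a := Nat.one_le_pow _ _ hp.out.pos
  have hj : 1 ≤ n - p ^ a := by omega
  have hsum : p ^ a + (n - p ^ a) = n := by omega
  have := hom_leading_choose h (i := p ^ a) (j := n - p ^ a) hi hj
    (by rw [hsum, mem_ordIdeal_iff_coeff]; exact hφ)
  rw [hsum] at this
  have hchoose : ((n.choose (p ^ a) : ℕ) : R) = (m : R) := by
    have h1 := choose_pow_mul_modEq p a m
    rw [← hnm] at h1
    exact natCast_eq_of_modEq p hR h1
  rw [hchoose] at this
  exact (isUnit_natCast_of_not_dvd p hR hm).mul_left_eq_zero.mp this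

/-- Climbing: a homomorphism of order `> p^h` in characteristic `p` has order `p^(h+1)`. -/
theorem hom_ord_climb {F G : FormalGroup R} {φ : PowerSeries R} (hR : (p : R) = 0)
    (h : IsFGHom F G φ) (k : ℕ) (hφ : φ ∈ ordIdeal Unit R (p ^ k + 1)) :
    φ ∈ ordIdeal Unit R (p ^ (k + 1)) := by
  have hp1 : 1 < p := hp.out.one_lt
  have hlt : p ^ k < p ^ (k + 1) := Nat.pow_lt_pow_right hp1 (Nat.lt_succ_self k)
  have key : ∀ t : ℕ, p ^ k + 1 + t ≤ p ^ (k + 1) → φ ∈ ordIdeal Unit R (p ^ k + 1 + t) := by
    intro t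
    induction t with
    | zero => intro _; exact hφ
    | succ t ih =>
      intro ht
      have h1 := ih (by omega)
      have hnp : ∀ a : ℕ, p ^ k + 1 + t ≠ p ^ a := by
        intro a ha
        have h3 : p ^ k < p ^ a := by omega
        have h4 : p ^ a < p ^ (k + 1) := by omega
        have h5 := (Nat.pow_lt_pow_iff_right hp1).mp h3
        have h6 := (Nat.pow_lt_pow_iff_right hp1).mp h4
        omega
      exact hom_ord_succ p hR h (d := p ^ k + 1 + t) (by omega) hnp h1
  have := key (p ^ (k + 1) - (p ^ k + 1)) (by omega)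
  rwa [show p ^ k + 1 + (p ^ (k + 1) - (p ^ k + 1)) = p ^ (k + 1) by omega] at this

/-! ### Height ideals over a general ring -/

/-- The height ideals of a law. -/
noncomputable def hgt (F : FormalGroup R) : ℕ → Ideal R
  | 0 => ⊥
  | h + 1 => hgt F h ⊔ Ideal.span {PowerSeries.coeff (p ^ h) (mulSeries F p)}

theorem heightIdeal_eq_hgt (n : ℕ) (H : FormalGroup (LTRing p n)) (h : ℕ) :
    heightIdeal p n H h = hgt p H h := by
  induction h with
  | zero => rfl
  | succ h ih =>
    show heightIdeal p n H h ⊔ _ = hgt p H h ⊔ _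
    rw [ih]

theorem hgt_mono (F : FormalGroup R) {a b : ℕ} (h : a ≤ b) : hgt p F a ≤ hgt p F b := by
  induction b, h using Nat.le_induction with
  | base => exact le_rfl
  | succ b _ ih => exact ih.trans le_sup_left

theorem coeff_mem_hgt_succ (F : FormalGroup R) (h : ℕ) :
    PowerSeries.coeff (p ^ h) (mulSeries F p) ∈ hgt p F (h + 1) :=
  Ideal.mem_sup_right (Ideal.subset_span rfl)

/-- `p ∈ I_{h}` for `h ≥ 1`. -/
theorem natCast_mem_hgt (F : FormalGroup R) {h : ℕ} (hh : 1 ≤ h) : (p : R) ∈ hgt p F h := by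
  have h1 := coeff_mem_hgt_succ p F 0
  rw [pow_zero, coeff_one_mulSeries] at h1
  exact hgt_mono p F hh h1

theorem hgt_one (F : FormalGroup R) : hgt p F 1 = Ideal.span {(p : R)} := by
  show (⊥ : Ideal R) ⊔ _ = _
  rw [bot_sup_eq, pow_zero, coeff_one_mulSeries]

/-- Push-forward of height ideals. -/
theorem hgt_map (f : R →+* S) (F : FormalGroup R) (h : ℕ) :
    hgt p (F.map f) h = (hgt p F h).map f := by
  induction h with
  | zero => simp [hgt]
  | succ h ih =>
    show hgt p (F.map f) h ⊔ _ = Ideal.map f (hgt p F h ⊔ _)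
    rw [ih, Ideal.map_sup, Ideal.map_span, Set.image_singleton, mulSeries_map, PowerSeries.coeff_map]

/-- Vanishing: `[p]_F` has no terms of degree `< p^h` modulo `I_h`. -/
theorem coeff_mulSeries_mem_hgt (F : FormalGroup R) [F.IsComm] (h : ℕ) :
    ∀ m < p ^ h, PowerSeries.coeff m (mulSeries F p) ∈ hgt p F h := by
  induction h with
  | zero =>
    intro m hm
    have : m = 0 := by simpa using hm
    subst this
    have := constantCoeff_mulSeries F p
    simp [this, PowerSeries.coeff_zero_eq_constantCoeff_apply, hgt]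
  | succ h ih =>
    intro m hm
    -- pass to the quotient
    set I := hgt p F (h + 1) with hI
    let π : R →+* R ⧸ I := Ideal.Quotient.mk I
    have hp0 : ((p : ℕ) : R ⧸ I) = 0 := by
      have := Ideal.Quotient.eq_zero_iff_mem.mpr (natCast_mem_hgt p F (h := h + 1) (by omega))
      simpa using this
    have hcoeff : ∀ k, PowerSeries.coeff k (PowerSeries.map π (mulSeries F p)) = 0 ↔
        PowerSeries.coeff k (mulSeries F p) ∈ I := by
      intro k
      rw [PowerSeries.coeff_map]
      exact Ideal.Quotient.eq_zero_iff_mem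
    have hord : PowerSeries.map π (mulSeries F p) ∈ ordIdeal Unit (R ⧸ I) (p ^ h + 1) := by
      rw [mem_ordIdeal_iff_coeff]
      intro k hk
      rw [hcoeff]
      by_cases hk' : k < p ^ h
      · exact hgt_mono p F (Nat.le_succ h) (ih k hk')
      · have : k = p ^ h := by omega
        subst this
        exact coeff_mem_hgt_succ p F h
    have hhom : IsFGHom (F.map π) (F.map π) (PowerSeries.map π (mulSeries F p)) :=
      hom_map π (isFGHom_mulSeries F p)
    have h2 := hom_ord_climb p hp0 hhom h hord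
    rw [mem_ordIdeal_iff_coeff] at h2
    exact (hcoeff m).mp (h2 m hm)

/-- **Invariance under isomorphism**. -/
theorem hgt_eq_of_iso {F G : FormalGroup R} [F.IsComm] [G.IsComm] {θ : PowerSeries R}
    (hθ : IsFGHom F G θ) (hu : IsUnit (PowerSeries.coeff 1 θ)) (h : ℕ) :
    hgt p F h = hgt p G h := by
  induction h with
  | zero => rfl
  | succ h ih =>
    set I := hgt p F h with hI
    let π : R →+* R ⧸ I := Ideal.Quotient.mk I
    set e := PowerSeries.coeff 1 θ with he
    set aF := PowerSeries.coeff (p ^ h) (mulSeries F p) with haF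
    set aG := PowerSeries.coeff (p ^ h) (mulSeries G p) with haG
    have hX : (PowerSeries.X : PowerSeries (R ⧸ I)) ∈ ordIdeal Unit (R ⧸ I) 1 := X_mem_ordIdeal_one ()
    have hFord : PowerSeries.map π (mulSeries F p) ∈ ordIdeal Unit (R ⧸ I) (p ^ h) := by
      rw [mem_ordIdeal_iff_coeff]
      intro k hk
      rw [PowerSeries.coeff_map]
      exact Ideal.Quotient.eq_zero_iff_mem.mpr (coeff_mulSeries_mem_hgt p F h k hk)
    have hGord : PowerSeries.map π (mulSeries G p) ∈ ordIdeal Unit (R ⧸ I) (p ^ h) := by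
      rw [mem_ordIdeal_iff_coeff]
      intro k hk
      rw [PowerSeries.coeff_map]
      exact Ideal.Quotient.eq_zero_iff_mem.mpr (by
        rw [ih]; exact coeff_mulSeries_mem_hgt p G h k hk)
    set N := p ^ h with hN
    have hNpos : 1 ≤ N := Nat.one_le_pow _ _ hp.out.pos
    set θA := PowerSeries.map π θ with hθA
    have hθhom : IsFGHom (F.map π) (G.map π) θA := hom_map π hθ
    have hθ1 : θA ∈ ordIdeal Unit (R ⧸ I) 1 := mem_ordIdeal_one.mpr hθhom.1
    have hcomm := hom_mulSeries hθhom p
    rw [mulSeries_map, mulSeries_map] at hcomm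
    have hcθ1 : PowerSeries.coeff 1 θA = π e := by
      rw [hθA, PowerSeries.coeff_map]
    -- left side
    have hdeg1 : (Finsupp.single () N : Unit →₀ ℕ).degree < N * 2 := by
      simp only [Finsupp.degree_single]; omega
    have hdeg2 : (Finsupp.single () N : Unit →₀ ℕ).degree < N + 1 := by
      simp only [Finsupp.degree_single]; omega
    have hL := psubst_linear hθ1 hFord hNpos _ hdeg1
    have hR := psubst_eq_of_ord hGord hθ1 _ hdeg2
    -- the power of `θA`
    have hpow : PowerSeries.coeff N (θA ^ N) = (π e) ^ N := by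
      set s : PowerSeries (R ⧸ I) := MvPowerSeries.C (π e) * PowerSeries.X with hs
      have hs1 : s ∈ ordIdeal Unit (R ⧸ I) 1 := Ideal.mul_mem_left _ _ hX
      have hr2 : θA - s ∈ ordIdeal Unit (R ⧸ I) 2 := by
        rw [mem_ordIdeal_iff_coeff]
        intro n hn
        rw [map_sub, hs]
        show PowerSeries.coeff n θA - PowerSeries.coeff n (PowerSeries.C (π e) * PowerSeries.X) = 0
        rw [PowerSeries.coeff_C_mul, PowerSeries.coeff_X]
        interval_cases n
        · have := hθhom.1
          simp [PowerSeries.coeff_zero_eq_constantCoeff_apply, this]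
        · simp [hcθ1]
      have h1 := add_pow_sub_pow_mem_ordIdeal hs1 hr2 N _ hdeg2
      rw [add_sub_cancel, map_sub, sub_eq_zero] at h1
      have h2 : PowerSeries.coeff N θA ^ 0 = 1 := by simp
      show PowerSeries.coeff N (θA ^ N) = _
      rw [show PowerSeries.coeff N (θA ^ N) = MvPowerSeries.coeff (Finsupp.single () N) (θA ^ N) from rfl,
        h1, hs, mul_pow, ← map_pow]
      show PowerSeries.coeff N (PowerSeries.C (π e ^ N) * PowerSeries.X ^ N) = _
      rw [PowerSeries.coeff_C_mul, PowerSeries.coeff_X_pow_self, mul_one]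
    have hkey : π e * π aF = π aG * π e ^ N := by
      have e1 : MvPowerSeries.coeff (Finsupp.single () N)
          (PowerSeries.subst (PowerSeries.map π (mulSeries F p)) θA) =
          π e * π aF := by
        rw [map_sub, sub_eq_zero] at hL
        rw [hL, MvPowerSeries.coeff_C_mul, hcθ1]
        show _ * PowerSeries.coeff N (PowerSeries.map π (mulSeries F p)) = _
        rw [PowerSeries.coeff_map]
      have e2 : MvPowerSeries.coeff (Finsupp.single () N)
          (PowerSeries.subst θA (PowerSeries.map π (mulSeries G p))) =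
          π aG * π e ^ N := by
        rw [map_sub, sub_eq_zero] at hR
        rw [hR, MvPowerSeries.coeff_C_mul, PowerSeries.coeff_map]
        congr 1
      rw [← e1, ← e2, hcomm]
    have hmem : e * aF - aG * e ^ N ∈ I := by
      rw [← Ideal.Quotient.eq_zero_iff_mem]
      show π (e * aF - aG * e ^ N) = 0
      rw [map_sub, map_mul, map_mul, map_pow, hkey, sub_self]
    obtain ⟨u, hu'⟩ := hu
    have hue : (u : R) = e := hu'
    show I ⊔ Ideal.span {aF} = hgt p G h ⊔ Ideal.span {aG}
    rw [← ih]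
    apply le_antisymm
    · refine sup_le le_sup_left ?_
      rw [Ideal.span_le, Set.singleton_subset_iff]
      have : aF = (↑u⁻¹ : R) * (e * aF - aG * e ^ N) + (↑u⁻¹ * e ^ N) * aG := by
        rw [← hue]
        have h5 : (↑u⁻¹ : R) * u = 1 := by simp
        linear_combination (-aF) * h5
      rw [SetLike.mem_coe, this]
      refine add_mem (Ideal.mem_sup_left (Ideal.mul_mem_left _ _ hmem)) ?_
      exact Ideal.mem_sup_right (Ideal.mul_mem_left _ _ (Ideal.subset_span rfl))
    · refine sup_le le_sup_left ?_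
      rw [Ideal.span_le, Set.singleton_subset_iff]
      have : aG = (↑(u⁻¹ ^ N) : R) * (-(e * aF - aG * e ^ N)) + (↑(u⁻¹ ^ N) * e) * aF := by
        rw [← hue]
        have h5 : (↑(u⁻¹ ^ N) : R) * (u : R) ^ N = 1 := by
          rw [← Units.val_pow_eq_pow_val, ← Units.val_mul, inv_pow, inv_mul_cancel, Units.val_one]
        linear_combination (-aG) * h5
      rw [SetLike.mem_coe, this]
      refine add_mem (Ideal.mem_sup_left (Ideal.mul_mem_left _ _ (neg_mem hmem))) ?_
      exact Ideal.mem_sup_right (Ideal.mul_mem_left _ _ (Ideal.subset_span rfl))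

end Char

end Crest.Agent.LT
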