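import Mathlib
import Crest.Prelude.Def_LubinTate
import Crest.Agent.Lib.LT.Ring
import Crest.Agent.Lib.LT.Bijective
import Crest.Agent.Lib.LT.FGL
import Crest.Agent.Lib.LT.Height

/-!
# S0351 (0d): comparison of a universal deformation with another law

Let `H` be a universal deformation of `Γ`. Let `H'` be a law over `E₀` reducing to `Γ'`, let
`β : Γ → Γ'` be an isomorphism and suppose `I_n(H') = m`. Then there is a `W(k)`-automorphism `Φ` of
`E₀` with a homomorphism `Φ_* H → H'` reducing to `β`; `H'` is a universal deformation of `Γ'`; height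
ideals and stable ideals correspond under `Φ`.
-/

set_option autoImplicit false

open Crest.LubinTate IsLocalRing

namespace Crest.Agent.LT

section Generic

variable {R B K : Type*} [CommRing R] [CommRing B] [CommRing K]

/-- Lift of a series without constant term along a surjection. -/
theorem exists_lift (r : B →+* K) (hr : Function.Surjective r) (β : PowerSeries K)
    (h0 : PowerSeries.constantCoeff β = 0) :
    ∃ b : PowerSeries B, PowerSeries.constantCoeff b = 0 ∧ PowerSeries.map r b = β := by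
  classical
  refine ⟨PowerSeries.mk fun i => if i = 0 then 0 else Function.surjInv hr (PowerSeries.coeff i β),
    ?_, ?_⟩
  · rw [← PowerSeries.coeff_zero_eq_constantCoeff_apply, PowerSeries.coeff_mk]; simp
  · ext i
    rw [PowerSeries.coeff_map, PowerSeries.coeff_mk]
    by_cases hi : i = 0
    · subst hi
      simp [h0]
    · simp [hi, Function.surjInv_eq hr]

/-- An element with unit image under a map with kernel the maximal ideal is a unit. -/
theorem isUnit_of_map_isUnit [IsLocalRing B] [Nontrivial K] (r : B →+* K)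
    (hker : RingHom.ker r = maximalIdeal B) {x : B} (h : IsUnit (r x)) : IsUnit x := by
  by_contra hx
  have h1 : x ∈ maximalIdeal B := (mem_maximalIdeal x).mpr hx
  rw [← hker, RingHom.mem_ker] at h1
  rw [h1] at h
  exact not_isUnit_zero h

theorem map_map_law (F : FormalGroup R) (f : R →+* B) (g : B →+* K) :
    (F.map f).map g = F.map (g.comp f) := by
  apply FormalGroup.ext
  simp only [FormalGroup.map_toPowerSeries]
  ext d
  simp

theorem map_id_law (F : FormalGroup R) : F.map (RingHom.id R) = F := by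
  apply FormalGroup.ext
  simp only [FormalGroup.map_toPowerSeries]
  ext d
  simp

/-- The law is determined by the homomorphism out of it and its target. -/
theorem law_eq_of_hom_source {F F' G : FormalGroup R} {φ : PowerSeries R}
    (h : IsFGHom F G φ) (h' : IsFGHom F' G φ) (hu : IsUnit (PowerSeries.coeff 1 φ)) : F = F' := by
  apply FormalGroup.ext
  have e : PowerSeries.subst F.toPowerSeries φ = PowerSeries.subst F'.toPowerSeries φ := by
    rw [h.2, h'.2]
  have e2 := congrArg (fun x => PowerSeries.subst x (pinv φ hu)) e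
  beta_reduce at e2
  rwa [pinv_psubst h.1 hu F.zero_constantCoeff, pinv_psubst h.1 hu F'.zero_constantCoeff] at e2

theorem isUnit_coeff_one_pinv {φ : PowerSeries R} (hu : IsUnit (PowerSeries.coeff 1 φ)) :
    IsUnit (PowerSeries.coeff 1 (pinv φ hu)) := by
  rw [PowerSeries.coeff_one_substInvOfIsUnit]
  exact (hu.unit⁻¹).isUnit

/-- The law is determined by a homomorphism into it and its source. -/
theorem law_eq_of_hom_target {F G G' : FormalGroup R} {φ : PowerSeries R}
    (h : IsFGHom F G φ) (h' : IsFGHom F G' φ) (hu : IsUnit (PowerSeries.coeff 1 φ)) : G = G' :=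
  law_eq_of_hom_source (hom_inv h hu) (hom_inv h' hu) (isUnit_coeff_one_pinv hu)

/-- Left and right inverses for composition agree. -/
theorem psubst_inv_unique {a b c : PowerSeries R} (hb : PowerSeries.constantCoeff b = 0)
    (hc : PowerSeries.constantCoeff c = 0)
    (hab : PowerSeries.subst b a = PowerSeries.X) (hbc : PowerSeries.subst c b = PowerSeries.X) :
    a = c := by
  have h1 : PowerSeries.subst c (PowerSeries.subst b a) = PowerSeries.subst (PowerSeries.subst c b) a :=
    psubst_psubst hb hc a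
  rw [hab, hbc, PowerSeries.X_subst, PowerSeries.subst_X (hasSubst_one hc)] at h1
  exact h1.symm

theorem map_psubst (r : R →+* K) {x : PowerSeries R} (hx : PowerSeries.constantCoeff x = 0)
    (f : PowerSeries R) :
    PowerSeries.map r (PowerSeries.subst x f) =
      PowerSeries.subst (PowerSeries.map r x) (PowerSeries.map r f) :=
  PowerSeries.map_subst (hasSubst_one hx) f

theorem constantCoeff_map_eq_zero (r : R →+* K) {x : PowerSeries R}
    (hx : PowerSeries.constantCoeff x = 0) : PowerSeries.constantCoeff (PowerSeries.map r x) = 0 := by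
  rw [← PowerSeries.coeff_zero_eq_constantCoeff_apply, PowerSeries.coeff_map,
    PowerSeries.coeff_zero_eq_constantCoeff_apply, hx, map_zero]

/-- Reduction of the compositional inverse. -/
theorem map_pinv_of_map_eq (r : R →+* K) {γ : PowerSeries R} (hγ0 : PowerSeries.constantCoeff γ = 0)
    (hγu : IsUnit (PowerSeries.coeff 1 γ)) {β : PowerSeries K}
    (hβ : PowerSeries.subst (PowerSeries.map r γ) β = PowerSeries.X) :
    PowerSeries.map r (pinv γ hγu) = β := by
  refine (psubst_inv_unique (b := PowerSeries.map r γ) (constantCoeff_map_eq_zero r hγ0)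
    (constantCoeff_map_eq_zero r (constantCoeff_pinv hγu)) hβ ?_).symm
  rw [← map_psubst r (constantCoeff_pinv hγu), PowerSeries.subst_substInvOfIsUnit_right γ hγ0 hγu]
  simp

/-- Coefficient one of a composition. -/
theorem coeff_one_psubst {x f : PowerSeries R} (hx : PowerSeries.constantCoeff x = 0)
    (hf : PowerSeries.constantCoeff f = 0) :
    PowerSeries.coeff 1 (PowerSeries.subst x f) = PowerSeries.coeff 1 f * PowerSeries.coeff 1 x := by
  classical
  have hs : PowerSeries.HasSubst x := PowerSeries.HasSubst.of_constantCoeff_zero' hx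
  rw [PowerSeries.coeff_subst' hs, finsum_eq_single _ 1]
  · simp
  · intro d hd
    rcases Nat.lt_or_ge d 2 with h | h
    · have hd0 : d = 0 := by omega
      subst hd0
      simp [hf]
    · have h1 : (PowerSeries.X : PowerSeries R) ∣ x := PowerSeries.X_dvd_iff.mpr hx
      have h2 := pow_dvd_pow_of_dvd h1 d
      have h3 : PowerSeries.coeff 1 (x ^ d) = 0 := PowerSeries.X_pow_dvd_iff.mp h2 1 (by omega)
      rw [h3]
      simp

end Generic

section Deform

variable {B K : Type*} [CommRing B] [CommRing K] [Nontrivial K] [IsLocalRing B]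

/-- Re-marking a deformation along a lift of an isomorphism. -/
theorem exists_conj_deformation (r : B →+* K) (hrs : Function.Surjective r)
    (hker : RingHom.ker r = maximalIdeal B) {Γ Γ' : FormalGroup K} (G' : FormalGroup B)
    (hG' : G'.map r = Γ') {β : PowerSeries K} (hβ : IsFGHom Γ Γ' β)
    (hβu : IsUnit (PowerSeries.coeff 1 β)) :
    ∃ (G'' : FormalGroup B) (γ : PowerSeries B) (hγu : IsUnit (PowerSeries.coeff 1 γ)),
      IsFGHom G' G'' γ ∧ G''.map r = Γ ∧ PowerSeries.map r γ = pinv β hβu ∧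
        PowerSeries.map r (pinv γ hγu) = β := by
  have hβi : IsFGHom Γ' Γ (pinv β hβu) := hom_inv hβ hβu
  have hβiu : IsUnit (PowerSeries.coeff 1 (pinv β hβu)) := isUnit_coeff_one_pinv hβu
  obtain ⟨γ, hγ0, hγr⟩ := exists_lift r hrs (pinv β hβu) hβi.1
  have hγu : IsUnit (PowerSeries.coeff 1 γ) := by
    apply isUnit_of_map_isUnit r hker
    rw [← PowerSeries.coeff_map, hγr]
    exact hβiu
  have hG : IsFGHom G' (conj G' γ hγ0 hγu) γ := hom_conj G' γ hγ0 hγu
  refine ⟨conj G' γ hγ0 hγu, γ, hγu, hG, ?_, hγr, ?_⟩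
  · have h1 := hom_map r hG
    rw [hG', hγr] at h1
    exact law_eq_of_hom_target h1 hβi hβiu
  · apply map_pinv_of_map_eq r hγ0 hγu
    rw [hγr]
    exact PowerSeries.subst_substInvOfIsUnit_right β hβ.1 hβu

end Deform

section height

variable (p : ℕ) [Fact p.Prime] (n : ℕ)

/-- Pushforward of height ideals. -/
theorem heightIdeal_map (H : FormalGroup (LTRing p n)) (φ : LTRing p n →+* LTRing p n) (h : ℕ) :
    heightIdeal p n (H.map φ) h = (heightIdeal p n H h).map φ := by
  rw [heightIdeal_eq_hgt, heightIdeal_eq_hgt, hgt_map]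

/-- Height ideals are isomorphism invariant. -/
theorem heightIdeal_iso {F G : FormalGroup (LTRing p n)} [F.IsComm] [G.IsComm]
    {θ : PowerSeries (LTRing p n)} (hθ : IsFGHom F G θ)
    (hu : IsUnit (PowerSeries.coeff 1 θ)) (h : ℕ) :
    heightIdeal p n F h = heightIdeal p n G h := by
  rw [heightIdeal_eq_hgt, heightIdeal_eq_hgt, hgt_eq_of_iso p hθ hu]

end height

section Comparison

variable {p : ℕ} [Fact p.Prime] {n : ℕ}

local notation "k" => GaloisField p n
local notation "W" => WittVector p (GaloisField p n)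
local notation "E" => LTRing p n
local notation "rE" => LTRing.residue p n

/-- The comparison map. -/
theorem exists_comparison_map {Γ Γ' : FormalGroup k} {H H' : FormalGroup E}
    (hH : IsUniversalDeformation p n Γ H) (hred : H'.map rE = Γ') {β : PowerSeries k}
    (hβ : IsFGHom Γ Γ' β) (hβu : IsUnit (PowerSeries.coeff 1 β)) :
    ∃ (Φ : E →ₐ[W] E) (θ : PowerSeries E), (rE).comp Φ.toRingHom = rE ∧
      IsFGHom (H.map Φ.toRingHom) H' θ ∧ PowerSeries.map rE θ = β := by
  obtain ⟨G, γ, hγu, hγ, hGr, hγr, hγir⟩ := exists_conj_deformation rE (residue_surjective p n)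
    (residue_ker p n) H' hred hβ hβu
  obtain ⟨Φ, ⟨hΦ, θ₁, hθ₁, hθ₁r⟩, -⟩ := hH.2 E (isAdicComplete p n) rE (residue_surjective p n)
    (residue_ker p n) (residue_comp_algebraMap p n) G hGr
  refine ⟨Φ, PowerSeries.subst θ₁ (pinv γ hγu), hΦ, hom_comp hθ₁ (hom_inv hγ hγu), ?_⟩
  rw [map_psubst rE hθ₁.1, hθ₁r, PowerSeries.X_subst, hγir]

/-- The residue of the coefficient of `X` decides units. -/
theorem isUnit_coeff_one_of_reduces {θ : PowerSeries E} {β : PowerSeries k}
    (h : PowerSeries.map rE θ = β) (hβu : IsUnit (PowerSeries.coeff 1 β)) :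
    IsUnit (PowerSeries.coeff 1 θ) := by
  apply isUnit_of_map_isUnit rE (residue_ker p n)
  rw [← PowerSeries.coeff_map, h]
  exact hβu

theorem isComm_map {R S : Type*} [CommRing R] [CommRing S] (F : FormalGroup R) [F.IsComm]
    (f : R →+* S) : (F.map f).IsComm := by
  refine ⟨?_⟩
  have h := congrArg (MvPowerSeries.map f) (FormalGroup.IsComm.comm (F := F))
  rw [MvPowerSeries.map_subst MvPowerSeries.HasSubst.X_X] at h
  simp only [FormalGroup.map_toPowerSeries]
  refine h.trans ?_
  congr 1
  ext s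
  fin_cases s <;> simp

/-- `I_n(H) ⊆ m`. -/
theorem heightIdeal_le_maximalIdeal {Γ : FormalGroup k} {H : FormalGroup E}
    (hr : H.map rE = Γ) (hΓ : mulSeries Γ p = PowerSeries.X ^ (p ^ n)) (h : ℕ) (hh : h ≤ n) :
    heightIdeal p n H h ≤ maximalIdeal E := by
  induction h with
  | zero => exact bot_le
  | succ h ih =>
    refine sup_le (ih (by omega)) ?_
    rw [Ideal.span_le, Set.singleton_subset_iff]
    change _ ∈ maximalIdeal E
    rw [← residue_ker p n, RingHom.mem_ker]
    have h1 : PowerSeries.coeff (p ^ h) (mulSeries Γ p) = rE (PowerSeries.coeff (p ^ h) (mulSeries H p)) := by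
      rw [← hr, mulSeries_map, PowerSeries.coeff_map]
    rw [← h1, hΓ, PowerSeries.coeff_X_pow, if_neg]
    have hp : 1 < p := (Fact.out : p.Prime).one_lt
    intro he
    have := Nat.pow_right_injective (le_refl 2 |>.trans hp) he
    omega

/-- A comparison map is bijective. -/
theorem bijective_of_comparison {Γ : FormalGroup k} {H H' : FormalGroup E} [H.IsComm] [H'.IsComm]
    (hr : H.map rE = Γ) (hΓ : mulSeries Γ p = PowerSeries.X ^ (p ^ n))
    (hn' : heightIdeal p n H' n = maximalIdeal E) {Φ : E →+* E} (hΦ : (rE).comp Φ = rE)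
    {θ : PowerSeries E} (hθ : IsFGHom (H.map Φ) H' θ) (hu : IsUnit (PowerSeries.coeff 1 θ)) :
    Function.Bijective Φ := by
  have := isComm_map H Φ
  have hΦx : ∀ x, rE (Φ x) = rE x := fun x => congrArg (fun f => f x) hΦ
  have h1 : (heightIdeal p n H n).map Φ = maximalIdeal E := by
    rw [← heightIdeal_map, heightIdeal_iso p n hθ hu, hn']
  have h2 : Ideal.map Φ (maximalIdeal E) = maximalIdeal E := by
    refine le_antisymm ?_ ?_
    · rw [Ideal.map_le_iff_le_comap]
      intro a ha
      rw [← residue_ker p n, RingHom.mem_ker] at ha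
      rw [Ideal.mem_comap, ← residue_ker p n, RingHom.mem_ker, hΦx, ha]
    · conv_lhs => rw [← h1]
      exact Ideal.map_mono (heightIdeal_le_maximalIdeal hr hΓ n le_rfl)
  refine bijective_of_map_maximalIdeal (isAdicComplete p n) Φ (fun y => ⟨y, ?_⟩) h2
  rw [← residue_ker p n, RingHom.mem_ker, map_sub, hΦx, sub_self]

/-- The comparison automorphism. -/
theorem exists_comparison_equiv {Γ Γ' : FormalGroup k} {H H' : FormalGroup E} [H.IsComm] [H'.IsComm]
    (hH : IsUniversalDeformation p n Γ H) (hΓ : mulSeries Γ p = PowerSeries.X ^ (p ^ n))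
    (hred : H'.map rE = Γ') (hn' : heightIdeal p n H' n = maximalIdeal E) {β : PowerSeries k}
    (hβ : IsFGHom Γ Γ' β) (hβu : IsUnit (PowerSeries.coeff 1 β)) :
    ∃ (Φ : E ≃ₐ[W] E) (θ : PowerSeries E), (∀ x, rE (Φ x) = rE x) ∧
      IsFGHom (H.map Φ.toRingEquiv.toRingHom) H' θ ∧ PowerSeries.map rE θ = β := by
  obtain ⟨Φ, θ, hΦ, hθ, hθr⟩ := exists_comparison_map hH hred hβ hβu
  have hbij := bijective_of_comparison hH.1 hΓ hn' hΦ hθ (isUnit_coeff_one_of_reduces hθr hβu)
  refine ⟨AlgEquiv.ofBijective Φ hbij, θ, fun x => congrArg (fun f => f x) hΦ, ?_, hθr⟩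
  exact hθ

/-- Height ideals under a comparison. -/
theorem heightIdeal_of_comparison {H H' : FormalGroup E} [H.IsComm] [H'.IsComm] (Φ : E ≃ₐ[W] E)
    {θ : PowerSeries E} (hθ : IsFGHom (H.map Φ.toRingEquiv.toRingHom) H' θ)
    (hu : IsUnit (PowerSeries.coeff 1 θ)) (h : ℕ) :
    (heightIdeal p n H h).map Φ.toRingEquiv.toRingHom = heightIdeal p n H' h := by
  have := isComm_map H Φ.toRingEquiv.toRingHom
  rw [← heightIdeal_map, heightIdeal_iso p n hθ hu]

theorem residue_symm (Φ : E ≃ₐ[W] E) (hΦ : ∀ x, rE (Φ x) = rE x) (x : E) : rE (Φ.symm x) = rE x := by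
  rw [← hΦ (Φ.symm x), AlgEquiv.apply_symm_apply]

/-- Universality transports along a comparison. -/
theorem isUniversal_of_comparison {Γ Γ' : FormalGroup k} {H H' : FormalGroup E} (hH : IsUniversalDeformation p n Γ H) (hred : H'.map rE = Γ')
    (Φ : E ≃ₐ[W] E) (hΦ : ∀ x, rE (Φ x) = rE x) {θ : PowerSeries E} {β : PowerSeries k}
    (hθ : IsFGHom (H.map Φ.toRingEquiv.toRingHom) H' θ) (hθr : PowerSeries.map rE θ = β)
    (hβ : IsFGHom Γ Γ' β) (hβu : IsUnit (PowerSeries.coeff 1 β)) :
    IsUniversalDeformation p n Γ' H' := by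
  refine ⟨hred, ?_⟩
  intro B _ _ _ _ hadic r hrs hrk hra G' hG'
  obtain ⟨G'', γ, hγu, hγ, hG''r, hγr, hγir⟩ := exists_conj_deformation r hrs hrk G' hG' hβ hβu
  obtain ⟨φ, ⟨hφ, θ₂, hθ₂, hθ₂r⟩, huniq⟩ := hH.2 B hadic r hrs hrk hra G'' hG''r
  have hθu : IsUnit (PowerSeries.coeff 1 θ) := isUnit_coeff_one_of_reduces hθr hβu
  have hφx : ∀ x, r (φ x) = rE x := fun x => congrArg (fun f => f x) hφ
  let φ' : E →ₐ[W] B := φ.comp (Φ.symm : E ≃ₐ[W] E).toAlgHom
  have hφ'x : ∀ x, r (φ' x) = rE x := by
    intro x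
    change r (φ (Φ.symm x)) = rE x
    rw [hφx, residue_symm Φ hΦ]
  refine ⟨φ', ⟨RingHom.ext hφ'x, ?_⟩, ?_⟩
  · have h1 := hom_map φ'.toRingHom (hom_inv hθ hθu)
    have h2 : (H.map Φ.toRingEquiv.toRingHom).map φ'.toRingHom = H.map φ.toRingHom := by
      rw [map_map_law]
      congr 1
      ext x
      change φ (Φ.symm (Φ x)) = φ x
      rw [AlgEquiv.symm_apply_apply]
    rw [h2] at h1
    refine ⟨_, hom_comp (hom_comp h1 hθ₂) (hom_inv hγ hγu), ?_⟩
    rw [map_psubst r (constantCoeff_psubst h1.1 hθ₂.1), map_psubst r h1.1, hθ₂r,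
      PowerSeries.subst_X (hasSubst_one (constantCoeff_map_eq_zero r h1.1)), hγir]
    have h3 : PowerSeries.map r (PowerSeries.map φ'.toRingHom (pinv θ hθu)) =
        PowerSeries.map rE (pinv θ hθu) := by
      ext i
      simp only [PowerSeries.coeff_map]
      exact hφ'x _
    rw [h3, ← hθr, ← map_psubst rE (constantCoeff_pinv hθu),
      PowerSeries.subst_substInvOfIsUnit_right θ hθ.1 hθu]
    simp
  · rintro ψ' ⟨hψ', θ₃, hθ₃, hθ₃r⟩
    have hψ'x : ∀ x, r (ψ' x) = rE x := fun x => congrArg (fun f => f x) hψ'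
    let ψ : E →ₐ[W] B := ψ'.comp (Φ : E ≃ₐ[W] E).toAlgHom
    have hψx : ∀ x, r (ψ x) = rE x := by
      intro x
      change r (ψ' (Φ x)) = rE x
      rw [hψ'x, hΦ]
    have h1 := hom_map ψ'.toRingHom hθ
    have h2 : (H.map Φ.toRingEquiv.toRingHom).map ψ'.toRingHom = H.map ψ.toRingHom := by
      rw [map_map_law]
      rfl
    rw [h2] at h1
    have h3 : PowerSeries.map r (PowerSeries.map ψ'.toRingHom θ) = PowerSeries.map rE θ := by
      ext i
      simp only [PowerSeries.coeff_map]
      exact hψ'x _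
    have huq : ψ = φ := huniq ψ ⟨RingHom.ext hψx, _, hom_comp (hom_comp h1 hθ₃) hγ, by
      rw [map_psubst r (constantCoeff_psubst h1.1 hθ₃.1), map_psubst r h1.1, hθ₃r,
        PowerSeries.subst_X (hasSubst_one (constantCoeff_map_eq_zero r h1.1)), h3, hθr, hγr]
      exact PowerSeries.subst_substInvOfIsUnit_left β hβ.1 hβu⟩
    ext1 x
    change ψ' x = φ (Φ.symm x)
    rw [← huq]
    change ψ' x = ψ' (Φ (Φ.symm x))
    rw [AlgEquiv.apply_symm_apply]

end Comparison

section Congr

variable {R : Type*} [CommRing R]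

theorem coeff_subst_congr_left {x : PowerSeries R} (hx : PowerSeries.constantCoeff x = 0)
    {f f' : PowerSeries R} {M : ℕ} (h : ∀ i < M, PowerSeries.coeff i f = PowerSeries.coeff i f') :
    ∀ i < M, PowerSeries.coeff i (PowerSeries.subst x f) = PowerSeries.coeff i (PowerSeries.subst x f') := by
  intro i hi
  have hs : PowerSeries.HasSubst x := PowerSeries.HasSubst.of_constantCoeff_zero' hx
  rw [PowerSeries.coeff_subst' hs, PowerSeries.coeff_subst' hs]
  apply finsum_congr
  intro d
  by_cases hd : d < M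
  · rw [h d hd]
  · have h1 : (PowerSeries.X : PowerSeries R) ∣ x := PowerSeries.X_dvd_iff.mpr hx
    have h2 := pow_dvd_pow_of_dvd h1 d
    have h3 : PowerSeries.coeff i (x ^ d) = 0 := PowerSeries.X_pow_dvd_iff.mp h2 i (by omega)
    rw [h3]
    simp

theorem coeff_subst_congr_right {x y : PowerSeries R} (hx : PowerSeries.constantCoeff x = 0)
    (hy : PowerSeries.constantCoeff y = 0) (f : PowerSeries R) {M : ℕ}
    (h : ∀ i < M, PowerSeries.coeff i x = PowerSeries.coeff i y) :
    ∀ i < M, PowerSeries.coeff i (PowerSeries.subst x f) = PowerSeries.coeff i (PowerSeries.subst y f) := by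
  intro i hi
  have hs : PowerSeries.HasSubst x := PowerSeries.HasSubst.of_constantCoeff_zero' hx
  have hs' : PowerSeries.HasSubst y := PowerSeries.HasSubst.of_constantCoeff_zero' hy
  rw [PowerSeries.coeff_subst' hs, PowerSeries.coeff_subst' hs']
  apply finsum_congr
  intro d
  have h1 : (PowerSeries.X : PowerSeries R) ^ M ∣ x - y := by
    rw [PowerSeries.X_pow_dvd_iff]
    intro m hm
    rw [map_sub, h m hm, sub_self]
  have h2 : (PowerSeries.X : PowerSeries R) ^ M ∣ x ^ d - y ^ d := h1.trans (sub_dvd_pow_sub_pow x y d)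
  have h3 := PowerSeries.X_pow_dvd_iff.mp h2 i hi
  rw [map_sub, sub_eq_zero] at h3
  rw [h3]

end Congr

section Stable

variable {p : ℕ} [Fact p.Prime] {n : ℕ}

local notation "k" => GaloisField p n
local notation "W" => WittVector p (GaloisField p n)
local notation "E" => LTRing p n
local notation "rE" => LTRing.residue p n

/-- The congruence level is preserved by conjugation. -/
theorem conj_congr {β g' : PowerSeries k} (hβ0 : PowerSeries.constantCoeff β = 0)
    (hg'0 : PowerSeries.constantCoeff g' = 0)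
    (hβu : IsUnit (PowerSeries.coeff 1 β)) {M : ℕ}
    (h : ∀ i < M, PowerSeries.coeff i g' = PowerSeries.coeff i PowerSeries.X) :
    ∀ i < M, PowerSeries.coeff i (PowerSeries.subst (PowerSeries.subst β g') (pinv β hβu)) =
      PowerSeries.coeff i PowerSeries.X := by
  intro i hi
  have h1 := coeff_subst_congr_left hβ0 h
  rw [PowerSeries.subst_X (hasSubst_one hβ0)] at h1
  have h2 := coeff_subst_congr_right (constantCoeff_psubst hβ0 hg'0) hβ0 (pinv β hβu) h1 i hi
  rw [h2, PowerSeries.subst_substInvOfIsUnit_left β hβ0 hβu]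

/-- A map realising an automorphism of `Γ'` for `H'` gives a map realising the conjugate automorphism
of `Γ` for `H`. -/
theorem isStabilizerMap_of_comparison {H H' : FormalGroup E} (Φ : E ≃ₐ[W] E) (hΦ : ∀ x, rE (Φ x) = rE x)
    {θ : PowerSeries E} {β : PowerSeries k}
    (hθ : IsFGHom (H.map Φ.toRingEquiv.toRingHom) H' θ) (hθr : PowerSeries.map rE θ = β)
    (hβ0 : PowerSeries.constantCoeff β = 0) (hβu : IsUnit (PowerSeries.coeff 1 β))
    {g' : PowerSeries k} {φ' : E →ₐ[W] E}
    (hφ' : IsStabilizerMap p n H' g' φ') :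
    IsStabilizerMap p n H (PowerSeries.subst (PowerSeries.subst β g') (pinv β hβu))
      ((Φ.symm : E ≃ₐ[W] E).toAlgHom.comp (φ'.comp (Φ : E ≃ₐ[W] E).toAlgHom)) := by
  obtain ⟨hφ'r, θ', hθ', hθ'r⟩ := hφ'
  have hφ'x : ∀ x, rE (φ' x) = rE x := fun x => congrArg (fun f => f x) hφ'r
  have hθu : IsUnit (PowerSeries.coeff 1 θ) := isUnit_coeff_one_of_reduces hθr hβu
  refine ⟨RingHom.ext fun x => ?_, ?_⟩
  · change rE (Φ.symm (φ' (Φ x))) = rE x
    rw [residue_symm Φ hΦ, hφ'x, hΦ]
  let s : E →+* E := Φ.symm.toRingEquiv.toRingHom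
  have hsx : ∀ x, rE (s x) = rE x := residue_symm Φ hΦ
  let t : E →+* E := s.comp φ'.toRingHom
  have htx : ∀ x, rE (t x) = rE x := fun x => by
    change rE (s (φ' x)) = rE x
    rw [hsx, hφ'x]
  have ha := hom_map t hθ
  have hb := hom_map s hθ'
  have hc := hom_map s (hom_inv hθ hθu)
  have e1 : (H.map Φ.toRingEquiv.toRingHom).map t =
      H.map ((Φ.symm : E ≃ₐ[W] E).toAlgHom.comp (φ'.comp (Φ : E ≃ₐ[W] E).toAlgHom)).toRingHom := by
    rw [map_map_law]
    rfl
  have e2 : H'.map t = (H'.map φ'.toRingHom).map s := by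
    rw [map_map_law]
  have e3 : (H.map Φ.toRingEquiv.toRingHom).map s = H := by
    rw [map_map_law]
    have : s.comp Φ.toRingEquiv.toRingHom = RingHom.id E := by
      ext1 x
      change Φ.symm (Φ x) = x
      rw [AlgEquiv.symm_apply_apply]
    rw [this, map_id_law]
  rw [e1, e2] at ha
  rw [e3] at hc
  refine ⟨_, hom_comp (hom_comp ha hb) hc, ?_⟩
  have m1 : PowerSeries.map rE (PowerSeries.map t θ) = β := by
    rw [← hθr]
    ext i
    simp only [PowerSeries.coeff_map]
    exact htx _
  have m2 : PowerSeries.map rE (PowerSeries.map s θ') = g' := by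
    rw [← hθ'r]
    ext i
    simp only [PowerSeries.coeff_map]
    exact hsx _
  have m3 : PowerSeries.map rE (PowerSeries.map s (pinv θ hθu)) = pinv β hβu := by
    have : PowerSeries.map rE (pinv θ hθu) = pinv β hβu := by
      apply map_pinv_of_map_eq rE hθ.1 hθu
      rw [hθr]
      exact PowerSeries.subst_substInvOfIsUnit_left β hβ0 hβu
    rw [← this]
    ext i
    simp only [PowerSeries.coeff_map]
    exact hsx _
  rw [map_psubst rE (constantCoeff_psubst ha.1 hb.1), map_psubst rE ha.1, m1, m2, m3]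

/-- Stable ideals transport along a comparison. -/
theorem isStable_of_comparison {Γ Γ' : FormalGroup k} {H H' : FormalGroup E} (Φ : E ≃ₐ[W] E) (hΦ : ∀ x, rE (Φ x) = rE x)
    {θ : PowerSeries E} {β : PowerSeries k}
    (hθ : IsFGHom (H.map Φ.toRingEquiv.toRingHom) H' θ) (hθr : PowerSeries.map rE θ = β)
    (hβ : IsFGHom Γ Γ' β) (hβu : IsUnit (PowerSeries.coeff 1 β)) {M : ℕ} {P : Ideal E}
    (hP : IsStableIdeal p n Γ H M P) :
    IsStableIdeal p n Γ' H' M (P.map Φ.toRingEquiv.toRingHom) := by
  intro g' φ' hg' hg'M hφ'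
  have hga : IsFGAut Γ (PowerSeries.subst (PowerSeries.subst β g') (pinv β hβu)) := by
    refine ⟨hom_comp (hom_comp hβ hg'.1) (hom_inv hβ hβu), ?_⟩
    rw [coeff_one_psubst (constantCoeff_psubst hβ.1 hg'.1.1) (constantCoeff_pinv hβu),
      coeff_one_psubst hβ.1 hg'.1.1]
    exact (isUnit_coeff_one_pinv hβu).mul (hg'.2.mul hβu)
  have hst := isStabilizerMap_of_comparison Φ hΦ hθ hθr hβ.1 hβu hφ'
  have hPφ := hP _ _ hga (conj_congr hβ.1 hg'.1.1 hβu hg'M) hst
  have hmem : ∀ a, a ∈ P.map Φ.toRingEquiv.toRingHom ↔ Φ.symm a ∈ P := by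
    intro a
    constructor
    · intro ha
      have h1 : P.map Φ.toRingEquiv.toRingHom ≤ P.comap Φ.symm.toRingEquiv.toRingHom := by
        rw [Ideal.map_le_iff_le_comap]
        intro b hb
        change Φ.symm (Φ b) ∈ P
        rwa [AlgEquiv.symm_apply_apply]
      exact h1 ha
    · intro ha
      have h1 := Ideal.mem_map_of_mem Φ.toRingEquiv.toRingHom ha
      have h2 : Φ.toRingEquiv.toRingHom (Φ.symm a) = a := Φ.apply_symm_apply a
      rwa [h2] at h1
  ext a
  rw [Ideal.mem_comap, hmem, hmem]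
  have h3 : Φ.symm (φ'.toRingHom a) =
      ((Φ.symm : E ≃ₐ[W] E).toAlgHom.comp (φ'.comp (Φ : E ≃ₐ[W] E).toAlgHom)).toRingHom (Φ.symm a) := by
    change Φ.symm (φ' a) = Φ.symm (φ' (Φ (Φ.symm a)))
    rw [AlgEquiv.apply_symm_apply]
  rw [h3, ← Ideal.mem_comap, hPφ]

end Stable

end Crest.Agent.LT
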