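import Mathlib
import Crest.Prelude.Def_LubinTate
import Crest.Agent.Lib.LT.ChartDefs
import Crest.Agent.Lib.LT.BallFG
import Crest.Agent.Lib.LT.Transport
import Crest.Agent.Lib.LT.Eval1

/-!
# Point-level facts on `Ψ_ξ` (`D.PsiAt ξ`), allocation (B2) of S0351

For a `Stratum` `D` and a point `ξ` of the open polydisc over `R`:

* `norm_PsiAt_lt`, `PsiAt_sub_le`, `PsiAt_zero`, `PsiAt_small`;
* `PsiAt_padd`: `Ψ (x +_Γ y) = Ψ x +_H Ψ y`;
* `PsiAt_pow`: `Ψ (y ^ q) = [p]_H (Ψ y)`;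
* `theta_PsiAt`: `θ (Ψ_ξ' y) = Ψ_ξ (a y)` for a homomorphism `θ` close to `a` over `K`.

and the point-level facts on homomorphisms (`ev1_hom_padd`, `ev1_hom_mulSeries`) and on the
evaluation `evP` of series over `K`.
-/

set_option autoImplicit false
set_option linter.unusedSectionVars false
set_option linter.unusedVariables false

namespace Crest.Agent.LT.Chart

open Filter Topology Crest.LubinTate
open Crest.Agent.Lib.LT.EvalS
open Crest.Agent.Lib.LT.FormalIFT (Ord)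
open Crest.Agent.LT.PsiCore

section general

variable {R : Type*} [NontriviallyNormedField R] [IsUltrametricDist R] [CompleteSpace R]

theorem intS_of_int1 {θ : PowerSeries R} (h : Int1 θ) : IntS (σ := Unit) θ := fun m => by
  have h1 : Finsupp.single () (m ()) = m := Crest.Agent.Lib.LT.BallFG.unitEquiv.left_inv m
  rw [← h1]
  exact h (m ())

theorem ord_one_of_cc {σ : Type*} {f : MvPowerSeries σ R}
    (hf : MvPowerSeries.constantCoeff f = 0) : Ord 1 f :=
  Crest.Agent.Lib.LT.FormalIFT.ord_one_iff.mpr hf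

/-- Chain rule for a one-variable outer series. -/
theorem ev_psubst {τ : Type*} [Fintype τ] {θ : PowerSeries R} (hθ : Int1 θ)
    {a : MvPowerSeries τ R} (ha : IntS a) (ha0 : Ord 1 a) {y : τ → R} (hy : ‖y‖ < 1) :
    ev (PowerSeries.subst a θ) y = ev1 θ (ev a y) := by
  have h1 := ev_subst (σ := Unit) (f := θ) (a := fun _ => a) (intS_of_int1 hθ) (fun _ => ha)
    (fun _ => ha0) hy
  have h2 : PowerSeries.subst a θ = MvPowerSeries.subst (fun _ : Unit => a) θ := rfl
  rw [h2, h1, Crest.Agent.Lib.LT.BallFG.ev_unit]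

/-- `ev` of a series with small coefficients. -/
theorem norm_ev_le_of_coeff {σ : Type*} [Fintype σ] {f : MvPowerSeries σ R} {ρ : ℝ} (hρ : 0 ≤ ρ)
    (hf : ∀ m, ‖MvPowerSeries.coeff m f‖ ≤ ρ) {x : σ → R} (hx : ‖x‖ < 1) : ‖ev f x‖ ≤ ρ := by
  refine norm_tsum_le_bound hρ fun m => ?_
  rw [norm_mul]
  calc ‖MvPowerSeries.coeff m f‖ * ‖mono x m‖ ≤ ρ * 1 :=
        mul_le_mul (hf m) (Crest.Agent.Lib.LT.BallFG.norm_mono_le_one hx.le m) (norm_nonneg _) hρ
    _ = ρ := mul_one _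

variable {F G : FormalGroup R}

theorem padd_eq_ballFG (F : FormalGroup R) (x y : R) :
    padd F x y = Crest.Agent.Lib.LT.BallFG.padd F x y := rfl

theorem norm_padd_lt (hF : IntS F.toPowerSeries) {x y : R} (hx : ‖x‖ < 1) (hy : ‖y‖ < 1) :
    ‖padd F x y‖ < 1 := Crest.Agent.Lib.LT.BallFG.norm_padd_lt hF hx hy

theorem padd_lip (hF : IntS F.toPowerSeries) {a b a' b' : R} (ha : ‖a‖ < 1) (hb : ‖b‖ < 1)
    (ha' : ‖a'‖ < 1) (hb' : ‖b'‖ < 1) :
    ‖padd F a b - padd F a' b'‖ ≤ max ‖a - a'‖ ‖b - b'‖ :=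
  Crest.Agent.Lib.LT.BallFG.padd_lip hF ha hb ha' hb'

/-- A homomorphism is additive on points. -/
theorem ev1_hom_padd (hF : IntS F.toPowerSeries) (hG : IntS G.toPowerSeries) {θ : PowerSeries R}
    (hθ : Int1 θ) (h : IsFGHom F G θ) {x y : R} (hx : ‖x‖ < 1) (hy : ‖y‖ < 1) :
    ev1 θ (padd F x y) = padd G (ev1 θ x) (ev1 θ y) := by
  have hv := Crest.Agent.Lib.LT.BallFG.norm_pair_lt hx hy
  have h2 := congrArg (fun f => ev f ![x, y]) h.2
  have hX0 : MvPowerSeries.constantCoeff (MvPowerSeries.X 0 : MvPowerSeries (Fin 2) R) = 0 := by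
    simp
  have hX1 : MvPowerSeries.constantCoeff (MvPowerSeries.X 1 : MvPowerSeries (Fin 2) R) = 0 := by
    simp
  rw [ev_psubst hθ hF (ord_one_of_cc F.zero_constantCoeff) hv] at h2
  have hXi0 : IntS (PowerSeries.subst (MvPowerSeries.X 0 : MvPowerSeries (Fin 2) R) θ) :=
    IntS.subst (σ := Unit) (Crest.Agent.LT.hasSubst_one hX0).const (fun _ => intS_X 0)
      (intS_of_int1 hθ)
  have hXi1 : IntS (PowerSeries.subst (MvPowerSeries.X 1 : MvPowerSeries (Fin 2) R) θ) :=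
    IntS.subst (σ := Unit) (Crest.Agent.LT.hasSubst_one hX1).const (fun _ => intS_X 1)
      (intS_of_int1 hθ)
  have hO0 := ord_one_of_cc (Crest.Agent.LT.constantCoeff_psubst hX0 h.1)
  have hO1 := ord_one_of_cc (Crest.Agent.LT.constantCoeff_psubst hX1 h.1)
  rw [ev_subst hG (a := ![PowerSeries.subst (MvPowerSeries.X 0 : MvPowerSeries (Fin 2) R) θ,
      PowerSeries.subst (MvPowerSeries.X 1 : MvPowerSeries (Fin 2) R) θ])
    (fun s => by
      fin_cases s
      · exact hXi0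
      · exact hXi1)
    (fun s => by
      fin_cases s
      · exact hO0
      · exact hO1) hv] at h2
  have e0 : ev (PowerSeries.subst (MvPowerSeries.X 0 : MvPowerSeries (Fin 2) R) θ) ![x, y] =
      ev1 θ x := by
    rw [ev_psubst hθ (intS_X 0) (ord_one_of_cc hX0) hv, ev_X]
    rfl
  have e1 : ev (PowerSeries.subst (MvPowerSeries.X 1 : MvPowerSeries (Fin 2) R) θ) ![x, y] =
      ev1 θ y := by
    rw [ev_psubst hθ (intS_X 1) (ord_one_of_cc hX1) hv, ev_X]
    rfl
  rw [padd, padd, h2]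
  congr 1
  funext s
  fin_cases s
  · exact e0
  · exact e1

/-- A homomorphism commutes with `[m]` on points. -/
theorem ev1_hom_mulSeries (hF : IntS F.toPowerSeries) (hG : IntS G.toPowerSeries)
    {θ : PowerSeries R} (hθ : Int1 θ) (h : IsFGHom F G θ) (m : ℕ) {u : R} (hu : ‖u‖ < 1) :
    ev1 θ (ev1 (mulSeries F m) u) = ev1 (mulSeries G m) (ev1 θ u) := by
  have hv : ‖(fun _ : Unit => u)‖ < 1 := by
    rw [Crest.Agent.Lib.LT.BallFG.norm_unit]; exact hu
  have h1 := congrArg (fun f => ev (σ := Unit) f (fun _ => u))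
    (Crest.Agent.LT.hom_mulSeries h m)
  rw [ev_psubst hθ (Crest.Agent.Lib.LT.BallFG.intS_mulSeries hF m)
    (Crest.Agent.Lib.LT.BallFG.ordOne_mulSeries m) hv,
    ev_psubst (Crest.Agent.Lib.LT.BallFG.int1_mulSeries hG m) (intS_of_int1 hθ)
      (ord_one_of_cc h.1) hv,
    Crest.Agent.Lib.LT.BallFG.ev_unit, Crest.Agent.Lib.LT.BallFG.ev_unit] at h1
  exact h1

/-- `0 +_F x = x`. -/
theorem padd_zero_left (F : FormalGroup R) {x : R} (hx : ‖x‖ < 1) : padd F 0 x = x := by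
  rw [padd, ev, tsum_eq_single (Finsupp.single 1 1)]
  · rw [Crest.Agent.LT.coeff_single_one, if_pos rfl, one_mul, mono_single]
    simp
  · intro m hm
    by_cases h0 : m 0 = 0
    · have hm' : m = Finsupp.single 1 (m 1) := by
        ext i
        fin_cases i
        · simpa using h0
        · simp
      have hne : m 1 ≠ 1 := by
        intro h
        rw [h] at hm'
        exact hm hm'
      rw [hm', Crest.Agent.LT.coeff_single_one, if_neg (by simpa using hne), zero_mul]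
    · have : mono ![(0 : R), x] m = 0 := by
        rw [mono, Finsupp.prod]
        refine Finset.prod_eq_zero (i := 0) (Finsupp.mem_support_iff.mpr h0) ?_
        simp [h0]
      rw [this, mul_zero]

/-- `x +_F 0 = x`. -/
theorem padd_zero_right (F : FormalGroup R) {x : R} (hx : ‖x‖ < 1) : padd F x 0 = x := by
  rw [padd, ev, tsum_eq_single (Finsupp.single 0 1)]
  · rw [Crest.Agent.LT.coeff_single_zero, if_pos rfl, one_mul, mono_single]
    simp
  · intro m hm
    by_cases h0 : m 1 = 0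
    · have hm' : m = Finsupp.single 0 (m 0) := by
        ext i
        fin_cases i
        · simp
        · simpa using h0
      have hne : m 0 ≠ 1 := by
        intro h
        rw [h] at hm'
        exact hm hm'
      rw [hm', Crest.Agent.LT.coeff_single_zero, if_neg (by simpa using hne), zero_mul]
    · have : mono ![x, (0 : R)] m = 0 := by
        rw [mono, Finsupp.prod]
        refine Finset.prod_eq_zero (i := 1) (Finsupp.mem_support_iff.mpr h0) ?_
        simp [h0]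
      rw [this, mul_zero]

theorem mono_pow {σ : Type*} (x : σ → R) (m : σ →₀ ℕ) (Q : ℕ) :
    mono (fun i => x i ^ Q) m = mono x m ^ Q := by
  rw [mono, mono, Finsupp.prod, Finsupp.prod, ← Finset.prod_pow]
  refine Finset.prod_congr rfl fun i _ => ?_
  exact pow_right_comm _ _ _

section frob

variable {p : ℕ} [hp : Fact p.Prime] [CharP R p]

/-- `Q`-th power of a value of a series with coefficients fixed by the `Q`-th power. -/
theorem ev_pow_frob {σ : Type*} [Fintype σ] {f : MvPowerSeries σ R} (hf : IntS f) {N : ℕ}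
    (hfix : ∀ m, MvPowerSeries.coeff m f ^ (p ^ N) = MvPowerSeries.coeff m f) {x : σ → R}
    (hx : ‖x‖ < 1) : ev f x ^ (p ^ N) = ev f (fun i => x i ^ (p ^ N)) := by
  have hφ : ∀ a, iterateFrobenius R p N a = a ^ (p ^ N) := fun a => iterateFrobenius_def p N a
  have hc : Continuous (iterateFrobenius R p N) := by
    have : (iterateFrobenius R p N : R → R) = fun a => a ^ (p ^ N) := funext hφ
    rw [this]
    exact continuous_pow _
  rw [← hφ, ev, (summable_ev hf hx).map_tsum _ hc, ev]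
  refine tsum_congr fun m => ?_
  rw [hφ, mul_pow, hfix, mono_pow]

end frob

end general

section ev1

variable {R : Type*} [NontriviallyNormedField R] [IsUltrametricDist R] [CompleteSpace R]
variable {p : ℕ} [hp : Fact p.Prime] [CharP R p]

/-- Same for one-variable series. -/
theorem ev1_pow_frob {f : PowerSeries R} (hf : Int1 f) {N : ℕ}
    (hfix : ∀ m, PowerSeries.coeff m f ^ (p ^ N) = PowerSeries.coeff m f) {x : R}
    (hx : ‖x‖ < 1) : ev1 f x ^ (p ^ N) = ev1 f (x ^ (p ^ N)) := by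
  have hφ : ∀ a, iterateFrobenius R p N a = a ^ (p ^ N) := fun a => iterateFrobenius_def p N a
  have hc : Continuous (iterateFrobenius R p N) := by
    have : (iterateFrobenius R p N : R → R) = fun a => a ^ (p ^ N) := funext hφ
    rw [this]
    exact continuous_pow _
  rw [← hφ, ev1, (summable_ev1 hf hx).map_tsum _ hc, ev1]
  refine tsum_congr fun m => ?_
  rw [hφ, mul_pow, hfix, ← pow_mul, ← pow_mul, mul_comm m]

end ev1

variable {p k r : ℕ} [hp : Fact p.Prime] {K : Type*} [Field K] (D : Stratum p k r K)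
variable {R : Type*} [NontriviallyNormedField R] [IsUltrametricDist R] [CompleteSpace R]
variable [Algebra K R]

/-! ### The point `0` and the closeness of the laws -/

/-- The origin of the polydisc. -/
noncomputable abbrev Pt0 (r : ℕ) (R : Type*) [NontriviallyNormedField R] : Pt r R :=
  ⟨0, by simp⟩

theorem Stratum.evA_C (ξ : Pt r R) (c : K) :
    D.evA ξ (MvPowerSeries.C c) = algebraMap K R c := by
  rw [Stratum.evA_apply, MvPowerSeries.map_C, ev_C]

theorem Stratum.norm_evA_sub_le (ξ : Pt r R) (f : MvPowerSeries (Fin r) K) :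
    ‖D.evA ξ f - algebraMap K R (MvPowerSeries.constantCoeff f)‖ ≤ ‖ξ.1‖ := by
  rw [← D.evA_C ξ, ← map_sub]
  exact D.norm_evA_le ξ (by simp)

theorem Stratum.evA_zero (f : MvPowerSeries (Fin r) K) :
    D.evA (Pt0 r R) f = algebraMap K R (MvPowerSeries.constantCoeff f) := by
  have h := D.norm_evA_sub_le (Pt0 r R) f
  have h0 : ‖(Pt0 r R).1‖ = 0 := by simp
  rw [h0] at h
  exact sub_eq_zero.mp (norm_le_zero_iff.mp h)

theorem Stratum.intS_HAt (ξ : Pt r R) : IntS (D.HAt ξ).toPowerSeries := fun m => by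
  rw [Stratum.HAt, FormalGroup.map_toPowerSeries, MvPowerSeries.coeff_map]
  exact D.norm_evA_le_one ξ _

theorem Stratum.coeff_HAt (ξ : Pt r R) (m : Fin 2 →₀ ℕ) :
    MvPowerSeries.coeff m (D.HAt ξ).toPowerSeries =
      D.evA ξ (MvPowerSeries.coeff m D.HW.toPowerSeries) := by
  rw [Stratum.HAt, FormalGroup.map_toPowerSeries, MvPowerSeries.coeff_map]

theorem Stratum.coeff_ΓR (m : Fin 2 →₀ ℕ) :
    MvPowerSeries.coeff m (D.ΓR R).toPowerSeries =
      algebraMap K R (MvPowerSeries.constantCoeff (MvPowerSeries.coeff m D.HW.toPowerSeries)) := by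
  rw [Stratum.ΓR, D.coeff_HAt, D.evA_zero]

theorem Stratum.intS_ΓR : IntS (D.ΓR R).toPowerSeries := D.intS_HAt _

/-- The laws at `ξ` and at the origin are close. -/
theorem Stratum.norm_padd_sub_le (ξ : Pt r R) {a b : R} (ha : ‖a‖ < 1) (hb : ‖b‖ < 1) :
    ‖padd (D.HAt ξ) a b - padd (D.ΓR R) a b‖ ≤ ‖ξ.1‖ := by
  have hv := Crest.Agent.Lib.LT.BallFG.norm_pair_lt ha hb
  rw [padd, padd, ← ev_sub (D.intS_HAt ξ) D.intS_ΓR hv]
  refine norm_ev_le_of_coeff (norm_nonneg _) (fun m => ?_) hv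
  rw [map_sub, D.coeff_HAt, D.coeff_ΓR]
  exact D.norm_evA_sub_le ξ _

variable [CharP R p]

theorem Stratum.padd_ΓR_pow {a b : R} (ha : ‖a‖ < 1) (hb : ‖b‖ < 1) :
    padd (D.ΓR R) a b ^ (p ^ (k + r)) = padd (D.ΓR R) (a ^ (p ^ (k + r))) (b ^ (p ^ (k + r))) := by
  have hv := Crest.Agent.Lib.LT.BallFG.norm_pair_lt ha hb
  rw [padd, ev_pow_frob D.intS_ΓR (fun m => by
    rw [D.coeff_ΓR, ← map_pow, D.frob]) hv, padd]
  congr 1
  funext s
  fin_cases s <;> rfl

variable [PerfectRing R p]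

/-! ### Towers -/

theorem pow_inj_char {a b : R} {N : ℕ} (h : a ^ (p ^ N) = b ^ (p ^ N)) : a = b := by
  have h1 : (a - b) ^ (p ^ N) = 0 := by rw [sub_pow_char_pow, h, sub_self]
  exact sub_eq_zero.mp (pow_eq_zero_iff (pow_ne_zero _ hp.out.ne_zero) |>.mp h1)

theorem tw_zero (y : R) : tw p k r y 0 = y := by
  simp [tw, rootN]

/-- A tower of `q`-th roots is determined by its first term. -/
theorem _root_.Crest.Agent.LT.PsiCore.IsTower.eq_tw {u : ℕ → R} (hu : IsTower (p ^ (k + r)) u) {y : R} (hy : ‖y‖ < 1)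
    (h0 : u 0 = y) : u = tw p k r y := by
  funext N
  induction N with
  | zero => rw [h0, tw_zero]
  | succ N ih =>
    apply pow_inj_char (p := p) (N := k + r)
    rw [hu.pow_succ, ih, (isTower_tw hy).pow_succ]

theorem Stratum.norm_PsiAt_lt (ξ : Pt r R) {y : R} (hy : ‖y‖ < 1) : ‖D.PsiAt ξ y‖ < 1 :=
  psi_lt_one (D.pmap_at ξ) (isTower_tw hy)

theorem Stratum.PsiAt_sub_le (ξ : Pt r R) {y : R} (hy : ‖y‖ < 1) : ‖D.PsiAt ξ y - y‖ ≤ ‖ξ.1‖ := by
  have := psi_sub_le (D.pmap_at ξ) (isTower_tw hy)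
  rwa [tw_zero] at this

theorem Stratum.comm_HAt (ξ : Pt r R) : (D.HAt ξ).IsComm := by
  have := D.comm
  exact Crest.Agent.LT.isComm_map _ _

/-- `[p]_H` is additive for `+_H` on points. -/
theorem Stratum.pAt_padd (ξ : Pt r R) {a b : R} (ha : ‖a‖ < 1) (hb : ‖b‖ < 1) :
    D.pAt ξ (padd (D.HAt ξ) a b) = padd (D.HAt ξ) (D.pAt ξ a) (D.pAt ξ b) := by
  have hc := D.comm_HAt ξ
  simp only [Stratum.pAt_eq]
  exact ev1_hom_padd (D.intS_HAt ξ) (D.intS_HAt ξ)
    (Crest.Agent.Lib.LT.BallFG.int1_mulSeries (D.intS_HAt ξ) p)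
    (Crest.Agent.LT.isFGHom_mulSeries _ p) ha hb

/-- **Additivity of `Ψ_ξ`**. -/
theorem Stratum.PsiAt_padd (ξ : Pt r R) {x y : R} (hx : ‖x‖ < 1) (hy : ‖y‖ < 1) :
    D.PsiAt ξ (padd (D.ΓR R) x y) = padd (D.HAt ξ) (D.PsiAt ξ x) (D.PsiAt ξ y) := by
  have htx := isTower_tw (p := p) (k := k) (r := r) hx
  have hty := isTower_tw (p := p) (k := k) (r := r) hy
  have hI := D.intS_ΓR (R := R)
  have ht : IsTower (p ^ (k + r)) fun N => padd (D.ΓR R) (tw p k r x N) (tw p k r y N) := by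
    refine ⟨fun N => ?_, fun N => norm_padd_lt hI (htx.lt_one N) (hty.lt_one N)⟩
    rw [D.padd_ΓR_pow (htx.lt_one _) (hty.lt_one _), htx.pow_succ, hty.pow_succ]
  have h1 := ht.eq_tw (norm_padd_lt hI hx hy) (by rw [tw_zero, tw_zero])
  rw [Stratum.PsiAt, ← h1]
  exact psi_add (D.pmap_at ξ) (addH := padd (D.HAt ξ)) (addG := padd (D.ΓR R))
    (fun a b ha hb => norm_padd_lt (D.intS_HAt ξ) ha hb)
    (fun a b ha hb => norm_padd_lt hI ha hb)
    (fun a b ha hb => D.pAt_padd ξ ha hb)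
    (fun a b a' b' ha hb ha' hb' => padd_lip (D.intS_HAt ξ) ha hb ha' hb')
    (norm_nonneg _) ξ.2
    (fun a b ha hb => D.norm_padd_sub_le ξ ha hb) htx hty ht

/-- `Ψ_ξ (y ^ q) = [p]_H (Ψ_ξ y)`. -/
theorem Stratum.PsiAt_pow (ξ : Pt r R) {y : R} (hy : ‖y‖ < 1) :
    D.PsiAt ξ (y ^ (p ^ (k + r))) = D.pAt ξ (D.PsiAt ξ y) := by
  have hty := isTower_tw (p := p) (k := k) (r := r) hy
  have hne : p ^ (k + r) ≠ 0 := pow_ne_zero _ hp.out.ne_zero
  have hpow : ∀ {a : R}, ‖a‖ < 1 → ‖a ^ (p ^ (k + r))‖ < 1 := fun {a} ha => by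
    rw [norm_pow]
    exact pow_lt_one₀ (norm_nonneg _) ha hne
  have ht : IsTower (p ^ (k + r)) fun N => tw p k r y N ^ (p ^ (k + r)) :=
    ⟨fun N => by rw [hty.pow_succ], fun N => hpow (hty.lt_one N)⟩
  have h1 := ht.eq_tw (hpow hy) (by rw [tw_zero])
  rw [Stratum.PsiAt, ← h1]
  exact psi_pow (D.pmap_at ξ) hty ht

theorem Stratum.pAt_zero (ξ : Pt r R) : D.pAt ξ 0 = 0 := by
  rw [Stratum.pAt_eq, ev1, tsum_eq_single 0]
  · rw [PowerSeries.coeff_zero_eq_constantCoeff_apply, Crest.Agent.LT.constantCoeff_mulSeries]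
    simp
  · intro n hn
    simp [hn]

theorem rootN_zero (N : ℕ) : rootN p R N (0 : R) = 0 := by
  have h := rootN_pow (p := p) N (0 : R)
  exact pow_eq_zero_iff (pow_ne_zero _ hp.out.ne_zero) |>.mp h

theorem Stratum.iter_pAt_zero (ξ : Pt r R) (N : ℕ) : (D.pAt ξ)^[N] (0 : R) = 0 := by
  induction N with
  | zero => rfl
  | succ N ih => rw [Function.iterate_succ_apply', ih, D.pAt_zero]

theorem Stratum.PsiAt_zero (ξ : Pt r R) : D.PsiAt ξ (0 : R) = 0 := by
  have h0 : ∀ N, psiSeq (D.pAt ξ) (tw p k r (0 : R)) N = 0 := by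
    intro N
    have h1 : tw p k r (0 : R) N = 0 := rootN_zero _
    rw [psiSeq, h1, D.iter_pAt_zero]
  have ht := tendsto_psi (D.pmap_at ξ) (isTower_tw (p := p) (k := k) (r := r) (y := (0 : R)) (by simp))
  have : psiSeq (D.pAt ξ) (tw p k r (0 : R)) = fun _ => 0 := funext h0
  rw [this] at ht
  exact tendsto_nhds_unique ht tendsto_const_nhds

/-- `‖[p]^N a‖ ≤ ‖a‖ ^ (q_k ^ N)`. -/
theorem Stratum.norm_iter_pAt_le (ξ : Pt r R) (N : ℕ) {a : R} (ha : ‖a‖ < 1) :
    ‖(D.pAt ξ)^[N] a‖ ≤ ‖a‖ ^ ((p ^ k) ^ N) := by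
  have h := (D.pmap_at ξ).iterate_lip N a 0 ha (by simp)
  rwa [D.iter_pAt_zero, sub_zero, sub_zero] at h

/-- continuity of `Ψ` at `0` -/
theorem Stratum.PsiAt_small (ξ : Pt r R) {ε : ℝ} (hε : 0 < ε) :
    ∃ δ : ℝ, 0 < δ ∧ ∀ y : R, ‖y‖ < δ → ‖D.PsiAt ξ y‖ < ε := by
  set ε' := min ε 1 with hε'
  have hε'0 : 0 < ε' := lt_min hε one_pos
  have hε'1 : ε' ≤ 1 := min_le_right _ _
  have hh := (D.pmap_at ξ)
  obtain ⟨N, hN⟩ := ((tendsto_order.1 (pow_qk_tendsto hh.qk_pos hh.ρ_nonneg hh.ρ_lt)).2 ε' hε'0).exists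
  have hq : 0 < p ^ (k + r) := pow_pos hp.out.pos _
  refine ⟨ε' ^ ((p ^ (k + r)) ^ N), pow_pos hε'0 _, fun y hy => ?_⟩
  have hy1 : ‖y‖ < 1 := lt_of_lt_of_le hy (pow_le_one₀ hε'0.le hε'1)
  have htw := isTower_tw (p := p) (k := k) (r := r) hy1
  have h1 := psiSeq_sub_le hh htw N
  have h2 : ‖psiSeq (D.pAt ξ) (tw p k r y) N‖ ≤ ‖tw p k r y N‖ ^ ((p ^ k) ^ N) :=
    D.norm_iter_pAt_le ξ N (htw.lt_one N)
  have h3 : ‖tw p k r y N‖ ^ ((p ^ (k + r)) ^ N) = ‖y‖ := by
    have : tw p k r y N ^ ((p ^ (k + r)) ^ N) = y := by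
      rw [tw, ← pow_mul]
      exact rootN_pow _ _
    rw [← norm_pow, this]
  have h4 : ‖tw p k r y N‖ ^ ((p ^ k) ^ N) < ε' := by
    have hpos : (p ^ (k + r)) ^ N ≠ 0 := pow_ne_zero _ hq.ne'
    refine lt_of_pow_lt_pow_left₀ ((p ^ (k + r)) ^ N) hε'0.le ?_
    rw [← pow_mul, mul_comm, pow_mul, h3]
    have h5 : 1 ≤ (p ^ k) ^ N := Nat.one_le_pow _ _ (pow_pos hp.out.pos _)
    calc ‖y‖ ^ ((p ^ k) ^ N) ≤ ‖y‖ ^ 1 := pow_le_pow_of_le_one (norm_nonneg _) hy1.le h5
      _ = ‖y‖ := pow_one _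
      _ < _ := hy
  have : D.PsiAt ξ y = (D.PsiAt ξ y - psiSeq (D.pAt ξ) (tw p k r y) N) +
      psiSeq (D.pAt ξ) (tw p k r y) N := by abel
  rw [this]
  refine lt_of_le_of_lt (IsUltrametricDist.norm_add_le_max _ _) ?_
  refine lt_of_lt_of_le (max_lt (lt_of_le_of_lt h1 hN) (lt_of_le_of_lt h2 h4)) (min_le_left _ _)

/-! ### Homomorphisms -/

/-- `evP` : evaluation of a series over `K`. -/
noncomputable def evP (π : PowerSeries K) (x : R) : R :=
  ev1 (PowerSeries.map (algebraMap K R) π) x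

include D in
theorem Stratum.int1_map (a : PowerSeries K) : Int1 (PowerSeries.map (algebraMap K R) a) := fun n => by
  rw [PowerSeries.coeff_map]
  exact D.norm_algebraMap_le _

theorem Stratum.pAt_eq_ev1 (ξ : Pt r R) (x : R) : D.pAt ξ x = ev1 (mulSeries (D.HAt ξ) p) x :=
  D.pAt_eq ξ x

/-- **Naturality of `Ψ`**: `θ ∘ Ψ_ξ' = Ψ_ξ ∘ a`, for a homomorphism `θ` close to `a` over `K`. -/
theorem Stratum.theta_PsiAt (ξ ξ' : Pt r R) {θ : PowerSeries R} {a : PowerSeries K}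
    (hθ : IsFGHom (D.HAt ξ') (D.HAt ξ) θ) (hθb : ∀ j, ‖PowerSeries.coeff j θ‖ ≤ 1)
    (ha0 : PowerSeries.constantCoeff a = 0) {ρ : ℝ} (hρ1 : ρ < 1)
    (hclose : ∀ j, ‖PowerSeries.coeff j θ - algebraMap K R (PowerSeries.coeff j a)‖ ≤ ρ)
    {y : R} (hy : ‖y‖ < 1) :
    ev1 θ (D.PsiAt ξ' y) = D.PsiAt ξ (evP a y) := by
  set A : PowerSeries R := PowerSeries.map (algebraMap K R) a with hA
  have hAI : Int1 A := D.int1_map a
  have hA0 : PowerSeries.constantCoeff A = 0 := by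
    rw [hA, ← PowerSeries.coeff_zero_eq_constantCoeff_apply, PowerSeries.coeff_map,
      PowerSeries.coeff_zero_eq_constantCoeff_apply, ha0, map_zero]
  have hAlt : ∀ u : R, ‖u‖ < 1 → ‖ev1 A u‖ < 1 := fun u hu =>
    lt_of_le_of_lt (norm_ev1_le_norm hAI hA0 hu) hu
  have hθlt : ∀ u : R, ‖u‖ < 1 → ‖ev1 θ u‖ < 1 := fun u hu =>
    lt_of_le_of_lt (norm_ev1_le_norm hθb hθ.1 hu) hu
  have hρ0 : 0 ≤ ρ := by
    have := hclose 0
    exact (norm_nonneg _).trans this
  have htw := isTower_tw (p := p) (k := k) (r := r) hy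
  have hfixA : ∀ m, PowerSeries.coeff m A ^ (p ^ (k + r)) = PowerSeries.coeff m A := fun m => by
    rw [hA, PowerSeries.coeff_map, ← map_pow, D.frob]
  have hax : IsTower (p ^ (k + r)) (ev1 A ∘ tw p k r y) := by
    refine ⟨fun N => ?_, fun N => hAlt _ (htw.lt_one N)⟩
    simp only [Function.comp]
    rw [ev1_pow_frob hAI hfixA (htw.lt_one _), htw.pow_succ]
  have h1 := hax.eq_tw (hAlt y hy) (by simp only [Function.comp]; rw [tw_zero])
  have hp' : ∀ u : R, ‖u‖ < 1 → ev1 θ (D.pAt ξ' u) = D.pAt ξ (ev1 θ u) := fun u hu => by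
    rw [D.pAt_eq, D.pAt_eq]
    exact ev1_hom_mulSeries (D.intS_HAt ξ') (D.intS_HAt ξ) hθb hθ p hu
  have hcl : ∀ u : R, ‖u‖ < 1 → ‖ev1 θ u - ev1 A u‖ ≤ ρ := fun u hu => by
    rw [← ev1_sub hθb hAI hu]
    refine norm_ev1_le_of_coeff hρ0 (fun n => ?_) hu
    rw [map_sub, hA, PowerSeries.coeff_map]
    exact hclose n
  have hcont : ContinuousAt (ev1 θ) (Psi (D.pAt ξ') (tw p k r y)) :=
    continuousAt_ev1 hθb (psi_lt_one (D.pmap_at ξ') htw)
  have := theta_psi (D.pmap_at ξ') (D.pmap_at ξ) (θ := ev1 θ) (a := ev1 A) hp' hθlt hAlt hρ0 hρ1 hcl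
    htw hax hcont
  rw [h1] at this
  exact this

/-! ### `evP` -/

section evP

variable [Finite K]

omit [CompleteSpace R] [CharP R p] [PerfectRing R p] in
theorem norm_algebraMap_le_of_finite (c : K) : ‖algebraMap K R c‖ ≤ 1 := by
  by_contra h
  push Not at h
  obtain ⟨m, hm, hc⟩ : ∃ m : ℕ, 2 ≤ m ∧ c ^ m = c := by
    have := Fintype.ofFinite K
    exact ⟨Fintype.card K, Fintype.one_lt_card, FiniteField.pow_card c⟩
  have h1 : ‖algebraMap K R c‖ ^ m = ‖algebraMap K R c‖ := by rw [← norm_pow, ← map_pow, hc]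
  have h2 : ‖algebraMap K R c‖ ^ 1 < ‖algebraMap K R c‖ ^ m := pow_lt_pow_right₀ h (by omega)
  rw [h1, pow_one] at h2
  exact lt_irrefl _ h2

theorem int1_map_finite (a : PowerSeries K) : Int1 (PowerSeries.map (algebraMap K R) a) := fun n => by
  rw [PowerSeries.coeff_map]
  exact norm_algebraMap_le_of_finite _

theorem norm_evP_lt {a : PowerSeries K} (ha : PowerSeries.constantCoeff a = 0) {x : R}
    (hx : ‖x‖ < 1) : ‖(evP a x : R)‖ < 1 := by
  refine lt_of_le_of_lt (norm_ev1_le_norm (int1_map_finite a) ?_ hx) hx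
  rw [← PowerSeries.coeff_zero_eq_constantCoeff_apply, PowerSeries.coeff_map,
    PowerSeries.coeff_zero_eq_constantCoeff_apply, ha, map_zero]

theorem evP_X {x : R} : evP (PowerSeries.X : PowerSeries K) x = x := by
  rw [evP, PowerSeries.map_X, ← pow_one (PowerSeries.X : PowerSeries R), ev1_X_pow, pow_one]

theorem evP_zero {x : R} : evP (0 : PowerSeries K) x = 0 := by
  simp [evP, ev1]

theorem evP_pow {a : PowerSeries K} (m : ℕ) {x : R} (hx : ‖x‖ < 1) :
    evP (a ^ m) x = (evP a x) ^ m := by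
  rw [evP, evP, map_pow]
  exact Crest.Agent.Lib.LT.Eval1.ev1_pow (r := 1) (K := 1)
    (fun j => by simpa using int1_map_finite a j) one_pos hx m

theorem evP_mono (c : K) (j : ℕ) (x : R) :
    evP (PowerSeries.C c * PowerSeries.X ^ (p ^ j)) x = algebraMap K R c * x ^ (p ^ j) := by
  rw [evP, ev1, tsum_eq_single (p ^ j)]
  · simp
  · intro n hn
    simp [PowerSeries.coeff_C_mul, PowerSeries.coeff_X_pow, hn]

/-- small order implies small value -/
theorem norm_evP_le_of_order {a : PowerSeries K} {M : ℕ} (ha : ∀ i < M, PowerSeries.coeff i a = 0)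
    {x : R} (hx : ‖x‖ < 1) : ‖(evP a x : R)‖ ≤ ‖x‖ ^ M := by
  refine norm_ev1_le_of_forall (by positivity) fun n => ?_
  rcases lt_or_ge n M with hn | hn
  · rw [PowerSeries.coeff_map, ha n hn]
    simp
  · exact (norm_term_le (int1_map_finite a) x n).trans
      (pow_le_pow_of_le_one (norm_nonneg _) hx.le hn)

/-- The law over `K`: reduction of the family at `w = 0`. -/
noncomputable def Stratum.ΓK : FormalGroup K :=
  D.HW.map (MvPowerSeries.constantCoeff (σ := Fin r) (R := K))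

theorem Stratum.map_ΓK :
    MvPowerSeries.map (algebraMap K R) D.ΓK.toPowerSeries = (D.ΓR R).toPowerSeries := by
  ext m
  rw [MvPowerSeries.coeff_map, D.coeff_ΓR, Stratum.ΓK, FormalGroup.map_toPowerSeries,
    MvPowerSeries.coeff_map]

/-- Evaluating a `Γ`-sum of series over `K`. -/
theorem Stratum.evP_fadd {a b : PowerSeries K} (ha : PowerSeries.constantCoeff a = 0)
    (hb : PowerSeries.constantCoeff b = 0) {x : R} (hx : ‖x‖ < 1) :
    evP (Crest.Agent.LT.fadd D.ΓK.toPowerSeries a b) x = padd (D.ΓR R) (evP a x) (evP b x) := by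
  have hv : ‖(fun _ : Unit => x)‖ < 1 := by
    rw [Crest.Agent.Lib.LT.BallFG.norm_unit]; exact hx
  set A : PowerSeries R := PowerSeries.map (algebraMap K R) a with hA
  set B : PowerSeries R := PowerSeries.map (algebraMap K R) b with hB
  have hA0 : PowerSeries.constantCoeff A = 0 := by
    rw [hA, ← PowerSeries.coeff_zero_eq_constantCoeff_apply, PowerSeries.coeff_map,
      PowerSeries.coeff_zero_eq_constantCoeff_apply, ha, map_zero]
  have hB0 : PowerSeries.constantCoeff B = 0 := by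
    rw [hB, ← PowerSeries.coeff_zero_eq_constantCoeff_apply, PowerSeries.coeff_map,
      PowerSeries.coeff_zero_eq_constantCoeff_apply, hb, map_zero]
  have hm : PowerSeries.map (algebraMap K R) (Crest.Agent.LT.fadd D.ΓK.toPowerSeries a b) =
      Crest.Agent.LT.fadd (D.ΓR R).toPowerSeries A B := by
    have hp' := Crest.Agent.LT.hasSubst_pair ha hb
    have : PowerSeries.map (algebraMap K R) (Crest.Agent.LT.fadd D.ΓK.toPowerSeries a b) =
        MvPowerSeries.map (algebraMap K R)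
          (MvPowerSeries.subst ![a, b] D.ΓK.toPowerSeries) := rfl
    rw [this, MvPowerSeries.map_subst hp', D.map_ΓK (R := R)]
    unfold Crest.Agent.LT.fadd
    congr 1
    ext s
    fin_cases s <;> rfl
  rw [evP, hm, Crest.Agent.LT.fadd, ← Crest.Agent.Lib.LT.BallFG.ev_unit]
  rw [ev_subst D.intS_ΓR (a := ![(A : MvPowerSeries Unit R), B])
    (fun s => by
      fin_cases s
      · exact intS_of_int1 (int1_map_finite a)
      · exact intS_of_int1 (int1_map_finite b))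
    (fun s => by
      fin_cases s
      · exact ord_one_of_cc hA0
      · exact ord_one_of_cc hB0) hv]
  rw [padd]
  congr 1
  funext s
  fin_cases s
  · exact Crest.Agent.Lib.LT.BallFG.ev_unit A x
  · exact Crest.Agent.Lib.LT.BallFG.ev_unit B x

end evP

end Crest.Agent.LT.Chart
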