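import Mathlib

/-!
# Cartier's lemma, short form

In characteristic `p`, an ideal `c` of `K⟦σ⟧` (`K` perfect, `σ` finite) which is stable under all
partial derivatives, which contains `E` as soon as it contains `E ^ p`, and which consists of
series without constant term, is zero.

No `p`-basis is needed: `θ i = X i * ∂ i` acts on the monomial `X ^ m` by the scalar `m i`, so by
Fermat's little theorem `1 - (θ i) ^ (p - 1)` is the projection on the exponents with `p ∣ m i`.
-/

set_option autoImplicit false

namespace Crest.Agent.Lib.LT.Cartier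

open MvPowerSeries Finsupp

variable {σ : Type*} {K : Type*} [Field K]

lemma coeff_X_mul_pderiv (i : σ) (G : MvPowerSeries σ K) (m : σ →₀ ℕ) :
    coeff m (X i * pderiv K i G) = (m i : K) * coeff m G := by
  classical
  by_cases h : m i = 0
  · have : coeff m (X i * pderiv K i G) = 0 := by
      rw [X, coeff_monomial_mul, if_neg]
      intro hle
      have := hle i
      simp [h] at this
    simp [this, h]
  · obtain ⟨m', rfl⟩ : ∃ m', m = single i 1 + m' := by
      refine ⟨m - single i 1, ?_⟩
      ext j
      by_cases hj : i = j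
      · subst hj
        simp only [coe_add, coe_tsub, Pi.add_apply, Pi.sub_apply, single_eq_same]
        omega
      · simp [single_eq_of_ne, hj, Ne.symm hj]
    rw [X, coeff_add_monomial_mul, one_mul, coeff_pderiv, add_comm m' (single i 1)]
    simp only [coe_add, Pi.add_apply, single_eq_same]
    push_cast
    ring

/-- `θ i ^ j` multiplies the coefficient of `X ^ m` by `(m i) ^ j`, and stays in the ideal. -/
lemma theta_pow_mem (c : Ideal (MvPowerSeries σ K))
    (hder : ∀ F ∈ c, ∀ i, pderiv K i F ∈ c) (i : σ) (j : ℕ) (G : MvPowerSeries σ K) (hG : G ∈ c) :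
    ∃ G' ∈ c, ∀ m, coeff m G' = (m i : K) ^ j * coeff m G := by
  induction j with
  | zero => exact ⟨G, hG, fun m => by simp⟩
  | succ j ih =>
    obtain ⟨G', hG', h⟩ := ih
    refine ⟨X i * pderiv K i G', c.mul_mem_left _ (hder _ hG' i), fun m => ?_⟩
    rw [coeff_X_mul_pderiv, h, pow_succ]
    ring

lemma natCast_pow_pred_eq (p : ℕ) [hp : Fact p.Prime] [CharP K p] (m : ℕ) :
    (m : K) ^ (p - 1) = if p ∣ m then 0 else 1 := by
  split_ifs with h
  · have : (m : K) = 0 := (CharP.cast_eq_zero_iff K p m).mpr h
    rw [this, zero_pow]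
    have := hp.out.two_le
    omega
  · have h0 : (m : ZMod p) ≠ 0 := by
      rwa [Ne, ZMod.natCast_eq_zero_iff]
    have h1 := ZMod.pow_card_sub_one_eq_one h0
    have h2 := congrArg (ZMod.castHom (dvd_refl p) K) h1
    simpa using h2

/-- Projection on exponents divisible by `p` in the variables of `s`, inside the ideal. -/
lemma proj_mem (p : ℕ) [hp : Fact p.Prime] [CharP K p] (c : Ideal (MvPowerSeries σ K))
    (hder : ∀ F ∈ c, ∀ i, pderiv K i F ∈ c) (F : MvPowerSeries σ K) (hF : F ∈ c)
    (s : Finset σ) :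
    ∃ F' ∈ c, ∀ m, coeff m F' = if ∀ i ∈ s, p ∣ m i then coeff m F else 0 := by
  classical
  induction s using Finset.induction_on with
  | empty => exact ⟨F, hF, fun m => by simp⟩
  | insert i s _ ih =>
    obtain ⟨G, hG, h⟩ := ih
    obtain ⟨G', hG', h'⟩ := theta_pow_mem c hder i (p - 1) G hG
    refine ⟨G - G', c.sub_mem hG hG', fun m => ?_⟩
    rw [map_sub, h', natCast_pow_pred_eq p, h]
    by_cases hi : p ∣ m i
    · simp only [Finset.mem_insert, forall_eq_or_imp, hi, true_and, if_true, zero_mul, sub_zero]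
    · simp [hi]

/-- **Cartier's lemma.** -/
theorem eq_bot_of_stable (p : ℕ) [hp : Fact p.Prime] [CharP K p] [PerfectRing K p] [Fintype σ]
    (c : Ideal (MvPowerSeries σ K))
    (hder : ∀ F ∈ c, ∀ i, pderiv K i F ∈ c)
    (hroot : ∀ E : MvPowerSeries σ K, E ^ p ∈ c → E ∈ c)
    (hconst : ∀ F ∈ c, constantCoeff F = 0) : c = ⊥ := by
  classical
  by_contra hne
  have hex : ∃ d : ℕ, ∃ F ∈ c, ∃ e : σ →₀ ℕ, coeff e F ≠ 0 ∧ degree e = d := by
    obtain ⟨F, hFc, hF0⟩ := Submodule.exists_mem_ne_zero_of_ne_bot hne
    obtain ⟨d, e, he, hd⟩ := (ne_zero_iff_exists_coeff_ne_zero_and_degree).mp hF0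
    exact ⟨d, F, hFc, e, he, hd⟩
  obtain ⟨F, hFc, e, he, hd⟩ := Nat.find_spec hex
  set d := Nat.find hex with hd_def
  have hmin : ∀ d' < d, ∀ F ∈ c, ∀ e : σ →₀ ℕ, coeff e F ≠ 0 → degree e ≠ d' := by
    intro d' hd' F hF e he hde
    exact Nat.find_min hex hd' ⟨F, hF, e, he, hde⟩
  have hd0 : d ≠ 0 := by
    intro h0
    have : e = 0 := (degree_eq_zero_iff e).mp (hd.trans h0)
    subst this
    apply he
    simpa using hconst F hFc
  -- all exponents of `e` are divisible by `p`
  have hdvd : ∀ i, p ∣ e i := by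
    intro i
    by_contra hi
    have hei : e i ≠ 0 := fun h => hi (by simp [h])
    obtain ⟨e', rfl⟩ : ∃ e', e = e' + single i 1 := by
      refine ⟨e - single i 1, ?_⟩
      ext j
      by_cases hj : i = j
      · subst hj
        simp only [coe_add, coe_tsub, Pi.add_apply, Pi.sub_apply, single_eq_same]
        omega
      · simp [single_eq_of_ne, hj, Ne.symm hj]
    refine hmin (d - 1) ?_ _ (hder F hFc i) e' ?_ ?_
    · omega
    · rw [coeff_pderiv]
      refine mul_ne_zero he ?_
      have : ((e' i + 1 : ℕ) : K) ≠ 0 := by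
        rw [Ne, CharP.cast_eq_zero_iff K p]
        simpa using hi
      simpa using this
    · have : degree (e' + single i 1) = degree e' + 1 := by simp
      omega
  obtain ⟨F2, hF2c, hF2⟩ := proj_mem p c hder F hFc Finset.univ
  have hF2e : coeff e F2 ≠ 0 := by
    rw [hF2, if_pos (fun i _ => hdvd i)]
    exact he
  -- `F2` is a `p`-th power
  let E : MvPowerSeries σ K := fun m => (frobeniusEquiv K p).symm (coeff (p • m) F2)
  have hE : ∀ m, coeff m E = (frobeniusEquiv K p).symm (coeff (p • m) F2) := fun m => rfl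
  have hp0 : p ≠ 0 := hp.out.ne_zero
  have hEp : E ^ p = F2 := by
    rw [← map_frobenius_expand p hp0]
    ext m
    rw [coeff_map]
    by_cases hm : ∀ i, p ∣ m i
    · have : m = p • (m.mapRange (· / p) (by simp)) := by
        ext i
        simp only [coe_smul, Pi.smul_apply, mapRange_apply, smul_eq_mul]
        exact (Nat.mul_div_cancel' (hm i)).symm
      rw [this, coeff_expand_smul, hE, frobenius_def]
      have h2 := (frobeniusEquiv K p).apply_symm_apply (coeff (p • (m.mapRange (· / p) (by simp))) F2)
      simpa [frobeniusEquiv_apply] using h2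
    · push Not at hm
      obtain ⟨i, hi⟩ := hm
      rw [coeff_expand_of_not_dvd p hp0 _ hi, hF2, if_neg (fun h => hi (h i (Finset.mem_univ i)))]
      simp
  have hEc : E ∈ c := hroot E (by rw [hEp]; exact hF2c)
  let e' : σ →₀ ℕ := e.mapRange (· / p) (by simp)
  have hee : e = p • e' := by
    ext i
    simp only [e', coe_smul, Pi.smul_apply, mapRange_apply, smul_eq_mul]
    exact (Nat.mul_div_cancel' (hdvd i)).symm
  have hdeg : degree e = p * degree e' := by
    rw [hee]
    simp
  have hpos : 0 < degree e' := by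
    rcases Nat.eq_zero_or_pos (degree e') with h | h
    · rw [h] at hdeg
      omega
    · exact h
  refine hmin (degree e') ?_ E hEc e' ?_ rfl
  · have := hp.out.two_le
    have : 2 * degree e' ≤ p * degree e' := Nat.mul_le_mul_right _ this
    omega
  · rw [hE, ← hee]
    simpa using hF2e

end Crest.Agent.Lib.LT.Cartier
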