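import Mathlib
import Crest.Agent.Lib.LT.FormalIFT

/-!
# Chain rule for multivariate power series, and setting a block of variables to zero
-/

set_option autoImplicit false

namespace Crest.Agent.Lib.LT.ChainRule

open MvPowerSeries Finsupp
open Crest.Agent.Lib.LT.FormalIFT (Ord hasSubst_of_ord subst_ord ord_one_iff)

variable {σ τ K : Type*} [Field K]

lemma Ord.pderiv {n : ℕ} {f : MvPowerSeries τ K} (hf : Ord (n + 1) f) (u : τ) :
    Ord n (pderiv K u f) := by
  intro e he
  rw [coeff_pderiv, hf _ (by simpa using he), zero_mul]

variable [Finite σ] 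

/-- **Chain rule** for polynomials. -/
lemma pderiv_subst_coe [Fintype σ] [DecidableEq σ] {a : σ → MvPowerSeries τ K} (ha : ∀ i, Ord 1 (a i)) (u : τ)
    (P : MvPolynomial σ K) :
    pderiv K u ((P : MvPowerSeries σ K).subst a) =
      ∑ j, (pderiv K j (P : MvPowerSeries σ K)).subst a * pderiv K u (a j) := by
  have hs := hasSubst_of_ord ha
  induction P using MvPolynomial.induction_on with
  | C c =>
    have h1 : ((MvPolynomial.C c : MvPolynomial σ K) : MvPowerSeries σ K) = C c := by simp
    have hz : (0 : MvPowerSeries σ K).subst a = 0 := by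
      have := subst_C (a := a) (S := K) (0 : K)
      simpa using this
    rw [h1, subst_C]
    simp [hz]
  | add P Q hP hQ =>
    rw [MvPolynomial.coe_add, subst_add hs, map_add, hP, hQ, ← Finset.sum_add_distrib]
    refine Finset.sum_congr rfl fun j _ => ?_
    rw [map_add, subst_add hs, add_mul]
  | mul_X P k hP =>
    rw [MvPolynomial.coe_mul, MvPolynomial.coe_X, subst_mul hs, subst_X hs, Derivation.leibniz, hP]
    simp only [smul_eq_mul, Derivation.leibniz, subst_add hs, subst_mul hs, subst_X hs]
    simp only [add_mul, Finset.sum_add_distrib]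
    congr 1
    · rw [Finset.sum_eq_single k]
      · rw [pderiv_X_self]
        have : (1 : MvPowerSeries σ K).subst a = 1 := by
          have := subst_C (a := a) (S := K) (1 : K)
          simpa using this
        rw [this, mul_one]
      · intro j _ hj
        rw [pderiv_X_of_ne (Ne.symm hj)]
        have : (0 : MvPowerSeries σ K).subst a = 0 := by
          have := subst_C (a := a) (S := K) (0 : K)
          simpa using this
        rw [this, mul_zero, zero_mul]
      · simp
    · rw [Finset.mul_sum]
      refine Finset.sum_congr rfl fun j _ => ?_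
      ring

/-- **Chain rule.** -/
theorem pderiv_subst [Fintype σ] [DecidableEq σ] [Finite τ] {a : σ → MvPowerSeries τ K} (ha : ∀ i, Ord 1 (a i)) (u : τ)
    (F : MvPowerSeries σ K) :
    pderiv K u (F.subst a) = ∑ j, (pderiv K j F).subst a * pderiv K u (a j) := by
  have hs := hasSubst_of_ord ha
  ext e
  set n := degree e + 1 with hn
  set P : MvPolynomial σ K := truncTotal (n + 1) F with hP
  set W : MvPowerSeries σ K := F - (P : MvPowerSeries σ K) with hW
  have hWord : Ord (n + 1) W := by
    intro m hm
    rw [hW, map_sub, MvPolynomial.coeff_coe, hP, coeff_truncTotal _ hm, sub_self]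
  have hF : F = (P : MvPowerSeries σ K) + W := by rw [hW]; ring
  have h1 : coeff e (pderiv K u (W.subst a)) = 0 :=
    Ord.pderiv (subst_ord ha hWord) u e (by omega)
  have h2 : ∀ j, coeff e ((pderiv K j W).subst a * pderiv K u (a j)) = 0 := by
    intro j
    have h3 : Ord n ((pderiv K j W).subst a) := subst_ord ha (Ord.pderiv hWord j)
    have h4 := (h3.mul (FormalIFT.ord_zero (pderiv K u (a j)))) e (by omega)
    exact h4
  rw [hF, subst_add hs, map_add, map_add, pderiv_subst_coe ha u P, h1, add_zero, map_sum, map_sum]
  refine Finset.sum_congr rfl fun j _ => ?_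
  rw [map_add, subst_add hs, add_mul, map_add, h2 j, add_zero]

end Crest.Agent.Lib.LT.ChainRule
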