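import Mathlib
import Crest.Prelude.Def_LubinTate
import Crest.Agent.Lib.LT.FGL
import Crest.Agent.Lib.LT.EvalS
import Crest.Agent.Lib.LT.ChainRule
import Crest.Agent.Lib.LT.FormalIFT

/-!
# (2g), basics: evaluation of series over a finite field at points of `R`, translation.
-/

set_option autoImplicit false

namespace Crest.Agent.Lib.LT.Closure

open MvPowerSeries Finsupp
open Crest.Agent.Lib.LT.FormalIFT (Ord hasSubst_of_ord subst_ord ord_one_iff)
open Crest.Agent.Lib.LT.EvalS
open Crest.Agent.Lib.LT.ChainRule (pderiv_subst)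

variable {R : Type*} [NormedField R] [IsUltrametricDist R] [CompleteSpace R]
variable {K : Type*} [Field K] [Fintype K] [Algebra K R]
variable {σ τ : Type*} [Fintype σ] [Fintype τ]

omit [IsUltrametricDist R] [CompleteSpace R] in
lemma norm_algebraMap_le (c : K) : ‖algebraMap K R c‖ ≤ 1 := by
  by_cases hc : c = 0
  · simp [hc]
  · have h1 : (algebraMap K R c) ^ Fintype.card K = algebraMap K R c := by
      rw [← map_pow, FiniteField.pow_card]
    have h2 : algebraMap K R c ≠ 0 := by simpa using hc
    have h3 : ‖algebraMap K R c‖ ^ Fintype.card K = ‖algebraMap K R c‖ := by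
      rw [← norm_pow, h1]
    have hq : 1 < Fintype.card K := Fintype.one_lt_card
    by_contra hlt
    push Not at hlt
    have h4 : ‖algebraMap K R c‖ ^ 1 < ‖algebraMap K R c‖ ^ Fintype.card K :=
      pow_lt_pow_right₀ hlt hq
    rw [h3, pow_one] at h4
    exact lt_irrefl _ h4

omit [IsUltrametricDist R] [CompleteSpace R] in
lemma intS_map (f : MvPowerSeries σ K) : IntS (MvPowerSeries.map (algebraMap K R) f) := fun m => by
  rw [coeff_map]
  exact norm_algebraMap_le _

/-- Evaluate a series over `K` at a point of `R`. -/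
noncomputable def evK (f : MvPowerSeries σ K) (x : σ → R) : R :=
  ev (MvPowerSeries.map (algebraMap K R) f) x

lemma evK_add (f g : MvPowerSeries σ K) {x : σ → R} (hx : ‖x‖ < 1) :
    evK (f + g) x = evK f x + evK g x := by
  simp only [evK, map_add]
  exact ev_add (intS_map f) (intS_map g) hx

lemma evK_sub (f g : MvPowerSeries σ K) {x : σ → R} (hx : ‖x‖ < 1) :
    evK (f - g) x = evK f x - evK g x := by
  simp only [evK, map_sub]
  exact ev_sub (intS_map f) (intS_map g) hx

lemma evK_mul (f g : MvPowerSeries σ K) {x : σ → R} (hx : ‖x‖ < 1) :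
    evK (f * g) x = evK f x * evK g x := by
  simp only [evK, map_mul]
  exact ev_mul (intS_map f) (intS_map g) hx

lemma evK_pow (f : MvPowerSeries σ K) {x : σ → R} (hx : ‖x‖ < 1) (k : ℕ) :
    evK (f ^ k) x = evK f x ^ k := by
  simp only [evK, map_pow]
  exact ev_pow (intS_map f) hx k

lemma evK_C (c : K) (x : σ → R) : evK (C c : MvPowerSeries σ K) x = algebraMap K R c := by
  simp only [evK, map_C]
  exact ev_C _ _

lemma evK_zero (x : σ → R) : evK (0 : MvPowerSeries σ K) x = 0 := by
  simp only [evK, map_zero]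
  exact ev_zero _

lemma evK_one (x : σ → R) : evK (1 : MvPowerSeries σ K) x = 1 := by
  simp only [evK, map_one]
  exact ev_one _

lemma evK_X [DecidableEq σ] (i : σ) (x : σ → R) : evK (X i : MvPowerSeries σ K) x = x i := by
  simp only [evK, map_X]
  exact ev_X _ _

lemma norm_evK_le (f : MvPowerSeries σ K) {x : σ → R} (hx : ‖x‖ < 1) : ‖evK f x‖ ≤ 1 :=
  norm_ev_le (intS_map f) hx

lemma norm_evK_le_of_ord {f : MvPowerSeries σ K} {x : σ → R} (hx : ‖x‖ < 1) {n : ℕ}
    (hn : Ord n f) : ‖evK f x‖ ≤ ‖x‖ ^ n :=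
  norm_ev_le_of_ord (intS_map f) hx (fun e he => by rw [coeff_map, hn e he, map_zero])

lemma ord_map {n : ℕ} {f : MvPowerSeries σ K} (hf : Ord n f) :
    Ord n (MvPowerSeries.map (algebraMap K R) f) :=
  fun e he => by rw [coeff_map, hf e he, map_zero]

/-- Chain rule over `K`. -/
lemma evK_subst {a : σ → MvPowerSeries τ K} (ha : ∀ i, Ord 1 (a i)) (f : MvPowerSeries σ K)
    {y : τ → R} (hy : ‖y‖ < 1) :
    evK (f.subst a) y = evK f (fun i => evK (a i) y) := by
  have hs := hasSubst_of_ord ha
  simp only [evK]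
  rw [map_subst hs]
  exact ev_subst (intS_map f) (fun i => intS_map (a i)) (fun i => ord_map (ha i)) hy

lemma norm_evK_ord_one_le {f : MvPowerSeries σ K} (hf : Ord 1 f) {x : σ → R} (hx : ‖x‖ < 1) :
    ‖evK f x‖ ≤ ‖x‖ := by
  simpa using norm_evK_le_of_ord hx hf

lemma norm_evK_lt_one_of_ord {f : MvPowerSeries σ K} (hf : Ord 1 f) {x : σ → R} (hx : ‖x‖ < 1) :
    ‖evK f x‖ < 1 :=
  (norm_evK_ord_one_le hf hx).trans_lt hx

lemma evK_zero_point (f : MvPowerSeries σ K) :
    evK f (0 : σ → R) = algebraMap K R (constantCoeff f) := by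
  classical
  have hf : f = C (constantCoeff f) + (f - C (constantCoeff f)) := by ring
  have hO : Ord 1 (f - C (constantCoeff f)) := by
    rw [ord_one_iff]
    simp
  have h0 : ‖(0 : σ → R)‖ < 1 := by simp
  rw [hf, evK_add _ _ h0, evK_C]
  have h1 := norm_evK_le_of_ord (R := R) h0 hO
  have h2 : evK (f - C (constantCoeff f)) (0 : σ → R) = 0 := by
    have : ‖(0 : σ → R)‖ = 0 := by simp
    rw [this] at h1
    simpa using h1
  simp only [map_add, map_sub, constantCoeff_C] 
  rw [h2]
  simp

/-! ### The law on points -/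

variable (gam : FormalGroup K)

/-- `x +_Γ y`. -/
noncomputable def padd (x y : R) : R := evK gam.toPowerSeries ![x, y]

lemma norm_vec2 {x y : R} (hx : ‖x‖ < 1) (hy : ‖y‖ < 1) : ‖(![x, y] : Fin 2 → R)‖ < 1 := by
  rw [pi_norm_lt_iff zero_lt_one]
  intro i
  fin_cases i
  · simpa using hx
  · simpa using hy

lemma ord_one_law : Ord 1 gam.toPowerSeries := ord_one_iff.mpr gam.zero_constantCoeff

lemma norm_padd_lt {x y : R} (hx : ‖x‖ < 1) (hy : ‖y‖ < 1) : ‖padd gam x y‖ < 1 :=
  norm_evK_lt_one_of_ord (ord_one_law gam) (norm_vec2 hx hy)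

/-- Evaluate `F(u, v)`. -/
lemma evK_fadd {u v : MvPowerSeries τ K} (hu : Ord 1 u) (hv : Ord 1 v) {y : τ → R}
    (hy : ‖y‖ < 1) :
    evK (gam.toPowerSeries.subst ![u, v]) y = padd gam (evK u y) (evK v y) := by
  have ha : ∀ i, Ord 1 ((![u, v] : Fin 2 → MvPowerSeries τ K) i) := by
    intro i
    fin_cases i
    · exact hu
    · exact hv
  rw [evK_subst ha _ hy, padd]
  congr 1
  funext i
  fin_cases i <;> rfl

lemma law_subst_X_zero {f : MvPowerSeries τ K} (hf : Ord 1 f) :
    gam.toPowerSeries.subst ![f, 0] = f := by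
  have h := gam.Xzero_eq_X
  unfold FormalGroup.Xzero at h
  have hs1 : HasSubst (fun _ : Unit => f) := hasSubst_of_ord (fun _ => hf)
  have hs2 : HasSubst (![PowerSeries.X, 0] : Fin 2 → PowerSeries K) := HasSubst.X_zero
  have := subst_comp_subst_apply hs2 hs1 gam.toPowerSeries
  rw [show MvPowerSeries.subst ![PowerSeries.X, 0] gam.toPowerSeries = (PowerSeries.X : PowerSeries K) from h] at this
  have h3 : subst (fun _ : Unit => f) (PowerSeries.X : PowerSeries K) = f := by
    have := subst_X (a := fun _ : Unit => f) (R := K) hs1 ()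
    exact this
  rw [h3] at this
  have hfun : (![f, 0] : Fin 2 → MvPowerSeries τ K) = fun s => subst (fun _ : Unit => f)
      ((![PowerSeries.X, 0] : Fin 2 → PowerSeries K) s) := by
    funext i
    fin_cases i
    · exact h3.symm
    · show (0 : MvPowerSeries τ K) = subst (fun _ : Unit => f) (0 : PowerSeries K)
      have := subst_C (a := fun _ : Unit => f) (S := K) (0 : K)
      simpa using this.symm
  rw [hfun]
  exact this.symm

lemma law_subst_zero_X {f : MvPowerSeries τ K} (hf : Ord 1 f) :
    gam.toPowerSeries.subst ![0, f] = f := by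
  have h := gam.zeroX_eq_X
  unfold FormalGroup.zeroX at h
  have hs1 : HasSubst (fun _ : Unit => f) := hasSubst_of_ord (fun _ => hf)
  have hs2 : HasSubst (![0, PowerSeries.X] : Fin 2 → PowerSeries K) := HasSubst.zero_X
  have := subst_comp_subst_apply hs2 hs1 gam.toPowerSeries
  rw [show MvPowerSeries.subst ![0, PowerSeries.X] gam.toPowerSeries = (PowerSeries.X : PowerSeries K) from h] at this
  have h3 : subst (fun _ : Unit => f) (PowerSeries.X : PowerSeries K) = f := by
    have := subst_X (a := fun _ : Unit => f) (R := K) hs1 ()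
    exact this
  rw [h3] at this
  have hfun : (![0, f] : Fin 2 → MvPowerSeries τ K) = fun s => subst (fun _ : Unit => f)
      ((![0, PowerSeries.X] : Fin 2 → PowerSeries K) s) := by
    funext i
    fin_cases i
    · show (0 : MvPowerSeries τ K) = subst (fun _ : Unit => f) (0 : PowerSeries K)
      have := subst_C (a := fun _ : Unit => f) (S := K) (0 : K)
      simpa using this.symm
    · exact h3.symm
  rw [hfun]
  exact this.symm

lemma padd_zero {x : R} (hx : ‖x‖ < 1) : padd gam x 0 = x := by
  have h1 : ‖(fun _ : Unit => x)‖ < 1 := by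
    rw [pi_norm_lt_iff zero_lt_one]
    intro _
    exact hx
  have h := evK_fadd (R := R) gam (u := (X () : MvPowerSeries Unit K)) (v := 0)
    (ord_one_iff.mpr (by simp)) (FormalIFT.Ord.zero 1) h1
  rw [law_subst_X_zero gam (ord_one_iff.mpr (by simp)), evK_X, evK_zero] at h
  exact h.symm

lemma zero_padd {x : R} (hx : ‖x‖ < 1) : padd gam 0 x = x := by
  have h1 : ‖(fun _ : Unit => x)‖ < 1 := by
    rw [pi_norm_lt_iff zero_lt_one]
    intro _
    exact hx
  have h := evK_fadd (R := R) gam (u := 0) (v := (X () : MvPowerSeries Unit K))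
    (FormalIFT.Ord.zero 1) (ord_one_iff.mpr (by simp)) h1
  rw [law_subst_zero_X gam (ord_one_iff.mpr (by simp)), evK_X, evK_zero] at h
  exact h.symm

end Crest.Agent.Lib.LT.Closure
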