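import Mathlib
import Crest.Agent.Lib.LT.ClosureBasic

/-!
# (2g): translation of a series by a point: `F(λ₀ +_Γ μ)`, and its linear coefficient.
-/

set_option autoImplicit false

namespace Crest.Agent.Lib.LT.Closure

open MvPowerSeries Finsupp
open Crest.Agent.Lib.LT.FormalIFT (Ord hasSubst_of_ord subst_ord ord_one_iff)
open Crest.Agent.Lib.LT.EvalS
open Crest.Agent.Lib.LT.ChainRule (pderiv_subst)

variable {R : Type*} [NormedField R] [IsUltrametricDist R] [CompleteSpace R]
variable {K : Type*} [Field K] [Fintype K] [Algebra K R]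
variable {σ τ : Type*} [Fintype σ] [DecidableEq σ]

section Formal


/-- Substitution `inl ↦ 0`, `inr ↦ X`. -/
noncomputable def zeroLeftVars (σ K : Type*) [Field K] : σ ⊕ σ → MvPowerSeries σ K :=
  Sum.elim (fun _ => 0) X

lemma ord_zeroLeftVars (s : σ ⊕ σ) : Ord 1 (zeroLeftVars σ K s) := by
  rcases s with s | s
  · exact FormalIFT.Ord.zero 1
  · exact ord_one_iff.mpr (by simp [zeroLeftVars])

end Formal

section Coeff


lemma coeff_subst_zeroLeft (Ψ : MvPowerSeries (σ ⊕ σ) K) (m : σ →₀ ℕ) :
    coeff m (Ψ.subst (zeroLeftVars σ K)) = coeff (sumElim 0 m) Ψ := by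
  classical
  have hs : HasSubst (zeroLeftVars σ K) := hasSubst_of_ord ord_zeroLeftVars
  rw [coeff_subst hs, finsum_eq_single _ (sumElim 0 m)]
  · have : ((sumElim (0 : σ →₀ ℕ) m).prod fun s e => zeroLeftVars σ K s ^ e) = monomial m 1 := by
      rw [Finsupp.prod_fintype _ _ (by simp), Fintype.prod_sum_type]
      simp only [sumElim_inl, sumElim_inr, zeroLeftVars, Sum.elim_inl, Sum.elim_inr, coe_zero,
        Pi.zero_apply, pow_zero, Finset.prod_const_one, one_mul]
      rw [MvPowerSeries.monomial_one_eq, Finsupp.prod_fintype _ _ (by simp)]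
    rw [this, smul_eq_mul, coeff_monomial, if_pos rfl, mul_one]
  · intro d hd
    by_cases hleft : ∃ i, d (Sum.inl i) ≠ 0
    · obtain ⟨i, hi⟩ := hleft
      have : (d.prod fun s e => zeroLeftVars σ K s ^ e) = 0 := by
        rw [Finsupp.prod_fintype _ _ (by simp)]
        refine Finset.prod_eq_zero (Finset.mem_univ (Sum.inl i)) ?_
        simp [zeroLeftVars, hi]
      rw [this]
      simp
    · push Not at hleft
      have : (d.prod fun s e => zeroLeftVars σ K s ^ e) =
          monomial (d.comapDomain Sum.inr Sum.inr_injective.injOn) 1 := by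
        rw [Finsupp.prod_fintype _ _ (by simp), Fintype.prod_sum_type]
        simp only [zeroLeftVars, Sum.elim_inl, Sum.elim_inr, hleft, pow_zero,
          Finset.prod_const_one, one_mul]
        rw [MvPowerSeries.monomial_one_eq, Finsupp.prod_fintype _ _ (by simp)]
        simp
      rw [this, smul_eq_mul, coeff_monomial, if_neg, mul_zero]
      intro hm
      apply hd
      ext s
      rcases s with s | s
      · simp [hleft]
      · simp [hm]

end Coeff

section Trans

/-- `Γ(X_j, μ_j)` with `inl` the variables `μ`, `inr` the variables `X`. -/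
noncomputable def trans (gam : FormalGroup K) (j : σ) : MvPowerSeries (σ ⊕ σ) K :=
  gam.toPowerSeries.subst ![X (Sum.inr j), X (Sum.inl j)]

lemma ord_X_pair (u v : τ) (i : Fin 2) :
    Ord 1 ((![X u, X v] : Fin 2 → MvPowerSeries τ K) i) := by
  fin_cases i <;> exact ord_one_iff.mpr (by simp)

lemma ord_trans (gam : FormalGroup K) (j : σ) : Ord 1 (trans gam j) :=
  subst_ord (ord_X_pair _ _) (ord_one_iff.mpr gam.zero_constantCoeff)

/-- `pderiv` of `Γ(X_j, μ_j)` in `μ_i`. -/
lemma pderiv_trans (gam : FormalGroup K) (i j : σ) :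
    pderiv K (Sum.inl i) (trans gam j) =
      if j = i then (pderiv K (1 : Fin 2) gam.toPowerSeries).subst
        ![X (Sum.inr j), X (Sum.inl j)] else 0 := by
  classical
  have hX := ord_X_pair (K := K) (Sum.inr j : σ ⊕ σ) (Sum.inl j)
  rw [trans, pderiv_subst hX, Fin.sum_univ_two]
  simp only [Matrix.cons_val_zero, Matrix.cons_val_one]
  rw [pderiv_X_of_ne (by simp), mul_zero, zero_add]
  by_cases h : j = i
  · subst h
    rw [if_pos rfl, pderiv_X_self, mul_one]
  · rw [if_neg h, pderiv_X_of_ne (by simpa using h), mul_zero]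

variable (gam : FormalGroup K)

lemma subst_zeroLeft_trans (j : σ) :
    (trans gam j).subst (zeroLeftVars σ K) = X j := by
  have hs : HasSubst (zeroLeftVars σ K) := hasSubst_of_ord ord_zeroLeftVars
  have hs2 : HasSubst (![X (Sum.inr j), X (Sum.inl j)] : Fin 2 → MvPowerSeries (σ ⊕ σ) K) :=
    hasSubst_of_ord (ord_X_pair _ _)
  rw [trans, subst_comp_subst_apply hs2 hs]
  have hfun : (fun s : Fin 2 => subst (zeroLeftVars σ K)
      ((![X (Sum.inr j), X (Sum.inl j)] : Fin 2 → MvPowerSeries (σ ⊕ σ) K) s)) =
      ![(X j : MvPowerSeries σ K), 0] := by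
    funext s
    fin_cases s
    · simp only [Fin.zero_eta, Matrix.cons_val_zero]
      rw [subst_X hs]
      simp [zeroLeftVars]
    · simp only [Fin.mk_one, Matrix.cons_val_one, Matrix.cons_val_zero]
      rw [subst_X hs]
      simp [zeroLeftVars]
  rw [hfun]
  exact law_subst_X_zero gam (ord_one_iff.mpr (by simp))

/-- The unit factor. -/
noncomputable def unitU (i : σ) : MvPowerSeries σ K :=
  (pderiv K (1 : Fin 2) gam.toPowerSeries).subst ![X i, 0]

lemma constantCoeff_subst_of_ord {a : Fin 2 → MvPowerSeries σ K} (ha : ∀ i, Ord 1 (a i))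
    (f : MvPowerSeries (Fin 2) K) : constantCoeff (f.subst a) = constantCoeff f := by
  have hs := hasSubst_of_ord ha
  have hf : f = C (constantCoeff f) + (f - C (constantCoeff f)) := by ring
  have hO : Ord 1 (f - C (constantCoeff f)) := by
    rw [ord_one_iff]
    simp
  conv_lhs => rw [hf]
  rw [subst_add hs, subst_C, map_add, ord_one_iff.mp (subst_ord ha hO)]
  simp

lemma constantCoeff_unitU (i : σ) : constantCoeff (unitU gam i) = 1 := by
  rw [unitU, constantCoeff_subst_of_ord (σ := σ)]
  · rw [← coeff_zero_eq_constantCoeff_apply, coeff_pderiv, zero_add, gam.lin_coeff_Y]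
    simp
  · intro s
    fin_cases s
    · exact ord_one_iff.mpr (by simp)
    · exact FormalIFT.Ord.zero 1

/-- The chain rule at `μ = 0`: the linear coefficient of `F(X +_Γ μ)` in `μ_i`. -/
theorem zeroLeft_pderiv_subst_trans (F : MvPowerSeries σ K) (i : σ) :
    (pderiv K (Sum.inl i) (F.subst (trans gam))).subst (zeroLeftVars σ K) =
      pderiv K i F * unitU gam i := by
  classical
  have hs : HasSubst (zeroLeftVars σ K) := hasSubst_of_ord ord_zeroLeftVars
  have hT : HasSubst (trans gam : σ → MvPowerSeries (σ ⊕ σ) K) := hasSubst_of_ord (ord_trans gam)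
  rw [pderiv_subst (ord_trans gam)]
  rw [Finset.sum_eq_single i]
  · rw [pderiv_trans gam i i, if_pos rfl, subst_mul hs]
    congr 1
    · rw [subst_comp_subst_apply hT hs]
      have : (fun s => subst (zeroLeftVars σ K) (trans gam s)) = X := by
        funext s
        exact subst_zeroLeft_trans gam s
      rw [this]
      exact congrFun subst_self _
    · have hs2 : HasSubst (![X (Sum.inr i), X (Sum.inl i)] : Fin 2 → MvPowerSeries (σ ⊕ σ) K) :=
        hasSubst_of_ord (ord_X_pair _ _)
      rw [subst_comp_subst_apply hs2 hs, unitU]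
      congr 1
      funext s
      fin_cases s
      · simp only [Fin.zero_eta, Matrix.cons_val_zero]
        rw [subst_X hs]
        simp [zeroLeftVars]
      · simp only [Fin.mk_one, Matrix.cons_val_one, Matrix.cons_val_zero]
        rw [subst_X hs]
        simp [zeroLeftVars]
  · intro j _ hj
    rw [pderiv_trans gam i j, if_neg hj, mul_zero]
  · simp

/-- Coefficients of `(pderiv (inl i) Ψ)` at `μ = 0` are the coefficients of `Ψ` linear in `μ_i`. -/
lemma coeff_zeroLeft_pderiv (Ψ : MvPowerSeries (σ ⊕ σ) K) (i : σ) (m : σ →₀ ℕ) :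
    coeff m ((pderiv K (Sum.inl i) Ψ).subst (zeroLeftVars σ K)) =
      coeff (sumElim (single i 1) m) Ψ := by
  rw [coeff_subst_zeroLeft, coeff_pderiv]
  have : sumElim (0 : σ →₀ ℕ) m + single (Sum.inl i) 1 = sumElim (single i 1) m := by
    ext s
    rcases s with s | s
    · simp [single_apply]
    · simp
  rw [this]
  simp

end Trans

end Crest.Agent.Lib.LT.Closure
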