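import Mathlib
import Crest.Agent.Lib.LT.ClosureTrans

/-!
# (2g): the translated series, and dominance of the linear coefficient.
-/

set_option autoImplicit false

namespace Crest.Agent.Lib.LT.Closure

open MvPowerSeries Finsupp
open Crest.Agent.Lib.LT.FormalIFT (Ord hasSubst_of_ord subst_ord ord_one_iff)
open Crest.Agent.Lib.LT.EvalS

variable {R : Type*} [NormedField R] [IsUltrametricDist R] [CompleteSpace R]
variable {K : Type*} [Field K] [Fintype K] [Algebra K R]
variable {σ : Type*} [Fintype σ] [DecidableEq σ]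
variable (gam : FormalGroup K)

/-- `F(λ₀ +_Γ μ)` as a series in `μ` with coefficients in `R`. -/
noncomputable def translated (F : MvPowerSeries σ K) (lam : σ → R) : MvPowerSeries σ R :=
  partialEv (MvPowerSeries.map (algebraMap K R) (F.subst (trans gam))) lam

lemma intS_translated (F : MvPowerSeries σ K) {lam : σ → R} (hl : ‖lam‖ < 1) :
    IntS (translated gam F lam) :=
  (intS_map _).partialEv hl

lemma norm_elim_lt {x y : σ → R} (hx : ‖x‖ < 1) (hy : ‖y‖ < 1) :
    ‖(Sum.elim x y : σ ⊕ σ → R)‖ < 1 := by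
  rw [norm_sumElim]
  exact max_lt hx hy

lemma evK_trans {μ lam : σ → R} (hμ : ‖μ‖ < 1) (hl : ‖lam‖ < 1) (j : σ) :
    evK (trans gam j) (Sum.elim μ lam) = padd gam (lam j) (μ j) := by
  have h := evK_fadd (R := R) gam (u := (X (Sum.inr j) : MvPowerSeries (σ ⊕ σ) K))
    (v := X (Sum.inl j)) (ord_one_iff.mpr (by simp)) (ord_one_iff.mpr (by simp))
    (norm_elim_lt hμ hl)
  rw [evK_X, evK_X] at h
  simpa [trans] using h

theorem ev_translated (F : MvPowerSeries σ K) {μ lam : σ → R} (hμ : ‖μ‖ < 1) (hl : ‖lam‖ < 1) :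
    ev (translated gam F lam) μ = evK F (fun j => padd gam (lam j) (μ j)) := by
  rw [translated, ev_partialEv (intS_map _) hμ hl]
  have := evK_subst (R := R) (ord_trans gam) F (norm_elim_lt hμ hl)
  rw [evK] at this
  rw [this]
  congr 1
  funext j
  exact evK_trans gam hμ hl j

theorem coeff_translated (F : MvPowerSeries σ K) {lam : σ → R} (hl : ‖lam‖ < 1) (i : σ) :
    coeff (single i 1) (translated gam F lam) =
      evK (pderiv K i F) lam * evK (unitU gam i) lam := by
  rw [translated, coeff_partialEv, ← evK_mul _ _ hl, ← zeroLeft_pderiv_subst_trans]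
  rw [evK]
  congr 1
  ext m
  rw [coeff_slice, coeff_map, coeff_map, coeff_zeroLeft_pderiv]

lemma evK_unitU_ne {lam : σ → R} (hl : ‖lam‖ < 1) (i : σ) : evK (unitU gam i) lam ≠ 0 := by
  intro h0
  have hO : Ord 1 (unitU gam i - 1) := by
    rw [ord_one_iff, map_sub, constantCoeff_unitU]
    simp
  have h1 := norm_evK_ord_one_le (R := R) hO hl
  rw [evK_sub _ _ hl, h0, evK_one, zero_sub, norm_neg, norm_one] at h1
  exact absurd (h1.trans_lt hl) (lt_irrefl _)

/-! ### Dominance -/

lemma norm_pow_sub_pow_le {a b : R} {ρ : ℝ} (ha : ‖a‖ ≤ ρ) (hb : ‖b‖ ≤ ρ) (k : ℕ) :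
    ‖a ^ (k + 1) - b ^ (k + 1)‖ ≤ ‖a - b‖ * ρ ^ k := by
  have hρ : 0 ≤ ρ := (norm_nonneg _).trans ha
  induction k with
  | zero => simp
  | succ k ih =>
    have e : a ^ (k + 1 + 1) - b ^ (k + 1 + 1) = a * (a ^ (k + 1) - b ^ (k + 1)) + (a - b) * b ^ (k + 1) := by
      ring
    rw [e]
    refine (IsUltrametricDist.norm_add_le_max _ _).trans (max_le ?_ ?_)
    · rw [norm_mul, pow_succ' ρ]
      calc ‖a‖ * ‖a ^ (k + 1) - b ^ (k + 1)‖ ≤ ρ * (‖a - b‖ * ρ ^ k) := by
            gcongr
        _ = ‖a - b‖ * (ρ * ρ ^ k) := by ring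
    · rw [norm_mul, norm_pow]
      gcongr

/-- Lipschitz bound for monomials. -/
lemma norm_mono_sub_le {z w : σ → R} {ρ : ℝ} (hz : ‖z‖ ≤ ρ) (hw : ‖w‖ ≤ ρ) (m : σ →₀ ℕ)
    (hm : m ≠ 0) : ∃ d, degree m = d + 1 ∧ ‖mono z m - mono w m‖ ≤ ‖z - w‖ * ρ ^ d := by
  classical
  have hρ : 0 ≤ ρ := (norm_nonneg _).trans hz
  induction m using Finsupp.induction_linear with
  | zero => exact absurd rfl hm
  | add f g hf hg =>
    by_cases hf0 : f = 0
    · subst hf0
      simpa using hg (by simpa using hm)
    by_cases hg0 : g = 0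
    · subst hg0
      simpa using hf (by simpa using hm)
    obtain ⟨d1, hd1, h1⟩ := hf hf0
    obtain ⟨d2, hd2, h2⟩ := hg hg0
    refine ⟨d1 + d2 + 1, by rw [map_add, hd1, hd2]; ring, ?_⟩
    rw [mono_add, mono_add]
    have e : mono z f * mono z g - mono w f * mono w g =
        mono z f * (mono z g - mono w g) + (mono z f - mono w f) * mono w g := by ring
    rw [e]
    refine (IsUltrametricDist.norm_add_le_max _ _).trans (max_le ?_ ?_)
    · rw [norm_mul]
      calc ‖mono z f‖ * ‖mono z g - mono w g‖ ≤ ρ ^ (d1 + 1) * (‖z - w‖ * ρ ^ d2) := by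
            gcongr
            · rw [← hd1]
              exact (norm_mono_le z f).trans (pow_le_pow_left₀ (norm_nonneg _) hz _)
        _ = ‖z - w‖ * ρ ^ (d1 + d2 + 1) := by ring
    · rw [norm_mul]
      calc ‖mono z f - mono w f‖ * ‖mono w g‖ ≤ (‖z - w‖ * ρ ^ d1) * ρ ^ (d2 + 1) := by
            gcongr
            · rw [← hd2]
              exact (norm_mono_le w g).trans (pow_le_pow_left₀ (norm_nonneg _) hw _)
        _ = ‖z - w‖ * ρ ^ (d1 + d2 + 1) := by ring
  | single i k =>
    rcases k with _ | k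
    · simp at hm
    · refine ⟨k, by simp, ?_⟩
      rw [mono_single, mono_single]
      refine (norm_pow_sub_pow_le ((norm_le_pi_norm z i).trans hz)
        ((norm_le_pi_norm w i).trans hw) k).trans ?_
      gcongr
      exact norm_le_pi_norm (z - w) i

lemma norm_algebraMap_eq_one {c : K} (hc : c ≠ 0) : ‖algebraMap K R c‖ = 1 := by
  have h1 : (algebraMap K R c) ^ Fintype.card K = algebraMap K R c := by
    rw [← map_pow, FiniteField.pow_card]
  have h2 : algebraMap K R c ≠ 0 := by simpa using hc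
  have h3 : ‖algebraMap K R c‖ ^ Fintype.card K = ‖algebraMap K R c‖ := by
    rw [← norm_pow, h1]
  have hq : 1 < Fintype.card K := Fintype.one_lt_card
  have h4 : ‖algebraMap K R c‖ ≠ 0 := by simpa using h2
  have h5 : ‖algebraMap K R c‖ ^ (Fintype.card K - 1) = 1 := by
    have : ‖algebraMap K R c‖ ^ (Fintype.card K - 1) * ‖algebraMap K R c‖ = 1 * ‖algebraMap K R c‖ := by
      rw [← pow_succ, Nat.sub_add_cancel hq.le, h3, one_mul]
    exact mul_right_cancel₀ h4 this
  exact (pow_eq_one_iff_of_nonneg (norm_nonneg _) (by omega)).mp h5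

/-- **Dominance.** A series over `K` with nonzero coefficient at `X_{i0}` separates points of the
open polydisc differing only in the coordinate `i0`. -/
theorem eq_of_evK_eq (f : MvPowerSeries σ K) (i0 : σ) (hc : coeff (single i0 1) f ≠ 0)
    {z w : σ → R} (hz : ‖z‖ < 1) (hw : ‖w‖ < 1) (hne : ∀ b, b ≠ i0 → z b = w b)
    (h : evK f z = evK f w) : z i0 = w i0 := by
  classical
  set c := coeff (single i0 1) f with hc_def
  set ρ := max ‖z‖ ‖w‖ with hρ
  have hρ1 : ρ < 1 := max_lt hz hw
  have hρ0 : 0 ≤ ρ := le_max_of_le_left (norm_nonneg _)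
  set δ := z i0 - w i0 with hδ
  have hzw : ‖z - w‖ ≤ ‖δ‖ := by
    refine (pi_norm_le_iff_of_nonneg (norm_nonneg _)).mpr fun b => ?_
    by_cases hb : b = i0
    · subst hb
      exact le_rfl
    · simp [hne b hb]
  set h' : MvPowerSeries σ K := f - C c * X i0 with hh'
  have hfh : f = h' + C c * X i0 := by rw [hh']; ring
  have hh0 : coeff (single i0 1) h' = 0 := by
    rw [hh', map_sub, coeff_C_mul, coeff_X, if_pos rfl, mul_one, sub_self]
  have ev_f : ∀ x : σ → R, ‖x‖ < 1 → evK f x = evK h' x + algebraMap K R c * x i0 := by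
    intro x hx
    conv_lhs => rw [hfh]
    rw [evK_add _ _ hx, evK_mul _ _ hx, evK_C, evK_X]
  have h1 : algebraMap K R c * δ = evK h' w - evK h' z := by
    have := ev_f z hz
    have h2 := ev_f w hw
    rw [h] at this
    rw [hδ, mul_sub]
    linear_combination h2 - this
  -- the remainder
  have hbound : ‖evK h' z - evK h' w‖ ≤ ‖δ‖ * ρ := by
    have hsz := summable_ev (intS_map (R := R) h') hz
    have hsw := summable_ev (intS_map (R := R) h') hw
    have : evK h' z - evK h' w = ∑' m, (coeff m (MvPowerSeries.map (algebraMap K R) h') * mono z m -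
        coeff m (MvPowerSeries.map (algebraMap K R) h') * mono w m) := by
      rw [hsz.tsum_sub hsw]
      rfl
    rw [this]
    refine norm_tsum_le_bound (by positivity) fun m => ?_
    rw [← mul_sub, norm_mul]
    have hcm : ‖coeff m (MvPowerSeries.map (algebraMap K R) h')‖ ≤ 1 := intS_map h' m
    by_cases hm0 : m = 0
    · subst hm0
      simp
      positivity
    obtain ⟨d, hd, hdiff⟩ := norm_mono_sub_le (le_max_left ‖z‖ ‖w‖) (le_max_right ‖z‖ ‖w‖) m hm0
    rcases d with _ | d
    · -- degree one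
      have hm1 : ∃ b, m = single b 1 := by
        have h2 : ∃ j, m j ≠ 0 := by
          by_contra hc
          push Not at hc
          exact hm0 (Finsupp.ext hc)
        obtain ⟨j, hj⟩ := h2
        refine ⟨j, ?_⟩
        have hsum : ∑ i ∈ m.support, m i = 1 := hd
        have hjs : j ∈ m.support := by simpa using hj
        ext i
        by_cases hij : j = i
        · subst hij
          have := Finset.single_le_sum (f := fun i => m i) (fun i _ => Nat.zero_le _) hjs
          simp only [hsum] at this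
          simp only [single_eq_same]
          omega
        · rw [single_eq_of_ne (by tauto)]
          by_contra hei
          have his : i ∈ m.support := by simpa using hei
          have := Finset.add_le_sum (f := fun i => m i) (fun i _ => Nat.zero_le _) hjs his hij
          simp only [hsum] at this
          omega
      obtain ⟨b, rfl⟩ := hm1
      by_cases hb : b = i0
      · subst hb
        rw [coeff_map, hh0, map_zero, norm_zero, zero_mul]
        positivity
      · rw [mono_single, mono_single, pow_one, pow_one, hne b hb, sub_self, norm_zero, mul_zero]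
        positivity
    · calc ‖coeff m (MvPowerSeries.map (algebraMap K R) h')‖ * ‖mono z m - mono w m‖
          ≤ 1 * (‖z - w‖ * ρ ^ (d + 1)) := by gcongr
        _ ≤ 1 * (‖δ‖ * ρ) := by
            gcongr
            rw [pow_succ]
            exact mul_le_of_le_one_left hρ0 (pow_le_one₀ hρ0 hρ1.le)
        _ = ‖δ‖ * ρ := one_mul _
  have hnc : ‖algebraMap K R c‖ = 1 := norm_algebraMap_eq_one hc
  have h3 : ‖δ‖ ≤ ‖δ‖ * ρ := by
    have h4 : ‖algebraMap K R c * δ‖ = ‖δ‖ := by rw [norm_mul, hnc, one_mul]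
    calc ‖δ‖ = ‖algebraMap K R c * δ‖ := h4.symm
      _ = ‖evK h' w - evK h' z‖ := by rw [h1]
      _ = ‖evK h' z - evK h' w‖ := norm_sub_rev _ _
      _ ≤ _ := hbound
  have h5 : ‖δ‖ = 0 := by
    by_contra hne0
    have hpos : 0 < ‖δ‖ := lt_of_le_of_ne (norm_nonneg _) (Ne.symm hne0)
    have : ‖δ‖ * ρ < ‖δ‖ * 1 := mul_lt_mul_of_pos_left hρ1 hpos
    rw [mul_one] at this
    exact absurd (h3.trans_lt this) (lt_irrefl _)
  exact sub_eq_zero.mp (norm_eq_zero.mp h5)

end Crest.Agent.Lib.LT.Closure
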