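import Mathlib
import Crest.Agent.Lib.LT.ClosurePts
import Crest.Agent.Lib.LT.Cartier

/-!
# (2g) of S0351: closure.  A nonzero series vanishing on a group of points of `Γ'(m_R)^σ`
produces a `Hom`-relation between the coordinates.
-/

set_option autoImplicit false

namespace Crest.Agent.Lib.LT.Closure

open MvPowerSeries Finsupp
open Crest.Agent.Lib.LT.FormalIFT (Ord hasSubst_of_ord subst_ord ord_one_iff aG aG_self aG_ne aG_ord)
open Crest.Agent.Lib.LT.EvalS

universe u v w

variable {R : Type v} [NormedField R] [IsUltrametricDist R] [CompleteSpace R]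
variable {K : Type w} [Field K] [Fintype K] [Algebra K R]
variable {L : Type*} [Add L] [Zero L]
variable (gam : FormalGroup K)

/-- A group of points: `l : L → (m_R)^σ` is a homomorphism for `Γ`. -/
structure IsSys (pm : L → L) (Q : ℕ) {σ : Type u} [Fintype σ] (l : L → σ → R) : Prop where
  lt : ∀ π, ‖l π‖ < 1
  add : ∀ π π' i, l (π + π') i = padd gam (l π i) (l π' i)
  zero : l 0 = 0
  frob : ∀ π i, l (pm π) i = l π i ^ Q

variable (K)

/-- There is a nonzero series over `K` vanishing on all the points. -/
def NonDense {σ : Type u} [Fintype σ] (l : L → σ → R) : Prop :=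
  ∃ F : MvPowerSeries σ K, F ≠ 0 ∧ ∀ π, evK F (l π) = 0

/-- The conclusion of (2f) for bounded series. -/
def HasDescent {σ : Type u} [Fintype σ] (l : L → σ → R) : Prop :=
  ∀ G : MvPowerSeries σ R, IntS G → (∀ π, ev G (l π) = 0) → ∀ m, coeff m G ≠ 0 →
    ∃ F : MvPowerSeries σ K, (∃ m', degree m' ≤ degree m ∧ coeff m' F ≠ 0) ∧ ∀ π, evK F (l π) = 0

variable {K}

section Steps

variable {σ : Type u} [Fintype σ] [DecidableEq σ] {l : L → σ → R} {gam} {pm : L → L} {Q : ℕ}

lemma algebraMap_ne_zero' {c : K} (hc : c ≠ 0) : algebraMap K R c ≠ 0 := by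
  simpa using hc

/-- (Cartier) Some vanishing series has a derivative not vanishing at some point. -/
theorem step_cartier (p : ℕ) [Fact p.Prime] [CharP K p] (hl : IsSys gam pm Q l)
    (hN : NonDense K l) :
    ∃ F : MvPowerSeries σ K, (∀ π, evK F (l π) = 0) ∧
      ∃ i π0, evK (pderiv K i F) (l π0) ≠ 0 := by
  classical
  by_contra hcon
  push Not at hcon
  let c : Ideal (MvPowerSeries σ K) :=
    { carrier := {F | ∀ π, evK F (l π) = 0}
      add_mem' := by
        intro a b ha hb π
        rw [evK_add _ _ (hl.lt π), ha π, hb π, add_zero]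
      zero_mem' := fun π => evK_zero _
      smul_mem' := by
        intro a b hb π
        rw [smul_eq_mul, evK_mul _ _ (hl.lt π), hb π, mul_zero] }
  have hperf : PerfectRing K p := inferInstance
  have hbot := Cartier.eq_bot_of_stable p c
    (fun F hF i π => hcon F hF i π)
    (fun E hE π => by
      have := hE π
      rw [evK_pow _ (hl.lt π)] at this
      exact pow_eq_zero_iff (Fact.out : p.Prime).ne_zero |>.mp this)
    (fun F hF => by
      have := hF 0
      rw [hl.zero, evK_zero_point] at this
      exact (_root_.map_eq_zero _).mp this)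
  obtain ⟨F, hF0, hF⟩ := hN
  have : F ∈ c := hF
  rw [hbot] at this
  exact hF0 (by simpa using this)

/-- A vanishing series with a nonzero linear coefficient. -/
theorem step_linear (p : ℕ) [Fact p.Prime] [CharP K p] (hl : IsSys gam pm Q l)
    (hD : HasDescent K l) (hN : NonDense K l) :
    ∃ F1 : MvPowerSeries σ K, (∀ π, evK F1 (l π) = 0) ∧ constantCoeff F1 = 0 ∧
      ∃ i0, coeff (single i0 1) F1 ≠ 0 := by
  classical
  obtain ⟨F, hF, i, π0, hne⟩ := step_cartier p hl hN
  set lam := l π0 with hlam
  have hlam1 : ‖lam‖ < 1 := hl.lt π0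
  have hG : IntS (translated gam F lam) := intS_translated gam F hlam1
  have hv : ∀ π, ev (translated gam F lam) (l π) = 0 := by
    intro π
    rw [ev_translated gam F (hl.lt π) hlam1]
    have : (fun j => padd gam (lam j) (l π j)) = l (π0 + π) := by
      funext j
      rw [hl.add]
    rw [this]
    exact hF _
  have hc : coeff (single i 1) (translated gam F lam) ≠ 0 := by
    rw [coeff_translated gam F hlam1]
    exact mul_ne_zero hne (evK_unitU_ne gam hlam1 i)
  obtain ⟨F1, ⟨m', hm', hm'c⟩, hF1⟩ := hD _ hG hv _ hc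
  have hconst : constantCoeff F1 = 0 := by
    have := hF1 0
    rw [hl.zero, evK_zero_point] at this
    exact (_root_.map_eq_zero _).mp this
  refine ⟨F1, hF1, hconst, ?_⟩
  have hm0 : m' ≠ 0 := by
    rintro rfl
    apply hm'c
    simpa using hconst
  have hdeg : degree m' = 1 := by
    have h1 : degree m' ≤ 1 := by simpa using hm'
    have h2 : degree m' ≠ 0 := fun h => hm0 ((degree_eq_zero_iff m').mp h)
    omega
  obtain ⟨i0, rfl⟩ := exists_single_of_degree_one hdeg
  exact ⟨i0, hm'c⟩
where
  exists_single_of_degree_one {σ' : Type u} {m : σ' →₀ ℕ} (hd : degree m = 1) :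
      ∃ b, m = single b 1 := by
    classical
    have hm0 : m ≠ 0 := by
      rintro rfl
      simp at hd
    have h2 : ∃ j, m j ≠ 0 := by
      by_contra hc
      push Not at hc
      exact hm0 (Finsupp.ext hc)
    obtain ⟨j, hj⟩ := h2
    refine ⟨j, ?_⟩
    have hsum : ∑ i ∈ m.support, m i = 1 := hd
    have hjs : j ∈ m.support := by simpa using hj
    ext i
    by_cases hij : j = i
    · subst hij
      have := Finset.single_le_sum (f := fun i => m i) (fun i _ => Nat.zero_le _) hjs
      simp only [hsum] at this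
      simp only [single_eq_same]
      omega
    · rw [single_eq_of_ne (by tauto)]
      by_contra hei
      have his : i ∈ m.support := by simpa using hei
      have := Finset.add_le_sum (f := fun i => m i) (fun i _ => Nat.zero_le _) hjs his hij
      simp only [hsum] at this
      omega

/-- The restriction of a system to the coordinates `≠ i0`. -/
def restr (l : L → σ → R) (i0 : σ) : L → {b : σ // b ≠ i0} → R := fun π b => l π b

lemma norm_restr_le (l : L → σ → R) (i0 : σ) (π : L) : ‖restr l i0 π‖ ≤ ‖l π‖ := by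
  refine (pi_norm_le_iff_of_nonneg (norm_nonneg _)).mpr fun b => ?_
  exact norm_le_pi_norm (l π) b

lemma IsSys.restr (hl : IsSys gam pm Q l) (i0 : σ) : IsSys gam pm Q (restr l i0) where
  lt π := (norm_restr_le l i0 π).trans_lt (hl.lt π)
  add π π' i := hl.add π π' i
  zero := by
    funext b
    simp [Closure.restr, hl.zero]
  frob π i := hl.frob π i

/-- (Implicit function) The coordinate `i0` is a series in the others. -/
theorem step_implicit (hl : IsSys gam pm Q l) {F1 : MvPowerSeries σ K} (hF1 : ∀ π, evK F1 (l π) = 0)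
    (hconst : constantCoeff F1 = 0) {i0 : σ} (hi0 : coeff (single i0 1) F1 ≠ 0) :
    ∃ g : MvPowerSeries {b : σ // b ≠ i0} K, Ord 1 g ∧ ∀ π, l π i0 = evK g (restr l i0 π) := by
  obtain ⟨g, hg0, hg⟩ := FormalIFT.exists_implicit i0 F1 hconst hi0
  have hg1 : Ord 1 g := ord_one_iff.mpr hg0
  refine ⟨g, hg1, fun π => ?_⟩
  have hr : ‖restr l i0 π‖ < 1 := (hl.restr i0).lt π
  set w : σ → R := fun i => evK (aG i0 g i) (restr l i0 π) with hw
  have hw1 : ‖w‖ < 1 := by
    rw [pi_norm_lt_iff zero_lt_one]
    intro i
    exact norm_evK_lt_one_of_ord (aG_ord i0 hg1 i) hr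
  have h0 : evK F1 w = 0 := by
    have := evK_subst (R := R) (aG_ord i0 hg1) F1 hr
    rw [hg, evK_zero] at this
    exact this.symm
  have hi : w i0 = evK g (restr l i0 π) := by
    simp only [hw, aG_self]
  have hb : ∀ b, b ≠ i0 → l π b = w b := by
    intro b hb
    have : aG i0 g b = X ⟨b, hb⟩ := aG_ne i0 g ⟨b, hb⟩
    simp only [hw, this, evK_X]
    rfl
  have := eq_of_evK_eq F1 i0 hi0 (hl.lt π) hw1 hb ((hF1 π).trans h0.symm)
  rw [this, hi]

end Steps

section Additive

variable {τ : Type u} [Fintype τ] [DecidableEq τ] {l : L → τ → R} {gam} {pm : L → L} {Q : ℕ}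

/-- `g(X +_Γ μ)`. -/
noncomputable def addA (gam : FormalGroup K) (g : MvPowerSeries τ K) : MvPowerSeries (τ ⊕ τ) K :=
  g.subst (trans gam)

/-- `Γ(g(X), g(μ))`. -/
noncomputable def addB (gam : FormalGroup K) (g : MvPowerSeries τ K) : MvPowerSeries (τ ⊕ τ) K :=
  gam.toPowerSeries.subst ![g.subst (fun c => (X (Sum.inr c) : MvPowerSeries (τ ⊕ τ) K)),
    g.subst (fun c => (X (Sum.inl c) : MvPowerSeries (τ ⊕ τ) K))]

omit [Fintype K] [DecidableEq τ] [Fintype τ] in
lemma ord_X_comp (u : τ → τ ⊕ τ) (c : τ) : Ord 1 ((X (u c) : MvPowerSeries (τ ⊕ τ) K)) :=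
  ord_one_iff.mpr (by simp)

lemma evK_addA (gam : FormalGroup K) (g : MvPowerSeries τ K) {μ lam : τ → R} (hμ : ‖μ‖ < 1)
    (hl : ‖lam‖ < 1) :
    evK (addA gam g) (Sum.elim μ lam) = evK g (fun b => padd gam (lam b) (μ b)) := by
  rw [addA, evK_subst (ord_trans gam) g (norm_elim_lt hμ hl)]
  congr 1
  funext b
  exact evK_trans gam hμ hl b

lemma evK_subst_inr (g : MvPowerSeries τ K) {μ lam : τ → R} (hμ : ‖μ‖ < 1) (hl : ‖lam‖ < 1) :
    evK (g.subst (fun c => (X (Sum.inr c) : MvPowerSeries (τ ⊕ τ) K))) (Sum.elim μ lam) =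
      evK g lam := by
  rw [evK_subst (ord_X_comp _) g (norm_elim_lt hμ hl)]
  congr 1
  funext b
  rw [evK_X]
  rfl

lemma evK_subst_inl (g : MvPowerSeries τ K) {μ lam : τ → R} (hμ : ‖μ‖ < 1) (hl : ‖lam‖ < 1) :
    evK (g.subst (fun c => (X (Sum.inl c) : MvPowerSeries (τ ⊕ τ) K))) (Sum.elim μ lam) =
      evK g μ := by
  rw [evK_subst (ord_X_comp _) g (norm_elim_lt hμ hl)]
  congr 1
  funext b
  rw [evK_X]
  rfl

lemma evK_addB (gam : FormalGroup K) {g : MvPowerSeries τ K} (hg : Ord 1 g) {μ lam : τ → R}
    (hμ : ‖μ‖ < 1) (hl : ‖lam‖ < 1) :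
    evK (addB gam g) (Sum.elim μ lam) = padd gam (evK g lam) (evK g μ) := by
  rw [addB, evK_fadd gam (subst_ord (ord_X_comp _) hg) (subst_ord (ord_X_comp _) hg)
    (norm_elim_lt hμ hl), evK_subst_inr g hμ hl, evK_subst_inl g hμ hl]

/-- The coefficient series in the second block, over `K`. -/
noncomputable def sliceK (D : MvPowerSeries (τ ⊕ τ) K) (a : τ →₀ ℕ) : MvPowerSeries τ K :=
  fun m => coeff (sumElim a m) D

/-- Density and descent force `g` to be additive. -/
theorem add_eq (hl : IsSys gam pm Q l) (hD : HasDescent K l) (hdense : ¬ NonDense K l)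
    {g : MvPowerSeries τ K} (hg : Ord 1 g) {f : L → R}
    (hf : ∀ π π', f (π + π') = padd gam (f π) (f π')) (hfg : ∀ π, f π = evK g (l π)) :
    addA gam g = addB gam g := by
  classical
  by_contra hne
  set D := addA gam g - addB gam g with hD_def
  have hD0 : ∀ π π', evK D (Sum.elim (l π) (l π')) = 0 := by
    intro π π'
    rw [hD_def, evK_sub _ _ (norm_elim_lt (hl.lt π) (hl.lt π')), evK_addA gam g (hl.lt π) (hl.lt π'),
      evK_addB gam hg (hl.lt π) (hl.lt π'), ← hfg, ← hfg, ← hf]
    have : (fun b => padd gam (l π' b) (l π b)) = l (π' + π) := by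
      funext b
      rw [hl.add]
    rw [this, ← hfg, sub_self]
  have hDne : D ≠ 0 := by
    intro h
    exact hne (sub_eq_zero.mp h)
  obtain ⟨n, hn⟩ : ∃ n, coeff n D ≠ 0 := by
    by_contra hc
    push Not at hc
    exact hDne (by ext n; simpa using hc n)
  let e : (τ ⊕ τ →₀ ℕ) ≃ (τ →₀ ℕ) × (τ →₀ ℕ) := Finsupp.sumFinsuppEquivProdFinsupp
  have he : ∀ q : (τ →₀ ℕ) × (τ →₀ ℕ), e.symm q = sumElim q.1 q.2 := by
    intro q
    ext (i | i) <;> simp [e, Finsupp.sumFinsuppEquivProdFinsupp]
  set a := (e n).1 with ha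
  set m := (e n).2 with hm
  have hn' : coeff (sumElim a m) D ≠ 0 := by
    have : sumElim a m = n := by
      rw [← he (e n), Equiv.symm_apply_apply]
    rwa [this]
  have hsl : sliceK D a ≠ 0 := by
    intro h
    apply hn'
    have h2 : coeff m (sliceK D a) = 0 := by
      rw [h]
      simp
    exact h2
  obtain ⟨π', hπ'⟩ : ∃ π', evK (sliceK D a) (l π') ≠ 0 := by
    by_contra hc
    push Not at hc
    exact hdense ⟨_, hsl, hc⟩
  have hW : IntS (partialEv (MvPowerSeries.map (algebraMap K R) D) (l π')) :=
    (intS_map D).partialEv (hl.lt π')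
  have hWv : ∀ π, ev (partialEv (MvPowerSeries.map (algebraMap K R) D) (l π')) (l π) = 0 := by
    intro π
    rw [ev_partialEv (intS_map D) (hl.lt π) (hl.lt π')]
    exact hD0 π π'
  have hWc : coeff a (partialEv (MvPowerSeries.map (algebraMap K R) D) (l π')) ≠ 0 := by
    rw [coeff_partialEv]
    have : slice (MvPowerSeries.map (algebraMap K R) D) a =
        MvPowerSeries.map (algebraMap K R) (sliceK D a) := by
      ext m'
      rw [coeff_slice, coeff_map, coeff_map]
      rfl
    rw [this]
    exact hπ'
  obtain ⟨F, ⟨m', _, hm'c⟩, hF⟩ := hD _ hW hWv a hWc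
  refine hdense ⟨F, ?_, hF⟩
  intro h0
  rw [h0] at hm'c
  simp at hm'c

omit [Fintype τ] in
/-- `g` restricted to the axis `b`. -/
noncomputable def gb (g : MvPowerSeries τ K) (b : τ) : PowerSeries K :=
  MvPowerSeries.subst (fun c => if c = b then (X () : MvPowerSeries Unit K) else 0) g

/-- Evaluation of a series in one variable. -/
noncomputable def evK1 (f : PowerSeries K) (x : R) : R :=
  evK (σ := Unit) f (fun _ => x)

lemma norm_const_lt {x : R} (hx : ‖x‖ < 1) : ‖(fun _ : Unit => x)‖ < 1 := by
  rw [pi_norm_lt_iff zero_lt_one]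
  intro _
  exact hx

omit [Fintype τ] in
lemma ord_axis (b c : τ) :
    Ord 1 (if c = b then (X () : MvPowerSeries Unit K) else 0) := by
  split_ifs
  · exact ord_one_iff.mpr (by simp)
  · exact FormalIFT.Ord.zero 1

lemma evK1_gb (g : MvPowerSeries τ K) (b : τ) {x : R} (hx : ‖x‖ < 1) :
    evK1 (gb g b) x = evK g (fun c => if c = b then x else 0) := by
  rw [evK1, gb, evK_subst (ord_axis b) g (norm_const_lt hx)]
  congr 1
  funext c
  split_ifs
  · exact evK_X _ _
  · exact evK_zero _

lemma ord_gb {g : MvPowerSeries τ K} (hg : Ord 1 g) (b : τ) : Ord 1 (gb g b : MvPowerSeries Unit K) :=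
  subst_ord (ord_axis b) hg

lemma subst_law_two (gam : FormalGroup K) {x y : MvPowerSeries (Fin 2) K}
    (h : (![x, y] : Fin 2 → MvPowerSeries (Fin 2) K) = X) : gam.toPowerSeries.subst ![x, y] = gam.toPowerSeries := by
  rw [h]
  exact congrFun subst_self _

/-- Additive `g` gives homs on the axes. -/
theorem hom_gb (gam : FormalGroup K) {g : MvPowerSeries τ K} (hg : Ord 1 g)
    (hadd : addA gam g = addB gam g) (b : τ) :
    Crest.LubinTate.IsFGHom gam gam (gb g b) := by
  classical
  refine ⟨ord_one_iff.mp (ord_gb hg b), ?_⟩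
  -- the substitution
  let s : τ ⊕ τ → MvPowerSeries (Fin 2) K :=
    Sum.elim (fun c => if c = b then X 1 else 0) (fun c => if c = b then X 0 else 0)
  have hsO : ∀ u, Ord 1 (s u) := by
    rintro (c | c)
    · show Ord 1 (if c = b then (X 1 : MvPowerSeries (Fin 2) K) else 0)
      split_ifs
      · exact ord_one_iff.mpr (by simp)
      · exact FormalIFT.Ord.zero 1
    · show Ord 1 (if c = b then (X 0 : MvPowerSeries (Fin 2) K) else 0)
      split_ifs
      · exact ord_one_iff.mpr (by simp)
      · exact FormalIFT.Ord.zero 1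
  have hs : HasSubst s := hasSubst_of_ord hsO
  have he : HasSubst (fun c => if c = b then (X () : MvPowerSeries Unit K) else 0) :=
    hasSubst_of_ord (ord_axis b)
  have hgam : HasSubst (fun _ : Unit => gam.toPowerSeries) :=
    hasSubst_of_ord fun _ => ord_one_law gam
  have hz0 : ∀ {ρ : Type _} (A : MvPowerSeries Unit K) (w : Unit → MvPowerSeries ρ K) (_ : HasSubst w)
      (_ : A = 0), MvPowerSeries.subst w A = 0 := by
    intro ρ A w _ hA
    subst hA
    have := subst_C (a := w) (S := K) (0 : K)
    simpa using this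
  -- left side
  have hL : PowerSeries.subst gam.toPowerSeries (gb g b) = (addA gam g).subst s := by
    show MvPowerSeries.subst (fun _ : Unit => gam.toPowerSeries) (gb g b) = _
    rw [gb, subst_comp_subst_apply he hgam, addA, subst_comp_subst_apply
      (hasSubst_of_ord (ord_trans gam)) hs]
    congr 1
    funext c
    rw [trans, subst_comp_subst_apply (hasSubst_of_ord (ord_X_pair _ _)) hs]
    by_cases hc : c = b
    · subst hc
      simp only [if_true]
      rw [subst_X hgam]
      have hfun : (fun k : Fin 2 => subst s ((![X (Sum.inr c), X (Sum.inl c)] :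
          Fin 2 → MvPowerSeries (τ ⊕ τ) K) k)) = X := by
        funext k
        fin_cases k
        · simp only [Fin.zero_eta, Matrix.cons_val_zero]
          rw [subst_X hs]
          simp [s]
        · simp only [Fin.mk_one, Matrix.cons_val_one, Matrix.cons_val_zero]
          rw [subst_X hs]
          simp [s]
      rw [hfun]
      exact (congrFun subst_self _).symm
    · simp only [if_neg hc]
      rw [hz0 _ _ hgam rfl]
      have hfun : (fun k : Fin 2 => subst s ((![X (Sum.inr c), X (Sum.inl c)] :
          Fin 2 → MvPowerSeries (τ ⊕ τ) K) k)) = fun _ => 0 := by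
        funext k
        fin_cases k
        · simp only [Fin.zero_eta, Matrix.cons_val_zero]
          rw [subst_X hs]
          simp [s, hc]
        · simp only [Fin.mk_one, Matrix.cons_val_one, Matrix.cons_val_zero]
          rw [subst_X hs]
          simp [s, hc]
      rw [hfun]
      exact (subst_zero_of_constantCoeff_zero gam.zero_constantCoeff).symm
  -- right side
  have hR0 : ∀ v : Fin 2, PowerSeries.subst (X v : MvPowerSeries (Fin 2) K) (gb g b) =
      g.subst (fun c => if c = b then X v else 0) := by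
    intro v
    show MvPowerSeries.subst (fun _ : Unit => (X v : MvPowerSeries (Fin 2) K)) (gb g b) = _
    have hv : HasSubst (fun _ : Unit => (X v : MvPowerSeries (Fin 2) K)) :=
      hasSubst_of_ord fun _ => ord_one_iff.mpr (by simp)
    rw [gb, subst_comp_subst_apply he hv]
    congr 1
    funext c
    by_cases hc : c = b
    · simp only [if_pos hc]
      rw [subst_X hv]
    · simp only [if_neg hc]
      exact hz0 _ _ hv rfl
  have hR : (addB gam g).subst s = gam.toPowerSeries.subst
      ![PowerSeries.subst (X 0 : MvPowerSeries (Fin 2) K) (gb g b),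
        PowerSeries.subst (X 1 : MvPowerSeries (Fin 2) K) (gb g b)] := by
    have hp : HasSubst (![g.subst (fun c => (X (Sum.inr c) : MvPowerSeries (τ ⊕ τ) K)),
        g.subst (fun c => (X (Sum.inl c) : MvPowerSeries (τ ⊕ τ) K))] : Fin 2 → _) := by
      refine hasSubst_of_ord fun k => ?_
      fin_cases k
      · exact subst_ord (ord_X_comp _) hg
      · exact subst_ord (ord_X_comp _) hg
    rw [addB, subst_comp_subst_apply hp hs, hR0, hR0]
    congr 1
    funext k
    have hsX : ∀ u : τ ⊕ τ, subst s (X u : MvPowerSeries (τ ⊕ τ) K) = s u := fun u => subst_X hs u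
    fin_cases k
    · simp only [Fin.zero_eta, Matrix.cons_val_zero]
      rw [subst_comp_subst_apply (hasSubst_of_ord (ord_X_comp _)) hs]
      congr 1
      funext c
      rw [hsX]
      rfl
    · simp only [Fin.mk_one, Matrix.cons_val_one, Matrix.cons_val_zero]
      rw [subst_comp_subst_apply (hasSubst_of_ord (ord_X_comp _)) hs]
      congr 1
      funext c
      rw [hsX]
      rfl
  rw [hL, hadd, hR]

end Additive

section Final

lemma isFGHom_zero (gam : FormalGroup K) : Crest.LubinTate.IsFGHom gam gam (0 : PowerSeries K) := by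
  refine ⟨by simp, ?_⟩
  have hz : ∀ {ρ : Type _} (a : MvPowerSeries ρ K) (ha : PowerSeries.HasSubst a),
      PowerSeries.subst a (0 : PowerSeries K) = 0 := by
    intro ρ a ha
    have := subst_C (a := fun _ : Unit => a) (S := K) (0 : K)
    simpa [PowerSeries.subst] using this
  have hgam : PowerSeries.HasSubst gam.toPowerSeries :=
    PowerSeries.HasSubst.of_constantCoeff_zero gam.zero_constantCoeff
  have h0 : PowerSeries.HasSubst (X 0 : MvPowerSeries (Fin 2) K) :=
    PowerSeries.HasSubst.of_constantCoeff_zero (by simp)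
  have h1 : PowerSeries.HasSubst (X 1 : MvPowerSeries (Fin 2) K) :=
    PowerSeries.HasSubst.of_constantCoeff_zero (by simp)
  rw [hz _ hgam, hz _ h0, hz _ h1]
  have : (![0, 0] : Fin 2 → MvPowerSeries (Fin 2) K) = fun _ => 0 := by
    funext k
    fin_cases k <;> rfl
  rw [this]
  exact (subst_zero_of_constantCoeff_zero gam.zero_constantCoeff).symm

variable {τ : Type u} [Fintype τ] [DecidableEq τ] {gam}

lemma evK_padd_of_add {g : MvPowerSeries τ K} (hg : Ord 1 g) (hadd : addA gam g = addB gam g)
    {μ lam : τ → R} (hμ : ‖μ‖ < 1) (hl : ‖lam‖ < 1) :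
    evK g (fun b => padd gam (lam b) (μ b)) = padd gam (evK g lam) (evK g μ) := by
  rw [← evK_addA gam g hμ hl, hadd, evK_addB gam hg hμ hl]

lemma foldr_decomp {g : MvPowerSeries τ K} (hg : Ord 1 g) (hadd : addA gam g = addB gam g)
    {z : τ → R} (hz : ‖z‖ < 1) (S : List τ) (hS : S.Nodup) :
    evK g (fun c => if c ∈ S then z c else 0) =
      S.foldr (fun b acc => padd gam (evK1 (gb g b) (z b)) acc) 0 := by
  have hz' : ∀ c, ‖z c‖ < 1 := fun c => (norm_le_pi_norm z c).trans_lt hz
  induction S with
  | nil =>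
    simp only [List.not_mem_nil, if_false, List.foldr_nil]
    have := evK_zero_point (R := R) g
    have h0 : (fun _ : τ => (0 : R)) = 0 := rfl
    rw [h0, this, ord_one_iff.mp hg, map_zero]
  | cons b S ih =>
    have hb : b ∉ S := (List.nodup_cons.mp hS).1
    have hS' := (List.nodup_cons.mp hS).2
    set x : τ → R := fun c => if c = b then z b else 0 with hx
    set y : τ → R := fun c => if c ∈ S then z c else 0 with hy
    have hx1 : ‖x‖ < 1 := by
      rw [pi_norm_lt_iff zero_lt_one]
      intro c
      simp only [hx]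
      split_ifs
      · exact hz' b
      · simp
    have hy1 : ‖y‖ < 1 := by
      rw [pi_norm_lt_iff zero_lt_one]
      intro c
      simp only [hy]
      split_ifs
      · exact hz' c
      · simp
    have hfun : (fun c => if c ∈ b :: S then z c else 0) = fun c => padd gam (x c) (y c) := by
      funext c
      by_cases hc : c = b
      · subst hc
        simp only [List.mem_cons, true_or, if_true, hx, hy, if_neg hb]
        exact (padd_zero gam (hz' c)).symm
      · simp only [List.mem_cons, hc, false_or, hx, if_false]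
        have hyc : ‖y c‖ < 1 := (norm_le_pi_norm y c).trans_lt hy1
        exact (zero_padd gam hyc).symm
    rw [hfun, evK_padd_of_add hg hadd hy1 hx1, List.foldr_cons, ih hS', evK1_gb g b (hz' b)]

end Final

/-- **(2g)**: the relation. -/
theorem relation (p : ℕ) [Fact p.Prime] [CharP K p] (gam : FormalGroup K) (pm : L → L) (Q : ℕ)
    (hDesc : ∀ {σ' : Type u} [Fintype σ'] [DecidableEq σ'] (l' : L → σ' → R), IsSys gam pm Q l' →
      HasDescent K l') (n : ℕ) :
    ∀ {σ : Type u} [Fintype σ] [DecidableEq σ] (l : L → σ → R), Fintype.card σ = n →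
      IsSys gam pm Q l → NonDense K l →
      ∃ (i0 : σ) (S : List σ) (gg : σ → PowerSeries K), S.Nodup ∧ i0 ∉ S ∧
        (∀ b, Crest.LubinTate.IsFGHom gam gam (gg b)) ∧
        ∀ π, l π i0 = S.foldr (fun b acc => padd gam (evK1 (gg b) (l π b)) acc) 0 := by
  classical
  induction n using Nat.strong_induction_on with
  | _ n ih =>
    intro σ _ _ l hcard hl hN
    by_cases h : ∃ i0, NonDense K (restr l i0)
    · obtain ⟨i0, hi0⟩ := h
      have hlt : Fintype.card {b : σ // b ≠ i0} < n := by
        rw [← hcard]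
        exact Fintype.card_subtype_lt (x := i0) (by simp)
      obtain ⟨i1, S, gg, hS, hi1, hhom, hrel⟩ :=
        ih _ hlt (σ := {b : σ // b ≠ i0}) (restr l i0) rfl (hl.restr i0) hi0
      refine ⟨i1.1, S.map Subtype.val, fun c => if h : c ≠ i0 then gg ⟨c, h⟩ else 0,
        hS.map Subtype.val_injective, ?_, ?_, ?_⟩
      · intro hmem
        obtain ⟨b, hb, hbe⟩ := List.mem_map.mp hmem
        exact hi1 ((Subtype.ext hbe) ▸ hb)
      · intro b
        by_cases hb : b ≠ i0
        · simp only [dif_pos hb]
          exact hhom _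
        · simp only [dif_neg hb]
          exact isFGHom_zero gam
      · intro π
        have := hrel π
        rw [List.foldr_map]
        have e : (fun (b : {b : σ // b ≠ i0}) acc => padd gam (evK1 (gg b) (restr l i0 π b)) acc) =
            (fun (b : {b : σ // b ≠ i0}) acc => padd gam (evK1 (if h : b.1 ≠ i0 then gg ⟨b.1, h⟩ else 0)
              (l π b.1)) acc) := by
          funext b acc
          simp only [dif_pos b.2]
          rfl
        rw [e] at this
        exact this
    · push Not at h
      obtain ⟨F1, hF1, hconst, i0, hi0⟩ := step_linear p hl (hDesc l hl) hN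
      obtain ⟨g, hg, hrel⟩ := step_implicit hl hF1 hconst hi0
      have hr := hl.restr i0
      have hdense : ¬ NonDense K (restr l i0) := h i0
      have hadd : addA gam g = addB gam g :=
        add_eq hr (hDesc _ hr) hdense hg (f := fun π => l π i0) (fun π π' => hl.add π π' i0) hrel
      set Sτ : List {b : σ // b ≠ i0} := (Finset.univ : Finset {b : σ // b ≠ i0}).toList with hSτ
      have hSnd : Sτ.Nodup := Finset.nodup_toList _
      have hSm : ∀ c, c ∈ Sτ := fun c => by simp [hSτ]
      refine ⟨i0, Sτ.map Subtype.val, fun c => if h : c ≠ i0 then gb g ⟨c, h⟩ else 0,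
        hSnd.map Subtype.val_injective, ?_, ?_, ?_⟩
      · intro hmem
        obtain ⟨b, _, hbe⟩ := List.mem_map.mp hmem
        exact b.2 hbe
      · intro b
        by_cases hb : b ≠ i0
        · simp only [dif_pos hb]
          exact hom_gb gam hg hadd _
        · simp only [dif_neg hb]
          exact isFGHom_zero gam
      · intro π
        have h1 := foldr_decomp (gam := gam) hg hadd (hr.lt π) Sτ hSnd
        simp only [hSm, if_true] at h1
        have h1' : evK g (restr l i0 π) = _ := h1
        rw [← hrel π] at h1'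
        rw [h1', List.foldr_map]
        have e : (fun (b : {b : σ // b ≠ i0}) acc => padd gam (evK1 (gb g b) (restr l i0 π b)) acc) =
            (fun (b : {b : σ // b ≠ i0}) acc => padd gam (evK1 (if h : b.1 ≠ i0 then gb g ⟨b.1, h⟩ else 0)
              (l π b.1)) acc) := by
          funext b acc
          simp only [dif_pos b.2]
          rfl
        rw [e]

end Crest.Agent.Lib.LT.Closure
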