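import Mathlib
import Crest.Agent.Lib.LT.EvalS

/-!
# (2f) of S0351: Frobenius descent, ultrafilter limit, exactness (abstract)

`R` complete ultrametric perfect of characteristic `p`, `Q = p ^ k`, `k ≥ 1`, `σ` a finite type.
`L` is a set of parameters with a map `pm` ("multiplication by `p`") and a decreasing filtration;
`l π : σ → R` lies in the open unit polydisc and `l (pm π) i = (l π i) ^ Q`.
No group structure, no formal group law is needed here.

* `descent_poly`: if for all `B ≥ d` there is a polynomial `P` of degree `≤ B` with a nonzero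
  coefficient in degree `≤ d` such that `‖P (l π)‖ ≤ C ‖l π‖ ^ (B + 1)` for `π` small, then there is
  a series `F` with all coefficients fixed by `x ↦ x ^ Q`, nonzero coefficient in degree `≤ d`,
  vanishing on ALL `l π`.
* `descent_series`: same from a bounded series `G` vanishing on all `l π`, `d = degree m` for a
  monomial `m` with `coeff m G ≠ 0`.
-/

set_option autoImplicit false

namespace Crest.Agent.Lib.LT.Descent

open MvPowerSeries Finsupp Filter Topology
open Crest.Agent.Lib.LT.EvalS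
open Crest.Agent.Lib.LT.FormalIFT (Ord)

/-- Parameters with "multiplication by p" and a decreasing filtration (subsets). -/
structure Params (L : Type*) where
  pm : L → L
  Fil : ℕ → Set L
  anti : Antitone Fil
  pm_mem : ∀ M π, π ∈ Fil M → pm π ∈ Fil M
  eventually_mem : ∀ π M, ∃ t, pm^[t] π ∈ Fil M

section Rational

variable {R : Type*} [NormedField R]

/-- Elements fixed by `x ↦ x ^ Q` have norm at most one. -/
lemma norm_le_one_of_pow_eq {x : R} {Q : ℕ} (hQ : 2 ≤ Q) (hx : x ^ Q = x) : ‖x‖ ≤ 1 := by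
  by_contra h
  push Not at h
  have h0 : ‖x‖ ^ Q = ‖x‖ := by rw [← norm_pow, hx]
  have h1 : ‖x‖ < ‖x‖ ^ Q := lt_self_pow₀ h (by omega)
  linarith

/-- There are finitely many elements fixed by `x ↦ x ^ Q`. -/
lemma finite_fix {Q : ℕ} (hQ : 2 ≤ Q) : {x : R | x ^ Q = x}.Finite := by
  have hne : (Polynomial.X ^ Q - Polynomial.X : Polynomial R) ≠ 0 :=
    FiniteField.X_pow_card_sub_X_ne_zero R (by omega)
  refine (Polynomial.finite_setOfPred_isRoot hne).subset fun x hx => ?_
  simpa [Polynomial.IsRoot, sub_eq_zero] using hx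

/-- Series with rational coefficients are bounded. -/
lemma intS_of_rational {σ : Type*} {F : MvPowerSeries σ R} {Q : ℕ} (hQ : 2 ≤ Q)
    (hF : ∀ m, coeff m F ^ Q = coeff m F) : IntS F :=
  fun m => norm_le_one_of_pow_eq hQ (hF m)

/-- Frobenius descent by minimal support: a subspace stable under the semilinear bijection `τ`
contains, for each of its elements `P` and each monomial `m` of `P`, a `τ`-fixed element
still having the monomial `m`. -/
theorem exists_fixed_of_stable {σ : Type*} (τ : R ≃+* R)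
    (V : Submodule R (MvPolynomial σ R))
    (hV : ∀ P ∈ V, MvPolynomial.map (τ : R →+* R) P ∈ V) :
    ∀ (n : ℕ) (P : MvPolynomial σ R), P ∈ V → P.support.card ≤ n →
      ∀ m, MvPolynomial.coeff m P ≠ 0 →
      ∃ P' ∈ V, MvPolynomial.coeff m P' ≠ 0 ∧
        ∀ k, τ (MvPolynomial.coeff k P') = MvPolynomial.coeff k P' := by
  classical
  intro n
  induction n with
  | zero =>
    intro P _ hcard m hm
    have : P.support = ∅ := Finset.card_eq_zero.mp (Nat.le_zero.mp hcard)
    exact absurd (MvPolynomial.mem_support_iff.mpr hm) (by simp [this])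
  | succ n ih =>
    intro P hP hcard m hm
    obtain ⟨c, hc⟩ : ∃ c, c = MvPolynomial.coeff m P := ⟨_, rfl⟩
    rw [← hc] at hm
    obtain ⟨P1, hP1⟩ : ∃ P1 : MvPolynomial σ R, P1 = c⁻¹ • P := ⟨_, rfl⟩
    have hP1V : P1 ∈ V := hP1 ▸ V.smul_mem _ hP
    have hcoeffP1 : ∀ k, MvPolynomial.coeff k P1 = c⁻¹ * MvPolynomial.coeff k P := fun k => by
      rw [hP1, MvPolynomial.coeff_smul, smul_eq_mul]
    have hP1m : MvPolynomial.coeff m P1 = 1 := by
      rw [hcoeffP1, ← hc, inv_mul_cancel₀ hm]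
    obtain ⟨U, hU⟩ : ∃ U : MvPolynomial σ R, U = MvPolynomial.map (τ : R →+* R) P1 - P1 :=
      ⟨_, rfl⟩
    have hUV : U ∈ V := hU ▸ V.sub_mem (hV _ hP1V) hP1V
    have hcoeffU : ∀ k, MvPolynomial.coeff k U = τ (MvPolynomial.coeff k P1) -
        MvPolynomial.coeff k P1 := fun k => by
      rw [hU, MvPolynomial.coeff_sub, MvPolynomial.coeff_map]
      rfl
    by_cases hzero : ∀ k, MvPolynomial.coeff k U = 0
    · refine ⟨P1, hP1V, by rw [hP1m]; exact one_ne_zero, fun k => ?_⟩
      have := hzero k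
      rw [hcoeffU] at this
      exact sub_eq_zero.mp this
    · push Not at hzero
      obtain ⟨n0, hn0⟩ := hzero
      have hn0P1 : MvPolynomial.coeff n0 P1 ≠ 0 := by
        intro h0
        apply hn0
        rw [hcoeffU, h0, map_zero, sub_zero]
      obtain ⟨t, ht⟩ : ∃ t, t = MvPolynomial.coeff n0 P1 / MvPolynomial.coeff n0 U := ⟨_, rfl⟩
      obtain ⟨P2, hP2⟩ : ∃ P2 : MvPolynomial σ R, P2 = P1 - t • U := ⟨_, rfl⟩
      have hP2V : P2 ∈ V := hP2 ▸ V.sub_mem hP1V (V.smul_mem _ hUV)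
      have hcoeffP2 : ∀ k, MvPolynomial.coeff k P2 = MvPolynomial.coeff k P1 -
          t * MvPolynomial.coeff k U := fun k => by
        rw [hP2, MvPolynomial.coeff_sub, MvPolynomial.coeff_smul, smul_eq_mul]
      have hUm : MvPolynomial.coeff m U = 0 := by
        rw [hcoeffU, hP1m, map_one, sub_self]
      have hP2m : MvPolynomial.coeff m P2 = 1 := by
        rw [hcoeffP2, hUm, mul_zero, sub_zero, hP1m]
      have hP2n0 : MvPolynomial.coeff n0 P2 = 0 := by
        rw [hcoeffP2, ht, div_mul_cancel₀ _ hn0, sub_self]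
      have hsub : P2.support ⊆ P.support.erase n0 := by
        intro k hk
        rw [MvPolynomial.mem_support_iff] at hk
        rw [Finset.mem_erase]
        refine ⟨fun hkn => hk (hkn ▸ hP2n0), ?_⟩
        rw [MvPolynomial.mem_support_iff]
        intro hPk
        apply hk
        have h1 : MvPolynomial.coeff k P1 = 0 := by rw [hcoeffP1, hPk, mul_zero]
        rw [hcoeffP2, hcoeffU, h1, map_zero, sub_zero, mul_zero, sub_zero]
      have hn0P : n0 ∈ P.support := by
        rw [MvPolynomial.mem_support_iff]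
        intro h0
        apply hn0P1
        rw [hcoeffP1, h0, mul_zero]
      have hcard2 : P2.support.card ≤ n := by
        have h1 := Finset.card_le_card hsub
        rw [Finset.card_erase_of_mem hn0P] at h1
        omega
      exact ih P2 hP2V hcard2 m (by rw [hP2m]; exact one_ne_zero)

end Rational

variable {R : Type*} [NormedField R] [IsUltrametricDist R] [CompleteSpace R]
variable {L : Type*} {σ : Type*} [Fintype σ]

/-- The asymptotic vanishing condition `c^(B)`: `‖P (l π)‖ ≤ C ‖l π‖ ^ (B + 1)` for small `π`. -/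
def AV (A : Params L) (l : L → σ → R) (B : ℕ) (P : MvPolynomial σ R) : Prop :=
  ∃ (M : ℕ) (C : ℝ), ∀ π ∈ A.Fil M, ‖MvPolynomial.eval (l π) P‖ ≤ C * ‖l π‖ ^ (B + 1)

/-- `AV` is a linear condition. -/
def avSubmodule (A : Params L) (l : L → σ → R) (B : ℕ) : Submodule R (MvPolynomial σ R) where
  carrier := {P | AV A l B P}
  add_mem' := by
    rintro P P' ⟨M, C, h⟩ ⟨M', C', h'⟩
    refine ⟨max M M', C + C', fun π hπ => ?_⟩
    have h1 := h π (A.anti (le_max_left M M') hπ)
    have h2 := h' π (A.anti (le_max_right M M') hπ)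
    rw [map_add, add_mul]
    exact (norm_add_le _ _).trans (add_le_add h1 h2)
  zero_mem' := ⟨0, 0, fun π _ => by simp⟩
  smul_mem' := by
    rintro c P ⟨M, C, h⟩
    refine ⟨M, ‖c‖ * C, fun π hπ => ?_⟩
    rw [MvPolynomial.smul_eval, norm_mul, mul_assoc]
    exact mul_le_mul_of_nonneg_left (h π hπ) (norm_nonneg _)

theorem mem_avSubmodule {A : Params L} {l : L → σ → R} {B : ℕ} {P : MvPolynomial σ R} :
    P ∈ avSubmodule A l B ↔ AV A l B P := Iff.rfl

omit [IsUltrametricDist R] [CompleteSpace R] in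
/-- The pi norm of the coordinatewise power. -/
lemma norm_pow_coord_le (y : σ → R) (n : ℕ) : ‖fun i => y i ^ n‖ ≤ ‖y‖ ^ n := by
  refine (pi_norm_le_iff_of_nonneg (by positivity)).mpr fun i => ?_
  rw [norm_pow]
  exact pow_le_pow_left₀ (norm_nonneg _) (norm_le_pi_norm y i) n

/-- Polynomials as series: evaluation is the polynomial evaluation. -/
lemma ev_coe (P : MvPolynomial σ R) (x : σ → R) :
    ev (P : MvPowerSeries σ R) x = MvPolynomial.eval x P := by
  classical
  rw [ev, tsum_eq_sum (s := P.support), MvPolynomial.eval_eq]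
  · refine Finset.sum_congr rfl fun m _ => ?_
    rw [MvPolynomial.coeff_coe]
    rfl
  · intro m hm
    rw [MvPolynomial.coeff_coe, MvPolynomial.notMem_support_iff.mp hm, zero_mul]

variable (p : ℕ) [Fact p.Prime] [CharP R p]

/-- Frobenius and evaluation of rational series. -/
lemma ev_frob {k : ℕ} {F : MvPowerSeries σ R} (hF : ∀ m, coeff m F ^ p ^ k = coeff m F)
    (hI : IntS F) {x : σ → R} (hx : ‖x‖ < 1) :
    ev F (fun i => x i ^ p ^ k) = ev F x ^ p ^ k := by
  classical
  let ε : R →+* R := iterateFrobenius R p k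
  have hε : ∀ z, ε z = z ^ p ^ k := fun z => iterateFrobenius_def p k z
  have hcont : Continuous ε := by
    have : (ε : R → R) = fun z => z ^ p ^ k := funext hε
    rw [this]
    exact continuous_pow _
  have h1 := (summable_ev hI hx).hasSum.map ε hcont
  have h2 : ∀ m, coeff m F * mono (fun i => x i ^ p ^ k) m = ε (coeff m F * mono x m) := by
    intro m
    rw [map_mul, hε (coeff m F), hF]
    congr 1
    simp only [mono, Finsupp.prod]
    rw [map_prod]
    refine Finset.prod_congr rfl fun i _ => ?_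
    rw [map_pow, hε]
  have h3 := h1.tsum_eq
  rw [ev, ev, ← hε]
  rw [← h3]
  exact tsum_congr h2

/-- Exactness. -/
theorem exactness {k : ℕ} (hk : 1 ≤ k) (A : Params L) (l : L → σ → R)
    (hlt : ∀ π, ‖l π‖ < 1) (hfrob : ∀ π i, l (A.pm π) i = l π i ^ p ^ k)
    (F : MvPowerSeries σ R) (hF : ∀ m, coeff m F ^ p ^ k = coeff m F)
    (hAV : ∀ N : ℕ, ∃ (M : ℕ) (C : ℝ), ∀ π ∈ A.Fil M, ‖ev F (l π)‖ ≤ C * ‖l π‖ ^ N) (π : L) :
    ev F (l π) = 0 := by
  have hp : 2 ≤ p := (Fact.out : p.Prime).two_le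
  have hQ : 2 ≤ p ^ k := by
    calc 2 ≤ p := hp
      _ = p ^ 1 := (pow_one p).symm
      _ ≤ p ^ k := Nat.pow_le_pow_right (by omega) hk
  set Q := p ^ k with hQdef
  have hI : IntS F := intS_of_rational hQ hF
  have hiter : ∀ t : ℕ, ev F (l (A.pm^[t] π)) = ev F (l π) ^ Q ^ t ∧
      ‖l (A.pm^[t] π)‖ ≤ ‖l π‖ ^ Q ^ t := by
    intro t
    induction t with
    | zero => simp
    | succ t ih =>
      rw [Function.iterate_succ_apply']
      have e : l (A.pm (A.pm^[t] π)) = fun i => l (A.pm^[t] π) i ^ Q :=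
        funext (hfrob (A.pm^[t] π))
      rw [e]
      constructor
      · rw [ev_frob p hF hI (hlt _), ih.1, pow_succ Q t, pow_mul]
      · refine (norm_pow_coord_le _ _).trans ?_
        rw [pow_succ Q t, pow_mul]
        exact pow_le_pow_left₀ (norm_nonneg _) ih.2 _
  by_contra hne
  set a := ‖ev F (l π)‖ with ha
  have ha0 : 0 < a := norm_pos_iff.mpr hne
  set ρ := ‖l π‖ with hρ
  have hρ0 : 0 ≤ ρ := norm_nonneg _
  have hρ1 : ρ < 1 := hlt π
  obtain ⟨N, hN⟩ := exists_pow_lt_of_lt_one ha0 hρ1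
  obtain ⟨M, C, hMC⟩ := hAV N
  obtain ⟨t0, ht0⟩ := A.eventually_mem π M
  have hmem : ∀ t, t0 ≤ t → A.pm^[t] π ∈ A.Fil M := by
    intro t ht
    induction t, ht using Nat.le_induction with
    | base => exact ht0
    | succ t _ ih =>
      rw [Function.iterate_succ_apply']
      exact A.pm_mem M _ ih
  set b := ρ ^ N with hb
  have hb0 : 0 ≤ b := by positivity
  set C' := max C 1 with hC'
  have hC'1 : 1 ≤ C' := le_max_right _ _
  have hC'0 : 0 < C' := by linarith
  set q := b / a with hq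
  have hq0 : 0 ≤ q := by positivity
  have hq1 : q < 1 := (div_lt_one ha0).mpr hN
  obtain ⟨n0, hn0⟩ := exists_pow_lt_of_lt_one (one_div_pos.mpr hC'0) hq1
  set t := max t0 n0 with ht
  have hQt : t < Q ^ t := Nat.lt_pow_self (by omega)
  have hle : ‖ev F (l (A.pm^[t] π))‖ ≤ C' * b ^ Q ^ t := by
    have h1 := hMC _ (hmem t (le_max_left _ _))
    have h2 : ‖l (A.pm^[t] π)‖ ^ N ≤ b ^ Q ^ t := by
      calc ‖l (A.pm^[t] π)‖ ^ N ≤ (ρ ^ Q ^ t) ^ N :=
            pow_le_pow_left₀ (norm_nonneg _) (hiter t).2 _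
        _ = b ^ Q ^ t := by rw [hb]; exact pow_right_comm ρ (Q ^ t) N
    calc _ ≤ C * ‖l (A.pm^[t] π)‖ ^ N := h1
      _ ≤ C' * ‖l (A.pm^[t] π)‖ ^ N :=
          mul_le_mul_of_nonneg_right (le_max_left _ _) (by positivity)
      _ ≤ C' * b ^ Q ^ t := mul_le_mul_of_nonneg_left h2 hC'0.le
  rw [(hiter t).1, norm_pow, ← ha] at hle
  have hqn : q ^ Q ^ t < 1 / C' := by
    refine lt_of_le_of_lt (pow_le_pow_of_le_one hq0 hq1.le ?_) hn0
    have : n0 ≤ t := le_max_right _ _
    omega
  have hb2 : b ^ Q ^ t = q ^ Q ^ t * a ^ Q ^ t := by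
    rw [hq, div_pow, div_mul_cancel₀]
    positivity
  rw [hb2] at hle
  have han : 0 < a ^ Q ^ t := by positivity
  have h3 : C' * (q ^ Q ^ t * a ^ Q ^ t) < 1 * a ^ Q ^ t := by
    rw [← mul_assoc]
    refine mul_lt_mul_of_pos_right ?_ han
    rw [lt_div_iff₀ hC'0] at hqn
    linarith
  linarith

variable [PerfectRing R p]

/-- The root map preserves the asymptotic vanishing. -/
theorem av_root {k : ℕ} (hk : 1 ≤ k) (A : Params L) (l : L → σ → R)
    (hfrob : ∀ π i, l (A.pm π) i = l π i ^ p ^ k) (B : ℕ) (P : MvPolynomial σ R)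
    (hP : AV A l B P) :
    AV A l B (MvPolynomial.map ((iterateFrobeniusEquiv R p k).symm : R →+* R) P) := by
  have hp : 2 ≤ p := (Fact.out : p.Prime).two_le
  have hQ : 2 ≤ p ^ k := by
    calc 2 ≤ p := hp
      _ = p ^ 1 := (pow_one p).symm
      _ ≤ p ^ k := Nat.pow_le_pow_right (by omega) hk
  obtain ⟨M, C, h⟩ := hP
  set C' := max C 1 with hC'
  have hC'1 : 1 ≤ C' := le_max_right _ _
  refine ⟨M, C', fun π hπ => ?_⟩
  set y := l π with hy
  set W := MvPolynomial.map ((iterateFrobeniusEquiv R p k).symm : R →+* R) P with hW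
  have key : MvPolynomial.eval y W ^ p ^ k = MvPolynomial.eval (l (A.pm π)) P := by
    let ε : R →+* R := iterateFrobenius R p k
    have hε : ∀ z, ε z = z ^ p ^ k := fun z => iterateFrobenius_def p k z
    have hεr : ε.comp ((iterateFrobeniusEquiv R p k).symm : R →+* R) = RingHom.id R := by
      ext z
      exact (iterateFrobeniusEquiv R p k).apply_symm_apply z
    have e1 : l (A.pm π) = ε ∘ y := by
      funext i
      rw [hfrob, Function.comp, hε]
    rw [← hε, MvPolynomial.eval, MvPolynomial.eval, MvPolynomial.coe_eval₂Hom,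
      MvPolynomial.coe_eval₂Hom, MvPolynomial.eval₂_comp_left, hW, MvPolynomial.eval₂_map, e1]
    congr 1
  have h1 := h _ (A.pm_mem M π hπ)
  rw [← key, norm_pow] at h1
  have hny : ‖l (A.pm π)‖ ≤ ‖y‖ ^ p ^ k := by
    have e : l (A.pm π) = fun i => y i ^ p ^ k := funext (hfrob π)
    rw [e]
    exact norm_pow_coord_le _ _
  have h2 : ‖MvPolynomial.eval y W‖ ^ p ^ k ≤ (C' * ‖y‖ ^ (B + 1)) ^ p ^ k := by
    calc _ ≤ C * ‖l (A.pm π)‖ ^ (B + 1) := h1
      _ ≤ C' * ‖l (A.pm π)‖ ^ (B + 1) :=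
          mul_le_mul_of_nonneg_right (le_max_left _ _) (by positivity)
      _ ≤ C' * (‖y‖ ^ p ^ k) ^ (B + 1) :=
          mul_le_mul_of_nonneg_left (pow_le_pow_left₀ (norm_nonneg _) hny _) (by linarith)
      _ ≤ C' ^ p ^ k * (‖y‖ ^ p ^ k) ^ (B + 1) := by
          refine mul_le_mul_of_nonneg_right ?_ (by positivity)
          exact le_self_pow₀ hC'1 (by omega)
      _ = (C' * ‖y‖ ^ (B + 1)) ^ p ^ k := by
          rw [mul_pow, pow_right_comm ‖y‖ (p ^ k) (B + 1)]
  exact le_of_pow_le_pow_left₀ (by omega) (by positivity) h2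

/-- Descent from polynomials: the input of (2f) produced by the chart (2e). -/
theorem descent_poly (k : ℕ) (hk : 1 ≤ k) (A : Params L) (l : L → σ → R)
    (hlt : ∀ π, ‖l π‖ < 1) (hfrob : ∀ π i, l (A.pm π) i = l π i ^ p ^ k) (d : ℕ)
    (h : ∀ B, d ≤ B → ∃ P : MvPolynomial σ R, AV A l B P ∧
      ∃ m : σ →₀ ℕ, degree m ≤ d ∧ MvPolynomial.coeff m P ≠ 0) :
    ∃ F : MvPowerSeries σ R, (∀ m, coeff m F ^ p ^ k = coeff m F) ∧
      (∃ m : σ →₀ ℕ, degree m ≤ d ∧ coeff m F ≠ 0) ∧ ∀ π, ev F (l π) = 0 := by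
  classical
  have hp : 2 ≤ p := (Fact.out : p.Prime).two_le
  have hQ : 2 ≤ p ^ k := by
    calc 2 ≤ p := hp
      _ = p ^ 1 := (pow_one p).symm
      _ ≤ p ^ k := Nat.pow_le_pow_right (by omega) hk
  -- rational polynomials at each level
  have hrat : ∀ n : ℕ, ∃ (P : MvPolynomial σ R) (m : σ →₀ ℕ), AV A l (n + d) P ∧ degree m ≤ d ∧
      MvPolynomial.coeff m P ≠ 0 ∧ ∀ k', MvPolynomial.coeff k' P ^ p ^ k = MvPolynomial.coeff k' P := by
    intro n
    obtain ⟨P0, hAV, m, hmd, hm⟩ := h (n + d) (by omega)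
    obtain ⟨P', hP'V, hP'm, hfix⟩ := exists_fixed_of_stable (iterateFrobeniusEquiv R p k).symm
      (avSubmodule A l (n + d)) (fun P hP => av_root p hk A l hfrob (n + d) P hP)
      _ P0 hAV le_rfl m hm
    refine ⟨P', m, hP'V, hmd, hP'm, fun k' => ?_⟩
    have h2 := hfix k'
    have h3 : (iterateFrobeniusEquiv R p k) ((iterateFrobeniusEquiv R p k).symm
        (MvPolynomial.coeff k' P')) = MvPolynomial.coeff k' P' :=
      (iterateFrobeniusEquiv R p k).apply_symm_apply _
    rw [h2, coe_iterateFrobeniusEquiv, iterateFrobenius_def] at h3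
    exact h3
  choose P m hAV hmd hm hfix using hrat
  -- the ultrafilter limit
  let u : Ultrafilter ℕ := hyperfilter ℕ
  have hlim : ∀ m' : σ →₀ ℕ, ∃ c ∈ {x : R | x ^ p ^ k = x},
      ∀ᶠ n in (u : Filter ℕ), MvPolynomial.coeff m' (P n) = c := by
    intro m'
    refine (Ultrafilter.eventually_exists_mem_iff (finite_fix hQ)).mp
      (Eventually.of_forall fun n => ⟨_, hfix n m', rfl⟩)
  choose c hc hc' using hlim
  let F : MvPowerSeries σ R := c
  have hFc : ∀ m', coeff m' F = c m' := fun _ => rfl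
  have hFrat : ∀ m', coeff m' F ^ p ^ k = coeff m' F := fun m' => hc m'
  have hFI : IntS F := intS_of_rational hQ hFrat
  -- agreement of the low coefficients
  have hagree : ∀ N N' : ℕ, ∃ n, N' ≤ n ∧ ∀ m' : σ →₀ ℕ, degree m' < N →
      MvPolynomial.coeff m' (P n) = c m' := by
    intro N N'
    have h1 : ∀ᶠ n in (u : Filter ℕ), ∀ m' ∈ lowDeg σ N, MvPolynomial.coeff m' (P n) = c m' :=
      (Filter.eventually_all_finset _).mpr fun m' _ => hc' m'
    have h2 : ∀ᶠ n in (u : Filter ℕ), N' ≤ n :=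
      (Filter.eventually_ge_atTop N').filter_mono Nat.hyperfilter_le_atTop
    obtain ⟨n, hn1, hn2⟩ := (h1.and h2).exists
    exact ⟨n, hn2, fun m' hm' => hn1 m' (mem_lowDeg.mpr hm')⟩
  refine ⟨F, hFrat, ?_, ?_⟩
  · obtain ⟨n, -, hn⟩ := hagree (d + 1) 0
    refine ⟨m n, hmd n, ?_⟩
    rw [hFc, ← hn (m n) (by have := hmd n; omega)]
    exact hm n
  · refine exactness p hk A l hlt hfrob F hFrat fun N => ?_
    obtain ⟨n, hnN, hn⟩ := hagree N N
    obtain ⟨M, C, hMC⟩ := hAV n
    refine ⟨M, max C 1, fun π hπ => ?_⟩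
    have hPI : IntS (P n : MvPowerSeries σ R) := fun m' => by
      rw [MvPolynomial.coeff_coe]
      exact norm_le_one_of_pow_eq hQ (hfix n m')
    have hord : Ord N (F - (P n : MvPowerSeries σ R)) := fun m' hm' => by
      rw [map_sub, MvPolynomial.coeff_coe, hFc, hn m' hm', sub_self]
    have hy := hlt π
    have h1 : ‖ev (F - (P n : MvPowerSeries σ R)) (l π)‖ ≤ ‖l π‖ ^ N :=
      norm_ev_le_of_ord (hFI.sub hPI) hy hord
    have h2 : ‖ev (P n : MvPowerSeries σ R) (l π)‖ ≤ max C 1 * ‖l π‖ ^ N := by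
      rw [ev_coe]
      calc _ ≤ C * ‖l π‖ ^ (n + d + 1) := hMC π hπ
        _ ≤ max C 1 * ‖l π‖ ^ (n + d + 1) :=
            mul_le_mul_of_nonneg_right (le_max_left _ _) (by positivity)
        _ ≤ max C 1 * ‖l π‖ ^ N := by
            refine mul_le_mul_of_nonneg_left ?_ (by positivity)
            exact pow_le_pow_of_le_one (norm_nonneg _) hy.le (by omega)
    have h3 : ev F (l π) = ev (F - (P n : MvPowerSeries σ R)) (l π) +
        ev (P n : MvPowerSeries σ R) (l π) := by
      rw [ev_sub hFI hPI hy]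
      ring
    rw [h3]
    refine (IsUltrametricDist.norm_add_le_max _ _).trans (max_le ?_ h2)
    calc _ ≤ ‖l π‖ ^ N := h1
      _ ≤ max C 1 * ‖l π‖ ^ N := by
          refine le_mul_of_one_le_left (by positivity) (le_max_right _ _)

/-- Descent from a bounded series vanishing on the image of `l`. -/
theorem descent_series (k : ℕ) (hk : 1 ≤ k) (A : Params L) (l : L → σ → R)
    (hlt : ∀ π, ‖l π‖ < 1) (hfrob : ∀ π i, l (A.pm π) i = l π i ^ p ^ k)
    (G : MvPowerSeries σ R) (hG : IntS G) (hv : ∀ π, ev G (l π) = 0)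
    (m : σ →₀ ℕ) (hm : coeff m G ≠ 0) :
    ∃ F : MvPowerSeries σ R, (∀ m, coeff m F ^ p ^ k = coeff m F) ∧
      (∃ m' : σ →₀ ℕ, degree m' ≤ degree m ∧ coeff m' F ≠ 0) ∧ ∀ π, ev F (l π) = 0 := by
  refine descent_poly p k hk A l hlt hfrob (degree m) fun B hB => ?_
  set T : MvPolynomial σ R := MvPowerSeries.truncTotal (B + 1) G with hT
  have hcoeff : ∀ m', MvPolynomial.coeff m' T = if degree m' < B + 1 then coeff m' G else 0 :=
    fun m' => MvPowerSeries.coeff_truncTotal_eq_ite _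
  refine ⟨T, ⟨0, 1, fun π _ => ?_⟩, m, le_rfl, ?_⟩
  · have hTI : IntS (T : MvPowerSeries σ R) := fun m' => by
      rw [MvPolynomial.coeff_coe, hcoeff]
      split_ifs
      · exact hG m'
      · simp
    have hord : Ord (B + 1) (G - (T : MvPowerSeries σ R)) := fun m' hm' => by
      rw [map_sub, MvPolynomial.coeff_coe, hcoeff, if_pos hm', sub_self]
    have hy := hlt π
    have h1 := norm_ev_le_of_ord (hG.sub hTI) hy hord
    rw [ev_sub hG hTI hy, hv, zero_sub, norm_neg, ev_coe] at h1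
    rw [one_mul]
    exact h1
  · rw [hcoeff, if_pos (by omega)]
    exact hm

end Crest.Agent.Lib.LT.Descent
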