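import Mathlib
import Crest.Agent.Lib.LT.Closure
import Crest.Agent.Lib.LT.Descent

/-!
# (2f) + (2g) of S0351: final form over `R`

`Γ'` is a law over `R` whose coefficients are fixed by `x ↦ x ^ (p ^ k)`.  From the approximate
polynomial relations of (2e) we get a `Hom`-relation between the coordinates of `l`.
-/

set_option autoImplicit false

namespace Crest.Agent.Lib.LT.Closure

open MvPowerSeries Finsupp
open Crest.Agent.Lib.LT.FormalIFT (Ord hasSubst_of_ord subst_ord ord_one_iff)
open Crest.Agent.Lib.LT.EvalS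
open Crest.Agent.Lib.LT.Descent

universe u v

variable {R : Type v} [NormedField R]

section Lift

variable (K : Subfield R)

/-- A series with coefficients in the subfield `K`, as a series over `K`. -/
def liftS {σ : Type*} (f : MvPowerSeries σ R) (hf : ∀ m, coeff m f ∈ K) : MvPowerSeries σ K :=
  fun m => ⟨coeff m f, hf m⟩

lemma coeff_liftS {σ : Type*} (f : MvPowerSeries σ R) (hf : ∀ m, coeff m f ∈ K) (m : σ →₀ ℕ) :
    ((coeff m (liftS K f hf) : K) : R) = coeff m f := rfl

lemma map_liftS {σ : Type*} (f : MvPowerSeries σ R) (hf : ∀ m, coeff m f ∈ K) :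
    MvPowerSeries.map (algebraMap K R) (liftS K f hf) = f := by
  ext m
  rw [coeff_map]
  rfl

lemma map_algebraMap_injective {σ : Type*} :
    Function.Injective (MvPowerSeries.map (σ := σ) (algebraMap K R)) := by
  intro f g h
  ext m
  have := congrArg (coeff m) h
  rw [coeff_map, coeff_map] at this
  exact this

/-- A law with coefficients in `K`, over `K`. -/
noncomputable def liftLaw (G : FormalGroup R) (hG : ∀ m, coeff m G.toPowerSeries ∈ K) :
    FormalGroup K where
  toPowerSeries := liftS K G.toPowerSeries hG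
  zero_constantCoeff := by
    apply Subtype.ext
    have h := G.zero_constantCoeff
    rw [← coeff_zero_eq_constantCoeff_apply] at h
    rw [← coeff_zero_eq_constantCoeff_apply]
    exact h
  lin_coeff_X := by
    apply Subtype.ext
    exact G.lin_coeff_X
  lin_coeff_Y := by
    apply Subtype.ext
    exact G.lin_coeff_Y
  assoc := by
    apply map_algebraMap_injective K
    set F' := liftS K G.toPowerSeries hG with hF'
    have hF0 : constantCoeff F' = 0 := by
      apply Subtype.ext
      have h := G.zero_constantCoeff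
      rw [← coeff_zero_eq_constantCoeff_apply] at h
      rw [← coeff_zero_eq_constantCoeff_apply]
      exact h
    have hmF : MvPowerSeries.map (algebraMap K R) F' = G.toPowerSeries := map_liftS K _ hG
    have hthis (g₁ g₂ : MvPowerSeries (Fin 3) K) :
        ![g₁.map (algebraMap K R), g₂.map (algebraMap K R)] =
        fun i => (![g₁, g₂] i).map (algebraMap K R) := by
      ext1 i
      fin_cases i <;> simp
    have hL : ∀ i j : Fin 3, MvPowerSeries.map (algebraMap K R) (F'.subst ![X i, X j]) =
        G.toPowerSeries.subst ![X i, X j] := by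
      intro i j
      rw [map_subst HasSubst.X_X, hmF]
      congr 1
      ext1 s
      fin_cases s <;> simp
    rw [map_subst (HasSubst.cons_subst_zero_left (0 : Fin 3) 1 2 hF0),
      map_subst (HasSubst.cons_subst_zero_right (0 : Fin 3) 1 2 hF0), hmF]
    have := G.assoc
    convert this using 2
    · ext1 s
      fin_cases s
      · simpa using hL 0 1
      · simp
    · ext1 s
      fin_cases s
      · simp
      · simpa using hL 1 2

lemma map_liftLaw (G : FormalGroup R) (hG : ∀ m, coeff m G.toPowerSeries ∈ K) :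
    (liftLaw K G hG).map (algebraMap K R) = G := by
  apply FormalGroup.ext
  exact map_liftS K _ hG

end Lift

variable [IsUltrametricDist R] [CompleteSpace R]
variable (p : ℕ) [Fact p.Prime] [CharP R p]

/-- The subfield fixed by `x ↦ x ^ (p ^ k)`. -/
def fixK (R : Type v) [NormedField R] [CharP R p] (k : ℕ) : Subfield R where
  carrier := {x | x ^ p ^ k = x}
  mul_mem' := by
    intro a b ha hb
    simp only [Set.mem_setOf_eq] at ha hb ⊢
    rw [mul_pow, ha, hb]
  one_mem' := one_pow _
  add_mem' := by
    intro a b ha hb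
    simp only [Set.mem_setOf_eq] at ha hb ⊢
    rw [add_pow_char_pow, ha, hb]
  zero_mem' := by
    have : p ^ k ≠ 0 := pow_ne_zero _ (Fact.out : p.Prime).ne_zero
    exact zero_pow this
  neg_mem' := by
    intro a ha
    simp only [Set.mem_setOf_eq] at ha ⊢
    have := sub_pow_char_pow (p := p) (n := k) (0 : R) a
    have h0 : (0 : R) ^ p ^ k = 0 := zero_pow (pow_ne_zero _ (Fact.out : p.Prime).ne_zero)
    rw [h0, ha, zero_sub] at this
    exact this
  inv_mem' := by
    intro a ha
    simp only [Set.mem_setOf_eq] at ha ⊢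
    rw [inv_pow, ha]

variable {L : Type*} [Add L] [Zero L] [PerfectRing R p]

/-- **(2f) + (2g)** -/
theorem exists_relation (k : ℕ) (hk : 1 ≤ k) (G : FormalGroup R)
    (hfix : ∀ m, coeff m G.toPowerSeries ^ p ^ k = coeff m G.toPowerSeries)
    (A : Params L) {σ : Type u} [Fintype σ] [DecidableEq σ] (l : L → σ → R)
    (hlt : ∀ π, ‖l π‖ < 1)
    (hadd : ∀ π π' i, l (π + π') i = ev G.toPowerSeries ![l π i, l π' i])
    (hzero : l 0 = 0)
    (hfrob : ∀ π i, l (A.pm π) i = l π i ^ p ^ k) (d : ℕ)
    (h : ∀ B, d ≤ B → ∃ P : MvPolynomial σ R, AV A l B P ∧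
      ∃ m : σ →₀ ℕ, degree m ≤ d ∧ MvPolynomial.coeff m P ≠ 0) :
    ∃ (i0 : σ) (S : List σ) (gg : σ → PowerSeries R), S.Nodup ∧ i0 ∉ S ∧
      (∀ b, Crest.LubinTate.IsFGHom G G (gg b)) ∧
      (∀ b j, PowerSeries.coeff j (gg b) ^ p ^ k = PowerSeries.coeff j (gg b)) ∧
      ∀ π, l π i0 = S.foldr (fun b acc =>
        ev G.toPowerSeries ![ev (σ := Unit) (gg b) (fun _ => l π b), acc]) 0 := by
  classical
  have hp2 : 2 ≤ p := (Fact.out : p.Prime).two_le
  have hQ : 2 ≤ p ^ k := by
    calc 2 ≤ p := hp2
      _ = p ^ 1 := (pow_one p).symm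
      _ ≤ p ^ k := Nat.pow_le_pow_right (by omega) hk
  let K : Subfield R := fixK p R k
  have hKmem : ∀ x : R, x ∈ K ↔ x ^ p ^ k = x := fun x => Iff.rfl
  haveI hKfin : Finite K := (finite_fix (R := R) hQ).to_subtype
  letI : Fintype K := Fintype.ofFinite K
  haveI hKchar : CharP K p :=
    (RingHom.charP_iff (algebraMap K R) (algebraMap K R).injective p).mpr inferInstance
  have hG : ∀ m, coeff m G.toPowerSeries ∈ K := hfix
  let gam : FormalGroup K := liftLaw K G hG
  have hgam : MvPowerSeries.map (algebraMap K R) gam.toPowerSeries = G.toPowerSeries :=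
    map_liftS K _ hG
  have hpadd : ∀ x y : R, padd gam x y = ev G.toPowerSeries ![x, y] := by
    intro x y
    rw [padd, evK, hgam]
  have hsys : IsSys gam A.pm (p ^ k) l :=
    { lt := hlt
      add := fun π π' i => by rw [hadd, hpadd]
      zero := hzero
      frob := hfrob }
  -- descent, for all index types
  have hDesc : ∀ {σ' : Type u} [Fintype σ'] [DecidableEq σ'] (l' : L → σ' → R),
      IsSys gam A.pm (p ^ k) l' → HasDescent K l' := by
    intro σ' _ _ l' hl' G' hG' hv m hm
    obtain ⟨F, hF, ⟨m', hm', hm'c⟩, hFv⟩ :=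
      descent_series p k hk A l' hl'.lt hl'.frob G' hG' hv m hm
    refine ⟨liftS K F hF, ⟨m', hm', ?_⟩, fun π => ?_⟩
    · intro h0
      apply hm'c
      have := coeff_liftS K F hF m'
      rw [h0] at this
      simpa using this.symm
    · rw [evK, map_liftS]
      exact hFv π
  -- non-density
  have hN : NonDense K l := by
    obtain ⟨F, hF, ⟨m', _, hm'c⟩, hFv⟩ := descent_poly p k hk A l hlt hfrob d h
    refine ⟨liftS K F hF, ?_, fun π => ?_⟩
    · intro h0
      apply hm'c
      have := coeff_liftS K F hF m'
      rw [h0] at this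
      simpa using this.symm
    · rw [evK, map_liftS]
      exact hFv π
  obtain ⟨i0, S, gg, hS, hi0, hhom, hrel⟩ :=
    relation p gam A.pm (p ^ k) hDesc _ l rfl hsys hN
  refine ⟨i0, S, fun b => PowerSeries.map (algebraMap K R) (gg b), hS, hi0, ?_, ?_, ?_⟩
  · intro b
    have := Crest.Agent.LT.hom_map (algebraMap K R) (hhom b)
    rwa [map_liftLaw K G hG] at this
  · intro b j
    rw [PowerSeries.coeff_map]
    exact (PowerSeries.coeff j (gg b)).2
  · intro π
    have e : (fun b acc => padd gam (evK1 (gg b) (l π b)) acc) = (fun b acc =>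
        ev G.toPowerSeries ![ev (σ := Unit) (PowerSeries.map (algebraMap K R) (gg b))
          (fun _ => l π b), acc]) := by
      funext b acc
      rw [hpadd]
      rfl
    rw [hrel π, e]

end Crest.Agent.Lib.LT.Closure
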