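import Mathlib
import Crest.Agent.Lib.LT.Height
import Crest.Agent.Lib.LT.ClosureFinal

/-!
# Leading form of the relation of (2g) (S0351)

A homomorphism of order `q = p ^ a` in characteristic `p` has no terms in degrees `q < n < 2 q`.
Hence a nonzero endomorphism is `κ u ^ q + O(u ^ (2 q))`, and the relation of
`Closure.exists_relation` has a leading form: the hypothesis `hrel` of Lemma R.
-/

set_option autoImplicit false

namespace Crest.Agent.Lib.LT.RelLead

open Crest.LubinTate Crest.Agent.LT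

section Gap

variable {R : Type*} [CommRing R] (p : ℕ) [hp : Fact p.Prime] [CharP R p]

lemma charP_mv (τ : Type*) : CharP (MvPowerSeries τ R) p :=
  charP_of_injective_ringHom (f := (MvPowerSeries.C : R →+* MvPowerSeries τ R))
    MvPowerSeries.C_injective p

/-- The computation behind the gap lemma. -/
theorem hom_gap_choose {F G : FormalGroup R} {φ : PowerSeries R} (h : IsFGHom F G φ) {a : ℕ}
    (hq : φ ∈ ordIdeal Unit R (p ^ a)) {i j : ℕ} (hi : 1 ≤ i) (hj : 1 ≤ j)
    (hgt : p ^ a < i + j) (hlt : i + j < 2 * p ^ a)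
    (hgap : ∀ n, p ^ a < n → n < i + j → PowerSeries.coeff n φ = 0) :
    PowerSeries.coeff (i + j) φ * ((i + j).choose i : R) = 0 := by
  haveI := charP_mv (R := R) p (Fin 2)
  set d := i + j with hd
  set q := p ^ a with hqdef
  set c := PowerSeries.coeff q φ with hc
  set e := PowerSeries.coeff d φ with he
  set ψ : PowerSeries R := φ - PowerSeries.C c * PowerSeries.X ^ q with hψdef
  have hψ : ψ ∈ ordIdeal Unit R d := by
    rw [mem_ordIdeal_iff_coeff]
    intro n hn
    rw [hψdef, map_sub, PowerSeries.coeff_C_mul, PowerSeries.coeff_X_pow]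
    rcases lt_trichotomy n q with h1 | h1 | h1
    · rw [mem_ordIdeal_iff_coeff.mp hq n h1, if_neg h1.ne]
      simp
    · subst h1
      simp [hc]
    · rw [hgap n h1 hn, if_neg h1.ne']
      simp
  have hψe : PowerSeries.coeff d ψ = e := by
    rw [hψdef, map_sub, PowerSeries.coeff_C_mul, PowerSeries.coeff_X_pow, if_neg hgt.ne']
    simp [he]
  have hsub : ∀ x : MvPowerSeries (Fin 2) R, x ∈ ordIdeal (Fin 2) R 1 →
      PowerSeries.subst x φ - MvPowerSeries.C c * x ^ q - MvPowerSeries.C e * x ^ d ∈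
        ordIdeal (Fin 2) R (d + 1) := by
    intro x hx
    have hs := hasSubst_one (mem_ordIdeal_one.mp hx)
    have h1 := psubst_eq_of_ord hψ hx
    rw [hψe] at h1
    have h2 : PowerSeries.subst x ψ = PowerSeries.subst x φ - MvPowerSeries.C c * x ^ q := by
      rw [hψdef, PowerSeries.subst_sub hs, PowerSeries.subst_mul hs, PowerSeries.subst_pow hs,
        PowerSeries.subst_X hs, PowerSeries.subst_C]
    rwa [h2] at h1
  have hX0 := X_mem_ordIdeal_one (R := R) (τ := Fin 2) 0
  have hX1 := X_mem_ordIdeal_one (R := R) (τ := Fin 2) 1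
  have hF1 : F.toPowerSeries ∈ ordIdeal (Fin 2) R 1 := mem_ordIdeal_one.mpr F.zero_constantCoeff
  have key := h.2
  have hL := hsub _ hF1
  -- `F ^ d ≡ (X + Y) ^ d`
  have hL2 : MvPowerSeries.C e * F.toPowerSeries ^ d -
      MvPowerSeries.C e * (MvPowerSeries.X 0 + MvPowerSeries.X 1) ^ d ∈
        ordIdeal (Fin 2) R (d + 1) := by
    have := add_pow_sub_pow_mem_ordIdeal (s := MvPowerSeries.X 0 + MvPowerSeries.X 1)
      (r := F.toPowerSeries - (MvPowerSeries.X 0 + MvPowerSeries.X 1)) (add_mem hX0 hX1)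
      (law_sub_add_mem F) d
    rw [add_sub_cancel] at this
    rw [← mul_sub]
    exact Ideal.mul_mem_left _ _ this
  -- `F ^ q ≡ X ^ q + Y ^ q`
  have hLq : MvPowerSeries.C c * F.toPowerSeries ^ q -
      MvPowerSeries.C c * (MvPowerSeries.X 0 ^ q + MvPowerSeries.X 1 ^ q) ∈
        ordIdeal (Fin 2) R (d + 1) := by
    rw [← mul_sub]
    refine Ideal.mul_mem_left _ _ ?_
    set s : MvPowerSeries (Fin 2) R := F.toPowerSeries - (MvPowerSeries.X 0 + MvPowerSeries.X 1)
      with hs
    have e1 : F.toPowerSeries = MvPowerSeries.X 0 + MvPowerSeries.X 1 + s := by rw [hs]; ring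
    have e2 : F.toPowerSeries ^ q = MvPowerSeries.X 0 ^ q + MvPowerSeries.X 1 ^ q + s ^ q := by
      rw [e1, hqdef, add_pow_char_pow, add_pow_char_pow]
    rw [e2, add_sub_cancel_left]
    have h3 : s ^ q ∈ ordIdeal (Fin 2) R (2 * q) := pow_mem_ordIdeal (law_sub_add_mem F) q
    exact ordIdeal_mono (by omega) h3
  have ha := psubst_mem_ord hq hX0
  have hb := psubst_mem_ord hq hX1
  have ha1 : MvPowerSeries.constantCoeff
      (PowerSeries.subst (MvPowerSeries.X 0 : MvPowerSeries (Fin 2) R) φ) = 0 :=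
    constantCoeff_psubst (by simp) h.1
  have hb1 : MvPowerSeries.constantCoeff
      (PowerSeries.subst (MvPowerSeries.X 1 : MvPowerSeries (Fin 2) R) φ) = 0 :=
    constantCoeff_psubst (by simp) h.1
  have hR' := fadd_sub_mem_ordIdeal G ha1 hb1 ha hb
  have hR : fadd G.toPowerSeries (PowerSeries.subst (MvPowerSeries.X 0 : MvPowerSeries (Fin 2) R) φ)
      (PowerSeries.subst (MvPowerSeries.X 1 : MvPowerSeries (Fin 2) R) φ) -
      PowerSeries.subst (MvPowerSeries.X 0 : MvPowerSeries (Fin 2) R) φ -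
      PowerSeries.subst (MvPowerSeries.X 1 : MvPowerSeries (Fin 2) R) φ ∈
        ordIdeal (Fin 2) R (d + 1) :=
    ordIdeal_mono (by omega) hR'
  have hA := hsub _ hX0
  have hB := hsub _ hX1
  have total : MvPowerSeries.C e * (MvPowerSeries.X 0 + MvPowerSeries.X 1) ^ d -
      MvPowerSeries.C e * (MvPowerSeries.X 0) ^ d - MvPowerSeries.C e * (MvPowerSeries.X 1) ^ d ∈
      ordIdeal (Fin 2) R (d + 1) := by
    have key' : PowerSeries.subst F.toPowerSeries φ =
        fadd G.toPowerSeries (PowerSeries.subst (MvPowerSeries.X 0 : MvPowerSeries (Fin 2) R) φ)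
          (PowerSeries.subst (MvPowerSeries.X 1 : MvPowerSeries (Fin 2) R) φ) := key
    have e' : MvPowerSeries.C e * (MvPowerSeries.X 0 + MvPowerSeries.X 1) ^ d -
        MvPowerSeries.C e * (MvPowerSeries.X 0) ^ d - MvPowerSeries.C e * (MvPowerSeries.X 1) ^ d =
        (fadd G.toPowerSeries (PowerSeries.subst (MvPowerSeries.X 0 : MvPowerSeries (Fin 2) R) φ)
          (PowerSeries.subst (MvPowerSeries.X 1 : MvPowerSeries (Fin 2) R) φ) -
          PowerSeries.subst (MvPowerSeries.X 0 : MvPowerSeries (Fin 2) R) φ -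
          PowerSeries.subst (MvPowerSeries.X 1 : MvPowerSeries (Fin 2) R) φ)
        + (PowerSeries.subst (MvPowerSeries.X 0 : MvPowerSeries (Fin 2) R) φ -
            MvPowerSeries.C c * (MvPowerSeries.X 0) ^ q - MvPowerSeries.C e * (MvPowerSeries.X 0) ^ d)
        + (PowerSeries.subst (MvPowerSeries.X 1 : MvPowerSeries (Fin 2) R) φ -
            MvPowerSeries.C c * (MvPowerSeries.X 1) ^ q - MvPowerSeries.C e * (MvPowerSeries.X 1) ^ d)
        - (PowerSeries.subst F.toPowerSeries φ - MvPowerSeries.C c * F.toPowerSeries ^ q -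
            MvPowerSeries.C e * F.toPowerSeries ^ d)
        - (MvPowerSeries.C e * F.toPowerSeries ^ d -
            MvPowerSeries.C e * (MvPowerSeries.X 0 + MvPowerSeries.X 1) ^ d)
        - (MvPowerSeries.C c * F.toPowerSeries ^ q -
            MvPowerSeries.C c * (MvPowerSeries.X 0 ^ q + MvPowerSeries.X 1 ^ q)) := by
      rw [key']; ring
    rw [e']
    exact sub_mem (sub_mem (sub_mem (add_mem (add_mem hR hA) hB) hL) hL2) hLq
  have hdeg : (Finsupp.single (0 : Fin 2) i + Finsupp.single 1 j).degree < d + 1 := by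
    simp [hd]
  have := total _ hdeg
  rw [map_sub, map_sub, MvPowerSeries.coeff_C_mul, MvPowerSeries.coeff_C_mul,
    MvPowerSeries.coeff_C_mul, hd, coeff_X_add_X_pow, coeff_X0_pow_mixed hj,
    coeff_X1_pow_mixed hi, mul_zero, sub_zero, sub_zero] at this
  exact this

/-- **Gap lemma**: a homomorphism of order `q = p ^ a` in characteristic `p` has no terms in
degrees `q < n < 2 q`. -/
theorem hom_gap {F G : FormalGroup R} {φ : PowerSeries R} (h : IsFGHom F G φ) {a : ℕ}
    (hq : φ ∈ ordIdeal Unit R (p ^ a)) :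
    ∀ n, p ^ a < n → n < 2 * p ^ a → PowerSeries.coeff n φ = 0 := by
  have hR : (p : R) = 0 := CharP.cast_eq_zero R p
  have hp1 : 1 < p := hp.out.one_lt
  intro n
  induction n using Nat.strong_induction_on with
  | _ n ih =>
    intro hgt hlt
    have hn0 : n ≠ 0 := by omega
    obtain ⟨b, m, hm, hnm⟩ := Nat.exists_eq_pow_mul_and_not_dvd hn0 p hp.out.ne_one
    have hm0 : m ≠ 0 := by
      rintro rfl
      simp at hm
    have hm1 : m ≠ 1 := by
      rintro rfl
      rw [mul_one] at hnm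
      subst hnm
      have h1 : a < b := (Nat.pow_lt_pow_iff_right hp1).mp hgt
      have h2 : p ^ (a + 1) ≤ p ^ b := Nat.pow_le_pow_right (by omega) h1
      have h3 : 2 * p ^ a ≤ p ^ (a + 1) := by
        rw [pow_succ, mul_comm]
        exact Nat.mul_le_mul_left _ hp.out.two_le
      omega
    have hlt' : p ^ b < n := by
      rw [hnm]
      have : 1 < m := by omega
      exact lt_mul_of_one_lt_right (pow_pos hp.out.pos b) this
    have hi : 1 ≤ p ^ b := Nat.one_le_pow _ _ hp.out.pos
    have hj : 1 ≤ n - p ^ b := by omega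
    have hsum : p ^ b + (n - p ^ b) = n := by omega
    have := hom_gap_choose p h hq (i := p ^ b) (j := n - p ^ b) hi hj (by rw [hsum]; exact hgt)
      (by rw [hsum]; exact hlt) (fun n' h1 h2 => ih n' (by rw [hsum] at h2; exact h2) h1
        (by rw [hsum] at h2; omega))
    rw [hsum] at this
    have hchoose : ((n.choose (p ^ b) : ℕ) : R) = (m : R) := by
      have h1 := choose_pow_mul_modEq p b m
      rw [← hnm] at h1
      exact natCast_eq_of_modEq p hR h1
    rw [hchoose] at this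
    exact (isUnit_natCast_of_not_dvd p hR hm).mul_left_eq_zero.mp this

end Gap

section Norm

open Crest.Agent.Lib.LT.EvalS Crest.Agent.Lib.LT.Closure Crest.Agent.Lib.LT.Descent
open Crest.Agent.Lib.LT.FormalIFT (Ord)

variable {R : Type*} [NormedField R] [IsUltrametricDist R] [CompleteSpace R]

/-- A nonzero homomorphism in characteristic `p` has order a power of `p`. -/
theorem hom_order (p : ℕ) [hp : Fact p.Prime] [CharP R p] {F G : FormalGroup R} {φ : PowerSeries R}
    (h : IsFGHom F G φ) (hne : φ ≠ 0) :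
    ∃ a, φ ∈ ordIdeal Unit R (p ^ a) ∧ PowerSeries.coeff (p ^ a) φ ≠ 0 := by
  classical
  have hR : (p : R) = 0 := CharP.cast_eq_zero R p
  have hex : ∃ a, φ ∉ ordIdeal Unit R (p ^ a + 1) := by
    by_contra hcon
    push Not at hcon
    apply hne
    ext n
    have h1 := mem_ordIdeal_iff_coeff.mp (hcon n) n
      (by have := Nat.lt_pow_self (n := n) hp.out.one_lt; omega)
    simpa using h1
  have hmin : ∀ m, m < Nat.find hex → ¬ φ ∉ ordIdeal Unit R (p ^ m + 1) :=
    fun m hm => Nat.find_min hex hm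
  have hspec := Nat.find_spec hex
  set a := Nat.find hex with ha
  have hord : φ ∈ ordIdeal Unit R (p ^ a) := by
    rcases Nat.eq_zero_or_pos a with h0 | h0
    · rw [h0, pow_zero]
      exact mem_ordIdeal_one.mpr h.1
    · have h1 : a - 1 < a := by omega
      have h2 := hmin _ h1
      push Not at h2
      have h3 := hom_ord_climb p hR h (a - 1) h2
      rwa [show a - 1 + 1 = a by omega] at h3
  refine ⟨a, hord, fun h0 => hspec ?_⟩
  rw [mem_ordIdeal_iff_coeff] at hord ⊢
  intro n hn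
  rcases Nat.lt_or_ge n (p ^ a) with h1 | h1
  · exact hord n h1
  · have : n = p ^ a := by omega
    rw [this, h0]

lemma norm_const_unit (x : R) : ‖(fun _ : Unit => x)‖ = ‖x‖ := pi_norm_const x

/-- `φ (x) = κ x ^ q + O(x ^ (2 q))`. -/
theorem ev_hom_lead (p : ℕ) [hp : Fact p.Prime] [CharP R p] {F G : FormalGroup R}
    {φ : PowerSeries R} (h : IsFGHom F G φ) (hI : IntS (φ : MvPowerSeries Unit R)) {a : ℕ}
    (hq : φ ∈ ordIdeal Unit R (p ^ a)) {x : R} (hx : ‖x‖ < 1) :
    ‖ev (σ := Unit) φ (fun _ => x) - PowerSeries.coeff (p ^ a) φ * x ^ p ^ a‖ ≤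
      ‖x‖ ^ (2 * p ^ a) := by
  classical
  set κ := PowerSeries.coeff (p ^ a) φ with hκ
  have hκ1 : ‖κ‖ ≤ 1 := hI _
  have hx' : ‖(fun _ : Unit => x)‖ < 1 := by rwa [norm_const_unit]
  set Q : MvPowerSeries Unit R := MvPowerSeries.C κ * MvPowerSeries.X () ^ p ^ a with hQ
  have hQI : IntS Q := (intS_C hκ1).mul ((intS_X ()).pow _)
  have hQe : ev Q (fun _ : Unit => x) = κ * x ^ p ^ a := by
    rw [hQ, ev_mul (intS_C hκ1) ((intS_X ()).pow _) hx', ev_C, ev_pow (intS_X ()) hx', ev_X]
  have hgap := hom_gap p h hq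
  have hord : Ord (2 * p ^ a) ((φ : MvPowerSeries Unit R) - Q) := by
    intro m hm
    have hm' : m = Finsupp.single () (m ()) := by
      ext u
      simp
    have hdeg : Finsupp.degree m = m () := by
      rw [hm']
      simp
    rw [hdeg] at hm
    have hco : MvPowerSeries.coeff m (φ : MvPowerSeries Unit R) = PowerSeries.coeff (m ()) φ := by
      rw [PowerSeries.coeff]
      congr 1
      rw [← hm']
    rw [map_sub, hco, hQ, MvPowerSeries.coeff_C_mul, MvPowerSeries.coeff_X_pow]
    rcases lt_trichotomy (m ()) (p ^ a) with h1 | h1 | h1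
    · rw [if_neg, mul_zero, sub_zero]
      · exact mem_ordIdeal_iff_coeff.mp hq _ h1
      · intro h2
        rw [h2] at h1
        simp at h1
    · rw [if_pos (by rw [hm', h1]), mul_one, h1, sub_eq_zero]
    · rw [if_neg, mul_zero, sub_zero]
      · exact hgap _ h1 hm
      · intro h2
        rw [h2] at h1
        simp at h1
  have h1 := norm_ev_le_of_ord (hI.sub hQI) hx' hord
  rw [ev_sub hI hQI hx', hQe, norm_const_unit] at h1
  exact h1

lemma norm_pair_le (a b : R) : ‖(![a, b] : Fin 2 → R)‖ ≤ max ‖a‖ ‖b‖ := by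
  refine (pi_norm_le_iff_of_nonneg (by positivity)).mpr fun i => ?_
  fin_cases i
  · simp
  · simp

/-- `x +_G y = x + y + O(max (|x|, |y|) ^ 2)`. -/
theorem padd_bound (G : FormalGroup R) (hG : IntS G.toPowerSeries) {a b : R} (ha : ‖a‖ < 1)
    (hb : ‖b‖ < 1) :
    ‖ev G.toPowerSeries ![a, b] - (a + b)‖ ≤ (max ‖a‖ ‖b‖) ^ 2 := by
  have hnn : ‖(![a, b] : Fin 2 → R)‖ ≤ max ‖a‖ ‖b‖ := norm_pair_le a b
  have hlt : ‖(![a, b] : Fin 2 → R)‖ < 1 := hnn.trans_lt (max_lt ha hb)
  set D : MvPowerSeries (Fin 2) R := MvPowerSeries.X 0 + MvPowerSeries.X 1 with hD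
  have hDI : IntS D := (intS_X 0).add (intS_X 1)
  have hDe : ev D ![a, b] = a + b := by
    rw [hD, ev_add (intS_X 0) (intS_X 1) hlt, ev_X, ev_X]
    simp
  have hord : Ord 2 (G.toPowerSeries - D) := law_sub_add_mem G
  have h1 := norm_ev_le_of_ord (hG.sub hDI) hlt hord
  rw [ev_sub hG hDI hlt, hDe] at h1
  exact h1.trans (pow_le_pow_left₀ (norm_nonneg _) hnn 2)

/-- A finite `G`-sum is the ordinary sum up to a square. -/
theorem foldr_bound {σ : Type*} (G : FormalGroup R) (hG : IntS G.toPowerSeries) (S : List σ)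
    (y : σ → R) {M : ℝ} (hM0 : 0 ≤ M) (hM1 : M < 1) (hy : ∀ b ∈ S, ‖y b‖ ≤ M) :
    ‖S.foldr (fun b acc => ev G.toPowerSeries ![y b, acc]) 0‖ ≤ M ∧
      ‖S.foldr (fun b acc => ev G.toPowerSeries ![y b, acc]) 0 - (S.map y).sum‖ ≤ M ^ 2 := by
  induction S with
  | nil => simp [hM0, sq_nonneg]
  | cons b S ih =>
    obtain ⟨h1, h2⟩ := ih fun c hc => hy c (List.mem_cons_of_mem _ hc)
    have hb := hy b List.mem_cons_self
    set T := S.foldr (fun b acc => ev G.toPowerSeries ![y b, acc]) 0 with hT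
    rw [List.foldr_cons, List.map_cons, List.sum_cons, ← hT]
    have h3 := padd_bound G hG (hb.trans_lt hM1) (h1.trans_lt hM1)
    have h4 : (max ‖y b‖ ‖T‖) ^ 2 ≤ M ^ 2 := pow_le_pow_left₀ (by positivity) (max_le hb h1) 2
    have h5 := h3.trans h4
    have hMM : M ^ 2 ≤ M := by nlinarith
    constructor
    · have e : ev G.toPowerSeries ![y b, T] =
          (ev G.toPowerSeries ![y b, T] - (y b + T)) + (y b + T) := by ring
      rw [e]
      refine (IsUltrametricDist.norm_add_le_max _ _).trans (max_le (h5.trans hMM) ?_)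
      exact (IsUltrametricDist.norm_add_le_max _ _).trans (max_le hb h1)
    · have e : ev G.toPowerSeries ![y b, T] - (y b + (S.map y).sum) =
          (ev G.toPowerSeries ![y b, T] - (y b + T)) + (T - (S.map y).sum) := by ring
      rw [e]
      exact (IsUltrametricDist.norm_add_le_max _ _).trans (max_le h5 h2)

/-- The leading form of a `Hom`-relation. -/
theorem leading_of_relation (p : ℕ) [hp : Fact p.Prime] [CharP R p] (k : ℕ) (hk : 1 ≤ k)
    (G : FormalGroup R) (hfix : ∀ m, MvPowerSeries.coeff m G.toPowerSeries ^ p ^ k =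
      MvPowerSeries.coeff m G.toPowerSeries)
    {L σ : Type*} [DecidableEq σ] (l : L → σ → R) (hlt : ∀ π i, ‖l π i‖ < 1)
    (i0 : σ) (S : List σ) (gg : σ → PowerSeries R) (hS : S.Nodup) (hi0 : i0 ∉ S)
    (hhom : ∀ b, IsFGHom G G (gg b))
    (hgg : ∀ b j, PowerSeries.coeff j (gg b) ^ p ^ k = PowerSeries.coeff j (gg b))
    (hrel : ∀ π, l π i0 = S.foldr (fun b acc =>
        ev G.toPowerSeries ![ev (σ := Unit) (gg b) (fun _ => l π b), acc]) 0) :
    ∃ (T : Finset σ) (κ : σ → R) (e : σ → ℕ), T.Nonempty ∧ (∀ i ∈ T, ‖κ i‖ = 1) ∧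
      ∀ π, ∃ i1 ∈ T, ‖∑ i ∈ T, κ i * l π i ^ p ^ e i‖ ≤ ‖l π i1‖ ^ (2 * p ^ e i1) := by
  classical
  have hQ : 2 ≤ p ^ k := by
    calc 2 ≤ p := hp.out.two_le
      _ = p ^ 1 := (pow_one p).symm
      _ ≤ p ^ k := Nat.pow_le_pow_right hp.out.pos hk
  have hGI : IntS G.toPowerSeries := fun m => norm_le_one_of_pow_eq hQ (hfix m)
  have hggI : ∀ b, IntS (gg b : MvPowerSeries Unit R) := by
    intro b m
    have hm' : m = Finsupp.single () (m ()) := by
      ext u
      simp
    have hco : MvPowerSeries.coeff m (gg b : MvPowerSeries Unit R) =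
        PowerSeries.coeff (m ()) (gg b) := by
      rw [PowerSeries.coeff]
      congr 1
      rw [← hm']
    rw [hco]
    exact norm_le_one_of_pow_eq hQ (hgg b _)
  have hord : ∀ b, ∃ a, gg b ≠ 0 → gg b ∈ ordIdeal Unit R (p ^ a) ∧
      PowerSeries.coeff (p ^ a) (gg b) ≠ 0 := by
    intro b
    by_cases h : gg b = 0
    · exact ⟨0, fun h' => absurd h h'⟩
    · obtain ⟨a, ha⟩ := hom_order p (hhom b) h
      exact ⟨a, fun _ => ha⟩
  choose a ha using hord
  set S' : Finset σ := S.toFinset.filter fun b => gg b ≠ 0 with hS'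
  have hi0S' : i0 ∉ S' := fun h => hi0 (by simpa using (Finset.mem_filter.mp h).1)
  refine ⟨insert i0 S', Function.update (fun b => PowerSeries.coeff (p ^ a b) (gg b)) i0 (-1),
    Function.update a i0 0, Finset.insert_nonempty _ _, ?_, ?_⟩
  · intro i hi
    rcases Finset.mem_insert.mp hi with rfl | hi
    · simp
    · have hne : i ≠ i0 := fun h => hi0S' (h ▸ hi)
      rw [Function.update_of_ne hne]
      have h1 := (Finset.mem_filter.mp hi).2
      have h2 := (ha i h1).2
      have h3 := hgg i (p ^ a i)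
      have h4 : ‖PowerSeries.coeff (p ^ a i) (gg i)‖ ^ p ^ k =
          ‖PowerSeries.coeff (p ^ a i) (gg i)‖ := by
        rw [← norm_pow, h3]
      have h5 : 0 < ‖PowerSeries.coeff (p ^ a i) (gg i)‖ := norm_pos_iff.mpr h2
      have h6 : ‖PowerSeries.coeff (p ^ a i) (gg i)‖ ^ (p ^ k - 1) = 1 := by
        have h7 : ‖PowerSeries.coeff (p ^ a i) (gg i)‖ ^ (p ^ k - 1) *
            ‖PowerSeries.coeff (p ^ a i) (gg i)‖ = 1 * ‖PowerSeries.coeff (p ^ a i) (gg i)‖ := by
          rw [← pow_succ, one_mul, show p ^ k - 1 + 1 = p ^ k by omega, h4]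
        exact mul_right_cancel₀ h5.ne' h7
      exact (pow_eq_one_iff_of_nonneg h5.le (by omega)).mp h6
  · intro π
    set κ := Function.update (fun b => PowerSeries.coeff (p ^ a b) (gg b)) i0 (-1) with hκdef
    set e := Function.update a i0 0 with hedef
    have hκb : ∀ b ∈ S', κ b = PowerSeries.coeff (p ^ a b) (gg b) := fun b hb => by
      have hne : b ≠ i0 := fun h => hi0S' (h ▸ hb)
      rw [hκdef, Function.update_of_ne hne]
    have heb : ∀ b ∈ S', e b = a b := fun b hb => by
      have hne : b ≠ i0 := fun h => hi0S' (h ▸ hb)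
      rw [hedef, Function.update_of_ne hne]
    obtain ⟨i1, hi1, hmax⟩ := Finset.exists_max_image (insert i0 S')
      (fun i => ‖l π i‖ ^ p ^ e i) (Finset.insert_nonempty _ _)
    refine ⟨i1, hi1, ?_⟩
    set M := ‖l π i1‖ ^ p ^ e i1 with hM
    have hM0 : 0 ≤ M := by positivity
    have hM1 : M < 1 := pow_lt_one₀ (norm_nonneg _) (hlt π i1)
      (pow_ne_zero _ hp.out.ne_zero)
    have hM2 : ‖l π i1‖ ^ (2 * p ^ e i1) = M ^ 2 := by
      rw [hM, ← pow_mul, mul_comm]
    rw [hM2]
    set y : σ → R := fun b => ev (σ := Unit) (gg b) (fun _ => l π b) with hy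
    have hx' : ∀ b, ‖(fun _ : Unit => l π b)‖ < 1 := fun b => by
      rw [norm_const_unit]
      exact hlt π b
    -- the leading terms
    have hlead : ∀ b ∈ S', ‖y b - κ b * l π b ^ p ^ e b‖ ≤ M ^ 2 := by
      intro b hb
      have h1 := (Finset.mem_filter.mp hb).2
      have h2 := ev_hom_lead p (hhom b) (hggI b) (ha b h1).1 (hlt π b)
      rw [hκb b hb, heb b hb]
      refine h2.trans ?_
      have h3 := hmax b (Finset.mem_insert_of_mem hb)
      simp only [heb b hb] at h3
      rw [mul_comm, pow_mul]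
      exact pow_le_pow_left₀ (by positivity) h3 2
    have hyle : ∀ b ∈ S, ‖y b‖ ≤ M := by
      intro b hb
      by_cases h0 : gg b = 0
      · rw [hy]
        simp only [h0]
        have : ev (σ := Unit) (0 : PowerSeries R) (fun _ => l π b) = 0 := ev_zero _
        rw [this, norm_zero]
        exact hM0
      · have hb' : b ∈ S' := Finset.mem_filter.mpr ⟨by simpa using hb, h0⟩
        have h1 := hlead b hb'
        have h2 := hmax b (Finset.mem_insert_of_mem hb')
        have hκ1 : ‖κ b‖ ≤ 1 := by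
          rw [hκb b hb']
          exact norm_le_one_of_pow_eq hQ (hgg b _)
        have e1 : y b = (y b - κ b * l π b ^ p ^ e b) + κ b * l π b ^ p ^ e b := by ring
        rw [e1]
        refine (IsUltrametricDist.norm_add_le_max _ _).trans (max_le (h1.trans ?_) ?_)
        · nlinarith
        · rw [norm_mul, norm_pow]
          calc _ ≤ 1 * ‖l π b‖ ^ p ^ e b :=
                mul_le_mul_of_nonneg_right hκ1 (by positivity)
            _ ≤ M := by rw [one_mul]; exact h2
    obtain ⟨-, hfold⟩ := foldr_bound G hGI S y hM0 hM1 hyle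
    rw [← hrel π] at hfold
    -- list sum as a finset sum over `S'`
    have hsum : (S.map y).sum = ∑ b ∈ S', y b := by
      rw [hS', Finset.sum_filter_of_ne, ← List.sum_toFinset _ hS]
      intro b _ hne h0
      apply hne
      simp only [hy, h0]
      exact ev_zero _
    rw [hsum] at hfold
    rw [Finset.sum_insert hi0S']
    have hκ0 : κ i0 = -1 := by simp [hκdef]
    have he0 : e i0 = 0 := by simp [hedef]
    rw [hκ0, he0, pow_zero, pow_one]
    have e1 : -1 * l π i0 + ∑ i ∈ S', κ i * l π i ^ p ^ e i =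
        -(l π i0 - ∑ b ∈ S', y b) + -∑ b ∈ S', (y b - κ b * l π b ^ p ^ e b) := by
      rw [Finset.sum_sub_distrib]
      ring
    rw [e1]
    refine (IsUltrametricDist.norm_add_le_max _ _).trans (max_le ?_ ?_)
    · rwa [norm_neg]
    · rw [norm_neg]
      exact IsUltrametricDist.norm_sum_le_of_forall_le_of_nonneg (by positivity) hlead

/-- **Leading form of the relation**, from the approximate polynomial relations: the hypothesis
`hrel` of Lemma R, for all `π`. -/
theorem exists_leading_relation (p : ℕ) [hp : Fact p.Prime] [CharP R p] [PerfectRing R p] (k : ℕ)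
    (hk : 1 ≤ k) (G : FormalGroup R) (hfix : ∀ m, MvPowerSeries.coeff m G.toPowerSeries ^ p ^ k =
      MvPowerSeries.coeff m G.toPowerSeries)
    {L : Type*} [Add L] [Zero L] (A : Params L) {σ : Type*} [Fintype σ] [DecidableEq σ]
    (l : L → σ → R) (hlt : ∀ π, ‖l π‖ < 1)
    (hadd : ∀ π π' i, l (π + π') i = ev G.toPowerSeries ![l π i, l π' i])
    (hzero : l 0 = 0) (hfrob : ∀ π i, l (A.pm π) i = l π i ^ p ^ k) (d : ℕ)
    (h : ∀ B, d ≤ B → ∃ P : MvPolynomial σ R, AV A l B P ∧
      ∃ m : σ →₀ ℕ, Finsupp.degree m ≤ d ∧ MvPolynomial.coeff m P ≠ 0) :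
    ∃ (T : Finset σ) (κ : σ → R) (e : σ → ℕ), T.Nonempty ∧ (∀ i ∈ T, ‖κ i‖ = 1) ∧
      ∀ π, ∃ i1 ∈ T, ‖∑ i ∈ T, κ i * l π i ^ p ^ e i‖ ≤ ‖l π i1‖ ^ (2 * p ^ e i1) := by
  obtain ⟨i0, S, gg, hS, hi0, hhom, hgg, hrel⟩ :=
    Crest.Agent.Lib.LT.Closure.exists_relation p k hk G hfix A l hlt hadd hzero hfrob d h
  exact leading_of_relation p k hk G hfix l
    (fun π i => (norm_le_pi_norm (l π) i).trans_lt (hlt π)) i0 S gg hS hi0 hhom hgg hrel

end Norm

end Crest.Agent.Lib.LT.RelLead
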