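import Mathlib

/-!
# Weierstrass preparation on the open unit ball of a complete ultrametric field

`O` is the ring of integers of `R`; it is `π`-adically complete for every `π ≠ 0`, `‖π‖ < 1`, so
Mathlib's Weierstrass division at an ideal applies, although `O` is not complete for its maximal
ideal.

`WData g D`: `g` has coefficients of norm `≤ 1`, the `D`-th coefficient has norm `1`, lower ones have
norm `< 1`.  Then `g * U = P` with `P` a monic polynomial of degree `D` with lower coefficients of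
norm `< 1`, `U` a unit power series.  Consequences over an algebraically closed `R`:
* `exists_zero`: `g` has a zero in the open unit ball if `D ≥ 1`;
* `zeros_finite`, `zeros_ncard`: if the zeros are simple, `g` has exactly `D` zeros in the ball.
-/

set_option autoImplicit false
set_option linter.unusedSectionVars false

namespace Crest.Agent.Lib.LT.WeierstrassBall

open PowerSeries Filter Topology
open scoped Polynomial

variable {R : Type*} [NontriviallyNormedField R] [IsUltrametricDist R]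

/-- Evaluation of a power series on the open ball. -/
noncomputable def evB (f : R⟦X⟧) (x : R) : R := ∑' i, coeff i f * x ^ i

/-- Coefficients of norm at most one. -/
def Bdd (f : R⟦X⟧) : Prop := ∀ i, ‖coeff i f‖ ≤ 1

/-- Weierstrass degree `D`. -/
structure WData (g : R⟦X⟧) (D : ℕ) : Prop where
  bdd : Bdd g
  top : ‖coeff D g‖ = 1
  low : ∀ i < D, ‖coeff i g‖ < 1

section eval

variable [CompleteSpace R]

theorem norm_term_le {f : R⟦X⟧} (hf : Bdd f) (x : R) (i : ℕ) :
    ‖coeff i f * x ^ i‖ ≤ ‖x‖ ^ i := by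
  rw [norm_mul, norm_pow]
  calc ‖coeff i f‖ * ‖x‖ ^ i ≤ 1 * ‖x‖ ^ i := by gcongr; exact hf i
    _ = ‖x‖ ^ i := one_mul _

theorem summable_norm_evB {f : R⟦X⟧} (hf : Bdd f) {x : R} (hx : ‖x‖ < 1) :
    Summable fun i => ‖coeff i f * x ^ i‖ :=
  Summable.of_nonneg_of_le (fun _ => norm_nonneg _) (norm_term_le hf x)
    (summable_geometric_of_lt_one (norm_nonneg _) hx)

theorem summable_evB {f : R⟦X⟧} (hf : Bdd f) {x : R} (hx : ‖x‖ < 1) :
    Summable fun i => coeff i f * x ^ i :=
  (summable_norm_evB hf hx).of_norm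

theorem Bdd.add {f g : R⟦X⟧} (hf : Bdd f) (hg : Bdd g) : Bdd (f + g) := fun i => by
  rw [map_add]
  exact (IsUltrametricDist.norm_add_le_max _ _).trans (max_le (hf i) (hg i))

theorem Bdd.neg {f : R⟦X⟧} (hf : Bdd f) : Bdd (-f) := fun i => by
  rw [map_neg, norm_neg]; exact hf i

theorem Bdd.mul {f g : R⟦X⟧} (hf : Bdd f) (hg : Bdd g) : Bdd (f * g) := fun i => by
  rw [coeff_mul]
  refine IsUltrametricDist.norm_sum_le_of_forall_le_of_nonneg zero_le_one fun j _ => ?_
  rw [norm_mul]
  exact mul_le_one₀ (hf _) (norm_nonneg _) (hg _)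

theorem evB_add {f g : R⟦X⟧} (hf : Bdd f) (hg : Bdd g) {x : R} (hx : ‖x‖ < 1) :
    evB (f + g) x = evB f x + evB g x := by
  simp only [evB, map_add, add_mul]
  exact (summable_evB hf hx).tsum_add (summable_evB hg hx)

theorem evB_mul {f g : R⟦X⟧} (hf : Bdd f) (hg : Bdd g) {x : R} (hx : ‖x‖ < 1) :
    evB (f * g) x = evB f x * evB g x := by
  have h := tsum_mul_tsum_eq_tsum_sum_antidiagonal_of_summable_norm
    (summable_norm_evB hf hx) (summable_norm_evB hg hx)
  simp only [evB]
  rw [h]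
  refine tsum_congr fun n => ?_
  rw [coeff_mul, Finset.sum_mul]
  refine Finset.sum_congr rfl fun ij hij => ?_
  have : ij.1 + ij.2 = n := Finset.HasAntidiagonal.mem_antidiagonal.mp hij
  rw [← this, pow_add]; ring

theorem norm_evB_le {f : R⟦X⟧} (hf : Bdd f) {x : R} (hx : ‖x‖ < 1) : ‖evB f x‖ ≤ 1 := by
  refine IsUltrametricDist.norm_tsum_le_of_forall_le_of_nonneg zero_le_one fun i => ?_
  exact (norm_term_le hf x i).trans (pow_le_one₀ (norm_nonneg _) hx.le)

/-- Splitting off the constant term. -/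
theorem evB_eq_add {f : R⟦X⟧} (hf : Bdd f) {x : R} (hx : ‖x‖ < 1) :
    evB f x = coeff 0 f + ∑' i, coeff (i + 1) f * x ^ (i + 1) := by
  have := (summable_evB hf hx).tsum_eq_zero_add
  simpa [evB] using this

theorem norm_tail_le {f : R⟦X⟧} (hf : Bdd f) {x : R} (hx : ‖x‖ < 1) :
    ‖∑' i, coeff (i + 1) f * x ^ (i + 1)‖ ≤ ‖x‖ := by
  refine IsUltrametricDist.norm_tsum_le_of_forall_le_of_nonneg (norm_nonneg _) fun i => ?_
  refine (norm_term_le hf x (i + 1)).trans ?_
  calc ‖x‖ ^ (i + 1) ≤ ‖x‖ ^ 1 := pow_le_pow_of_le_one (norm_nonneg _) hx.le (by omega)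
    _ = ‖x‖ := pow_one _

/-- A unit power series has a value of norm one. -/
theorem norm_evB_eq_one {f : R⟦X⟧} (hf : Bdd f) (h0 : ‖coeff 0 f‖ = 1) {x : R} (hx : ‖x‖ < 1) :
    ‖evB f x‖ = 1 := by
  rw [evB_eq_add hf hx]
  have h1 : ‖∑' i, coeff (i + 1) f * x ^ (i + 1)‖ < ‖coeff 0 f‖ := by
    rw [h0]; exact (norm_tail_le hf hx).trans_lt hx
  rw [IsUltrametricDist.norm_add_eq_max_of_norm_ne_norm h1.ne', max_eq_left h1.le, h0]

/-- Evaluation of a polynomial. -/
theorem evB_coe (P : R[X]) (x : R) : evB (P : R⟦X⟧) x = P.eval x := by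
  simp only [evB, Polynomial.coeff_coe]
  rw [Polynomial.eval_eq_sum_range, tsum_eq_sum (s := Finset.range (P.natDegree + 1))]
  intro i hi
  rw [Polynomial.coeff_eq_zero_of_natDegree_lt (by simpa [Nat.lt_succ_iff] using hi), zero_mul]

theorem Bdd.coe {P : R[X]} (h : ∀ i, ‖P.coeff i‖ ≤ 1) : Bdd (P : R⟦X⟧) := fun i => by
  rw [Polynomial.coeff_coe]; exact h i

end eval

section ring

/-- The ring of integers of `R`. -/
def O (R : Type*) [NontriviallyNormedField R] [IsUltrametricDist R] : Subring R where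
  carrier := {x | ‖x‖ ≤ 1}
  mul_mem' := fun {a b} ha hb => by
    change ‖a‖ ≤ 1 at ha; change ‖b‖ ≤ 1 at hb; change ‖a * b‖ ≤ 1; rw [norm_mul]
    exact mul_le_one₀ ha (norm_nonneg _) hb
  one_mem' := by simp
  add_mem' := fun {a b} ha hb => (IsUltrametricDist.norm_add_le_max _ _).trans (max_le ha hb)
  zero_mem' := by simp
  neg_mem' := fun {a} ha => by simpa using ha

theorem mem_O {x : R} : x ∈ O R ↔ ‖x‖ ≤ 1 := Iff.rfl

variable (π : O R) (hπ0 : (π : R) ≠ 0) (hπ1 : ‖(π : R)‖ < 1)

include hπ0 in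
theorem mem_span_pow_iff (n : ℕ) (x : O R) :
    x ∈ (Ideal.span {π} ^ n : Ideal (O R)) ↔ ‖(x : R)‖ ≤ ‖(π : R)‖ ^ n := by
  rw [Ideal.span_singleton_pow, Ideal.mem_span_singleton']
  constructor
  · rintro ⟨c, rfl⟩
    have hc : ‖(c : R)‖ ≤ 1 := c.2
    simp only [Subring.coe_mul, Subring.coe_pow, norm_mul, norm_pow]
    calc ‖(c : R)‖ * ‖(π : R)‖ ^ n ≤ 1 * ‖(π : R)‖ ^ n := by gcongr
      _ = _ := one_mul _
  · intro h
    have hne : ((π : R) ^ n) ≠ 0 := pow_ne_zero _ hπ0
    refine ⟨⟨(x : R) / (π : R) ^ n, ?_⟩, ?_⟩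
    · rw [mem_O, norm_div, norm_pow]
      exact div_le_one_of_le₀ h (by positivity)
    · apply Subtype.ext
      simp only [Subring.coe_mul, Subring.coe_pow]
      field_simp

include hπ0 in
theorem mem_smul_top_iff (n : ℕ) (x : O R) :
    x ∈ ((Ideal.span {π} ^ n : Ideal (O R)) • ⊤ : Submodule (O R) (O R)) ↔
      ‖(x : R)‖ ≤ ‖(π : R)‖ ^ n := by
  rw [smul_eq_mul, Ideal.mul_top, mem_span_pow_iff π hπ0]

include hπ0 hπ1 in
/-- `O` is `π`-adically complete. -/
theorem isAdicComplete [CompleteSpace R] : IsAdicComplete (Ideal.span {π} : Ideal (O R)) (O R) := by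
  refine { haus' := ?_, prec' := ?_ }
  · intro x hx
    have h : ∀ n : ℕ, ‖(x : R)‖ ≤ ‖(π : R)‖ ^ n := by
      intro n
      have := hx n
      rw [SModEq.zero, mem_smul_top_iff π hπ0] at this
      exact this
    have h2 : ‖(x : R)‖ ≤ 0 := ge_of_tendsto'
      (tendsto_pow_atTop_nhds_zero_of_lt_one (norm_nonneg _) hπ1) h
    apply Subtype.ext
    simpa using h2
  · intro f hf
    have hf' : ∀ {m n : ℕ}, m ≤ n → ‖((f m : O R) : R) - (f n : R)‖ ≤ ‖(π : R)‖ ^ m := by
      intro m n hmn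
      have := hf hmn
      rw [SModEq.sub_mem, mem_smul_top_iff π hπ0] at this
      simpa using this
    have hcau : CauchySeq fun n => ((f n : O R) : R) := by
      apply NonarchimedeanAddGroup.cauchySeq_of_tendsto_sub_nhds_zero
      rw [tendsto_zero_iff_norm_tendsto_zero]
      refine squeeze_zero (fun _ => norm_nonneg _) (fun n => ?_)
        (tendsto_pow_atTop_nhds_zero_of_lt_one (norm_nonneg _) hπ1)
      rw [norm_sub_rev]
      exact hf' (Nat.le_succ n)
    obtain ⟨L, hL⟩ := cauchySeq_tendsto_of_complete hcau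
    have hL1 : ‖L‖ ≤ 1 := le_of_tendsto hL.norm (Eventually.of_forall fun n => (f n).2)
    refine ⟨⟨L, hL1⟩, fun n => ?_⟩
    rw [SModEq.sub_mem, mem_smul_top_iff π hπ0]
    have h3 : Tendsto (fun k => ‖((f n : O R) : R) - (f k : R)‖) atTop (𝓝 ‖((f n : O R) : R) - L‖) :=
      (tendsto_const_nhds.sub hL).norm
    have := le_of_tendsto h3 (eventually_atTop.mpr ⟨n, fun k hk => hf' hk⟩)
    simpa using this

end ring

section factor

variable [CompleteSpace R]

/-- A uniformizing bound for the lower coefficients. -/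
theorem exists_bound (g : R⟦X⟧) (D : ℕ) (hlow : ∀ i < D, ‖coeff i g‖ < 1) :
    ∃ π : R, π ≠ 0 ∧ ‖π‖ < 1 ∧ ∀ i < D, ‖coeff i g‖ ≤ ‖π‖ := by
  classical
  by_cases h : ∃ i < D, coeff i g ≠ 0
  · obtain ⟨i₀, hi₀, hne⟩ := h
    have hne' : (Finset.range D).Nonempty := ⟨i₀, Finset.mem_range.mpr hi₀⟩
    obtain ⟨j, hj, hmax⟩ := Finset.exists_max_image (Finset.range D) (fun i => ‖coeff i g‖) hne'
    have hj' := Finset.mem_range.mp hj
    refine ⟨coeff j g, ?_, hlow j hj', fun i hi => hmax i (Finset.mem_range.mpr hi)⟩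
    intro h0
    have h1 : ‖coeff i₀ g‖ ≤ 0 := by simpa [h0] using hmax i₀ (Finset.mem_range.mpr hi₀)
    exact hne (norm_le_zero_iff.mp h1)
  · push Not at h
    obtain ⟨π, h0, h1⟩ := NormedField.exists_norm_lt_one R
    refine ⟨π, norm_pos_iff.mp h0, h1, fun i hi => ?_⟩
    rw [h i hi, norm_zero]
    exact h0.le

/-- Weierstrass factorization. -/
theorem exists_factor {g : R⟦X⟧} {D : ℕ} (hg : WData g D) :
    ∃ (P : R[X]) (U : R⟦X⟧), P.Monic ∧ P.natDegree = D ∧ (∀ i, ‖P.coeff i‖ ≤ 1) ∧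
      (∀ i < D, ‖P.coeff i‖ < 1) ∧ Bdd U ∧ ‖coeff 0 U‖ = 1 ∧ (P : R⟦X⟧) = g * U := by
  obtain ⟨π₀, hπ0, hπ1, hπlow⟩ := exists_bound g D hg.low
  let π : O R := ⟨π₀, hπ1.le⟩
  have hπ0' : (π : R) ≠ 0 := hπ0
  have hπ1' : ‖(π : R)‖ < 1 := hπ1
  have : IsAdicComplete (Ideal.span {π} : Ideal (O R)) (O R) := isAdicComplete π hπ0' hπ1'
  set I : Ideal (O R) := Ideal.span {π} with hI
  let G : (O R)⟦X⟧ := PowerSeries.mk fun i => ⟨coeff i g, hg.bdd i⟩
  have hGc : ∀ i, ((coeff i G : O R) : R) = coeff i g := by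
    intro i; simp [G]
  have hmem : ∀ x : O R, x ∈ I ↔ ‖(x : R)‖ ≤ ‖(π : R)‖ := by
    intro x
    have := mem_span_pow_iff π hπ0' 1 x
    simpa [hI] using this
  have hItop : I ≠ ⊤ := by
    intro h
    have : (1 : O R) ∈ I := by rw [h]; trivial
    have h1 := (hmem 1).mp this
    simp at h1
    exact absurd hπ1' (not_lt.mpr h1)
  have hord : (G.map (Ideal.Quotient.mk I)).order = (D : ℕ∞) := by
    rw [PowerSeries.order_eq_nat]
    constructor
    · rw [coeff_map]
      intro h0
      have h1 : coeff D G ∈ I := Ideal.Quotient.eq_zero_iff_mem.mp h0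
      have h2 := (hmem _).mp h1
      rw [hGc, hg.top] at h2
      exact absurd hπ1' (not_lt.mpr h2)
    · intro i hi
      rw [coeff_map]
      apply Ideal.Quotient.eq_zero_iff_mem.mpr
      rw [hmem, hGc]
      exact hπlow i hi
  have hordN : (G.map (Ideal.Quotient.mk I)).order.toNat = D := by rw [hord]; simp
  have hunit : IsUnit (coeff D G) := by
    have hnorm : ‖((coeff D G : O R) : R)‖ = 1 := by rw [hGc]; exact hg.top
    have hne : ((coeff D G : O R) : R) ≠ 0 := by
      intro h; rw [h, norm_zero] at hnorm; exact zero_ne_one hnorm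
    refine IsUnit.of_mul_eq_one (⟨((coeff D G : O R) : R)⁻¹, ?_⟩ : O R) ?_
    · rw [mem_O, norm_inv, hnorm, inv_one]
    · apply Subtype.ext
      simp [hne]
  have hdiv : G.IsWeierstrassDivisorAt I := by
    rw [IsWeierstrassDivisorAt, hordN]; exact hunit
  have hW := hdiv.isWeierstrassDivisionAt_div_mod (X ^ D : (O R)⟦X⟧)
  set q := hdiv.div (X ^ D : (O R)⟦X⟧)
  set r := hdiv.mod (X ^ D : (O R)⟦X⟧)
  have hdeg : r.degree < D := by have := hW.degree_lt; rwa [hordN] at this
  have heq : (X ^ D : (O R)⟦X⟧) = G * q + r := hW.eq_mul_add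
  have hrlow : ∀ i < D, r.coeff i ∈ I := by
    intro i hi
    have := hW.coeff_f_sub_r_mem (i := i) (by rw [hordN]; exact hi)
    rw [map_sub, coeff_X_pow, if_neg (by omega), zero_sub, Polynomial.coeff_coe, neg_mem_iff] at this
    exact this
  -- the constant coefficient of `q` has norm one
  have hrD : r.coeff D = 0 := Polynomial.coeff_eq_zero_of_degree_lt hdeg
  have hq0 : ‖((constantCoeff q : O R) : R)‖ = 1 := by
    have h1 := congrArg (coeff D) heq
    rw [coeff_X_pow, if_pos rfl, map_add, Polynomial.coeff_coe, hrD, add_zero, coeff_mul] at h1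
    have hsplit : (Finset.HasAntidiagonal.antidiagonal D) =
        insert (D, 0) ((Finset.HasAntidiagonal.antidiagonal D).erase (D, 0)) := by
      rw [Finset.insert_erase]; simp
    rw [hsplit, Finset.sum_insert (Finset.notMem_erase _ _)] at h1
    set s := ∑ x ∈ (Finset.HasAntidiagonal.antidiagonal D).erase (D, 0), coeff x.1 G * coeff x.2 q with hs
    have hs_small : ‖((s : O R) : R)‖ < 1 := by
      have hmemI : s ∈ I := by
        refine Ideal.sum_mem _ fun x hx => ?_
        have hx1 := Finset.mem_erase.mp hx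
        have hx2 : x.1 + x.2 = D := Finset.HasAntidiagonal.mem_antidiagonal.mp hx1.2
        have hx3 : x.1 < D := by
          have hne : x.2 ≠ 0 := by
            intro h0
            apply hx1.1
            ext <;> simp_all
          omega
        refine Ideal.mul_mem_right _ _ ?_
        rw [hmem, hGc]
        exact hπlow _ hx3
      exact ((hmem _).mp hmemI).trans_lt hπ1'
    have hval : ((coeff D G * coeff 0 q : O R) : R) = 1 - (s : R) := by
      have h1' : (1 : O R) = coeff D G * coeff 0 q + s := h1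
      have h2 : coeff D G * coeff 0 q = 1 - s := by rw [h1']; ring
      rw [h2]; simp
    have hnorm1 : ‖((coeff D G * coeff 0 q : O R) : R)‖ = 1 := by
      rw [hval]
      have h2 : ‖(s : R)‖ < ‖(1 : R)‖ := by simpa using hs_small
      have := IsUltrametricDist.norm_add_eq_max_of_norm_ne_norm (x := (1 : R)) (y := -(s : R))
        (by rw [norm_neg]; exact h2.ne')
      rw [sub_eq_add_neg, this, norm_neg, max_eq_left h2.le, norm_one]
    rw [Subring.coe_mul, norm_mul, hGc, hg.top, one_mul] at hnorm1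
    simpa using hnorm1
  -- pushing to `R`
  let ι : O R →+* R := (O R).subtype
  let P₀ : (O R)[X] := Polynomial.X ^ D - r
  have hP₀ : P₀.Monic := Polynomial.monic_X_pow_sub (by
    refine hdeg.trans_le ?_
    cases D with
    | zero => simp
    | succ D => exact le_rfl)
  have hnt : Nontrivial (O R) := inferInstance
  have hP₀deg : P₀.natDegree = D := by
    apply Polynomial.natDegree_eq_of_degree_eq_some
    have h1 : P₀.degree = (Polynomial.X ^ D : (O R)[X]).degree :=
      Polynomial.degree_sub_eq_left_of_degree_lt (by rw [Polynomial.degree_X_pow]; exact hdeg)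
    rw [h1, Polynomial.degree_X_pow]
  have hP₀eq : (P₀ : (O R)⟦X⟧) = G * q := by
    have h1 : (P₀ : (O R)⟦X⟧) = (X ^ D : (O R)⟦X⟧) - (r : (O R)⟦X⟧) := by
      simp [P₀, Polynomial.coe_sub, Polynomial.coe_pow, Polynomial.coe_X]
    rw [h1, heq]; ring
  refine ⟨P₀.map ι, PowerSeries.map ι q, hP₀.map ι, ?_, ?_, ?_, ?_, ?_, ?_⟩
  · rw [Polynomial.natDegree_map_eq_of_injective (Subtype.val_injective), hP₀deg]
  · intro i
    rw [Polynomial.coeff_map]
    exact (P₀.coeff i).2
  · intro i hi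
    rw [Polynomial.coeff_map]
    have h1 : P₀.coeff i = - r.coeff i := by
      simp only [P₀, Polynomial.coeff_sub, Polynomial.coeff_X_pow, if_neg hi.ne, zero_sub]
    change ‖((P₀.coeff i : O R) : R)‖ < 1
    rw [h1]
    have h2 := (hmem _).mp (hrlow i hi)
    simp only [Subring.coe_neg, norm_neg]
    exact h2.trans_lt hπ1'
  · intro i
    rw [coeff_map]
    exact (coeff i q).2
  · rw [coeff_map, coeff_zero_eq_constantCoeff]
    exact hq0
  · have hgG : g = PowerSeries.map ι G := by
      ext i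
      rw [coeff_map]
      exact (hGc i).symm
    rw [hgG, ← map_mul, ← hP₀eq, Polynomial.polynomial_map_coe]

/-- The zeros of `g` in the ball are the roots of `P`. -/
theorem evB_zero_iff {g U : R⟦X⟧} {P : R[X]} (hgb : Bdd g) (hU : Bdd U) (hU0 : ‖coeff 0 U‖ = 1)
    (h : (P : R⟦X⟧) = g * U) {y : R} (hy : ‖y‖ < 1) :
    evB g y = 0 ↔ P.eval y = 0 := by
  have h1 : P.eval y = evB g y * evB U y := by
    rw [← evB_coe, h, evB_mul hgb hU hy]
  have h2 : evB U y ≠ 0 := by
    intro h0
    have := norm_evB_eq_one hU hU0 hy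
    rw [h0, norm_zero] at this
    exact zero_ne_one this
  rw [h1]
  simp [h2]

/-- The roots of `P` lie in the ball. -/
theorem norm_root_lt {P : R[X]} {D : ℕ} (hP : P.Monic) (hdeg : P.natDegree = D)
    (hlow : ∀ i < D, ‖P.coeff i‖ < 1) {y : R} (hy : P.eval y = 0) : ‖y‖ < 1 := by
  by_contra hge
  push Not at hge
  have hy0 : y ≠ 0 := by
    intro h0; rw [h0, norm_zero] at hge; exact absurd hge (by norm_num)
  have hsum : P.eval y = y ^ D + ∑ i ∈ Finset.range D, P.coeff i * y ^ i := by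
    rw [Polynomial.eval_eq_sum_range, hdeg, Finset.sum_range_succ, add_comm]
    congr 1
    have := hP.coeff_natDegree
    rw [hdeg] at this
    rw [this, one_mul]
  have hlt : ‖∑ i ∈ Finset.range D, P.coeff i * y ^ i‖ < ‖y ^ D‖ := by
    rcases Nat.eq_zero_or_pos D with h0 | hD
    · subst h0; simp [hy0]
    · obtain ⟨j, hj, hmax⟩ := IsUltrametricDist.exists_norm_finsetSum_le_of_nonempty
        (Finset.nonempty_range_iff.mpr hD.ne') (fun i => P.coeff i * y ^ i)
      refine hmax.trans_lt ?_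
      have hj' := Finset.mem_range.mp hj
      rw [norm_mul, norm_pow, norm_pow]
      calc ‖P.coeff j‖ * ‖y‖ ^ j < 1 * ‖y‖ ^ j := by
            apply mul_lt_mul_of_pos_right (hlow j hj')
            positivity
        _ = ‖y‖ ^ j := one_mul _
        _ ≤ ‖y‖ ^ D := pow_le_pow_right₀ hge hj'.le
  rw [hsum] at hy
  have : y ^ D = - ∑ i ∈ Finset.range D, P.coeff i * y ^ i := by linear_combination hy
  rw [this, norm_neg] at hlt
  exact lt_irrefl _ hlt

theorem Bdd.derivative {f : R⟦X⟧} (hf : Bdd f) : Bdd (PowerSeries.derivative R f) := fun i => by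
  rw [coeff_derivative, norm_mul]
  refine mul_le_one₀ (hf _) (norm_nonneg _) ?_
  have := IsUltrametricDist.norm_natCast_le_one R (i + 1)
  simpa using this

variable [IsAlgClosed R]

/-- Existence of a zero in the ball. -/
theorem exists_zero {g : R⟦X⟧} {D : ℕ} (hg : WData g D) (hD : 0 < D) :
    ∃ y : R, ‖y‖ < 1 ∧ evB g y = 0 := by
  obtain ⟨P, U, hP, hdeg, hP1, hlow, hU, hU0, h⟩ := exists_factor hg
  have hdeg' : P.degree ≠ 0 := by
    rw [Polynomial.degree_eq_natDegree hP.ne_zero, hdeg]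
    exact_mod_cast hD.ne'
  obtain ⟨y, hy⟩ := IsAlgClosed.exists_root P hdeg'
  have hy' : ‖y‖ < 1 := norm_root_lt hP hdeg hlow hy
  exact ⟨y, hy', (evB_zero_iff hg.bdd hU hU0 h hy').mpr hy⟩

/-- Exactly `D` zeros if they are simple.  -/
theorem zeros_card {g : R⟦X⟧} {D : ℕ} (hg : WData g D)
    (hsep : ∀ y : R, ‖y‖ < 1 → evB g y = 0 → evB (PowerSeries.derivative R g) y ≠ 0) :
    ∃ s : Finset R, s.card = D ∧ ∀ y, y ∈ s ↔ (‖y‖ < 1 ∧ evB g y = 0) := by
  classical
  obtain ⟨P, U, hP, hdeg, hP1, hlow, hU, hU0, h⟩ := exists_factor hg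
  have hsplit : P.Splits := IsAlgClosed.splits P
  have hcard : P.roots.card = D := by
    rw [← hdeg]
    exact (Polynomial.splits_iff_card_roots.mp hsplit)
  have hmem : ∀ y, y ∈ P.roots ↔ (‖y‖ < 1 ∧ evB g y = 0) := by
    intro y
    rw [Polynomial.mem_roots hP.ne_zero, Polynomial.IsRoot.def]
    constructor
    · intro hy
      have hy' := norm_root_lt hP hdeg hlow hy
      exact ⟨hy', (evB_zero_iff hg.bdd hU hU0 h hy').mpr hy⟩
    · rintro ⟨hy', hy⟩
      exact (evB_zero_iff hg.bdd hU hU0 h hy').mp hy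
  have hnodup : P.roots.Nodup := by
    rw [Multiset.nodup_iff_count_le_one]
    intro y
    rw [Polynomial.count_roots]
    by_contra hgt
    push Not at hgt
    have h1 := (Polynomial.one_lt_rootMultiplicity_iff_isRoot hP.ne_zero).mp hgt
    have hy := (Polynomial.mem_roots hP.ne_zero).mpr h1.1
    obtain ⟨hy1, hy0⟩ := (hmem y).mp hy
    have h2 : (PowerSeries.derivative R) (P : R⟦X⟧) = ((Polynomial.derivative P : R[X]) : R⟦X⟧) :=
      PowerSeries.derivative_coe P
    have h3 : (Polynomial.derivative P).eval y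
        = evB (PowerSeries.derivative R g) y * evB U y := by
      rw [← evB_coe, ← h2, h, Derivation.leibniz]
      simp only [smul_eq_mul]
      rw [evB_add (hg.bdd.mul hU.derivative) (hU.mul hg.bdd.derivative) hy1,
        evB_mul hU hg.bdd.derivative hy1, evB_mul hg.bdd hU.derivative hy1, hy0]
      ring
    have hU' : evB U y ≠ 0 := by
      intro h0
      have := norm_evB_eq_one hU hU0 hy1
      rw [h0, norm_zero] at this
      exact zero_ne_one this
    have h4 : (Polynomial.derivative P).eval y = 0 := h1.2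
    rw [h3] at h4
    exact (mul_ne_zero (hsep y hy1 hy0) hU') h4
  refine ⟨P.roots.toFinset, ?_, fun y => ?_⟩
  · rw [Multiset.toFinset_card_of_nodup hnodup, hcard]
  · rw [Multiset.mem_toFinset, hmem]

/-- For `s` small, `g y = s` has a solution: surjectivity of a series of Weierstrass degree
`D ≥ 1` onto the ball, when `coeff 0 g = 0`. -/
theorem exists_eq {g : R⟦X⟧} {D : ℕ} (hg : WData g D) (hD : 0 < D) (h0 : coeff 0 g = 0)
    {s : R} (hs : ‖s‖ < 1) : ∃ y : R, ‖y‖ < 1 ∧ evB g y = s := by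
  let g' : R⟦X⟧ := g + PowerSeries.C (-s)
  have hC : Bdd (PowerSeries.C (-s) : R⟦X⟧) := fun i => by
    rw [PowerSeries.coeff_C]
    split_ifs
    · rw [norm_neg]; exact hs.le
    · simp
  have hg' : WData g' D := by
    refine ⟨hg.bdd.add hC, ?_, ?_⟩
    · simp only [g', map_add, PowerSeries.coeff_C, if_neg hD.ne', add_zero]
      exact hg.top
    · intro i hi
      simp only [g', map_add, PowerSeries.coeff_C]
      split_ifs with h
      · subst h
        simpa [h0] using hs
      · simpa using hg.low i hi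
  obtain ⟨y, hy, hy0⟩ := exists_zero hg' hD
  refine ⟨y, hy, ?_⟩
  have h1 : evB (PowerSeries.C (-s) : R⟦X⟧) y = -s := by
    rw [← Polynomial.coe_C, evB_coe]; simp
  rw [show g' = g + PowerSeries.C (-s) from rfl, evB_add hg.bdd hC hy, h1] at hy0
  linear_combination hy0

end factor

end Crest.Agent.Lib.LT.WeierstrassBall
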