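import Mathlib
import Crest.Agent.Lib.LT.ChartLinear
import Crest.Agent.Lib.LT.ChartDefs
import Crest.Agent.Lib.LT.WeierstrassBall
import Crest.Agent.Lib.LT.RelLead
import Crest.Agent.Lib.LT.AddExpLaw
import Crest.Agent.Lib.LT.PsiAt

/-!
# (2e), piece (a): the Jacobian of the chart is invertible.

`J i m := coeff (single m 1) (chartS (z i))`.  If `∑ c_m J i m = 0` for all `i`, additivity of `J` on
the zeros of `Ψ_ξ` gives `p ^ r` zeros of `∑ c_m d_m g` in the open ball, while this series has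
Weierstrass degree `≤ p ^ (r - 1)`.
-/

set_option autoImplicit false

namespace Crest.Agent.LT.Chart

open Filter Topology Crest.LubinTate
open Crest.Agent.Lib.LT.EvalS
open Crest.Agent.Lib.LT.FormalIFT (Ord)
open Crest.Agent.LT.PsiCore
open GB

section General

variable {R : Type*} [NontriviallyNormedField R] [IsUltrametricDist R] [CompleteSpace R]

theorem norm_sum_lt_one {ι : Type*} (s : Finset ι) (u : ι → R) (h : ∀ i ∈ s, ‖u i‖ < 1) :
    ‖∑ i ∈ s, u i‖ < 1 := by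
  classical
  induction s using Finset.induction_on with
  | empty => simp
  | insert a s ha ih =>
    rw [Finset.sum_insert ha]
    refine lt_of_le_of_lt (IsUltrametricDist.norm_add_le_max _ _) (max_lt ?_ ?_)
    · exact h a (Finset.mem_insert_self _ _)
    · exact ih fun i hi => h i (Finset.mem_insert_of_mem hi)

open Crest.Agent.Lib.LT.WeierstrassBall in
/-- At most `D` zeros in the ball. -/
theorem card_zeros_le {g : PowerSeries R} {N : ℕ} (hg : WData g N) (s : Finset R)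
    (hs : ∀ y ∈ s, ‖y‖ < 1 ∧ evB g y = 0) : s.card ≤ N := by
  classical
  obtain ⟨P, U, hP, hdeg, hP1, hlow, hU, hU0, h⟩ := exists_factor hg
  have hsub : s ⊆ P.roots.toFinset := by
    intro y hy
    obtain ⟨h1, h2⟩ := hs y hy
    rw [Multiset.mem_toFinset, Polynomial.mem_roots hP.ne_zero, Polynomial.IsRoot.def]
    exact (evB_zero_iff hg.bdd hU hU0 h h1).mp h2
  calc s.card ≤ P.roots.toFinset.card := Finset.card_le_card hsub
    _ ≤ P.roots.card := Multiset.toFinset_card_le _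
    _ ≤ P.natDegree := Polynomial.card_roots' P
    _ = N := hdeg

variable {σ : Type*} [Fintype σ]

/-- If `f (δ) = O (‖δ‖ ^ 2)` then the linear coefficients of `f` vanish. -/
theorem coeff_single_eq_zero_of_norm_ev_le [DecidableEq σ] {f : MvPowerSeries σ R} (hf : IntS f)
    {ε : ℝ} (hε : 0 < ε) {C : ℝ} (h : ∀ δ : σ → R, ‖δ‖ < ε → ‖ev f δ‖ ≤ C * ‖δ‖ ^ 2) (m : σ) :
    MvPowerSeries.coeff (Finsupp.single m 1) f = 0 := by
  classical
  -- the constant term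
  have h00 : ‖(0 : σ → R)‖ < ε := by simpa using hε
  have hc0 : MvPowerSeries.coeff 0 f = 0 := by
    have h1 := h 0 h00
    rw [ev_zero_pt hf] at h1
    have h2 : C * ‖(0 : σ → R)‖ ^ 2 = 0 := by simp
    rw [h2] at h1
    exact norm_le_zero_iff.mp h1
  set b := MvPowerSeries.coeff (Finsupp.single m 1) f with hb
  by_contra hb0
  have hbpos : 0 < ‖b‖ := norm_pos_iff.mpr hb0
  set C' := max C 1 with hC'
  have hC'pos : 0 < C' := lt_of_lt_of_le one_pos (le_max_right _ _)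
  obtain ⟨t, ht0, ht1⟩ := NormedField.exists_norm_lt R
    (lt_min (lt_min hε one_pos) (div_pos hbpos hC'pos))
  set x : σ → R := Pi.single m t with hx
  have hnx : ‖x‖ = ‖t‖ := by
    rw [hx, Pi.norm_single]
  have htε : ‖t‖ < ε := ht1.trans_le ((min_le_left _ _).trans (min_le_left _ _))
  have ht11 : ‖t‖ < 1 := ht1.trans_le ((min_le_left _ _).trans (min_le_right _ _))
  have htb : ‖t‖ < ‖b‖ / C' := ht1.trans_le (min_le_right _ _)
  have hxlt : ‖x‖ < 1 := by rwa [hnx]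
  have h1 := h x (by rwa [hnx])
  have h2 := norm_ev_sub_trS_le hf hxlt 2
  -- evaluate the truncation
  have hm : ∀ n : σ →₀ ℕ, n ∈ lowDeg σ 2 → n ≠ 0 → n ≠ Finsupp.single m 1 →
      MvPowerSeries.coeff n f * mono x n = 0 := by
    intro n hn hn0 hnm
    rw [mem_lowDeg] at hn
    have : ∃ j, j ≠ m ∧ n j ≠ 0 := by
      by_contra hcon
      push Not at hcon
      have hns : n = Finsupp.single m (n m) := by
        ext j
        by_cases hj : j = m
        · subst hj; simp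
        · rw [hcon j hj, Finsupp.single_apply, if_neg (Ne.symm hj)]
      have hdeg : Finsupp.degree n = n m := by
        rw [hns]; simp [Finsupp.degree_single]
      have hnm0 : n m ≠ 0 := by
        intro h0
        apply hn0
        rw [hns, h0]; simp
      have hnm1 : n m = 1 := by omega
      exact hnm (hns.trans (by rw [hnm1]))
    obtain ⟨j, hjm, hj⟩ := this
    have : mono x n = 0 := by
      unfold mono
      apply Finset.prod_eq_zero (i := j) (Finsupp.mem_support_iff.mpr hj)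
      show (x j) ^ n j = 0
      rw [hx, Pi.single_eq_of_ne hjm, zero_pow hj]
    rw [this, mul_zero]
  have hev : ∑ n ∈ lowDeg σ 2, MvPowerSeries.coeff n f * mono x n =
      MvPowerSeries.coeff 0 f + b * t := by
    have h01 : (0 : σ →₀ ℕ) ≠ Finsupp.single m 1 := by
      intro h
      have := DFunLike.congr_fun h m
      simp at this
    rw [Finset.sum_eq_add _ _ h01 (fun n hn hc => hm n hn hc.1 hc.2)]
    · congr 1
      · simp
      · rw [mono_single, hx, hb]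
        simp
    · intro h; exact absurd (mem_lowDeg.mpr (by simp)) h
    · intro h; exact absurd (mem_lowDeg.mpr (by simp [Finsupp.degree_single])) h
  rw [hev, hc0, zero_add] at h2
  have h3 : ‖b * t‖ ≤ C' * ‖t‖ ^ 2 := by
    have e : b * t = ev f x + -(ev f x - b * t) := by ring
    rw [e]
    refine (IsUltrametricDist.norm_add_le_max _ _).trans (max_le ?_ ?_)
    · refine h1.trans ?_
      rw [hnx]
      gcongr
      exact le_max_left _ _
    · rw [norm_neg]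
      refine h2.trans ?_
      rw [hnx]
      calc ‖t‖ ^ 2 = 1 * ‖t‖ ^ 2 := by ring
        _ ≤ C' * ‖t‖ ^ 2 := by gcongr; exact le_max_right _ _
  rw [norm_mul] at h3
  have h4 : ‖b‖ ≤ C' * ‖t‖ := by
    have : ‖b‖ * ‖t‖ ≤ (C' * ‖t‖) * ‖t‖ := by nlinarith
    exact le_of_mul_le_mul_right this ht0
  rw [lt_div_iff₀ hC'pos] at htb
  nlinarith

end General

theorem foldr_induct {α : Type*} (P : α → Prop) {init : α} (h0 : P init) (n : ℕ)
    (f : Fin n → α → α) (hf : ∀ i acc, P acc → P (f i acc)) : P (Fin.foldr n f init) := by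
  induction n with
  | zero => simpa using h0
  | succ n ih =>
    rw [Fin.foldr_succ]
    exact hf _ _ (ih _ fun i acc h => hf _ _ h)

variable {p k r : ℕ} [hp : Fact p.Prime] {K : Type*} [Field K] (D : Stratum p k r K)
variable {R : Type*} [NontriviallyNormedField R] [IsUltrametricDist R] [CompleteSpace R]
variable [Algebra K R]

theorem norm_eq_of_norm_sub_lt {a b : R} (h : ‖a - b‖ < ‖b‖) : ‖a‖ = ‖b‖ := by
  apply le_antisymm
  · have e : a = b + (a - b) := by ring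
    rw [e]
    exact (IsUltrametricDist.norm_add_le_max _ _).trans (max_le le_rfl h.le)
  · by_contra hcon
    rw [not_le] at hcon
    have e : b = a + -(a - b) := by ring
    have h2 : ‖b‖ ≤ max ‖a‖ ‖a - b‖ := by
      conv_lhs => rw [e]
      refine (IsUltrametricDist.norm_add_le_max _ _).trans ?_
      rw [norm_neg]
    exact absurd h2 (not_le.mpr (max_lt hcon h))

section Weier

variable {ρ : ℝ} [hρ0 : Fact (0 < ρ)] [hρ1 : Fact (ρ < 1)]

/-- `∑ c_m d_m g`. -/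
noncomputable def Stratum.dgc (ρ : ℝ) [Fact (0 < ρ)] [Fact (ρ < 1)] (ξ : Pt r R) (c : Fin r → R) :
    PowerSeries R :=
  ∑ m, PowerSeries.C (c m) * D.dg ρ ξ m

theorem Stratum.coeff_dgc (ξ : Pt r R) (c : Fin r → R) (n : ℕ) :
    PowerSeries.coeff n (D.dgc ρ ξ c) = ∑ m, c m * PowerSeries.coeff n (D.dg ρ ξ m) := by
  simp [Stratum.dgc, map_sum, PowerSeries.coeff_C_mul]

theorem Stratum.int1_dgc (ξ : Pt r R) {c : Fin r → R} (hc : ∀ m, ‖c m‖ ≤ 1) :
    Int1 (D.dgc ρ ξ c) := by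
  intro n
  rw [D.coeff_dgc]
  refine IsUltrametricDist.norm_sum_le_of_forall_le_of_nonneg zero_le_one fun m _ => ?_
  rw [norm_mul]
  exact mul_le_one₀ (hc m) (norm_nonneg _) (D.int1_dg ξ m n)

theorem Stratum.ev1_dgc (ξ : Pt r R) (c : Fin r → R) {x : R} (hx : ‖x‖ < 1) :
    ev1 (D.dgc ρ ξ c) x = ∑ m, c m * ev1 (D.dg ρ ξ m) x := by
  unfold ev1
  simp_rw [D.coeff_dgc, Finset.sum_mul]
  rw [Summable.tsum_finsetSum]
  · refine Finset.sum_congr rfl fun m _ => ?_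
    rw [← tsum_mul_left]
    exact tsum_congr fun n => by ring
  · intro m _
    have h := (summable_ev1 (D.int1_dg (ρ := ρ) ξ m) hx).mul_left (c m)
    refine h.congr fun n => by ring

theorem Stratum.coeff_dg_sub (ξ : Pt r R) (m : Fin r) {n : ℕ} (hn : n < p ^ r) :
    ‖PowerSeries.coeff n (D.dg ρ ξ m) - (if n = p ^ (m : ℕ) then 1 else 0)‖ ≤ ‖ξ.1‖ := by
  rw [D.coeff_dg, Stratum.evS_toSeries]
  have h := norm_coeff_transl_sub_le (D.intS_mapR (R := R) (PowerSeries.coeff n D.gA)) ξ.2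
    (Finsupp.single m 1)
  have h2 : MvPowerSeries.coeff (Finsupp.single m 1) (mapR (K := K) R (PowerSeries.coeff n D.gA)) =
      (if n = p ^ (m : ℕ) then 1 else 0) := by
    rw [MvPowerSeries.coeff_map, D.gA_lin n hn m]
    split_ifs <;> simp
  rwa [h2] at h

open Crest.Agent.Lib.LT.WeierstrassBall in
theorem Stratum.wdata_dgc (ξ : Pt r R) {c : Fin r → R} (hc : ∀ m, ‖c m‖ ≤ 1) (m₀ : Fin r)
    (hm₀ : ‖c m₀‖ = 1) (hlow : ∀ m, m < m₀ → ‖c m‖ < 1) :
    WData (D.dgc ρ ξ c) (p ^ (m₀ : ℕ)) := by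
  have hp1 : 1 < p := hp.out.one_lt
  have key : ∀ n, n < p ^ r →
      ‖PowerSeries.coeff n (D.dgc ρ ξ c) - ∑ m, c m * (if n = p ^ (m : ℕ) then 1 else 0)‖ ≤
        ‖ξ.1‖ := by
    intro n hn
    rw [D.coeff_dgc, ← Finset.sum_sub_distrib]
    refine IsUltrametricDist.norm_sum_le_of_forall_le_of_nonneg (norm_nonneg _) fun m _ => ?_
    rw [← mul_sub, norm_mul]
    calc ‖c m‖ * ‖PowerSeries.coeff n (D.dg ρ ξ m) - (if n = p ^ (m : ℕ) then 1 else 0)‖
        ≤ 1 * ‖ξ.1‖ := mul_le_mul (hc m) (D.coeff_dg_sub ξ m hn) (norm_nonneg _) zero_le_one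
      _ = ‖ξ.1‖ := one_mul _
  refine ⟨D.int1_dgc ξ hc, ?_, ?_⟩
  · have h1 := key (p ^ (m₀ : ℕ)) (Nat.pow_lt_pow_right hp1 m₀.2)
    have h2 : ∑ m, c m * (if p ^ (m₀ : ℕ) = p ^ (m : ℕ) then (1 : R) else 0) = c m₀ := by
      rw [Finset.sum_eq_single m₀]
      · simp
      · intro b _ hb
        have : p ^ (m₀ : ℕ) ≠ p ^ (b : ℕ) := by
          intro h
          exact hb (Fin.ext (Nat.pow_right_injective hp.out.two_le h).symm)
        simp [this]
      · simp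
    rw [h2] at h1
    have h3 := norm_eq_of_norm_sub_lt (lt_of_le_of_lt h1 (by rw [hm₀]; exact ξ.2))
    rw [h3, hm₀]
  · intro i hi
    have h1 := key i (hi.trans (Nat.pow_lt_pow_right hp1 m₀.2))
    have h2 : ‖∑ m, c m * (if i = p ^ (m : ℕ) then (1 : R) else 0)‖ < 1 := by
      refine norm_sum_lt_one _ _ fun m _ => ?_
      split_ifs with h
      · rw [mul_one]
        refine hlow m ?_
        rw [h] at hi
        exact (Nat.pow_lt_pow_iff_right hp1).mp hi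
      · simp
    have e : PowerSeries.coeff i (D.dgc ρ ξ c) =
        (PowerSeries.coeff i (D.dgc ρ ξ c) - ∑ m, c m * (if i = p ^ (m : ℕ) then (1 : R) else 0)) +
          ∑ m, c m * (if i = p ^ (m : ℕ) then (1 : R) else 0) := by ring
    rw [e]
    exact lt_of_le_of_lt (IsUltrametricDist.norm_add_le_max _ _) (max_lt (h1.trans_lt ξ.2) h2)

end Weier

omit [IsUltrametricDist R] [CompleteSpace R] in
theorem exists_normalized {c : Fin r → R} (hc : c ≠ 0) :
    ∃ (a : R) (m₀ : Fin r), a ≠ 0 ∧ (∀ m, ‖a * c m‖ ≤ 1) ∧ ‖a * c m₀‖ = 1 ∧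
      ∀ m, m < m₀ → ‖a * c m‖ < 1 := by
  classical
  obtain ⟨i, hi⟩ := Function.ne_iff.mp hc
  have hne : (Finset.univ : Finset (Fin r)).Nonempty := ⟨i, Finset.mem_univ _⟩
  obtain ⟨s, -, hs⟩ := Finset.exists_max_image Finset.univ (fun m => ‖c m‖) hne
  have hs0 : c s ≠ 0 := by
    intro h0
    have := hs i (Finset.mem_univ _)
    simp only [h0, norm_zero] at this
    exact hi (by simpa using this)
  set a := (c s)⁻¹ with ha
  have ha0 : a ≠ 0 := inv_ne_zero hs0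
  have hle : ∀ m, ‖a * c m‖ ≤ 1 := by
    intro m
    rw [norm_mul, ha, norm_inv, inv_mul_le_iff₀ (norm_pos_iff.mpr hs0), mul_one]
    exact hs m (Finset.mem_univ _)
  have hs1 : ‖a * c s‖ = 1 := by
    rw [ha, inv_mul_cancel₀ hs0, norm_one]
  have hne2 : (Finset.univ.filter fun m => ‖a * c m‖ = 1).Nonempty :=
    ⟨s, by simpa using hs1⟩
  obtain ⟨m₀, hm₀, hmin⟩ := Finset.exists_min_image _ (fun m : Fin r => (m : ℕ)) hne2
  refine ⟨a, m₀, ha0, hle, by simpa using hm₀, fun m hm => ?_⟩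
  refine lt_of_le_of_ne (hle m) fun h => ?_
  have := hmin m (by simpa using h)
  exact absurd hm (not_lt.mpr this)


section Main

variable [CharP R p] [PerfectRing R p]
variable {ρ : ℝ} [hρ0 : Fact (0 < ρ)] [hρ1 : Fact (ρ < 1)]

omit [CharP R p] [PerfectRing R p] in
theorem Stratum.int1_mulSeries_HAt (ξ : Pt r R) (n : ℕ) : Int1 (mulSeries (D.HAt ξ) n) := fun j => by
  rw [Stratum.HAt, Crest.Agent.LT.mulSeries_map, PowerSeries.coeff_map]
  exact D.norm_evA_le_one ξ _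

omit [CharP R p] [PerfectRing R p] in
theorem padd_sub_le (F : FormalGroup R) (hF : IntS F.toPowerSeries) {a b : R} (ha : ‖a‖ < 1)
    (hb : ‖b‖ < 1) : ‖padd F a b - (a + b)‖ ≤ (max ‖a‖ ‖b‖) ^ 2 :=
  Crest.Agent.Lib.LT.RelLead.padd_bound F hF ha hb

omit [CharP R p] [PerfectRing R p] in
theorem padd_zero_zero (F : FormalGroup R) (hF : IntS F.toPowerSeries) : padd F 0 0 = 0 := by
  have h1 := padd_sub_le F hF (a := 0) (b := 0) (by simp) (by simp)
  simpa using h1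

omit [CharP R p] [PerfectRing R p] in
theorem intS_unit_of_int1 {f : PowerSeries R} (hf : Int1 f) : IntS (σ := Unit) f := fun m => by
  have hm : Finsupp.single () (m ()) = m := by ext; simp
  have := hf (m ())
  rwa [PowerSeries.coeff, hm] at this

omit [CharP R p] [PerfectRing R p] in
theorem ev1_mulSeries_succ (F : FormalGroup R) (hF : IntS F.toPowerSeries) (n : ℕ)
    (hI : Int1 (mulSeries F n)) {x : R} (hx : ‖x‖ < 1) :
    ev1 (mulSeries F (n + 1)) x = padd F (ev1 (mulSeries F n) x) x := by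
  rw [Crest.Agent.LT.mulSeries_succ]
  have hX : Int1 (PowerSeries.X : PowerSeries R) := fun j => by
    rw [PowerSeries.coeff_X]
    split_ifs <;> simp
  have h := Crest.Agent.LT.AddExp.ev1_fadd hF (intS_unit_of_int1 hI) (intS_unit_of_int1 hX)
    (Crest.Agent.LT.constantCoeff_mulSeries F n) (by simp) hx
  have hXe : Crest.Agent.Lib.LT.Eval1.ev1 (PowerSeries.X : PowerSeries R) x = x := by
    have := ev1_X_pow (S := R) 1 x
    simpa [ev1, Crest.Agent.Lib.LT.Eval1.ev1] using this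
  rw [hXe] at h
  exact h

/-- The linear coefficient of the chart series at `y`. -/
noncomputable def Stratum.Jc (ρ : ℝ) [Fact (0 < ρ)] [Fact (ρ < 1)] (ξ : Pt r R) {y : R} (hy : ‖y‖ < 1)
    (m : Fin r) : R :=
  MvPowerSeries.coeff (Finsupp.single m 1) (D.chartS ρ ξ hy).toSeries

theorem Stratum.norm_ev_chartS_le (ξ : Pt r R) (hξ : ‖ξ.1‖ ≤ ρ) {y : R} (hy : ‖y‖ < 1)
    (h0 : D.PsiAt ξ y = 0) {δ : Fin r → R} (hδ : ‖δ‖ < 1) :
    ‖ev (D.chartS ρ ξ hy).toSeries δ‖ ≤ ‖δ‖ := by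
  have hord : Ord 1 (D.chartS ρ ξ hy).toSeries := by
    refine Crest.Agent.Lib.LT.FormalIFT.ord_one_iff.mpr ?_
    rw [← MvPowerSeries.coeff_zero_eq_constantCoeff_apply, D.coeff_zero_chartS ξ hξ hy, h0]
  have := norm_ev_le_of_ord (fun m => GB.norm_coeff_le_one _ m) hδ hord
  rwa [pow_one] at this

/-- Additivity of the linear coefficients on the zeros of `Ψ_ξ`. -/
theorem Stratum.Jc_padd (hPA : ∀ (ξ' : Pt r R) {x y : R}, ‖x‖ < 1 → ‖y‖ < 1 →
      D.PsiAt ξ' (padd (D.ΓR R) x y) = padd (D.HAt ξ') (D.PsiAt ξ' x) (D.PsiAt ξ' y))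
    (ξ : Pt r R) (hξ : ‖ξ.1‖ ≤ ρ) {y y' : R} (hy : ‖y‖ < 1) (hy' : ‖y'‖ < 1)
    (hyy : ‖padd (D.ΓR R) y y'‖ < 1) (h0 : D.PsiAt ξ y = 0) (h0' : D.PsiAt ξ y' = 0) (m : Fin r) :
    D.Jc ρ ξ hyy m = D.Jc ρ ξ hy m + D.Jc ρ ξ hy' m := by
  have hf : IntS ((D.chartS ρ ξ hyy).toSeries - (D.chartS ρ ξ hy).toSeries -
      (D.chartS ρ ξ hy').toSeries) :=
    (IntS.sub (fun m => GB.norm_coeff_le_one _ m) (fun m => GB.norm_coeff_le_one _ m)).sub
      (fun m => GB.norm_coeff_le_one _ m)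
  have key := coeff_single_eq_zero_of_norm_ev_le hf hρ0.out (C := 1) (fun δ hδ => by
    have hδ1 : ‖δ‖ < 1 := hδ.trans hρ1.out
    have hδρ : ‖δ‖ ≤ ρ := hδ.le
    rw [ev_sub (IntS.sub (fun m => GB.norm_coeff_le_one _ m) (fun m => GB.norm_coeff_le_one _ m))
        (fun m => GB.norm_coeff_le_one _ m) hδ1,
      ev_sub (fun m => GB.norm_coeff_le_one _ m) (fun m => GB.norm_coeff_le_one _ m) hδ1]
    have ha := D.norm_ev_chartS_le ξ hξ hy h0 hδ1
    have hb := D.norm_ev_chartS_le ξ hξ hy' h0' hδ1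
    rw [D.chartS_toSeries_ev ξ hξ δ hδρ hyy, hPA _ hy hy']
    rw [D.chartS_toSeries_ev ξ hξ δ hδρ hy] at ha ⊢
    rw [D.chartS_toSeries_ev ξ hξ δ hδρ hy'] at hb ⊢
    set a := D.PsiAt (addPt ξ δ (hδρ.trans_lt hρ1.out)) y
    set b := D.PsiAt (addPt ξ δ (hδρ.trans_lt hρ1.out)) y'
    have h1 := padd_sub_le _ (D.intS_HAt (addPt ξ δ (hδρ.trans_lt hρ1.out)))
      (ha.trans_lt hδ1) (hb.trans_lt hδ1)
    have e : padd (D.HAt (addPt ξ δ (hδρ.trans_lt hρ1.out))) a b - a - b =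
        padd (D.HAt (addPt ξ δ (hδρ.trans_lt hρ1.out))) a b - (a + b) := by ring
    rw [e, one_mul]
    exact h1.trans (pow_le_pow_left₀ (le_max_of_le_left (norm_nonneg _)) (max_le ha hb) 2)) m
  have e : MvPowerSeries.coeff (Finsupp.single m 1) ((D.chartS ρ ξ hyy).toSeries -
      (D.chartS ρ ξ hy).toSeries - (D.chartS ρ ξ hy').toSeries) =
      D.Jc ρ ξ hyy m - D.Jc ρ ξ hy m - D.Jc ρ ξ hy' m := by
    simp [Stratum.Jc]
  rw [e] at key
  linear_combination key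

/-- The property: in the kernel of `Ψ_ξ`, and killed by the linear form `c`. -/
def Stratum.Good (ρ : ℝ) [Fact (0 < ρ)] [Fact (ρ < 1)] (ξ : Pt r R) (c : Fin r → R) (y : R) : Prop :=
  ∃ hy : ‖y‖ < 1, D.PsiAt ξ y = 0 ∧ ∑ m, c m * D.Jc ρ ξ hy m = 0

theorem Stratum.good_padd (hPA : ∀ (ξ' : Pt r R) {x y : R}, ‖x‖ < 1 → ‖y‖ < 1 →
      D.PsiAt ξ' (padd (D.ΓR R) x y) = padd (D.HAt ξ') (D.PsiAt ξ' x) (D.PsiAt ξ' y))
    {ξ : Pt r R} (hξ : ‖ξ.1‖ ≤ ρ) {c : Fin r → R} {y y' : R} (h : D.Good ρ ξ c y)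
    (h' : D.Good ρ ξ c y') : D.Good ρ ξ c (Chart.padd (D.ΓR R) y y') := by
  obtain ⟨hy, h0, h1⟩ := h
  obtain ⟨hy', h0', h1'⟩ := h'
  have hyy : ‖Chart.padd (D.ΓR R) y y'‖ < 1 := norm_padd_lt (D.intS_HAt _) hy hy'
  refine ⟨hyy, ?_, ?_⟩
  · rw [hPA ξ hy hy', h0, h0', padd_zero_zero _ (D.intS_HAt _)]
  · simp_rw [D.Jc_padd hPA ξ hξ hy hy' hyy h0 h0', mul_add]
    rw [Finset.sum_add_distrib, h1, h1', add_zero]

theorem Stratum.good_zero (hPA : ∀ (ξ' : Pt r R) {x y : R}, ‖x‖ < 1 → ‖y‖ < 1 →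
      D.PsiAt ξ' (padd (D.ΓR R) x y) = padd (D.HAt ξ') (D.PsiAt ξ' x) (D.PsiAt ξ' y))
    (hP0 : ∀ ξ' : Pt r R, D.PsiAt ξ' 0 = 0) {ξ : Pt r R} (hξ : ‖ξ.1‖ ≤ ρ) (c : Fin r → R) :
    D.Good ρ ξ c 0 := by
  have h01 : ‖(0 : R)‖ < 1 := by simp
  refine ⟨h01, hP0 ξ, ?_⟩
  have h2 : Chart.padd (D.ΓR R) 0 0 = 0 := padd_zero_zero _ (D.intS_HAt _)
  have h3 : ‖Chart.padd (D.ΓR R) 0 0‖ < 1 := by rw [h2]; exact h01
  have h4 : ∀ m, D.Jc ρ ξ h01 m = 0 := by
    intro m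
    have h5 := D.Jc_padd hPA ξ hξ h01 h01 h3 (hP0 ξ) (hP0 ξ) m
    have h6 : D.Jc ρ ξ h3 m = D.Jc ρ ξ h01 m := by
      simp only [Stratum.Jc]
      congr 3
    rw [h6] at h5
    linear_combination -h5
  simp [h4]

theorem Stratum.good_mulSeries (hPA : ∀ (ξ' : Pt r R) {x y : R}, ‖x‖ < 1 → ‖y‖ < 1 →
      D.PsiAt ξ' (padd (D.ΓR R) x y) = padd (D.HAt ξ') (D.PsiAt ξ' x) (D.PsiAt ξ' y))
    (hP0 : ∀ ξ' : Pt r R, D.PsiAt ξ' 0 = 0) {ξ : Pt r R} (hξ : ‖ξ.1‖ ≤ ρ) {c : Fin r → R} {y : R}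
    (h : D.Good ρ ξ c y) (n : ℕ) : D.Good ρ ξ c (ev1 (mulSeries (D.ΓR R) n) y) := by
  induction n with
  | zero =>
    have : ev1 (mulSeries (D.ΓR R) 0) y = 0 := by
      simp [Crest.Agent.LT.mulSeries_zero, ev1]
    rw [this]
    exact D.good_zero hPA hP0 hξ c
  | succ n ih =>
    have hI : IntS (D.ΓR R).toPowerSeries := D.intS_HAt _
    have hI1 : Int1 (mulSeries (D.ΓR R) n) := D.int1_mulSeries_HAt _ n
    rw [ev1_mulSeries_succ _ hI n hI1 h.1]
    exact D.good_padd hPA hξ ih h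

theorem Stratum.good_combo (hPA : ∀ (ξ' : Pt r R) {x y : R}, ‖x‖ < 1 → ‖y‖ < 1 →
      D.PsiAt ξ' (padd (D.ΓR R) x y) = padd (D.HAt ξ') (D.PsiAt ξ' x) (D.PsiAt ξ' y))
    (hP0 : ∀ ξ' : Pt r R, D.PsiAt ξ' 0 = 0) {ξ : Pt r R} (hξ : ‖ξ.1‖ ≤ ρ) {c : Fin r → R}
    {z : Fin r → R} (h : ∀ i, D.Good ρ ξ c (z i)) (m : Fin r → ℕ) :
    D.Good ρ ξ c (D.combo z m) := by
  unfold Stratum.combo
  refine foldr_induct (D.Good ρ ξ c) (D.good_zero hPA hP0 hξ c) r _ fun i acc hacc => ?_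
  exact D.good_padd hPA hξ (D.good_mulSeries hPA hP0 hξ (h i) _) hacc

/-- **The Jacobian of the chart is invertible.** -/
theorem Stratum.det_Jc_ne_zero (hPA : ∀ (ξ' : Pt r R) {x y : R}, ‖x‖ < 1 → ‖y‖ < 1 →
      D.PsiAt ξ' (padd (D.ΓR R) x y) = padd (D.HAt ξ') (D.PsiAt ξ' x) (D.PsiAt ξ' y))
    (hP0 : ∀ ξ' : Pt r R, D.PsiAt ξ' 0 = 0) (ξ : Pt r R) (hξ : ‖ξ.1‖ ≤ ρ)
    (z : Fin r → R) (hz1 : ∀ i, ‖z i‖ < 1) (hz0 : ∀ i, D.PsiAt ξ (z i) = 0)
    (hinj : Function.Injective fun m : Fin r → Fin p =>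
      D.PsiAt ξ (rootN p R (k + r) (D.combo z fun i => (m i : ℕ)))) :
    (Matrix.of fun i m => MvPowerSeries.coeff (Finsupp.single m 1)
      (D.chartS ρ ξ (hz1 i)).toSeries).det ≠ 0 := by
  classical
  intro hdet
  obtain ⟨v, hv0, hv⟩ := Matrix.exists_mulVec_eq_zero_iff.mpr hdet
  obtain ⟨a, m₀, ha0, hle, hm₀, hlow⟩ := exists_normalized hv0
  set c : Fin r → R := fun m => a * v m with hc
  have hGoodz : ∀ i, D.Good ρ ξ c (z i) := by
    intro i
    refine ⟨hz1 i, hz0 i, ?_⟩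
    have h1 := congrFun hv i
    simp only [Matrix.mulVec, dotProduct, Matrix.of_apply, Pi.zero_apply] at h1
    have h2 : ∑ m, c m * D.Jc ρ ξ (hz1 i) m = a * ∑ m,
        MvPowerSeries.coeff (Finsupp.single m 1) (D.chartS ρ ξ (hz1 i)).toSeries * v m := by
      rw [Finset.mul_sum]
      refine Finset.sum_congr rfl fun m _ => ?_
      simp only [hc, Stratum.Jc]
      ring
    rw [h2, h1, mul_zero]
  have hGood : ∀ m : Fin r → ℕ, D.Good ρ ξ c (D.combo z m) :=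
    D.good_combo hPA hP0 hξ hGoodz
  -- the zeros
  let t : (Fin r → Fin p) → R := fun μ =>
    (D.PsiAt ξ (rootN p R (k + r) (D.combo z fun i => (μ i : ℕ)))) ^ (p ^ k)
  have ht1 : ∀ μ, ‖t μ‖ < 1 := by
    intro μ
    obtain ⟨hy, -, -⟩ := hGood fun i => (μ i : ℕ)
    have hroot := norm_rootN_lt (p := p) hy (k + r)
    have h1 := psi_lt_one (D.pmap_at ξ) (isTower_tw (p := p) (k := k) (r := r) hroot)
    exact lt_of_le_of_lt (norm_pow_le _ _) (pow_lt_one₀ (norm_nonneg _) h1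
      (pow_ne_zero _ hp.out.ne_zero))
  have ht0 : ∀ μ, ev1 (D.dgc ρ ξ c) (t μ) = 0 := by
    intro μ
    obtain ⟨hy, -, h2⟩ := hGood fun i => (μ i : ℕ)
    rw [D.ev1_dgc ξ c (ht1 μ), ← h2]
    refine Finset.sum_congr rfl fun m _ => ?_
    rw [Stratum.Jc, D.coeff_single_chartS ξ hξ m hy]
  have htinj : Function.Injective t := by
    intro μ μ' h
    apply hinj
    have hne : p ^ k ≠ 0 := pow_ne_zero _ hp.out.ne_zero
    have h3 := (iterateFrobenius_inj R p k)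
    refine h3 ?_
    simpa [iterateFrobenius_def] using h
  have hw := D.wdata_dgc (ρ := ρ) ξ hle m₀ hm₀ hlow
  have hcard := card_zeros_le hw (Finset.univ.image t) (by
    intro y hy
    obtain ⟨μ, -, rfl⟩ := Finset.mem_image.mp hy
    exact ⟨ht1 μ, ht0 μ⟩)
  rw [Finset.card_image_of_injective _ htinj, Finset.card_univ, Fintype.card_fun, Fintype.card_fin,
    Fintype.card_fin] at hcard
  exact absurd hcard (not_le.mpr (Nat.pow_lt_pow_right hp.out.one_lt m₀.2))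

end Main

end Crest.Agent.LT.Chart
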