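import Mathlib
import Crest.Agent.Lib.LT.ChartDefs
import Crest.Agent.Lib.LT.ChartJac
import Crest.Agent.Lib.LT.ChartExp
import Crest.Agent.Lib.LT.PsiAt

/-!
# (2e) of #1130: the chart and the approximate polynomial relations.

The Jacobian (`ChartJac`), the expansion (`ChartExp`, `ChartJets`) and the polynomial inversion
(`ChartInv`) are assembled here.
-/

set_option autoImplicit false

namespace Crest.Agent.LT.Chart

open Filter Topology Crest.LubinTate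
open Crest.Agent.Lib.LT.EvalS
open Crest.Agent.Lib.LT.FormalIFT (Ord)
open Crest.Agent.LT.PsiCore

variable {p k r : ℕ} [hp : Fact p.Prime] {K : Type*} [Field K] (D : Stratum p k r K)
variable {R : Type*} [NontriviallyNormedField R] [IsUltrametricDist R] [CompleteSpace R]
variable [Algebra K R] [CharP R p] [PerfectRing R p]

omit [CharP R p] [PerfectRing R p] in
include D in
/-- Translating a nonzero series. -/
theorem Stratum.transl_ne_zero (ξ : Pt r R) {f : MvPowerSeries (Fin r) K} (hf : f ≠ 0) :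
    transl ξ.1 (mapR (K := K) R f) ≠ 0 := by
  intro h
  apply hf
  have h1 : mapR (K := K) R f = 0 := by
    refine eq_zero_of_ev_eq_zero (D.intS_mapR f) one_pos le_rfl fun x hx => ?_
    have h2 := ev_transl (D.intS_mapR (R := R) f) ξ.2 (δ := x - ξ.1)
      (lt_of_le_of_lt (by
        have e : x - ξ.1 = x + -ξ.1 := sub_eq_add_neg _ _
        rw [e]
        refine (IsUltrametricDist.norm_add_le_max _ _).trans ?_
        rw [norm_neg]) (max_lt hx ξ.2))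
    rw [h, ev_zero, sub_add_cancel] at h2
    exact h2.symm
  ext m
  have h3 := congrArg (MvPowerSeries.coeff m) h1
  rw [MvPowerSeries.coeff_map, map_zero] at h3
  simpa using h3

/-- **(2e)**: approximate polynomial relations between the `l_i`, the input of (2f). -/
theorem exists_asymp_poly
    (ξ : Pt r R) (hξ0 : ξ.1 ⟨0, D.hr⟩ ≠ 0)
    (ι : PowerSeries R) (hι0 : PowerSeries.constantCoeff ι = 0) (hι1 : PowerSeries.coeff 1 ι ≠ 0)
    {r₀ : ℝ} (hr₀ : 0 < r₀) (hgrowth : ∀ j, ‖PowerSeries.coeff j ι‖ * r₀ ^ j ≤ 1)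
    (hιp : PowerSeries.subst (mulSeries (D.HAt ξ) p) ι = ι ^ (p ^ k))
    (z : Fin r → R) (hz1 : ∀ i, ‖z i‖ < 1) (hz0 : ∀ i, D.PsiAt ξ (z i) = 0)
    (hinj : Function.Injective fun m : Fin r → Fin p =>
      D.PsiAt ξ (rootN p R (k + r) (D.combo z fun i => (m i : ℕ))))
    (f : MvPowerSeries (Fin r) K) (hf : f ≠ 0)
    {A : Type*} (Lm : ℕ → Set A) (w : A → Pt r R) (θ : A → PowerSeries R)
    (hθ0 : ∀ π, PowerSeries.constantCoeff (θ π) = 0)
    (hθb : ∀ π j, ‖PowerSeries.coeff j (θ π)‖ ≤ 1)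
    (hθhom : ∀ π, IsFGHom (D.HAt (w π)) (D.HAt ξ) (θ π))
    (hfw : ∀ π, D.evA (w π) f = 0)
    (hcont : ∀ ε : ℝ, 0 < ε → ∀ B : ℕ, ∃ M, ∀ π ∈ Lm M, ‖(w π).1 - ξ.1‖ < ε ∧
      ∀ j ≤ B, ‖PowerSeries.coeff j (θ π) - PowerSeries.coeff j PowerSeries.X‖ < ε) :
    ∃ d : ℕ, ∀ B : ℕ, ∃ P : MvPolynomial (Fin r) R,
      (∃ m : Fin r →₀ ℕ, Finsupp.degree m ≤ d ∧ MvPolynomial.coeff m P ≠ 0) ∧
      ∃ (M : ℕ) (C : ℝ), ∀ π ∈ Lm M,
        ‖MvPolynomial.eval (lv D ι w θ z π) P‖ ≤ C * ‖lv D ι w θ z π‖ ^ (B + 1) := by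
  classical
  have hξne : ξ.1 ≠ 0 := fun h => hξ0 (by rw [h]; rfl)
  have : Fact (0 < ‖ξ.1‖) := ⟨norm_pos_iff.mpr hξne⟩
  have : Fact (‖ξ.1‖ < 1) := ⟨ξ.2⟩
  have hdet := D.det_Jc_ne_zero (ρ := ‖ξ.1‖) (fun ξ' _ _ hx hy => D.PsiAt_padd ξ' hx hy)
    D.PsiAt_zero ξ le_rfl z hz1 hz0 hinj
  have hδ : ∀ π, ‖(w π).1 - ξ.1‖ < 1 := fun π => by
    have e : (w π).1 - ξ.1 = (w π).1 + -ξ.1 := sub_eq_add_neg _ _
    rw [e]
    refine lt_of_le_of_lt (IsUltrametricDist.norm_add_le_max _ _) ?_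
    rw [norm_neg]
    exact max_lt (w π).2 ξ.2
  refine asymp_poly_of_expansion Lm (fun π => (w π).1 - ξ.1) (lv D ι w θ z)
    (transl ξ.1 (mapR (K := K) R f)) (intS_transl (D.intS_mapR f) ξ.2) (D.transl_ne_zero ξ hf)
    hδ (fun π => ?_) (fun B hB => ?_)
  · rw [ev_transl (D.intS_mapR f) ξ.2 (hδ π), sub_add_cancel]
    exact hfw π
  · exact exists_expansion D ξ le_rfl hξ0 ι hι0 hι1 hr₀ hgrowth hιp z hz1 hz0 hdet Lm w θ hθ0 hθb
      hθhom hcont B hB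

end Crest.Agent.LT.Chart
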