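import Mathlib
import Crest.Prelude.Def_LubinTate
import Crest.Agent.Lib.LT.FGL

/-!
# Sums of endomorphisms of a commutative formal group law; the automorphism `X +_Γ π`
-/

set_option autoImplicit false

open Crest.LubinTate

namespace Crest.Agent.LT

section

variable {A : Type*} [CommRing A] (Γ : FormalGroup A) [Γ.IsComm]

omit [Γ.IsComm] in
theorem constantCoeff_fadd' {π π' : PowerSeries A} (h : PowerSeries.constantCoeff π = 0)
    (h' : PowerSeries.constantCoeff π' = 0) :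
    PowerSeries.constantCoeff (fadd Γ.toPowerSeries π π') = 0 :=
  constantCoeff_fadd Γ h h'

/-- The sum of two endomorphisms is an endomorphism. -/
theorem isFGHom_fadd {π π' : PowerSeries A} (h : IsFGHom Γ Γ π) (h' : IsFGHom Γ Γ π') :
    IsFGHom Γ Γ (fadd Γ.toPowerSeries π π') := by
  have hX0 : MvPowerSeries.constantCoeff (MvPowerSeries.X 0 : MvPowerSeries (Fin 2) A) = 0 := by simp
  have hX1 : MvPowerSeries.constantCoeff (MvPowerSeries.X 1 : MvPowerSeries (Fin 2) A) = 0 := by simp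
  refine ⟨constantCoeff_fadd Γ h.1 h'.1, ?_⟩
  have e1 : PowerSeries.subst Γ.toPowerSeries (fadd Γ.toPowerSeries π π') =
      fadd Γ.toPowerSeries (PowerSeries.subst Γ.toPowerSeries π)
        (PowerSeries.subst Γ.toPowerSeries π') :=
    psubst_fadd _ h.1 h'.1 Γ.zero_constantCoeff
  have e2 : PowerSeries.subst (MvPowerSeries.X 0 : MvPowerSeries (Fin 2) A)
      (fadd Γ.toPowerSeries π π') =
      fadd Γ.toPowerSeries (PowerSeries.subst (MvPowerSeries.X 0 : MvPowerSeries (Fin 2) A) π)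
        (PowerSeries.subst (MvPowerSeries.X 0 : MvPowerSeries (Fin 2) A) π') :=
    psubst_fadd _ h.1 h'.1 hX0
  have e3 : PowerSeries.subst (MvPowerSeries.X 1 : MvPowerSeries (Fin 2) A)
      (fadd Γ.toPowerSeries π π') =
      fadd Γ.toPowerSeries (PowerSeries.subst (MvPowerSeries.X 1 : MvPowerSeries (Fin 2) A) π)
        (PowerSeries.subst (MvPowerSeries.X 1 : MvPowerSeries (Fin 2) A) π') :=
    psubst_fadd _ h.1 h'.1 hX1
  have e4 : PowerSeries.subst Γ.toPowerSeries π = fadd Γ.toPowerSeries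
      (PowerSeries.subst (MvPowerSeries.X 0 : MvPowerSeries (Fin 2) A) π)
      (PowerSeries.subst (MvPowerSeries.X 1 : MvPowerSeries (Fin 2) A) π) := h.2
  have e5 : PowerSeries.subst Γ.toPowerSeries π' = fadd Γ.toPowerSeries
      (PowerSeries.subst (MvPowerSeries.X 0 : MvPowerSeries (Fin 2) A) π')
      (PowerSeries.subst (MvPowerSeries.X 1 : MvPowerSeries (Fin 2) A) π') := h'.2
  rw [e1, e2, e3, e4, e5]
  exact fadd_interchange Γ (constantCoeff_psubst hX0 h.1) (constantCoeff_psubst hX1 h.1)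
    (constantCoeff_psubst hX0 h'.1) (constantCoeff_psubst hX1 h'.1)

/-- `X` is an endomorphism, hence `X +_Γ π` is one. -/
theorem isFGHom_aOf {π : PowerSeries A} (h : IsFGHom Γ Γ π) :
    IsFGHom Γ Γ (fadd Γ.toPowerSeries PowerSeries.X π) :=
  isFGHom_fadd Γ (isFGHom_X Γ) h

omit [Γ.IsComm] in
/-- Order of a `Γ`-sum. -/
theorem coeff_fadd_lt {π π' : PowerSeries A} {M : ℕ} (h0 : PowerSeries.constantCoeff π = 0)
    (h0' : PowerSeries.constantCoeff π' = 0)
    (h : ∀ i < M, PowerSeries.coeff i π = 0) (h' : ∀ i < M, PowerSeries.coeff i π' = 0) :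
    ∀ i < M, PowerSeries.coeff i (fadd Γ.toPowerSeries π π') = 0 := by
  have hM : π ∈ ordIdeal Unit A M := mem_ordIdeal_iff_coeff.mpr h
  have hM' : π' ∈ ordIdeal Unit A M := mem_ordIdeal_iff_coeff.mpr h'
  have h1 : fadd Γ.toPowerSeries π π' - π - π' ∈ ordIdeal Unit A (M + M) :=
    fadd_sub_mem_ordIdeal Γ h0 h0' hM hM'
  have h2 : fadd Γ.toPowerSeries π π' ∈ ordIdeal Unit A M := by
    have h3 : fadd Γ.toPowerSeries π π' = (fadd Γ.toPowerSeries π π' - π - π') + π + π' := by ring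
    rw [h3]
    exact add_mem (add_mem (ordIdeal_mono (by omega) h1) hM) hM'
  exact mem_ordIdeal_iff_coeff.mp h2

omit [Γ.IsComm] in
/-- `X +_Γ π ≡ X` modulo `X ^ M`. -/
theorem coeff_aOf_lt {π : PowerSeries A} {M : ℕ} (h0 : PowerSeries.constantCoeff π = 0)
    (h : ∀ i < M, PowerSeries.coeff i π = 0) :
    ∀ i < M, PowerSeries.coeff i (fadd Γ.toPowerSeries PowerSeries.X π) =
      PowerSeries.coeff i (PowerSeries.X : PowerSeries A) := by
  have hX1 : (PowerSeries.X : PowerSeries A) ∈ ordIdeal Unit A 1 := X_mem_ordIdeal_one _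
  have hM : π ∈ ordIdeal Unit A M := mem_ordIdeal_iff_coeff.mpr h
  have h1 : fadd Γ.toPowerSeries PowerSeries.X π - PowerSeries.X - π ∈ ordIdeal Unit A (1 + M) :=
    fadd_sub_mem_ordIdeal Γ constantCoeff_PX h0 hX1 hM
  intro i hi
  have h2 := mem_ordIdeal_iff_coeff.mp (ordIdeal_mono (by omega) h1) i hi
  rw [map_sub, map_sub, h i hi, sub_zero, sub_eq_zero] at h2
  exact h2

/-- `X +_Γ π` is an automorphism if `π` has order `≥ 2`. -/
theorem isFGAut_aOf {π : PowerSeries A} (h : IsFGHom Γ Γ π) (h1 : PowerSeries.coeff 1 π = 0)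
    (h0 : PowerSeries.coeff 0 π = 0) :
    IsFGAut Γ (fadd Γ.toPowerSeries PowerSeries.X π) := by
  refine ⟨isFGHom_aOf Γ h, ?_⟩
  have := coeff_aOf_lt Γ h.1 (M := 2) (fun i hi => by
    interval_cases i
    · exact h0
    · exact h1) 1 (by omega)
  rw [this]
  simp

end

end Crest.Agent.LT
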