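import Crest.Agent.Lib.LT.PsiGroup

/-!
# (2b) of S0351: the lattice `T = ker Ψ`, its `p`-basis, and an orthogonal `p`-basis

Everything is abstract over a `PsiSetup` (see `LT/PsiGroup.lean`):
`H[p]` is assumed finite of order `p ^ r` and `p •` is assumed surjective on `H`
(both proved from Weierstrass preparation in `LT/PsiTorsionW.lean`).

* `delta z = Ψ (z / p)`: a surjection `T → H[p]` with kernel `p T` (`delta_surj`, `mem_p_T_of_delta`).
* `IsPBasis z`: `z i ∈ T`, the `δ z_i` are `F_p`-independent.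
* `exists_orthBasis`: there is a `p`-basis `z` with the orthogonality property:
  `|z_i| ^ (q ^ ord_p n_i) ≤ |∑ n_j • z_j|` for all integers `n_j`, `n_i ≠ 0`.
  The norm takes only finitely many values on `T ∖ pT` (`T / p^M T` is finite, and elements of
  `p^M T` are small), so a `p`-basis minimizing `∏ |z_i|` exists; the replacement argument shows it
  is orthogonal.
-/

set_option autoImplicit false
set_option linter.unusedSectionVars false
set_option linter.dupNamespace false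

namespace Crest.Agent.Lib.LT.PsiGroup

open Filter Topology

variable {R : Type*} [NormedField R] [IsUltrametricDist R] [CompleteSpace R]
variable {G H : Type*} [AddCommGroup G] [AddCommGroup H] {p q qk : ℕ}

namespace BallGroup

variable {G₁ : Type*} [AddCommGroup G₁] (B : BallGroup R G₁)

theorem nrm_add_eq_left {a b : G₁} (h : B.nrm b < B.nrm a) : B.nrm (a + b) = B.nrm a := by
  apply le_antisymm
  · exact (B.nrm_add_le a b).trans (max_le le_rfl h.le)
  · have h1 : a = (a + b) - b := by abel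
    have h2 : B.nrm a ≤ max (B.nrm (a + b)) (B.nrm b) := by
      conv_lhs => rw [h1]
      exact B.nrm_sub_le _ _
    rcases le_max_iff.mp h2 with h3 | h3
    · exact h3
    · exact absurd h (not_lt.mpr h3)

theorem nrm_sub_eq_left {a b : G₁} (h : B.nrm b < B.nrm a) : B.nrm (a - b) = B.nrm a := by
  rw [sub_eq_add_neg]
  exact B.nrm_add_eq_left (by rwa [B.nrm_neg])

theorem nrm_lt_of_sub_lt {a b : G₁} {c : ℝ} (h1 : B.nrm (a - b) < c) (h2 : B.nrm b < c) :
    B.nrm a < c := by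
  have h : a = (a - b) + b := by abel
  rw [h]
  exact (B.nrm_add_le _ _).trans_lt (max_lt h1 h2)

theorem nrm_finset_sum_lt {ι : Type*} (s : Finset ι) (f : ι → G₁) {C : ℝ} (hC : 0 < C)
    (h : ∀ i ∈ s, B.nrm (f i) < C) : B.nrm (∑ i ∈ s, f i) < C := by
  classical
  induction s using Finset.induction_on with
  | empty => simpa using hC
  | insert a s ha ih =>
    rw [Finset.sum_insert ha]
    refine (B.nrm_add_le _ _).trans_lt (max_lt (h a (Finset.mem_insert_self _ _)) ?_)
    exact ih fun i hi => h i (Finset.mem_insert_of_mem hi)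

end BallGroup

namespace PsiSetup

variable (S : PsiSetup R G H p q qk)

/-- inverse of the point map -/
noncomputable def ptInv (h : H) : G := (S.pt_surj h).choose

@[simp] theorem pt_ptInv (h : H) : S.pt (S.ptInv h) = h := (S.pt_surj h).choose_spec

theorem root_add (a b : G) : S.root (a + b) = S.root a + S.root b := by
  apply S.pow_injective 1
  simp only [pow_one, nsmul_add, S.p_root]

/-- Division by `p` as a group hom. -/
noncomputable def rootHom : G →+ G where
  toFun := S.root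
  map_zero' := by
    apply S.pow_injective 1
    simp [S.p_root]
  map_add' := S.root_add

@[simp] theorem rootHom_apply (a : G) : S.rootHom a = S.root a := rfl

/-- `δ z = Ψ (z / p)`. -/
noncomputable def delta : G →+ H := S.Psi.comp S.rootHom

@[simp] theorem delta_apply (z : G) : S.delta z = S.Psi (S.root z) := rfl

theorem delta_p (y : G) : S.delta (p • y) = S.Psi y := by
  simp [S.root_p]

/-- The lattice `T = ker Ψ`. -/
noncomputable def T : AddSubgroup G := S.Psi.ker

theorem mem_T {z : G} : z ∈ S.T ↔ S.Psi z = 0 := AddMonoidHom.mem_ker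

theorem p_delta {z : G} (hz : z ∈ S.T) : p • S.delta z = 0 := by
  rw [delta_apply, ← map_nsmul, S.p_root]
  exact S.mem_T.mp hz

theorem p_mem_T {z : G} (hz : z ∈ S.T) : p • z ∈ S.T := S.T.nsmul_mem hz p

/-- the kernel of `δ` on `T` is `p T` -/
theorem root_mem_T {z : G} (hd : S.delta z = 0) : S.root z ∈ S.T := S.mem_T.mpr hd

/-- Elements of `T` are small. -/
theorem nrm_le_rho_of_mem_T {z : G} (hz : z ∈ S.T) : S.BG.nrm z ≤ S.ρ := by
  have := S.nrm_Psi_sub z
  rw [S.mem_T.mp hz, zero_sub, S.BH.nrm_neg, S.nrm_pt] at this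
  exact this

include S in
theorem p_eq_zero_iff {z : G} (n : ℕ) : (p ^ n) • z = 0 ↔ z = 0 := by
  have hq : 0 < q := by have := S.two_le_q; omega
  constructor
  · intro h
    have h0 : S.BG.nrm z ^ (q ^ n) = 0 := by rw [← S.nrm_pow_p, h]; simp
    have : S.BG.nrm z = 0 := (pow_eq_zero_iff (by positivity)).mp h0
    exact S.BG.nrm_eq_zero.mp this
  · rintro rfl; simp

/-- The tower argument: `δ` is onto `H[p]`, in fact `Ψ` hits every `t`, if `p •` is onto on `H`. -/
theorem Psi_surj (hsurj : ∀ b : H, ∃ a : H, p • a = b) (t : H) : ∃ y : G, S.Psi y = t := by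
  classical
  -- the tower
  choose dv hdv using hsurj
  let tw : ℕ → H := fun m => dv^[m] t
  have htw : ∀ m, p • tw (m + 1) = tw m := by
    intro m
    simp only [tw, Function.iterate_succ_apply']
    exact hdv _
  have htw0 : ∀ m, (p ^ m) • tw m = t := by
    intro m
    induction m with
    | zero => simp [tw]
    | succ m ih =>
      rw [pow_succ_smul, htw, ih]
  let y : ℕ → G := fun m => (p ^ m) • S.ptInv (tw m)
  have hstep : ∀ m, S.BG.nrm (y (m + 1) - y m) ≤ S.ρ ^ (q ^ m) := by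
    intro m
    have h1 : y (m + 1) - y m = (p ^ m) • (p • S.ptInv (tw (m + 1)) - S.ptInv (tw m)) := by
      simp only [y]
      rw [pow_succ_smul, nsmul_sub]
    rw [h1, S.nrm_pow_p]
    refine pow_le_pow_left₀ (S.BG.nrm_nonneg _) ?_ _
    -- closeness of `p •` in the two groups
    have h2 := S.close_nsmul p (S.ptInv (tw (m + 1)))
    have h3 : S.BG.nrm (p • S.ptInv (tw (m + 1)) - S.ptInv (tw m))
        = S.BH.nrm (p • S.pt (S.ptInv (tw (m + 1))) - S.pt (p • S.ptInv (tw (m + 1)))) := by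
      rw [S.BG.nrm_sub, S.BH.nrm_sub, norm_sub_rev, S.c_pt, S.pt_ptInv, htw,
        ← S.c_pt (S.ptInv (tw m)), S.pt_ptInv]
    rw [h3]; exact h2
  have hq2 := S.two_le_q
  have hrho_le : ∀ m, S.ρ ^ (q ^ m) ≤ S.ρ := by
    intro m
    have hQ : 1 ≤ q ^ m := Nat.one_le_pow _ _ (by omega)
    calc S.ρ ^ (q ^ m) ≤ S.ρ ^ 1 := pow_le_pow_of_le_one S.ρ_pos.le S.ρ_lt.le hQ
      _ = S.ρ := pow_one _
  have hbd : ∀ m, S.BG.nrm (y m) ≤ max S.ρ (S.BH.nrm t) := by
    intro m
    induction m with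
    | zero =>
      refine le_max_of_le_right (le_of_eq ?_)
      simp only [y, pow_zero, one_smul, tw, Function.iterate_zero, id_eq]
      rw [← S.nrm_pt, S.pt_ptInv]
    | succ m ih =>
      have h1 : y (m + 1) = (y (m + 1) - y m) + y m := by abel
      rw [h1]
      exact (S.BG.nrm_add_le _ _).trans
        (max_le (((hstep m).trans (hrho_le m)).trans (le_max_left _ _)) ih)
  have htq : Tendsto (fun m : ℕ => S.ρ ^ (q ^ m)) atTop (𝓝 0) :=
    tendsto_pow_pow S.ρ_pos.le S.ρ_lt hq2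
  have hcau : CauchySeq fun m => S.BG.c (y m) := by
    apply NonarchimedeanAddGroup.cauchySeq_of_tendsto_sub_nhds_zero
    rw [tendsto_zero_iff_norm_tendsto_zero]
    refine squeeze_zero (fun _ => norm_nonneg _) (fun m => ?_) htq
    rw [← S.BG.nrm_sub]
    exact hstep m
  obtain ⟨yy, hyy⟩ := S.BG.exists_limit y _ (max_lt S.ρ_lt (S.BH.nrm_lt_one t)) hbd hcau
  refine ⟨yy, ?_⟩
  -- `Ψ (y m)` is close to `t`
  have hclose : ∀ m, S.BH.nrm (S.Psi (y m) - t) ≤ S.ρ ^ (qk ^ m) := by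
    intro m
    have h1 : S.Psi (y m) - t = (p ^ m) • (S.Psi (S.ptInv (tw m)) - S.pt (S.ptInv (tw m))) := by
      simp only [y, map_nsmul, nsmul_sub, S.pt_ptInv, htw0]
    rw [h1]
    refine (S.H_frob_iter m _).trans ?_
    exact pow_le_pow_left₀ (S.BH.nrm_nonneg _) (S.nrm_Psi_sub _) _
  have hlim : ∀ n : ℕ, S.BH.nrm (S.Psi yy - t) ≤ S.ρ ^ (qk ^ n) := by
    intro n
    have hpos : 0 < S.ρ ^ (q ^ n) := pow_pos S.ρ_pos _
    have h1 : ∀ᶠ m in atTop, ‖S.BG.c yy - S.BG.c (y m)‖ < S.ρ ^ (q ^ n) := by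
      have := (tendsto_zero_iff_norm_tendsto_zero.mp (tendsto_sub_nhds_zero_iff.mpr hyy))
      have h2 := this.eventually (gt_mem_nhds hpos)
      filter_upwards [h2] with m hm
      rwa [norm_sub_rev]
    obtain ⟨m₀, hm₀⟩ := eventually_atTop.mp h1
    set m := max m₀ n
    have hm := hm₀ m (le_max_left _ _)
    have h2 : S.BH.nrm (S.Psi (yy - y m)) ≤ S.ρ ^ (qk ^ n) := by
      apply S.nrm_Psi_le n
      rw [S.BG.nrm_sub]
      exact hm.le
    have h3 : S.Psi yy - t = S.Psi (yy - y m) + (S.Psi (y m) - t) := by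
      rw [map_sub]; abel
    rw [h3]
    refine (S.BH.nrm_add_le _ _).trans (max_le h2 ((hclose m).trans ?_))
    have hqk : 1 ≤ qk := by have := S.two_le_qk; omega
    exact pow_le_pow_of_le_one S.ρ_pos.le S.ρ_lt.le
      (Nat.pow_le_pow_right hqk (le_max_right _ _))
  have h0 : S.BH.nrm (S.Psi yy - t) ≤ 0 :=
    ge_of_tendsto' S.tendsto_rho hlim
  have h1 : S.Psi yy - t = 0 :=
    S.BH.nrm_eq_zero.mp (le_antisymm h0 (S.BH.nrm_nonneg _))
  exact sub_eq_zero.mp h1

/-- `H[p]`. -/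
def Hp (_S : PsiSetup R G H p q qk) : AddSubgroup H := (nsmulAddMonoidHom (α := H) p).ker

theorem mem_Hp {t : H} : t ∈ S.Hp ↔ p • t = 0 := by
  simp [Hp, AddMonoidHom.mem_ker]

theorem delta_mem_Hp {z : G} (hz : z ∈ S.T) : S.delta z ∈ S.Hp := S.mem_Hp.mpr (S.p_delta hz)

/-- `δ : T → H[p]` is onto. -/
theorem delta_surj (hsurj : ∀ b : H, ∃ a : H, p • a = b) {t : H} (ht : t ∈ S.Hp) :
    ∃ z ∈ S.T, S.delta z = t := by
  obtain ⟨y, hy⟩ := S.Psi_surj hsurj t
  refine ⟨p • y, ?_, ?_⟩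
  · rw [S.mem_T, map_nsmul, hy]; exact S.mem_Hp.mp ht
  · rw [S.delta_p, hy]

/-- `p`-basis: elements of `T` whose `δ` are `F_p`-independent. -/
structure IsPBasis {r : ℕ} (z : Fin r → G) : Prop where
  mem : ∀ i, z i ∈ S.T
  indep : ∀ n : Fin r → ℤ, ∑ i, n i • S.delta (z i) = 0 → ∀ i, (p : ℤ) ∣ n i

section Basis

variable {S} {r : ℕ} [hp : Fact p.Prime]

/-- The `ZMod p` module structure on `H[p]`. -/
@[instance_reducible] noncomputable def hpModule (S : PsiSetup R G H p q qk) : Module (ZMod p) S.Hp :=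
  AddCommGroup.zmodModule (n := p) (fun x => by
    apply Subtype.ext
    simpa using S.mem_Hp.mp x.2)

theorem exists_pBasis (hsurj : ∀ b : H, ∃ a : H, p • a = b)
    (hfin : Finite S.Hp) (hcard : Nat.card S.Hp = p ^ r) :
    ∃ z : Fin r → G, S.IsPBasis z := by
  classical
  let _ := hpModule S
  have : Fintype S.Hp := Fintype.ofFinite _
  have : Module.Finite (ZMod p) S.Hp := Module.Finite.of_finite
  have hfr : Module.finrank (ZMod p) S.Hp = r := by
    have h1 := Module.card_eq_pow_finrank (K := ZMod p) (V := S.Hp)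
    rw [ZMod.card, ← Nat.card_eq_fintype_card, hcard] at h1
    exact (Nat.pow_right_injective hp.out.two_le h1).symm
  let b := Module.finBasisOfFinrankEq (ZMod p) S.Hp hfr
  choose z hzT hz using fun i => S.delta_surj hsurj (b i).2
  refine ⟨z, hzT, fun n hn i => ?_⟩
  have hsum : ∑ i, ((n i : ℤ) : ZMod p) • b i = 0 := by
    apply S.Hp.subtype_injective
    rw [map_sum, map_zero, ← hn]
    refine Finset.sum_congr rfl fun j _ => ?_
    rw [Int.cast_smul_eq_zsmul, map_zsmul, AddSubgroup.subtype_apply, hz]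
  have h0 := (Fintype.linearIndependent_iff.mp b.linearIndependent) _ hsum i
  exact (ZMod.intCast_zmod_eq_zero_iff_dvd _ _).mp h0

/-- A `p`-basis spans: if `H[p]` has order `p ^ r`, then every `t ∈ H[p]` is a combination. -/
theorem IsPBasis.span {z : Fin r → G} (hz : S.IsPBasis z)
    (hfin : Finite S.Hp) (hcard : Nat.card S.Hp = p ^ r) {t : H} (ht : t ∈ S.Hp) :
    ∃ n : Fin r → ℤ, t = ∑ i, n i • S.delta (z i) := by
  classical
  let _ := hpModule S
  have : Fintype S.Hp := Fintype.ofFinite _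
  have : Module.Finite (ZMod p) S.Hp := Module.Finite.of_finite
  have hfr : Module.finrank (ZMod p) S.Hp = r := by
    have h1 := Module.card_eq_pow_finrank (K := ZMod p) (V := S.Hp)
    rw [ZMod.card, ← Nat.card_eq_fintype_card, hcard] at h1
    exact (Nat.pow_right_injective hp.out.two_le h1).symm
  let v : Fin r → S.Hp := fun i => ⟨S.delta (z i), S.delta_mem_Hp (hz.mem i)⟩
  have hv : LinearIndependent (ZMod p) v := by
    rw [Fintype.linearIndependent_iff]
    intro g hg i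
    have h1 : ∑ i, ((g i).val : ℤ) • S.delta (z i) = 0 := by
      have := congrArg S.Hp.subtype hg
      rw [map_sum, map_zero] at this
      rw [← this]
      refine Finset.sum_congr rfl fun j _ => ?_
      have h2 : g j • v j = ((g j).val : ℤ) • v j := by
        conv_lhs => rw [← ZMod.natCast_zmod_val (g j)]
        rw [Nat.cast_smul_eq_nsmul, natCast_zsmul]
      rw [h2, map_zsmul]
      rfl
    have h2 := hz.indep _ h1 i
    have h3 : ((g i).val : ZMod p) = 0 := by
      have := (ZMod.intCast_zmod_eq_zero_iff_dvd _ _).mpr h2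
      simpa using this
    simpa [ZMod.natCast_zmod_val] using h3
  have hspan := hv.span_eq_top_of_card_eq_finrank' (by simp [hfr])
  have hmem : (⟨t, ht⟩ : S.Hp) ∈ Submodule.span (ZMod p) (Set.range v) := by
    rw [hspan]; trivial
  obtain ⟨c, hc⟩ := (Submodule.mem_span_range_iff_exists_fun _).mp hmem
  refine ⟨fun i => ((c i).val : ℤ), ?_⟩
  have := congrArg S.Hp.subtype hc
  rw [map_sum] at this
  have h5 : S.Hp.subtype ⟨t, ht⟩ = t := rfl
  rw [h5] at this
  rw [← this]
  refine Finset.sum_congr rfl fun j _ => ?_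
  have h2 : c j • v j = ((c j).val : ℤ) • v j := by
    conv_lhs => rw [← ZMod.natCast_zmod_val (c j)]
    rw [Nat.cast_smul_eq_nsmul, natCast_zsmul]
  rw [h2, map_zsmul]
  rfl

/-- kernel of `δ` in `T` is `pT`. -/
theorem exists_p_of_delta_zero {w : G} (hd : S.delta w = 0) : ∃ w' ∈ S.T, w = p • w' :=
  ⟨S.root w, S.root_mem_T hd, (S.p_root w).symm⟩

/-- Generation of `T` modulo `p ^ m T`. -/
theorem IsPBasis.exists_rep {z : Fin r → G} (hz : S.IsPBasis z)
    (hfin : Finite S.Hp) (hcard : Nat.card S.Hp = p ^ r) (m : ℕ) {w : G} (hw : w ∈ S.T) :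
    ∃ n : Fin r → ℤ, ∃ w' ∈ S.T, w = ∑ i, n i • z i + (p ^ m) • w' := by
  induction m with
  | zero => exact ⟨0, w, hw, by simp⟩
  | succ m ih =>
    obtain ⟨n, w', hw', h⟩ := ih
    obtain ⟨a, ha⟩ := hz.span hfin hcard (S.delta_mem_Hp hw')
    have h0 : S.delta (w' - ∑ i, a i • z i) = 0 := by
      rw [map_sub, ha, map_sum]
      simp only [map_zsmul, sub_self]
    obtain ⟨w'', hw'', h1⟩ := exists_p_of_delta_zero (S := S) h0
    refine ⟨fun i => n i + (p ^ m : ℕ) * a i, w'', hw'', ?_⟩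
    have h2 : w' = ∑ i, a i • z i + p • w'' := by rw [← h1]; abel
    rw [h, h2, nsmul_add, ← add_assoc, pow_succ_smul]
    congr 1
    rw [Finset.smul_sum, ← Finset.sum_add_distrib]
    refine Finset.sum_congr rfl fun i _ => ?_
    rw [add_smul, mul_smul, natCast_zsmul]

/-- Reduction of the coefficients modulo `p ^ m`. -/
theorem IsPBasis.exists_rep' {z : Fin r → G} (hz : S.IsPBasis z)
    (hfin : Finite S.Hp) (hcard : Nat.card S.Hp = p ^ r) (m : ℕ) {w : G} (hw : w ∈ S.T) :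
    ∃ n : Fin r → Fin (p ^ m), ∃ w' ∈ S.T, w = ∑ i, ((n i : ℕ) : ℤ) • z i + (p ^ m) • w' := by
  obtain ⟨n, w', hw', h⟩ := hz.exists_rep hfin hcard m hw
  have hpos : 0 < p ^ m := pow_pos hp.out.pos m
  have hpos' : (0 : ℤ) < (p ^ m : ℕ) := by exact_mod_cast hpos
  refine ⟨fun i => ⟨((n i) % (p ^ m : ℕ)).toNat, ?_⟩,
    w' + ∑ i, ((n i) / (p ^ m : ℕ)) • z i, ?_, ?_⟩
  · have h1 := Int.emod_lt_of_pos (n i) hpos'
    have h2 := Int.emod_nonneg (n i) hpos'.ne'
    omega
  · exact S.T.add_mem hw' (S.T.sum_mem fun i _ => S.T.zsmul_mem (hz.mem i) _)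
  · have hsplit : ∑ i, n i • z i = ∑ i, (((n i) % (p ^ m : ℕ)).toNat : ℤ) • z i
        + (p ^ m) • ∑ i, ((n i) / (p ^ m : ℕ)) • z i := by
      rw [Finset.smul_sum, ← Finset.sum_add_distrib]
      refine Finset.sum_congr rfl fun i _ => ?_
      have h2 := Int.emod_nonneg (n i) hpos'.ne'
      rw [Int.toNat_of_nonneg h2]
      conv_lhs => rw [← Int.emod_add_mul_ediv (n i) (p ^ m : ℕ)]
      rw [add_smul, mul_smul, natCast_zsmul]
    rw [h, hsplit, nsmul_add]
    abel

/-- Nonzero elements of `H[p]` are uniformly away from zero: lower bound for `T ∖ pT`. -/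
theorem exists_lower_bound (hfin : Finite S.Hp) :
    ∃ ε : ℝ, 0 < ε ∧ ∀ z ∈ S.T, S.delta z ≠ 0 → ε ≤ S.BG.nrm z := by
  classical
  have : Fintype S.Hp := Fintype.ofFinite _
  -- lower bound on the nonzero elements of `H[p]`
  have h1 : ∃ ε₁ : ℝ, 0 < ε₁ ∧ ∀ t ∈ S.Hp, t ≠ 0 → ε₁ ≤ S.BH.nrm t := by
    let f : S.Hp → ℝ := fun t => if (t : H) = 0 then 1 else S.BH.nrm t
    obtain ⟨t₀, ht₀⟩ := Finite.exists_min f
    refine ⟨f t₀, ?_, fun t ht hne => ?_⟩
    · simp only [f]
      split_ifs with h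
      · exact one_pos
      · exact lt_of_le_of_ne (S.BH.nrm_nonneg _) (fun h' => h (S.BH.nrm_eq_zero.mp h'.symm))
    · have := ht₀ ⟨t, ht⟩
      simpa [f, hne] using this
  obtain ⟨ε₁, hε₁, hb⟩ := h1
  obtain ⟨m, hm⟩ : ∃ m : ℕ, S.ρ ^ (qk ^ m) < ε₁ :=
    (S.tendsto_rho.eventually (gt_mem_nhds hε₁)).exists
  have hq : 1 ≤ q := by have := S.two_le_q; omega
  refine ⟨S.ρ ^ (q ^ (m + 1)), pow_pos S.ρ_pos _, fun z hz hd => ?_⟩
  by_contra hlt
  push Not at hlt
  -- `|z / p| < ρ ^ (q ^ m)`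
  have h2 : S.BG.nrm (S.root z) ≤ S.ρ ^ (q ^ m) := by
    have h3 : S.BG.nrm (S.root z) ^ q = S.BG.nrm z := by
      rw [← S.nrm_p, S.p_root]
    have h4 : S.BG.nrm (S.root z) ^ q ≤ (S.ρ ^ (q ^ m)) ^ q := by
      rw [h3, ← pow_mul, ← pow_succ]
      exact hlt.le
    exact (pow_le_pow_iff_left₀ (S.BG.nrm_nonneg _) (pow_pos S.ρ_pos _).le (by omega)).mp h4
  have h5 : S.BH.nrm (S.delta z) ≤ S.ρ ^ (qk ^ m) := S.nrm_Psi_le m _ h2
  have h6 := hb _ (S.delta_mem_Hp hz) hd
  linarith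

/-- The norm takes finitely many values on `T ∖ pT`. -/
theorem IsPBasis.finite_values {z : Fin r → G} (hz : S.IsPBasis z)
    (hfin : Finite S.Hp) (hcard : Nat.card S.Hp = p ^ r) :
    {x : ℝ | ∃ w ∈ S.T, S.delta w ≠ 0 ∧ S.BG.nrm w = x}.Finite := by
  classical
  obtain ⟨ε, hε, hb⟩ := exists_lower_bound (S := S) hfin
  have htq : Tendsto (fun m : ℕ => S.ρ ^ (q ^ m)) atTop (𝓝 0) :=
    tendsto_pow_pow S.ρ_pos.le S.ρ_lt S.two_le_q
  obtain ⟨M, hM⟩ : ∃ M : ℕ, S.ρ ^ (q ^ M) < ε := (htq.eventually (gt_mem_nhds hε)).exists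
  let F : (Fin r → Fin (p ^ M)) → ℝ := fun n => S.BG.nrm (∑ i, ((n i : ℕ) : ℤ) • z i)
  refine (Set.finite_range F).subset ?_
  rintro x ⟨w, hw, hd, rfl⟩
  obtain ⟨n, w', hw', h⟩ := hz.exists_rep' hfin hcard M hw
  refine ⟨n, ?_⟩
  have h1 : S.BG.nrm ((p ^ M) • w') < S.BG.nrm w := by
    refine lt_of_lt_of_le ?_ (hb w hw hd)
    refine lt_of_le_of_lt ?_ hM
    rw [S.nrm_pow_p]
    exact pow_le_pow_left₀ (S.BG.nrm_nonneg _) (S.nrm_le_rho_of_mem_T hw') _
  have h2 : ∑ i, ((n i : ℕ) : ℤ) • z i = w - (p ^ M) • w' := by rw [h]; abel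
  simp only [F]
  rw [h2]
  exact S.BG.nrm_sub_eq_left h1

/-- multiples prime to `p` preserve the norm -/
theorem nrm_zsmul_of_coprime {n : ℤ} (hn : ¬ (p : ℤ) ∣ n) (y : G) :
    S.BG.nrm (n • y) = S.BG.nrm y := by
  apply le_antisymm (S.BG.nrm_zsmul_le n y)
  by_cases hy : y = 0
  · simp [hy]
  have hcop : IsCoprime (p : ℤ) n :=
    (Nat.prime_iff_prime_int.mp hp.out).coprime_iff_not_dvd.mpr hn
  obtain ⟨a, b, hab⟩ := hcop
  have h1 : y = a • (p • y) + b • (n • y) := by
    conv_lhs => rw [← one_zsmul y, ← hab]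
    rw [add_smul, mul_smul, mul_smul, natCast_zsmul]
  have hy1 : S.BG.nrm y < 1 := S.BG.nrm_lt_one y
  have hy0 : 0 < S.BG.nrm y :=
    lt_of_le_of_ne (S.BG.nrm_nonneg _) (fun h => hy (S.BG.nrm_eq_zero.mp h.symm))
  have h2 : S.BG.nrm (a • (p • y)) < S.BG.nrm y := by
    refine (S.BG.nrm_zsmul_le _ _).trans_lt ?_
    rw [S.nrm_p]
    have hq := S.two_le_q
    calc S.BG.nrm y ^ q ≤ S.BG.nrm y ^ 2 := pow_le_pow_of_le_one hy0.le hy1.le hq
      _ < S.BG.nrm y := by nlinarith
  have h3 : S.BG.nrm y ≤ max (S.BG.nrm (a • (p • y))) (S.BG.nrm (b • (n • y))) := by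
    conv_lhs => rw [h1]
    exact S.BG.nrm_add_le _ _
  rcases le_max_iff.mp h3 with h4 | h4
  · exact absurd h4 (not_le.mpr h2)
  · exact h4.trans (S.BG.nrm_zsmul_le _ _)

/-- The norm of a multiple. -/
theorem nrm_zsmul_eq {n : ℤ} (hn : n ≠ 0) (y : G) :
    S.BG.nrm (n • y) = S.BG.nrm y ^ (q ^ padicValInt p n) := by
  obtain ⟨m, hm, hnm⟩ : ∃ m : ℤ, ¬ (p : ℤ) ∣ m ∧ n = (p ^ padicValInt p n : ℕ) * m := by
    have hdvd : ((p ^ padicValInt p n : ℕ) : ℤ) ∣ n := by
      have := padicValInt_dvd (p := p) (a := n)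
      exact_mod_cast this
    obtain ⟨m, hm⟩ := hdvd
    refine ⟨m, ?_, hm⟩
    intro hpm
    obtain ⟨c, hc⟩ := hpm
    have h2 : (p ^ (padicValInt p n + 1) : ℕ) ∣ n.natAbs := by
      rw [← Int.natCast_dvd]
      refine ⟨c, ?_⟩
      generalize padicValInt p n = v at hm ⊢
      rw [hm, hc]; push_cast; ring
    have h3 : padicValInt p n + 1 ≤ padicValInt p n := by
      have := (padicValNat_dvd_iff_le (p := p) (a := n.natAbs) (n := padicValInt p n + 1)
        (by simpa using hn)).mp h2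
      simpa [padicValInt] using this
    omega
  generalize padicValInt p n = v at hnm ⊢
  conv_lhs => rw [hnm]
  rw [mul_smul, natCast_zsmul, S.nrm_pow_p, S.nrm_zsmul_of_coprime hm]

theorem IsPBasis.delta_ne {z : Fin r → G} (hz : S.IsPBasis z) (i : Fin r) : S.delta (z i) ≠ 0 := by
  classical
  intro h0
  have h1 := hz.indep (fun j => if j = i then 1 else 0) (by
    refine Finset.sum_eq_zero fun j _ => ?_
    by_cases hj : j = i
    · simp [hj, h0]
    · simp [hj])
  have h2 := h1 i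
  simp only [if_true] at h2
  have h3 : (p : ℤ) ∣ 1 := h2
  have h4 : p ∣ 1 := by exact_mod_cast h3
  exact hp.out.one_lt.ne' (Nat.dvd_one.mp h4)

theorem IsPBasis.nrm_pos {z : Fin r → G} (hz : S.IsPBasis z) (i : Fin r) : 0 < S.BG.nrm (z i) := by
  refine lt_of_le_of_ne (S.BG.nrm_nonneg _) (fun h => hz.delta_ne i ?_)
  rw [S.BG.nrm_eq_zero.mp h.symm, map_zero]

/-- A `p`-basis minimizing the product of the norms. -/
theorem exists_min_pBasis {z₀ : Fin r → G} (hz₀ : S.IsPBasis z₀)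
    (hfin : Finite S.Hp) (hcard : Nat.card S.Hp = p ^ r) :
    ∃ z : Fin r → G, S.IsPBasis z ∧
      ∀ z' : Fin r → G, S.IsPBasis z' → ∏ i, S.BG.nrm (z i) ≤ ∏ i, S.BG.nrm (z' i) := by
  classical
  have hV := hz₀.finite_values hfin hcard
  set V := {x : ℝ | ∃ w ∈ S.T, S.delta w ≠ 0 ∧ S.BG.nrm w = x} with hVdef
  have : Finite V := hV
  have hW : {x : ℝ | ∃ z : Fin r → G, S.IsPBasis z ∧ x = ∏ i, S.BG.nrm (z i)}.Finite := by
    refine (Set.finite_range (fun f : Fin r → V => ∏ i, (f i : ℝ))).subset ?_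
    rintro x ⟨z, hz, rfl⟩
    refine ⟨fun i => ⟨S.BG.nrm (z i), z i, hz.mem i, hz.delta_ne i, rfl⟩, rfl⟩
  obtain ⟨x, ⟨z, hz, rfl⟩, hmin⟩ := Set.exists_min_image _ id hW ⟨_, z₀, hz₀, rfl⟩
  exact ⟨z, hz, fun z' hz' => hmin _ ⟨z', hz', rfl⟩⟩

/-- **Orthogonality** of a minimal `p`-basis. -/
theorem orth_of_min {z : Fin r → G} (hz : S.IsPBasis z)
    (hmin : ∀ z' : Fin r → G, S.IsPBasis z' → ∏ i, S.BG.nrm (z i) ≤ ∏ i, S.BG.nrm (z' i))
    (n : Fin r → ℤ) (i : Fin r) (hi : n i ≠ 0) :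
    S.BG.nrm (z i) ^ (q ^ padicValInt p (n i)) ≤ S.BG.nrm (∑ j, n j • z j) := by
  classical
  by_contra hlt
  push Not at hlt
  rw [← S.nrm_zsmul_eq hi] at hlt
  set wt : Fin r → ℝ := fun j => S.BG.nrm (n j • z j) with hwt
  have hne : (Finset.univ : Finset (Fin r)).Nonempty := ⟨i, Finset.mem_univ _⟩
  obtain ⟨j₁, -, hj₁⟩ := Finset.exists_max_image Finset.univ wt hne
  set m := wt j₁ with hm
  have hmi : wt i ≤ m := hj₁ i (Finset.mem_univ _)
  have hsum_lt : S.BG.nrm (∑ j, n j • z j) < m := hlt.trans_le hmi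
  have hmpos : 0 < m := lt_of_le_of_lt (S.BG.nrm_nonneg _) hsum_lt
  -- the index set `A`
  let A : Finset (Fin r) := Finset.univ.filter fun j => wt j = m
  have hA : A.Nonempty := ⟨j₁, by simp [A, hm]⟩
  have hAne : ∀ j ∈ A, n j ≠ 0 := by
    intro j hj h0
    have h1 : wt j = m := (Finset.mem_filter.mp hj).2
    rw [hwt] at h1
    simp only [h0, zero_smul, BallGroup.nrm_zero] at h1
    exact hmpos.ne h1
  obtain ⟨j₀, hj₀, hj₀min⟩ := Finset.exists_min_image A (fun j => padicValInt p (n j)) hA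
  set e := padicValInt p (n j₀) with he
  have hj₀ne := hAne j₀ hj₀
  have hj₀wt : S.BG.nrm (z j₀) ^ (q ^ e) = m := by
    rw [he, ← S.nrm_zsmul_eq hj₀ne]
    exact (Finset.mem_filter.mp hj₀).2
  -- the index set `I`
  let I : Finset (Fin r) := Finset.univ.filter fun j => n j ≠ 0 ∧ e ≤ padicValInt p (n j)
  have hnotI : ∀ j, j ∉ I → wt j < m := by
    intro j hj
    by_cases h0 : n j = 0
    · simpa [hwt, h0] using hmpos
    · have hlt' : padicValInt p (n j) < e := by
        by_contra hge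
        exact hj (by simp [I, h0, not_lt.mp hge])
      refine lt_of_le_of_ne (hj₁ j (Finset.mem_univ _)) (fun h => ?_)
      have hjA : j ∈ A := by simp [A, h]
      exact absurd (hj₀min j hjA) (not_le.mpr hlt')
  have hdvd : ∀ j ∈ I, ((p ^ e : ℕ) : ℤ) ∣ n j := by
    intro j hj
    have hj' := (Finset.mem_filter.mp hj).2
    have h1 : ((p ^ padicValInt p (n j) : ℕ) : ℤ) ∣ n j := by
      have := padicValInt_dvd (p := p) (a := n j)
      exact_mod_cast this
    exact (Int.natCast_dvd_natCast.mpr (pow_dvd_pow p hj'.2)).trans h1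
  -- the coefficients
  let c : Fin r → ℤ := fun j => if j ∈ I then n j / ((p ^ e : ℕ) : ℤ) else 0
  have hc : ∀ j ∈ I, ((p ^ e : ℕ) : ℤ) * c j = n j := by
    intro j hj
    simp only [c, if_pos hj]
    exact Int.mul_ediv_cancel' (hdvd j hj)
  let u : G := ∑ j, c j • z j
  have huT : u ∈ S.T := S.T.sum_mem fun j _ => S.T.zsmul_mem (hz.mem j) _
  have hj₀I : j₀ ∈ I := by simp [I, hj₀ne, he]
  have hcj₀ : ¬ (p : ℤ) ∣ c j₀ := by
    intro hd
    obtain ⟨d, hd⟩ := hd
    have h1 := hc j₀ hj₀I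
    rw [hd] at h1
    have h2 : (p ^ (e + 1) : ℕ) ∣ (n j₀).natAbs := by
      rw [← Int.natCast_dvd]
      refine ⟨d, ?_⟩
      rw [← h1]; push_cast; ring
    have h3 : e + 1 ≤ padicValInt p (n j₀) := by
      have := (padicValNat_dvd_iff_le (p := p) (a := (n j₀).natAbs) (n := e + 1)
        (by simpa using hj₀ne)).mp h2
      simpa [padicValInt] using this
    omega
  -- `p ^ e • u` is the part of the sum over `I`
  have hpu : (p ^ e) • u = ∑ j, (if j ∈ I then n j else 0) • z j := by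
    simp only [u]
    rw [Finset.smul_sum]
    refine Finset.sum_congr rfl fun j _ => ?_
    by_cases hj : j ∈ I
    · rw [if_pos hj, ← hc j hj, mul_smul, natCast_zsmul]
    · simp [c, hj]
  have hrest : S.BG.nrm (∑ j, (if j ∈ I then (0 : ℤ) else n j) • z j) < m := by
    refine S.BG.nrm_finset_sum_lt _ _ hmpos fun j _ => ?_
    by_cases hj : j ∈ I
    · simpa [hj] using hmpos
    · simpa [hj] using hnotI j hj
  have hsplit : ∑ j, n j • z j = (p ^ e) • u + ∑ j, (if j ∈ I then (0 : ℤ) else n j) • z j := by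
    rw [hpu, ← Finset.sum_add_distrib]
    refine Finset.sum_congr rfl fun j _ => ?_
    by_cases hj : j ∈ I <;> simp [hj]
  have hw1 : S.BG.nrm ((p ^ e) • u) < m := by
    have h1 : (p ^ e) • u = ∑ j, n j • z j - ∑ j, (if j ∈ I then (0 : ℤ) else n j) • z j := by
      rw [hsplit]; abel
    rw [h1]
    exact (S.BG.nrm_sub_le _ _).trans_lt (max_lt hsum_lt hrest)
  have hu_lt : S.BG.nrm u < S.BG.nrm (z j₀) := by
    rw [S.nrm_pow_p, ← hj₀wt] at hw1
    exact lt_of_pow_lt_pow_left₀ _ (S.BG.nrm_nonneg _) hw1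
  -- the new basis
  let z' : Fin r → G := Function.update z j₀ u
  have hdu : S.delta u = ∑ j, c j • S.delta (z j) := by
    simp only [u, map_sum, map_zsmul]
  have hz' : S.IsPBasis z' := by
    refine ⟨fun j => ?_, fun a ha => ?_⟩
    · by_cases hj : j = j₀
      · simp only [z', hj, Function.update_self]; exact huT
      · simp only [z', Function.update_of_ne hj]; exact hz.mem j
    · have h1 : ∑ j, (a j₀ * c j + (if j = j₀ then 0 else a j)) • S.delta (z j) = 0 := by
        have hsum : ∑ i, a i • S.delta (z' i)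
            = a j₀ • S.delta (z' j₀) + ∑ j ∈ Finset.univ.erase j₀, a j • S.delta (z' j) :=
          (Finset.add_sum_erase _ _ (Finset.mem_univ j₀)).symm
        rw [← ha, hsum]
        have h2 : a j₀ • S.delta (z' j₀) = ∑ j, (a j₀ * c j) • S.delta (z j) := by
          simp only [z', Function.update_self, hdu, Finset.smul_sum, mul_smul]
        have h3 : ∑ j ∈ Finset.univ.erase j₀, a j • S.delta (z' j)
            = ∑ j, (if j = j₀ then 0 else a j) • S.delta (z j) := by
          rw [← Finset.add_sum_erase _ (fun j => (if j = j₀ then 0 else a j) • S.delta (z j))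
            (Finset.mem_univ j₀)]
          simp only [if_true, zero_smul, zero_add]
          refine Finset.sum_congr rfl fun j hj => ?_
          have hj' : j ≠ j₀ := Finset.ne_of_mem_erase hj
          simp [z', Function.update_of_ne hj', hj']
        rw [h2, h3, ← Finset.sum_add_distrib]
        refine Finset.sum_congr rfl fun j _ => ?_
        rw [add_smul]
      have hb := hz.indep _ h1
      have hprime : Prime (p : ℤ) := Nat.prime_iff_prime_int.mp hp.out
      have haj₀ : (p : ℤ) ∣ a j₀ := by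
        have := hb j₀
        simp only [if_true, add_zero] at this
        exact (hprime.dvd_or_dvd this).resolve_right hcj₀
      intro j
      by_cases hj : j = j₀
      · rw [hj]; exact haj₀
      · have := hb j
        simp only [if_neg hj] at this
        exact (Int.dvd_add_right (haj₀.mul_right _)).mp this
  have hmin' := hmin z' hz'
  rw [← Finset.mul_prod_erase Finset.univ _ (Finset.mem_univ j₀),
    ← Finset.mul_prod_erase Finset.univ (fun i => S.BG.nrm (z' i)) (Finset.mem_univ j₀)] at hmin'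
  have hsame : ∏ i ∈ Finset.univ.erase j₀, S.BG.nrm (z' i)
      = ∏ i ∈ Finset.univ.erase j₀, S.BG.nrm (z i) := by
    refine Finset.prod_congr rfl fun j hj => ?_
    simp [z', Function.update_of_ne (Finset.ne_of_mem_erase hj)]
  rw [hsame] at hmin'
  have hpos : 0 < ∏ i ∈ Finset.univ.erase j₀, S.BG.nrm (z i) :=
    Finset.prod_pos fun j _ => hz.nrm_pos j
  have h5 : S.BG.nrm (z j₀) ≤ S.BG.nrm (z' j₀) := le_of_mul_le_mul_right hmin' hpos
  simp only [z', Function.update_self] at h5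
  exact absurd h5 (not_le.mpr hu_lt)

/-- **The orthogonal `p`-basis.** -/
theorem exists_orthBasis (hsurj : ∀ b : H, ∃ a : H, p • a = b)
    (hfin : Finite S.Hp) (hcard : Nat.card S.Hp = p ^ r) :
    ∃ z : Fin r → G, S.IsPBasis z ∧ ∀ (n : Fin r → ℤ) (i : Fin r), n i ≠ 0 →
      S.BG.nrm (z i) ^ (q ^ padicValInt p (n i)) ≤ S.BG.nrm (∑ j, n j • z j) := by
  obtain ⟨z₀, hz₀⟩ := exists_pBasis hsurj hfin hcard
  obtain ⟨z, hz, hmin⟩ := exists_min_pBasis hz₀ hfin hcard
  exact ⟨z, hz, orth_of_min hz hmin⟩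

end Basis

end PsiSetup

end Crest.Agent.Lib.LT.PsiGroup
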