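import Crest.Agent.Lib.LT.OrthBasis
import Crest.Agent.Lib.LT.PsiGroup
import Crest.Agent.Lib.LT.PsiTorsion

/-!
# Orthogonal `p`-basis of `T = ker Ψ` (S0351, (2b) of finding #1130)

From `LT/PsiGroup.lean` (`PsiSetup`, `Psi`) and the abstract `LT/OrthBasis.lean`.
The input is: `H[p]` finite, a basis `z0` of `T / pT`.

`exists_orth`: an orthogonal basis of `T / pT`.
`hT_core`: the consequence in the form of hypothesis `hT` of helper89's `LemmaR.no_relation`, provided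
the group law of `G` satisfies `‖c (a + b) - c a - c b‖ ≤ ‖c a‖ * ‖c b‖`.
-/

set_option autoImplicit false
set_option linter.unusedSectionVars false
set_option linter.unusedVariables false

namespace Crest.Agent.LT.OrthBasis

open Filter Topology
open Crest.Agent.Lib.LT.PsiGroup

variable {R : Type*} [NormedField R] [IsUltrametricDist R] [CompleteSpace R]
variable {G H : Type*} [AddCommGroup G] [AddCommGroup H] {p q qk : ℕ}
variable (S : PsiSetup R G H p q qk)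

theorem pnorm (hp : p.Prime) : PNorm p q S.BG.nrm where
  prime := hp
  two_le_q := S.two_le_q
  nonneg := S.BG.nrm_nonneg
  lt_one := S.BG.nrm_lt_one
  eq_zero := fun _ => S.BG.nrm_eq_zero
  add_le := S.BG.nrm_add_le
  neg := S.BG.nrm_neg
  smul_p := S.nrm_p

theorem ker_le {t : G} (ht : t ∈ S.Psi.ker) : S.BG.nrm t ≤ S.ρ := by
  have h1 := S.nrm_Psi_sub t
  rw [AddMonoidHom.mem_ker.1 ht, zero_sub, S.BH.nrm_neg, S.nrm_pt] at h1
  exact h1

theorem exists_lower (hfin : {a : H | p • a = 0}.Finite) :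
    ∃ τ : ℝ, 0 < τ ∧ ∀ t ∈ S.Psi.ker, t ∉ pMul S.Psi.ker p → τ ≤ S.BG.nrm t := by
  classical
  -- lower bound on nonzero `p`-torsion points
  have h0 : ∃ τ0 : ℝ, 0 < τ0 ∧ ∀ a : H, p • a = 0 → a ≠ 0 → τ0 ≤ S.BH.nrm a := by
    by_cases hne : (hfin.toFinset.filter (· ≠ 0)).Nonempty
    · obtain ⟨a0, ha0, hmin⟩ := Finset.exists_min_image _ (fun a => S.BH.nrm a) hne
      refine ⟨S.BH.nrm a0, ?_, fun a ha ha0' => hmin a (by simp [ha, ha0'])⟩
      have h1 : a0 ≠ 0 := (Finset.mem_filter.1 ha0).2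
      exact lt_of_le_of_ne (S.BH.nrm_nonneg _) (fun e => h1 (S.BH.nrm_eq_zero.1 e.symm))
    · refine ⟨1, one_pos, fun a ha ha0 => ?_⟩
      exact absurd ⟨a, by simp [ha, ha0]⟩ hne
  obtain ⟨τ0, hτ0, hlow⟩ := h0
  obtain ⟨m, hm⟩ := ((tendsto_order.1 S.tendsto_rho).2 τ0 hτ0).exists
  have hρ := S.ρ_pos
  refine ⟨(S.ρ ^ (q ^ m)) ^ q, by positivity, fun t ht htp => ?_⟩
  set y := S.root t with hy
  have hpy : p • y = t := S.p_root t
  have hΨ : p • S.Psi y = 0 := by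
    rw [← map_nsmul, hpy]
    exact AddMonoidHom.mem_ker.1 ht
  have hne : S.Psi y ≠ 0 := by
    intro e
    apply htp
    exact mem_pMul.2 ⟨y, AddMonoidHom.mem_ker.2 e, hpy⟩
  have hlow' := hlow _ hΨ hne
  have hy' : S.ρ ^ (q ^ m) ≤ S.BG.nrm y := by
    by_contra hlt
    have h1 := S.nrm_Psi_le m y (not_le.1 hlt).le
    exact absurd (hlow'.trans h1) (not_le.2 hm)
  rw [← hpy, S.nrm_p]
  exact pow_le_pow_left₀ (by positivity) hy' _

variable {ι : Type*} [Fintype ι]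

/-- **Orthogonal `p`-basis of `T`.** -/
theorem exists_orth (hp : p.Prime) (hfin : {a : H | p • a = 0}.Finite) {z0 : ι → G}
    (hz0 : IsPBasis S.Psi.ker p z0) :
    ∃ z : ι → G, IsPBasis S.Psi.ker p z ∧
      ∀ (m : ι → ℤ) (i : ι), S.BG.nrm (m i • z i) ≤ S.BG.nrm (∑ j, m j • z j) := by
  obtain ⟨τ, hτ, hlow⟩ := exists_lower S hfin
  exact exists_orth_basis (pnorm S hp) hz0 hτ S.ρ_lt hlow (fun t ht => ker_le S ht)

section Quad

variable (B : BallGroup R G)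

/-- The law is close to addition. -/
def QuadLaw : Prop := ∀ a b : G, ‖B.c (a + b) - B.c a - B.c b‖ ≤ ‖B.c a‖ * ‖B.c b‖

variable {B}

theorem QuadLaw.nsmul (hB : QuadLaw B) (n : ℕ) (a : G) :
    ‖B.c (n • a) - (n : R) * B.c a‖ ≤ ‖B.c a‖ ^ 2 := by
  induction n with
  | zero => simp [B.c_zero]
  | succ n ih =>
    have h1 : B.c ((n + 1) • a) - ((n + 1 : ℕ) : R) * B.c a =
        (B.c (n • a + a) - B.c (n • a) - B.c a) + (B.c (n • a) - (n : R) * B.c a) := by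
      rw [succ_nsmul]; push_cast; ring
    rw [h1]
    refine (IsUltrametricDist.norm_add_le_max _ _).trans (max_le ?_ ih)
    refine (hB _ _).trans ?_
    rw [pow_two]
    exact mul_le_mul_of_nonneg_right (B.nrm_nsmul_le n a) (norm_nonneg _)

theorem QuadLaw.sum (hB : QuadLaw B) {κ : Type*} (s : Finset κ) (f : κ → G) {D : ℝ} (hD : 0 ≤ D)
    (hf : ∀ i ∈ s, ‖B.c (f i)‖ ≤ D) :
    ‖B.c (∑ i ∈ s, f i) - ∑ i ∈ s, B.c (f i)‖ ≤ D ^ 2 := by
  classical
  induction s using Finset.induction_on with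
  | empty =>
    simp [B.c_zero]
    positivity
  | insert a s ha ih =>
    have h2 := ih fun i hi => hf i (Finset.mem_insert_of_mem hi)
    rw [Finset.sum_insert ha, Finset.sum_insert ha]
    have h1 : B.c (f a + ∑ i ∈ s, f i) - (B.c (f a) + ∑ i ∈ s, B.c (f i)) =
        (B.c (f a + ∑ i ∈ s, f i) - B.c (f a) - B.c (∑ i ∈ s, f i)) +
          (B.c (∑ i ∈ s, f i) - ∑ i ∈ s, B.c (f i)) := by ring
    rw [h1]
    refine (IsUltrametricDist.norm_add_le_max _ _).trans (max_le ?_ h2)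
    refine (hB _ _).trans ?_
    rw [pow_two]
    refine mul_le_mul (hf a (Finset.mem_insert_self _ _)) ?_ (norm_nonneg _) hD
    exact B.nrm_finset_sum_le s f hD (fun i hi => hf i (Finset.mem_insert_of_mem hi))

end Quad

theorem c_pow_smul (e : ℕ) (a : G) : S.BG.c ((p ^ e) • a) = S.BG.c a ^ (q ^ e) := by
  induction e generalizing a with
  | zero => simp
  | succ e ih =>
    rw [pow_succ, mul_smul, ih, S.c_p, ← pow_mul, pow_succ' q e]

/-- The hypothesis `hT` of `LemmaR.no_relation`, apart from the bound on `Ξ`: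
for `g`, `e`, `n` there is a point `w` of `T` with the right norm, close to the naive sum.  -/
theorem hT_core (hp : p.Prime) (hB : QuadLaw S.BG) {z : ι → G}
    (hzT : ∀ i, z i ∈ S.Psi.ker)
    (horth : ∀ (m : ι → ℤ) (i : ι), S.BG.nrm (m i • z i) ≤ S.BG.nrm (∑ j, m j • z j))
    {V : ι → ℝ} (hV : ∀ i, ‖S.BG.c (z i)‖ = Real.exp (- V i))
    (g : Finset ι) (e : ι → ℕ) {x : ℝ} (hx : 0 < x)
    (hg : ∀ i ∈ g, ((q ^ e i : ℕ) : ℝ) * V i = x) (n : ι → ℕ) (hn : ∃ i ∈ g, ¬ p ∣ n i) :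
    ∃ w : G, w ∈ S.Psi.ker ∧ ‖S.BG.c w‖ = Real.exp (-x) ∧
      ‖S.BG.c w - ∑ i ∈ g, (n i : R) * S.BG.c (z i) ^ (q ^ e i)‖ < Real.exp (-x) := by
  classical
  have hN := pnorm S hp
  set B := S.BG with hBdef
  -- the point `w`
  set b : ι → G := fun i => (p ^ e i) • z i with hb
  have hbnorm : ∀ i ∈ g, ‖B.c (b i)‖ = Real.exp (-x) := by
    intro i hi
    have h1 : ‖B.c (b i)‖ = ‖B.c (z i)‖ ^ (q ^ e i) := by
      rw [hb]; simp only
      rw [c_pow_smul, norm_pow]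
    rw [h1, hV, ← Real.exp_nat_mul, ← hg i hi]
    congr 1
    ring
  set w : G := ∑ i ∈ g, n i • b i with hw
  refine ⟨w, ?_, ?_, ?_⟩
  · exact S.Psi.ker.sum_mem fun i _ =>
      S.Psi.ker.nsmul_mem (S.Psi.ker.nsmul_mem (hzT i) _) _
  · apply le_antisymm
    · refine B.nrm_finset_sum_le g _ (Real.exp_pos _).le fun i hi => ?_
      refine (B.nrm_nsmul_le _ _).trans ?_
      exact (hbnorm i hi).le
    · obtain ⟨i1, hi1, hi1n⟩ := hn
      let m : ι → ℤ := fun i => if i ∈ g then ((n i : ℤ) * (p : ℤ) ^ e i) else 0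
      have hsum : ∑ j, m j • z j = w := by
        rw [hw, ← Finset.sum_filter_add_sum_filter_not Finset.univ (fun j => j ∈ g)]
        have h0 : ∑ x ∈ Finset.univ.filter (fun j => ¬ j ∈ g), m x • z x = 0 := by
          refine Finset.sum_eq_zero fun j hj => ?_
          have : j ∉ g := (Finset.mem_filter.1 hj).2
          simp [m, this]
        rw [h0, add_zero, Finset.filter_mem_eq_inter, Finset.univ_inter]
        refine Finset.sum_congr rfl fun j hj => ?_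
        simp only [m, hj, if_true, hb]
        have h2 : ((p : ℤ) ^ e j) = ((p ^ e j : ℕ) : ℤ) := by push_cast; ring
        rw [mul_smul, h2, natCast_zsmul, natCast_zsmul]
      have h3 := horth m i1
      rw [hsum] at h3
      have h4 : S.BG.nrm (m i1 • z i1) = Real.exp (-x) := by
        have hi1n' : ¬ (p : ℤ) ∣ (n i1 : ℤ) := by
          intro hd
          exact hi1n (Int.natCast_dvd_natCast.1 hd)
        have h5 : m i1 = (p : ℤ) ^ e i1 * (n i1 : ℤ) := by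
          simp only [m, hi1, if_true]; ring
        rw [h5, hN.zsmul_pow_mul _ hi1n']
        have h6 := hbnorm i1 hi1
        have h7 : ‖B.c (b i1)‖ = ‖B.c (z i1)‖ ^ (q ^ e i1) := by
          rw [hb]; simp only
          rw [c_pow_smul, norm_pow]
        rw [← h6, h7]
        rfl
      rw [h4] at h3
      exact h3
  · have hD : (0 : ℝ) ≤ Real.exp (-x) := (Real.exp_pos _).le
    have hlt : Real.exp (-x) ^ 2 < Real.exp (-x) := by
      have h1 : Real.exp (-x) < 1 := by rw [Real.exp_lt_one_iff]; linarith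
      have h2 := Real.exp_pos (-x)
      nlinarith
    refine lt_of_le_of_lt ?_ hlt
    have h1 : ∀ i ∈ g, ‖B.c (n i • b i)‖ ≤ Real.exp (-x) := by
      intro i hi
      exact (B.nrm_nsmul_le _ _).trans (hbnorm i hi).le
    have h2 := QuadLaw.sum hB g (fun i => n i • b i) hD h1
    have h3 : S.BG.c w - ∑ i ∈ g, (n i : R) * S.BG.c (z i) ^ (q ^ e i) =
        (B.c w - ∑ i ∈ g, B.c (n i • b i)) +
          ∑ i ∈ g, (B.c (n i • b i) - (n i : R) * B.c (b i)) := by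
      rw [Finset.sum_sub_distrib]
      have : ∀ i, B.c (b i) = S.BG.c (z i) ^ (q ^ e i) := fun i => c_pow_smul S _ _
      simp only [this]
      ring
    rw [h3]
    refine (IsUltrametricDist.norm_add_le_max _ _).trans (max_le h2 ?_)
    refine IsUltrametricDist.norm_sum_le_of_forall_le_of_nonneg (by positivity) fun i hi => ?_
    refine (QuadLaw.nsmul hB _ _).trans ?_
    rw [hbnorm i hi]

/-- From the form of helper26's `PsiSetup.exists_orthBasis` to `horth` of `hT_core`. -/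
theorem horth_of_orthBasis [Fact p.Prime] {r : ℕ} {z : Fin r → G}
    (h : ∀ (n : Fin r → ℤ) (i : Fin r), n i ≠ 0 →
      S.BG.nrm (z i) ^ (q ^ padicValInt p (n i)) ≤ S.BG.nrm (∑ j, n j • z j))
    (m : Fin r → ℤ) (i : Fin r) : S.BG.nrm (m i • z i) ≤ S.BG.nrm (∑ j, m j • z j) := by
  by_cases hi : m i = 0
  · rw [hi, zero_smul, S.BG.nrm_zero]
    exact S.BG.nrm_nonneg _
  · rw [S.nrm_zsmul_eq hi]
    exact h m i hi

/-- Exactly the hypothesis `hT` of `LemmaR.no_relation`, from `hT_core` and a bound `hXi` for `Ξ`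
on `T` (for instance `‖ι (Ψ w) - c₁ Ξ₀ w‖ ≤ ...` at `Ψ w = 0`). -/
theorem hT_of_orth {k r : ℕ} (hq : q = p ^ (k + r)) (hp : p.Prime) (hB : QuadLaw S.BG) {z : ι → G}
    (hzT : ∀ i, z i ∈ S.Psi.ker)
    (horth : ∀ (m : ι → ℤ) (i : ι), S.BG.nrm (m i • z i) ≤ S.BG.nrm (∑ j, m j • z j))
    {V : ι → ℝ} (hV : ∀ i, ‖S.BG.c (z i)‖ = Real.exp (- V i))
    (Xi : R → R) {xc C : ℝ} (Y : ℝ → ℝ) (hxc : 0 < xc)
    (hXi : ∀ w ∈ S.Psi.ker, ∀ x : ℝ, xc ≤ x → ‖S.BG.c w‖ = Real.exp (-x) →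
      ‖Xi (S.BG.c w)‖ ≤ Real.exp (C - 2 * Y x))
    (g : Finset ι) (e : ι → ℕ) (x : ℝ) (hx : xc ≤ x)
    (hg : ∀ i ∈ g, (p : ℝ) ^ ((k + r) * e i) * V i = x) (n : ι → ℕ) (hn : ∃ i ∈ g, ¬ p ∣ n i) :
    ∃ w : R, ‖w‖ = Real.exp (-x) ∧
      ‖w - ∑ i ∈ g, (n i : R) * S.BG.c (z i) ^ p ^ ((k + r) * e i)‖ < Real.exp (-x) ∧
      ‖Xi w‖ ≤ Real.exp (C - 2 * Y x) := by
  subst hq
  have hg' : ∀ i ∈ g, (((p ^ (k + r)) ^ e i : ℕ) : ℝ) * V i = x := by
    intro i hi
    rw [← hg i hi, pow_mul]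
    push_cast
    rfl
  obtain ⟨w, hwT, hw1, hw2⟩ := hT_core S hp hB hzT horth hV g e (hxc.trans_le hx) hg' n hn
  refine ⟨S.BG.c w, hw1, ?_, hXi w hwT x hx hw1⟩
  simpa only [pow_mul] using hw2

end Crest.Agent.LT.OrthBasis
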