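import Crest.Agent.Lib.LT.PsiTorsion
import Crest.Agent.Lib.LT.WeierstrassBall

/-!
# (2b) of S0351: `H[p]` has exactly `D` points and `p •` is onto

From Weierstrass preparation: if `[p]_H (x) = g (x ^ q_k)` where `g` has Weierstrass degree `D`,
`coeff 0 g = 0`, `coeff 1 g ≠ 0`, then `p •` is surjective on `H` and `H[p]` has exactly `D` elements.
Simplicity of the zeros comes from translation invariance of `g` at the level of points (no
formal derivative of the group law): if `y` is a zero with `g'(y) = 0` then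
`|g(y')| ≤ |y' - y|²`, but translation by the torsion point gives `g(y') = g(B)` with
`|y' - y| = |B|`, while `|g(B)| = |a₁| |B|` for small `B`.
-/

set_option autoImplicit false
set_option linter.unusedSectionVars false
set_option linter.dupNamespace false

namespace Crest.Agent.Lib.LT.PsiGroup

open Filter Topology PowerSeries
open Crest.Agent.Lib.LT.WeierstrassBall

variable {R : Type*} [NontriviallyNormedField R] [IsUltrametricDist R] [CompleteSpace R]

/-- Second order Taylor estimate for powers. -/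
theorem norm_pow_taylor_le {y e : R} (hy : ‖y‖ ≤ 1) (he : ‖e‖ ≤ 1) (i : ℕ) :
    ‖(y + e) ^ i - y ^ i - i * y ^ (i - 1) * e‖ ≤ ‖e‖ ^ 2 := by
  induction i with
  | zero => simp
  | succ i ih =>
    have h1 : (y + e) ^ (i + 1) - y ^ (i + 1) - ((i + 1 : ℕ) : R) * y ^ (i + 1 - 1) * e
        = (y + e) * ((y + e) ^ i - y ^ i - i * y ^ (i - 1) * e)
          + (e ^ 2 * (i * y ^ (i - 1))) := by
      cases i with
      | zero => simp
      | succ j =>
        simp only [Nat.add_sub_cancel]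
        push_cast
        ring
    rw [h1]
    have hnat : ‖((i : ℕ) : R)‖ ≤ 1 := IsUltrametricDist.norm_natCast_le_one R i
    have hye : ‖y + e‖ ≤ 1 := (IsUltrametricDist.norm_add_le_max _ _).trans (max_le hy he)
    have hpow : ‖y ^ (i - 1)‖ ≤ 1 := by rw [norm_pow]; exact pow_le_one₀ (norm_nonneg _) hy
    refine (IsUltrametricDist.norm_add_le_max _ _).trans (max_le ?_ ?_)
    · rw [norm_mul]
      calc ‖y + e‖ * ‖(y + e) ^ i - y ^ i - i * y ^ (i - 1) * e‖ ≤ 1 * ‖e‖ ^ 2 :=
            mul_le_mul hye ih (norm_nonneg _) zero_le_one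
        _ = ‖e‖ ^ 2 := one_mul _
    · rw [norm_mul, norm_pow, norm_mul]
      have h2 : ‖((i : ℕ) : R)‖ * ‖y ^ (i - 1)‖ ≤ 1 := mul_le_one₀ hnat (norm_nonneg _) hpow
      calc ‖e‖ ^ 2 * (‖((i : ℕ) : R)‖ * ‖y ^ (i - 1)‖) ≤ ‖e‖ ^ 2 * 1 := by gcongr
        _ = ‖e‖ ^ 2 := mul_one _

/-- Second order Taylor estimate for a series with bounded coefficients. -/
theorem norm_evB_taylor_le {g : R⟦X⟧} (hg : Bdd g) {y e : R} (hy : ‖y‖ < 1) (he : ‖e‖ < 1) :
    ‖evB g (y + e) - evB g y - evB (PowerSeries.derivative R g) y * e‖ ≤ ‖e‖ ^ 2 := by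
  have hye : ‖y + e‖ < 1 := (IsUltrametricDist.norm_add_le_max _ _).trans_lt (max_lt hy he)
  have hs1 := summable_evB hg hye
  have hs2 := summable_evB hg hy
  have hs3 := summable_evB (hg.derivative) hy
  have h1 : evB g (y + e) - evB g y - evB (PowerSeries.derivative R g) y * e
      = ∑' i, (coeff i g * (y + e) ^ i - coeff i g * y ^ i
          - (if i = 0 then 0 else coeff i g * (i * y ^ (i - 1) * e))) := by
    have hshift : evB (PowerSeries.derivative R g) y * e
        = ∑' i, (if i = 0 then 0 else coeff i g * (i * y ^ (i - 1) * e)) := by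
      have hs4 : Summable fun i : ℕ => (if i = 0 then (0 : R) else coeff i g * (i * y ^ (i - 1) * e)) := by
        rw [← summable_nat_add_iff 1]
        have := hs3.mul_right e
        refine this.congr fun i => ?_
        simp only [Nat.add_eq_zero_iff, one_ne_zero, and_false, if_false, Nat.add_sub_cancel,
          coeff_derivative]
        push_cast
        ring
      rw [hs4.tsum_eq_zero_add]
      simp only [if_true, zero_add, Nat.add_eq_zero_iff, one_ne_zero, and_false, if_false,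
        Nat.add_sub_cancel]
      simp only [evB]
      rw [← tsum_mul_right]
      refine tsum_congr fun i => ?_
      rw [coeff_derivative]
      push_cast
      ring
    rw [hshift]
    have hs5 : Summable fun i : ℕ => (if i = 0 then (0 : R) else coeff i g * (i * y ^ (i - 1) * e)) := by
      rw [← summable_nat_add_iff 1]
      have := hs3.mul_right e
      refine this.congr fun i => ?_
      simp only [Nat.add_eq_zero_iff, one_ne_zero, and_false, if_false, Nat.add_sub_cancel,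
        coeff_derivative]
      push_cast
      ring
    simp only [evB]
    rw [← hs1.tsum_sub hs2, ← (hs1.sub hs2).tsum_sub hs5]
  rw [h1]
  refine IsUltrametricDist.norm_tsum_le_of_forall_le_of_nonneg (by positivity) fun i => ?_
  have h2 : coeff i g * (y + e) ^ i - coeff i g * y ^ i
      - (if i = 0 then 0 else coeff i g * (i * y ^ (i - 1) * e))
      = coeff i g * ((y + e) ^ i - y ^ i - i * y ^ (i - 1) * e) := by
    by_cases h : i = 0
    · subst h; simp
    · rw [if_neg h]; ring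
  rw [h2, norm_mul]
  calc ‖coeff i g‖ * ‖(y + e) ^ i - y ^ i - i * y ^ (i - 1) * e‖ ≤ 1 * ‖e‖ ^ 2 :=
        mul_le_mul (hg i) (norm_pow_taylor_le hy.le he.le i) (norm_nonneg _) zero_le_one
    _ = ‖e‖ ^ 2 := one_mul _

/-- Lower bound for small values of a series with nonzero linear term. -/
theorem norm_evB_eq_of_small {g : R⟦X⟧} (hg : Bdd g) (h0 : coeff 0 g = 0) {B : R}
    (hB : ‖B‖ < ‖coeff 1 g‖) (hB1 : ‖B‖ < 1) (hB0 : B ≠ 0) :
    ‖evB g B‖ = ‖coeff 1 g‖ * ‖B‖ := by
  have hs := summable_evB hg hB1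
  have h1 : evB g B = coeff 1 g * B + ∑' i, coeff (i + 2) g * B ^ (i + 2) := by
    have h2 := hs.tsum_eq_zero_add
    have h3 := ((summable_nat_add_iff 1).mpr hs).tsum_eq_zero_add
    simp only [evB]
    rw [h2, h3]
    simp [h0]
  have hBpos : 0 < ‖B‖ := norm_pos_iff.mpr hB0
  have h2 : ‖∑' i, coeff (i + 2) g * B ^ (i + 2)‖ ≤ ‖B‖ ^ 2 := by
    refine IsUltrametricDist.norm_tsum_le_of_forall_le_of_nonneg (by positivity) fun i => ?_
    refine (norm_term_le hg B (i + 2)).trans ?_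
    exact pow_le_pow_of_le_one (norm_nonneg _) hB1.le (by omega)
  have h3 : ‖∑' i, coeff (i + 2) g * B ^ (i + 2)‖ < ‖coeff 1 g * B‖ := by
    rw [norm_mul]
    refine h2.trans_lt ?_
    rw [pow_two]
    exact mul_lt_mul_of_pos_right hB hBpos
  rw [h1, IsUltrametricDist.norm_add_eq_max_of_norm_ne_norm h3.ne', max_eq_left h3.le, norm_mul]

variable {G H : Type*} [AddCommGroup G] [AddCommGroup H] {p q qk : ℕ}

namespace PsiSetup

variable (S : PsiSetup R G H p q qk)

section main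

variable {g : R⟦X⟧} {D : ℕ}
  (hg : WData g D) (hD : 0 < D) (h0 : coeff 0 g = 0) (h1 : coeff 1 g ≠ 0)
  {k : ℕ} (hqk : qk = p ^ k)
  (hpg : ∀ a : H, S.BH.c (p • a) = evB g (S.BH.c a ^ qk))
  [IsAlgClosed R] [Fact p.Prime] [CharP R p]

include hg hD h0 hqk hpg in
/-- `p •` is onto. -/
theorem surj_of_W (b : H) : ∃ a : H, p • a = b := by
  obtain ⟨Y, hY, hYb⟩ := exists_eq hg hD h0 (S.BH.nrm_lt_one b)
  obtain ⟨x, hx⟩ := IsAlgClosed.exists_pow_nat_eq Y (n := qk) (by rw [hqk]; exact pow_pos (Fact.out : p.Prime).pos k)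
  have hqk0 : qk ≠ 0 := by rw [hqk]; exact (pow_pos (Fact.out : p.Prime).pos k).ne'
  have hx1 : ‖x‖ < 1 := by
    have : ‖x‖ ^ qk < 1 := by rw [← norm_pow, hx]; exact hY
    exact (pow_lt_one_iff_of_nonneg (norm_nonneg _) hqk0).mp this
  obtain ⟨a, ha⟩ := (S.BH.range_eq x).mp hx1
  refine ⟨a, S.BH.inj ?_⟩
  rw [hpg, ha, hx, hYb]

include hg h0 h1 hqk hpg in
/-- The zeros of `g` in the ball are simple. -/
theorem simple_zeros (y : R) (hy : ‖y‖ < 1) (hy0 : evB g y = 0) :
    evB (PowerSeries.derivative R g) y ≠ 0 := by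
  intro hd
  have hp := (Fact.out : p.Prime)
  have hqk0 : qk ≠ 0 := by rw [hqk]; exact (pow_pos hp.pos k).ne'
  -- a point with `c a ^ qk = y`
  obtain ⟨x, hx⟩ := IsAlgClosed.exists_pow_nat_eq y (n := qk) (Nat.pos_of_ne_zero hqk0)
  have hx1 : ‖x‖ < 1 := by
    have : ‖x‖ ^ qk < 1 := by rw [← norm_pow, hx]; exact hy
    exact (pow_lt_one_iff_of_nonneg (norm_nonneg _) hqk0).mp this
  obtain ⟨a, ha⟩ := (S.BH.range_eq x).mp hx1
  have hpa : p • a = 0 := by
    apply S.BH.inj
    rw [hpg, ha, hx, hy0, S.BH.c_zero]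
  -- a small point `b`
  have hc1 : 0 < ‖coeff 1 g‖ := norm_pos_iff.mpr h1
  obtain ⟨B, hB0', hBlt⟩ := NormedField.exists_norm_lt R (lt_min hc1 one_pos)
  have hB0 : B ≠ 0 := norm_pos_iff.mp hB0'
  have hB1 : ‖B‖ < ‖coeff 1 g‖ := hBlt.trans_le (min_le_left _ _)
  have hB2 : ‖B‖ < 1 := hBlt.trans_le (min_le_right _ _)
  obtain ⟨x', hx'⟩ := IsAlgClosed.exists_pow_nat_eq B (n := qk) (Nat.pos_of_ne_zero hqk0)
  have hx1' : ‖x'‖ < 1 := by
    have : ‖x'‖ ^ qk < 1 := by rw [← norm_pow, hx']; exact hB2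
    exact (pow_lt_one_iff_of_nonneg (norm_nonneg _) hqk0).mp this
  obtain ⟨b, hb⟩ := (S.BH.range_eq x').mp hx1'
  -- translate
  have hab : p • (a + b) = p • b := by rw [nsmul_add, hpa, zero_add]
  set y' := S.BH.c (a + b) ^ qk with hy'
  have hval : evB g y' = evB g B := by
    rw [hy', ← hpg, hab, hpg, hb, hx']
  have hCharP : ∀ u v : R, (u - v) ^ qk = u ^ qk - v ^ qk := by
    intro u v
    rw [hqk]
    exact sub_pow_char_pow u v k
  have hdist : ‖y' - y‖ = ‖B‖ := by
    rw [hy', ← hx, ← ha, ← hCharP, norm_pow, ← S.BH.nrm_sub]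
    have h3 : a + b - a = b := by abel
    rw [BallGroup.nrm, h3, hb, ← hx', norm_pow]
  have hy'1 : ‖y' - y‖ < 1 := by rw [hdist]; exact hB2
  have htay := norm_evB_taylor_le hg.bdd hy hy'1
  rw [add_sub_cancel, hd, hy0, zero_mul, sub_zero, sub_zero, hval,
    norm_evB_eq_of_small hg.bdd h0 hB1 hB2 hB0, hdist] at htay
  have hBpos : 0 < ‖B‖ := norm_pos_iff.mpr hB0
  rw [pow_two] at htay
  have := le_of_mul_le_mul_right htay hBpos
  exact absurd this (not_le.mpr hB1)

include hg h0 h1 hqk hpg in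
/-- `H[p]` has exactly `D` points. -/
theorem Hp_card : Finite S.Hp ∧ Nat.card S.Hp = D := by
  classical
  have hp := (Fact.out : p.Prime)
  have hqk0 : qk ≠ 0 := by rw [hqk]; exact (pow_pos hp.pos k).ne'
  obtain ⟨s, hs, hmem⟩ := zeros_card hg (S.simple_zeros hg h0 h1 hqk hpg)
  have hnorm : ∀ a : H, ‖S.BH.c a ^ qk‖ < 1 := by
    intro a
    rw [norm_pow]
    exact pow_lt_one₀ (norm_nonneg _) (S.BH.nrm_lt_one a) hqk0
  let f : S.Hp → s := fun a => ⟨S.BH.c a ^ qk, (hmem _).mpr ⟨hnorm a, by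
    rw [← hpg, S.mem_Hp.mp a.2, S.BH.c_zero]⟩⟩
  have hinj : Function.Injective f := by
    intro a b hab
    have h2 : S.BH.c a ^ qk = S.BH.c b ^ qk := congrArg Subtype.val hab
    have hCharP : ∀ u v : R, (u - v) ^ qk = u ^ qk - v ^ qk := by
      intro u v
      rw [hqk]
      exact sub_pow_char_pow u v k
    have h3 : (S.BH.c a - S.BH.c b) ^ qk = 0 := by
      rw [hCharP, h2, sub_self]
    have h4 : S.BH.c a = S.BH.c b := sub_eq_zero.mp (pow_eq_zero_iff hqk0 |>.mp h3)
    exact Subtype.ext (S.BH.inj h4)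
  have hsurj : Function.Surjective f := by
    rintro ⟨y, hy⟩
    obtain ⟨hy1, hy0⟩ := (hmem y).mp hy
    obtain ⟨x, hx⟩ := IsAlgClosed.exists_pow_nat_eq y (n := qk) (Nat.pos_of_ne_zero hqk0)
    have hx1 : ‖x‖ < 1 := by
      have : ‖x‖ ^ qk < 1 := by rw [← norm_pow, hx]; exact hy1
      exact (pow_lt_one_iff_of_nonneg (norm_nonneg _) hqk0).mp this
    obtain ⟨a, ha⟩ := (S.BH.range_eq x).mp hx1
    have hpa : p • a = 0 := by
      apply S.BH.inj
      rw [hpg, ha, hx, hy0, S.BH.c_zero]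
    refine ⟨⟨a, S.mem_Hp.mpr hpa⟩, Subtype.ext ?_⟩
    change S.BH.c a ^ qk = y
    rw [ha, hx]
  have hbij : Function.Bijective f := ⟨hinj, hsurj⟩
  have hfin : Finite S.Hp := Finite.of_injective f hinj
  refine ⟨hfin, ?_⟩
  rw [Nat.card_eq_of_bijective f hbij, Nat.card_eq_fintype_card, Fintype.card_coe, hs]

include hg hD h0 h1 hqk hpg in
/-- **Conclusion of (2b)**: the orthogonal `p`-basis, when `D = p ^ r`. -/
theorem exists_orthBasis_of_W {r : ℕ} (hDr : D = p ^ r) :
    ∃ z : Fin r → G, S.IsPBasis z ∧ ∀ (n : Fin r → ℤ) (i : Fin r), n i ≠ 0 →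
      S.BG.nrm (z i) ^ (q ^ padicValInt p (n i)) ≤ S.BG.nrm (∑ j, n j • z j) := by
  obtain ⟨hfin, hcard⟩ := S.Hp_card hg h0 h1 hqk hpg
  exact exists_orthBasis (S.surj_of_W hg hD h0 hqk hpg) hfin (hcard.trans hDr)

end main

end PsiSetup

end Crest.Agent.Lib.LT.PsiGroup
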