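import Crest.Agent.Lib.LT.ChartDefs
import Crest.Agent.Lib.LT.PsiAt
import Crest.Agent.Lib.LT.BallFG
import Crest.Agent.Lib.LT.PsiTorsionW
import Crest.Agent.Lib.LT.OrthPsi

/-!
# (B3) of S0351: the orthogonal `p`-basis at a point of a stratum

For a stratum `D` and a point `ξ` with `ξ₀ ≠ 0`: elements `z i` of `ker Ψ_ξ` such that
* `m ↦ Ψ_ξ ((∑^Γ [m i] z i) ^ (1/q))` is injective on `{0, …, p - 1} ^ r` (`hinj` of
  `Chart.exists_asymp_poly`);
* the hypothesis `hT` of `LemmaR.no_relation` holds (given the bound on `Ξ` on `ker Ψ_ξ`).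
-/

set_option autoImplicit false
set_option linter.unusedSectionVars false

namespace Crest.Agent.LT.Chart

open Filter Topology Crest.LubinTate
open Crest.Agent.Lib.LT.EvalS
open Crest.Agent.Lib.LT.BallFG (FGPt ballGroup ballGroup_c ballGroup_quad c_nsmul)
open Crest.Agent.Lib.LT.PsiGroup
open Crest.Agent.Lib.LT.WeierstrassBall (WData evB)

variable {p k r : ℕ} [hp : Fact p.Prime] {K : Type*} [Field K] (D : Stratum p k r K)
variable {R : Type*} [NontriviallyNormedField R] [IsUltrametricDist R] [CompleteSpace R]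
variable [Algebra K R]

instance Stratum.fact_intS_HAt (ξ : Pt r R) : Fact (IntS (D.HAt ξ).toPowerSeries) :=
  ⟨D.intS_HAt ξ⟩

instance Stratum.isComm_HAt (ξ : Pt r R) : (D.HAt ξ).IsComm := by
  refine ⟨?_⟩
  have := D.comm
  have h := congrArg (MvPowerSeries.map (D.evA ξ)) (FormalGroup.IsComm.comm (F := D.HW))
  rw [MvPowerSeries.map_subst MvPowerSeries.HasSubst.X_X] at h
  simp only [Stratum.HAt, FormalGroup.map_toPowerSeries]
  refine h.trans ?_
  congr 1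
  ext s
  fin_cases s <;> simp

/-- the point `0` -/
def pt0 (r : ℕ) (R : Type*) [NormedField R] : Pt r R := ⟨0, by simp⟩

theorem Stratum.evA_zero_eq (f : MvPowerSeries (Fin r) K) :
    D.evA (pt0 r R) f = algebraMap K R (MvPowerSeries.constantCoeff f) := by
  have h1 : MvPowerSeries.constantCoeff (f - MvPowerSeries.C (MvPowerSeries.constantCoeff f)) = 0 := by
    simp
  have h2 := D.norm_evA_le (R := R) (pt0 r R) h1
  have h3 : ‖(pt0 r R).1‖ = 0 := by simp [pt0]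
  rw [h3, norm_le_zero_iff, map_sub, sub_eq_zero, D.evA_C] at h2
  exact h2

theorem Stratum.norm_evA_sub_evA_zero_le (ξ : Pt r R) (f : MvPowerSeries (Fin r) K) :
    ‖D.evA ξ f - D.evA (pt0 r R) f‖ ≤ ‖ξ.1‖ := by
  have h1 : MvPowerSeries.constantCoeff (f - MvPowerSeries.C (MvPowerSeries.constantCoeff f)) = 0 := by
    simp
  have h2 := D.norm_evA_le ξ h1
  rw [map_sub, D.evA_C] at h2
  rw [D.evA_zero_eq]
  exact h2

/-- the two laws are close -/
theorem Stratum.norm_padd_sub_le' (ξ : Pt r R) {x y : R} (hx : ‖x‖ < 1) (hy : ‖y‖ < 1) :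
    ‖Crest.Agent.Lib.LT.BallFG.padd (D.HAt ξ) x y - Crest.Agent.Lib.LT.BallFG.padd (D.HAt (pt0 r R)) x y‖
      ≤ ‖ξ.1‖ := by
  have hv := Crest.Agent.Lib.LT.BallFG.norm_pair_lt hx hy
  rw [Crest.Agent.Lib.LT.BallFG.padd, Crest.Agent.Lib.LT.BallFG.padd, ev, ev,
    ← (summable_ev (D.intS_HAt ξ) hv).tsum_sub (summable_ev (D.intS_HAt (pt0 r R)) hv)]
  refine IsUltrametricDist.norm_tsum_le_of_forall_le_of_nonneg (norm_nonneg _) fun m => ?_
  rw [← sub_mul, norm_mul]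
  have h1 : ‖MvPowerSeries.coeff m (D.HAt ξ).toPowerSeries - MvPowerSeries.coeff m (D.HAt (pt0 r R)).toPowerSeries‖
      ≤ ‖ξ.1‖ := by
    simp only [Stratum.HAt, FormalGroup.map_toPowerSeries, MvPowerSeries.coeff_map]
    exact D.norm_evA_sub_evA_zero_le ξ _
  calc _ ≤ ‖ξ.1‖ * 1 := mul_le_mul h1 (Crest.Agent.Lib.LT.BallFG.norm_mono_le_one hv.le m) (norm_nonneg _) (norm_nonneg _)
    _ = ‖ξ.1‖ := mul_one _

/-- The `p`-series of the law at `0`. -/
theorem Stratum.mulSeries_HAt_zero :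
    mulSeries (D.HAt (pt0 r R)) p = PowerSeries.X ^ (p ^ (k + r)) := by
  ext n
  rw [Stratum.HAt, Crest.Agent.LT.mulSeries_map, PowerSeries.coeff_map, D.evA_zero_eq,
    D.constantCoeff_coeff_mulSeries, PowerSeries.coeff_X_pow]
  split_ifs <;> simp

variable [CharP R p] [PerfectRing R p]

theorem pow_p_pow_inj {a b : R} (n : ℕ) (h : a ^ (p ^ n) = b ^ (p ^ n)) : a = b := by
  have h3 : (a - b) ^ (p ^ n) = 0 := by
    rw [sub_pow_char_pow, h, sub_self]
  exact sub_eq_zero.mp (pow_eq_zero_iff (pow_ne_zero _ hp.out.ne_zero) |>.mp h3)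

/-- The `PsiSetup` attached to a point with `ξ ≠ 0`. -/
noncomputable def Stratum.psiSetup (ξ : Pt r R) (hξ : 0 < ‖ξ.1‖) :
    PsiSetup R (FGPt (D.HAt (pt0 r R))) (FGPt (D.HAt ξ)) p (p ^ (k + r)) (p ^ k) where
  BG := ballGroup _
  BH := ballGroup _
  pt g := ⟨g.1, g.2⟩
  c_pt _ := rfl
  c_p g := by
    rw [ballGroup_c, ballGroup_c, c_nsmul, D.mulSeries_HAt_zero, ev1_X_pow]
  root g := ⟨rootN p R (k + r) g.1, norm_rootN_lt g.2 _⟩
  p_root g := by
    apply Subtype.ext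
    rw [c_nsmul, D.mulSeries_HAt_zero, ev1_X_pow]
    exact rootN_pow _ _
  root_p g := by
    apply Subtype.ext
    apply pow_p_pow_inj (p := p) (k + r)
    change rootN p R (k + r) (p • g).1 ^ p ^ (k + r) = g.1 ^ p ^ (k + r)
    rw [rootN_pow, c_nsmul, D.mulSeries_HAt_zero, ev1_X_pow]
  ρ := ‖ξ.1‖
  ρ_pos := hξ
  ρ_lt := ξ.2
  close_add x y := D.norm_padd_sub_le' ξ x.2 y.2
  H_frob a := by
    rw [BallGroup.nrm, BallGroup.nrm, ballGroup_c, ballGroup_c, c_nsmul, ← D.pAt_eq, Stratum.pAt, pS_eq,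
      ← norm_pow]
    refine norm_ev1_le_norm (int1_map_of_hom _ (D.norm_evA_le_one ξ) _) ?_ ?_
    · rw [← PowerSeries.coeff_zero_eq_constantCoeff_apply, PowerSeries.coeff_map,
        PowerSeries.coeff_zero_eq_constantCoeff_apply, D.gA_zero, map_zero]
    · rw [norm_pow]
      exact pow_lt_one₀ (norm_nonneg _) a.2 (pow_ne_zero _ hp.out.ne_zero)
  two_le_qk := by
    calc 2 ≤ p := hp.out.two_le
      _ = p ^ 1 := (pow_one p).symm
      _ ≤ p ^ k := Nat.pow_le_pow_right hp.out.pos D.hk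
  two_le_q := by
    have h1 := D.hk
    calc 2 ≤ p := hp.out.two_le
      _ = p ^ 1 := (pow_one p).symm
      _ ≤ p ^ (k + r) := Nat.pow_le_pow_right hp.out.pos (by omega)

section WB

/-- The series `g` at a point. -/
noncomputable def Stratum.gAt (ξ : Pt r R) : PowerSeries R := PowerSeries.map (D.evA ξ) D.gA

theorem Stratum.coeff_gAt (ξ : Pt r R) (n : ℕ) :
    PowerSeries.coeff n (D.gAt ξ) = D.evA ξ (PowerSeries.coeff n D.gA) :=
  PowerSeries.coeff_map _ _ _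

theorem Stratum.coeff_zero_gAt (ξ : Pt r R) : PowerSeries.coeff 0 (D.gAt ξ) = 0 := by
  rw [D.coeff_gAt, PowerSeries.coeff_zero_eq_constantCoeff_apply, D.gA_zero, map_zero]

theorem Stratum.evA_X (ξ : Pt r R) (i : Fin r) : D.evA ξ (MvPowerSeries.X i) = ξ.1 i := by
  classical
  rw [Stratum.evA_apply, mapR, MvPowerSeries.map_X, ev_X]

theorem Stratum.coeff_one_gAt (ξ : Pt r R) :
    PowerSeries.coeff 1 (D.gAt ξ) = ξ.1 ⟨0, D.hr⟩ := by
  rw [D.coeff_gAt, D.gA_one D.hr, D.evA_X]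

theorem Stratum.constantCoeff_coeff_gA (n : ℕ) :
    MvPowerSeries.constantCoeff (PowerSeries.coeff n D.gA) = if n = p ^ r then 1 else 0 := by
  have := congrArg (PowerSeries.coeff n) D.gA_top
  rw [PowerSeries.coeff_map, PowerSeries.coeff_X_pow] at this
  exact this

theorem Stratum.wdata_gAt (ξ : Pt r R) : WData (D.gAt ξ) (p ^ r) := by
  refine ⟨fun i => ?_, ?_, fun i hi => ?_⟩
  · rw [D.coeff_gAt]; exact D.norm_evA_le_one ξ _
  · rw [D.coeff_gAt]
    set f := PowerSeries.coeff (p ^ r) D.gA with hf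
    have h1 : MvPowerSeries.constantCoeff (f - 1) = 0 := by
      rw [map_sub, hf, D.constantCoeff_coeff_gA, if_pos rfl, map_one, sub_self]
    have h2 := D.norm_evA_le ξ h1
    rw [map_sub, map_one] at h2
    have h3 : D.evA ξ f = 1 + (D.evA ξ f - 1) := by ring
    rw [h3]
    have h4 : ‖D.evA ξ f - 1‖ < ‖(1 : R)‖ := by
      rw [norm_one]; exact h2.trans_lt ξ.2
    rw [IsUltrametricDist.norm_add_eq_max_of_norm_ne_norm h4.ne', max_eq_left h4.le, norm_one]
  · rw [D.coeff_gAt]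
    have h1 : MvPowerSeries.constantCoeff (PowerSeries.coeff i D.gA) = 0 := by
      rw [D.constantCoeff_coeff_gA, if_neg hi.ne]
    exact (D.norm_evA_le ξ h1).trans_lt ξ.2

theorem Stratum.pAt_eq_gAt (ξ : Pt r R) (x : R) :
    D.pAt ξ x = evB (D.gAt ξ) (x ^ (p ^ k)) := by
  rw [Stratum.pAt, pS_eq]
  rfl

theorem Stratum.c_psiSetup_p (ξ : Pt r R) (a : FGPt (D.HAt ξ)) :
    (p • a).1 = D.pAt ξ a.1 := by
  rw [c_nsmul, ← D.pAt_eq]

end WB

section Bridge

variable (ξ : Pt r R) (hξ : 0 < ‖ξ.1‖)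

theorem Stratum.c_pow_iter (N : ℕ) (a : FGPt (D.HAt ξ)) :
    ((p ^ N) • a).1 = (D.pAt ξ)^[N] a.1 := by
  induction N generalizing a with
  | zero => simp
  | succ N ih =>
    rw [PsiSetup.pow_succ_smul, ih, Function.iterate_succ_apply, D.c_psiSetup_p]

theorem Stratum.psiSetup_rootN_val (y : FGPt (D.HAt (pt0 r R))) (N : ℕ) :
    ((D.psiSetup ξ hξ).rootN N y).1 = tw p k r y.1 N := by
  apply pow_p_pow_inj (p := p) ((k + r) * N)
  have h1 : (tw p k r y.1 N) ^ p ^ ((k + r) * N) = y.1 := rootN_pow _ _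
  rw [h1]
  have h2 := (D.psiSetup ξ hξ).pow_rootN N y
  have h3 : ∀ (N : ℕ) (a : FGPt (D.HAt (pt0 r R))), ((p ^ N) • a).1 = a.1 ^ p ^ ((k + r) * N) := by
    intro N a
    induction N generalizing a with
    | zero => simp
    | succ N ih =>
      have h4 : (p • a).1 = a.1 ^ p ^ (k + r) := by
        rw [c_nsmul, D.mulSeries_HAt_zero, ev1_X_pow]
      rw [PsiSetup.pow_succ_smul, ih, h4, ← pow_mul, ← pow_add]
      congr 2
      ring
  rw [← h3, h2]

/-- The abstract `Ψ` of `PsiGroup` is `D.PsiAt`. -/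
theorem Stratum.psiSetup_Psi_val (y : FGPt (D.HAt (pt0 r R))) :
    ((D.psiSetup ξ hξ).Psi y).1 = D.PsiAt ξ y.1 := by
  have h1 := (D.psiSetup ξ hξ).tendsto_Psi y
  have h2 := Crest.Agent.LT.PsiCore.tendsto_psi (D.pmap_at ξ) (isTower_tw (p := p) (k := k) (r := r) y.2)
  refine tendsto_nhds_unique h1 ?_
  refine h2.congr fun N => ?_
  change (D.pAt ξ)^[N] (tw p k r y.1 N) = ((p ^ N) • _ : FGPt (D.HAt ξ)).1
  rw [D.c_pow_iter]
  congr 1
  exact (D.psiSetup_rootN_val ξ hξ y N).symm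

end Bridge

section Combo

variable {F : FormalGroup R} [hI : Fact (IntS F.toPowerSeries)] [F.IsComm]

theorem foldr_padd_eq (r' : ℕ) (fn : Fin r' → FGPt F) :
    Fin.foldr r' (fun i acc => padd F (fn i).1 acc) 0 = (∑ i, fn i).1 := by
  induction r' with
  | zero => simp
  | succ r' ih =>
    rw [Fin.foldr_succ, Fin.sum_univ_succ]
    have := ih (fun i => fn i.succ)
    change padd F (fn 0).1 (Fin.foldr r' (fun i acc => padd F (fn i.succ).1 acc) 0) = _
    rw [this]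
    rfl

end Combo

section Main

variable [IsAlgClosed R]

/-- **(B3)**: the orthogonal `p`-basis at a point of a stratum. -/
theorem exists_orth_at (ξ : Pt r R) (hξ0 : ξ.1 ⟨0, D.hr⟩ ≠ 0) :
    ∃ z : Fin r → R, (∀ i, ‖z i‖ < 1) ∧ (∀ i, z i ≠ 0) ∧ (∀ i, D.PsiAt ξ (z i) = 0) ∧
      (Function.Injective fun m : Fin r → Fin p =>
        D.PsiAt ξ (rootN p R (k + r) (D.combo z fun i => (m i : ℕ)))) ∧
      ∀ (V : Fin r → ℝ), (∀ i, ‖z i‖ = Real.exp (-V i)) →
      ∀ (Xi : R → R) (xc C : ℝ) (Y : ℝ → ℝ), 0 < xc →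
        (∀ w : R, ‖w‖ < 1 → D.PsiAt ξ w = 0 → ∀ x : ℝ, xc ≤ x → ‖w‖ = Real.exp (-x) →
          ‖Xi w‖ ≤ Real.exp (C - 2 * Y x)) →
        ∀ (g : Finset (Fin r)) (e : Fin r → ℕ) (x : ℝ), xc ≤ x →
          (∀ i ∈ g, (p : ℝ) ^ ((k + r) * e i) * V i = x) →
          ∀ n : Fin r → ℕ, (∃ i ∈ g, ¬ p ∣ n i) →
          ∃ w : R, ‖w‖ = Real.exp (-x) ∧
            ‖w - ∑ i ∈ g, (n i : R) * z i ^ p ^ ((k + r) * e i)‖ < Real.exp (-x) ∧
            ‖Xi w‖ ≤ Real.exp (C - 2 * Y x) := by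
  classical
  have hξ : 0 < ‖ξ.1‖ := lt_of_lt_of_le (norm_pos_iff.mpr hξ0) (norm_le_pi_norm ξ.1 _)
  set S := D.psiSetup ξ hξ with hS
  have hpos : 0 < p ^ r := pow_pos hp.out.pos r
  obtain ⟨zz, hzz, horth⟩ := S.exists_orthBasis_of_W (D.wdata_gAt ξ) hpos (D.coeff_zero_gAt ξ)
    (by rw [D.coeff_one_gAt]; exact hξ0) (k := k) rfl
    (fun a => by
      change (p • a).1 = evB (D.gAt ξ) (a.1 ^ (p ^ k))
      rw [D.c_psiSetup_p, D.pAt_eq_gAt]) (r := r) rfl
  have hPsi : ∀ y : FGPt (D.HAt (pt0 r R)), D.PsiAt ξ y.1 = (S.Psi y).1 :=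
    fun y => (D.psiSetup_Psi_val ξ hξ y).symm
  refine ⟨fun i => (zz i).1, fun i => (zz i).2, ?_, ?_, ?_, ?_⟩
  · intro i h0
    have h1 : zz i = 0 := Subtype.ext h0
    exact hzz.delta_ne i (by rw [h1, map_zero])
  · intro i
    rw [hPsi, S.mem_T.mp (hzz.mem i)]
    rfl
  · intro m m' hmm
    -- the combination in the group
    have hcombo : ∀ m : Fin r → ℕ, D.combo (fun i => (zz i).1) m
        = (∑ i, m i • zz i).1 := by
      intro m
      have h1 := foldr_padd_eq (F := D.HAt (pt0 r R)) r (fun i => m i • zz i)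
      rw [← h1]
      change Fin.foldr r (fun i acc => padd (D.ΓR R) (ev1 (mulSeries (D.ΓR R) (m i)) (zz i).1) acc) 0 = _
      refine congrArg (fun f => Fin.foldr r f (0 : R)) ?_
      funext i acc
      rw [c_nsmul]
      rfl
    have hval : ∀ m : Fin r → ℕ,
        D.PsiAt ξ (rootN p R (k + r) (D.combo (fun i => (zz i).1) m))
          = (S.delta (∑ i, m i • zz i)).1 := by
      intro m
      rw [hcombo, S.delta_apply, ← hPsi]
      rfl
    simp only [hval] at hmm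
    have h1 : S.delta (∑ i, (m i : ℕ) • zz i) = S.delta (∑ i, (m' i : ℕ) • zz i) := Subtype.ext hmm
    rw [map_sum, map_sum] at h1
    simp only [map_nsmul] at h1
    have h2 : ∑ i, (((m i : ℕ) : ℤ) - ((m' i : ℕ) : ℤ)) • S.delta (zz i) = 0 := by
      simp only [sub_smul, natCast_zsmul, Finset.sum_sub_distrib]
      rw [h1, sub_self]
    funext i
    have h3 := hzz.indep _ h2 i
    have h4 : ((m i : ℕ) : ℤ) ≡ ((m' i : ℕ) : ℤ) [ZMOD (p : ℤ)] :=
      (Int.modEq_iff_dvd.mpr (by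
        have := dvd_neg.mpr h3
        simpa using this))
    have h5 : (m i : ℕ) ≡ (m' i : ℕ) [MOD p] := (Int.natCast_modEq_iff).mp h4
    apply Fin.ext
    exact Nat.ModEq.eq_of_lt_of_lt h5 (m i).2 (m' i).2
  · intro V hV Xi xc C Y hxc hXi g e x hx hg n hn
    have hq : p ^ (k + r) = p ^ (k + r) := rfl
    have hker : ∀ i, zz i ∈ S.Psi.ker := fun i => hzz.mem i
    have horth' := Crest.Agent.LT.OrthBasis.horth_of_orthBasis S horth
    have hB : Crest.Agent.LT.OrthBasis.QuadLaw S.BG := fun a b => ballGroup_quad a b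
    obtain ⟨w, h1, h2, h3⟩ := Crest.Agent.LT.OrthBasis.hT_of_orth S (k := k) (r := r) rfl hp.out hB hker horth'
      (V := V) hV Xi (C := C) Y hxc
      (fun w hw x hx hw' => hXi w.1 w.2 (by
        rw [hPsi, AddMonoidHom.mem_ker.mp hw]; rfl) x hx hw') g e x hx hg n hn
    exact ⟨w, h1, h2, h3⟩

/-- **(B3)**, in the form used by `CharPAssemble`. -/
theorem Stratum.exists_orth_at (ξ : Pt r R) (hξ0 : ξ.1 ⟨0, D.hr⟩ ≠ 0) :
    ∃ z : Fin r → R, (∀ i, ‖z i‖ < 1) ∧ (∀ i, z i ≠ 0) ∧ (∀ i, D.PsiAt ξ (z i) = 0) ∧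
      (Function.Injective fun m : Fin r → Fin p =>
        D.PsiAt ξ (rootN p R (k + r) (D.combo z fun i => (m i : ℕ)))) ∧
      ∀ (g : Finset (Fin r)) (e : Fin r → ℕ) (x : ℝ), (∀ i ∈ g,
        (p : ℝ) ^ ((k + r) * e i) * (- Real.log ‖z i‖) = x) → 0 < x →
      ∀ n : Fin r → ℕ, (∃ i ∈ g, ¬ p ∣ n i) →
      ∃ u : R, ‖u‖ = Real.exp (-x) ∧ D.PsiAt ξ u = 0 ∧
        ‖u - ∑ i ∈ g, (n i : R) * z i ^ p ^ ((k + r) * e i)‖ < Real.exp (-x) := by
  classical
  have hξ : 0 < ‖ξ.1‖ := lt_of_lt_of_le (norm_pos_iff.mpr hξ0) (norm_le_pi_norm ξ.1 _)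
  set S := D.psiSetup ξ hξ with hS
  have hpos : 0 < p ^ r := pow_pos hp.out.pos r
  obtain ⟨zz, hzz, horth⟩ := S.exists_orthBasis_of_W (D.wdata_gAt ξ) hpos (D.coeff_zero_gAt ξ)
    (by rw [D.coeff_one_gAt]; exact hξ0) (k := k) rfl
    (fun a => by
      change (p • a).1 = evB (D.gAt ξ) (a.1 ^ (p ^ k))
      rw [D.c_psiSetup_p, D.pAt_eq_gAt]) (r := r) rfl
  have hPsi : ∀ y : FGPt (D.HAt (pt0 r R)), D.PsiAt ξ y.1 = (S.Psi y).1 :=
    fun y => (D.psiSetup_Psi_val ξ hξ y).symm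
  have hne : ∀ i, (zz i).1 ≠ 0 := by
    intro i h0
    have h1 : zz i = 0 := Subtype.ext h0
    exact hzz.delta_ne i (by rw [h1, map_zero])
  refine ⟨fun i => (zz i).1, fun i => (zz i).2, hne, ?_, ?_, ?_⟩
  · intro i
    rw [hPsi, S.mem_T.mp (hzz.mem i)]
    rfl
  · intro m m' hmm
    have hcombo : ∀ m : Fin r → ℕ, D.combo (fun i => (zz i).1) m
        = (∑ i, m i • zz i).1 := by
      intro m
      have h1 := foldr_padd_eq (F := D.HAt (pt0 r R)) r (fun i => m i • zz i)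
      rw [← h1]
      change Fin.foldr r (fun i acc => padd (D.ΓR R) (ev1 (mulSeries (D.ΓR R) (m i)) (zz i).1) acc) 0 = _
      refine congrArg (fun f => Fin.foldr r f (0 : R)) ?_
      funext i acc
      rw [c_nsmul]
      rfl
    have hval : ∀ m : Fin r → ℕ,
        D.PsiAt ξ (rootN p R (k + r) (D.combo (fun i => (zz i).1) m))
          = (S.delta (∑ i, m i • zz i)).1 := by
      intro m
      rw [hcombo, S.delta_apply, ← hPsi]
      rfl
    simp only [hval] at hmm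
    have h1 : S.delta (∑ i, (m i : ℕ) • zz i) = S.delta (∑ i, (m' i : ℕ) • zz i) := Subtype.ext hmm
    rw [map_sum, map_sum] at h1
    simp only [map_nsmul] at h1
    have h2 : ∑ i, (((m i : ℕ) : ℤ) - ((m' i : ℕ) : ℤ)) • S.delta (zz i) = 0 := by
      simp only [sub_smul, natCast_zsmul, Finset.sum_sub_distrib]
      rw [h1, sub_self]
    funext i
    have h3 := hzz.indep _ h2 i
    have h4 : ((m i : ℕ) : ℤ) ≡ ((m' i : ℕ) : ℤ) [ZMOD (p : ℤ)] :=
      (Int.modEq_iff_dvd.mpr (by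
        have := dvd_neg.mpr h3
        simpa using this))
    have h5 : (m i : ℕ) ≡ (m' i : ℕ) [MOD p] := (Int.natCast_modEq_iff).mp h4
    apply Fin.ext
    exact Nat.ModEq.eq_of_lt_of_lt h5 (m i).2 (m' i).2
  · intro g e x hg hx n hn
    have hker : ∀ i, zz i ∈ S.Psi.ker := fun i => hzz.mem i
    have horth' := Crest.Agent.LT.OrthBasis.horth_of_orthBasis S horth
    have hB : Crest.Agent.LT.OrthBasis.QuadLaw S.BG := fun a b => ballGroup_quad a b
    have hV : ∀ i, ‖S.BG.c (zz i)‖ = Real.exp (-(-Real.log ‖(zz i).1‖)) := by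
      intro i
      rw [neg_neg, Real.exp_log (norm_pos_iff.mpr (hne i))]
      rfl
    have hg' : ∀ i ∈ g, (((p ^ (k + r)) ^ e i : ℕ) : ℝ) * (-Real.log ‖(zz i).1‖) = x := by
      intro i hi
      rw [← hg i hi, pow_mul]
      push_cast
      rfl
    obtain ⟨w, hw, h1, h2⟩ := Crest.Agent.LT.OrthBasis.hT_core S hp.out hB hker horth' hV g e hx hg' n hn
    refine ⟨w.1, h1, ?_, ?_⟩
    · rw [hPsi, AddMonoidHom.mem_ker.mp hw]; rfl
    · have h3 : ∀ i, (zz i).1 ^ p ^ ((k + r) * e i) = S.BG.c (zz i) ^ ((p ^ (k + r)) ^ e i) := by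
        intro i
        rw [pow_mul]
        rfl
      simp only [h3]
      exact h2

end Main

end Crest.Agent.LT.Chart
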