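import Mathlib
import Crest.Prelude.Def_LubinTate
import Crest.Agent.Lib.LT.Chart
import Crest.Agent.Lib.LT.ClosureFinal
import Crest.Agent.Lib.LT.LemmaR
import Crest.Agent.Lib.LT.AddExp
import Crest.Agent.Lib.LT.Linearize
import Crest.Agent.Lib.LT.EndGroup
import Crest.Agent.Lib.LT.Transport
import Crest.Agent.Lib.LT.LinearizeEval
import Crest.Agent.Lib.LT.RelLead
import Crest.Agent.Lib.LT.PsiAt
import Crest.Agent.Lib.LT.PsiBall
import Crest.Agent.Lib.LT.LemmaRWrap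

/-!
# S0351: assembly of the char `p` stratum, for a general `Stratum`.
-/

set_option autoImplicit false

open Crest.LubinTate

namespace Crest.Agent.LT.Chart

open Crest.Agent.Lib.LT.EvalS
open Crest.Agent.LT.PsiCore

set_option linter.unusedSectionVars false

variable {p k r : ℕ} [hp : Fact p.Prime] {K : Type} [Field K] [Finite K] (D : Stratum p k r K)

instance Stratum.instCommΓK : D.ΓK.IsComm := by
  have := D.comm
  exact Crest.Agent.LT.isComm_map _ _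

theorem Stratum.mulSeries_ΓK : mulSeries D.ΓK p = PowerSeries.X ^ (p ^ (k + r)) := by
  rw [Stratum.ΓK, Crest.Agent.LT.mulSeries_map]
  exact D.map_constantCoeff_mulSeries

section Alg

/-- Small endomorphisms of `Γ` over `K`. -/
def SmallE (M : ℕ) : Type := {π : PowerSeries K //
  IsFGHom D.ΓK D.ΓK π ∧ ∀ i < M, PowerSeries.coeff i π = 0}

variable {D} {M : ℕ}

noncomputable instance : Add (SmallE D M) := ⟨fun a b => ⟨Crest.Agent.LT.fadd D.ΓK.toPowerSeries a.1 b.1,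
  Crest.Agent.LT.isFGHom_fadd _ a.2.1 b.2.1,
  Crest.Agent.LT.coeff_fadd_lt _ a.2.1.1 b.2.1.1 a.2.2 b.2.2⟩⟩

theorem isFGHom_zero' (F : FormalGroup K) : IsFGHom F F (0 : PowerSeries K) := by
  refine ⟨by simp, ?_⟩
  have hs : ∀ (x : MvPowerSeries (Fin 2) K), MvPowerSeries.constantCoeff x = 0 →
      PowerSeries.subst x (0 : PowerSeries K) = 0 := fun x hx => by
    rw [← PowerSeries.coe_substAlgHom (Crest.Agent.LT.hasSubst_one hx), map_zero]
  rw [hs _ F.zero_constantCoeff, hs _ (by simp), hs _ (by simp)]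
  have : (![(0 : MvPowerSeries (Fin 2) K), 0]) = fun _ => 0 := by
    ext s; fin_cases s <;> rfl
  rw [this]
  exact (MvPowerSeries.subst_zero_of_constantCoeff_zero F.zero_constantCoeff).symm

instance : Zero (SmallE D M) := ⟨⟨0, isFGHom_zero' _, fun i _ => by simp⟩⟩

@[simp] theorem SmallE.add_val (a b : SmallE D M) :
    (a + b).1 = Crest.Agent.LT.fadd D.ΓK.toPowerSeries a.1 b.1 := rfl
@[simp] theorem SmallE.zero_val : (0 : SmallE D M).1 = 0 := rfl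

/-- `p •` on small endomorphisms. -/
noncomputable def SmallE.pm (a : SmallE D M) : SmallE D M :=
  ⟨a.1 ^ (p ^ (k + r)), by
    have h1 := Crest.Agent.LT.hom_comp a.2.1 (Crest.Agent.LT.isFGHom_mulSeries D.ΓK p)
    rw [D.mulSeries_ΓK] at h1
    have h2 : PowerSeries.subst a.1 ((PowerSeries.X : PowerSeries K) ^ (p ^ (k + r))) =
        a.1 ^ (p ^ (k + r)) := by
      have hs := Crest.Agent.LT.hasSubst_one a.2.1.1
      rw [← PowerSeries.coe_substAlgHom hs, map_pow, PowerSeries.coe_substAlgHom hs,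
        PowerSeries.subst_X hs]
    rw [h2] at h1
    exact h1, fun i hi => by
    have h0 : a.1 ∈ Crest.Agent.LT.ordIdeal Unit K M := Crest.Agent.LT.mem_ordIdeal_iff_coeff.mpr a.2.2
    have h1 := Crest.Agent.LT.pow_mem_ordIdeal h0 (p ^ (k + r))
    have hpos : 1 ≤ p ^ (k + r) := Nat.one_le_pow _ _ hp.out.pos
    exact Crest.Agent.LT.mem_ordIdeal_iff_coeff.mp
      (Crest.Agent.LT.ordIdeal_mono (Nat.le_mul_of_pos_right _ hpos) h1) i hi⟩

theorem SmallE.pm_val (a : SmallE D M) : (SmallE.pm a).1 = a.1 ^ (p ^ (k + r)) := rfl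

/-- The parameter system for the descent. -/
noncomputable def smallParams (hqr : 1 ≤ k + r) : Crest.Agent.Lib.LT.Descent.Params (SmallE D M) where
  pm := SmallE.pm
  Fil M' := {π | ∀ i < M', PowerSeries.coeff i π.1 = 0}
  anti := fun a b hab π hπ i hi => hπ i (lt_of_lt_of_le hi hab)
  pm_mem := fun M' π hπ i hi => by
    have h0 : π.1 ∈ Crest.Agent.LT.ordIdeal Unit K M' := Crest.Agent.LT.mem_ordIdeal_iff_coeff.mpr hπ
    have h1 := Crest.Agent.LT.pow_mem_ordIdeal h0 (p ^ (k + r))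
    have hpos : 1 ≤ p ^ (k + r) := Nat.one_le_pow _ _ hp.out.pos
    exact Crest.Agent.LT.mem_ordIdeal_iff_coeff.mp
      (Crest.Agent.LT.ordIdeal_mono (Nat.le_mul_of_pos_right _ hpos) h1) i hi
  eventually_mem := fun π M' => by
    refine ⟨M', ?_⟩
    have hit : ∀ t (a : SmallE D M), ((SmallE.pm)^[t] a).1 = a.1 ^ (p ^ (k + r)) ^ t := by
      intro t a
      induction t generalizing a with
      | zero => simp
      | succ t ih =>
        rw [Function.iterate_succ_apply, ih, SmallE.pm_val, ← pow_mul, pow_succ']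
    intro i hi
    rw [hit]
    have h0 : π.1 ∈ Crest.Agent.LT.ordIdeal Unit K 1 :=
      Crest.Agent.LT.mem_ordIdeal_one.mpr π.2.1.1
    have h1 := Crest.Agent.LT.pow_mem_ordIdeal h0 ((p ^ (k + r)) ^ M')
    rw [one_mul] at h1
    have h2 : M' ≤ (p ^ (k + r)) ^ M' := by
      have hq : 2 ≤ p ^ (k + r) := by
        calc 2 ≤ p := hp.out.two_le
          _ = p ^ 1 := (pow_one p).symm
          _ ≤ p ^ (k + r) := Nat.pow_le_pow_right hp.out.pos hqr
      exact (Nat.lt_pow_self hq).le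
    exact Crest.Agent.LT.mem_ordIdeal_iff_coeff.mp (Crest.Agent.LT.ordIdeal_mono h2 h1) i hi

end Alg

section Pts

open Crest.Agent.Lib.LT.Descent Crest.Agent.LT.Linearize

variable {R : Type} [NontriviallyNormedField R] [IsUltrametricDist R] [CompleteSpace R]
  [IsAlgClosed R] [Algebra K R] [CharP R p] [PerfectRing R p]

theorem wOf_self (ξ : Pt r R) : wOf ξ r = 1 := dif_neg (lt_irrefl _)

/-! ### The assembly -/

theorem Stratum.assemble (hcard : Nat.card K = p ^ (k + r))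
    (hmono : ∀ (c : K) (j : ℕ), IsFGHom D.ΓK D.ΓK (PowerSeries.C c * PowerSeries.X ^ (p ^ j)))
    (ξ : Pt r R) (hξ0 : ξ.1 ⟨0, D.hr⟩ ≠ 0)
    (hP : ∀ u : R, ‖u‖ < 1 → ‖D.pAt ξ u - AddExp.Aadd p k r (wOf ξ) u‖ ≤
      AddExp.gg p k r (wOf ξ) (AddExp.gg p k r (wOf ξ) ‖u‖))
    (f : MvPowerSeries (Fin r) K) (hf : f ≠ 0) (M₀ : ℕ)
    (w : PowerSeries K → Pt r R) (θ : PowerSeries K → PowerSeries R) (ρ : ℝ) (hρ : ρ < 1)
    (hfam : ∀ π, IsFGHom D.ΓK D.ΓK π → (∀ i < M₀, PowerSeries.coeff i π = 0) →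
      (∀ j, ‖PowerSeries.coeff j (θ π)‖ ≤ 1) ∧
      IsFGHom (D.HAt (w π)) (D.HAt ξ) (θ π) ∧
      (∀ j, ‖PowerSeries.coeff j (θ π) - algebraMap K R (PowerSeries.coeff j
        (Crest.Agent.LT.fadd D.ΓK.toPowerSeries PowerSeries.X π))‖ ≤ ρ) ∧
      D.evA (w π) f = 0)
    (hcont : ∀ ε : ℝ, 0 < ε → ∀ B : ℕ, ∃ M, ∀ π, IsFGHom D.ΓK D.ΓK π →
      (∀ i < M, PowerSeries.coeff i π = 0) →
      ‖(w π).1 - ξ.1‖ < ε ∧
      ∀ j ≤ B, ‖PowerSeries.coeff j (θ π) - PowerSeries.coeff j PowerSeries.X‖ < ε) : False := by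
  classical
  have hqr : 1 ≤ k + r := by have := D.hk; omega
  have hcomm := D.comm
  have hHc : (D.HAt ξ).IsComm := Crest.Agent.LT.isComm_map _ _
  -- the linearization
  let g : PowerSeries R := PowerSeries.map (D.evA ξ) D.gA
  have hpg : mulSeries (D.HAt ξ) p =
      PowerSeries.expand (p ^ k) (pow_ne_zero k hp.out.ne_zero) g := by
    rw [Stratum.HAt, Crest.Agent.LT.mulSeries_map, D.hp, PowerSeries.map_expand]
  have hg0 : PowerSeries.constantCoeff g = 0 := by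
    rw [← PowerSeries.coeff_zero_eq_constantCoeff_apply, PowerSeries.coeff_map,
      PowerSeries.coeff_zero_eq_constantCoeff_apply, D.gA_zero, map_zero]
  have hg1 : PowerSeries.coeff 1 g = ξ.1 ⟨0, D.hr⟩ := by
    rw [PowerSeries.coeff_map, D.gA_one D.hr, Stratum.evA_apply, MvPowerSeries.map_X, ev_X]
  have hgn : ∀ j, ‖PowerSeries.coeff j g‖ ≤ 1 := fun j => by
    rw [PowerSeries.coeff_map]
    exact D.norm_evA_le_one ξ _
  have hξ0lt : ‖ξ.1 ⟨0, D.hr⟩‖ < 1 := (norm_le_pi_norm ξ.1 _).trans_lt ξ.2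
  obtain ⟨ι, Γ', hΓ'c, hι0, hι1, hιp, hιlt, hιg, hιhom, hfix, hΓ'p, hιs⟩ :=
    exists_linearization_core (p := p) k D.hk (D.HAt ξ) g hpg hg0 (by rw [hg1]; exact hξ0)
      hgn (by rw [hg1]; exact hξ0lt)
  rw [hg1] at hιp
  -- the basis
  obtain ⟨z, hz1, hzne, hz0, hinj, hT⟩ := D.exists_orth_at ξ hξ0
  set c₁ := PowerSeries.coeff 1 ι with hc₁
  have hc₁pos : 0 < ‖c₁‖ := norm_pos_iff.mpr hι1
  -- the threshold `M₁`
  obtain ⟨δ, hδ, hδsmall⟩ := D.PsiAt_small ξ hc₁pos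
  have hzn : ‖z‖ < 1 := (pi_norm_lt_iff zero_lt_one).mpr hz1
  obtain ⟨M₂, hM₂⟩ := exists_pow_lt_of_lt_one hδ hzn
  let M₁ : ℕ := max M₀ M₂
  have hsmallPsi : ∀ π : PowerSeries K, (∀ i < M₁, PowerSeries.coeff i π = 0) → ∀ i,
      ‖D.PsiAt ξ (evP π (z i))‖ < ‖c₁‖ := by
    intro π hπ i
    apply hδsmall
    have h1 := norm_evP_le_of_order (R := R) hπ (hz1 i)
    have h2 : ‖z i‖ ≤ ‖z‖ := norm_le_pi_norm z i
    have h3 : ‖z i‖ ^ M₁ ≤ ‖z‖ ^ M₂ :=
      (pow_le_pow_left₀ (norm_nonneg _) h2 _).trans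
        (pow_le_pow_of_le_one (norm_nonneg _) hzn.le (le_max_right _ _))
    exact lt_of_le_of_lt (h1.trans h3) hM₂
  -- the parameters
  let A : Params (SmallE D M₁) := smallParams hqr
  let l : SmallE D M₁ → Fin r → R := fun π i => ev1 ι (D.PsiAt ξ (evP π.1 (z i)))
  have hιc1 : ‖c₁‖ ≤ 1 := hιlt.le
  have hιg' : Growth ι := hιg
  have hnormι : ∀ {x : R}, ‖x‖ < ‖c₁‖ → ‖ev1 ι x‖ = ‖c₁‖ * ‖x‖ := fun {x} hx =>
    Growth.norm_ev1 hιg' hι0 hx
  have hzero0 : ev1 ι (0 : R) = 0 := by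
    have h0 := hnormι (x := (0 : R)) (by simpa using hc₁pos)
    simpa using h0
  have hlt1 : ∀ (π : SmallE D M₁) i, ‖l π i‖ < 1 := by
    intro π i
    have h1 := hsmallPsi π.1 π.2.2 i
    have h2 := hnormι h1
    change ‖ev1 ι _‖ < 1
    rw [h2]
    have h3 : ‖D.PsiAt ξ (evP π.1 (z i))‖ < 1 := h1.trans hιlt
    calc ‖c₁‖ * ‖D.PsiAt ξ (evP π.1 (z i))‖ ≤ 1 * ‖D.PsiAt ξ (evP π.1 (z i))‖ :=
          mul_le_mul_of_nonneg_right hιc1 (norm_nonneg _)
      _ < 1 := by rwa [one_mul]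
  have hlt : ∀ π : SmallE D M₁, ‖l π‖ < 1 := fun π => (pi_norm_lt_iff zero_lt_one).mpr (hlt1 π)
  -- integrality
  have hQ : 2 ≤ p ^ k := by
    calc 2 ≤ p := hp.out.two_le
      _ = p ^ 1 := (pow_one p).symm
      _ ≤ p ^ k := Nat.pow_le_pow_right hp.out.pos D.hk
  have hΓ'int : IntS Γ'.toPowerSeries := intS_of_rational hQ hfix
  have hHint : IntS (D.HAt ξ).toPowerSeries := fun m => by
    show ‖MvPowerSeries.coeff m (MvPowerSeries.map (D.evA ξ) D.HW.toPowerSeries)‖ ≤ 1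
    rw [MvPowerSeries.coeff_map]
    exact D.norm_evA_le_one ξ _
  -- the three identities
  have hevP_lt : ∀ (π : SmallE D M₁) i, ‖(evP π.1 (z i) : R)‖ < 1 := fun π i =>
    norm_evP_lt π.2.1.1 (hz1 i)
  have hadd : ∀ (π π' : SmallE D M₁) i, l (π + π') i = ev Γ'.toPowerSeries ![l π i, l π' i] := by
    intro π π' i
    show ev1 ι (D.PsiAt ξ (evP (Crest.Agent.LT.fadd D.ΓK.toPowerSeries π.1 π'.1) (z i))) = _
    rw [D.evP_fadd π.2.1.1 π'.2.1.1 (hz1 i), D.PsiAt_padd ξ (hevP_lt π i) (hevP_lt π' i)]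
    exact Growth.ev1_hom hιg' hι0 hι1 hιc1 hHint hΓ'int hιhom (hsmallPsi _ π.2.2 i)
      (hsmallPsi _ π'.2.2 i)
  have hzero : l 0 = 0 := by
    funext i
    show ev1 ι (D.PsiAt ξ (evP (0 : PowerSeries K) (z i))) = 0
    rw [evP_zero, D.PsiAt_zero, hzero0]
  have hPbdd : Crest.Agent.Lib.LT.Eval1.IsBdd0 (mulSeries (D.HAt ξ) p) := by
    refine ⟨fun j => ?_, Crest.Agent.LT.constantCoeff_mulSeries _ _⟩
    rw [Stratum.HAt, Crest.Agent.LT.mulSeries_map, PowerSeries.coeff_map]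
    exact D.norm_evA_le_one ξ _
  have hfrob : ∀ (π : SmallE D M₁) i, l (A.pm π) i = l π i ^ p ^ k := by
    intro π i
    show ev1 ι (D.PsiAt ξ (evP (π.1 ^ (p ^ (k + r))) (z i))) = _
    rw [evP_pow _ (hz1 i), D.PsiAt_pow ξ (hevP_lt π i), D.pAt_eq]
    exact Growth.ev1_mulP hιg' hι0 hιc1 hPbdd hιs (hsmallPsi _ π.2.2 i)
  -- the values through `θ`
  have hM₁ : M₀ ≤ M₁ := le_max_left _ _
  have hfamM : ∀ π : SmallE D M₁, _ := fun π => hfam π.1 π.2.1 (fun i hi => π.2.2 i (lt_of_lt_of_le hi hM₁))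
  have hlv : ∀ π : SmallE D M₁, lv D ι (fun π : SmallE D M₁ => w π.1)
      (fun π : SmallE D M₁ => θ π.1) z π = l π := by
    intro π
    funext i
    obtain ⟨hb, hh, hc, -⟩ := hfamM π
    show ev1 ι (ev1 (θ π.1) (D.PsiAt (w π.1) (z i))) = ev1 ι (D.PsiAt ξ (evP π.1 (z i)))
    have hX0 : PowerSeries.constantCoeff (PowerSeries.X : PowerSeries K) = 0 := by simp
    have ha0 := Crest.Agent.LT.constantCoeff_fadd' D.ΓK hX0 π.2.1.1
    rw [D.theta_PsiAt ξ (w π.1) hh hb ha0 hρ hc (hz1 i),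
      D.evP_fadd hX0 π.2.1.1 (hz1 i), evP_X,
      D.PsiAt_padd ξ (hz1 i) (hevP_lt π i), hz0 i]
    congr 1
    exact padd_zero_left _ (((hsmallPsi _ π.2.2 i).trans hιlt))
  -- the approximate relations
  let Lm : ℕ → Set (SmallE D M₁) := fun M => {π | ∀ i < M, PowerSeries.coeff i π.1 = 0}
  obtain ⟨d, hd⟩ := exists_asymp_poly D ξ hξ0 ι hι0 hι1 hc₁pos (Growth.gs hιg' hι0 hιc1) hιs z hz1 hz0
    hinj f hf Lm (fun π : SmallE D M₁ => w π.1) (fun π : SmallE D M₁ => θ π.1)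
    (fun π => (hfamM π).2.1.1) (fun π => (hfamM π).1) (fun π => (hfamM π).2.1)
    (fun π => (hfamM π).2.2.2) (fun ε hε B => by
      obtain ⟨M, hM⟩ := hcont ε hε B
      exact ⟨M, fun π hπ => hM π.1 π.2.1 hπ⟩)
  have hAV : ∀ B, d ≤ B → ∃ P : MvPolynomial (Fin r) R, AV A l B P ∧
      ∃ m : Fin r →₀ ℕ, Finsupp.degree m ≤ d ∧ MvPolynomial.coeff m P ≠ 0 := by
    intro B _
    obtain ⟨P, hP, M, C, hPM⟩ := hd B
    refine ⟨P, ⟨M, C, fun π hπ => ?_⟩, hP⟩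
    have := hPM π hπ
    rwa [hlv π] at this
  obtain ⟨S, κ, e, hS, hκ, hrel⟩ := Crest.Agent.Lib.LT.RelLead.exists_leading_relation p k D.hk Γ' hfix
    A l hlt hadd hzero hfrob d hAV
  refine D.lemmaR_wrap hcard ξ hξ0 hP hι0 hι1 hιlt hιg' hιp hz1 hzne hz0 hT S hS κ hκ e M₁ ?_
  intro j hj c hc
  have hMj : M₁ ≤ p ^ j := by
    have : j < p ^ j := Nat.lt_pow_self hp.out.one_lt
    omega
  have hord : ∀ i < M₁, PowerSeries.coeff i (PowerSeries.C c * PowerSeries.X ^ (p ^ j) : PowerSeries K) = 0 := by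
    intro i hi
    rw [PowerSeries.coeff_C_mul, PowerSeries.coeff_X_pow, if_neg (by omega), mul_zero]
  obtain ⟨i1, hi1, hrel1⟩ := hrel ⟨_, hmono c j, hord⟩
  refine ⟨i1, hi1, ?_⟩
  have hl : ∀ i, l ⟨_, hmono c j, hord⟩ i = ev1 ι (D.PsiAt ξ (algebraMap K R c * z i ^ p ^ j)) := by
    intro i
    show ev1 ι (D.PsiAt ξ (evP _ (z i))) = _
    rw [evP_mono]
  simpa only [hl] using hrel1

end Pts

end Crest.Agent.LT.Chart
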