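import Mathlib
import Crest.Prelude.Def_LubinTate

/-!
# The stratum quotient of `E₀`

For `k ≥ 1`: `qE k : E₀ → K[[w_0,…,w_{r-1}]]`, `r = n - k`: the coefficient map `W(K) → K`,
`u_i ↦ 0` for `i < k`, `u_{k+j} ↦ w_j`.  It is surjective with kernel `(p, u_1, …, u_{k-1})`.
-/

set_option autoImplicit false

open Crest.LubinTate

namespace Crest.Agent.LT

section Restrict

variable {σ τ R : Type*} [CommSemiring R] (ι : τ ↪ σ)

open Classical in
theorem antidiagonal_embDomain (m : τ →₀ ℕ) :
    Finset.HasAntidiagonal.antidiagonal (m.embDomain ι) =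
      (Finset.HasAntidiagonal.antidiagonal m).map
        ⟨fun x => (x.1.embDomain ι, x.2.embDomain ι), fun a b h => by
          simp only [Prod.mk.injEq] at h
          exact Prod.ext (Finsupp.embDomain_injective ι h.1) (Finsupp.embDomain_injective ι h.2)⟩ := by
  ext ⟨a, b⟩
  rw [Finset.mem_map, Finset.HasAntidiagonal.mem_antidiagonal]
  constructor
  · intro h
    have hsup : ∀ x : σ →₀ ℕ, x ≤ m.embDomain ι → ∃ y : τ →₀ ℕ, y.embDomain ι = x := by
      intro x hx
      refine ⟨x.comapDomain ι ι.injective.injOn, ?_⟩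
      apply Finsupp.embDomain_comapDomain
      intro s hs
      by_contra hn
      have h1 : x s ≠ 0 := Finsupp.mem_support_iff.mp hs
      have h2 : (m.embDomain ι) s = 0 := Finsupp.embDomain_of_notMem_range _ _ _ hn
      have := hx s
      omega
    obtain ⟨a', rfl⟩ := hsup a (by rw [← h]; exact le_self_add)
    obtain ⟨b', rfl⟩ := hsup b (by rw [← h]; exact le_add_self)
    refine ⟨(a', b'), ?_, rfl⟩
    rw [Finset.HasAntidiagonal.mem_antidiagonal]
    apply Finsupp.embDomain_injective ι
    rw [Finsupp.embDomain_add, h]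
  · rintro ⟨⟨a', b'⟩, h, he⟩
    rw [Finset.HasAntidiagonal.mem_antidiagonal] at h
    have h1 : a'.embDomain ι = a := congrArg Prod.fst he
    have h2 : b'.embDomain ι = b := congrArg Prod.snd he
    subst h1 h2
    rw [← Finsupp.embDomain_add, ← h]

/-- "Restriction": all the variables outside the image of `ι` are killed. -/
noncomputable def restrict : MvPowerSeries σ R →+* MvPowerSeries τ R where
  toFun f := fun m => MvPowerSeries.coeff (m.embDomain ι) f
  map_one' := by
    classical
    ext m
    change MvPowerSeries.coeff (m.embDomain ι) (1 : MvPowerSeries σ R) = _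
    rw [MvPowerSeries.coeff_one, MvPowerSeries.coeff_one]
    by_cases h : m = 0
    · subst h; simp
    · have : m.embDomain ι ≠ 0 := fun h' => h (by simpa using h')
      simp [h, this]
  map_mul' f g := by
    classical
    ext m
    change MvPowerSeries.coeff (m.embDomain ι) (f * g) = MvPowerSeries.coeff m
      ((show MvPowerSeries τ R from fun m => MvPowerSeries.coeff (m.embDomain ι) f) *
       (show MvPowerSeries τ R from fun m => MvPowerSeries.coeff (m.embDomain ι) g))
    rw [MvPowerSeries.coeff_mul, MvPowerSeries.coeff_mul, antidiagonal_embDomain]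
    simp only [Finset.sum_map]
    rfl
  map_zero' := rfl
  map_add' f g := by
    ext m
    change MvPowerSeries.coeff (m.embDomain ι) (f + g) = _
    rw [map_add]
    rfl

@[simp] theorem coeff_restrict (f : MvPowerSeries σ R) (m : τ →₀ ℕ) :
    MvPowerSeries.coeff m (restrict ι f) = MvPowerSeries.coeff (m.embDomain ι) f := rfl

theorem restrict_C (a : R) : restrict ι (MvPowerSeries.C a : MvPowerSeries σ R) =
    MvPowerSeries.C a := by
  classical
  ext m
  rw [coeff_restrict, MvPowerSeries.coeff_C, MvPowerSeries.coeff_C]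
  by_cases h : m = 0
  · subst h; simp
  · have : m.embDomain ι ≠ 0 := fun h' => h (by simpa using h')
    simp [h, this]

theorem restrict_X (j : τ) : restrict ι (MvPowerSeries.X (ι j) : MvPowerSeries σ R) =
    MvPowerSeries.X j := by
  classical
  ext m
  rw [coeff_restrict, MvPowerSeries.coeff_X, MvPowerSeries.coeff_X]
  have h : m.embDomain ι = Finsupp.single (ι j) 1 ↔ m = Finsupp.single j 1 := by
    rw [← Finsupp.embDomain_single]
    exact (Finsupp.embDomain_injective ι).eq_iff
  simp [h]

theorem restrict_X_of_notMem (s : σ) (hs : s ∉ Set.range ι) :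
    restrict ι (MvPowerSeries.X s : MvPowerSeries σ R) = 0 := by
  classical
  ext m
  rw [coeff_restrict, MvPowerSeries.coeff_X, map_zero]
  rw [if_neg]
  intro h
  have h1 : (m.embDomain ι) s = 1 := by rw [h]; simp
  rw [Finsupp.embDomain_of_notMem_range _ _ _ hs] at h1
  exact zero_ne_one h1

theorem restrict_surjective : Function.Surjective (restrict ι : MvPowerSeries σ R → _) := by
  classical
  intro g
  refine ⟨fun d => MvPowerSeries.coeff (d.comapDomain ι ι.injective.injOn) g, ?_⟩
  ext m
  change MvPowerSeries.coeff (((m.embDomain ι).comapDomain ι ι.injective.injOn)) g = _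
  rw [Finsupp.comapDomain_embDomain]

end Restrict

section Span

variable {σ : Type*} [Finite σ] {A : Type*} [CommRing A]

/-- A series none of whose monomials avoid `S` lies in the ideal generated by the `X i`, `i ∈ S`. -/
theorem mem_span_X_of_coeff_zero (S : Set σ) (f : MvPowerSeries σ A)
    (hf : ∀ d : σ →₀ ℕ, (∀ i ∈ S, d i = 0) → MvPowerSeries.coeff d f = 0) :
    f ∈ Ideal.span ((MvPowerSeries.X : σ → MvPowerSeries σ A) '' S) := by
  classical
  have := Fintype.ofFinite σ
  let I := Ideal.span ((MvPowerSeries.X : σ → MvPowerSeries σ A) '' S)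
  have key : ∀ T : Finset σ, (∀ s ∈ T, s ∈ S) → ∃ g : MvPowerSeries σ A, f - g ∈ I ∧
      (∀ m : σ →₀ ℕ, (∃ s ∈ T, m s ≠ 0) → MvPowerSeries.coeff m g = 0) ∧
      (∀ m : σ →₀ ℕ, (∀ i ∈ S, m i = 0) → MvPowerSeries.coeff m g = MvPowerSeries.coeff m f) := by
    intro T
    induction T using Finset.induction_on with
    | empty => exact fun _ => ⟨f, by simp [I], by simp, fun _ _ => rfl⟩
    | insert s T hs ih =>
      intro hTS
      obtain ⟨g, hg1, hg2, hg3⟩ := ih (fun t ht => hTS t (Finset.mem_insert_of_mem ht))
      have hsS : s ∈ S := hTS s (Finset.mem_insert_self _ _)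
      let g' : MvPowerSeries σ A := fun m => if m s = 0 then MvPowerSeries.coeff m g else 0
      have hcoeff : ∀ m, MvPowerSeries.coeff m g' = if m s = 0 then MvPowerSeries.coeff m g else 0 :=
        fun m => rfl
      have hdvd : MvPowerSeries.X s ∣ g - g' := by
        rw [MvPowerSeries.X_dvd_iff]
        intro m hm
        simp [hcoeff, hm]
      refine ⟨g', ?_, ?_, ?_⟩
      · have : f - g' = (f - g) + (g - g') := by ring
        rw [this]
        refine Ideal.add_mem _ hg1 ?_
        obtain ⟨c, hc⟩ := hdvd
        rw [hc]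
        exact Ideal.mul_mem_right _ _ (Ideal.subset_span ⟨s, hsS, rfl⟩)
      · rintro m ⟨t, ht, hmt⟩
        rw [hcoeff]
        split_ifs with h0
        · rcases Finset.mem_insert.mp ht with rfl | ht'
          · exact absurd h0 hmt
          · exact hg2 m ⟨t, ht', hmt⟩
        · rfl
      · intro m hm
        rw [hcoeff, if_pos (hm s hsS), hg3 m hm]
  let T : Finset σ := Finset.univ.filter (· ∈ S)
  obtain ⟨g, hg1, hg2, hg3⟩ := key T (fun t ht => by simpa [T] using ht)
  have hg0 : g = 0 := by
    ext m
    by_cases hm : ∀ i ∈ S, m i = 0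
    · rw [hg3 m hm, hf m hm]; simp
    · push Not at hm
      obtain ⟨i, hi, hmi⟩ := hm
      simpa using hg2 m ⟨i, by simpa [T] using hi, hmi⟩
  simpa [hg0] using hg1

end Span

section Strat

open MvPowerSeries

variable (p : ℕ) [Fact p.Prime] (n : ℕ)

/-- The ideal `(p, u_1, …, u_{k-1})`. -/
noncomputable def genIdeal (k : ℕ) : Ideal (LTRing p n) :=
  Ideal.span ({(p : LTRing p n)} ∪ (X : Fin (n - 1) → LTRing p n) '' {i | (i : ℕ) + 1 < k})

/-- The embedding of variables, `w_j ↦ u_{k+j}` (index `k + j - 1`). -/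
def stratEmb (k : ℕ) (hk : 1 ≤ k) : Fin (n - k) ↪ Fin (n - 1) where
  toFun j := ⟨k + j - 1, by have := j.2; omega⟩
  inj' := by
    intro a b h
    have := congrArg Fin.val h
    simp only [Fin.mk.injEq] at h
    ext
    omega

/-- The stratum quotient `E₀ → K[[w_0, …, w_{r-1}]]`. -/
noncomputable def qE (k : ℕ) (hk : 1 ≤ k) :
    LTRing p n →+* MvPowerSeries (Fin (n - k)) (GaloisField p n) :=
  (restrict (stratEmb n k hk)).comp
    (MvPowerSeries.map (WittVector.constantCoeff :
      WittVector p (GaloisField p n) →+* GaloisField p n))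

variable {p n} in
theorem coeff_qE (k : ℕ) (hk : 1 ≤ k) (f : LTRing p n) (m : Fin (n - k) →₀ ℕ) :
    coeff m (qE p n k hk f) =
      WittVector.constantCoeff (coeff (m.embDomain (stratEmb n k hk)) f) := by
  simp [qE]

theorem qE_surjective (k : ℕ) (hk : 1 ≤ k) : Function.Surjective (qE p n k hk) := by
  have h1 : Function.Surjective (MvPowerSeries.map (σ := Fin (n - 1))
      (WittVector.constantCoeff : WittVector p (GaloisField p n) →+* GaloisField p n)) := by
    intro g
    choose s hs using WittVector.constantCoeff_surjective (p := p) (R := GaloisField p n)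
    let f : MvPowerSeries (Fin (n - 1)) (WittVector p (GaloisField p n)) := fun d => s (coeff d g)
    refine ⟨f, ?_⟩
    ext d
    rw [coeff_map]
    exact hs _
  exact (restrict_surjective _).comp h1

theorem qE_C (k : ℕ) (hk : 1 ≤ k) (a : WittVector p (GaloisField p n)) :
    qE p n k hk (C a) = C (WittVector.constantCoeff a) := by
  simp [qE, restrict_C]

theorem qE_natCast_p (k : ℕ) (hk : 1 ≤ k) : qE p n k hk (p : LTRing p n) = 0 := by
  rw [map_natCast]
  have : (p : MvPowerSeries (Fin (n - k)) (GaloisField p n)) = C (p : GaloisField p n) :=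
    (map_natCast (C : GaloisField p n →+* _) p).symm
  rw [this, CharP.cast_eq_zero, map_zero]

theorem qE_X_of_lt (k : ℕ) (hk : 1 ≤ k) (i : Fin (n - 1)) (hi : (i : ℕ) + 1 < k) :
    qE p n k hk (X i) = 0 := by
  simp only [qE, RingHom.comp_apply, map_X]
  apply restrict_X_of_notMem
  rintro ⟨j, rfl⟩
  have h : ((stratEmb n k hk j : Fin (n - 1)) : ℕ) = k + j - 1 := rfl
  omega

theorem qE_X_emb (k : ℕ) (hk : 1 ≤ k) (j : Fin (n - k)) :
    qE p n k hk (X (stratEmb n k hk j)) = X j := by
  simp only [qE, RingHom.comp_apply, map_X]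
  exact restrict_X _ j

theorem mem_range_stratEmb (k : ℕ) (hk : 1 ≤ k) (i : Fin (n - 1)) (hi : k ≤ (i : ℕ) + 1) :
    i ∈ Set.range (stratEmb n k hk) := by
  have := i.2
  refine ⟨⟨i + 1 - k, by omega⟩, ?_⟩
  ext
  change k + (i + 1 - k) - 1 = i
  omega

theorem genIdeal_le_ker (k : ℕ) (hk : 1 ≤ k) : genIdeal p n k ≤ RingHom.ker (qE p n k hk) := by
  rw [genIdeal, Ideal.span_le]
  rintro x (hx | ⟨i, hi, rfl⟩)
  · rw [Set.mem_singleton_iff.mp hx]
    exact qE_natCast_p p n k hk
  · exact qE_X_of_lt p n k hk i hi

theorem ker_le_genIdeal (k : ℕ) (hk : 1 ≤ k) : RingHom.ker (qE p n k hk) ≤ genIdeal p n k := by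
  classical
  intro f hf
  rw [RingHom.mem_ker] at hf
  let S : Set (Fin (n - 1)) := {i | (i : ℕ) + 1 < k}
  -- the part of `f` avoiding `S`
  let f₀ : LTRing p n := fun d => if ∀ i ∈ S, d i = 0 then coeff d f else 0
  have hc₀ : ∀ d, coeff d f₀ = if ∀ i ∈ S, d i = 0 then coeff d f else 0 := fun d => rfl
  have h1 : f - f₀ ∈ genIdeal p n k := by
    have h2 : f - f₀ ∈ Ideal.span ((X : Fin (n - 1) → LTRing p n) '' S) := by
      apply mem_span_X_of_coeff_zero
      intro d hd
      rw [map_sub, hc₀, if_pos hd, sub_self]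
    exact Ideal.span_mono Set.subset_union_right h2
  have h3 : ∀ d, ∃ c, coeff d f₀ = (p : WittVector p (GaloisField p n)) * c := by
    intro d
    rw [hc₀]
    split_ifs with hd
    · -- `d` is in the image of `stratEmb`
      have hrange : ∃ m : Fin (n - k) →₀ ℕ, m.embDomain (stratEmb n k hk) = d := by
        refine ⟨d.comapDomain _ (stratEmb n k hk).injective.injOn, ?_⟩
        apply Finsupp.embDomain_comapDomain
        intro s hs
        apply mem_range_stratEmb
        by_contra hlt
        have h5 := hd s (by simpa [S] using (not_le.mp hlt))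
        exact (Finsupp.mem_support_iff.mp hs) h5
      obtain ⟨m, rfl⟩ := hrange
      have h4 : WittVector.constantCoeff (coeff (m.embDomain (stratEmb n k hk)) f) = 0 := by
        rw [← coeff_qE, hf, map_zero]
      have h5 : coeff (m.embDomain (stratEmb n k hk)) f ∈
          RingHom.ker (WittVector.constantCoeff :
            WittVector p (GaloisField p n) →+* GaloisField p n) := h4
      rw [WittVector.ker_constantCoeff, Ideal.mem_span_singleton] at h5
      exact h5
    · exact ⟨0, by simp⟩
  choose c hc using h3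
  have h6 : f₀ = (p : LTRing p n) * (show LTRing p n from c) := by
    ext d
    rw [hc]
    have : (p : LTRing p n) = C (p : WittVector p (GaloisField p n)) := by simp
    rw [this, coeff_C_mul]
    rfl
  have h7 : f₀ ∈ genIdeal p n k := by
    rw [h6]
    exact Ideal.mul_mem_right _ _ (Ideal.subset_span (Or.inl rfl))
  have : f = (f - f₀) + f₀ := by ring
  rw [this]
  exact Ideal.add_mem _ h1 h7

theorem ker_qE (k : ℕ) (hk : 1 ≤ k) : RingHom.ker (qE p n k hk) = genIdeal p n k :=
  le_antisymm (ker_le_genIdeal p n k hk) (genIdeal_le_ker p n k hk)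

theorem genIdeal_isPrime (k : ℕ) (hk : 1 ≤ k) : (genIdeal p n k).IsPrime := by
  rw [← ker_qE p n k hk]
  haveI : IsDomain (MvPowerSeries (Fin (n - k)) (GaloisField p n)) :=
    NoZeroDivisors.to_isDomain _
  exact RingHom.ker_isPrime _

/-- `I_{k+1} = I_k + (u_k)`, `1 ≤ k < n`. -/
theorem genIdeal_succ (k : ℕ) (hk : 1 ≤ k) (hkn : k < n) :
    genIdeal p n (k + 1) = genIdeal p n k ⊔ Ideal.span {X ⟨k - 1, by omega⟩} := by
  apply le_antisymm
  · rw [genIdeal, Ideal.span_le]
    rintro x (hx | ⟨i, hi, rfl⟩)
    · exact Ideal.mem_sup_left (Ideal.subset_span (Or.inl hx))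
    · by_cases hik : (i : ℕ) + 1 < k
      · exact Ideal.mem_sup_left (Ideal.subset_span (Or.inr ⟨i, hik, rfl⟩))
      · apply Ideal.mem_sup_right
        have : i = ⟨k - 1, by omega⟩ := by
          ext
          simp only [Set.mem_ofPred_eq] at hi
          simp only
          omega
        rw [this]
        exact Ideal.mem_span_singleton_self _
  · refine sup_le ?_ ?_
    · apply Ideal.span_mono
      apply Set.union_subset_union_right
      apply Set.image_mono
      intro i hi
      simp only [Set.mem_ofPred_eq] at hi ⊢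
      omega
    · rw [Ideal.span_singleton_le_iff_mem]
      apply Ideal.subset_span
      right
      refine ⟨⟨k - 1, by omega⟩, ?_, rfl⟩
      simp only [Set.mem_ofPred_eq]
      omega

/-- `I_n = m`. -/
theorem genIdeal_self (hn : 1 ≤ n) :
    genIdeal p n n = IsLocalRing.maximalIdeal (LTRing p n) := by
  have h : (genIdeal p n n) = RingHom.ker (LTRing.residue p n) := by
    apply le_antisymm
    · rw [genIdeal, Ideal.span_le]
      rintro x (hx | ⟨i, hi, rfl⟩)
      · rw [Set.mem_singleton_iff.mp hx]
        simp [LTRing.residue, RingHom.mem_ker]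
      · simp [LTRing.residue, RingHom.mem_ker]
    · -- use `qE n`
      intro f hf
      rw [← ker_qE p n n hn, RingHom.mem_ker]
      ext m
      have hm : m = 0 := by
        ext j
        have := j.2
        omega
      subst hm
      rw [coeff_qE, Finsupp.embDomain_zero]
      simpa [LTRing.residue, RingHom.mem_ker] using hf
  rw [h]
  have : (RingHom.ker (LTRing.residue p n)).IsMaximal := by
    apply RingHom.ker_isMaximal_of_surjective
    intro x
    obtain ⟨w, rfl⟩ := WittVector.constantCoeff_surjective (p := p) (R := GaloisField p n)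
      (show GaloisField p n from x)
    exact ⟨C w, by simp [LTRing.residue]⟩
  exact IsLocalRing.eq_maximalIdeal this

end Strat

end Crest.Agent.LT
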