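import Crest.Agent.Lib.LT.StdFEL
import Crest.Prelude.Def_LubinTate

/-!
# The formal group law of a logarithm, descent, and the exact `p`-series formula
-/

set_option autoImplicit false

namespace Crest.Agent.LT.Std

open scoped BigOperators
open Crest.LubinTate

section Generic

variable {L : Type*} [CommRing L] {τ σ : Type*}

lemma constantCoeff_psX : MvPowerSeries.constantCoeff (PowerSeries.X : PowerSeries L) = 0 := by
  simp [PowerSeries.X]

/-- Composition: `w ∘ (f ∘ G) = f ∘ (w ∘ G)`. -/
lemma subst_psubst (f : PowerSeries L) {G : MvPowerSeries σ L}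
    (hG : MvPowerSeries.constantCoeff G = 0) {w : σ → MvPowerSeries τ L}
    (hw : MvPowerSeries.HasSubst w) :
    MvPowerSeries.subst w (f.subst G) = f.subst (MvPowerSeries.subst w G) := by
  have hs : PowerSeries.HasSubst G := PowerSeries.HasSubst.of_constantCoeff_zero hG
  rw [PowerSeries.subst, PowerSeries.subst,
    MvPowerSeries.subst_comp_subst_apply (PowerSeries.HasSubst.const hs) hw]

lemma hasSubst_pair {a b : MvPowerSeries τ L} (ha : MvPowerSeries.constantCoeff a = 0)
    (hb : MvPowerSeries.constantCoeff b = 0) : MvPowerSeries.HasSubst ![a, b] :=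
  MvPowerSeries.hasSubst_of_constantCoeff_zero (by
    intro s; fin_cases s <;> simp [ha, hb])

lemma constantCoeff_subst_pair {G : MvPowerSeries (Fin 2) L}
    (hG : MvPowerSeries.constantCoeff G = 0) {a b : MvPowerSeries τ L}
    (ha : MvPowerSeries.constantCoeff a = 0) (hb : MvPowerSeries.constantCoeff b = 0) :
    MvPowerSeries.constantCoeff (MvPowerSeries.subst ![a, b] G) = 0 :=
  MvPowerSeries.constantCoeff_subst_eq_zero (hasSubst_pair ha hb)
    (by intro s; fin_cases s <;> simp [ha, hb]) hG

lemma constantCoeff_psubst {f : PowerSeries L} (hf : PowerSeries.constantCoeff f = 0)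
    {g : MvPowerSeries τ L} (hg : MvPowerSeries.constantCoeff g = 0) :
    MvPowerSeries.constantCoeff (f.subst g) = 0 :=
  PowerSeries.constantCoeff_subst_eq_zero hg f hf

/-- Left inverse property of the compositional inverse. -/
lemma subst_subst_inv (f : PowerSeries L) (hf0 : PowerSeries.constantCoeff f = 0)
    (hfu : IsUnit (PowerSeries.coeff 1 f)) {g : MvPowerSeries τ L}
    (hg : MvPowerSeries.constantCoeff g = 0) :
    (f.substInvOfIsUnit hfu).subst (f.subst g) = g := by
  have hs : PowerSeries.HasSubst g := PowerSeries.HasSubst.of_constantCoeff_zero hg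
  have hfs : PowerSeries.HasSubst f := PowerSeries.HasSubst.of_constantCoeff_zero' hf0
  rw [← PowerSeries.subst_comp_subst_apply hfs hs, PowerSeries.subst_substInvOfIsUnit_left f hf0 hfu,
    PowerSeries.subst_X hs]

lemma subst_inv_subst (f : PowerSeries L) (hf0 : PowerSeries.constantCoeff f = 0)
    (hfu : IsUnit (PowerSeries.coeff 1 f)) {g : MvPowerSeries τ L}
    (hg : MvPowerSeries.constantCoeff g = 0) :
    f.subst ((f.substInvOfIsUnit hfu).subst g) = g := by
  have hs : PowerSeries.HasSubst g := PowerSeries.HasSubst.of_constantCoeff_zero hg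
  have hfs : PowerSeries.HasSubst (f.substInvOfIsUnit hfu) := PowerSeries.HasSubst.substInvOfIsUnit _ _
  rw [← PowerSeries.subst_comp_subst_apply hfs hs,
    PowerSeries.subst_substInvOfIsUnit_right f hf0 hfu, PowerSeries.subst_X hs]

lemma log_inj (f : PowerSeries L) (hf0 : PowerSeries.constantCoeff f = 0)
    (hfu : IsUnit (PowerSeries.coeff 1 f)) {g₁ g₂ : MvPowerSeries τ L}
    (h₁ : MvPowerSeries.constantCoeff g₁ = 0) (h₂ : MvPowerSeries.constantCoeff g₂ = 0)
    (h : f.subst g₁ = f.subst g₂) : g₁ = g₂ := by
  rw [← subst_subst_inv f hf0 hfu h₁, h, subst_subst_inv f hf0 hfu h₂]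

/-- `coeff e (f ∘ g) = coeff e g` for `e` of degree at most one, when `f = X + ...`. -/
lemma coeff_psubst_of_degree_le_one {f : PowerSeries L} (hf0 : PowerSeries.constantCoeff f = 0)
    (hf1 : PowerSeries.coeff 1 f = 1) {g : MvPowerSeries τ L}
    (hg : MvPowerSeries.constantCoeff g = 0) (e : τ →₀ ℕ) (he : e.degree ≤ 1) :
    MvPowerSeries.coeff e (f.subst g) = MvPowerSeries.coeff e g := by
  have hs : PowerSeries.HasSubst g := PowerSeries.HasSubst.of_constantCoeff_zero hg
  have hg1 : OrdGE 1 g := ordGE_of_constantCoeff hg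
  rw [PowerSeries.coeff_subst hs, finsum_eq_single _ 1]
  · simp [hf1]
  · intro d hd
    rcases Nat.lt_or_ge d 2 with h | h
    · have : d = 0 := by omega
      subst this
      have : PowerSeries.coeff 0 f = 0 := by simpa using hf0
      simp [this]
    · have h3 := hg1.pow d
      rw [h3 e (by omega), smul_zero]

/-- The series `f⁻¹(f X + f Y)`. -/
noncomputable def lawSeries (f : PowerSeries L) (hfu : IsUnit (PowerSeries.coeff 1 f)) :
    MvPowerSeries (Fin 2) L :=
  (f.substInvOfIsUnit hfu).subst
    (f.subst (MvPowerSeries.X 0 : MvPowerSeries (Fin 2) L)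
      + f.subst (MvPowerSeries.X 1 : MvPowerSeries (Fin 2) L))

lemma constantCoeff_sum_log {f : PowerSeries L} (hf0 : PowerSeries.constantCoeff f = 0) :
    MvPowerSeries.constantCoeff (f.subst (MvPowerSeries.X 0 : MvPowerSeries (Fin 2) L)
      + f.subst (MvPowerSeries.X 1 : MvPowerSeries (Fin 2) L)) = 0 := by
  rw [map_add, constantCoeff_psubst hf0 (by simp), constantCoeff_psubst hf0 (by simp), add_zero]

lemma log_lawSeries (f : PowerSeries L) (hf0 : PowerSeries.constantCoeff f = 0)
    (hfu : IsUnit (PowerSeries.coeff 1 f)) :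
    f.subst (lawSeries f hfu) = f.subst (MvPowerSeries.X 0 : MvPowerSeries (Fin 2) L)
      + f.subst (MvPowerSeries.X 1 : MvPowerSeries (Fin 2) L) :=
  subst_inv_subst f hf0 hfu (constantCoeff_sum_log hf0)

lemma constantCoeff_lawSeries (f : PowerSeries L) (hf0 : PowerSeries.constantCoeff f = 0)
    (hfu : IsUnit (PowerSeries.coeff 1 f)) :
    MvPowerSeries.constantCoeff (lawSeries f hfu) = 0 :=
  constantCoeff_psubst (PowerSeries.constantCoeff_substInvOfIsUnit _ _)
    (constantCoeff_sum_log hf0)

/-- The logarithm property for a bivariate series. -/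
def IsLogSeries (f : PowerSeries L) (G : MvPowerSeries (Fin 2) L) : Prop :=
  f.subst G = f.subst (MvPowerSeries.X 0 : MvPowerSeries (Fin 2) L)
      + f.subst (MvPowerSeries.X 1 : MvPowerSeries (Fin 2) L)

lemma log_bisubst {f : PowerSeries L} (hf0 : PowerSeries.constantCoeff f = 0)
    {G : MvPowerSeries (Fin 2) L} (hG : MvPowerSeries.constantCoeff G = 0) (hlog : IsLogSeries f G)
    {a b : MvPowerSeries τ L} (ha : MvPowerSeries.constantCoeff a = 0)
    (hb : MvPowerSeries.constantCoeff b = 0) :
    f.subst (MvPowerSeries.subst ![a, b] G) = f.subst a + f.subst b := by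
  have hw := hasSubst_pair ha hb
  rw [← subst_psubst f hG hw, hlog, MvPowerSeries.subst_add hw, subst_psubst f (by simp) hw,
    subst_psubst f (by simp) hw, MvPowerSeries.subst_X hw, MvPowerSeries.subst_X hw]
  simp

/-- The formal group law of a logarithm. -/
noncomputable def lawOfLog (f : PowerSeries L) (hf0 : PowerSeries.constantCoeff f = 0)
    (hf1 : PowerSeries.coeff 1 f = 1) : FormalGroup L :=
  have hfu : IsUnit (PowerSeries.coeff 1 f) := by rw [hf1]; exact isUnit_one
  { toPowerSeries := lawSeries f hfu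
    zero_constantCoeff := constantCoeff_lawSeries f hf0 hfu
    lin_coeff_X := by
      have h1 := congrArg (MvPowerSeries.coeff (Finsupp.single (0 : Fin 2) 1))
        (log_lawSeries f hf0 hfu)
      rw [coeff_psubst_of_degree_le_one hf0 hf1 (constantCoeff_lawSeries f hf0 hfu) _ (by simp),
        map_add, coeff_psubst_of_degree_le_one hf0 hf1 (by simp) _ (by simp),
        coeff_psubst_of_degree_le_one hf0 hf1 (by simp) _ (by simp)] at h1
      rw [h1]
      classical
      have hne : Finsupp.single (0 : Fin 2) 1 ≠ Finsupp.single (1 : Fin 2) 1 := by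
        intro h
        have := DFunLike.congr_fun h 0
        simp at this
      simp [MvPowerSeries.coeff_X, hne]
    lin_coeff_Y := by
      have h1 := congrArg (MvPowerSeries.coeff (Finsupp.single (1 : Fin 2) 1))
        (log_lawSeries f hf0 hfu)
      rw [coeff_psubst_of_degree_le_one hf0 hf1 (constantCoeff_lawSeries f hf0 hfu) _ (by simp),
        map_add, coeff_psubst_of_degree_le_one hf0 hf1 (by simp) _ (by simp),
        coeff_psubst_of_degree_le_one hf0 hf1 (by simp) _ (by simp)] at h1
      rw [h1]
      classical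
      have hne : Finsupp.single (1 : Fin 2) 1 ≠ Finsupp.single (0 : Fin 2) 1 := by
        intro h
        have := DFunLike.congr_fun h 0
        simp at this
      simp [MvPowerSeries.coeff_X, hne]
    assoc := by
      have hG := constantCoeff_lawSeries f hf0 hfu
      have hlog : IsLogSeries f (lawSeries f hfu) := log_lawSeries f hf0 hfu
      have hX : ∀ i : Fin 3, MvPowerSeries.constantCoeff (MvPowerSeries.X i : MvPowerSeries (Fin 3) L) = 0 := by
        intro i; simp
      apply log_inj f hf0 hfu
      · exact constantCoeff_subst_pair hG (constantCoeff_subst_pair hG (hX 0) (hX 1)) (hX 2)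
      · exact constantCoeff_subst_pair hG (hX 0) (constantCoeff_subst_pair hG (hX 1) (hX 2))
      · rw [log_bisubst hf0 hG hlog (constantCoeff_subst_pair hG (hX 0) (hX 1)) (hX 2),
          log_bisubst hf0 hG hlog (hX 0) (constantCoeff_subst_pair hG (hX 1) (hX 2)),
          log_bisubst hf0 hG hlog (hX 0) (hX 1), log_bisubst hf0 hG hlog (hX 1) (hX 2), add_assoc] }

lemma lawOfLog_toPowerSeries (f : PowerSeries L) (hf0 : PowerSeries.constantCoeff f = 0)
    (hf1 : PowerSeries.coeff 1 f = 1) :
    (lawOfLog f hf0 hf1).toPowerSeries = lawSeries f (by rw [hf1]; exact isUnit_one) := rfl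

lemma isLog_lawOfLog (f : PowerSeries L) (hf0 : PowerSeries.constantCoeff f = 0)
    (hf1 : PowerSeries.coeff 1 f = 1) :
    IsLogSeries f (lawOfLog f hf0 hf1).toPowerSeries :=
  log_lawSeries f hf0 _

instance isComm_lawOfLog (f : PowerSeries L) (hf0 : PowerSeries.constantCoeff f = 0)
    (hf1 : PowerSeries.coeff 1 f = 1) : (lawOfLog f hf0 hf1).IsComm := by
  constructor
  have hfu : IsUnit (PowerSeries.coeff 1 f) := by rw [hf1]; exact isUnit_one
  have hG := (lawOfLog f hf0 hf1).zero_constantCoeff
  have hlog := isLog_lawOfLog f hf0 hf1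
  apply log_inj f hf0 hfu hG (constantCoeff_subst_pair hG (by simp) (by simp))
  rw [log_bisubst hf0 hG hlog (by simp) (by simp), hlog, add_comm]

end Generic

section Descent

variable {A L B : Type*} [CommRing A] [CommRing L] [CommRing B]

lemma map_injective_of {ι : A →+* L} (hι : Function.Injective ι) {τ : Type*} :
    Function.Injective (MvPowerSeries.map ι : MvPowerSeries τ A → MvPowerSeries τ L) := by
  intro a b h
  ext e
  apply hι
  have := congrArg (MvPowerSeries.coeff e) h
  simpa [MvPowerSeries.coeff_map] using this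

lemma map_subst_pair (φ : A →+* L) {τ : Type*} {a b : MvPowerSeries τ A}
    (ha : MvPowerSeries.constantCoeff a = 0) (hb : MvPowerSeries.constantCoeff b = 0)
    (G : MvPowerSeries (Fin 2) A) :
    MvPowerSeries.map φ (MvPowerSeries.subst ![a, b] G)
      = MvPowerSeries.subst ![MvPowerSeries.map φ a, MvPowerSeries.map φ b]
        (MvPowerSeries.map φ G) := by
  rw [MvPowerSeries.map_subst (hasSubst_pair ha hb)]
  congr 1
  ext1 i
  fin_cases i <;> rfl

/-- A formal group law with integral coefficients descends. -/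
theorem exists_descent {ι : A →+* L} (hι : Function.Injective ι) (Φ : FormalGroup L)
    (h : IsInt ι Φ.toPowerSeries) : ∃ F : FormalGroup A, F.map ι = Φ := by
  classical
  obtain ⟨G, hG⟩ := IsInt.exists_map h
  have h0 : MvPowerSeries.constantCoeff G = 0 := by
    apply hι
    rw [← MvPowerSeries.constantCoeff_map, hG, Φ.zero_constantCoeff, map_zero]
  have hX : ∀ i : Fin 3, MvPowerSeries.constantCoeff (MvPowerSeries.X i : MvPowerSeries (Fin 3) A) = 0 := by
    intro i; simp
  have hXL : ∀ (i : Fin 3), MvPowerSeries.map ι (MvPowerSeries.X i : MvPowerSeries (Fin 3) A)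
      = MvPowerSeries.X i := fun i => by simp
  let F : FormalGroup A :=
    { toPowerSeries := G
      zero_constantCoeff := h0
      lin_coeff_X := by
        apply hι
        rw [← MvPowerSeries.coeff_map, hG, Φ.lin_coeff_X, map_one]
      lin_coeff_Y := by
        apply hι
        rw [← MvPowerSeries.coeff_map, hG, Φ.lin_coeff_Y, map_one]
      assoc := by
        apply map_injective_of hι
        rw [map_subst_pair ι (constantCoeff_subst_pair h0 (hX 0) (hX 1)) (hX 2),
          map_subst_pair ι (hX 0) (constantCoeff_subst_pair h0 (hX 1) (hX 2)),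
          map_subst_pair ι (hX 0) (hX 1), map_subst_pair ι (hX 1) (hX 2), hG, hXL, hXL, hXL]
        exact Φ.assoc }
  refine ⟨F, ?_⟩
  ext e
  change MvPowerSeries.coeff e (MvPowerSeries.map ι G) = _
  rw [hG]

lemma isComm_of_map {ι : A →+* L} (hι : Function.Injective ι) (F : FormalGroup A)
    (h : (F.map ι).IsComm) : F.IsComm := by
  constructor
  apply map_injective_of hι
  have h1 := h.comm
  have h2 : MvPowerSeries.map ι F.toPowerSeries = (F.map ι).toPowerSeries := rfl
  have h3 : ∀ i : Fin 2, MvPowerSeries.map ι (MvPowerSeries.X i : MvPowerSeries (Fin 2) A)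
      = MvPowerSeries.X i := fun i => by simp
  rw [map_subst_pair ι (by simp) (by simp), h3, h3, h2]
  exact h1

variable {R : Type*} [CommRing R]

lemma constantCoeff_mulSeries (F : FormalGroup R) (m : ℕ) :
    PowerSeries.constantCoeff (mulSeries F m) = 0 := by
  induction m with
  | zero => simp [mulSeries]
  | succ m ih =>
    rw [mulSeries]
    exact constantCoeff_subst_pair F.zero_constantCoeff ih constantCoeff_psX

lemma mulSeries_map (φ : R →+* B) (F : FormalGroup R) (m : ℕ) :
    mulSeries (F.map φ) m = PowerSeries.map φ (mulSeries F m) := by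
  induction m with
  | zero => simp [mulSeries]
  | succ m ih =>
    rw [mulSeries, mulSeries, ih]
    have := map_subst_pair φ (τ := Unit) (a := mulSeries F m) (b := PowerSeries.X)
      (constantCoeff_mulSeries F m) constantCoeff_psX F.toPowerSeries
    have hX : MvPowerSeries.map φ (PowerSeries.X : PowerSeries R) = PowerSeries.X := by
      simp [PowerSeries.X]
    rw [hX] at this
    exact this.symm

/-- Iterated formal sum of a family of series `v 1, ..., v j`. -/
noncomputable def Gsum (F : FormalGroup R) (v : ℕ → PowerSeries R) : ℕ → PowerSeries R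
  | 0 => 0
  | j + 1 => F.toPowerSeries.subst ![Gsum F v j, v (j + 1)]

lemma constantCoeff_Gsum (F : FormalGroup R) {v : ℕ → PowerSeries R}
    (hv : ∀ j, PowerSeries.constantCoeff (v j) = 0) (j : ℕ) :
    PowerSeries.constantCoeff (Gsum F v j) = 0 := by
  induction j with
  | zero => simp [Gsum]
  | succ j ih =>
    rw [Gsum]
    exact constantCoeff_subst_pair F.zero_constantCoeff ih (hv _)

lemma Gsum_map (φ : R →+* B) (F : FormalGroup R) {v : ℕ → PowerSeries R}
    (hv : ∀ j, PowerSeries.constantCoeff (v j) = 0) (j : ℕ) :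
    Gsum (F.map φ) (fun i => PowerSeries.map φ (v i)) j = PowerSeries.map φ (Gsum F v j) := by
  induction j with
  | zero => simp [Gsum]
  | succ j ih =>
    rw [Gsum, Gsum, ih]
    exact (map_subst_pair φ (constantCoeff_Gsum F hv j) (hv _) F.toPowerSeries).symm

end Descent

section LogProps

variable {L : Type*} [CommRing L]

lemma log_mulSeries {f : PowerSeries L} (hf0 : PowerSeries.constantCoeff f = 0)
    (F : FormalGroup L) (hlog : IsLogSeries f F.toPowerSeries) (m : ℕ) :
    f.subst (mulSeries F m) = (m : PowerSeries L) * f := by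
  induction m with
  | zero =>
    simp only [mulSeries, Nat.cast_zero, zero_mul]
    exact PowerSeries.subst_zero_of_constantCoeff_zero hf0
  | succ m ih =>
    rw [mulSeries, log_bisubst hf0 F.zero_constantCoeff hlog (constantCoeff_mulSeries F m)
      constantCoeff_psX, ih, PowerSeries.X_subst]
    push_cast
    ring

lemma log_Gsum {f : PowerSeries L} (hf0 : PowerSeries.constantCoeff f = 0)
    (F : FormalGroup L) (hlog : IsLogSeries f F.toPowerSeries) {v : ℕ → PowerSeries L}
    (hv : ∀ j, PowerSeries.constantCoeff (v j) = 0) (j : ℕ) :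
    f.subst (Gsum F v j) = ∑ i ∈ Finset.Icc 1 j, f.subst (v i) := by
  induction j with
  | zero =>
    simp only [Gsum, Finset.Icc_eq_empty_of_lt (show 0 < 1 by norm_num), Finset.sum_empty]
    exact PowerSeries.subst_zero_of_constantCoeff_zero hf0
  | succ j ih =>
    rw [Gsum, log_bisubst hf0 F.zero_constantCoeff hlog (constantCoeff_Gsum F hv j) (hv _), ih,
      Finset.sum_Icc_succ_top (by omega)]

end LogProps

section LogLinear

variable {L : Type*} [CommRing L] {p : ℕ}

lemma logSeries_sum {ι' : Type*} (s : Finset ι') (c : ι' → ℕ → L) :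
    logSeries p (fun m => ∑ i ∈ s, c i m) = ∑ i ∈ s, logSeries p (c i) := by
  ext d
  rw [map_sum]
  simp only [logSeries, PowerSeries.coeff_mk]
  split_ifs <;> simp

lemma C_mul_logSeries (a : L) (c : ℕ → L) :
    PowerSeries.C a * logSeries p c = logSeries p (fun m => a * c m) := by
  ext d
  rw [PowerSeries.coeff_C_mul]
  simp only [logSeries, PowerSeries.coeff_mk]
  split_ifs <;> simp

lemma logSeries_sub (c c' : ℕ → L) :
    logSeries p c - logSeries p c' = logSeries p (fun m => c m - c' m) := by
  ext d
  rw [map_sub]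
  simp only [logSeries, PowerSeries.coeff_mk]
  split_ifs <;> simp

lemma X_eq_logSeries (hp : 1 < p) :
    (PowerSeries.X : PowerSeries L) = logSeries p (fun m => if m = 0 then 1 else 0) := by
  ext d
  rw [PowerSeries.coeff_X]
  simp only [logSeries, PowerSeries.coeff_mk]
  by_cases hd : d = 1
  · subst hd
    simp
  · rw [if_neg hd]
    split_ifs with h1 h2
    · exfalso
      apply hd
      rw [h1, h2, pow_zero]
    · rfl
    · rfl

/-- Composition of a lacunary series with a monomial in a prime power. -/
lemma subst_logSeries_monomial (hp : 1 < p) (c : ℕ → L) (v : L) (j : ℕ) :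
    (logSeries p c).subst (PowerSeries.C v * PowerSeries.X ^ (p ^ j) : PowerSeries L)
      = logSeries p (fun m => if j ≤ m then c (m - j) * v ^ (p ^ (m - j)) else 0) := by
  classical
  have hp0 : p ≠ 0 := by omega
  have hc0 : MvPowerSeries.constantCoeff
      (PowerSeries.C v * PowerSeries.X ^ (p ^ j) : PowerSeries L) = 0 := by
    have h1 : MvPowerSeries.constantCoeff (PowerSeries.X ^ (p ^ j) : PowerSeries L) = 0 := by
      rw [map_pow, constantCoeff_psX, zero_pow (pow_ne_zero j hp0)]
    rw [map_mul, h1, mul_zero]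
  ext d
  have hinj : Function.Injective (fun m : ℕ => p ^ m) := Nat.pow_right_injective hp
  have hcoef : PowerSeries.coeff d
      ((logSeries p c).subst (PowerSeries.C v * PowerSeries.X ^ (p ^ j) : PowerSeries L))
      = ∑ m ∈ Finset.range (d + 1), c m * (if d = p ^ (j + m) then v ^ (p ^ m) else 0) := by
    have h1 := coeff_subst_logSeries hp c hc0 (Finsupp.single () d) (K := d + 1) (by simp)
    have h2 : ∀ m, MvPowerSeries.coeff (Finsupp.single () d)
        ((PowerSeries.C v * PowerSeries.X ^ (p ^ j) : PowerSeries L) ^ (p ^ m))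
        = if d = p ^ (j + m) then v ^ (p ^ m) else 0 := by
      intro m
      have h3 : (PowerSeries.C v * PowerSeries.X ^ (p ^ j) : PowerSeries L) ^ (p ^ m)
          = PowerSeries.C (v ^ (p ^ m)) * PowerSeries.X ^ (p ^ (j + m)) := by
        rw [mul_pow, ← pow_mul, ← pow_add, map_pow]
      rw [h3]
      exact PowerSeries.coeff_C_mul_X_pow _ _ _
    rw [Finset.sum_congr rfl (fun m _ => by rw [h2 m])] at h1
    exact h1
  rw [hcoef]
  simp only [logSeries, PowerSeries.coeff_mk]
  by_cases hd : ∃ M, d = p ^ M
  · obtain ⟨M, rfl⟩ := hd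
    have hlog : Nat.log p (p ^ M) = M := Nat.log_pow hp M
    rw [hlog, if_pos rfl]
    by_cases hjM : j ≤ M
    · rw [if_pos hjM, Finset.sum_eq_single (M - j)]
      · rw [if_pos (by rw [Nat.add_sub_cancel' hjM])]
      · intro m _ hm
        rw [if_neg, mul_zero]
        intro h
        have := hinj h
        apply hm
        omega
      · intro h
        exfalso
        apply h
        rw [Finset.mem_range]
        have : M < p ^ M := Nat.lt_pow_self hp
        omega
    · rw [if_neg hjM]
      apply Finset.sum_eq_zero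
      intro m _
      rw [if_neg, mul_zero]
      intro h
      have := hinj h
      omega
  · push Not at hd
    rw [if_neg (hd _)]
    apply Finset.sum_eq_zero
    intro m _
    rw [if_neg (hd _), mul_zero]

end LogLinear

section Main

variable {A L B : Type*} [CommRing A] [CommRing L] [CommRing B] {p : ℕ} [hp : Fact p.Prime]
variable {ι : A →+* L} {pinv : L} {σA : A →+* A} {σL : L →+* L} {n : ℕ} {u : ℕ → A} {lam : ℕ → L}

lemma FEData.log_c0 (_D : FEData ι p pinv σA σL n u lam) :
    PowerSeries.constantCoeff (logSeries p lam) = 0 :=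
  constantCoeff_logSeries hp.out.one_lt lam

lemma FEData.log_c1 (D : FEData ι p pinv σA σL n u lam) :
    PowerSeries.coeff 1 (logSeries p lam) = 1 := by
  rw [coeff_one_logSeries hp.out.one_lt, D.h0]

lemma FEData.log_unit (D : FEData ι p pinv σA σL n u lam) :
    IsUnit (PowerSeries.coeff 1 (logSeries p lam)) := by
  rw [D.log_c1]; exact isUnit_one

/-- The law over `L`. -/
noncomputable def FEData.lawL (D : FEData ι p pinv σA σL n u lam) : FormalGroup L :=
  lawOfLog (logSeries p lam) D.log_c0 D.log_c1

lemma FEData.isLog_lawL (D : FEData ι p pinv σA σL n u lam) :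
    IsLogSeries (logSeries p lam) D.lawL.toPowerSeries :=
  isLog_lawOfLog _ _ _

/-- Integrality of the law. -/
lemma FEData.isInt_lawL (D : FEData ι p pinv σA σL n u lam) :
    IsInt ι D.lawL.toPowerSeries := by
  apply D.isInt_of_phi D.lawL.zero_constantCoeff
  rw [D.isLog_lawL, Phi_add]
  have hX : ∀ i : Fin 2, (MvPowerSeries.X i : MvPowerSeries (Fin 2) L)
      = MvPowerSeries.map ι (MvPowerSeries.X i : MvPowerSeries (Fin 2) A) := fun i => by simp
  rw [hX 0, hX 1]
  exact IsInt.add (D.phi_int _ (by simp)) (D.phi_int _ (by simp))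

/-- **The law over `A`.** -/
noncomputable def FEData.law (D : FEData ι p pinv σA σL n u lam) : FormalGroup A :=
  Classical.choose (exists_descent D.hι D.lawL D.isInt_lawL)

lemma FEData.map_law (D : FEData ι p pinv σA σL n u lam) : D.law.map ι = D.lawL :=
  Classical.choose_spec (exists_descent D.hι D.lawL D.isInt_lawL)

instance FEData.isComm_lawL (D : FEData ι p pinv σA σL n u lam) : D.lawL.IsComm :=
  isComm_lawOfLog _ _ _

instance FEData.isComm_law (D : FEData ι p pinv σA σL n u lam) : D.law.IsComm :=
  isComm_of_map D.hι _ (by rw [D.map_law]; infer_instance)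

lemma FEData.isLog_map_law (D : FEData ι p pinv σA σL n u lam) :
    IsLogSeries (logSeries p lam) (D.law.map ι).toPowerSeries := by
  rw [D.map_law]; exact D.isLog_lawL

/-- The right-hand side of the left recursion, as a hypothesis. -/
def LeftRec (ι : A →+* L) (p n : ℕ) (u : ℕ → A) (lam : ℕ → L) : Prop :=
  ∀ m, 1 ≤ m → (p : L) * lam m =
    ∑ j ∈ Finset.Icc 1 (min n m), lam (m - j) * (ι (u j)) ^ (p ^ (m - j))

/-- `∑ⱼ f(uⱼ X ^ (p ^ j)) = p f(X) - p X`. -/
lemma sum_log_monomial (D : FEData ι p pinv σA σL n u lam) (hleft : LeftRec ι p n u lam) :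
    ∑ j ∈ Finset.Icc 1 n, (logSeries p lam).subst
        (PowerSeries.C (ι (u j)) * PowerSeries.X ^ (p ^ j) : PowerSeries L)
      = PowerSeries.C (p : L) * logSeries p lam - PowerSeries.C (p : L) * PowerSeries.X := by
  classical
  have hp1 : 1 < p := hp.out.one_lt
  rw [Finset.sum_congr rfl (fun j _ => subst_logSeries_monomial hp1 lam (ι (u j)) j),
    ← logSeries_sum, X_eq_logSeries hp1, C_mul_logSeries, C_mul_logSeries, logSeries_sub]
  congr 1
  ext m
  rcases Nat.eq_zero_or_pos m with rfl | hm
  · rw [D.h0]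
    simp only [mul_one, if_true, sub_self]
    apply Finset.sum_eq_zero
    intro j hj
    rw [Finset.mem_Icc] at hj
    rw [if_neg (by omega)]
  · rw [if_neg (by omega), mul_zero, sub_zero, hleft m hm]
    symm
    rw [← Finset.sum_filter_add_sum_filter_not (Finset.Icc 1 n) (fun j => j ≤ m)]
    have h1 : ∑ x ∈ (Finset.Icc 1 n).filter (fun j => ¬ j ≤ m),
        (if x ≤ m then lam (m - x) * ι (u x) ^ p ^ (m - x) else 0) = 0 := by
      apply Finset.sum_eq_zero
      intro x hx
      rw [Finset.mem_filter] at hx
      rw [if_neg hx.2]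
    rw [h1, add_zero]
    have h2 : (Finset.Icc 1 n).filter (fun j => j ≤ m) = Finset.Icc 1 (min n m) := by
      ext j
      simp only [Finset.mem_filter, Finset.mem_Icc, le_min_iff]
      tauto
    rw [h2]
    exact Finset.sum_congr rfl fun x hx => by
      rw [Finset.mem_Icc, le_min_iff] at hx
      rw [if_pos hx.2.2]

/-- The series `y₁` with `f(p y₁) = p X`. -/
lemma exists_y1 (D : FEData ι p pinv σA σL n u lam) :
    ∃ y1 : PowerSeries A, MvPowerSeries.constantCoeff y1 = 0 ∧
      (logSeries p lam).subst
        (PowerSeries.C (p : L) * PowerSeries.map ι y1 : PowerSeries L)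
        = PowerSeries.C (p : L) * PowerSeries.X := by
  classical
  have hp1 : 1 < p := hp.out.one_lt
  have hb : ∀ m, ∃ b : A, ι b = (p : L) ^ (p ^ m - 1) * lam m := by
    intro m
    obtain ⟨a, ha⟩ := D.lam_int m
    have hm : m ≤ p ^ m - 1 := by
      have : m < p ^ m := Nat.lt_pow_self hp1
      omega
    refine ⟨(p : A) ^ (p ^ m - 1 - m) * a, ?_⟩
    rw [map_mul, ← ha, map_pow, map_natCast, ← mul_assoc, ← pow_add]
    congr 2
    omega
  choose b hb using hb
  have hb0 : b 0 = 1 := by
    apply D.hι
    rw [hb 0, D.h0]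
    simp
  set P : PowerSeries A := logSeries p b with hP
  have hP0 : PowerSeries.constantCoeff P = 0 := constantCoeff_logSeries hp1 b
  have hPu : IsUnit (PowerSeries.coeff 1 P) := by
    rw [hP, coeff_one_logSeries hp1, hb0]; exact isUnit_one
  set y1 := P.substInvOfIsUnit hPu with hy1
  have hy10 : PowerSeries.constantCoeff y1 = 0 := PowerSeries.constantCoeff_substInvOfIsUnit _ _
  have hs1 : PowerSeries.HasSubst y1 := PowerSeries.HasSubst.of_constantCoeff_zero' hy10
  have hPy : P.subst y1 = PowerSeries.X := PowerSeries.subst_substInvOfIsUnit_right P hP0 hPu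
  refine ⟨y1, hy10, ?_⟩
  set y : PowerSeries L := PowerSeries.map ι y1 with hy
  have hy0 : MvPowerSeries.constantCoeff y = 0 := by
    have h0 : MvPowerSeries.constantCoeff y = ι (MvPowerSeries.constantCoeff y1) :=
      MvPowerSeries.constantCoeff_map ι y1
    rw [h0]
    have h1 : MvPowerSeries.constantCoeff y1 = 0 := hy10
    rw [h1, map_zero]
  have hPL : (logSeries p (fun m => ι (b m))).subst y = PowerSeries.X := by
    have h1 := PowerSeries.map_subst (a := y1) hs1 (h := ι) P
    rw [hPy, hP, map_logSeries] at h1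
    have h2 : MvPowerSeries.map ι (PowerSeries.X : PowerSeries A) = PowerSeries.X := by
      simp [PowerSeries.X]
    rw [h2] at h1
    exact h1.symm
  have hC0 : MvPowerSeries.constantCoeff (PowerSeries.C (p : L) * y : PowerSeries L) = 0 := by
    rw [map_mul, hy0, mul_zero]
  rw [← hPL]
  ext1 d
  rw [PowerSeries.coeff_C_mul]
  have hdeg : (Finsupp.single () d).degree < d + 1 := by simp
  have h1 := coeff_subst_logSeries hp1 lam hC0 (Finsupp.single () d) hdeg
  have h2 := coeff_subst_logSeries hp1 (fun m => ι (b m)) hy0 (Finsupp.single () d) hdeg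
  change MvPowerSeries.coeff (Finsupp.single () d) _ = _ * MvPowerSeries.coeff (Finsupp.single () d) _
  rw [h1, h2, Finset.mul_sum]
  refine Finset.sum_congr rfl fun m _ => ?_
  have h3 : (PowerSeries.C (p : L) * y : PowerSeries L) ^ (p ^ m)
      = PowerSeries.C ((p : L) ^ (p ^ m)) * y ^ (p ^ m) := by
    rw [mul_pow, map_pow]
  rw [h3, hb m]
  change lam m * PowerSeries.coeff d _ = _ * (_ * PowerSeries.coeff d _)
  rw [PowerSeries.coeff_C_mul]
  have hQ : (p : L) ^ (p ^ m) = (p : L) * (p : L) ^ (p ^ m - 1) := by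
    rw [← pow_succ']
    congr 1
    have : 0 < p ^ m := pow_pos (by omega) m
    omega
  rw [hQ]
  ring

/-- **Exact `p`-series formula.** `[p]_F = F(G, p y₁)`, with `G` the iterated `F`-sum of the
monomials `u_j X ^ (p ^ j)`. -/
theorem FEData.mulSeries_eq (D : FEData ι p pinv σA σL n u lam) (hleft : LeftRec ι p n u lam) :
    ∃ y1 : PowerSeries A, MvPowerSeries.constantCoeff y1 = 0 ∧
      mulSeries D.law p = D.law.toPowerSeries.subst
        ![Gsum D.law (fun j => PowerSeries.C (u j) * PowerSeries.X ^ (p ^ j)) n,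
          PowerSeries.C (p : A) * y1] := by
  classical
  have hp1 : 1 < p := hp.out.one_lt
  have hp0 : p ≠ 0 := by omega
  obtain ⟨y1, hy10, hy⟩ := exists_y1 D
  refine ⟨y1, hy10, ?_⟩
  set v : ℕ → PowerSeries A := fun j => PowerSeries.C (u j) * PowerSeries.X ^ (p ^ j) with hv
  have hv0 : ∀ j, PowerSeries.constantCoeff (v j) = 0 := by
    intro j
    simp [hv, hp0]
  have hmapv : ∀ j, PowerSeries.map ι (v j)
      = PowerSeries.C (ι (u j)) * PowerSeries.X ^ (p ^ j) := by
    intro j
    simp [hv]
  have hC0 : MvPowerSeries.constantCoeff (PowerSeries.C (p : A) * y1 : PowerSeries A) = 0 := by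
    rw [map_mul, hy10, mul_zero]
  apply map_injective_of D.hι
  have hF0 := (D.law.map ι).zero_constantCoeff
  have hlog := D.isLog_map_law
  have hmap1 : MvPowerSeries.map ι (mulSeries D.law p) = mulSeries (D.law.map ι) p :=
    (mulSeries_map ι D.law p).symm
  have hG0 := constantCoeff_Gsum D.law hv0 n
  have hmap2 : MvPowerSeries.map ι (D.law.toPowerSeries.subst ![Gsum D.law v n,
        PowerSeries.C (p : A) * y1])
      = (D.law.map ι).toPowerSeries.subst ![PowerSeries.map ι (Gsum D.law v n),
        PowerSeries.C (p : L) * PowerSeries.map ι y1] := by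
    rw [map_subst_pair ι hG0 hC0]
    congr 2
    simp [PowerSeries.map, map_mul]
  rw [hmap1, hmap2]
  have hyL0 : MvPowerSeries.constantCoeff
      (PowerSeries.C (p : L) * PowerSeries.map ι y1 : PowerSeries L) = 0 := by
    have h0 : MvPowerSeries.constantCoeff (PowerSeries.map ι y1)
        = ι (MvPowerSeries.constantCoeff y1) := MvPowerSeries.constantCoeff_map ι y1
    rw [map_mul, h0, hy10, map_zero, mul_zero]
  have hGL0 : MvPowerSeries.constantCoeff (PowerSeries.map ι (Gsum D.law v n)) = 0 := by
    have h0 : MvPowerSeries.constantCoeff (PowerSeries.map ι (Gsum D.law v n))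
        = ι (MvPowerSeries.constantCoeff (Gsum D.law v n)) :=
      MvPowerSeries.constantCoeff_map ι _
    have h1 : MvPowerSeries.constantCoeff (Gsum D.law v n) = 0 := hG0
    rw [h0, h1, map_zero]
  apply log_inj (logSeries p lam) D.log_c0 D.log_unit
  · exact constantCoeff_mulSeries _ _
  · exact constantCoeff_subst_pair hF0 hGL0 hyL0
  · rw [log_mulSeries D.log_c0 _ hlog, log_bisubst D.log_c0 hF0 hlog hGL0 hyL0, hy,
      ← Gsum_map ι D.law hv0, log_Gsum D.log_c0 _ hlog]
    · rw [Finset.sum_congr rfl (fun j _ => by rw [hmapv j]), sum_log_monomial D hleft,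
        sub_add_cancel, map_natCast]
    · intro j
      have h0 : MvPowerSeries.constantCoeff (PowerSeries.map ι (v j))
          = ι (MvPowerSeries.constantCoeff (v j)) := MvPowerSeries.constantCoeff_map ι _
      have h1 : MvPowerSeries.constantCoeff (v j) = 0 := hv0 j
      change MvPowerSeries.constantCoeff _ = 0
      rw [h0, h1, map_zero]

/-- **`p`-series in characteristic `p`.** If `φ : A → B` kills `p`, then
`[p]_{φ_* F}(X) = ∑^{φ_* F}_{j ≤ n} φ(u_j) X ^ (p ^ j)`. -/
theorem FEData.mulSeries_map_char (D : FEData ι p pinv σA σL n u lam)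
    (hleft : LeftRec ι p n u lam) (φ : A →+* B) (hφ : φ (p : A) = 0) :
    mulSeries (D.law.map φ) p = Gsum (D.law.map φ)
      (fun j => PowerSeries.C (φ (u j)) * PowerSeries.X ^ (p ^ j)) n := by
  classical
  have hp0 : p ≠ 0 := hp.out.ne_zero
  obtain ⟨y1, hy10, hy⟩ := D.mulSeries_eq hleft
  set v : ℕ → PowerSeries A := fun j => PowerSeries.C (u j) * PowerSeries.X ^ (p ^ j) with hv
  have hv0 : ∀ j, PowerSeries.constantCoeff (v j) = 0 := by
    intro j
    simp [hv, hp0]
  have hmapv : ∀ j, PowerSeries.map φ (v j)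
      = PowerSeries.C (φ (u j)) * PowerSeries.X ^ (p ^ j) := by
    intro j
    simp [hv]
  have hC0 : MvPowerSeries.constantCoeff (PowerSeries.C (p : A) * y1 : PowerSeries A) = 0 := by
    rw [map_mul, hy10, mul_zero]
  have hG0 := constantCoeff_Gsum D.law hv0 n
  rw [mulSeries_map, hy]
  have h1 : PowerSeries.map φ (D.law.toPowerSeries.subst ![Gsum D.law v n,
      PowerSeries.C (p : A) * y1]) = MvPowerSeries.map φ (D.law.toPowerSeries.subst
        ![Gsum D.law v n, PowerSeries.C (p : A) * y1]) := rfl
  rw [h1, map_subst_pair φ hG0 hC0]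
  have h2 : MvPowerSeries.map φ (PowerSeries.C (p : A) * y1 : PowerSeries A) = 0 := by
    have h3 : (PowerSeries.C (p : A) * y1 : PowerSeries A) = PowerSeries.C (p : A) * y1 := rfl
    ext d
    change PowerSeries.coeff d (PowerSeries.map φ (PowerSeries.C (p : A) * y1)) = _
    rw [PowerSeries.coeff_map, PowerSeries.coeff_C_mul, map_mul, hφ, zero_mul]
    simp
  rw [h2]
  have h4 := (D.law.map φ).add_zero (f := MvPowerSeries.map φ (Gsum D.law v n)) (by
    have h0 : MvPowerSeries.constantCoeff (MvPowerSeries.map φ (Gsum D.law v n))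
        = φ (MvPowerSeries.constantCoeff (Gsum D.law v n)) :=
      MvPowerSeries.constantCoeff_map φ _
    have h1 : MvPowerSeries.constantCoeff (Gsum D.law v n) = 0 := hG0
    rw [PowerSeries.HasSubst, h0, h1, map_zero]
    exact IsNilpotent.zero)
  have h5 : MvPowerSeries.subst ![MvPowerSeries.map φ (Gsum D.law v n), 0]
      (MvPowerSeries.map φ D.law.toPowerSeries)
      = MvPowerSeries.map φ (Gsum D.law v n) := h4
  rw [h5]
  have h6 := Gsum_map φ D.law hv0 n
  have h7 : (fun i => PowerSeries.map φ (v i))
      = fun j => PowerSeries.C (φ (u j)) * PowerSeries.X ^ (p ^ j) := funext hmapv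
  rw [h7] at h6
  exact h6.symm

end Main

end Crest.Agent.LT.Std
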