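import Crest.Agent.Lib.LT.StdLam
import Crest.Agent.Lib.LT.StdLaw
import Crest.Agent.Lib.LT.FGL
import Crest.Agent.Lib.LT.Quot

/-!
# The standard law over `E₀`

`stdLaw p n : FormalGroup (LTRing p n)`: the push-forward of Hazewinkel's law over
`ℤ[u_1,…,u_{n-1}]` (with `u_n = 1`) along `ℤ[u] → E₀`.

* `mulSeries_stdLaw_map_char`: for `c : E₀ → R` with `c p = 0`, the `p`-series of `c_* stdLaw` is the
  iterated sum of `c(u_j) X^(p^j)`, `1 ≤ j ≤ n`.
* `heightIdeal_stdLaw`: the height ideals of `stdLaw` are `genIdeal = (p, u_1, …, u_{h-1})`.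
* `heightIdeal_stdLaw_isPrime`.
* `stdGamma`: reduction along the residue map; `mulSeries_stdGamma`: `[p] = X^(p^n)`.
-/

set_option autoImplicit false

open Crest.LubinTate

namespace Crest.Agent.LT.Std

section GsumCoeff

variable {R : Type*} [CommRing R] (F : FormalGroup R) {p : ℕ} [hp : Fact p.Prime] (v : ℕ → R)

/-- the iterated sum of `v_j X^(p^j)`. -/
noncomputable def GsumMono (F : FormalGroup R) (p : ℕ) (v : ℕ → R) : ℕ → PowerSeries R :=
  Gsum F (fun j => PowerSeries.C (v j) * PowerSeries.X ^ (p ^ j))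

theorem constantCoeff_mono (j : ℕ) :
    PowerSeries.constantCoeff (PowerSeries.C (v j) * PowerSeries.X ^ (p ^ j) : PowerSeries R) = 0 := by
  simp [hp.out.ne_zero]

theorem constantCoeff_GsumMono (j : ℕ) :
    PowerSeries.constantCoeff (GsumMono F p v j) = 0 :=
  constantCoeff_Gsum F (constantCoeff_mono v) j

theorem GsumMono_succ (j : ℕ) : GsumMono F p v (j + 1) =
    fadd F.toPowerSeries (GsumMono F p v j) (PowerSeries.C (v (j + 1)) * PowerSeries.X ^ (p ^ (j + 1))) :=
  rfl

/-- Below the first nonzero `v`, the sum vanishes. -/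
theorem GsumMono_eq_zero {h : ℕ} (hv : ∀ j, 1 ≤ j → j < h → v j = 0) (j : ℕ) (hj : j < h) :
    GsumMono F p v j = 0 := by
  induction j with
  | zero => rfl
  | succ j ih =>
    rw [GsumMono_succ, ih (by omega), hv (j + 1) (by omega) hj]
    simp only [map_zero, zero_mul]
    exact F.add_zero (f := (0 : PowerSeries R)) (by simp [PowerSeries.HasSubst])

/-- the first nonzero term. -/
theorem GsumMono_first {h : ℕ} (hh : 1 ≤ h) (hv : ∀ j, 1 ≤ j → j < h → v j = 0) :
    GsumMono F p v h = PowerSeries.C (v h) * PowerSeries.X ^ (p ^ h) := by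
  obtain ⟨j, rfl⟩ : ∃ j, h = j + 1 := ⟨h - 1, by omega⟩
  rw [GsumMono_succ, GsumMono_eq_zero F v hv j (by omega)]
  exact F.zero_add (f := (PowerSeries.C (v (j + 1)) * PowerSeries.X ^ (p ^ (j + 1)) : PowerSeries R))
    (PowerSeries.HasSubst.of_constantCoeff_zero' (constantCoeff_mono v (j + 1)))

/-- Higher terms do not change the low degree part. -/
theorem GsumMono_sub_mem {h : ℕ} (hh : 1 ≤ h) (hv : ∀ j, 1 ≤ j → j < h → v j = 0) (m : ℕ)
    (hm : h ≤ m) :
    GsumMono F p v m - PowerSeries.C (v h) * PowerSeries.X ^ (p ^ h) ∈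
      ordIdeal Unit R (p ^ h + 1) := by
  induction m, hm using Nat.le_induction with
  | base =>
    rw [GsumMono_first F v hh hv, sub_self]
    exact zero_mem _
  | succ m hm ih =>
    rw [GsumMono_succ]
    have hy0 := constantCoeff_mono (p := p) v (m + 1)
    have hx0 := constantCoeff_GsumMono (p := p) F v m
    rw [fadd_eq_cross F hx0 hy0]
    set x := GsumMono F p v m
    set y : PowerSeries R := PowerSeries.C (v (m + 1)) * PowerSeries.X ^ (p ^ (m + 1))
    have hy : y ∈ ordIdeal Unit R (p ^ h + 1) := by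
      refine mem_ordIdeal_iff_coeff.mpr fun d hd => ?_
      have hlt : p ^ h < p ^ (m + 1) := Nat.pow_lt_pow_right hp.out.one_lt (by omega)
      simp only [y, PowerSeries.coeff_C_mul, PowerSeries.coeff_X_pow]
      rw [if_neg (by omega), mul_zero]
    have : x + y + x * y * fadd (cross F.toPowerSeries) x y -
        PowerSeries.C (v h) * PowerSeries.X ^ (p ^ h) =
        (x - PowerSeries.C (v h) * PowerSeries.X ^ (p ^ h)) +
          y * (1 + x * fadd (cross F.toPowerSeries) x y) := by ring
    rw [this]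
    exact add_mem ih (Ideal.mul_mem_right _ _ hy)

/-- Coefficient of `X^(p^h)`. -/
theorem coeff_GsumMono {h : ℕ} (hh : 1 ≤ h) (hv : ∀ j, 1 ≤ j → j < h → v j = 0) (m : ℕ)
    (hm : h ≤ m) : PowerSeries.coeff (p ^ h) (GsumMono F p v m) = v h := by
  have := mem_ordIdeal_iff_coeff.mp (GsumMono_sub_mem (p := p) F v hh hv m hm) (p ^ h) (by omega)
  rw [map_sub, sub_eq_zero, PowerSeries.coeff_C_mul, PowerSeries.coeff_X_pow, if_pos rfl,
    mul_one] at this
  exact this

/-- Vanishing of the coefficients below `X^(p^h)`. -/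
theorem coeff_GsumMono_of_lt {h : ℕ} (hh : 1 ≤ h) (hv : ∀ j, 1 ≤ j → j < h → v j = 0) (m : ℕ)
    (hm : h ≤ m) {d : ℕ} (hd : d < p ^ h) : PowerSeries.coeff d (GsumMono F p v m) = 0 := by
  have := mem_ordIdeal_iff_coeff.mp (GsumMono_sub_mem (p := p) F v hh hv m hm) d (by omega)
  rw [map_sub, sub_eq_zero, PowerSeries.coeff_C_mul, PowerSeries.coeff_X_pow, if_neg (by omega),
    mul_zero] at this
  exact this

end GsumCoeff

variable (p n : ℕ) [hp : Fact p.Prime]

/-- `ℤ[u] → E₀`. -/
noncomputable def toE0 : StdA n →+* LTRing p n :=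
  MvPolynomial.eval₂Hom (Int.castRingHom _) (fun i => MvPowerSeries.X i)

@[simp] theorem toE0_X (i : Fin (n - 1)) : toE0 p n (MvPolynomial.X i) = MvPowerSeries.X i := by
  simp [toE0]

/-- Hazewinkel's law over `ℤ[u]`. -/
noncomputable def lawA : FormalGroup (StdA n) := (stdFEData p n).law

instance : (lawA p n).IsComm := FEData.isComm_law _

/-- The standard law over `E₀`. -/
noncomputable def stdLaw : FormalGroup (LTRing p n) := (lawA p n).map (toE0 p n)

theorem map_map_law {A B C : Type*} [CommRing A] [CommRing B] [CommRing C] (F : FormalGroup A)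
    (f : A →+* B) (g : B →+* C) : (F.map f).map g = F.map (g.comp f) := by
  ext e
  simp [MvPowerSeries.coeff_map]

instance {A B : Type*} [CommRing A] [CommRing B] (F : FormalGroup A) [hF : F.IsComm] (f : A →+* B) :
    (F.map f).IsComm := by
  constructor
  have h := hF.comm
  have h2 := congrArg (MvPowerSeries.map f) h
  rw [MvPowerSeries.map_subst MvPowerSeries.HasSubst.X_X] at h2
  simp only [FormalGroup.map_toPowerSeries]
  rw [h2]
  congr 1
  ext s e
  fin_cases s <;> simp [MvPowerSeries.coeff_X]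

instance : (stdLaw p n).IsComm := by unfold stdLaw; infer_instance

/-- `u_j` in `E₀`. -/
noncomputable def stdU (j : ℕ) : LTRing p n := toE0 p n (stdUA n j)

theorem stdU_of_lt {j : ℕ} (h : j - 1 < n - 1) : stdU p n j = MvPowerSeries.X ⟨j - 1, h⟩ := by
  simp [stdU, stdUA, h]

theorem stdU_of_ge {j : ℕ} (h : ¬ j - 1 < n - 1) : stdU p n j = 1 := by
  simp [stdU, stdUA, h]

theorem stdLeft : LeftRec (stdι n) p n (stdUA n) (stdLam p n) :=
  stdLam_left p n

theorem map_toE0_p : toE0 p n (p : StdA n) = (p : LTRing p n) := map_natCast _ _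

/-- `p`-series of a characteristic `p` push-forward. -/
theorem mulSeries_stdLaw_map_char {R : Type*} [CommRing R] (c : LTRing p n →+* R)
    (hc : c (p : LTRing p n) = 0) :
    mulSeries ((stdLaw p n).map c) p =
      GsumMono ((stdLaw p n).map c) p (fun j => c (stdU p n j)) n := by
  have h1 : (stdLaw p n).map c = (lawA p n).map (c.comp (toE0 p n)) := map_map_law _ _ _
  rw [h1]
  exact (stdFEData p n).mulSeries_map_char (stdLeft p n) (c.comp (toE0 p n))
    (by rw [RingHom.comp_apply, map_toE0_p, hc])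

/-- coefficient of `X` of the `p`-series. -/
theorem coeff_one_mulSeries_stdLaw :
    PowerSeries.coeff 1 (mulSeries (stdLaw p n) p) = (p : LTRing p n) :=
  coeff_one_mulSeries _ _

/-- The coefficient of `X^(p^h)` in `[p]_H` is `u_h` modulo `(p, u_1, …, u_{h-1})`, and the lower
coefficients vanish there. -/
theorem coeff_mulSeries_stdLaw_sub_mem {h : ℕ} (hh : 1 ≤ h) (hn : h ≤ n) :
    PowerSeries.coeff (p ^ h) (mulSeries (stdLaw p n) p) - stdU p n h ∈ genIdeal p n h := by
  rw [← ker_qE p n h hh, RingHom.mem_ker]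
  set c := qE p n h hh
  have hc : c (p : LTRing p n) = 0 := qE_natCast_p p n h hh
  have hv : ∀ j, 1 ≤ j → j < h → (fun j => c (stdU p n j)) j = 0 := by
    intro j hj1 hjh
    have hlt : j - 1 < n - 1 := by omega
    simp only
    rw [stdU_of_lt p n hlt]
    exact qE_X_of_lt p n h hh _ (by simp; omega)
  have h1 := coeff_GsumMono ((stdLaw p n).map c) (p := p) (fun j => c (stdU p n j)) hh hv n hn
  rw [← mulSeries_stdLaw_map_char p n c hc, Std.mulSeries_map, PowerSeries.coeff_map] at h1
  rw [map_sub, h1, sub_self]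

theorem coeff_mulSeries_stdLaw_mem {h d : ℕ} (hh : 1 ≤ h) (hn : h ≤ n) (hd : d < p ^ h) :
    PowerSeries.coeff d (mulSeries (stdLaw p n) p) ∈ genIdeal p n h := by
  rw [← ker_qE p n h hh, RingHom.mem_ker]
  set c := qE p n h hh
  have hc : c (p : LTRing p n) = 0 := qE_natCast_p p n h hh
  have hv : ∀ j, 1 ≤ j → j < h → (fun j => c (stdU p n j)) j = 0 := by
    intro j hj1 hjh
    have hlt : j - 1 < n - 1 := by omega
    simp only
    rw [stdU_of_lt p n hlt]
    exact qE_X_of_lt p n h hh _ (by simp; omega)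
  have h1 := coeff_GsumMono_of_lt ((stdLaw p n).map c) (p := p) (fun j => c (stdU p n j)) hh hv n hn hd
  rw [← mulSeries_stdLaw_map_char p n c hc, Std.mulSeries_map, PowerSeries.coeff_map] at h1
  exact h1

/-- The height ideals of the standard law. -/
theorem heightIdeal_stdLaw {h : ℕ} (hh : 1 ≤ h) (hn : h ≤ n) :
    heightIdeal p n (stdLaw p n) h = genIdeal p n h := by
  induction h, hh using Nat.le_induction with
  | base =>
    rw [heightIdeal, heightIdeal, bot_sup_eq, pow_zero, coeff_one_mulSeries_stdLaw, genIdeal]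
    congr 1
    ext x
    simp
  | succ h hh ih =>
    rw [heightIdeal, ih (by omega), genIdeal_succ p n h hh (by omega)]
    have h1 := coeff_mulSeries_stdLaw_sub_mem p n hh (by omega)
    rw [stdU_of_lt p n (by omega)] at h1
    set a := PowerSeries.coeff (p ^ h) (mulSeries (stdLaw p n) p)
    set b : LTRing p n := MvPowerSeries.X ⟨h - 1, by omega⟩
    apply le_antisymm
    · refine sup_le le_sup_left ?_
      rw [Ideal.span_singleton_le_iff_mem]
      have : a = (a - b) + b := by ring
      rw [this]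
      exact add_mem (Ideal.mem_sup_left h1) (Ideal.mem_sup_right (Ideal.mem_span_singleton_self b))
    · refine sup_le le_sup_left ?_
      rw [Ideal.span_singleton_le_iff_mem]
      have : b = a - (a - b) := by ring
      rw [this]
      exact sub_mem (Ideal.mem_sup_right (Ideal.mem_span_singleton_self a)) (Ideal.mem_sup_left h1)

theorem heightIdeal_stdLaw_isPrime {h : ℕ} (hn : h ≤ n) :
    (heightIdeal p n (stdLaw p n) h).IsPrime := by
  rcases Nat.eq_zero_or_pos h with rfl | hh
  · rw [heightIdeal]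
    exact Ideal.isPrime_bot
  · rw [heightIdeal_stdLaw p n hh hn]
    exact genIdeal_isPrime p n h hh

/-- The residue law. -/
noncomputable def stdGamma : FormalGroup (GaloisField p n) := (stdLaw p n).map (LTRing.residue p n)

instance : (stdGamma p n).IsComm := by unfold stdGamma; infer_instance

theorem residue_natCast_p : LTRing.residue p n (p : LTRing p n) = 0 := by
  rw [map_natCast]
  exact CharP.cast_eq_zero (GaloisField p n) p

/-- `[p]_Γ = X^(p^n)`. -/
theorem mulSeries_stdGamma (hn : 1 ≤ n) :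
    mulSeries (stdGamma p n) p = PowerSeries.X ^ (p ^ n) := by
  have hv : ∀ j, 1 ≤ j → j < n → (fun j => LTRing.residue p n (stdU p n j)) j = 0 := by
    intro j hj1 hjn
    simp only
    rw [stdU_of_lt p n (by omega)]
    simp [LTRing.residue]
  rw [stdGamma, mulSeries_stdLaw_map_char p n _ (residue_natCast_p p n),
    GsumMono_first _ _ hn hv, stdU_of_ge p n (by omega), map_one, map_one, one_mul]

end Crest.Agent.LT.Std
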