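import Mathlib
import Crest.Prelude.Def_LubinTate
import Crest.Agent.Lib.LT.Std
import Crest.Agent.Lib.LT.EvalS

/-!
# S0351: definitions of the point-level statement of the char `p` stratum

The definitions of the statement `CharP.charP_main` (in `LT/CharPMain.lean`).
-/

set_option autoImplicit false

open Crest.LubinTate

namespace Crest.Agent.LT.CharP

open Crest.Agent.Lib.LT.EvalS
open Crest.Agent.LT.Std

variable {p : ℕ} [Fact p.Prime] {n k : ℕ}

section Defs

variable {R : Type*} [NormedField R] [IsUltrametricDist R] [CompleteSpace R]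

/-- Elements of a finite field have norm at most one under a ring hom to a normed field. -/
theorem norm_le_one_of_finite {K : Type*} [Field K] [Finite K] (ι : K →+* R) (c : K) : ‖ι c‖ ≤ 1 := by
  by_contra h
  push Not at h
  obtain ⟨m, hm, hc⟩ : ∃ m : ℕ, 2 ≤ m ∧ c ^ m = c := by
    haveI := Fintype.ofFinite K
    exact ⟨Fintype.card K, Fintype.one_lt_card, FiniteField.pow_card c⟩
  have h1 : ‖ι c‖ ^ m = ‖ι c‖ := by rw [← norm_pow, ← map_pow, hc]
  have h2 : ‖ι c‖ ^ 1 < ‖ι c‖ ^ m := pow_lt_pow_right₀ h (by omega)
  rw [h1, pow_one] at h2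
  exact lt_irrefl _ h2

/-- Points of the open polydisc. -/
def BallPt (σ : Type*) [Fintype σ] (R : Type*) [NormedField R] : Type _ := {x : σ → R // ‖x‖ < 1}

variable {K σ : Type*} [Field K] [Finite K] [Fintype σ] [DecidableEq σ]

/-- Evaluation of a series over a finite field `K ⊂ R` at a point of the open polydisc. -/
noncomputable def evK (ι : K →+* R) (ξ : BallPt σ R) : MvPowerSeries σ K →+* R where
  toFun f := ev (MvPowerSeries.map ι f) ξ.1
  map_one' := by rw [map_one]; exact ev_one _
  map_mul' f g := by
    rw [map_mul]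
    exact ev_mul (fun m => by rw [MvPowerSeries.coeff_map]; exact norm_le_one_of_finite ι _)
      (fun m => by rw [MvPowerSeries.coeff_map]; exact norm_le_one_of_finite ι _) ξ.2
  map_zero' := by rw [map_zero]; exact ev_zero _
  map_add' f g := by
    rw [map_add]
    exact ev_add (fun m => by rw [MvPowerSeries.coeff_map]; exact norm_le_one_of_finite ι _)
      (fun m => by rw [MvPowerSeries.coeff_map]; exact norm_le_one_of_finite ι _) ξ.2

theorem evK_apply (ι : K →+* R) (ξ : BallPt σ R) (f : MvPowerSeries σ K) :
    evK ι ξ f = ev (MvPowerSeries.map ι f) ξ.1 := rfl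

end Defs

variable (p n) in
/-- The coefficient ring of the stratum `k`. -/
abbrev AA (k : ℕ) : Type := MvPowerSeries (Fin (n - k)) (GaloisField p n)

variable (p n) in
/-- The standard law over the stratum `k`: `(stdLaw).map (qE k)`. -/
noncomputable def HW (k : ℕ) (hk : 1 ≤ k) : FormalGroup (AA p n k) :=
  (stdLaw p n).map (qE p n k hk)

instance (hk : 1 ≤ k) : (HW p n k hk).IsComm := by unfold HW; infer_instance

variable (p n) in
/-- `X +_Γ π`. -/
noncomputable def aOf (π : PowerSeries (GaloisField p n)) : PowerSeries (GaloisField p n) :=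
  fadd (stdGamma p n).toPowerSeries PowerSeries.X π

variable (p n) in
/-- Endomorphisms of `Γ^std` vanishing to order `M`. -/
def SmallEnd (M : ℕ) (π : PowerSeries (GaloisField p n)) : Prop :=
  IsFGHom (stdGamma p n) (stdGamma p n) π ∧ ∀ i < M, PowerSeries.coeff i π = 0

variable {R : Type} [NontriviallyNormedField R] [IsUltrametricDist R] [CompleteSpace R]
  [IsAlgClosed R] [CharP R p]

/-- The law at a point of the stratum `k`. -/
noncomputable def HAt (ιK : GaloisField p n →+* R) (hk : 1 ≤ k) (ξ : BallPt (Fin (n - k)) R) :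
    FormalGroup R :=
  (HW p n k hk).map (evK ιK ξ)

end Crest.Agent.LT.CharP
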