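import Crest.Agent.Lib.LT.Std

/-!
# Endomorphisms and logarithms of the standard law

* `isFGHom_C_mul_X_of_log`: scaling by `t` is an endomorphism of a law with logarithm
  `∑ c_m X^(p^m)` if `c_m t^(p^m) = c_m t` for all `m`.
* `isFGHom_X_pow_of_frob`: `X^p` is an endomorphism of a law whose coefficients are
  Frobenius-fixed.
* `isFGHom_stdGamma_C_mul_X`, `isFGHom_stdGamma_X_pow`, `isFGHom_stdGamma_mono`: `c X^(p^j)` is an
  endomorphism of `stdGamma`.
* `isFGHom_lawW`: over `W(k)`: `t X` is an endomorphism of the law with `u = 0` if `t^q = t`.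
* `isLog_stdLaw_map`: the logarithm of the push-forward of `stdLaw` to a `ℚ`-algebra.
-/

set_option autoImplicit false

open Crest.LubinTate

namespace Crest.Agent.LT.Std

section Generic

variable {K : Type*} [CommRing K] {p : ℕ} [hp : Fact p.Prime]

/-- `f(t G) = t f(G)` for `f = ∑ c_m X^(p^m)` if `c_m t^(p^m) = c_m t`. -/
theorem logSeries_subst_C_mul {τ : Type*} (c : ℕ → K) (t : K)
    (ht : ∀ m, c m * t ^ p ^ m = c m * t) {G : MvPowerSeries τ K}
    (hG : MvPowerSeries.constantCoeff G = 0) :
    (logSeries p c).subst (MvPowerSeries.C t * G) =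
      MvPowerSeries.C t * (logSeries p c).subst G := by
  classical
  have hp1 : 1 < p := hp.out.one_lt
  have hG' : MvPowerSeries.constantCoeff (MvPowerSeries.C t * G) = 0 := by simp [hG]
  ext e
  rw [MvPowerSeries.coeff_C_mul, coeff_subst_logSeries hp1 c hG' e (Nat.lt_succ_self _),
    coeff_subst_logSeries hp1 c hG e (Nat.lt_succ_self _), Finset.mul_sum]
  refine Finset.sum_congr rfl fun m _ => ?_
  rw [mul_pow, ← map_pow, MvPowerSeries.coeff_C_mul, ← mul_assoc, ht m]
  ring

/-- Scaling by `t` is an endomorphism. -/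
theorem isFGHom_C_mul_X_of_log (F : FormalGroup K) (c : ℕ → K) (hc0 : c 0 = 1)
    (hlog : IsLogSeries (logSeries p c) F.toPowerSeries) (t : K)
    (ht : ∀ m, c m * t ^ p ^ m = c m * t) :
    IsFGHom F F (PowerSeries.C t * PowerSeries.X) := by
  have hp1 : 1 < p := hp.out.one_lt
  have hf0 := constantCoeff_logSeries (L := K) hp1 c
  have hfu : IsUnit (PowerSeries.coeff 1 (logSeries p c)) := by
    rw [coeff_one_logSeries hp1, hc0]; exact isUnit_one
  have hsub : ∀ {a : MvPowerSeries (Fin 2) K}, MvPowerSeries.constantCoeff a = 0 →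
      PowerSeries.subst a (PowerSeries.C t * PowerSeries.X : PowerSeries K) =
        MvPowerSeries.C t * a := by
    intro a ha
    have hs : PowerSeries.HasSubst a := PowerSeries.HasSubst.of_constantCoeff_zero ha
    rw [PowerSeries.subst_mul hs, PowerSeries.subst_C, PowerSeries.subst_X hs]
  refine ⟨by simp, ?_⟩
  have hX0 : MvPowerSeries.constantCoeff (MvPowerSeries.X 0 : MvPowerSeries (Fin 2) K) = 0 := by simp
  have hX1 : MvPowerSeries.constantCoeff (MvPowerSeries.X 1 : MvPowerSeries (Fin 2) K) = 0 := by simp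
  rw [hsub F.zero_constantCoeff, hsub hX0, hsub hX1]
  have hC0 : ∀ a : MvPowerSeries (Fin 2) K, MvPowerSeries.constantCoeff a = 0 →
      MvPowerSeries.constantCoeff (MvPowerSeries.C t * a) = 0 := by
    intro a ha; simp [ha]
  apply log_inj (logSeries p c) hf0 hfu (hC0 _ F.zero_constantCoeff)
    (Std.constantCoeff_subst_pair F.zero_constantCoeff (hC0 _ hX0) (hC0 _ hX1))
  rw [log_bisubst hf0 F.zero_constantCoeff hlog (hC0 _ hX0) (hC0 _ hX1),
    logSeries_subst_C_mul c t ht F.zero_constantCoeff, hlog, mul_add,
    logSeries_subst_C_mul c t ht hX0, logSeries_subst_C_mul c t ht hX1]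

/-- `X^p` is an endomorphism of a law with Frobenius-fixed coefficients, in characteristic `p`. -/
theorem isFGHom_X_pow_of_frob {R : Type*} [CommRing R] [CharP R p] (F : FormalGroup R)
    (hF : ∀ e, MvPowerSeries.coeff e F.toPowerSeries ^ p = MvPowerSeries.coeff e F.toPowerSeries) :
    IsFGHom F F (PowerSeries.X ^ p) := by
  have : ExpChar R p := ExpChar.prime hp.out
  have hp0 := hp.out.ne_zero
  have hX0 : MvPowerSeries.constantCoeff (MvPowerSeries.X 0 : MvPowerSeries (Fin 2) R) = 0 := by simp
  have hX1 : MvPowerSeries.constantCoeff (MvPowerSeries.X 1 : MvPowerSeries (Fin 2) R) = 0 := by simp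
  have hsub : ∀ {a : MvPowerSeries (Fin 2) R}, MvPowerSeries.constantCoeff a = 0 →
      PowerSeries.subst a (PowerSeries.X ^ p : PowerSeries R) = a ^ p := by
    intro a ha
    have hs : PowerSeries.HasSubst a := PowerSeries.HasSubst.of_constantCoeff_zero ha
    rw [PowerSeries.subst_pow hs, PowerSeries.subst_X hs]
  refine ⟨by simp [hp0], ?_⟩
  rw [hsub F.zero_constantCoeff, hsub hX0, hsub hX1]
  have hfix : MvPowerSeries.map (frobenius R p) F.toPowerSeries = F.toPowerSeries := by
    ext e
    rw [MvPowerSeries.coeff_map, frobenius_def, hF]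
  have h1 := MvPowerSeries.map_frobenius_expand p hp0 (f := F.toPowerSeries)
  rw [MvPowerSeries.map_expand, hfix] at h1
  rw [← h1]
  simp only [MvPowerSeries.expand, MvPowerSeries.substAlgHom_apply]
  congr 1
  ext s
  fin_cases s <;> rfl

end Generic

section Map

variable {A B : Type*} [CommRing A] [CommRing B]

/-- `IsLogSeries` is preserved by ring maps. -/
theorem IsLogSeries.map {f : PowerSeries A} {G : MvPowerSeries (Fin 2) A} (φ : A →+* B)
    (hG : MvPowerSeries.constantCoeff G = 0) (h : IsLogSeries f G) :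
    IsLogSeries (PowerSeries.map φ f) (MvPowerSeries.map φ G) := by
  have hX0 : MvPowerSeries.constantCoeff (MvPowerSeries.X 0 : MvPowerSeries (Fin 2) A) = 0 := by simp
  have hX1 : MvPowerSeries.constantCoeff (MvPowerSeries.X 1 : MvPowerSeries (Fin 2) A) = 0 := by simp
  have h1 := congrArg (MvPowerSeries.map φ) h
  rw [map_add, PowerSeries.map_subst (hasSubst_one hG), PowerSeries.map_subst (hasSubst_one hX0),
    PowerSeries.map_subst (hasSubst_one hX1), MvPowerSeries.map_X, MvPowerSeries.map_X] at h1
  exact h1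

/-- Homomorphisms descend along injective ring maps. -/
theorem isFGHom_of_map_injective (g : A →+* B) (hg : Function.Injective g) {F G : FormalGroup A}
    {φ : PowerSeries A} (h : IsFGHom (F.map g) (G.map g) (PowerSeries.map g φ)) : IsFGHom F G φ := by
  have h0 : PowerSeries.constantCoeff φ = 0 := by
    apply hg
    rw [map_zero, ← PowerSeries.coeff_zero_eq_constantCoeff_apply, ← PowerSeries.coeff_map,
      PowerSeries.coeff_zero_eq_constantCoeff_apply]
    exact h.1
  refine ⟨h0, ?_⟩
  have hX0 : MvPowerSeries.constantCoeff (MvPowerSeries.X 0 : MvPowerSeries (Fin 2) A) = 0 := by simp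
  have hX1 : MvPowerSeries.constantCoeff (MvPowerSeries.X 1 : MvPowerSeries (Fin 2) A) = 0 := by simp
  apply map_injective_of hg
  rw [PowerSeries.map_subst (hasSubst_one F.zero_constantCoeff),
    map_subst_pair g (Crest.Agent.LT.constantCoeff_psubst hX0 h0)
      (Crest.Agent.LT.constantCoeff_psubst hX1 h0),
    PowerSeries.map_subst (hasSubst_one hX0), PowerSeries.map_subst (hasSubst_one hX1),
    MvPowerSeries.map_X, MvPowerSeries.map_X]
  exact h.2

end Map

section Concrete

open MvPolynomial

variable (p n : ℕ) [hp : Fact p.Prime]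

/-- the logarithm of `lawA` pushed to `ℚ[u]`, then along any `φ`. -/
theorem isLog_map_law {K : Type*} [CommRing K] (φ : StdL n →+* K) :
    IsLogSeries (logSeries p (fun m => φ (stdLam p n m)))
      (((lawA p n).map (stdι n)).map φ).toPowerSeries := by
  have h := (stdFEData p n).isLog_map_law
  have h2 := IsLogSeries.map φ ((lawA p n).map (stdι n)).zero_constantCoeff h
  rwa [map_logSeries] at h2

/-- The logarithm of the push-forward of `stdLaw` along `χ : E₀ → C` into a `ℚ`-algebra. -/
theorem isLog_stdLaw_map {C : Type*} [CommRing C] [Algebra ℚ C] (χ : LTRing p n →+* C) :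
    IsLogSeries (logSeries p (fun m => MvPolynomial.aeval (fun i => χ (MvPowerSeries.X i))
        (stdLam p n m)))
      ((stdLaw p n).map χ).toPowerSeries := by
  set φ : StdL n →+* C := (MvPolynomial.aeval (R := ℚ) (fun i => χ (MvPowerSeries.X i)) :
    StdL n →ₐ[ℚ] C).toRingHom with hφ
  have hcomp : χ.comp (toE0 p n) = φ.comp (stdι n) := by
    apply MvPolynomial.ringHom_ext
    · intro r
      simp [φ, stdι, toE0]
    · intro i
      simp [φ, stdι, toE0]
  have h1 : (stdLaw p n).map χ = ((lawA p n).map (stdι n)).map φ := by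
    rw [stdLaw, map_map_law, map_map_law, hcomp]
  rw [h1]
  exact isLog_map_law p n φ

/-- at `u = 0`, `lam_m = 0` unless `n ∣ m`. -/
theorem lam_eval_eq_zero {K : Type*} [CommRing K] (φ : StdL n →+* K) (hφ : ∀ i, φ (X i) = 0)
    (hn : 1 ≤ n) (m : ℕ) (hm : ¬ n ∣ m) : φ (stdLam p n m) = 0 := by
  induction m using Nat.strong_induction_on with
  | _ M ih =>
    have hM : 1 ≤ M := by
      rcases Nat.eq_zero_or_pos M with rfl | h
      · exact absurd (dvd_zero n) hm
      · exact h
    have hinv : φ (stdPinv p n) * (p : K) = 1 := by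
      have := congrArg φ (stdPinv_spec p n)
      rw [map_mul, map_natCast, map_one] at this
      rw [mul_comm]; exact this
    have h1 := congrArg φ (stdLam_left p n M hM)
    rw [map_mul, map_natCast, map_sum, Finset.sum_eq_zero] at h1
    · have := congrArg (fun z => φ (stdPinv p n) * z) h1
      simpa [← mul_assoc, hinv] using this
    · intro j hj
      rw [Finset.mem_Icc] at hj
      have hj1 : 1 ≤ j := hj.1
      have hjn : j ≤ n := le_trans hj.2 (min_le_left _ _)
      have hjM : j ≤ M := le_trans hj.2 (min_le_right _ _)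
      by_cases hjn' : j < n
      · have : stdι n (stdUA n j) = X ⟨j - 1, by omega⟩ := by
          simp only [stdUA]
          rw [dif_pos (by omega)]
          simp [stdι]
        rw [map_mul, map_pow, this, hφ, zero_pow (pow_ne_zero _ hp.out.ne_zero), mul_zero]
      · have hjeq : j = n := by omega
        subst hjeq
        rw [map_mul, ih (M - j) (by omega) (fun hd => hm ?_), zero_mul]
        have := (Nat.dvd_sub_iff_left hjM (dvd_refl j)).mp hd
        exact this

theorem pow_pow_eq_of_dvd {K : Type*} [CommRing K] {t : K} (ht : t ^ p ^ n = t) {m : ℕ} (hm : n ∣ m) :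
    t ^ p ^ m = t := by
  obtain ⟨k, rfl⟩ := hm
  induction k with
  | zero => simp
  | succ k ih =>
    rw [Nat.mul_succ, pow_add, pow_mul, ih, ht]

/-- Scaling endomorphisms in the `ℚ`-algebra world. -/
theorem isFGHom_C_mul_X_of_eval {K : Type*} [CommRing K] (φ : StdL n →+* K)
    (hφ : ∀ i, φ (X i) = 0) (hn : 1 ≤ n) (t : K) (ht : t ^ p ^ n = t) :
    IsFGHom (((lawA p n).map (stdι n)).map φ) (((lawA p n).map (stdι n)).map φ)
      (PowerSeries.C t * PowerSeries.X) := by
  apply isFGHom_C_mul_X_of_log (p := p) _ (fun m => φ (stdLam p n m)) (by simp [stdLam_zero])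
    (isLog_map_law p n φ)
  intro m
  by_cases hm : n ∣ m
  · rw [pow_pow_eq_of_dvd p n ht hm]
  · rw [lam_eval_eq_zero p n φ hφ hn m hm, zero_mul, zero_mul]

/-- `k`. -/
local notation "k" => GaloisField p n
/-- `W(k)`. -/
local notation "W" => WittVector p (GaloisField p n)

/-- `ℤ[u] → W(k)`, `u ↦ 0`. -/
noncomputable def toW : StdA n →+* W := MvPolynomial.eval₂Hom (Int.castRingHom _) (fun _ => 0)

/-- The law over `W(k)` with `u = 0`. -/
noncomputable def lawW : FormalGroup W := (lawA p n).map (toW p n)

instance : (lawW p n).IsComm := by unfold lawW; infer_instance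

theorem stdLaw_map_constantCoeff :
    (stdLaw p n).map (MvPowerSeries.constantCoeff : LTRing p n →+* W) = lawW p n := by
  rw [stdLaw, map_map_law, lawW]
  congr 1
  apply MvPolynomial.ringHom_ext
  · intro r
    simp [toW, toE0]
  · intro i
    simp [toW, toE0]

theorem charZero_W : CharZero W := by
  refine charZero_of_inj_zero fun m hm => ?_
  have h1 : WittVector.map (algebraMap (ZMod p) k) (m : WittVector p (ZMod p)) = (m : W) :=
    map_natCast _ m
  have h2 : (m : WittVector p (ZMod p)) = 0 := by
    apply WittVector.map_injective (algebraMap (ZMod p) k) (algebraMap (ZMod p) k).injective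
    rw [h1, hm, map_zero]
  have h3 := congrArg (WittVector.equiv p) h2
  rw [map_natCast, map_zero] at h3
  exact_mod_cast h3

/-- `t X` is an endomorphism of the law over `W(k)` with `u = 0`, when `t ^ q = t`. -/
theorem isFGHom_lawW (hn : 1 ≤ n) (t : W) (ht : t ^ p ^ n = t) :
    IsFGHom (lawW p n) (lawW p n) (PowerSeries.C t * PowerSeries.X) := by
  classical
  let Kw := FractionRing W
  have : CharZero W := charZero_W p n
  have : CharZero Kw := charZero_of_injective_algebraMap (IsFractionRing.injective W Kw)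
  let g : W →+* Kw := algebraMap W Kw
  have hg : Function.Injective g := IsFractionRing.injective W Kw
  let φ : StdL n →+* Kw := MvPolynomial.eval₂Hom (algebraMap ℚ Kw) (fun _ => 0)
  have hφ : ∀ i, φ (X i) = 0 := by intro i; simp [φ]
  have hcomp : g.comp (toW p n) = φ.comp (stdι n) := by
    apply MvPolynomial.ringHom_ext
    · intro r
      simp [φ, stdι, toW, g]
    · intro i
      simp [φ, stdι, toW, g]
  have h1 : (lawW p n).map g = ((lawA p n).map (stdι n)).map φ := by
    rw [lawW, map_map_law, map_map_law, hcomp]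
  have h2 := isFGHom_C_mul_X_of_eval p n φ hφ hn (g t) (by rw [← map_pow, ht])
  rw [← h1] at h2
  apply isFGHom_of_map_injective g hg
  have h3 : PowerSeries.map g (PowerSeries.C t * PowerSeries.X) =
      PowerSeries.C (g t) * PowerSeries.X := by simp
  rw [h3]
  exact h2

/-- `residue ∘ toE0` factors through `W(k)`. -/
theorem stdGamma_eq_map_lawW :
    stdGamma p n = (lawW p n).map (WittVector.constantCoeff : W →+* k) := by
  rw [stdGamma, stdLaw, lawW, map_map_law, map_map_law]
  congr 1
  apply MvPolynomial.ringHom_ext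
  · intro r
    simp [toW, toE0]
  · intro i
    simp [toW, toE0, LTRing.residue]

/-- the element `c ∈ k` satisfies `c^q = c`. -/
theorem pow_card_k (hn : 1 ≤ n) (c : k) : c ^ p ^ n = c := by
  have := Fintype.ofFinite k
  have := FiniteField.pow_card c
  rwa [← Nat.card_eq_fintype_card, GaloisField.card p n (by omega)] at this

/-- `c X` is an endomorphism of `stdGamma`, `c ∈ k`. -/
theorem isFGHom_stdGamma_C_mul_X (hn : 1 ≤ n) (c : k) :
    IsFGHom (stdGamma p n) (stdGamma p n) (PowerSeries.C c * PowerSeries.X) := by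
  have ht : (WittVector.teichmuller p c) ^ p ^ n = WittVector.teichmuller p c := by
    rw [← map_pow, pow_card_k p n hn]
  have h1 := hom_map (WittVector.constantCoeff : W →+* k) (isFGHom_lawW p n hn _ ht)
  rw [← stdGamma_eq_map_lawW] at h1
  have h2 : PowerSeries.map (WittVector.constantCoeff : W →+* k)
      (PowerSeries.C (WittVector.teichmuller p c) * PowerSeries.X) =
      PowerSeries.C c * PowerSeries.X := by
    simp
  rwa [h2] at h1

/-- The coefficients of `stdGamma` lie in the prime field. -/
theorem stdGamma_coeff_frob (e : Fin 2 →₀ ℕ) :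
    MvPowerSeries.coeff e (stdGamma p n).toPowerSeries ^ p =
      MvPowerSeries.coeff e (stdGamma p n).toPowerSeries := by
  have h1 : (LTRing.residue p n).comp (toE0 p n) =
      (Int.castRingHom k).comp (MvPolynomial.constantCoeff : StdA n →+* ℤ) := by
    apply MvPolynomial.ringHom_ext
    · intro r
      simp [toE0]
    · intro i
      simp [toE0, LTRing.residue]
  have h2 : MvPowerSeries.coeff e (stdGamma p n).toPowerSeries =
      ((MvPolynomial.constantCoeff (MvPowerSeries.coeff e (lawA p n).toPowerSeries) : ℤ) : k) := by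
    have : (stdGamma p n) = (lawA p n).map ((LTRing.residue p n).comp (toE0 p n)) :=
      map_map_law _ _ _
    rw [this, h1]
    simp [MvPowerSeries.coeff_map]
  rw [h2]
  have h3 := map_intCast (frobenius k p)
    (MvPolynomial.constantCoeff (MvPowerSeries.coeff e (lawA p n).toPowerSeries) : ℤ)
  rwa [frobenius_def] at h3

/-- `X^p` is an endomorphism of `stdGamma`. -/
theorem isFGHom_stdGamma_X_pow_one :
    IsFGHom (stdGamma p n) (stdGamma p n) (PowerSeries.X ^ p) :=
  isFGHom_X_pow_of_frob _ (stdGamma_coeff_frob p n)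

/-- `X^(p^j)` is an endomorphism of `stdGamma`. -/
theorem isFGHom_stdGamma_X_pow (j : ℕ) :
    IsFGHom (stdGamma p n) (stdGamma p n) (PowerSeries.X ^ p ^ j) := by
  induction j with
  | zero => simpa using isFGHom_X (stdGamma p n)
  | succ j ih =>
    have h := hom_comp ih (isFGHom_stdGamma_X_pow_one p n)
    have h0 : PowerSeries.constantCoeff (PowerSeries.X ^ p ^ j : PowerSeries k) = 0 := by
      simp [hp.out.ne_zero]
    have hs : PowerSeries.HasSubst (PowerSeries.X ^ p ^ j : PowerSeries k) :=
      PowerSeries.HasSubst.of_constantCoeff_zero' h0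
    rw [PowerSeries.subst_pow hs, PowerSeries.subst_X hs, ← pow_mul, ← pow_succ] at h
    exact h

/-- `c X^(p^j)` is an endomorphism of `stdGamma`, `c ∈ k`. -/
theorem isFGHom_stdGamma_mono (hn : 1 ≤ n) (c : k) (j : ℕ) :
    IsFGHom (stdGamma p n) (stdGamma p n) (PowerSeries.C c * PowerSeries.X ^ p ^ j) := by
  have h := hom_comp (isFGHom_stdGamma_X_pow p n j) (isFGHom_stdGamma_C_mul_X p n hn c)
  have h0 : PowerSeries.constantCoeff (PowerSeries.X ^ p ^ j : PowerSeries k) = 0 := by
    simp [hp.out.ne_zero]
  have hs : PowerSeries.HasSubst (PowerSeries.X ^ p ^ j : PowerSeries k) :=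
    PowerSeries.HasSubst.of_constantCoeff_zero' h0
  rw [PowerSeries.subst_mul hs, PowerSeries.subst_C, PowerSeries.subst_X hs] at h
  exact h

end Concrete

end Crest.Agent.LT.Std
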