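import Mathlib
import Crest.Prelude.Def_LubinTate
import Crest.Agent.Lib.LT.Std
import Crest.Agent.Lib.LT.StdEnd
import Crest.Agent.Lib.LT.ChartDefs
import Crest.Agent.Lib.LT.CharPDefs

/-!
# The height strata of the standard law as `Chart.Stratum`

For `1 ≤ k < n`, `r = n - k`: the law `(stdLaw p n).map (qE k)` over `K[[w_0, …, w_{r-1}]]`,
`K = GaloisField p n`, with `[p] = g_A (X ^ (p ^ k))`,

  `g_A = ∑^H_{0 ≤ j ≤ r} w_j Y ^ (p ^ j)`, `w_r = 1`.

* `stdStratum p n k hk hkn : Chart.Stratum p k (n - k) (GaloisField p n)`;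
* `stdStratum_ΓR`: the law at the point `0` is `(stdGamma p n).map (algebraMap K R)`;
* `stdStratum_HAt`: the law at a point is `CharP.HAt (algebraMap K R) hk ξ`.
-/

set_option autoImplicit false
set_option linter.unusedSectionVars false

open Crest.LubinTate

namespace Crest.Agent.LT.Std

section General

variable {R : Type*} [CommRing R] (F : FormalGroup R)

theorem Gsum_eq_zero_of {s : ℕ → PowerSeries R} {h : ℕ} (hs : ∀ j, 1 ≤ j → j ≤ h → s j = 0) :
    Gsum F s h = 0 := by
  induction h with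
  | zero => rfl
  | succ h ih =>
    change fadd F.toPowerSeries (Gsum F s h) (s (h + 1)) = 0
    rw [ih (fun j h1 h2 => hs j h1 (by omega)), hs (h + 1) (by omega) le_rfl]
    exact F.add_zero (f := (0 : PowerSeries R)) (by simp [PowerSeries.HasSubst])

theorem Gsum_congr {s s' : ℕ → PowerSeries R} (hs : ∀ j, 1 ≤ j → s j = s' j) (m : ℕ) :
    Gsum F s m = Gsum F s' m := by
  induction m with
  | zero => rfl
  | succ m ih =>
    change fadd F.toPowerSeries (Gsum F s m) (s (m + 1)) =
      fadd F.toPowerSeries (Gsum F s' m) (s' (m + 1))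
    rw [ih, hs _ (by omega)]

theorem Gsum_shift {s : ℕ → PowerSeries R} {h : ℕ} (hs : ∀ j, 1 ≤ j → j ≤ h → s j = 0) (m : ℕ) :
    Gsum F s (h + m) = Gsum F (fun i => s (h + i)) m := by
  induction m with
  | zero => exact Gsum_eq_zero_of F hs
  | succ m ih =>
    change fadd F.toPowerSeries (Gsum F s (h + m)) (s (h + m + 1)) =
      fadd F.toPowerSeries (Gsum F (fun i => s (h + i)) m) (s (h + (m + 1)))
    rw [ih]
    rfl

theorem expand_Gsum (q : ℕ) (hq : q ≠ 0) {s : ℕ → PowerSeries R}
    (hs : ∀ j, PowerSeries.constantCoeff (s j) = 0) (m : ℕ) :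
    PowerSeries.expand q hq (Gsum F s m) = Gsum F (fun i => PowerSeries.expand q hq (s i)) m := by
  induction m with
  | zero => simp [Gsum]
  | succ m ih =>
    change PowerSeries.expand q hq (fadd F.toPowerSeries (Gsum F s m) (s (m + 1))) =
      fadd F.toPowerSeries (Gsum F (fun i => PowerSeries.expand q hq (s i)) m)
        (PowerSeries.expand q hq (s (m + 1)))
    rw [← ih, PowerSeries.expand_apply, PowerSeries.expand_apply, PowerSeries.expand_apply]
    refine psubst_fadd _ (constantCoeff_Gsum F hs m) (hs _) ?_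
    rw [map_pow, constantCoeff_PX, zero_pow hq]

variable {p : ℕ} [hp : Fact p.Prime]

/-- `∑^F_{1 ≤ i ≤ m} w_{i-1} X ^ (p ^ (i-1))`. -/
noncomputable def GsumLin (F : FormalGroup R) (p : ℕ) (w : ℕ → R) : ℕ → PowerSeries R :=
  Gsum F (fun i => PowerSeries.C (w (i - 1)) * PowerSeries.X ^ (p ^ (i - 1)))

theorem constantCoeff_lin (w : ℕ → R) (i : ℕ) :
    PowerSeries.constantCoeff
      (PowerSeries.C (w (i - 1)) * PowerSeries.X ^ (p ^ (i - 1)) : PowerSeries R) = 0 := by
  simp [hp.out.ne_zero]

theorem constantCoeff_lin' (a : R) (m : ℕ) :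
    PowerSeries.constantCoeff (PowerSeries.C a * PowerSeries.X ^ (p ^ m) : PowerSeries R) = 0 := by
  simp [hp.out.ne_zero]

theorem constantCoeff_GsumLin (w : ℕ → R) (m : ℕ) :
    PowerSeries.constantCoeff (GsumLin F p w m) = 0 :=
  constantCoeff_Gsum F (constantCoeff_lin w) m

theorem GsumLin_succ (w : ℕ → R) (m : ℕ) :
    GsumLin F p w (m + 1) =
      fadd F.toPowerSeries (GsumLin F p w m) (PowerSeries.C (w m) * PowerSeries.X ^ (p ^ m)) :=
  rfl

theorem GsumLin_one (w : ℕ → R) :
    GsumLin F p w 1 = PowerSeries.C (w 0) * PowerSeries.X := by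
  rw [GsumLin_succ]
  have h0 : GsumLin F p w 0 = 0 := rfl
  rw [h0, pow_zero, pow_one]
  exact F.zero_add (f := (PowerSeries.C (w 0) * PowerSeries.X : PowerSeries R))
    (PowerSeries.HasSubst.of_constantCoeff_zero' (by simp))

/-- The coefficient of `X`. -/
theorem coeff_one_GsumLin (w : ℕ → R) {m : ℕ} (hm : 1 ≤ m) :
    PowerSeries.coeff 1 (GsumLin F p w m) = w 0 := by
  induction m, hm using Nat.le_induction with
  | base => rw [GsumLin_one]; simp
  | succ m hm ih =>
    rw [GsumLin_succ, fadd_eq_cross F (constantCoeff_GsumLin F w m) (constantCoeff_lin' (p := p) (w m) m),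
      mul_assoc, map_add, map_add, ih]
    have h1 : 1 < p ^ m := Nat.one_lt_pow (by omega) hp.out.one_lt
    have h2 : PowerSeries.coeff 1
        (PowerSeries.C (w m) * PowerSeries.X ^ (p ^ m) : PowerSeries R) = 0 := by
      rw [PowerSeries.coeff_C_mul, PowerSeries.coeff_X_pow, if_neg (by omega), mul_zero]
    rw [h2, add_zero]
    have h3 : PowerSeries.coeff 1 (GsumLin F p w m * ((PowerSeries.C (w m) *
        PowerSeries.X ^ (p ^ m)) * fadd (cross F.toPowerSeries) (GsumLin F p w m)
          (PowerSeries.C (w m) * PowerSeries.X ^ (p ^ m)))) = 0 := by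
      have hmem : GsumLin F p w m * ((PowerSeries.C (w m) * PowerSeries.X ^ (p ^ m)) *
          fadd (cross F.toPowerSeries) (GsumLin F p w m)
            (PowerSeries.C (w m) * PowerSeries.X ^ (p ^ m))) ∈ ordIdeal Unit R (1 + 1) := by
        refine mul_mem_ordIdeal (mem_ordIdeal_one.mpr (constantCoeff_GsumLin F w m)) ?_
        refine Ideal.mul_mem_right _ _ ?_
        exact mem_ordIdeal_one.mpr (constantCoeff_lin' (p := p) (w m) m)
      exact mem_ordIdeal_iff_coeff.mp hmem 1 (by omega)
    rw [h3, add_zero]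

/-- Only the top term survives if the lower `w` vanish. -/
theorem GsumLin_top (w : ℕ → R) {r : ℕ} (hw : ∀ j, j < r → w j = 0) :
    GsumLin F p w (r + 1) = PowerSeries.C (w r) * PowerSeries.X ^ (p ^ r) := by
  rw [GsumLin_succ]
  have h0 : GsumLin F p w r = 0 := by
    refine Gsum_eq_zero_of F fun j h1 h2 => ?_
    rw [hw _ (by omega)]
    simp
  rw [h0]
  exact F.zero_add (f := (PowerSeries.C (w r) * PowerSeries.X ^ (p ^ r) : PowerSeries R))
    (PowerSeries.HasSubst.of_constantCoeff_zero' (by simp [hp.out.ne_zero]))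

theorem GsumLin_map {B : Type*} [CommRing B] (φ : R →+* B) (w : ℕ → R) (m : ℕ) :
    PowerSeries.map φ (GsumLin F p w m) = GsumLin (F.map φ) p (fun i => φ (w i)) m := by
  rw [GsumLin, ← Gsum_map φ F (constantCoeff_lin w) m]
  refine Gsum_congr _ (fun j _ => ?_) m
  simp

end General

section Linear

/-! ### The part of `g_A` linear in the `w` -/

variable {A : Type*} [CommRing A] {p : ℕ} [hp : Fact p.Prime]
variable (F : FormalGroup A)

/-- All coefficients lie in the ideal `I`. -/
def CoeffIn (I : Ideal A) (f : PowerSeries A) : Prop :=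
  ∀ d, PowerSeries.coeff d f ∈ I

theorem CoeffIn.add {I : Ideal A} {f g : PowerSeries A}
    (hf : CoeffIn I f) (hg : CoeffIn I g) : CoeffIn I (f + g) := fun d => by
  rw [map_add]; exact add_mem (hf d) (hg d)

theorem CoeffIn.mul_right {I : Ideal A} {f : PowerSeries A}
    (hf : CoeffIn I f) (g : PowerSeries A) : CoeffIn I (f * g) := fun d => by
  rw [PowerSeries.coeff_mul]
  exact Ideal.sum_mem _ fun x _ => Ideal.mul_mem_right _ _ (hf _)

theorem CoeffIn.mul {I J K' : Ideal A} (hIJ : I * J ≤ K')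
    {f g : PowerSeries A} (hf : CoeffIn I f) (hg : CoeffIn J g) : CoeffIn K' (f * g) := fun d => by
  rw [PowerSeries.coeff_mul]
  exact Ideal.sum_mem _ fun x _ => hIJ (Ideal.mul_mem_mul (hf _) (hg _))

theorem CoeffIn.C_mul {I : Ideal A} {a : A} (ha : a ∈ I) (e : ℕ) :
    CoeffIn I (PowerSeries.C a * PowerSeries.X ^ e) := fun d => by
  rw [PowerSeries.coeff_C_mul]
  exact Ideal.mul_mem_right _ _ ha

/-- Modulo the square of an ideal containing the `w`, the iterated sum is the plain sum. -/
theorem GsumLin_mod {I J : Ideal A} (hIJ : I * I ≤ J) (hJI : J ≤ I)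
    (w : ℕ → A) {m : ℕ} (hw : ∀ j, j < m → w j ∈ I) :
    CoeffIn I (GsumLin F p w m) ∧
      CoeffIn J (GsumLin F p w m -
        ∑ j ∈ Finset.range m, PowerSeries.C (w j) * PowerSeries.X ^ (p ^ j)) := by
  induction m with
  | zero =>
    have h0 : GsumLin F p w 0 = 0 := rfl
    rw [h0]
    exact ⟨fun d => by simp, fun d => by simp⟩
  | succ m ih =>
    obtain ⟨ih1, ih2⟩ := ih (fun j hj => hw j (by omega))
    rw [GsumLin_succ, fadd_eq_cross F (constantCoeff_GsumLin F w m)
      (constantCoeff_lin' (p := p) (w m) m)]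
    set S := GsumLin F p w m
    set Y : PowerSeries A := PowerSeries.C (w m) * PowerSeries.X ^ (p ^ m)
    have hY : CoeffIn I Y := CoeffIn.C_mul (hw m (by omega)) _
    have hSY : CoeffIn J (S * Y * fadd (cross F.toPowerSeries) S Y) :=
      (CoeffIn.mul hIJ ih1 hY).mul_right _
    constructor
    · refine (ih1.add hY).add (fun d => ?_)
      exact hJI (hSY d)
    · rw [Finset.sum_range_succ]
      have : S + Y + S * Y * fadd (cross F.toPowerSeries) S Y -
          (∑ j ∈ Finset.range m, PowerSeries.C (w j) * PowerSeries.X ^ (p ^ j) + Y) =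
          (S - ∑ j ∈ Finset.range m, PowerSeries.C (w j) * PowerSeries.X ^ (p ^ j)) +
            S * Y * fadd (cross F.toPowerSeries) S Y := by ring
      rw [this]
      exact ih2.add hSY

/-- The top term does not change the coefficients below it. -/
theorem coeff_GsumLin_top (w : ℕ → A) (r d : ℕ) (hd : d < p ^ r) :
    PowerSeries.coeff d (GsumLin F p w (r + 1)) = PowerSeries.coeff d (GsumLin F p w r) := by
  rw [GsumLin_succ, fadd_eq_cross F (constantCoeff_GsumLin F w r)
    (constantCoeff_lin' (p := p) (w r) r)]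
  set S := GsumLin F p w r
  set Y : PowerSeries A := PowerSeries.C (w r) * PowerSeries.X ^ (p ^ r)
  have hY : Y ∈ ordIdeal Unit A (p ^ r) := by
    refine mem_ordIdeal_iff_coeff.mpr fun e he => ?_
    simp only [Y, PowerSeries.coeff_C_mul, PowerSeries.coeff_X_pow]
    rw [if_neg (by omega), mul_zero]
  have h1 : PowerSeries.coeff d Y = 0 := mem_ordIdeal_iff_coeff.mp hY d hd
  have h2 : S * Y * fadd (cross F.toPowerSeries) S Y ∈ ordIdeal Unit A (p ^ r) :=
    Ideal.mul_mem_right _ _ (Ideal.mul_mem_left _ _ hY)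
  rw [map_add, map_add, h1, mem_ordIdeal_iff_coeff.mp h2 d hd, add_zero, add_zero]

end Linear

section Strat

variable (p n k : ℕ) [hp : Fact p.Prime]

/-- The coefficients of `g_A`: `w_j = c (u_(k+j))`. -/
noncomputable def stdW (hk : 1 ≤ k) (j : ℕ) : MvPowerSeries (Fin (n - k)) (GaloisField p n) :=
  qE p n k hk (stdU p n (k + j))

theorem stdW_of_lt (hk : 1 ≤ k) {j : ℕ} (hj : j < n - k) :
    stdW p n k hk j = MvPowerSeries.X ⟨j, hj⟩ := by
  rw [stdW, stdU_of_lt p n (by omega : k + j - 1 < n - 1)]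
  exact qE_X_emb p n k hk ⟨j, hj⟩

theorem stdW_of_ge (hk : 1 ≤ k) {j : ℕ} (hj : n - k ≤ j) (hkn : k ≤ n) : stdW p n k hk j = 1 := by
  rw [stdW, stdU_of_ge p n (by omega), map_one]

/-- `g_A = ∑^H_{0 ≤ j ≤ r} w_j Y ^ (p ^ j)`. -/
noncomputable def stdGA (hk : 1 ≤ k) :
    PowerSeries (MvPowerSeries (Fin (n - k)) (GaloisField p n)) :=
  GsumLin (CharP.HW p n k hk) p (stdW p n k hk) (n - k + 1)

theorem stdGA_hp (hk : 1 ≤ k) (hkn : k ≤ n) :
    mulSeries (CharP.HW p n k hk) p =
      PowerSeries.expand (p ^ k) (pow_ne_zero k hp.out.ne_zero) (stdGA p n k hk) := by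
  set c := qE p n k hk with hc
  have h1 : mulSeries (CharP.HW p n k hk) p =
      GsumMono (CharP.HW p n k hk) p (fun j => c (stdU p n j)) n :=
    mulSeries_stdLaw_map_char p n c (qE_natCast_p p n k hk)
  rw [h1, stdGA, GsumLin, expand_Gsum _ _ _ (constantCoeff_lin _), GsumMono]
  have hn : (k - 1) + (n - k + 1) = n := by omega
  have hs : ∀ j, 1 ≤ j → j ≤ k - 1 →
      (fun j => PowerSeries.C (c (stdU p n j)) * PowerSeries.X ^ (p ^ j)) j = 0 := by
    intro j h1 h2
    have hlt : j - 1 < n - 1 := by omega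
    simp only
    rw [stdU_of_lt p n hlt, qE_X_of_lt p n k hk _ (by simp; omega), map_zero, zero_mul]
  have h2 := Gsum_shift (CharP.HW p n k hk) hs (n - k + 1)
  rw [hn] at h2
  rw [h2]
  refine Gsum_congr _ (fun i hi => ?_) _
  obtain ⟨i, rfl⟩ : ∃ i', i = i' + 1 := ⟨i - 1, by omega⟩
  have e1 : k - 1 + (i + 1) = k + i := by omega
  have e2 : p ^ (k + i) = p ^ k * p ^ i := pow_add _ _ _
  simp only [e1, Nat.add_sub_cancel, map_mul, PowerSeries.expand_C, map_pow,
    PowerSeries.expand_X, stdW]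
  rw [e2, pow_mul]

theorem stdGA_one (hk : 1 ≤ k) (h : 0 < n - k) :
    PowerSeries.coeff 1 (stdGA p n k hk) = MvPowerSeries.X ⟨0, h⟩ := by
  rw [stdGA, coeff_one_GsumLin _ _ (by omega), stdW_of_lt p n k hk h]

theorem stdGA_top (hk : 1 ≤ k) (hkn : k ≤ n) :
    PowerSeries.map (MvPowerSeries.constantCoeff (σ := Fin (n - k)) (R := GaloisField p n))
      (stdGA p n k hk) = PowerSeries.X ^ (p ^ (n - k)) := by
  rw [stdGA, GsumLin_map, GsumLin_top, stdW_of_ge p n k hk le_rfl hkn]
  · simp
  · intro j hj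
    rw [stdW_of_lt p n k hk hj]
    simp

theorem stdGA_lin (hk : 1 ≤ k) (d : ℕ) (hd : d < p ^ (n - k)) (m : Fin (n - k)) :
    MvPowerSeries.coeff (Finsupp.single m 1) (PowerSeries.coeff d (stdGA p n k hk)) =
      if d = p ^ (m : ℕ) then 1 else 0 := by
  have hw : ∀ j, j < n - k → stdW p n k hk j ∈ ordIdeal (Fin (n - k)) (GaloisField p n) 1 := by
    intro j hj
    rw [stdW_of_lt p n k hk hj]
    exact X_mem_ordIdeal_one _
  have hII : ordIdeal (Fin (n - k)) (GaloisField p n) 1 * ordIdeal (Fin (n - k)) (GaloisField p n) 1 ≤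
      ordIdeal (Fin (n - k)) (GaloisField p n) 2 := by
    rw [Ideal.mul_le]
    intro a ha b hb
    exact mul_mem_ordIdeal ha hb
  have h2 := (GsumLin_mod (p := p) (CharP.HW p n k hk) hII (ordIdeal_mono (by omega))
    (stdW p n k hk) hw).2 d
  rw [stdGA, coeff_GsumLin_top _ _ _ _ hd]
  rw [mem_ordIdeal] at h2
  have h3 := h2 (Finsupp.single m 1) (by simp [Finsupp.degree_single])
  rw [map_sub, map_sub, sub_eq_zero, map_sum, map_sum] at h3
  rw [h3, Finset.sum_eq_single (m : ℕ)]
  · rw [PowerSeries.coeff_C_mul, PowerSeries.coeff_X_pow, stdW_of_lt p n k hk m.2]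
    split_ifs with h
    · simp [MvPowerSeries.coeff_X]
    · simp
  · intro j hj hjm
    rw [PowerSeries.coeff_C_mul, PowerSeries.coeff_X_pow]
    split_ifs with h
    · rw [mul_one, stdW_of_lt p n k hk (Finset.mem_range.mp hj), MvPowerSeries.coeff_X,
        if_neg]
      intro hcon
      have := Finsupp.single_left_injective (one_ne_zero) hcon
      exact hjm (congrArg Fin.val this).symm
    · simp
  · intro h
    exact absurd (Finset.mem_range.mpr m.2) h

theorem frob_card (hk : 1 ≤ k) (hkn : k ≤ n) (c : GaloisField p n) :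
    c ^ (p ^ (k + (n - k))) = c := by
  rw [Nat.add_sub_cancel' hkn]
  exact pow_card_k p n (by omega) c

/-- **The height stratum `k` of the standard law.** -/
noncomputable def stdStratum (hk : 1 ≤ k) (hkn : k < n) :
    Chart.Stratum p k (n - k) (GaloisField p n) where
  hk := hk
  hr := by omega
  HW := CharP.HW p n k hk
  comm := by unfold CharP.HW; infer_instance
  gA := stdGA p n k hk
  hp := stdGA_hp p n k hk hkn.le
  gA_zero := constantCoeff_GsumLin _ _ _
  gA_one := stdGA_one p n k hk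
  gA_top := stdGA_top p n k hk hkn.le
  gA_lin := stdGA_lin p n k hk
  frob := frob_card p n k hk hkn.le

@[simp] theorem stdStratum_HW (hk : 1 ≤ k) (hkn : k < n) :
    (stdStratum p n k hk hkn).HW = CharP.HW p n k hk := rfl

end Strat

section Point

variable (p n k : ℕ) [hp : Fact p.Prime]
variable {R : Type*} [NontriviallyNormedField R] [IsUltrametricDist R] [CompleteSpace R]
  [Algebra (GaloisField p n) R]

open Crest.Agent.Lib.LT.EvalS in
/-- Evaluation at the origin. -/
theorem ev_zero_point {σ : Type*} [Fintype σ] (f : MvPowerSeries σ R) :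
    ev f (0 : σ → R) = MvPowerSeries.constantCoeff f := by
  classical
  rw [ev, tsum_eq_single 0]
  · simp [mono]
  · intro m hm
    obtain ⟨i, hi⟩ := Finsupp.ne_iff.mp hm
    have : mono (0 : σ → R) m = 0 := by
      rw [mono]
      refine Finset.prod_eq_zero (i := i) (by simpa using hi) ?_
      simpa using hi
    rw [this, mul_zero]

theorem constantCoeff_qE (hk : 1 ≤ k) (f : LTRing p n) :
    MvPowerSeries.constantCoeff (qE p n k hk f) = LTRing.residue p n f := by
  rw [← MvPowerSeries.coeff_zero_eq_constantCoeff_apply, coeff_qE, Finsupp.embDomain_zero,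
    MvPowerSeries.coeff_zero_eq_constantCoeff_apply]
  rfl

/-- The law at the origin of the stratum is the reduction of the standard law. -/
theorem stdStratum_ΓR (hk : 1 ≤ k) (hkn : k < n) :
    (stdStratum p n k hk hkn).ΓR R = (stdGamma p n).map (algebraMap (GaloisField p n) R) := by
  rw [Chart.Stratum.ΓR, Chart.Stratum.HAt, stdStratum_HW, CharP.HW, stdGamma, map_map_law,
    map_map_law]
  congr 1
  ext1 f
  rw [RingHom.comp_apply, RingHom.comp_apply, Chart.Stratum.evA_apply]
  have h := ev_zero_point (σ := Fin (n - k)) (Chart.mapR (K := GaloisField p n) (r := n - k) R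
    (qE p n k hk f))
  refine h.trans ?_
  rw [Chart.mapR, ← MvPowerSeries.coeff_zero_eq_constantCoeff_apply, MvPowerSeries.coeff_map,
    MvPowerSeries.coeff_zero_eq_constantCoeff_apply, constantCoeff_qE]

end Point

section PointC

variable (p n k : ℕ) [hp : Fact p.Prime]
variable {R : Type} [NontriviallyNormedField R] [IsUltrametricDist R] [CompleteSpace R]
  [IsAlgClosed R] [_root_.CharP R p] [Algebra (GaloisField p n) R]

/-- The law at a point agrees with the one of `CharP.charP_main`. -/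
theorem stdStratum_HAt (hk : 1 ≤ k) (hkn : k < n) (ξ : Chart.Pt (n - k) R) :
    (stdStratum p n k hk hkn).HAt ξ = CharP.HAt (algebraMap (GaloisField p n) R) hk ξ :=
  rfl

theorem stdStratum_evA (hk : 1 ≤ k) (hkn : k < n) (ξ : Chart.Pt (n - k) R)
    (f : MvPowerSeries (Fin (n - k)) (GaloisField p n)) :
    (stdStratum p n k hk hkn).evA ξ f = CharP.evK (algebraMap (GaloisField p n) R) ξ f :=
  rfl

end PointC

end Crest.Agent.LT.Std
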