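import Mathlib
import Crest.Prelude.Def_LubinTate
import Crest.Agent.Lib.LT.CharPDefs
import Crest.Agent.Lib.LT.CharPAssemble
import Crest.Agent.Lib.LT.AddExpLaw
import Crest.Agent.Lib.LT.Quot
import Crest.Agent.Lib.LT.StdEnd
import Crest.Agent.Lib.LT.StdStratum

/-!
# S0351: the point-level statement of the char `p` stratum

`charP_main` is the statement proved by the analysis of section 2 of finding #1130, and used
by `Strata`. Its proof is assembled in `LT/CharPAssemble.lean`.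
-/

set_option autoImplicit false

open Crest.LubinTate

namespace Crest.Agent.LT.CharP

open Crest.Agent.Lib.LT.EvalS
open Crest.Agent.LT.Std

variable {p : ℕ} [Fact p.Prime] {n k : ℕ}

variable {R : Type} [NontriviallyNormedField R] [IsUltrametricDist R] [CompleteSpace R]
  [IsAlgClosed R] [CharP R p]

theorem qE_cc (hk : 1 ≤ k) :
    (MvPowerSeries.constantCoeff (σ := Fin (n - k)) (R := GaloisField p n)).comp (qE p n k hk) =
      LTRing.residue p n := by
  ext a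
  simp only [RingHom.comp_apply, LTRing.residue]
  have := coeff_qE (p := p) (n := n) k hk a 0
  rw [MvPowerSeries.coeff_zero_eq_constantCoeff_apply] at this
  rw [this]
  simp

/-- The hypothesis `hP` at a point of the stratum. -/
theorem hP_of_stratum (hk : 1 ≤ k) (hkn : k < n) [Algebra (GaloisField p n) R]
    (D : Chart.Stratum p k (n - k) (GaloisField p n)) (hHW : D.HW = HW p n k hk)
    (ξ : Chart.Pt (n - k) R) {u : R} (hu : ‖u‖ < 1) :
    ‖D.pAt ξ u - AddExp.Aadd p k (n - k) (Chart.wOf ξ) u‖ ≤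
      AddExp.gg p k (n - k) (Chart.wOf ξ) (AddExp.gg p k (n - k) (Chart.wOf ξ) ‖u‖) := by
  let ιK : GaloisField p n →+* R := algebraMap _ _
  let ξ' : BallPt (Fin (n - k)) R := ξ
  let χ : LTRing p n →+* R := (evK ιK ξ').comp (qE p n k hk)
  have hPD : AddExp.PointData p n k (n - k) χ (Chart.wOf ξ) :=
    { hn := by omega
      hχ := fun a => D.norm_evA_le_one ξ _
      hχp := by
        show evK ιK ξ' (qE p n k hk (p : LTRing p n)) = 0
        rw [qE_natCast_p, map_zero]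
      hlow := fun j hj1 hjk => by
        show evK ιK ξ' (qE p n k hk (stdU p n j)) = 0
        have hlt : j - 1 < n - 1 := by omega
        rw [stdU_of_lt p n hlt, qE_X_of_lt p n k hk _ (by simp; omega), map_zero]
      hhigh := fun j hj => by
        show evK ιK ξ' (qE p n k hk (stdU p n (k + j))) = Chart.wOf ξ j
        rcases hj.lt_or_eq with hj | rfl
        · have hlt : k + j - 1 < n - 1 := by omega
          rw [stdU_of_lt p n hlt]
          have h1 := qE_X_emb p n k hk ⟨j, hj⟩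
          have h2 : stratEmb n k hk ⟨j, hj⟩ = ⟨k + j - 1, hlt⟩ := rfl
          rw [h2] at h1
          rw [h1, Chart.wOf_of_lt ξ hj, evK_apply, MvPowerSeries.map_X, ev_X]
        · rw [stdU_of_ge p n (by omega), map_one, map_one, Chart.wOf_self] }
  have hH : AddExp.Hyp p k (n - k) (Chart.wOf ξ) ‖ξ.1‖ :=
    { hk := hk
      hwr := Chart.wOf_self ξ
      hρ0 := norm_nonneg _
      hρ1 := ξ.2
      hwlt := fun j hj => by
        rw [Chart.wOf_of_lt ξ hj]
        exact norm_le_pi_norm ξ.1 _ }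
  have h3 := hPD.norm_pH_sub_Aadd hH hu
  have h4 : D.HAt ξ = (stdLaw p n).map χ := by
    show D.HW.map (D.evA ξ) = _
    rw [hHW]
    unfold HW
    rw [map_map_law]
    rfl
  rw [D.pAt_eq, h4]
  exact h3

theorem charP_main_of_stratum (hk : 1 ≤ k) (hkn : k < n)
    (D : Chart.Stratum p k (n - k) (GaloisField p n)) (hHW : D.HW = HW p n k hk)
    (ιK : GaloisField p n →+* R)
    (ξ : BallPt (Fin (n - k)) R) (hξ0 : ξ.1 ⟨0, by omega⟩ ≠ 0)
    (f : AA p n k) (hf : f ≠ 0) (M₀ : ℕ)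
    (w : PowerSeries (GaloisField p n) → BallPt (Fin (n - k)) R)
    (θ : PowerSeries (GaloisField p n) → PowerSeries R) (ρ : ℝ) (hρ : ρ < 1)
    (hfam : ∀ π, SmallEnd p n M₀ π →
      (∀ j, ‖PowerSeries.coeff j (θ π)‖ ≤ 1) ∧
      IsFGHom (HAt ιK hk (w π)) (HAt ιK hk ξ) (θ π) ∧
      (∀ j, ‖PowerSeries.coeff j (θ π) - ιK (PowerSeries.coeff j (aOf p n π))‖ ≤ ρ) ∧
      evK ιK (w π) f = 0)
    (hcont : ∀ ε : ℝ, 0 < ε → ∀ B : ℕ, ∃ M, ∀ π, SmallEnd p n M π →
      ‖(w π).1 - ξ.1‖ < ε ∧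
      ∀ j ≤ B, ‖PowerSeries.coeff j (θ π) - PowerSeries.coeff j (PowerSeries.X : PowerSeries R)‖ < ε) :
    False := by
  classical
  let alg : Algebra (GaloisField p n) R := ιK.toAlgebra
  have : PerfectRing R p := inferInstance
  have hn1 : 1 ≤ n := by omega
  have hΓK : D.ΓK = stdGamma p n := by
    rw [Chart.Stratum.ΓK, hHW, HW, map_map_law, stdGamma, qE_cc]
  have hevA : ∀ x : BallPt (Fin (n - k)) R, D.evA x = evK ιK x := fun x => rfl
  have hHAt : ∀ x : BallPt (Fin (n - k)) R, D.HAt x = HAt ιK hk x := fun x => by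
    show D.HW.map (D.evA x) = _
    rw [hHW, hevA]; rfl
  have hcard : Nat.card (GaloisField p n) = p ^ (k + (n - k)) := by
    rw [GaloisField.card p n (by omega)]
    congr 1
    omega
  have hmono : ∀ (c : GaloisField p n) (j : ℕ), IsFGHom D.ΓK D.ΓK (PowerSeries.C c * PowerSeries.X ^ (p ^ j)) := by
    intro c j
    rw [hΓK]
    exact isFGHom_stdGamma_mono p n hn1 c j
  have hP : ∀ u : R, ‖u‖ < 1 → ‖D.pAt ξ u - AddExp.Aadd p k (n - k) (Chart.wOf ξ) u‖ ≤
      AddExp.gg p k (n - k) (Chart.wOf ξ) (AddExp.gg p k (n - k) (Chart.wOf ξ) ‖u‖) := by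
    intro u hu
    exact hP_of_stratum hk hkn D hHW ξ hu
  refine D.assemble hcard hmono ξ hξ0 hP f hf M₀ w θ ρ hρ ?_ ?_
  · intro π hπ hπo
    rw [hΓK] at hπ
    obtain ⟨h1, h2, h3, h4⟩ := hfam π ⟨hπ, hπo⟩
    refine ⟨h1, ?_, ?_, h4⟩
    · rw [hHAt, hHAt]; exact h2
    · rw [hΓK]; exact h3
  · intro ε hε B
    obtain ⟨M, hM⟩ := hcont ε hε B
    refine ⟨M, fun π hπ hπo => ?_⟩
    rw [hΓK] at hπ
    exact hM π ⟨hπ, hπo⟩

/-- **Char `p` stratum, point level.** -/
theorem charP_main (hk : 1 ≤ k) (hkn : k < n) (ιK : GaloisField p n →+* R)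
    (ξ : BallPt (Fin (n - k)) R) (hξ0 : ξ.1 ⟨0, by omega⟩ ≠ 0)
    (f : AA p n k) (hf : f ≠ 0) (M₀ : ℕ)
    (w : PowerSeries (GaloisField p n) → BallPt (Fin (n - k)) R)
    (θ : PowerSeries (GaloisField p n) → PowerSeries R) (ρ : ℝ) (hρ : ρ < 1)
    (hfam : ∀ π, SmallEnd p n M₀ π →
      (∀ j, ‖PowerSeries.coeff j (θ π)‖ ≤ 1) ∧
      IsFGHom (HAt ιK hk (w π)) (HAt ιK hk ξ) (θ π) ∧
      (∀ j, ‖PowerSeries.coeff j (θ π) - ιK (PowerSeries.coeff j (aOf p n π))‖ ≤ ρ) ∧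
      evK ιK (w π) f = 0)
    (hcont : ∀ ε : ℝ, 0 < ε → ∀ B : ℕ, ∃ M, ∀ π, SmallEnd p n M π →
      ‖(w π).1 - ξ.1‖ < ε ∧
      ∀ j ≤ B, ‖PowerSeries.coeff j (θ π) - PowerSeries.coeff j (PowerSeries.X : PowerSeries R)‖ < ε) :
    False :=
  charP_main_of_stratum hk hkn (stdStratum p n k hk hkn) rfl ιK ξ hξ0 f hf M₀ w θ ρ hρ hfam hcont

end Crest.Agent.LT.CharP
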