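import Mathlib

/-!
# Points of a Noetherian local ring with values in a complete algebraically closed field

`exists_point`: for a Noetherian local ring `E`, a prime `P` and `x ∈ m \ P` there is a complete
algebraically closed ultrametric field `R` and a ring hom `χ : E → R` with `|χ| ≤ 1`,
`|χ m| < 1`, `χ P = 0`, `χ x ≠ 0`.
-/

set_option autoImplicit false

open IsLocalRing

namespace Crest.Agent.LT

section Cut

variable {E : Type*} [CommRing E] [IsNoetherianRing E] [IsLocalRing E]

/-- Step A: a prime `Q ⊇ P`, maximal among those avoiding `x`; every prime above `Q ⊔ (x)` is `m`. -/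
theorem exists_prime_cut (P : Ideal E) [P.IsPrime] (x : E) (hxP : x ∉ P) :
    ∃ Q : Ideal E, Q.IsPrime ∧ P ≤ Q ∧ x ∉ Q ∧ (∀ Q' : Ideal E, Q'.IsPrime → Q < Q' → x ∈ Q') ∧
      ∀ q : Ideal E, q.IsPrime → Q ≤ q → x ∈ q → q = maximalIdeal E := by
  classical
  let S : Set (Ideal E) := {Q | Q.IsPrime ∧ P ≤ Q ∧ x ∉ Q}
  have hS : S.Nonempty := ⟨P, ‹_›, le_rfl, hxP⟩
  obtain ⟨Q, hQS, hQmax⟩ := (wellFounded_gt (α := Ideal E)).has_min S hS
  obtain ⟨hQp, hPQ, hxQ⟩ := hQS
  have hmax : ∀ Q' : Ideal E, Q'.IsPrime → Q < Q' → x ∈ Q' := by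
    intro Q' hQ' hlt
    by_contra hx'
    exact hQmax Q' ⟨hQ', hPQ.trans hlt.le, hx'⟩ hlt
  refine ⟨Q, hQp, hPQ, hxQ, hmax, ?_⟩
  intro q hq hQq hxq
  by_contra hne
  let I : Ideal E := Q ⊔ Ideal.span {x}
  have hIq : I ≤ q := sup_le hQq ((Ideal.span_singleton_le_iff_mem _).mpr hxq)
  have hqm : q ≤ maximalIdeal E := le_maximalIdeal hq.ne_top
  have hfin : (I.minimalPrimes).Finite := Ideal.finite_minimalPrimes_of_isNoetherianRing E I
  -- `m` is not a minimal prime over `I`
  have hm_not : ∀ r ∈ I.minimalPrimes, ¬ maximalIdeal E ≤ r := by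
    intro r hr hle
    have hr' : r = maximalIdeal E := le_antisymm (le_maximalIdeal hr.1.1.ne_top) hle
    apply hne
    apply le_antisymm hqm
    rw [← hr']
    exact hr.2 ⟨hq, hIq⟩ (by rw [hr']; exact hqm)
  -- prime avoidance
  have hav : ¬ ((maximalIdeal E : Set E) ⊆ ⋃ r ∈ hfin.toFinset, (r : Set E)) := by
    intro hsub
    obtain ⟨r, hr, hle⟩ := (Ideal.subset_union_prime (s := hfin.toFinset) (f := id) ⊥ ⊥
      (by
        intro i hi _ _
        exact ((hfin.mem_toFinset).mp hi).1.1)).mp (by simpa using hsub)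
    exact hm_not r ((hfin.mem_toFinset).mp hr) hle
  obtain ⟨y, hym, hy⟩ := Set.not_subset.mp hav
  have hy' : ∀ r ∈ I.minimalPrimes, y ∉ r := by
    intro r hr hyr
    apply hy
    simp only [Set.mem_iUnion]
    exact ⟨r, (hfin.mem_toFinset).mpr hr, hyr⟩
  -- `y ∉ Q`
  obtain ⟨r₀, hr₀, -⟩ := Ideal.exists_minimalPrimes_le (I := I) (J := q) hIq
  have hyQ : y ∉ Q := fun hyQ => hy' r₀ hr₀ (hr₀.1.2 (Ideal.mem_sup_left hyQ))
  -- minimal prime over `Q ⊔ (y)`
  have hle_m : Q ⊔ Ideal.span {y} ≤ maximalIdeal E :=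
    sup_le (le_maximalIdeal hQp.ne_top) ((Ideal.span_singleton_le_iff_mem _).mpr hym)
  obtain ⟨q', hq', -⟩ := Ideal.exists_minimalPrimes_le (I := Q ⊔ Ideal.span {y})
    (J := maximalIdeal E) hle_m
  have hq'p : q'.IsPrime := hq'.1.1
  have hQq' : Q ≤ q' := le_sup_left.trans hq'.1.2
  have hyq' : y ∈ q' := hq'.1.2 (Ideal.mem_sup_right (Ideal.mem_span_singleton_self y))
  have hQlt : Q < q' := lt_of_le_of_ne hQq' (fun h => hyQ (h ▸ hyq'))
  have hxq' : x ∈ q' := hmax q' hq'p hQlt
  have hIq' : I ≤ q' := sup_le hQq' ((Ideal.span_singleton_le_iff_mem _).mpr hxq')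
  obtain ⟨r, hr, hrq'⟩ := Ideal.exists_minimalPrimes_le (I := I) (J := q') hIq'
  have hrp : r.IsPrime := hr.1.1
  have hQr : Q < r := lt_of_le_of_ne (le_sup_left.trans hr.1.2) (fun h => hxQ (by
    rw [h]; exact hr.1.2 (Ideal.mem_sup_right (Ideal.mem_span_singleton_self x))))
  have hrlt : r < q' := lt_of_le_of_ne hrq' (fun h => hy' r hr (h ▸ hyq'))
  -- Krull
  have hht := Ideal.map_height_le_one_of_mem_minimalPrimes hq'
  let f := Ideal.Quotient.mk Q
  have hfs : Function.Surjective f := Ideal.Quotient.mk_surjective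
  have hker : RingHom.ker f = Q := Ideal.mk_ker
  have hmap_prime : ∀ A : Ideal E, A.IsPrime → Q ≤ A → (A.map f).IsPrime := by
    intro A hA hle
    exact Ideal.map_isPrime_of_surjective hfs (by rw [hker]; exact hle)
  have hmap_lt : ∀ A B : Ideal E, Q ≤ A → A < B → A.map f < B.map f := by
    intro A B hA hlt
    refine lt_of_le_of_ne (Ideal.map_mono hlt.le) ?_
    intro h
    have := congrArg (Ideal.comap f) h
    rw [Ideal.comap_map_of_surjective f hfs, Ideal.comap_map_of_surjective f hfs] at this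
    have hk : Ideal.comap f ⊥ = Q := by
      rw [← RingHom.ker_eq_comap_bot, hker]
    rw [hk, sup_eq_left.mpr hA, sup_eq_left.mpr (hA.trans hlt.le)] at this
    exact hlt.ne this
  have : (Q.map f).IsPrime := hmap_prime Q hQp le_rfl
  have : (r.map f).IsPrime := hmap_prime r hrp hQr.le
  have : (q'.map f).IsPrime := hmap_prime q' hq'p hQq'
  have h1 := Ideal.height_strict_mono_of_isPrime_of_isPrime (hmap_lt Q r le_rfl hQr)
  have h2 := Ideal.height_strict_mono_of_isPrime_of_isPrime (hmap_lt r q' hQr.le hrlt)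
  have h3 : (1 : ℕ∞) ≤ (r.map f).height := by
    exact Order.one_le_iff_pos.mpr (lt_of_le_of_lt zero_le h1)
  have h4 : (1 : ℕ∞) < (q'.map f).height := lt_of_le_of_lt h3 h2
  exact absurd hht (not_le.mpr h4)

end Cut

section Holder

variable {G : Type*} [CommGroup G] [LinearOrder G] [IsOrderedMonoid G]

/-- A Hölder type lemma: a cofinal element `g < 1` of a linearly ordered commutative group yields a
monotone real character. -/
theorem exists_real_char (g : G) (hg : g < 1) (hcof : ∀ γ : G, ∃ N : ℕ, g ^ N ≤ γ) :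
    ∃ ψ : G → ℝ, (∀ a b, ψ (a * b) = ψ a + ψ b) ∧ (∀ a b, a ≤ b → ψ b ≤ ψ a) ∧ ψ g = 1 := by
  classical
  -- `T γ` is the set of `a / s` with `γ ^ s ≤ g ^ a`
  let T : G → Set ℝ := fun γ => {q | ∃ (a : ℤ) (s : ℕ), 0 < s ∧ q = (a : ℝ) / s ∧ γ ^ s ≤ g ^ a}
  have hanti : ∀ a b : ℤ, g ^ a ≤ g ^ b ↔ b ≤ a := by
    intro a b
    have h1 : (1 : G) < g⁻¹ := one_lt_inv'.mpr hg
    have e : ∀ m : ℤ, g ^ m = (g⁻¹) ^ (-m) := fun m => by
      rw [inv_zpow', neg_neg]
    rw [e a, e b, zpow_le_zpow_iff_right h1]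
    omega
  have hne : ∀ γ, (T γ).Nonempty := by
    intro γ
    obtain ⟨N, hN⟩ := hcof γ⁻¹
    refine ⟨((-(N : ℤ) : ℤ) : ℝ) / (1 : ℕ), -(N : ℤ), 1, one_pos, rfl, ?_⟩
    rw [pow_one, zpow_neg, zpow_natCast]
    exact le_inv'.mp hN
  have hbdd : ∀ γ, BddAbove (T γ) := by
    intro γ
    obtain ⟨N, hN⟩ := hcof γ
    refine ⟨N, ?_⟩
    rintro q ⟨a, s, hs, rfl, hle⟩
    have h1 : g ^ ((N * s : ℕ) : ℤ) ≤ g ^ a := by
      refine le_trans ?_ hle
      rw [zpow_natCast, pow_mul]
      exact pow_le_pow_left' hN s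
    have h2 : a ≤ ((N * s : ℕ) : ℤ) := (hanti _ _).mp h1
    have hs' : (0 : ℝ) < s := by exact_mod_cast hs
    rw [div_le_iff₀ hs']
    have : (a : ℝ) ≤ ((N * s : ℕ) : ℝ) := by exact_mod_cast h2
    simpa using this
  let ψ : G → ℝ := fun γ => sSup (T γ)
  have hmem : ∀ γ (q : ℝ), q ∈ T γ → q ≤ ψ γ := fun γ q hq => le_csSup (hbdd γ) hq
  -- superadditivity
  have hsup : ∀ γ δ, ψ γ + ψ δ ≤ ψ (γ * δ) := by
    intro γ δ
    have : ∀ q ∈ T γ, ∀ r ∈ T δ, q + r ≤ ψ (γ * δ) := by
      rintro q ⟨a, s, hs, rfl, hle⟩ r ⟨b, t, ht, rfl, hle'⟩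
      apply hmem
      refine ⟨a * t + b * s, s * t, Nat.mul_pos hs ht, ?_, ?_⟩
      · have hs' : (s : ℝ) ≠ 0 := by exact_mod_cast hs.ne'
        have ht' : (t : ℝ) ≠ 0 := by exact_mod_cast ht.ne'
        push_cast
        field_simp
      · rw [mul_pow, zpow_add, zpow_mul, zpow_mul]
        have h1 : γ ^ (s * t) ≤ (g ^ a) ^ (t : ℤ) := by
          rw [pow_mul, zpow_natCast]
          exact pow_le_pow_left' hle t
        have h2 : δ ^ (s * t) ≤ (g ^ b) ^ (s : ℤ) := by
          rw [mul_comm s t, pow_mul, zpow_natCast]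
          exact pow_le_pow_left' hle' s
        exact mul_le_mul' h1 h2
    have h1 : ∀ q ∈ T γ, q + ψ δ ≤ ψ (γ * δ) := by
      intro q hq
      have : ψ δ ≤ ψ (γ * δ) - q := csSup_le (hne δ) (fun r hr => by
        have := this q hq r hr
        linarith)
      linarith
    have h2 : ψ γ ≤ ψ (γ * δ) - ψ δ := csSup_le (hne γ) (fun q hq => by
      have := h1 q hq
      linarith)
    linarith
  -- `ψ 1 = 0`
  have hone : ψ 1 = 0 := by
    apply le_antisymm
    · apply csSup_le (hne 1)
      rintro q ⟨a, s, hs, rfl, hle⟩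
      rw [one_pow] at hle
      have h1 : g ^ (0 : ℤ) ≤ g ^ a := by simpa using hle
      have h2 : a ≤ 0 := (hanti _ _).mp h1
      have hs' : (0 : ℝ) ≤ s := by positivity
      have h2' : (a : ℝ) ≤ 0 := by exact_mod_cast h2
      exact div_nonpos_of_nonpos_of_nonneg h2' hs'
    · apply hmem
      refine ⟨0, 1, one_pos, by simp, by simp⟩
  -- inverse
  have hinv : ∀ γ, - ψ γ ≤ ψ γ⁻¹ := by
    intro γ
    refine le_of_forall_pos_le_add fun ε hε => ?_
    obtain ⟨s, hs⟩ := exists_nat_gt (1 / ε)
    have hs0 : (0 : ℝ) < s := lt_trans (by positivity) hs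
    have hs0' : 0 < s := by exact_mod_cast hs0
    have hsε : 1 / (s : ℝ) < ε := by
      rw [div_lt_iff₀ hs0]
      rw [div_lt_iff₀ hε] at hs
      linarith
    -- `a` := least integer with `a / s > ψ γ`
    let a : ℤ := ⌊ψ γ * s⌋ + 1
    have ha1 : ψ γ * s < a := by
      simp only [a]
      push_cast
      exact Int.lt_floor_add_one _
    have ha2 : (a : ℝ) ≤ ψ γ * s + 1 := by
      simp only [a]
      push_cast
      linarith [Int.floor_le (ψ γ * s)]
    have hnot : ¬ γ ^ s ≤ g ^ a := by
      intro hle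
      have : (a : ℝ) / s ≤ ψ γ := hmem _ _ ⟨a, s, hs0', rfl, hle⟩
      rw [div_le_iff₀ hs0] at this
      linarith
    have hlt : g ^ a < γ ^ s := not_le.mp hnot
    have hmem' : ((-a : ℤ) : ℝ) / s ∈ T γ⁻¹ := by
      refine ⟨-a, s, hs0', rfl, ?_⟩
      rw [inv_pow, zpow_neg]
      exact inv_le_inv' hlt.le |>.trans_eq rfl
    have := hmem _ _ hmem'
    have h3 : -(a : ℝ) / s ≥ - ψ γ - 1 / s := by
      rw [ge_iff_le, le_div_iff₀ hs0]
      have : (ψ γ + 1 / s) * s = ψ γ * s + 1 := by field_simp
      nlinarith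
    push_cast at this
    linarith
  have hadd : ∀ a b, ψ (a * b) = ψ a + ψ b := by
    intro a b
    apply le_antisymm
    · have h1 := hsup (a * b) b⁻¹
      rw [mul_inv_cancel_right] at h1
      have h2 := hinv b
      have h3 := hsup b b⁻¹
      rw [mul_inv_cancel, hone] at h3
      linarith
    · exact hsup a b
  refine ⟨ψ, hadd, ?_, ?_⟩
  · intro a b hab
    apply csSup_le (hne b)
    rintro q ⟨c, s, hs, rfl, hle⟩
    exact hmem _ _ ⟨c, s, hs, rfl, (pow_le_pow_left' hab s).trans hle⟩
  · apply le_antisymm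
    · apply csSup_le (hne g)
      rintro q ⟨a, s, hs, rfl, hle⟩
      have h1 : g ^ (s : ℤ) ≤ g ^ a := by simpa using hle
      have h2 : a ≤ s := (hanti _ _).mp h1
      have hs' : (0 : ℝ) < s := by exact_mod_cast hs
      rw [div_le_one hs']
      exact_mod_cast h2
    · apply hmem
      exact ⟨1, 1, one_pos, by simp, by simp⟩

end Holder

section AbsVal

variable {B : Type*} [CommRing B] [IsDomain B] [IsLocalRing B]
variable {L : Type*} [Field L] [Algebra B L] [IsFractionRing B L]

/-- Step B/C: from a dominating valuation ring and a cofinal `x`, a real absolute value. -/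
theorem exists_absoluteValue (x : B) (hx0 : x ≠ 0) (hxm : x ∈ maximalIdeal B)
    (hcof : ∀ b : B, b ≠ 0 → ∃ N : ℕ, b ∣ x ^ N)
    (hrad : ∀ a ∈ maximalIdeal B, ∃ N : ℕ, x ∣ a ^ N) :
    ∃ v : AbsoluteValue L ℝ, IsNonarchimedean v ∧ (∀ b : B, v (algebraMap B L b) ≤ 1) ∧
      (∀ a ∈ maximalIdeal B, v (algebraMap B L a) < 1) := by
  classical
  let f : B →+* L := algebraMap B L
  have hfinj : Function.Injective f := IsFractionRing.injective B L
  obtain ⟨A, hA, hloc⟩ := IsLocalRing.exists_factor_valuationRing f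
  let val := A.valuation
  have hle1 : ∀ b : B, val (f b) ≤ 1 := fun b => (A.valuation_le_one_iff _).mpr (hA b)
  have hlt1 : ∀ a ∈ maximalIdeal B, val (f a) < 1 := by
    intro a ha
    have h1 : (⟨f a, hA a⟩ : A) ∈ maximalIdeal A := by
      rw [mem_maximalIdeal, mem_nonunits_iff]
      intro hu
      have := hloc.map_nonunit a (by exact hu)
      exact (mem_maximalIdeal _).mp ha this
    have := (A.valuation_lt_one_iff _).mp h1
    exact this
  have hfne : ∀ y : L, y ≠ 0 → val y ≠ 0 := fun y hy => (Valuation.ne_zero_iff _).mpr hy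
  have hfx0 : f x ≠ 0 := fun h => hx0 (hfinj (by simpa using h))
  let g : (A.ValueGroup)ˣ := Units.mk0 (val (f x)) (hfne _ hfx0)
  have hg : g < 1 := by
    rw [← Units.val_lt_val]
    exact hlt1 x hxm
  have hcof' : ∀ γ : (A.ValueGroup)ˣ, ∃ N : ℕ, g ^ N ≤ γ := by
    intro γ
    obtain ⟨y, hy⟩ := A.valuation_surjective (γ : A.ValueGroup)
    have hy0 : y ≠ 0 := by
      rintro rfl
      rw [map_zero] at hy
      exact γ.ne_zero hy.symm
    obtain ⟨b, c, hc, rfl⟩ := IsFractionRing.div_surjective (A := B) y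
    have hb0 : b ≠ 0 := by
      rintro rfl
      simp at hy0
    obtain ⟨N, d, hd⟩ := hcof b hb0
    refine ⟨N, ?_⟩
    rw [← Units.val_le_val, Units.val_pow_eq_pow_val, ← hy]
    have hc0 : f c ≠ 0 := fun h =>
      (nonZeroDivisors.ne_zero hc) (hfinj (by simpa using h))
    have hxN : val (f x) ^ N = val (f b) * val (f d) := by
      rw [← map_pow, ← map_pow, hd, map_mul, map_mul]
    change (val (f x)) ^ N ≤ val (f b / f c)
    rw [hxN, map_div₀]
    have hv : (0 : A.ValueGroup) < val (f c) := zero_lt_iff.mpr (hfne _ hc0)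
    rw [le_div_iff₀ hv]
    calc val (f b) * val (f d) * val (f c) ≤ val (f b) * 1 * 1 := by
          gcongr
          · exact hle1 d
          · exact hle1 c
      _ = val (f b) := by simp
  obtain ⟨ψ, hadd, hmono, hψg⟩ := exists_real_char g hg hcof'
  have hψ1 : ψ 1 = 0 := by
    have := hadd 1 1
    simp only [mul_one] at this
    linarith
  have hψpow : ∀ (γ : (A.ValueGroup)ˣ) (N : ℕ), ψ (γ ^ N) = N * ψ γ := by
    intro γ N
    induction N with
    | zero => simp [hψ1]
    | succ k ih =>
      rw [pow_succ, hadd, ih]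
      push_cast
      ring
  let w : L → ℝ := fun y => if hy : y = 0 then 0 else Real.exp (- ψ (Units.mk0 (val y) (hfne y hy)))
  have hw0 : w 0 = 0 := by simp [w]
  have hwne : ∀ y (hy : y ≠ 0), w y = Real.exp (- ψ (Units.mk0 (val y) (hfne y hy))) := by
    intro y hy
    simp [w, hy]
  have hwmono : ∀ y z, val y ≤ val z → z ≠ 0 → w y ≤ w z := by
    intro y z hyz hz
    by_cases hy : y = 0
    · subst hy
      rw [hw0, hwne z hz]
      positivity
    · rw [hwne y hy, hwne z hz]
      apply Real.exp_le_exp.mpr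
      have : Units.mk0 (val y) (hfne y hy) ≤ Units.mk0 (val z) (hfne z hz) := by
        rw [← Units.val_le_val]
        exact hyz
      linarith [hmono _ _ this]
  have hwmul : ∀ y z, w (y * z) = w y * w z := by
    intro y z
    by_cases hy : y = 0
    · subst hy; simp [hw0]
    by_cases hz : z = 0
    · subst hz; simp [hw0]
    have hyz : y * z ≠ 0 := mul_ne_zero hy hz
    rw [hwne _ hyz, hwne _ hy, hwne _ hz, ← Real.exp_add]
    congr 1
    have : Units.mk0 (val (y * z)) (hfne _ hyz) =
        Units.mk0 (val y) (hfne y hy) * Units.mk0 (val z) (hfne z hz) := by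
      ext
      simp [map_mul]
    rw [this, hadd]
    ring
  have hwnonneg : ∀ y, 0 ≤ w y := by
    intro y
    by_cases hy : y = 0
    · subst hy; simp [hw0]
    · rw [hwne y hy]; positivity
  have hwna : ∀ y z, w (y + z) ≤ max (w y) (w z) := by
    intro y z
    by_cases hy : y = 0
    · subst hy; simp
    by_cases hz : z = 0
    · subst hz; simp
    rcases le_total (val y) (val z) with h | h
    · have : val (y + z) ≤ val z := by
        have := Valuation.map_add val y z
        rwa [max_eq_right h] at this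
      exact (hwmono _ _ this hz).trans (le_max_right _ _)
    · have : val (y + z) ≤ val y := by
        have := Valuation.map_add val y z
        rwa [max_eq_left h] at this
      exact (hwmono _ _ this hy).trans (le_max_left _ _)
  have hw1 : w 1 = 1 := by
    have h1 : (1 : L) ≠ 0 := one_ne_zero
    rw [hwne 1 h1]
    have : Units.mk0 (val 1) (hfne 1 h1) = 1 := by
      ext
      simp [map_one]
    rw [this, hψ1]
    simp
  let v : AbsoluteValue L ℝ :=
    { toFun := w
      map_mul' := hwmul
      nonneg' := hwnonneg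
      eq_zero' := by
        intro y
        constructor
        · intro h
          by_contra hy
          rw [hwne y hy] at h
          exact (Real.exp_pos _).ne' h
        · rintro rfl
          exact hw0
      add_le' := by
        intro y z
        refine (hwna y z).trans ?_
        exact max_le (le_add_of_nonneg_right (hwnonneg z)) (le_add_of_nonneg_left (hwnonneg y)) }
  refine ⟨v, ?_, ?_, ?_⟩
  · intro y z
    exact hwna y z
  · intro b
    change w (f b) ≤ 1
    rw [← hw1]
    exact hwmono _ _ (by simpa using hle1 b) one_ne_zero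
  · intro a ha
    change w (f a) < 1
    by_cases ha0 : f a = 0
    · rw [ha0, hw0]; exact one_pos
    obtain ⟨N, c, hc⟩ := hrad a ha
    rw [hwne _ ha0]
    have hN : N ≠ 0 := by
      rintro rfl
      rw [pow_zero] at hc
      exact (mem_maximalIdeal _).mp hxm (IsUnit.of_mul_eq_one _ hc.symm)
    have hle : (Units.mk0 (val (f a)) (hfne _ ha0)) ^ N ≤ g := by
      rw [← Units.val_le_val, Units.val_pow_eq_pow_val]
      change (val (f a)) ^ N ≤ val (f x)
      rw [← map_pow, ← map_pow, hc, map_mul, map_mul]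
      calc val (f x) * val (f c) ≤ val (f x) * 1 := by
            gcongr
            exact hle1 c
        _ = val (f x) := by simp
    have h1 := hmono _ _ hle
    rw [hψg, hψpow] at h1
    have hNpos : (0 : ℝ) < N := by exact_mod_cast Nat.pos_of_ne_zero hN
    have h2 : 0 < ψ (Units.mk0 (val (f a)) (hfne _ ha0)) := by
      by_contra hneg
      push Not at hneg
      have : (N : ℝ) * ψ (Units.mk0 (val (f a)) (hfne _ ha0)) ≤ 0 :=
        mul_nonpos_of_nonneg_of_nonpos hNpos.le hneg
      linarith
    rw [Real.exp_lt_one_iff]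
    linarith

end AbsVal

section Complete

/-- The completion of an ultrametric space is ultrametric. -/
theorem isUltrametricDist_completion (X : Type*) [PseudoMetricSpace X] [IsUltrametricDist X] :
    IsUltrametricDist (UniformSpace.Completion X) := by
  refine ⟨fun a b c => ?_⟩
  induction a, b, c using UniformSpace.Completion.induction_on₃ with
  | hp =>
    exact isClosed_le (by fun_prop) (by fun_prop)
  | ih a b c =>
    simp only [UniformSpace.Completion.dist_eq]
    exact IsUltrametricDist.dist_triangle_max a b c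

/-- A generalization of `IsAlgClosed.of_denseRange`: a complete ultrametric perfect field with a
dense algebraically closed subfield is algebraically closed. -/
theorem isAlgClosed_of_denseRange_perfect {K L : Type*} [Field K] [NontriviallyNormedField L]
    [CompleteSpace L] [PerfectField L] [IsUltrametricDist L] [Algebra K L]
    (hi : DenseRange (algebraMap K L)) [IsAlgClosed K] : IsAlgClosed L := by
  open Polynomial in
  apply IsAlgClosed.of_exists_root
  intro f fmon firr
  have fnatdeg0 : f.natDegree ≠ 0 := (Irreducible.natDegree_pos firr).ne'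
  let F := f.SplittingField
  let : NormedField F := spectralNorm.normedField L F
  let : NormedAlgebra L F := spectralNorm.normedAlgebra L F
  let a := rootOfSplits (SplittingField.splits f)
      (by simpa using degree_ne_of_natDegree_ne fnatdeg0)
  have fa0 : f.aeval a = 0 := by
    rw [← eval_map_algebraMap]
    exact eval_rootOfSplits (Polynomial.SplittingField.splits f)
      (by simpa using degree_ne_of_natDegree_ne fnatdeg0)
  classical
    let S : Finset F := {x ∈ (f.rootSet F).toFinset | x ≠ a}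
  let δ : ℝ := if hS : S.Nonempty then Finset.min' (S.image fun x => ‖a - x‖)
      (Finset.image_nonempty.mpr hS) else 1
  have norm_sub_le : ∀ a' : F, IsConjRoot L a a' → a ≠ a' → δ ≤ ‖a - a'‖ := by
    intro a' conj ne
    by_cases hS : S.Nonempty <;> simp only [hS, ↓reduceDIte, δ]
    · apply Finset.min'_le (S.image fun x => ‖a - x‖) (‖a - a'‖)
      apply Finset.mem_image_of_mem
      simp only [minpoly.eq_of_irreducible_of_monic firr fa0 fmon, Finset.mem_filter,
        Set.mem_toFinset, S]
      rw [← (isConjRoot_iff_mem_minpoly_rootSet ⟨f, fmon, fa0⟩)]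
      exact ⟨conj, ne.symm⟩
    · simp only [ne_eq, Finset.not_nonempty_iff_eq_empty, Finset.filter_eq_empty_iff,
      Set.mem_toFinset, not_not, S] at hS
      rw [isConjRoot_iff_mem_minpoly_rootSet ⟨f, fmon, fa0⟩,
          ← minpoly.eq_of_irreducible_of_monic firr fa0 fmon] at conj
      exact (ne (hS conj).symm).elim
  have δpos : δ > 0 := by
    by_cases hS : S.Nonempty <;> simp only [hS, ↓reduceDIte, δ]
    · simp only [gt_iff_lt, Finset.lt_min'_iff, Finset.mem_image, forall_exists_index, and_imp,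
        forall_apply_eq_imp_iff₂]
      rintro a' ha'
      simp only [Finset.mem_filter, Set.mem_toFinset, S] at ha'
      rw [norm_pos_iff, sub_ne_zero]
      exact ha'.2.symm
    · linarith
  have hε : (δ / (max ‖a‖ 1)) ^ f.natDegree / (f.natDegree + 1) > 0 := by positivity
  obtain ⟨g, gmon, gdeg, gcoeff⟩ :=
    exists_monic_and_natDegree_eq_and_norm_map_algebraMap_coeff_sub_lt hi fmon hε
  let ⟨b, hb, hab⟩ := exists_aroots_norm_sub_lt_of_norm_coeff_sub_lt
      hε fa0 fmon (gmon.map _) (gdeg ▸ (g.natDegree_map _)) gcoeff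
      (by simpa [Polynomial.map_map] using (IsAlgClosed.splits g).map ((algebraMap L F).comp _))
  have hab : ‖a - b‖ < δ := by
    rw [← Real.rpow_natCast, ← mul_comm_div, div_self, one_mul,
        ← Real.rpow_mul (div_pos δpos (by positivity)).le, mul_inv_cancel₀] at hab
    · simpa [mul_assoc, div_mul_cancel₀ _ (by positivity : (max ‖a‖ 1) > 0).ne'] using hab
    · simp [fnatdeg0]
    · positivity
  have bbot : b ∈ (⊥ : IntermediateField L F) := by
    rw [Polynomial.aroots_def, Splits.roots_map ((IsAlgClosed.splits g).map _),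
        Multiset.mem_map] at hb
    obtain ⟨bCp, _, hbCp⟩ := hb
    rw [IntermediateField.mem_bot]
    exact ⟨bCp, hbCp⟩
  simp only [Polynomial.mem_roots', ne_eq, Polynomial.map_eq_zero, Polynomial.IsRoot.def,
    Polynomial.eval_map_algebraMap] at hb
  have abot : a ∈ (⊥ : IntermediateField L F) := by
    have masp : ((minpoly L a).map (algebraMap L F)).Splits := by
      simpa [minpoly.eq_of_irreducible_of_monic firr fa0 fmon] using
        (Polynomial.SplittingField.splits f)
    simpa [IntermediateField.adjoin_simple_eq_bot_iff.mpr bbot] using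
      IsKrasner.krasner (PerfectField.separable_of_irreducible (minpoly.irreducible ⟨f, fmon, fa0⟩))
        masp ⟨(g.map _), gmon.map _, hb.2⟩ fun a' h1 h2 ↦ lt_of_lt_of_le hab (norm_sub_le a' h1 h2)
  obtain ⟨aCp, haCp⟩ := IntermediateField.mem_bot.mp abot
  use aCp
  apply_fun algebraMap L F
  · rwa [← Polynomial.aeval_algebraMap_apply_eq_algebraMap_eval, haCp, map_zero]
  · exact RingHom.injective _

/-- A complete normed field with a dense perfect (algebraically closed) subfield is perfect. -/
theorem perfectField_of_denseRange {K L : Type*} [Field K] [IsAlgClosed K] [NormedField L]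
    [CompleteSpace L] [Algebra K L] (hi : DenseRange (algebraMap K L)) : PerfectField L := by
  classical
  obtain ⟨q, hq⟩ := CharP.exists L
  rcases CharP.char_is_prime_or_zero L q with hp | h0
  · haveI : Fact q.Prime := ⟨hp⟩
    haveI : CharP L q := hq
    haveI : ExpChar L q := ExpChar.prime hp
    have hsurj : Function.Surjective (frobenius L q) := by
      intro y
      have hy : y ∈ closure (Set.range (algebraMap K L)) := hi y
      obtain ⟨u, hu, hlim⟩ := mem_closure_iff_seq_limit.mp hy
      choose c hc using hu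
      -- `p`-th roots in `K`
      have hroot : ∀ n, ∃ d : K, d ^ q = c n := fun n =>
        IsAlgClosed.exists_pow_nat_eq (c n) hp.pos
      choose d hd using hroot
      let x : ℕ → L := fun n => algebraMap K L (d n)
      have hxq : ∀ n, x n ^ q = u n := by
        intro n
        simp only [x]
        rw [← map_pow, hd, hc]
      have hnorm : ∀ m n, ‖x m - x n‖ ^ q = ‖u m - u n‖ := by
        intro m n
        rw [← norm_pow, sub_pow_char, hxq, hxq]
      have hcau : CauchySeq u := hlim.cauchySeq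
      have hxcau : CauchySeq x := by
        rw [Metric.cauchySeq_iff]
        intro ε hε
        obtain ⟨N, hN⟩ := Metric.cauchySeq_iff.mp hcau (ε ^ q) (by positivity)
        refine ⟨N, fun m hm n hn => ?_⟩
        have h1 := hN m hm n hn
        rw [dist_eq_norm, ← hnorm] at h1
        rw [dist_eq_norm]
        exact lt_of_pow_lt_pow_left₀ q hε.le h1
      obtain ⟨z, hz⟩ := cauchySeq_tendsto_of_complete hxcau
      refine ⟨z, ?_⟩
      have h1 : Filter.Tendsto (fun n => x n ^ q) Filter.atTop (nhds (z ^ q)) := hz.pow q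
      simp only [hxq] at h1
      exact tendsto_nhds_unique h1 hlim
    have : PerfectRing L q := PerfectRing.ofSurjective L q hsurj
    exact PerfectRing.toPerfectField L q
  · have : CharP L 0 := by rw [← h0]; exact hq
    have : CharZero L := CharP.charP_to_charZero L
    infer_instance

universe u

/-- Any complete nontrivially normed ultrametric field embeds isometrically in a complete
algebraically closed one. -/
theorem exists_algClosed_extension (K : Type u) [NontriviallyNormedField K] [IsUltrametricDist K]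
    [CompleteSpace K] :
    ∃ (R : Type u) (_ : NontriviallyNormedField R) (_ : IsUltrametricDist R) (_ : CompleteSpace R)
      (_ : IsAlgClosed R) (ι : K →+* R), ∀ y, ‖ι y‖ = ‖y‖ := by
  classical
  let F := AlgebraicClosure K
  letI nF : NormedField F := spectralNorm.normedField K F
  letI aF : NormedAlgebra K F := spectralNorm.normedAlgebra K F
  have hF : ∀ x : K, ‖algebraMap K F x‖ = ‖x‖ := fun x => norm_algebraMap' F x
  haveI uF : IsUltrametricDist F :=
    IsUltrametricDist.isUltrametricDist_of_forall_norm_add_le_max_norm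
      (isNonarchimedean_spectralNorm (K := K) (L := F))
  let R := UniformSpace.Completion F
  have hcoe : ∀ x : F, ‖(x : R)‖ = ‖x‖ := fun x => UniformSpace.Completion.norm_coe x
  obtain ⟨c, hc⟩ := NontriviallyNormedField.non_trivial (α := K)
  letI nR : NontriviallyNormedField R :=
    { (inferInstance : NormedField R) with
      non_trivial := ⟨((algebraMap K F c : F) : R), by
        rw [hcoe, hF]; exact hc⟩ }
  haveI uR : IsUltrametricDist R := isUltrametricDist_completion F
  haveI cR : CompleteSpace R := inferInstance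
  have hdense : DenseRange (algebraMap F R) := UniformSpace.Completion.denseRange_coe
  haveI pR : PerfectField R := perfectField_of_denseRange (K := F) (L := R) hdense
  haveI aR : IsAlgClosed R := isAlgClosed_of_denseRange_perfect (K := F) (L := R) hdense
  refine ⟨R, nR, uR, cR, aR, (algebraMap F R).comp (algebraMap K F), fun y => ?_⟩
  change ‖((algebraMap K F y : F) : R)‖ = ‖y‖
  rw [hcoe, hF]

/-- A normed ultrametric field with a nontrivial element embeds isometrically in a complete
nontrivially normed ultrametric field. -/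
theorem exists_complete_extension (M : Type u) [NormedField M] [IsUltrametricDist M]
    (x : M) (hx0 : x ≠ 0) (hx1 : ‖x‖ < 1) :
    ∃ (K : Type u) (_ : NontriviallyNormedField K) (_ : IsUltrametricDist K) (_ : CompleteSpace K)
      (ι : M →+* K), ∀ y, ‖ι y‖ = ‖y‖ := by
  classical
  let K := UniformSpace.Completion M
  have hcoe : ∀ y : M, ‖(y : K)‖ = ‖y‖ := fun y => UniformSpace.Completion.norm_coe y
  letI nK : NontriviallyNormedField K :=
    { (inferInstance : NormedField K) with
      non_trivial := ⟨((x⁻¹ : M) : K), by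
        rw [hcoe, norm_inv]
        exact (one_lt_inv₀ (norm_pos_iff.mpr hx0)).mpr hx1⟩ }
  haveI uK : IsUltrametricDist K := isUltrametricDist_completion M
  haveI cK : CompleteSpace K := inferInstance
  refine ⟨K, nK, uK, cK, UniformSpace.Completion.coeRingHom, fun y => hcoe y⟩

/-- Absolute values give points in complete algebraically closed fields. -/
theorem exists_algClosed_of_absoluteValue {L : Type u} [Field L] (v : AbsoluteValue L ℝ)
    (hv : IsNonarchimedean v) (x : L) (hx0 : x ≠ 0) (hx1 : v x < 1) :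
    ∃ (R : Type u) (_ : NontriviallyNormedField R) (_ : IsUltrametricDist R) (_ : CompleteSpace R)
      (_ : IsAlgClosed R) (ι : L →+* R), ∀ y, ‖ι y‖ = v y := by
  classical
  letI nL : NormedField L := v.toNormedField
  have hnorm : ∀ y : L, ‖y‖ = v y := fun y => rfl
  haveI uL : IsUltrametricDist L :=
    IsUltrametricDist.isUltrametricDist_of_forall_norm_add_le_max_norm (fun y z => hv y z)
  obtain ⟨K, nK, uK, cK, ι₁, h₁⟩ := exists_complete_extension L x hx0 (by rw [hnorm]; exact hx1)
  obtain ⟨R, nR, uR, cR, aR, ι₂, h₂⟩ := exists_algClosed_extension K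
  exact ⟨R, nR, uR, cR, aR, ι₂.comp ι₁, fun y => by
    change ‖ι₂ (ι₁ y)‖ = v y
    rw [h₂, h₁]; rfl⟩

end Complete

section Point

universe u

variable {E : Type u} [CommRing E] [IsNoetherianRing E] [IsLocalRing E]

/-- **Point lemma** (0h): a Noetherian local ring, a prime `P` and `x ∈ m`, `x ∉ P`: there is a
complete algebraically closed ultrametric field `R` and a ring hom `χ : E → R` with `|χ| ≤ 1`,
`|χ(m)| < 1`, `χ(P) = 0`, `χ(x) ≠ 0`. -/
theorem exists_point (P : Ideal E) [P.IsPrime] (x : E) (hxm : x ∈ maximalIdeal E) (hxP : x ∉ P) :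
    ∃ (R : Type u) (_ : NontriviallyNormedField R) (_ : IsUltrametricDist R) (_ : CompleteSpace R)
      (_ : IsAlgClosed R) (χ : E →+* R), (∀ a, ‖χ a‖ ≤ 1) ∧ (∀ a ∈ maximalIdeal E, ‖χ a‖ < 1) ∧
        (∀ a ∈ P, χ a = 0) ∧ χ x ≠ 0 := by
  classical
  obtain ⟨Q, hQ, hPQ, hxQ, hmax, htop⟩ := exists_prime_cut P x hxP
  let B := E ⧸ Q
  let π : E →+* B := Ideal.Quotient.mk Q
  have hπs : Function.Surjective π := Ideal.Quotient.mk_surjective
  haveI : IsDomain B := Ideal.Quotient.isDomain Q
  haveI : IsLocalRing B := IsLocalRing.of_surjective' π hπs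
  have hπ0 : ∀ a, π a = 0 ↔ a ∈ Q := fun a => Ideal.Quotient.eq_zero_iff_mem
  have hπm : ∀ b : B, b ∈ maximalIdeal B ↔ ∃ a ∈ maximalIdeal E, π a = b := by
    intro b
    constructor
    · intro hb
      obtain ⟨a, rfl⟩ := hπs b
      refine ⟨a, ?_, rfl⟩
      rw [mem_maximalIdeal, mem_nonunits_iff] at hb ⊢
      exact fun hu => hb (hu.map π)
    · rintro ⟨a, ha, rfl⟩
      rw [mem_maximalIdeal, mem_nonunits_iff] at ha ⊢
      intro hu
      obtain ⟨c, hc⟩ := hu.exists_right_inv
      obtain ⟨c', rfl⟩ := hπs c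
      have h1 : a * c' - 1 ∈ Q := (hπ0 _).mp (by rw [map_sub, map_mul, hc, map_one, sub_self])
      have h2 : a * c' - 1 ∈ maximalIdeal E := le_maximalIdeal hQ.ne_top h1
      rw [mem_maximalIdeal, mem_nonunits_iff] at h2
      have h3 : a * c' ∉ nonunits E := by
        intro h3
        exact h2 ((IsLocalRing.isUnit_or_isUnit_one_sub_self (a * c')).resolve_left h3 |>.neg
          |> fun h => by simpa using h)
      have h4 : IsUnit (a * c') := by simpa [mem_nonunits_iff] using h3
      exact ha (isUnit_of_mul_isUnit_left h4)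
  have hx0 : π x ≠ 0 := fun h => hxQ ((hπ0 x).mp h)
  have hxm' : π x ∈ maximalIdeal B := (hπm _).mpr ⟨x, hxm, rfl⟩
  have hcof : ∀ b : B, b ≠ 0 → ∃ N : ℕ, b ∣ π x ^ N := by
    intro b hb
    obtain ⟨a, rfl⟩ := hπs b
    have ha : a ∉ Q := fun h => hb ((hπ0 a).mpr h)
    -- every prime containing `Q ⊔ (a)` contains `x`
    have hrad : x ∈ (Q ⊔ Ideal.span {a}).radical := by
      rw [Ideal.radical_eq_sInf, Ideal.mem_sInf]
      rintro r ⟨hr, hrp⟩
      have hQr : Q ≤ r := le_sup_left.trans hr
      have har : a ∈ r := hr (Ideal.mem_sup_right (Ideal.mem_span_singleton_self a))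
      exact hmax r hrp (lt_of_le_of_ne hQr (fun h => ha (h ▸ har)))
    obtain ⟨N, hN⟩ := hrad
    obtain ⟨u, hu, v, hv, huv⟩ := Submodule.mem_sup.mp hN
    obtain ⟨c, hc⟩ := Ideal.mem_span_singleton.mp hv
    refine ⟨N, π c, ?_⟩
    rw [← map_pow, ← huv, map_add, (hπ0 u).mpr hu, zero_add, hc, map_mul]
  have hrad : ∀ b ∈ maximalIdeal B, ∃ N : ℕ, π x ∣ b ^ N := by
    intro b hb
    obtain ⟨a, ham, rfl⟩ := (hπm b).mp hb
    have hrad : a ∈ (Q ⊔ Ideal.span {x}).radical := by
      rw [Ideal.radical_eq_sInf, Ideal.mem_sInf]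
      rintro r ⟨hr, hrp⟩
      have hQr : Q ≤ r := le_sup_left.trans hr
      have hxr : x ∈ r := hr (Ideal.mem_sup_right (Ideal.mem_span_singleton_self x))
      rw [htop r hrp hQr hxr]
      exact ham
    obtain ⟨N, hN⟩ := hrad
    obtain ⟨u, hu, v, hv, huv⟩ := Submodule.mem_sup.mp hN
    obtain ⟨c, hc⟩ := Ideal.mem_span_singleton.mp hv
    refine ⟨N, π c, ?_⟩
    rw [← map_pow, ← huv, map_add, (hπ0 u).mpr hu, zero_add, hc, map_mul]
  let L := FractionRing B
  obtain ⟨v, hvna, hv1, hvm⟩ := exists_absoluteValue (L := L) (π x) hx0 hxm' hcof hrad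
  have hfx : algebraMap B L (π x) ≠ 0 := by
    intro h
    exact hx0 (IsFractionRing.injective B L (by simpa using h))
  obtain ⟨R, nR, uR, cR, aR, ι, hι⟩ :=
    exists_algClosed_of_absoluteValue v hvna (algebraMap B L (π x)) hfx (hvm _ hxm')
  let χ : E →+* R := ι.comp ((algebraMap B L).comp π)
  refine ⟨R, nR, uR, cR, aR, χ, ?_, ?_, ?_, ?_⟩
  · intro a
    change ‖ι (algebraMap B L (π a))‖ ≤ 1
    rw [hι]
    exact hv1 _
  · intro a ha
    change ‖ι (algebraMap B L (π a))‖ < 1
    rw [hι]
    exact hvm _ ((hπm _).mpr ⟨a, ha, rfl⟩)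
  · intro a ha
    change ι (algebraMap B L (π a)) = 0
    rw [(hπ0 a).mpr (hPQ ha), map_zero, map_zero]
  · change ι (algebraMap B L (π x)) ≠ 0
    intro h
    exact hfx ((map_eq_zero ι).mp h)

end Point

end Crest.Agent.LT
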