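/-
S0351 (helper69): rigidity of ⋆-endomorphisms and continuity of the `θ`'s.
-/
import Mathlib
import Crest.Prelude.Def_LubinTate
import Crest.Agent.Lib.LT.Ring
import Crest.Agent.Lib.LT.FGL
import Crest.Agent.Lib.LT.Cont
import Crest.Agent.Lib.LT.Action

set_option autoImplicit false

open Crest.LubinTate IsLocalRing

namespace Crest.Agent.LT.ThetaCont

open Crest.Agent.LT

section CoeffIdeal

variable {B : Type*} [CommRing B]

/-- Power series with all coefficients in `J`. -/
def coeffIdeal (J : Ideal B) : Ideal (PowerSeries B) where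
  carrier := {f | ∀ i, PowerSeries.coeff i f ∈ J}
  add_mem' := by
    intro a b ha hb i
    rw [map_add]
    exact J.add_mem (ha i) (hb i)
  zero_mem' := by
    intro i
    simp
  smul_mem' := by
    intro c x hx i
    rw [smul_eq_mul, PowerSeries.coeff_mul]
    exact J.sum_mem fun ab _ => J.mul_mem_left _ (hx _)

lemma mem_coeffIdeal {J : Ideal B} {f : PowerSeries B} :
    f ∈ coeffIdeal J ↔ ∀ i, PowerSeries.coeff i f ∈ J := Iff.rfl

lemma coeffIdeal_mono {J J' : Ideal B} (h : J ≤ J') : coeffIdeal J ≤ coeffIdeal J' :=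
  fun _ hf i => h (hf i)

lemma mul_mem_coeffIdeal {J J' : Ideal B} {f g : PowerSeries B} (hf : f ∈ coeffIdeal J)
    (hg : g ∈ coeffIdeal J') : f * g ∈ coeffIdeal (J * J') := by
  intro i
  rw [PowerSeries.coeff_mul]
  exact Ideal.sum_mem _ fun ab _ => Ideal.mul_mem_mul (hf _) (hg _)

lemma C_mem_coeffIdeal {J : Ideal B} {b : B} (hb : b ∈ J) :
    PowerSeries.C b ∈ coeffIdeal J := by
  intro i
  rw [PowerSeries.coeff_C]
  split_ifs
  · exact hb
  · exact J.zero_mem

/-- Congruent substitutions. -/
theorem subst_sub_subst_mem {f a a' : PowerSeries B} (ha : PowerSeries.constantCoeff a = 0)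
    (ha' : PowerSeries.constantCoeff a' = 0) {J₀ J₁ : Ideal B} (hf : f ∈ coeffIdeal J₀)
    (hk : ∀ k : ℕ, a ^ k - a' ^ k ∈ coeffIdeal J₁) :
    PowerSeries.subst a f - PowerSeries.subst a' f ∈ coeffIdeal (J₀ * J₁) := by
  intro e
  have hs := PowerSeries.HasSubst.of_constantCoeff_zero' ha
  have hs' := PowerSeries.HasSubst.of_constantCoeff_zero' ha'
  rw [map_sub, PowerSeries.coeff_subst' hs, PowerSeries.coeff_subst' hs',
    ← finsum_sub_distrib (PowerSeries.coeff_subst_finite' hs f e)
      (PowerSeries.coeff_subst_finite' hs' f e)]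
  apply finsum_induction (fun x => x ∈ J₀ * J₁)
  · exact Ideal.zero_mem _
  · exact fun x y hx hy => Ideal.add_mem _ hx hy
  · intro k
    have h1 : PowerSeries.coeff e (a ^ k - a' ^ k) ∈ J₁ := hk k e
    rw [map_sub] at h1
    rw [smul_eq_mul, smul_eq_mul, ← mul_sub]
    exact Ideal.mul_mem_mul (hf k) h1

/-- **Rigidity.** -/
theorem rigidity (I : Ideal B) {c : ℕ} (hI : I ^ c = ⊥) {p m : ℕ} (hp : p.Prime) (hm : m ≠ 0)
    (hpI : (p : B) ∈ I) {G : FormalGroup B}
    (hP : mulSeries G p - PowerSeries.X ^ (p ^ m) ∈ coeffIdeal I) {θ : PowerSeries B}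
    (hθ : IsFGHom G G θ) (hθX : θ - PowerSeries.X ∈ coeffIdeal I) : θ = PowerSeries.X := by
  set P := mulSeries G p with hPdef
  set q := p ^ m with hq
  have hq2 : 2 ≤ q := by
    have h1 : p ≤ p ^ m := Nat.le_self_pow hm p
    have := hp.two_le
    omega
  have hq0 : q ≠ 0 := by omega
  have hXq : PowerSeries.constantCoeff (PowerSeries.X ^ q : PowerSeries B) = 0 := by
    simp [hq0]
  have hP0 : PowerSeries.constantCoeff P = 0 := constantCoeff_mulSeries G p
  have hsP := PowerSeries.HasSubst.of_constantCoeff_zero' hP0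
  have hθ0 : PowerSeries.constantCoeff θ = 0 := hθ.1
  have hsθ := PowerSeries.HasSubst.of_constantCoeff_zero' hθ0
  have hX0 : PowerSeries.constantCoeff (PowerSeries.X : PowerSeries B) = 0 := by simp
  have hidentity : PowerSeries.subst P θ = PowerSeries.subst θ P := hom_mulSeries hθ p
  have main : ∀ l : ℕ, θ - PowerSeries.X ∈ coeffIdeal (I ^ (l + 1)) := by
    intro l
    induction l with
    | zero => simpa using hθX
    | succ l ih =>
      set δ := θ - PowerSeries.X with hδ
      have hθδ : θ = PowerSeries.X + δ := by rw [hδ]; ring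
      have hδ0 : PowerSeries.constantCoeff δ = 0 := by
        rw [hδ, map_sub, hθ0, hX0, sub_zero]
      -- powers
      have hpow : ∀ k : ℕ, θ ^ k - (PowerSeries.X : PowerSeries B) ^ k ∈ coeffIdeal (I ^ (l + 1)) := by
        intro k
        obtain ⟨r, hr⟩ := sub_dvd_pow_sub_pow θ (PowerSeries.X : PowerSeries B) k
        rw [hr]
        exact Ideal.mul_mem_right _ _ ih
      -- (c) : the right hand side
      have hII : I * I ^ (l + 1) = I ^ (l + 2) := (pow_succ' I (l + 1)).symm
      have hII' : I ^ (l + 1) * I = I ^ (l + 2) := (pow_succ I (l + 1)).symm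
      have hc1 : PowerSeries.subst θ P - P ∈ coeffIdeal (I ^ (l + 2)) := by
        -- decomposition
        obtain ⟨P1, hP1⟩ : ∃ P1, P1 = P - PowerSeries.X ^ q := ⟨_, rfl⟩
        have hPP : P = P1 + PowerSeries.X ^ q := by rw [hP1]; ring
        have e1 : PowerSeries.subst θ P = PowerSeries.subst θ P1 + θ ^ q := by
          rw [hPP, PowerSeries.subst_add hsθ, PowerSeries.subst_pow hsθ, PowerSeries.subst_X hsθ]
        have e2 : P = PowerSeries.subst (PowerSeries.X : PowerSeries B) P1 + PowerSeries.X ^ q := by
          rw [PowerSeries.X_subst]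
          exact hPP
        have e3 : PowerSeries.subst θ P - P = (PowerSeries.subst θ P1
            - PowerSeries.subst (PowerSeries.X : PowerSeries B) P1)
            + (θ ^ q - PowerSeries.X ^ q) := by
          rw [e1, e2]
          ring
        rw [e3]
        refine Ideal.add_mem _ ?_ ?_
        · have h := subst_sub_subst_mem hθ0 hX0 (J₀ := I) (J₁ := I ^ (l + 1)) (f := P1)
            (by rw [hP1]; exact hP) hpow
          rwa [hII] at h
        · -- binomial expansion
          have hexp : θ ^ q - (PowerSeries.X : PowerSeries B) ^ q = ∑ j ∈ Finset.range q,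
              δ ^ (j + 1) * PowerSeries.X ^ (q - (j + 1)) * ((q.choose (j + 1) : ℕ) : PowerSeries B) := by
            have h1 : θ = δ + PowerSeries.X := by rw [hδ]; ring
            rw [h1, add_pow, Finset.sum_range_succ']
            simp
          rw [hexp]
          refine Ideal.sum_mem _ fun j hj => ?_
          have hjq : j < q := Finset.mem_range.1 hj
          by_cases hj1 : j + 1 = q
          · -- the top term
            have hδδ : δ * δ ∈ coeffIdeal (I ^ (l + 2)) := by
              have h2 := mul_mem_coeffIdeal ih ih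
              refine coeffIdeal_mono ?_ h2
              rw [← pow_add]
              exact Ideal.pow_le_pow_right (by omega)
            have hpow2 : δ ^ (j + 1) = δ * δ * δ ^ (j + 1 - 2) := by
              have : j + 1 = 2 + (j + 1 - 2) := by omega
              conv_lhs => rw [this, pow_add, pow_two]
            rw [hpow2, mul_assoc, mul_assoc]
            exact Ideal.mul_mem_right _ _ hδδ
          · have hdvd : p ∣ q.choose (j + 1) :=
              hp.dvd_choose_pow (by omega) (by rw [← hq]; exact hj1)
            obtain ⟨t, ht⟩ := hdvd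
            have hmemI : ((q.choose (j + 1) : ℕ) : B) ∈ I := by
              rw [ht, Nat.cast_mul]
              exact I.mul_mem_right _ hpI
            have hC : ((q.choose (j + 1) : ℕ) : PowerSeries B) ∈ coeffIdeal I := by
              have := C_mem_coeffIdeal hmemI
              rwa [map_natCast] at this
            have hmul := mul_mem_coeffIdeal hC ih
            rw [hII] at hmul
            have e4 : δ ^ (j + 1) * PowerSeries.X ^ (q - (j + 1)) * ((q.choose (j + 1) : ℕ) : PowerSeries B)
                = ((q.choose (j + 1) : ℕ) : PowerSeries B) * δ * (δ ^ j * PowerSeries.X ^ (q - (j + 1))) := by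
              rw [pow_succ]
              ring
            rw [e4]
            exact Ideal.mul_mem_right _ _ hmul
      -- (d) : the left hand side
      have hd : PowerSeries.subst P δ - PowerSeries.subst (PowerSeries.X ^ q) δ
          ∈ coeffIdeal (I ^ (l + 2)) := by
        have hk : ∀ k : ℕ, P ^ k - (PowerSeries.X ^ q : PowerSeries B) ^ k ∈ coeffIdeal I := by
          intro k
          obtain ⟨r, hr⟩ := sub_dvd_pow_sub_pow P (PowerSeries.X ^ q : PowerSeries B) k
          rw [hr]
          exact Ideal.mul_mem_right _ _ hP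
        have h := subst_sub_subst_mem hP0 hXq (J₀ := I ^ (l + 1)) (J₁ := I) ih hk
        rwa [hII'] at h
      have hleft : PowerSeries.subst P δ = PowerSeries.subst θ P - P := by
        rw [← hidentity]
        conv_rhs => rw [hθδ, PowerSeries.subst_add hsP, PowerSeries.subst_X hsP]
        ring
      have he : PowerSeries.subst (PowerSeries.X ^ q : PowerSeries B) δ ∈ coeffIdeal (I ^ (l + 2)) := by
        have e5 : PowerSeries.subst (PowerSeries.X ^ q : PowerSeries B) δ
            = PowerSeries.subst P δ - (PowerSeries.subst P δ - PowerSeries.subst (PowerSeries.X ^ q) δ) := by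
          ring
        rw [e5, hleft]
        refine Ideal.sub_mem _ hc1 ?_
        rw [← hleft]
        exact hd
      intro i
      have h1 := he (i * q)
      rw [PowerSeries.coeff_subst_X_pow hq0, if_pos (dvd_mul_left q i),
        Nat.mul_div_cancel i (by omega)] at h1
      exact h1
  have hc : θ - PowerSeries.X ∈ coeffIdeal (⊥ : Ideal B) := by
    refine coeffIdeal_mono ?_ (main c)
    rw [← hI]
    exact Ideal.pow_le_pow_right (by omega)
  ext i
  have := hc i
  rw [map_sub, Ideal.mem_bot, sub_eq_zero] at this
  exact this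

end CoeffIdeal

section ThetaContinuity

variable {p : ℕ} [Fact p.Prime] {n : ℕ}

local notation "𝔪" => maximalIdeal (LTRing p n)

open Crest.Agent.LT.Cont

/-- **Continuity of the `θ`'s** (0e). -/
theorem theta_cont (Γ : FormalGroup (GaloisField p n)) (H : FormalGroup (LTRing p n))
    (hH : IsUniversalDeformation p n Γ H) (hn : n ≠ 0)
    (hΓ : mulSeries Γ p = PowerSeries.X ^ (p ^ n)) (c d : ℕ) :
    ∃ M : ℕ, ∀ (g : PowerSeries (GaloisField p n))
      (φ : LTRing p n →ₐ[WittVector p (GaloisField p n)] LTRing p n) (θ : PowerSeries (LTRing p n)),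
      (∀ i < M, PowerSeries.coeff i g = PowerSeries.coeff i PowerSeries.X) →
      (LTRing.residue p n).comp φ.toRingHom = LTRing.residue p n →
      IsFGHom (H.map φ.toRingHom) H θ →
      PowerSeries.map (LTRing.residue p n) θ = g →
      ∀ i < d, PowerSeries.coeff i θ - PowerSeries.coeff i PowerSeries.X ∈ (𝔪) ^ c := by
  by_cases hc : c = 0
  · subst hc
    exact ⟨0, fun _ _ _ _ _ _ _ i _ => by simp⟩
  by_contra hcon
  push Not at hcon
  choose g φ θ hg hres hθ1 hθ2 i hid hi using hcon
  obtain ⟨S, θs, hS, -, hinf, hlim, hmapX⟩ :=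
    exists_limit_data Γ H hH hc g φ θ hg hres hθ1 hθ2
  -- rigidity over the finite ring
  letI := QB_local (p := p) (n := n) hc
  have hX : PowerSeries.mk θs = PowerSeries.X := by
    refine rigidity (RingHom.ker (rB (p := p) (n := n) hc)) (c := c) ?_ (Fact.out : p.Prime) hn ?_ ?_ hlim ?_
    · rw [rB_ker hc]
      exact QB_maximal_pow hc
    · rw [RingHom.mem_ker, map_natCast]
      exact CharP.cast_eq_zero _ p
    · intro e
      have h2 : PowerSeries.map (rB hc) (mulSeries (H.map (piB p n c).toRingHom) p)
          = PowerSeries.X ^ (p ^ n) := by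
        rw [← mulSeries_map, FormalGroup_map_map, rB_comp, hH.1, hΓ]
      have h3 : rB hc (PowerSeries.coeff e (PowerSeries.X ^ (p ^ n) : PowerSeries (QB p n c)))
          = PowerSeries.coeff e (PowerSeries.X ^ (p ^ n) : PowerSeries (GaloisField p n)) := by
        rw [← PowerSeries.coeff_map]
        simp
      rw [RingHom.mem_ker, map_sub, map_sub, h3, ← PowerSeries.coeff_map, h2, sub_self]
    · intro e
      have h3 : rB hc (PowerSeries.coeff e (PowerSeries.X : PowerSeries (QB p n c)))
          = PowerSeries.coeff e (PowerSeries.X : PowerSeries (GaloisField p n)) := by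
        rw [← PowerSeries.coeff_map]
        simp
      rw [RingHom.mem_ker, map_sub, map_sub, h3, ← PowerSeries.coeff_map, hmapX, sub_self]
  obtain ⟨M, hM⟩ := (hinf d).nonempty
  apply hi M
  have h5 := hM.2 (i M) (hid M)
  have h6 : θs (i M) = PowerSeries.coeff (i M) (PowerSeries.X : PowerSeries (QB p n c)) := by
    rw [← hX, PowerSeries.coeff_mk]
  rw [h6, PowerSeries.coeff_map] at h5
  have h7 : PowerSeries.coeff (i M) (PowerSeries.X : PowerSeries (QB p n c))
      = piB p n c (PowerSeries.coeff (i M) (PowerSeries.X : PowerSeries (LTRing p n))) := by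
    change _ = (piB p n c).toRingHom _
    rw [← PowerSeries.coeff_map]
    simp
  rw [h7] at h5
  exact Ideal.Quotient.eq.1 h5

end ThetaContinuity

end Crest.Agent.LT.ThetaCont
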