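import Mathlib
import Crest.Prelude.Def_LubinTate
import Crest.Agent.Lib.LT.Ring
import Crest.Agent.Lib.LT.Point
import Crest.Agent.Lib.LT.Action
import Crest.Agent.Lib.LT.Cont
import Crest.Agent.Lib.LT.ThetaCont
import Crest.Agent.Lib.LT.HomExt
import Crest.Agent.Lib.LT.Quot
import Crest.Agent.Lib.LT.Transport
import Crest.Agent.Lib.LT.CharPMain

/-!
# S0351: stable primes for the standard law: reduction to the point-level statements

`charP_step`: a stable prime `P ⊇ I_k`, `u_k ∉ P`, `1 ≤ k < n`, is `I_k`; from `CharP.charP_main`.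
-/

set_option autoImplicit false

open Crest.LubinTate IsLocalRing

namespace Crest.Agent.LT

open Crest.Agent.LT.Std Crest.Agent.LT.CharP Crest.Agent.Lib.LT.EvalS

variable {p : ℕ} [Fact p.Prime] {n : ℕ}

local notation "k₀" => GaloisField p n
local notation "W" => WittVector p (GaloisField p n)
local notation "E" => LTRing p n
local notation "rE" => LTRing.residue p n

/-! ### Sums of homomorphisms -/

section FaddHom

variable {R : Type*} [CommRing R]

/-- The formal sum of two homomorphisms into a commutative law is a homomorphism. -/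
theorem isFGHom_fadd_law {F G : FormalGroup R} [G.IsComm] {a b : PowerSeries R} (ha : IsFGHom F G a)
    (hb : IsFGHom F G b) : IsFGHom F G (fadd G.toPowerSeries a b) := by
  have hX0 : MvPowerSeries.constantCoeff (MvPowerSeries.X 0 : MvPowerSeries (Fin 2) R) = 0 := by simp
  have hX1 : MvPowerSeries.constantCoeff (MvPowerSeries.X 1 : MvPowerSeries (Fin 2) R) = 0 := by simp
  refine ⟨constantCoeff_fadd G ha.1 hb.1, ?_⟩
  have h1 := psubst_fadd G.toPowerSeries ha.1 hb.1 F.zero_constantCoeff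
  have h2 := psubst_fadd G.toPowerSeries ha.1 hb.1 hX0
  have h3 := psubst_fadd G.toPowerSeries ha.1 hb.1 hX1
  rw [h1, ha.2, hb.2, h2, h3]
  exact fadd_interchange G (constantCoeff_psubst hX0 ha.1) (constantCoeff_psubst hX1 ha.1)
    (constantCoeff_psubst hX0 hb.1) (constantCoeff_psubst hX1 hb.1)

/-- `X +_F π ≡ X` modulo the order of `π`. -/
theorem coeff_fadd_X {F : FormalGroup R} {π : PowerSeries R} {M : ℕ}
    (hπ0 : PowerSeries.constantCoeff π = 0) (hπ : ∀ i < M, PowerSeries.coeff i π = 0) :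
    ∀ i < M, PowerSeries.coeff i (fadd F.toPowerSeries (PowerSeries.X : PowerSeries R) π) =
      PowerSeries.coeff i (PowerSeries.X : PowerSeries R) := by
  intro i hi
  have hX1 : (PowerSeries.X : PowerSeries R) ∈ ordIdeal Unit R 1 :=
    mem_ordIdeal_one.mpr constantCoeff_PX
  have hπM : π ∈ ordIdeal Unit R M := mem_ordIdeal_iff_coeff.mpr hπ
  have h := fadd_sub_mem_ordIdeal F constantCoeff_PX hπ0 hX1 hπM
  have h2 := mem_ordIdeal_iff_coeff.mp h i (by omega)
  rw [map_sub, map_sub, hπ i hi, sub_zero, sub_eq_zero] at h2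
  exact h2

end FaddHom

/-! ### Automorphisms near the identity -/

theorem isFGAut_aOf_small {M : ℕ} (hM : 2 ≤ M) {π : PowerSeries k₀} (hπ : SmallEnd p n M π) :
    IsFGAut (stdGamma p n) (aOf p n π) := by
  refine ⟨isFGHom_fadd_law (isFGHom_X _) hπ.1, ?_⟩
  have h := coeff_fadd_X (F := stdGamma p n) hπ.1.1 hπ.2 1 (by omega)
  have h2 : PowerSeries.coeff 1 (aOf p n π) = 1 := by
    change PowerSeries.coeff 1 (fadd _ _ _) = 1
    rw [h]
    simp
  rw [h2]
  exact isUnit_one

theorem aOf_congr {M : ℕ} {π : PowerSeries k₀} (hπ : SmallEnd p n M π) :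
    ∀ i < M, PowerSeries.coeff i (aOf p n π) = PowerSeries.coeff i PowerSeries.X :=
  coeff_fadd_X hπ.1.1 hπ.2

theorem SmallEnd.mono {M M' : ℕ} (h : M ≤ M') {π : PowerSeries k₀} (hπ : SmallEnd p n M' π) :
    SmallEnd p n M π :=
  ⟨hπ.1, fun i hi => hπ.2 i (by omega)⟩

/-- The stabilizer data for the standard law. -/
theorem exists_family (hU : IsUniversalDeformation p n (stdGamma p n) (stdLaw p n)) {M : ℕ}
    {P : Ideal E} (hS : IsStableIdeal p n (stdGamma p n) (stdLaw p n) M P)
    (π : PowerSeries k₀) (hπ : SmallEnd p n (max M 2) π) :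
    ∃ (φ : E →ₐ[W] E) (θ : PowerSeries E), IsStabilizerMap p n (stdLaw p n) (aOf p n π) φ ∧
      IsFGHom ((stdLaw p n).map φ.toRingHom) (stdLaw p n) θ ∧
      PowerSeries.map rE θ = aOf p n π ∧ Ideal.comap φ.toRingHom P = P := by
  have ha := isFGAut_aOf_small (le_max_right M 2) hπ
  obtain ⟨φ, hφ⟩ := Action.exists_realise hU ha
  have hst := hS _ φ ha (fun i hi => aOf_congr hπ i (lt_of_lt_of_le hi (le_max_left _ _))) hφ
  obtain ⟨θ, hθ, hθr⟩ := hφ.2
  exact ⟨φ, θ, hφ, hθ, hθr, hst⟩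

/-! ### Norm facts for a point -/

section Point

variable {R : Type*} [NormedField R] [IsUltrametricDist R]

/-- A uniform bound on `m`. -/
theorem exists_rho (χ : E →+* R) (h1 : ∀ a, ‖χ a‖ ≤ 1) (hlt : ∀ a ∈ maximalIdeal E, ‖χ a‖ < 1) :
    ∃ ρ : ℝ, 0 ≤ ρ ∧ ρ < 1 ∧ ∀ a ∈ maximalIdeal E, ‖χ a‖ ≤ ρ := by
  classical
  -- finitely many generators
  let g : Option (Fin (n - 1)) → E := fun o => match o with
    | none => MvPowerSeries.C (p : W)
    | some i => MvPowerSeries.X i
  have hgen : maximalIdeal E = Ideal.span (Set.range g) := by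
    rw [maximalIdeal_eq]
    apply le_antisymm
    · refine sup_le ?_ ?_
      · rw [Ideal.span_singleton_le_iff_mem]
        exact Ideal.subset_span ⟨none, rfl⟩
      · rw [Ideal.span_le]
        rintro _ ⟨i, rfl⟩
        exact Ideal.subset_span ⟨some i, rfl⟩
    · rw [Ideal.span_le]
      rintro _ ⟨o, rfl⟩
      cases o with
      | none => exact Ideal.mem_sup_left (Ideal.mem_span_singleton_self _)
      | some i => exact Ideal.mem_sup_right (Ideal.subset_span ⟨i, rfl⟩)
  have hgm : ∀ o, g o ∈ maximalIdeal E := fun o => by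
    rw [hgen]
    exact Ideal.subset_span ⟨o, rfl⟩
  obtain ⟨o₀, -, ho₀⟩ := Finset.exists_max_image Finset.univ (fun o => ‖χ (g o)‖)
    ⟨none, Finset.mem_univ _⟩
  refine ⟨‖χ (g o₀)‖, norm_nonneg _, hlt _ (hgm o₀), fun a ha => ?_⟩
  rw [hgen] at ha
  refine Submodule.span_induction (p := fun a _ => ‖χ a‖ ≤ ‖χ (g o₀)‖) ?_ ?_ ?_ ?_ ha
  · rintro _ ⟨o, rfl⟩
    exact ho₀ o (Finset.mem_univ _)
  · simp
  · intro x y _ _ hx hy
    rw [map_add]
    exact (IsUltrametricDist.norm_add_le_max _ _).trans (max_le hx hy)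
  · intro c x _ hx
    rw [smul_eq_mul, map_mul, norm_mul]
    calc ‖χ c‖ * ‖χ x‖ ≤ 1 * ‖χ x‖ := by gcongr; exact h1 c
      _ ≤ _ := by rwa [one_mul]

/-- Powers of an ideal. -/
theorem norm_le_of_mem_pow {A : Type*} [CommRing A] (χ : A →+* R) (h1 : ∀ a, ‖χ a‖ ≤ 1) {I : Ideal A}
    {ρ : ℝ} (h0 : 0 ≤ ρ) (hI : ∀ a ∈ I, ‖χ a‖ ≤ ρ) (c : ℕ) : ∀ a ∈ I ^ c, ‖χ a‖ ≤ ρ ^ c := by
  induction c with
  | zero => intro a _; simpa using h1 a
  | succ c ih =>
    intro a ha
    rw [pow_succ] at ha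
    refine Submodule.mul_induction_on ha ?_ ?_
    · intro x hx y hy
      rw [map_mul, norm_mul, pow_succ]
      exact mul_le_mul (ih x hx) (hI y hy) (norm_nonneg _) (pow_nonneg h0 _)
    · intro x y hx hy
      rw [map_add]
      exact (IsUltrametricDist.norm_add_le_max _ _).trans (max_le hx hy)

end Point

/-! ### Factorisation of a point through the stratum -/

section Factor

variable {R : Type*} [NormedField R] [IsUltrametricDist R] [CompleteSpace R]

theorem norm_evK_le {K σ : Type*} [Field K] [Finite K] [Fintype σ] [DecidableEq σ] (ι : K →+* R)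
    (ξ : BallPt σ R) (f : MvPowerSeries σ K) : ‖evK ι ξ f‖ ≤ 1 := by
  rw [evK_apply]
  exact norm_ev_le (fun m => by rw [MvPowerSeries.coeff_map]; exact norm_le_one_of_finite ι _) ξ.2

theorem evK_C {K σ : Type*} [Field K] [Finite K] [Fintype σ] [DecidableEq σ] (ι : K →+* R)
    (ξ : BallPt σ R) (a : K) : evK ι ξ (MvPowerSeries.C a) = ι a := by
  rw [evK_apply]
  simp only [MvPowerSeries.map_C]
  exact ev_C _ _

theorem evK_X {K σ : Type*} [Field K] [Finite K] [Fintype σ] [DecidableEq σ] (ι : K →+* R)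
    (ξ : BallPt σ R) (j : σ) : evK ι ξ (MvPowerSeries.X j) = ξ.1 j := by
  rw [evK_apply]
  simp only [MvPowerSeries.map_X]
  exact ev_X _ _

/-- A bounded ring hom from `E₀` killing `u_i`, `i < k`, factors through the stratum `k`. -/
theorem eq_evK_comp_qE (χ : E →+* R) (h1 : ∀ a, ‖χ a‖ ≤ 1) (hlt : ∀ s, ‖χ (MvPowerSeries.X s)‖ < 1)
    (ιK : k₀ →+* R) (hιK : ∀ a : W, ιK (WittVector.constantCoeff a) = χ (MvPowerSeries.C a))
    {k : ℕ} (hk : 1 ≤ k) (hkill : ∀ i : Fin (n - 1), (i : ℕ) + 1 < k → χ (MvPowerSeries.X i) = 0)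
    (ξ : BallPt (Fin (n - k)) R)
    (hξ : ∀ j, ξ.1 j = χ (MvPowerSeries.X (stratEmb n k hk j))) :
    χ = (evK ιK ξ).comp (qE p n k hk) := by
  refine ringHom_ext_of_bounded _ _ (fun a => ?_) (fun s => ?_) h1 (fun f => norm_evK_le ιK ξ _) hlt
  · rw [RingHom.comp_apply, qE_C, evK_C, hιK]
  · rw [RingHom.comp_apply]
    by_cases hs : (s : ℕ) + 1 < k
    · rw [qE_X_of_lt p n k hk s hs, map_zero, hkill s hs]
    · obtain ⟨j, rfl⟩ := mem_range_stratEmb n k hk s (by omega)
      rw [qE_X_emb, evK_X, hξ]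

end Factor

/-! ### The char `p` stratum -/

/-- Stable primes of the char `p` strata. -/
theorem charP_step (hn : 1 ≤ n) (hU : IsUniversalDeformation p n (stdGamma p n) (stdLaw p n))
    {M : ℕ} {P : Ideal E} (hP : P.IsPrime)
    (hS : IsStableIdeal p n (stdGamma p n) (stdLaw p n) M P)
    {k : ℕ} (hk : 1 ≤ k) (hkn : k < n) (hI : genIdeal p n k ≤ P)
    (hu : (MvPowerSeries.X ⟨k - 1, by omega⟩ : E) ∉ P) : P = genIdeal p n k := by
  classical
  by_contra hne
  obtain ⟨f₀, hf₀P, hf₀I⟩ : ∃ f₀ ∈ P, f₀ ∉ genIdeal p n k := by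
    by_contra hall
    push Not at hall
    exact hne (le_antisymm hall hI)
  have hum : (MvPowerSeries.X ⟨k - 1, by omega⟩ : E) ∈ maximalIdeal E := by
    rw [← residue_ker, RingHom.mem_ker]
    simp [LTRing.residue]
  -- the point
  have := hP
  obtain ⟨R, _i1, _i2, _i3, _i4, χ, hχ1, hχlt, hχP, hχu⟩ := exists_point P _ hum hu
  have hpI : (p : E) ∈ genIdeal p n k := Ideal.subset_span (Or.inl rfl)
  have hp0 : (p : R) = 0 := by
    have := hχP _ (hI hpI)
    rwa [map_natCast] at this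
  have : CharP R p := (CharP.charP_iff_prime_eq_zero (Fact.out : p.Prime)).mpr hp0
  -- the coefficient field
  have hcs : Function.Surjective (WittVector.constantCoeff : W →+* k₀) :=
    WittVector.constantCoeff_surjective p
  have hker : RingHom.ker (WittVector.constantCoeff : W →+* k₀) ≤
      RingHom.ker (χ.comp (MvPowerSeries.C : W →+* E)) := by
    intro a ha
    rw [WittVector.ker_constantCoeff, Ideal.mem_span_singleton] at ha
    obtain ⟨c, rfl⟩ := ha
    rw [RingHom.mem_ker, RingHom.comp_apply, map_mul, map_mul]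
    have : χ (MvPowerSeries.C (p : W)) = (p : R) := by
      rw [map_natCast, map_natCast]
    rw [this, hp0, zero_mul]
  let ιK : k₀ →+* R := (RingHom.liftOfSurjective (WittVector.constantCoeff : W →+* k₀) hcs)
    ⟨χ.comp (MvPowerSeries.C : W →+* E), hker⟩
  have hιK : ∀ a : W, ιK (WittVector.constantCoeff a) = χ (MvPowerSeries.C a) := fun a =>
    RingHom.liftOfRightInverse_comp_apply _ _ _ _ a
  -- the bound on `m`
  obtain ⟨ρ, hρ0, hρ1, hρ⟩ := exists_rho χ hχ1 hχlt
  have hXm : ∀ s : Fin (n - 1), (MvPowerSeries.X s : E) ∈ maximalIdeal E := fun s => by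
    rw [← residue_ker, RingHom.mem_ker]
    simp [LTRing.residue]
  -- membership of the low variables
  have hlow : ∀ i : Fin (n - 1), (i : ℕ) + 1 < k → (MvPowerSeries.X i : E) ∈ P := fun i hi =>
    hI (Ideal.subset_span (Or.inr ⟨i, hi, rfl⟩))
  -- the point `ξ`
  let ball : (Fin (n - k) → R) → Prop := fun x => ‖x‖ < 1
  have hball : ∀ x : Fin (n - k) → R, (∀ j, ‖x j‖ < 1) → ‖x‖ < 1 := fun x hx =>
    (pi_norm_lt_iff one_pos).mpr hx
  let ξ : BallPt (Fin (n - k)) R :=
    ⟨fun j => χ (MvPowerSeries.X (stratEmb n k hk j)), hball _ fun j => hχlt _ (hXm _)⟩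
  have hχξ : χ = (evK ιK ξ).comp (qE p n k hk) :=
    eq_evK_comp_qE χ hχ1 (fun s => hχlt _ (hXm s)) ιK hιK hk
      (fun i hi => hχP _ (hlow i hi)) ξ (fun j => rfl)
  have hξ0 : ξ.1 ⟨0, by omega⟩ ≠ 0 := by
    have h : stratEmb n k hk ⟨0, by omega⟩ = ⟨k - 1, by omega⟩ := by
      ext
      rfl
    change χ (MvPowerSeries.X (stratEmb n k hk ⟨0, by omega⟩)) ≠ 0
    rw [h]
    exact hχu
  -- the function `f`
  have hf : qE p n k hk f₀ ≠ 0 := by
    intro h0
    apply hf₀I
    rw [← ker_qE p n k hk, RingHom.mem_ker]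
    exact h0
  -- the family
  have hfam0 := fun π hπ => exists_family hU hS π hπ
  choose! φ θ hφst hθ hθr hφP using hfam0
  let M₀ := max M 2
  have hφm : ∀ π, SmallEnd p n M₀ π → ∀ a ∈ maximalIdeal E, φ π a ∈ maximalIdeal E := by
    intro π hπ a ha
    rw [← residue_ker, RingHom.mem_ker] at ha ⊢
    have := congrArg (fun F => F a) (hφst π hπ).1
    exact this.trans ha
  let w : PowerSeries k₀ → BallPt (Fin (n - k)) R := fun π =>
    if hπ : SmallEnd p n M₀ π then
      ⟨fun j => χ (φ π (MvPowerSeries.X (stratEmb n k hk j))),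
        hball _ fun j => hχlt _ (hφm π hπ _ (hXm _))⟩
    else ξ
  have hw : ∀ π (hπ : SmallEnd p n M₀ π) j,
      (w π).1 j = χ (φ π (MvPowerSeries.X (stratEmb n k hk j))) := by
    intro π hπ j
    have h : w π = ⟨fun j => χ (φ π (MvPowerSeries.X (stratEmb n k hk j))),
        hball _ fun j => hχlt _ (hφm π hπ _ (hXm _))⟩ := dif_pos hπ
    rw [h]
  -- `χ ∘ φ` factors
  have hχφ : ∀ π, SmallEnd p n M₀ π →
      χ.comp (φ π).toRingHom = (evK ιK (w π)).comp (qE p n k hk) := by
    intro π hπ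
    have hC : ∀ a : W, φ π (MvPowerSeries.C a) = MvPowerSeries.C a := by
      intro a
      have := (φ π).commutes a
      simpa [MvPowerSeries.algebraMap_apply] using this
    refine eq_evK_comp_qE (χ.comp (φ π).toRingHom) (fun a => hχ1 _)
      (fun s => hχlt _ (hφm π hπ _ (hXm s))) ιK
      (fun a => ?_) hk (fun i hi => ?_) (w π) (fun j => hw π hπ j)
    · change _ = χ (φ π (MvPowerSeries.C a))
      rw [hC, hιK]
    · change χ (φ π (MvPowerSeries.X i)) = 0
      apply hχP
      have h2 : (MvPowerSeries.X i : E) ∈ Ideal.comap (φ π).toRingHom P := by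
        rw [hφP π hπ]
        exact hlow i hi
      exact h2
  -- reduction
  have hres : ∀ a : E, ‖χ a - ιK (rE a)‖ ≤ ρ := by
    intro a
    have h3 : a - MvPowerSeries.C (MvPowerSeries.constantCoeff a) ∈ maximalIdeal E := by
      rw [← residue_ker, RingHom.mem_ker, map_sub, sub_eq_zero]
      simp [LTRing.residue]
    have h4 := hρ _ h3
    rw [map_sub, ← hιK] at h4
    exact h4
  -- the stratum laws
  have hstd : ∀ ξ' : BallPt (Fin (n - k)) R, HAt ιK hk ξ' =
      (stdLaw p n).map ((evK ιK ξ').comp (qE p n k hk)) := by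
    intro ξ'
    unfold HAt HW
    rw [map_map_law]
  refine charP_main hk hkn ιK ξ hξ0 (qE p n k hk f₀) hf M₀ w
    (fun π => PowerSeries.map χ (θ π)) ρ hρ1 ?_ ?_
  · intro π hπ
    refine ⟨fun j => ?_, ?_, fun j => ?_, ?_⟩
    · rw [PowerSeries.coeff_map]
      exact hχ1 _
    · have h5 := hom_map χ (hθ π hπ)
      rw [map_map_law] at h5
      have h6 : χ.comp (φ π).toRingHom = (evK ιK (w π)).comp (qE p n k hk) := hχφ π hπ
      rw [h6] at h5
      rw [hstd, hstd, ← hχξ]
      exact h5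
    · rw [PowerSeries.coeff_map, ← hθr π hπ, PowerSeries.coeff_map]
      exact hres _
    · have h7 := congrArg (fun F => F f₀) (hχφ π hπ)
      simp only [RingHom.comp_apply] at h7
      rw [← h7]
      apply hχP
      have h8 : f₀ ∈ Ideal.comap (φ π).toRingHom P := by
        rw [hφP π hπ]
        exact hf₀P
      exact h8
  · intro ε hε B
    obtain ⟨c, hc⟩ : ∃ c : ℕ, ρ ^ c < ε := exists_pow_lt_of_lt_one hε hρ1
    obtain ⟨M₁, hM₁⟩ := Cont.hcont (stdGamma p n) (stdLaw p n) hU c
    obtain ⟨M₂, hM₂⟩ := ThetaCont.theta_cont (stdGamma p n) (stdLaw p n) hU (by omega)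
      (mulSeries_stdGamma p n hn) c (B + 1)
    refine ⟨max M₀ (max M₁ M₂), fun π hπ => ?_⟩
    have hπ₀ : SmallEnd p n M₀ π := SmallEnd.mono (le_max_left _ _) hπ
    have hc1 := aOf_congr hπ
    have hφa := hM₁ _ (φ π) (fun i hi => hc1 i (by omega)) (hφst π hπ₀)
    have hθa := hM₂ _ (φ π) (θ π) (fun i hi => hc1 i (by omega)) (hφst π hπ₀).1 (hθ π hπ₀)
      (hθr π hπ₀)
    constructor
    · refine (pi_norm_lt_iff hε).mpr fun j => ?_
      rw [Pi.sub_apply, hw π hπ₀ j]
      have h9 := hφa (MvPowerSeries.X (stratEmb n k hk j))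
      have h10 := norm_le_of_mem_pow χ hχ1 hρ0 hρ c _ h9
      rw [map_sub] at h10
      exact lt_of_le_of_lt h10 hc
    · intro j hj
      have h11 := hθa j (by omega)
      have h12 := norm_le_of_mem_pow χ hχ1 hρ0 hρ c _ h11
      have h13 : χ (PowerSeries.coeff j (PowerSeries.X : PowerSeries E)) =
          PowerSeries.coeff j (PowerSeries.X : PowerSeries R) := by
        rw [PowerSeries.coeff_X, PowerSeries.coeff_X]
        split_ifs <;> simp
      rw [map_sub, h13] at h12
      rw [PowerSeries.coeff_map]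
      exact lt_of_le_of_lt h12 hc

/-- Stable primes of the standard law, given the char `0` stratum. -/
theorem stable_prime_std_of_charZero (hn : 1 ≤ n)
    (hU : IsUniversalDeformation p n (stdGamma p n) (stdLaw p n))
    {M : ℕ} {P : Ideal E} (hP : P.IsPrime)
    (hS : IsStableIdeal p n (stdGamma p n) (stdLaw p n) M P)
    (h0 : (p : E) ∉ P → P = ⊥) :
    ∃ h, h ≤ n ∧ P = heightIdeal p n (stdLaw p n) h := by
  classical
  by_cases hp : (p : E) ∈ P
  · have h1 : genIdeal p n 1 ≤ P := by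
      rw [genIdeal, Ideal.span_le]
      rintro x (hx | ⟨i, hi, rfl⟩)
      · rw [Set.mem_singleton_iff.mp hx]
        exact hp
      · simp only [Set.mem_ofPred_eq] at hi
        omega
    let k := Nat.findGreatest (fun k => genIdeal p n k ≤ P) n
    have hk1 : 1 ≤ k := Nat.le_findGreatest hn h1
    have hkn : k ≤ n := Nat.findGreatest_le n
    have hkP : genIdeal p n k ≤ P := Nat.findGreatest_of_ne_zero (P := fun k => genIdeal p n k ≤ P)
      rfl (by omega)
    refine ⟨k, hkn, ?_⟩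
    rw [heightIdeal_stdLaw p n hk1 hkn]
    rcases Nat.lt_or_ge k n with hlt | hge
    · refine charP_step hn hU hP hS hk1 hlt hkP fun hu => ?_
      have h2 : genIdeal p n (k + 1) ≤ P := by
        rw [genIdeal_succ p n k hk1 hlt]
        exact sup_le hkP ((Ideal.span_singleton_le_iff_mem _).mpr hu)
      have h3 := Nat.le_findGreatest (P := fun k => genIdeal p n k ≤ P) hlt h2
      omega
    · have hkn' : k = n := le_antisymm hkn hge
      rw [hkn'] at hkP ⊢
      rw [genIdeal_self p n hn] at hkP ⊢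
      exact le_antisymm (le_maximalIdeal hP.ne_top) hkP
  · exact ⟨0, by omega, h0 hp⟩

end Crest.Agent.LT
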