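import Crest.Prelude.Def_LubinTate
import Crest.Agent.Lib.LT.Ring
import Crest.Agent.Lib.LT.EvalS
import Crest.Agent.Lib.LT.HomExt
import Crest.Agent.Lib.LT.Strata

/-!
# The characters `u ↦ χ(T(u))^(p^b)` of `k^×`, and the evaluation at a point of `E₀`
-/

set_option autoImplicit false

open Crest.LubinTate

namespace Crest.Agent.LT.C0Thin

open Crest.Agent.Lib.LT.EvalS (IntS ev)

variable {p : ℕ} [Fact p.Prime] {n : ℕ} {𝕂 : Type*} [NormedField 𝕂]

local notation "k" => GaloisField p n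
local notation "W" => WittVector p (GaloisField p n)
local notation "E" => LTRing p n

/-- `χ(T(u))`, `T` the Teichmüller lift. -/
noncomputable def cc (χ : E →+* 𝕂) (u : kˣ) : 𝕂 :=
  χ (MvPowerSeries.C (WittVector.teichmuller p (u : k)))

theorem residue_teichmuller (c : k) :
    LTRing.residue p n (MvPowerSeries.C (WittVector.teichmuller p c)) = c := by
  simp [LTRing.residue]

theorem galois_pow (hn : 1 ≤ n) (c : k) : c ^ (p ^ n) = c := by
  have hn0 : n ≠ 0 := by omega
  have : Fintype k := Fintype.ofFinite _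
  have h1 := FiniteField.pow_card c
  rw [← Nat.card_eq_fintype_card, GaloisField.card p n hn0] at h1
  exact h1

theorem cc_pow (hn : 1 ≤ n) (χ : E →+* 𝕂) (u : kˣ) : cc χ u ^ (p ^ n) = cc χ u := by
  unfold cc
  rw [← map_pow, ← map_pow, ← map_pow, galois_pow hn]

theorem cc_inj (χ : E →+* 𝕂) {a b : k}
    (h : χ (MvPowerSeries.C (WittVector.teichmuller p a)) =
      χ (MvPowerSeries.C (WittVector.teichmuller p b))) : a = b := by
  by_contra hne
  have h1 : (WittVector.teichmuller p a - WittVector.teichmuller p b : W).coeff 0 ≠ 0 := by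
    have h2 : (WittVector.teichmuller p a - WittVector.teichmuller p b : W).coeff 0 =
        WittVector.constantCoeff (WittVector.teichmuller p a - WittVector.teichmuller p b : W) := rfl
    rw [h2, map_sub]
    simpa [sub_eq_zero] using hne
  have hu : IsUnit (WittVector.teichmuller p a - WittVector.teichmuller p b : W) :=
    WittVector.isUnit_of_coeff_zero_ne_zero _ h1
  have hu2 := (hu.map (MvPowerSeries.C : W →+* E)).map χ
  rw [map_sub, map_sub, sub_eq_zero.mpr h] at hu2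
  exact not_isUnit_zero hu2

/-- The character `u ↦ χ(T u)^(p^b)`. -/
noncomputable def ccHom (χ : E →+* 𝕂) (b : ℕ) : kˣ →* 𝕂 where
  toFun u := cc χ u ^ (p ^ b)
  map_one' := by
    have : cc χ (1 : kˣ) = 1 := by
      unfold cc
      simp
    rw [this, one_pow]
  map_mul' u v := by
    have : cc χ (u * v) = cc χ u * cc χ v := by
      unfold cc
      simp
    rw [this, mul_pow]

theorem ccHom_apply (χ : E →+* 𝕂) (b : ℕ) (u : kˣ) : ccHom χ b u = cc χ u ^ (p ^ b) := rfl

/-- The powers `p ^ b`, `b < n`, are distinct exponents on `k^×`. -/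
theorem units_pow_inj (hn : 1 ≤ n) {a b : ℕ} (hab : a < b) (hb : b < n)
    (h : ∀ u : kˣ, u ^ (p ^ a) = u ^ (p ^ b)) : False := by
  have hpp : p.Prime := Fact.out
  have hp1 : 1 < p := hpp.one_lt
  have hn0 : n ≠ 0 := by omega
  have : Finite kˣ := inferInstance
  obtain ⟨g, hg⟩ := IsCyclic.exists_ofOrder_eq_natCard (α := kˣ)
  have hcard : Nat.card kˣ = p ^ n - 1 := by
    rw [Nat.card_units, GaloisField.card p n hn0]
  have h1 := h g
  rw [pow_eq_pow_iff_modEq, hg, hcard] at h1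
  have h2 : p ^ a ≤ p ^ b := Nat.pow_le_pow_right hpp.pos hab.le
  have h3 : (p ^ n - 1) ∣ p ^ b - p ^ a := (Nat.modEq_iff_dvd' h2).mp h1
  have h4 : p ^ b - p ^ a = p ^ a * (p ^ (b - a) - 1) := by
    rw [Nat.mul_sub, mul_one, ← pow_add]
    congr 2
    omega
  rw [h4] at h3
  have hcop : Nat.Coprime (p ^ n - 1) (p ^ a) := by
    apply Nat.Coprime.pow_right
    rw [Nat.coprime_comm, Nat.Prime.coprime_iff_not_dvd hpp]
    intro hd
    have h5 : p ∣ p ^ n := dvd_pow_self p hn0
    have h6 : p ∣ 1 := by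
      have h7 : 1 ≤ p ^ n := Nat.one_le_pow _ _ hpp.pos
      have := Nat.dvd_sub h5 hd
      rwa [show p ^ n - (p ^ n - 1) = 1 by omega] at this
    exact hpp.one_lt.ne' (Nat.dvd_one.mp h6)
  have h8 : (p ^ n - 1) ∣ p ^ (b - a) - 1 := hcop.dvd_of_dvd_mul_left h3
  have h9 : 1 < p ^ (b - a) := Nat.one_lt_pow (by omega) hp1
  have h10 : p ^ (b - a) < p ^ n := Nat.pow_lt_pow_right hp1 (by omega)
  have h11 := Nat.le_of_dvd (by omega) h8
  omega

theorem ccHom_injective (hn : 1 ≤ n) (χ : E →+* 𝕂) {a b : ℕ} (ha : a < n) (hb : b < n)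
    (h : ccHom χ a = ccHom χ b) : a = b := by
  have key : ∀ {a b : ℕ}, a < b → b < n → ccHom χ a = ccHom χ b → False := by
    intro a b hab hb h
    refine units_pow_inj (p := p) hn hab hb fun u => ?_
    have h1 := congrArg (fun f => f u) h
    simp only [ccHom_apply] at h1
    unfold cc at h1
    rw [← map_pow, ← map_pow, ← map_pow, ← map_pow, ← map_pow, ← map_pow] at h1
    have h2 := cc_inj χ h1
    exact Units.ext (by simpa using h2)
  rcases lt_trichotomy a b with hlt | heq | hgt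
  · exact (key hlt hb h).elim
  · exact heq
  · exact (key hgt ha h.symm).elim

/-- Dedekind independence of the characters `u ↦ χ(T u)^(p^b)`, `b < n`. -/
theorem cc_indep (hn : 1 ≤ n) (χ : E →+* 𝕂) (g : ℕ → 𝕂)
    (hg : ∀ u : kˣ, ∑ b ∈ Finset.range n, g b * cc χ u ^ (p ^ b) = 0) :
    ∀ b, b < n → g b = 0 := by
  intro b hb
  let ch : Fin n → (kˣ →* 𝕂) := fun i => ccHom χ i
  have hinj : Function.Injective ch := fun i j hij =>
    Fin.ext (ccHom_injective hn χ i.2 j.2 hij)
  have hli := (linearIndependent_monoidHom kˣ 𝕂).comp ch hinj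
  refine Fintype.linearIndependent_iff.mp hli (fun i : Fin n => g i) ?_ ⟨b, hb⟩
  funext u
  have h1 := hg u
  rw [← Fin.sum_univ_eq_sum_range (fun b => g b * cc χ u ^ (p ^ b))] at h1
  simpa [ch, ccHom_apply, Finset.sum_apply] using h1

section Eval

variable [IsUltrametricDist 𝕂] [CompleteSpace 𝕂]

/-- The series over `𝕂` obtained from `f` by applying `χ` to the coefficients. -/
noncomputable def mapF (χ : E →+* 𝕂) (f : E) : MvPowerSeries (Fin (n - 1)) 𝕂 :=
  MvPowerSeries.map (χ.comp MvPowerSeries.C) f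

theorem intS_mapF (χ : E →+* 𝕂) (hχ : ∀ a, ‖χ a‖ ≤ 1) (f : E) : IntS (mapF χ f) := by
  intro m
  rw [mapF, MvPowerSeries.coeff_map]
  exact hχ _

/-- A ring hom out of `W(k)` not killing `p` is injective. -/
theorem injective_of_natCast_ne_zero {R : Type*} [Field R] (ι : W →+* R) (hp0 : (p : R) ≠ 0) :
    Function.Injective ι := by
  rw [injective_iff_map_eq_zero]
  intro a ha
  by_contra hne
  obtain ⟨m, b, rfl⟩ := WittVector.exists_eq_pow_p_mul' a hne
  rw [map_mul, map_pow, map_natCast] at ha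
  have h2 : ι (b : W) ≠ 0 := (b.isUnit.map ι).ne_zero
  exact mul_ne_zero (pow_ne_zero _ hp0) h2 ha

omit [CompleteSpace 𝕂] in
/-- A valued field in which `p` has norm `< 1` and is nonzero has characteristic zero. -/
theorem charZero_of_norm_lt (hp0 : (p : 𝕂) ≠ 0) (hp1 : ‖(p : 𝕂)‖ < 1) : CharZero 𝕂 := by
  obtain ⟨c, hc⟩ := CharP.exists 𝕂
  rcases CharP.char_is_prime_or_zero 𝕂 c with hprime | h0
  · exfalso
    have hpp : p.Prime := Fact.out
    have hne : p ≠ c := by
      rintro rfl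
      exact hp0 (CharP.cast_eq_zero 𝕂 p)
    have hcop : Nat.Coprime p c := (Nat.coprime_primes hpp hprime).mpr hne
    obtain ⟨m, hm⟩ := Nat.exists_mul_mod_eq_one_of_coprime hcop hprime.one_lt
    have h1 : ((p * m : ℕ) : 𝕂) = 1 := by
      have h2 : p * m = c * (p * m / c) + 1 := by
        have := Nat.div_add_mod (p * m) c
        omega
      rw [h2]
      push_cast
      rw [CharP.cast_eq_zero 𝕂 c, zero_mul, zero_add]
    have h3 : ‖(p : 𝕂) * (m : 𝕂)‖ = 1 := by
      rw [← Nat.cast_mul, h1, norm_one]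
    rw [norm_mul] at h3
    have h4 : ‖(m : 𝕂)‖ ≤ 1 := IsUltrametricDist.norm_natCast_le_one 𝕂 m
    have h5 : ‖(p : 𝕂)‖ * ‖(m : 𝕂)‖ < 1 :=
      lt_of_le_of_lt (mul_le_of_le_one_right (norm_nonneg _) h4) hp1
    rw [h3] at h5
    exact lt_irrefl _ h5
  · subst h0
    exact CharP.charP_to_charZero 𝕂

theorem mapF_ne_zero (χ : E →+* 𝕂) (hχp : χ (p : E) ≠ 0) {f : E} (hf : f ≠ 0) : mapF χ f ≠ 0 := by
  have hp0 : (p : 𝕂) ≠ 0 := by rwa [map_natCast] at hχp
  have hinj : Function.Injective (χ.comp (MvPowerSeries.C : W →+* E)) :=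
    injective_of_natCast_ne_zero _ hp0
  intro h0
  apply hf
  refine MvPowerSeries.ext fun m => ?_
  have h1 := congrArg (MvPowerSeries.coeff m) h0
  rw [mapF, MvPowerSeries.coeff_map, map_zero] at h1
  rw [map_zero]
  exact hinj (h1.trans (map_zero _).symm)

/-- A `W`-algebra endomorphism `φ` of `E₀` compatible with the residue map, followed by `χ`,
is the evaluation at the point `χ ∘ φ ∘ X`. -/
theorem chi_phi_eq_ev (χ : E →+* 𝕂) (hχ : ∀ a, ‖χ a‖ ≤ 1)
    (hm : ∀ a ∈ IsLocalRing.maximalIdeal E, ‖χ a‖ < 1) (φ : E →ₐ[W] E)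
    (hφ : (LTRing.residue p n).comp φ.toRingHom = LTRing.residue p n) (f : E) :
    χ (φ f) = ev (mapF χ f) (fun i => χ (φ (MvPowerSeries.X i))) := by
  classical
  let x : Fin (n - 1) → 𝕂 := fun i => χ (φ (MvPowerSeries.X i))
  have hXm : ∀ s : Fin (n - 1), φ (MvPowerSeries.X s : E) ∈ IsLocalRing.maximalIdeal E := fun s => by
    rw [← Crest.Agent.LT.residue_ker, RingHom.mem_ker]
    have h1 := congrArg (fun F => F (MvPowerSeries.X s : E)) hφ
    refine h1.trans ?_
    simp [LTRing.residue]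
  have hx1 : ∀ s, ‖x s‖ < 1 := fun s => hm _ (hXm s)
  have hx : ‖x‖ < 1 := (pi_norm_lt_iff one_pos).mpr hx1
  have hint : ∀ f : E, IntS (mapF χ f) := intS_mapF χ hχ
  let χ₂ : E →+* 𝕂 :=
    { toFun := fun f => ev (mapF χ f) x
      map_one' := by
        have : mapF χ (1 : E) = 1 := by simp [mapF]
        rw [this]; exact Crest.Agent.Lib.LT.EvalS.ev_one _
      map_mul' := fun f g => by
        have : mapF χ (f * g) = mapF χ f * mapF χ g := by simp [mapF]
        rw [this]; exact Crest.Agent.Lib.LT.EvalS.ev_mul (hint f) (hint g) hx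
      map_zero' := by
        have : mapF χ (0 : E) = 0 := by simp [mapF]
        rw [this]; exact Crest.Agent.Lib.LT.EvalS.ev_zero _
      map_add' := fun f g => by
        have : mapF χ (f + g) = mapF χ f + mapF χ g := by simp [mapF]
        rw [this]; exact Crest.Agent.Lib.LT.EvalS.ev_add (hint f) (hint g) hx }
  have key : χ.comp φ.toRingHom = χ₂ := by
    refine Crest.Agent.LT.ringHom_ext_of_bounded _ _ (fun a => ?_) (fun s => ?_) (fun f => hχ _)
      (fun f => Crest.Agent.Lib.LT.EvalS.norm_ev_le (hint f) hx) (fun s => hx1 s)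
    · have hC : φ (MvPowerSeries.C a) = MvPowerSeries.C a := by
        have := φ.commutes a
        simpa [MvPowerSeries.algebraMap_apply] using this
      change χ (φ (MvPowerSeries.C a)) = ev (mapF χ (MvPowerSeries.C a)) x
      rw [hC, mapF, MvPowerSeries.map_C, Crest.Agent.Lib.LT.EvalS.ev_C]
      rfl
    · change χ (φ (MvPowerSeries.X s)) = ev (mapF χ (MvPowerSeries.X s)) x
      rw [mapF, MvPowerSeries.map_X, Crest.Agent.Lib.LT.EvalS.ev_X]
  exact congrArg (fun F => F f) key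

/-- the norm of `χ` on powers of the maximal ideal. -/
theorem exists_rho (χ : E →+* 𝕂) (hχ : ∀ a, ‖χ a‖ ≤ 1)
    (hm : ∀ a ∈ IsLocalRing.maximalIdeal E, ‖χ a‖ < 1) :
    ∃ ρ : ℝ, 0 ≤ ρ ∧ ρ < 1 ∧ ∀ (c : ℕ), ∀ a ∈ IsLocalRing.maximalIdeal E ^ c, ‖χ a‖ ≤ ρ ^ c := by
  obtain ⟨ρ, hρ0, hρ1, hρ⟩ := Crest.Agent.LT.exists_rho χ hχ hm
  exact ⟨ρ, hρ0, hρ1, fun c => Crest.Agent.LT.norm_le_of_mem_pow χ hχ hρ0 hρ c⟩

end Eval

end Crest.Agent.LT.C0Thin
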