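import Crest.Agent.Lib.LT.C0Tower

/-!
# Linear algebra of the functionals `Z_c` (section (1f) of the proof of S0351)

* `Zc_mul_n`, `Zc_mod`;
* `exists_tower`: a tower with `Z_0 ≠ 0` (`q ≥ 3`);
* `functional_vanish`: a linear relation among the `Z_b`, `b < n`, valid for all towers, is trivial;
* `shiftL`, `Zc_add_shift`, `span_vanish`: the vectors `L(c, j, y)`, `j < n`, span.
-/

namespace Crest.Agent.Lib.LT.C0

open MvPolynomial Filter Topology
open Crest.Agent.Lib.LT.Eval1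

set_option linter.unusedSectionVars false

variable {p : ℕ} [hp : Fact p.Prime] {n : ℕ} {𝕂 : Type*} [NormedField 𝕂] [IsUltrametricDist 𝕂]
  [CharZero 𝕂] [CompleteSpace 𝕂]

lemma Zc_mul_n {x : ℕ → 𝕂} (hx : IsTower p n x) (c s : ℕ) :
    Zc p n x (c + n * s) = (p : 𝕂) ^ s * Zc p n x c := by
  induction s with
  | zero => simp
  | succ s ih =>
    have : c + n * (s + 1) = (c + n * s) + n := by ring
    rw [this, Zc_add_n hx, ih, pow_succ]
    ring

lemma Zc_mod (hn : 1 ≤ n) {x : ℕ → 𝕂} (hx : IsTower p n x) (m : ℕ) :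
    Zc p n x m = (p : 𝕂) ^ (m / n) * Zc p n x (m % n) := by
  have h := Zc_mul_n hx (m % n) (m / n)
  rwa [Nat.mod_add_div] at h

/-- The matrix of `Z_(j+b)` in terms of `Z_(b')`, `b' < n`. -/
noncomputable def shiftL (p n : ℕ) (𝕂 : Type*) [NormedField 𝕂] (j b b' : ℕ) : 𝕂 :=
  if (j + b) % n = b' then (p : 𝕂) ^ ((j + b) / n) else 0

lemma sum_shiftL (hn : 1 ≤ n) (j b : ℕ) (g : ℕ → 𝕂) :
    ∑ b' ∈ Finset.range n, g b' * shiftL p n 𝕂 j b b' =
      g ((j + b) % n) * (p : 𝕂) ^ ((j + b) / n) := by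
  have hlt : (j + b) % n < n := Nat.mod_lt _ hn
  rw [Finset.sum_eq_single ((j + b) % n)]
  · simp [shiftL]
  · intro b' _ hb'
    simp [shiftL, Ne.symm hb']
  · intro h
    exact absurd (Finset.mem_range.2 hlt) h

lemma Zc_add_shift (hn : 1 ≤ n) {x : ℕ → 𝕂} (hx : IsTower p n x) (j b : ℕ) :
    Zc p n x (j + b) = ∑ b' ∈ Finset.range n, shiftL p n 𝕂 j b b' * Zc p n x b' := by
  have := sum_shiftL (p := p) (𝕂 := 𝕂) hn j b (Zc p n x)
  simp only [mul_comm (Zc p n x _)] at this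
  rw [this, Zc_mod hn hx (j + b)]

section Tower

variable [IsAlgClosed 𝕂]

/-- Compatible systems of `q`-th roots. -/
theorem exists_root_tower (hq : 0 < p ^ n) (a : 𝕂) :
    ∃ x : ℕ → 𝕂, x 0 = a ∧ ∀ N, x (N + 1) ^ (p ^ n) = x N := by
  choose r hr using fun b : 𝕂 => IsAlgClosed.exists_pow_nat_eq b hq
  refine ⟨fun N => Nat.rec a (fun _ y => r y) N, rfl, fun N => hr _⟩

/-- A tower with `Z_0 ≠ 0`. -/
theorem exists_tower (hn : 2 ≤ n) (hε : ‖(p : 𝕂)‖ < 1) :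
    ∃ x : ℕ → 𝕂, IsTower p n x ∧ Zc p n x 0 ≠ 0 := by
  have hn1 : 1 ≤ n := by omega
  have hp2 := hp.out.two_le
  have hε0 := norm_p_pos (p := p) (𝕂 := 𝕂)
  set ε := ‖(p : 𝕂)‖ with hεdef
  have hq0 : 0 < p ^ n := pow_pos hp.out.pos _
  have hq4 : 4 ≤ p ^ n := by
    calc 4 = 2 ^ 2 := by norm_num
      _ ≤ p ^ 2 := Nat.pow_le_pow_left hp2 2
      _ ≤ p ^ n := Nat.pow_le_pow_right hp.out.pos hn
  obtain ⟨x, hx0, hxp⟩ := exists_root_tower (p := p) (n := n) hq0 (p : 𝕂)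
  have hx : IsTower p n x := ⟨hxp, by rw [hx0]; exact hε⟩
  refine ⟨x, hx, ?_⟩
  -- the bound on the other terms
  set δ : ℝ := ε * max ε ‖x 1‖ with hδ
  have hx1 : ‖x 1‖ < 1 := hx.norm_lt 1
  have hmax : max ε ‖x 1‖ < 1 := max_lt hε hx1
  have hδε : δ < ε := by
    rw [hδ]
    nlinarith [le_max_left ε ‖x 1‖]
  have hδ0 : 0 ≤ δ := by rw [hδ]; positivity
  have hterm : ∀ t : ℤ, t ≠ 0 → ‖(p : 𝕂) ^ (-t) * yy p n x t ^ (p ^ 0)‖ ≤ δ := by
    intro t ht
    rw [pow_zero, pow_one, norm_mul, norm_zpow]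
    obtain ⟨k, rfl | rfl⟩ := t.eq_nat_or_neg
    · -- positive `t = k`
      have hk : 1 ≤ k := by
        rcases k with _ | k
        · simp at ht
        · omega
      rw [yy_natCast, hx0, norm_pow, zpow_neg, zpow_natCast]
      have h1 : k + 2 ≤ (p ^ n) ^ k := by
        have h2 : k + 2 ≤ 4 ^ k := by
          induction k, hk using Nat.le_induction with
          | base => norm_num
          | succ k hk ih =>
            rw [pow_succ]
            omega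
        exact h2.trans (Nat.pow_le_pow_left hq4 k)
      have h3 : ε ^ ((p ^ n) ^ k) ≤ ε ^ (k + 2) := pow_le_pow_of_le_one hε0.le hε.le h1
      have h4 : (ε ^ k)⁻¹ * ε ^ ((p ^ n) ^ k) ≤ (ε ^ k)⁻¹ * ε ^ (k + 2) :=
        mul_le_mul_of_nonneg_left h3 (by positivity)
      have h5 : (ε ^ k)⁻¹ * ε ^ (k + 2) = ε * ε := by
        rw [pow_add]
        field_simp
      rw [← hεdef]
      refine h4.trans ?_
      rw [h5, hδ]
      exact mul_le_mul_of_nonneg_left (le_max_left _ _) hε0.le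
    · -- negative
      have hk : 1 ≤ k := by
        rcases k with _ | k
        · simp at ht
        · omega
      rw [yy_neg_nat, neg_neg, zpow_natCast, ← hεdef, hδ]
      have hxk : ‖x k‖ < 1 := hx.norm_lt k
      rcases Nat.lt_or_ge k 2 with h2 | h2
      · have : k = 1 := by omega
        subst this
        rw [pow_one]
        exact mul_le_mul_of_nonneg_left (le_max_right _ _) hε0.le
      · have h3 : ε ^ k ≤ ε ^ 2 := pow_le_pow_of_le_one hε0.le hε.le h2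
        calc ε ^ k * ‖x k‖ ≤ ε ^ 2 * 1 :=
              mul_le_mul h3 hxk.le (norm_nonneg _) (by positivity)
          _ = ε * ε := by ring
          _ ≤ ε * max ε ‖x 1‖ := mul_le_mul_of_nonneg_left (le_max_left _ _) hε0.le
  -- the sum
  have hs := Zc_summable hn1 hε hx 0
  intro hZ
  have h1 := hs.tsum_eq_add_tsum_ite (0 : ℤ)
  have h2 : ‖∑' t : ℤ, (if t = 0 then (0 : 𝕂) else (p : 𝕂) ^ (-t) * yy p n x t ^ (p ^ 0))‖ ≤ δ := by
    apply norm_tsum_le hδ0
    intro t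
    split_ifs with h
    · simpa using hδ0
    · exact hterm t h
  have h3 : (p : 𝕂) ^ (-(0 : ℤ)) * yy p n x 0 ^ (p ^ 0) = (p : 𝕂) := by
    rw [yy_zero, hx0]
    simp
  rw [h3] at h1
  have h4 : (p : 𝕂) = - ∑' t : ℤ, (if t = 0 then (0 : 𝕂) else (p : 𝕂) ^ (-t) * yy p n x t ^ (p ^ 0)) := by
    have h5 : Zc p n x 0 = ∑' t : ℤ, (p : 𝕂) ^ (-t) * yy p n x t ^ (p ^ 0) := rfl
    rw [h5] at hZ
    rw [hZ] at h1
    linear_combination -h1
  have h6 : ε ≤ δ := by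
    rw [hεdef, h4, norm_neg]
    exact h2
  linarith

/-- A relation among the `Z_b`, valid for all towers, is trivial. -/
theorem functional_vanish (hn : 2 ≤ n) (hε : ‖(p : 𝕂)‖ < 1)
    {ι : Type*} (c : ι → 𝕂) (hc : ∀ i, c i ^ (p ^ n) = c i) (hc1 : ∀ i, ‖c i‖ ≤ 1)
    (hind : ∀ g : ℕ → 𝕂, (∀ i, ∑ b ∈ Finset.range n, g b * c i ^ (p ^ b) = 0) →
      ∀ b, b < n → g b = 0)
    (G : ℕ → 𝕂)
    (hG : ∀ x : ℕ → 𝕂, IsTower p n x → ∑ b ∈ Finset.range n, G b * Zc p n x b = 0) :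
    ∀ b, b < n → G b = 0 := by
  obtain ⟨x, hx, hZ⟩ := exists_tower (p := p) (𝕂 := 𝕂) hn hε
  intro b₀ hb₀
  have h1 := hind (fun b => G b * Zc p n x ((n - b₀) + b)) (by
    intro i
    have h2 := hG _ (hx.twist (hc i) (hc1 i) (n - b₀))
    simp only [Zc_twist (hc i)] at h2
    rw [← h2]
    apply Finset.sum_congr rfl
    intro b _
    ring) b₀ hb₀
  have h3 : (n - b₀) + b₀ = 0 + n := by omega
  rw [h3, Zc_add_n hx] at h1
  have hp0 : (p : 𝕂) ≠ 0 := p_ne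
  rcases mul_eq_zero.1 h1 with h | h
  · exact h
  · exact absurd h (mul_ne_zero hp0 hZ)

end Tower

/-- The vectors `L(c, j, y)`, `j < n`, span. -/
theorem span_vanish (hn : 1 ≤ n) {ι : Type*} (c : ι → 𝕂)
    (hind : ∀ g : ℕ → 𝕂, (∀ i, ∑ b ∈ Finset.range n, g b * c i ^ (p ^ b) = 0) →
      ∀ b, b < n → g b = 0)
    (y : ℕ → 𝕂) {b₁ : ℕ} (hb₁ : b₁ < n) (hy : y b₁ ≠ 0) (g : ℕ → 𝕂)
    (hg : ∀ i, ∀ j, j < n → ∑ b' ∈ Finset.range n, g b' *
      ∑ b ∈ Finset.range n, y b * c i ^ (p ^ b) * shiftL p n 𝕂 j b b' = 0) :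
    ∀ b', b' < n → g b' = 0 := by
  intro b' hb'
  set j := (b' + n - b₁) % n with hj
  have hjn : j < n := Nat.mod_lt _ hn
  have hjb : (j + b₁) % n = b' := by
    rw [hj, Nat.mod_add_mod]
    have : b' + n - b₁ + b₁ = b' + n := by omega
    rw [this, Nat.add_mod_right, Nat.mod_eq_of_lt hb']
  have h1 := hind (fun b => y b * ∑ b' ∈ Finset.range n, g b' * shiftL p n 𝕂 j b b') (by
    intro i
    have h2 := hg i j hjn
    rw [← h2]
    simp only [Finset.sum_mul, Finset.mul_sum]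
    rw [Finset.sum_comm]
    apply Finset.sum_congr rfl
    intro b _
    apply Finset.sum_congr rfl
    intro b'' _
    ring) b₁ hb₁
  rw [sum_shiftL hn, hjb] at h1
  have hp0 : (p : 𝕂) ≠ 0 := p_ne
  rcases mul_eq_zero.1 h1 with h | h
  · exact absurd h hy
  · rcases mul_eq_zero.1 h with h | h
    · exact h
    · exact absurd h (pow_ne_zero _ hp0)

end Crest.Agent.Lib.LT.C0
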