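import Crest.Agent.Lib.LT.C0Gauss
import Crest.Agent.Lib.LT.EvalS

/-!
# The tangent form of a bounded power series at a point of the open polydisc

For `F ≠ 0` with coefficients of norm `≤ 1` and `ξ` in the open polydisc there is a nonzero
polynomial `Q`, homogeneous of degree `d`, with `F(ξ + δ) = Q(δ) + O(‖δ‖^(d+1))`.
-/

namespace Crest.Agent.Lib.LT.C0

open MvPolynomial Filter Topology
open Crest.Agent.Lib.LT.EvalS (IntS ev mono lowDeg mem_lowDeg norm_ev_sub_trS_le)

set_option linter.unusedSectionVars false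

variable {𝕂 : Type*} [NormedField 𝕂] [IsUltrametricDist 𝕂] {σ : Type*}

/-- Translation `g ↦ g(X + ξ)`. -/
noncomputable def trn (ξ : σ → 𝕂) : MvPolynomial σ 𝕂 →ₐ[𝕂] MvPolynomial σ 𝕂 :=
  aeval (fun i => X i + MvPolynomial.C (ξ i))

lemma eval_trn (ξ δ : σ → 𝕂) (g : MvPolynomial σ 𝕂) :
    eval δ (trn ξ g) = eval (fun i => ξ i + δ i) g := by
  induction g using MvPolynomial.induction_on with
  | C a => simp [trn]
  | add f g hf hg => simp only [map_add, hf, hg]
  | mul_X f i hf =>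
    simp only [map_mul, hf]
    simp [trn, add_comm]

lemma trn_neg_trn (ξ : σ → 𝕂) (g : MvPolynomial σ 𝕂) : trn (fun i => - ξ i) (trn ξ g) = g := by
  induction g using MvPolynomial.induction_on with
  | C a => simp [trn]
  | add f g hf hg => simp only [map_add, hf, hg]
  | mul_X f i hf =>
    simp only [map_mul, hf]
    simp [trn]

lemma GB_prod {r : ℝ} (hr : 0 < r) {f : σ → MvPolynomial σ 𝕂} (hf : ∀ i, GB r (f i) r)
    (s : σ →₀ ℕ) : GB r (s.prod fun i k => f i ^ k) (r ^ s.degree) := by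
  classical
  induction s using Finsupp.induction_linear with
  | zero => simpa using GB.one
  | add a b ha hb =>
    rw [Finsupp.prod_add_index' (by simp) (by intros; exact pow_add _ _ _), map_add, pow_add]
    exact ha.mul hb hr
  | single i k =>
    rw [Finsupp.prod_single_index (by simp), Finsupp.degree_single]
    exact (hf i).pow hr k

lemma GB_trn {r K : ℝ} (hr : 0 < r) {ξ : σ → 𝕂} (hξ : ∀ i, ‖ξ i‖ ≤ r) {g : MvPolynomial σ 𝕂}
    (hg : GB r g K) : GB r (trn ξ g) K := by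
  classical
  have hK := hg.nonneg hr.le
  rw [← MvPolynomial.support_sum_monomial_coeff g, map_sum]
  apply GB.sum _ hr.le hK
  intro α _
  have h1 : ∀ i, GB r (X i + MvPolynomial.C (ξ i) : MvPolynomial σ 𝕂) r := fun i =>
    (GB.X hr.le i).add (GB.const (hξ i) hr.le) hr.le
  have h2 := GB_prod hr h1 α
  rw [trn, aeval_monomial]
  have h3 := h2.C_mul (c := coeff α g)
  refine GB.mono ?_ (hg α)
  simpa [MvPolynomial.algebraMap_eq] using h3

variable [Fintype σ] [CompleteSpace 𝕂]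

/-- polynomial truncation. -/
noncomputable def truncP (F : MvPowerSeries σ 𝕂) (D : ℕ) : MvPolynomial σ 𝕂 :=
  ∑ m ∈ lowDeg σ D, monomial m (MvPowerSeries.coeff m F)

lemma coeff_truncP (F : MvPowerSeries σ 𝕂) (D : ℕ) (m : σ →₀ ℕ) :
    coeff m (truncP F D) = if m.degree < D then MvPowerSeries.coeff m F else 0 := by
  classical
  simp only [truncP, coeff_sum, coeff_monomial]
  rw [Finset.sum_ite_eq']
  simp [mem_lowDeg]

lemma eval_truncP (F : MvPowerSeries σ 𝕂) (D : ℕ) (x : σ → 𝕂) :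
    eval x (truncP F D) = ∑ m ∈ lowDeg σ D, MvPowerSeries.coeff m F * mono x m := by
  simp only [truncP, map_sum, eval_monomial, mono]

lemma GB_truncP_sub {F : MvPowerSeries σ 𝕂} (hF : IntS F) {r : ℝ} (hr0 : 0 < r) (hr1 : r ≤ 1)
    {D D' : ℕ} (hD : D ≤ D') : GB r (truncP F D' - truncP F D) (r ^ D) := by
  intro α
  rw [coeff_sub, coeff_truncP, coeff_truncP]
  by_cases h1 : α.degree < D
  · rw [if_pos h1, if_pos (h1.trans_le hD), sub_self, norm_zero, zero_mul]
    positivity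
  · rw [if_neg h1, sub_zero]
    split_ifs with h2
    · have h3 : r ^ α.degree ≤ r ^ D := pow_le_pow_of_le_one hr0.le hr1 (by omega)
      have h4 := hF α
      calc ‖MvPowerSeries.coeff α F‖ * r ^ α.degree ≤ 1 * r ^ D :=
            mul_le_mul h4 h3 (by positivity) zero_le_one
        _ = r ^ D := one_mul _
    · rw [norm_zero, zero_mul]
      positivity

lemma GB_truncP {F : MvPowerSeries σ 𝕂} (hF : IntS F) {r : ℝ} (hr0 : 0 < r) (hr1 : r ≤ 1) (D : ℕ) :
    GB r (truncP F D) 1 := by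
  intro α
  rw [coeff_truncP]
  have h3 : r ^ α.degree ≤ 1 := pow_le_one₀ hr0.le hr1
  split_ifs
  · exact mul_le_one₀ (hF α) (by positivity) h3
  · simp

/-- The Taylor coefficients at `ξ`. -/
noncomputable def tcoeff (F : MvPowerSeries σ 𝕂) (ξ : σ → 𝕂) (β : σ →₀ ℕ) : 𝕂 :=
  limUnder atTop (fun D : ℕ => coeff β (trn ξ (truncP F D)))

lemma GB.coeff_le {r K : ℝ} (hr : 0 < r) {g : MvPolynomial σ 𝕂} (hg : GB r g K) (β : σ →₀ ℕ) :
    ‖coeff β g‖ ≤ K / r ^ β.degree := by
  rw [le_div_iff₀ (pow_pos hr _)]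
  exact hg β

section
variable {F : MvPowerSeries σ 𝕂} {ξ : σ → 𝕂} {r : ℝ}

lemma tcoeff_tendsto (hF : IntS F) (hr0 : 0 < r) (hr1 : r < 1) (hξ : ∀ i, ‖ξ i‖ ≤ r) (β : σ →₀ ℕ) :
    Tendsto (fun D : ℕ => coeff β (trn ξ (truncP F D))) atTop (𝓝 (tcoeff F ξ β)) := by
  have hc : CauchySeq (fun D : ℕ => coeff β (trn ξ (truncP F D))) := by
    rw [Metric.cauchySeq_iff']
    intro η hη
    have hlim : Tendsto (fun D : ℕ => r ^ D / r ^ β.degree) atTop (𝓝 0) := by
      simpa using (tendsto_pow_atTop_nhds_zero_of_lt_one hr0.le hr1).div_const (r ^ β.degree)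
    obtain ⟨D₀, hD₀⟩ := (hlim.eventually (gt_mem_nhds hη)).exists
    refine ⟨D₀, fun D hD => ?_⟩
    rw [dist_eq_norm, ← coeff_sub, ← map_sub]
    have h1 := GB_trn hr0 hξ (GB_truncP_sub hF hr0 hr1.le hD)
    exact (GB.coeff_le hr0 h1 β).trans_lt hD₀
  obtain ⟨a, ha⟩ := cauchySeq_tendsto_of_complete hc
  exact tendsto_nhds_limUnder ⟨a, ha⟩

lemma tcoeff_dist (hF : IntS F) (hr0 : 0 < r) (hr1 : r < 1) (hξ : ∀ i, ‖ξ i‖ ≤ r) (β : σ →₀ ℕ)
    (D : ℕ) : ‖coeff β (trn ξ (truncP F D)) - tcoeff F ξ β‖ * r ^ β.degree ≤ r ^ D := by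
  have h1 := ((tendsto_const_nhds (x := coeff β (trn ξ (truncP F D)))).sub
    (tcoeff_tendsto hF hr0 hr1 hξ β)).norm.mul_const (r ^ β.degree)
  refine le_of_tendsto h1 ?_
  filter_upwards [eventually_ge_atTop D] with D' hD'
  rw [norm_sub_rev, ← coeff_sub, ← map_sub]
  exact GB_trn hr0 hξ (GB_truncP_sub hF hr0 hr1.le hD') β

lemma tcoeff_norm (hF : IntS F) (hr0 : 0 < r) (hr1 : r < 1) (hξ : ∀ i, ‖ξ i‖ ≤ r) (β : σ →₀ ℕ) :
    ‖tcoeff F ξ β‖ * r ^ β.degree ≤ 1 := by
  have h1 := (tcoeff_tendsto hF hr0 hr1 hξ β).norm.mul_const (r ^ β.degree)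
  refine le_of_tendsto h1 (Eventually.of_forall fun D => ?_)
  exact GB_trn hr0 hξ (GB_truncP hF hr0 hr1.le D) β

/-- Translation preserves nonvanishing. -/
lemma exists_tcoeff_ne (hF : IntS F) (hF0 : F ≠ 0) (hr0 : 0 < r) (hr1 : r < 1)
    (hξ : ∀ i, ‖ξ i‖ ≤ r) : ∃ β, tcoeff F ξ β ≠ 0 := by
  classical
  by_contra hcon
  push Not at hcon
  obtain ⟨α, hα⟩ : ∃ α, MvPowerSeries.coeff α F ≠ 0 := by
    by_contra h
    push Not at h
    exact hF0 (MvPowerSeries.ext fun m => by simpa using h m)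
  have hg0 : 0 < ‖MvPowerSeries.coeff α F‖ * r ^ α.degree :=
    mul_pos (norm_pos_iff.2 hα) (pow_pos hr0 _)
  have hlim := tendsto_pow_atTop_nhds_zero_of_lt_one hr0.le hr1
  have hev := (hlim.eventually (gt_mem_nhds hg0)).and (eventually_gt_atTop α.degree)
  obtain ⟨D, hD, hDα⟩ := hev.exists
  have h1 : GB r (trn ξ (truncP F D)) (r ^ D) := by
    intro β
    have := tcoeff_dist hF hr0 hr1 hξ β D
    rwa [hcon β, sub_zero] at this
  have hξ' : ∀ i, ‖- ξ i‖ ≤ r := fun i => by rw [norm_neg]; exact hξ i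
  have h2 := GB_trn hr0 hξ' h1
  rw [trn_neg_trn] at h2
  have h3 := h2 α
  rw [coeff_truncP, if_pos hDα] at h3
  linarith

end

/-- The tangent form of `F` at `ξ`. -/
theorem exists_tangent_form {F : MvPowerSeries σ 𝕂} (hF : IntS F) (hF0 : F ≠ 0) {ξ : σ → 𝕂}
    (hξ : ∀ i, ‖ξ i‖ < 1) :
    ∃ (Q : MvPolynomial σ 𝕂) (d : ℕ) (r : ℝ), Q ≠ 0 ∧
      (∀ (c : 𝕂) (u : σ → 𝕂), eval (fun i => c * u i) Q = c ^ d * eval u Q) ∧
      0 < r ∧ r < 1 ∧ (∀ i, ‖ξ i‖ ≤ r) ∧
      ∀ (t : ℝ) (δ : σ → 𝕂), 0 ≤ t → t ≤ r → (∀ i, ‖δ i‖ ≤ t) →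
        ‖ev F (fun i => ξ i + δ i) - eval δ Q‖ ≤ (t / r) ^ (d + 1) := by
  classical
  have hprod : ∀ (c : 𝕂) (u : σ → 𝕂) (β : σ →₀ ℕ),
      (β.prod fun i e => (c * u i) ^ e) = c ^ β.degree * β.prod fun i e => u i ^ e := by
    intro c u β
    induction β using Finsupp.induction_linear with
    | zero => simp
    | add a b ha hb =>
      rw [Finsupp.prod_add_index' (by simp) (by intros; exact pow_add _ _ _),
        Finsupp.prod_add_index' (by simp) (by intros; exact pow_add _ _ _), ha, hb, map_add,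
        pow_add]
      ring
    | single i k =>
      rw [Finsupp.prod_single_index (by simp), Finsupp.prod_single_index (by simp),
        Finsupp.degree_single, mul_pow]
  -- radius
  obtain ⟨r, hr0, hr1, hξr⟩ : ∃ r : ℝ, 0 < r ∧ r < 1 ∧ ∀ i, ‖ξ i‖ ≤ r := by
    by_cases hne : Nonempty σ
    · obtain ⟨i₀, hi₀⟩ := Finite.exists_max (fun i => ‖ξ i‖)
      exact ⟨max (1 / 2) ‖ξ i₀‖, by positivity, max_lt (by norm_num) (hξ i₀),
        fun i => le_max_of_le_right (hi₀ i)⟩
    · exact ⟨1 / 2, by norm_num, by norm_num, fun i => (hne ⟨i⟩).elim⟩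
  have hex : ∃ d : ℕ, ∃ β : σ →₀ ℕ, β.degree = d ∧ tcoeff F ξ β ≠ 0 := by
    obtain ⟨β, hβ⟩ := exists_tcoeff_ne hF hF0 hr0 hr1 hξr
    exact ⟨_, β, rfl, hβ⟩
  set d := Nat.find hex with hd
  obtain ⟨β₀, hβ₀d, hβ₀⟩ := Nat.find_spec hex
  have hmin : ∀ β : σ →₀ ℕ, β.degree < d → tcoeff F ξ β = 0 := by
    intro β hβ
    by_contra hne
    exact Nat.find_min hex hβ ⟨β, rfl, hne⟩
  let Q : MvPolynomial σ 𝕂 := ∑ β ∈ lowDeg σ (d + 1),
    if β.degree = d then monomial β (tcoeff F ξ β) else 0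
  have hQc : ∀ β, coeff β Q = if β.degree = d then tcoeff F ξ β else 0 := by
    intro β
    simp only [Q, coeff_sum]
    have : ∀ γ ∈ lowDeg σ (d + 1), coeff β (if γ.degree = d then
        monomial γ (tcoeff F ξ γ) else 0) =
        if γ = β then (if β.degree = d then tcoeff F ξ β else 0) else 0 := by
      intro γ _
      by_cases hγ : γ = β
      · subst hγ
        by_cases h : γ.degree = d <;> simp [h]
      · rw [if_neg hγ]
        split_ifs
        · rw [coeff_monomial, if_neg hγ]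
        · simp
    rw [Finset.sum_congr rfl this, Finset.sum_ite_eq']
    split_ifs with h1 h2 h2
    · rfl
    · rfl
    · exfalso
      apply h1
      rw [mem_lowDeg]
      omega
    · rfl
  refine ⟨Q, d, r, ?_, ?_, hr0, hr1, hξr, ?_⟩
  · intro h
    have := hQc β₀
    rw [h, if_pos hβ₀d] at this
    simp at this
    exact hβ₀ this.symm
  · intro c u
    simp only [Q, map_sum, Finset.mul_sum]
    apply Finset.sum_congr rfl
    intro β _
    split_ifs with h
    · rw [eval_monomial, eval_monomial]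
      rw [hprod c u β, h]
      ring
    · simp
  · intro t δ ht0 htr hδ
    have hq0 : 0 ≤ t / r := by positivity
    have hq1 : t / r ≤ 1 := (div_le_one hr0).2 htr
    have ht1 : t ≤ 1 := htr.trans hr1.le
    set x : σ → 𝕂 := fun i => ξ i + δ i with hx
    have hxr : ∀ i, ‖x i‖ ≤ r := fun i =>
      (IsUltrametricDist.norm_add_le_max _ _).trans (max_le (hξr i) ((hδ i).trans htr))
    have hxnorm : ‖x‖ ≤ r := (pi_norm_le_iff_of_nonneg hr0.le).2 hxr
    have hx1 : ‖x‖ < 1 := hxnorm.trans_lt hr1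
    have hrd : 0 < r ^ d := pow_pos hr0 d
    have hlim : Tendsto (fun D : ℕ => max (r ^ D / r ^ d) ((t / r) ^ (d + 1))) atTop
        (𝓝 (max 0 ((t / r) ^ (d + 1)))) := by
      apply Tendsto.max _ tendsto_const_nhds
      simpa using (tendsto_pow_atTop_nhds_zero_of_lt_one hr0.le hr1).div_const (r ^ d)
    rw [max_eq_right (by positivity)] at hlim
    refine ge_of_tendsto' hlim fun D => ?_
    set B := max (r ^ D / r ^ d) ((t / r) ^ (d + 1)) with hB
    have hB0 : 0 ≤ B := le_max_of_le_left (by positivity)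
    -- first piece
    have h1 : ‖ev F x - eval x (truncP F D)‖ ≤ B := by
      rw [eval_truncP]
      refine (norm_ev_sub_trS_le hF hx1 D).trans ?_
      refine le_trans (pow_le_pow_left₀ (norm_nonneg _) hxnorm D) (le_max_of_le_left ?_)
      rw [le_div_iff₀ hrd]
      have : r ^ d ≤ 1 := pow_le_one₀ hr0.le hr1.le
      nlinarith [pow_pos hr0 D]
    -- second piece
    have h2 : ‖eval δ (trn ξ (truncP F D) - Q)‖ ≤ B := by
      rw [MvPolynomial.eval_eq']
      apply IsUltrametricDist.norm_sum_le_of_forall_le_of_nonneg hB0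
      intro β _
      rw [norm_mul, norm_prod]
      have hpow : ∏ i, ‖δ i ^ β i‖ ≤ t ^ β.degree := by
        have h3 : ∏ i, ‖δ i ^ β i‖ ≤ ∏ i, t ^ β i := by
          apply Finset.prod_le_prod (fun _ _ => norm_nonneg _)
          intro i _
          rw [norm_pow]
          exact pow_le_pow_left₀ (norm_nonneg _) (hδ i) _
        refine h3.trans (le_of_eq ?_)
        rw [Finset.prod_pow_eq_pow_sum, Finsupp.degree_eq_sum]
      have hpow1 : t ^ β.degree ≤ 1 := pow_le_one₀ ht0 ht1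
      rw [coeff_sub, hQc]
      by_cases hlow : β.degree ≤ d
      · -- low degree
        have h4 : ‖coeff β (trn ξ (truncP F D)) - (if β.degree = d then tcoeff F ξ β else 0)‖ *
            r ^ β.degree ≤ r ^ D := by
          by_cases hβd : β.degree = d
          · rw [if_pos hβd]
            exact tcoeff_dist hF hr0 hr1 hξr β D
          · rw [if_neg hβd, sub_zero]
            have h5 := tcoeff_dist hF hr0 hr1 hξr β D
            rwa [hmin β (by omega), sub_zero] at h5
        have h6 : ‖coeff β (trn ξ (truncP F D)) - (if β.degree = d then tcoeff F ξ β else 0)‖ ≤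
            r ^ D / r ^ d := by
          rw [le_div_iff₀ hrd]
          refine le_trans (mul_le_mul_of_nonneg_left ?_ (norm_nonneg _)) h4
          exact pow_le_pow_of_le_one hr0.le hr1.le hlow
        refine le_max_of_le_left ?_
        calc _ ≤ (r ^ D / r ^ d) * 1 := mul_le_mul h6 (hpow.trans hpow1)
              (Finset.prod_nonneg fun _ _ => norm_nonneg _) (by positivity)
          _ = _ := mul_one _
      · -- high degree
        have hβ : β.degree ≠ d := by omega
        rw [if_neg hβ, sub_zero]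
        have h4 := GB_trn hr0 hξr (GB_truncP hF hr0 hr1.le D) β
        refine le_max_of_le_right ?_
        have h5 : (t / r) ^ β.degree ≤ (t / r) ^ (d + 1) := pow_le_pow_of_le_one hq0 hq1 (by omega)
        refine le_trans ?_ h5
        have h6 : ‖coeff β (trn ξ (truncP F D))‖ ≤ 1 / r ^ β.degree := by
          rw [le_div_iff₀ (pow_pos hr0 _)]
          exact h4
        calc _ ≤ 1 / r ^ β.degree * t ^ β.degree := mul_le_mul h6 hpow
              (Finset.prod_nonneg fun _ _ => norm_nonneg _) (by positivity)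
          _ = (t / r) ^ β.degree := by rw [div_pow]; ring
    have h3 : ev F x - eval δ Q = (ev F x - eval x (truncP F D)) +
        eval δ (trn ξ (truncP F D) - Q) := by
      rw [map_sub, eval_trn]
      ring
    rw [h3]
    exact (IsUltrametricDist.norm_add_le_max _ _).trans (max_le h1 h2)

end Crest.Agent.Lib.LT.C0
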