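import Crest.Agent.Lib.LT.C0Equi
import Crest.Agent.Lib.LT.C0Translate
import Crest.Agent.Lib.LT.C0Bridge
import Crest.Agent.Lib.LT.C0Span

/-!
# The tangent cone argument (section (1f) of the proof of S0351)

`char0_core`: no family of points `w'(s, t)` of the zero set of a non-zero bounded series `F`, with
the equivariance data of `C0Equi.equivariance` for
`θ̂ = X +_H ∑_e [t_e] (c_e X^(p^(j_e + n s)))`, can converge to `ξ` as `s → ∞`.
-/

namespace Crest.Agent.Lib.LT.C0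

open MvPolynomial Filter Topology
open Crest.Agent.LT.Std (logSeries)
open Crest.Agent.Lib.LT.Eval1
open Crest.Agent.Lib.LT.EvalS

set_option linter.unusedSectionVars false

section Linear

variable {𝕂 : Type*} [NormedField 𝕂] 

/-- splitting off the first coordinate. -/
lemma sum_fin_split {n : ℕ} (hn : 1 ≤ n) {M : Type*} [AddCommMonoid M] (g : Fin n → M) :
    ∑ a, g a = g ⟨0, by omega⟩ + ∑ i : Fin (n - 1), g ⟨(i : ℕ) + 1, by have := i.2; omega⟩ := by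
  obtain ⟨m, rfl⟩ : ∃ m, n = m + 1 := ⟨n - 1, by omega⟩
  exact Fin.sum_univ_succ g

/-- A contraction argument: the solution `z` of `N z = π^s V - E(z)`, `E` quadratic. -/
theorem contraction {n : ℕ} {ε : ℝ} (hε0 : 0 < ε) (hε1 : ε < 1) (N : Matrix (Fin n) (Fin n) 𝕂)
    (hN : N.det ≠ 0) (V : Fin n → 𝕂) {C₂ : ℝ} (hC₂ : 0 ≤ C₂) (z : ℕ → Fin n → 𝕂)
    (hz : Tendsto (fun s => ‖z s‖) atTop (𝓝 0)) {π : 𝕂} (hπ : ‖π‖ = ε) (E : ℕ → Fin n → 𝕂)
    (hE : ∀ᶠ s in atTop, (∀ b, ‖E s b‖ ≤ C₂ * ‖z s‖ ^ 2) ∧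
      N.mulVec (z s) = π ^ s • V - E s) :
    ∃ K : ℝ, 0 ≤ K ∧ ∀ᶠ s in atTop, ‖z s‖ ≤ K * ε ^ s ∧
      ∀ a, ‖z s a - π ^ s * (N⁻¹.mulVec V) a‖ ≤ K * (ε ^ s) ^ 2 := by
  classical
  set v := N⁻¹.mulVec V with hv
  set A : ℝ := ∑ a, ∑ b, ‖N⁻¹ a b‖ with hA
  have hA0 : 0 ≤ A := Finset.sum_nonneg fun _ _ => Finset.sum_nonneg fun _ _ => norm_nonneg _
  have hU : IsUnit N.det := isUnit_iff_ne_zero.2 hN
  have hAC : 0 ≤ A * C₂ := mul_nonneg hA0 hC₂
  have hev : ∀ᶠ s in atTop, (A * C₂ + 1) * ‖z s‖ ≤ 1 / 2 := by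
    have h1 : Tendsto (fun s => (A * C₂ + 1) * ‖z s‖) atTop (𝓝 ((A * C₂ + 1) * 0)) :=
      hz.const_mul _
    rw [mul_zero] at h1
    exact (h1.eventually (gt_mem_nhds (by norm_num : (0 : ℝ) < 1 / 2))).mono fun _ h => h.le
  -- pointwise estimate
  have hkey : ∀ s, (∀ b, ‖E s b‖ ≤ C₂ * ‖z s‖ ^ 2) → N.mulVec (z s) = π ^ s • V - E s →
      ∀ a, ‖z s a - π ^ s * v a‖ ≤ A * C₂ * ‖z s‖ ^ 2 := by
    intro s h1 h2 a
    have h3 : z s = π ^ s • v - N⁻¹.mulVec (E s) := by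
      have h4 : N⁻¹.mulVec (N.mulVec (z s)) = z s := by
        rw [Matrix.mulVec_mulVec, Matrix.nonsing_inv_mul _ hU, Matrix.one_mulVec]
      rw [← h4, h2, Matrix.mulVec_sub, Matrix.mulVec_smul]
    have h5 : z s a - π ^ s * v a = - (N⁻¹.mulVec (E s)) a := by
      rw [h3]
      simp
    rw [h5, norm_neg]
    have h6 : ‖(N⁻¹.mulVec (E s)) a‖ ≤ ∑ b, ‖N⁻¹ a b‖ * (C₂ * ‖z s‖ ^ 2) := by
      rw [Matrix.mulVec, dotProduct]
      refine (norm_sum_le _ _).trans (Finset.sum_le_sum fun b _ => ?_)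
      rw [norm_mul]
      exact mul_le_mul_of_nonneg_left (h1 b) (norm_nonneg _)
    refine h6.trans ?_
    rw [← Finset.sum_mul, mul_assoc]
    apply mul_le_mul_of_nonneg_right _ (by positivity)
    exact Finset.single_le_sum (f := fun a => ∑ b, ‖N⁻¹ a b‖)
      (fun _ _ => Finset.sum_nonneg fun _ _ => norm_nonneg _) (Finset.mem_univ a)
  have hv0 := norm_nonneg v
  refine ⟨2 * ‖v‖ + A * C₂ * (2 * ‖v‖) ^ 2, by positivity, ?_⟩
  filter_upwards [hE, hev] with s hs hs2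
  obtain ⟨h1, h2⟩ := hs
  have hk := hkey s h1 h2
  have hr0 := norm_nonneg (z s)
  have hεs : 0 < ε ^ s := by positivity
  have hr : ‖z s‖ ≤ 2 * ‖v‖ * ε ^ s := by
    -- `‖z‖ ≤ ε^s ‖v‖ + ‖z‖ / 2`
    have h3 : ‖z s‖ ≤ ‖v‖ * ε ^ s + ‖z s‖ / 2 := by
      refine (pi_norm_le_iff_of_nonneg (by positivity)).2 fun a => ?_
      have h4 : ‖z s a‖ ≤ ‖z s a - π ^ s * v a‖ + ‖π ^ s * v a‖ := by
        have := norm_add_le (z s a - π ^ s * v a) (π ^ s * v a)
        simpa using this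
      have h5 : ‖π ^ s * v a‖ ≤ ‖v‖ * ε ^ s := by
        rw [norm_mul, norm_pow, hπ, mul_comm]
        exact mul_le_mul_of_nonneg_right (norm_le_pi_norm v a) hεs.le
      have h6 : A * C₂ * ‖z s‖ ^ 2 ≤ ‖z s‖ / 2 := by
        have h7 : A * C₂ * ‖z s‖ ≤ 1 / 2 := by nlinarith
        nlinarith
      linarith [hk a]
    linarith
  have hr2 : ‖z s‖ ^ 2 ≤ (2 * ‖v‖) ^ 2 * (ε ^ s) ^ 2 := by
    rw [← mul_pow]
    exact pow_le_pow_left₀ hr0 hr 2
  have hε1s : ε ^ s ≤ 1 := pow_le_one₀ hε0.le hε1.le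
  constructor
  · have h3 : 0 ≤ A * C₂ * (2 * ‖v‖) ^ 2 * ε ^ s := by positivity
    nlinarith
  · intro a
    refine (hk a).trans ?_
    have h3 : A * C₂ * ‖z s‖ ^ 2 ≤ A * C₂ * ((2 * ‖v‖) ^ 2 * (ε ^ s) ^ 2) :=
      mul_le_mul_of_nonneg_left hr2 hAC
    have h4 : 0 ≤ 2 * ‖v‖ * (ε ^ s) ^ 2 := by positivity
    nlinarith

variable {σ : Type*} [Fintype σ]

/-- Passing to the limit in the tangent form. -/
theorem tangent_limit {d : ℕ} (Q : MvPolynomial σ 𝕂)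
    (hQ : ∀ (c : 𝕂) (u : σ → 𝕂), eval (fun i => c * u i) Q = c ^ d * eval u Q)
    {r : ℝ} (hr : 0 < r) {π : 𝕂} {ε : ℝ} (hπ : ‖π‖ = ε) (hε0 : 0 < ε) (hε1 : ε < 1)
    (δ : ℕ → σ → 𝕂) (v : σ → 𝕂) {K : ℝ} (hK : 0 ≤ K)
    (hδ : ∀ᶠ s in atTop, (∀ i, ‖δ s i - π ^ s * v i‖ ≤ K * (ε ^ s) ^ 2) ∧
      ‖eval (δ s) Q‖ ≤ (K * ε ^ s / r) ^ (d + 1)) :
    eval v Q = 0 := by
  have hπ0 : π ≠ 0 := by
    rw [← norm_pos_iff, hπ]; exact hε0
  set u : ℕ → σ → 𝕂 := fun s i => (π ^ s)⁻¹ * δ s i with hu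
  have hdec : Tendsto (fun s : ℕ => ε ^ s) atTop (𝓝 0) :=
    tendsto_pow_atTop_nhds_zero_of_lt_one hε0.le hε1
  have hlim : Tendsto u atTop (𝓝 v) := by
    rw [tendsto_pi_nhds]
    intro i
    rw [tendsto_iff_norm_sub_tendsto_zero]
    have h1 : Tendsto (fun s : ℕ => K * ε ^ s) atTop (𝓝 0) := by simpa using hdec.const_mul K
    refine squeeze_zero' (Eventually.of_forall fun _ => norm_nonneg _) ?_ h1
    filter_upwards [hδ] with s hs
    have h2 := hs.1 i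
    have h3 : u s i - v i = (π ^ s)⁻¹ * (δ s i - π ^ s * v i) := by
      rw [hu]
      field_simp
    rw [h3, norm_mul, norm_inv, norm_pow, hπ]
    have h4 : 0 < ε ^ s := by positivity
    calc (ε ^ s)⁻¹ * ‖δ s i - π ^ s * v i‖ ≤ (ε ^ s)⁻¹ * (K * (ε ^ s) ^ 2) :=
          mul_le_mul_of_nonneg_left h2 (by positivity)
      _ = K * ε ^ s := by field_simp
  have hcont : Continuous fun x : σ → 𝕂 => eval x Q := MvPolynomial.continuous_eval Q
  have hlim2 : Tendsto (fun s => eval (u s) Q) atTop (𝓝 (eval v Q)) :=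
    (hcont.tendsto v).comp hlim
  have hlim3 : Tendsto (fun s => eval (u s) Q) atTop (𝓝 0) := by
    rw [tendsto_zero_iff_norm_tendsto_zero]
    have h1 : Tendsto (fun s : ℕ => (K / r) ^ (d + 1) * ε ^ s) atTop (𝓝 0) := by
      simpa using hdec.const_mul ((K / r) ^ (d + 1))
    refine squeeze_zero' (Eventually.of_forall fun _ => norm_nonneg _) ?_ h1
    filter_upwards [hδ] with s hs
    have h2 := hs.2
    have h3 : δ s = fun i => π ^ s * u s i := by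
      funext i
      rw [hu]
      field_simp
    rw [h3, hQ, norm_mul, norm_pow, norm_pow, hπ] at h2
    have h4 : 0 < (ε ^ s) ^ d := by positivity
    have h5 : (K * ε ^ s / r) ^ (d + 1) = (K / r) ^ (d + 1) * (ε ^ s) ^ (d + 1) := by
      rw [← mul_pow]
      congr 1
      ring
    rw [h5] at h2
    have h6 : (K / r) ^ (d + 1) * (ε ^ s) ^ (d + 1) = (ε ^ s) ^ d * ((K / r) ^ (d + 1) * ε ^ s) := by
      ring
    rw [h6] at h2
    exact le_of_mul_le_mul_left h2 h4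
  exact tendsto_nhds_unique hlim2 hlim3

/-- A polynomial vanishing on the `ℕ`-cone of spanning vectors vanishes. -/
theorem poly_on_cone [CharZero 𝕂] {J : Type*} [Fintype J] (M : J → σ → 𝕂)
    (hM : ∀ f : σ → 𝕂, (∀ e, ∑ i, f i * M e i = 0) → f = 0) (Q : MvPolynomial σ 𝕂)
    (hQ : ∀ t : J → ℕ, eval (fun i => ∑ e, (t e : 𝕂) * M e i) Q = 0) : Q = 0 := by
  classical
  -- the composite polynomial
  set P : MvPolynomial J 𝕂 := aeval (fun i => ∑ e, C (M e i) * X e) Q with hP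
  have hPe : ∀ T : J → 𝕂, eval T P = eval (fun i => ∑ e, T e * M e i) Q := by
    intro T
    have h0 : ∀ (x : J → 𝕂) (q : MvPolynomial J 𝕂), eval x q = aeval x q := by
      intro x q
      rw [← MvPolynomial.coe_aeval_eq_eval]
      rfl
    have h0' : ∀ (x : σ → 𝕂) (q : MvPolynomial σ 𝕂), eval x q = aeval x q := by
      intro x q
      rw [← MvPolynomial.coe_aeval_eq_eval]
      rfl
    rw [h0, hP, MvPolynomial.comp_aeval_apply, h0']
    congr 2
    funext i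
    simp [mul_comm]
  have hP0 : P = 0 := by
    apply MvPolynomial.funext_set (fun _ => Set.range (Nat.cast : ℕ → 𝕂))
      (fun _ => Set.infinite_range_of_injective Nat.cast_injective)
    intro x hx
    have hx' : ∀ e, ∃ k : ℕ, (k : 𝕂) = x e := fun e => hx e (Set.mem_univ e)
    choose t ht using hx'
    have hxt : x = fun e => (t e : 𝕂) := by
      funext e
      exact (ht e).symm
    rw [hxt, hPe, map_zero]
    exact hQ t
  have hT : ∀ T : J → 𝕂, eval (fun i => ∑ e, T e * M e i) Q = 0 := by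
    intro T
    rw [← hPe, hP0, map_zero]
  -- surjectivity
  let Λ : (J → 𝕂) →ₗ[𝕂] (σ → 𝕂) :=
    { toFun := fun T i => ∑ e, T e * M e i
      map_add' := by
        intro a b
        funext i
        simp [add_mul, Finset.sum_add_distrib]
      map_smul' := by
        intro c a
        funext i
        simp [Finset.mul_sum, mul_assoc] }
  have hsurj : LinearMap.range Λ = ⊤ := by
    by_contra hne
    obtain ⟨φ, hφ, hle⟩ := Submodule.exists_le_ker_of_lt_top _ (lt_top_iff_ne_top.2 hne)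
    apply hφ
    have hf := hM (fun i => φ (Pi.single i 1)) (by
      intro e
      have h1 : φ (Λ (Pi.single e 1)) = 0 := hle ⟨_, rfl⟩
      have h2 : Λ (Pi.single e 1) = fun i => M e i := by
        funext i
        simp [Λ, Pi.single_apply]
      rw [h2, LinearMap.pi_apply_eq_sum_univ φ] at h1
      rw [← h1]
      apply Finset.sum_congr rfl
      intro i _
      rw [smul_eq_mul, mul_comm]
      congr 2
      funext j
      simp [Pi.single_apply, eq_comm])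
    apply LinearMap.ext
    intro u
    rw [LinearMap.pi_apply_eq_sum_univ φ u]
    have h3 : ∀ i, φ (fun j => if i = j then (1 : 𝕂) else 0) = 0 := by
      intro i
      have h4 := congrFun hf i
      have h5 : (fun j => if i = j then (1 : 𝕂) else 0) = Pi.single i 1 := by
        funext j
        simp [Pi.single_apply, eq_comm]
      rw [h5]
      simpa using h4
    simp [h3]
  apply MvPolynomial.funext
  intro u
  rw [map_zero]
  have hu : u ∈ LinearMap.range Λ := by rw [hsurj]; trivial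
  obtain ⟨T, rfl⟩ := hu
  exact hT T

end Linear

variable {p : ℕ} [hp : Fact p.Prime] {n : ℕ} {𝕂 : Type*} [NormedField 𝕂] [IsUltrametricDist 𝕂]
  [CharZero 𝕂] [CompleteSpace 𝕂] [IsAlgClosed 𝕂]

/-- The vector `L_e`. -/
noncomputable def LL (p n : ℕ) [Fact p.Prime] {ι : Type*} (c : ι → 𝕂) (ξ : Fin (n - 1) → 𝕂)
    (e : ι × Fin n) (b' : ℕ) : 𝕂 :=
  ∑ b ∈ Finset.range n, aa p n (b : ℤ) ξ * c e.1 ^ (p ^ b) * shiftL p n 𝕂 e.2 b b'

/-- The equivariance of the period, as an identity of vectors. -/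
theorem period_identity (hn : 2 ≤ n) (hε : ‖(p : 𝕂)‖ < 1)
    {ι : Type*} [Fintype ι] [DecidableEq ι] (c : ι → 𝕂)
    (hc : ∀ i, c i ^ (p ^ n) = c i) (hc1 : ∀ i, ‖c i‖ ≤ 1)
    (hind : ∀ g : ℕ → 𝕂, (∀ i, ∑ b ∈ Finset.range n, g b * c i ^ (p ^ b) = 0) →
      ∀ b, b < n → g b = 0)
    {ξ w' : Fin (n - 1) → 𝕂} (hξ : ∀ i, ‖ξ i‖ < 1) (hw' : ∀ i, ‖w' i‖ < 1)
    {ρ : ℝ} (hρ0 : 0 ≤ ρ) (hρ1 : ρ < 1)
    {θ θh : PowerSeries 𝕂} (hθ : IsBdd0 θ) (hθh : IsBdd0 θh)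
    (hdiff : ∀ j, ‖PowerSeries.coeff j θ - PowerSeries.coeff j θh‖ ≤ ρ) {κ : 𝕂}
    (hlog : (logAt p n ξ).subst θ = κ • logAt p n w') (s : ℕ) (t : ι × Fin n → ℕ)
    (hlogh : (logAt p n ξ).subst θh = logAt p n ξ + ∑ e : ι × Fin n, (t e : 𝕂) •
        (logAt p n ξ).subst (PowerSeries.C (c e.1) * PowerSeries.X ^ (p ^ ((e.2 : ℕ) + n * s)) :
          PowerSeries 𝕂)) :
    ∀ b, b < n → κ * aa p n (b : ℤ) w' =
      aa p n (b : ℤ) ξ + (p : 𝕂) ^ s * ∑ e, (t e : 𝕂) * LL p n c ξ e b := by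
  have hn1 : 1 ≤ n := by omega
  intro b hb
  refine sub_eq_zero.1 (functional_vanish hn hε c hc hc1 hind (fun b => κ * aa p n (b : ℤ) w' -
    (aa p n (b : ℤ) ξ + (p : 𝕂) ^ s * ∑ e, (t e : 𝕂) * LL p n c ξ e b)) (fun x hx => ?_) b hb)
  have heq := equivariance hn1 hε hξ hw' hρ0 hρ1 hθ hθh hdiff hlog Finset.univ t (fun e => c e.1)
    (fun e => (e.2 : ℕ) + n * s) (fun e => hc e.1) (fun e => hc1 e.1) hlogh hx
  have hkey : ∀ e : ι × Fin n, ∑ b ∈ Finset.range n,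
      aa p n (b : ℤ) ξ * (c e.1 ^ (p ^ b) * Zc p n x ((e.2 : ℕ) + n * s + b)) =
      (p : 𝕂) ^ s * ∑ b' ∈ Finset.range n, LL p n c ξ e b' * Zc p n x b' := by
    intro e
    have h1 : ∀ b, Zc p n x ((e.2 : ℕ) + n * s + b) = (p : 𝕂) ^ s *
        ∑ b' ∈ Finset.range n, shiftL p n 𝕂 e.2 b b' * Zc p n x b' := by
      intro b
      have : (e.2 : ℕ) + n * s + b = ((e.2 : ℕ) + b) + n * s := by ring
      rw [this, Zc_mul_n hx, Zc_add_shift hn1 hx]
    simp only [h1, LL, Finset.sum_mul, Finset.mul_sum]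
    rw [Finset.sum_comm]
    apply Finset.sum_congr rfl
    intro b' _
    apply Finset.sum_congr rfl
    intro b'' _
    ring
  simp only [hkey] at heq
  simp only [sub_mul, add_mul, Finset.sum_sub_distrib, Finset.sum_add_distrib]
  have h2 : ∑ b ∈ Finset.range n, κ * aa p n (b : ℤ) w' * Zc p n x b =
      κ * ∑ b ∈ Finset.range n, aa p n (b : ℤ) w' * Zc p n x b := by
    rw [Finset.mul_sum]
    exact Finset.sum_congr rfl fun _ _ => by ring
  have h3 : ∑ b ∈ Finset.range n, (p : 𝕂) ^ s * (∑ e, (t e : 𝕂) * LL p n c ξ e b) * Zc p n x b =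
      ∑ e, (t e : 𝕂) * ((p : 𝕂) ^ s * ∑ b' ∈ Finset.range n, LL p n c ξ e b' * Zc p n x b') := by
    simp only [Finset.sum_mul, Finset.mul_sum]
    rw [Finset.sum_comm]
    apply Finset.sum_congr rfl
    intro e _
    apply Finset.sum_congr rfl
    intro b _
    ring
  rw [h2, h3, heq]
  ring

/-- The first column of the period matrix is not zero. -/
theorem exists_aa_ne_zero (hn : 1 ≤ n) {ξ : Fin (n - 1) → 𝕂}
    (hdet : (C0Bridge.jacMat p n ξ).det ≠ 0) : ∃ b, b < n ∧ aa p n (b : ℤ) ξ ≠ 0 := by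
  by_contra h
  push Not at h
  apply hdet
  apply Matrix.det_eq_zero_of_column_eq_zero (⟨0, by omega⟩ : Fin n)
  intro b
  simp [C0Bridge.jacMat, h b b.2]

/-- The vectors `N⁻¹ L_e`, with the first coordinate removed, span. -/
theorem M_span (hn : 1 ≤ n) {ι : Type*} [Fintype ι] (c : ι → 𝕂)
    (hind : ∀ g : ℕ → 𝕂, (∀ i, ∑ b ∈ Finset.range n, g b * c i ^ (p ^ b) = 0) →
      ∀ b, b < n → g b = 0) {ξ : Fin (n - 1) → 𝕂} (hdet : (C0Bridge.jacMat p n ξ).det ≠ 0)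
    (f : Fin (n - 1) → 𝕂)
    (hf : ∀ e : ι × Fin n, ∑ i : Fin (n - 1), f i *
      ((C0Bridge.jacMat p n ξ)⁻¹.mulVec (fun b : Fin n => LL p n c ξ e b))
        ⟨(i : ℕ) + 1, by have := i.2; omega⟩ = 0) : f = 0 := by
  classical
  set N := C0Bridge.jacMat p n ξ with hN
  have hU : IsUnit N.det := isUnit_iff_ne_zero.2 hdet
  set h : Fin n → 𝕂 := fun a => if ha : (a : ℕ) = 0 then 0 else
    f ⟨(a : ℕ) - 1, by have := a.2; omega⟩ with hh
  set g : Fin n → 𝕂 := Matrix.vecMul h N⁻¹ with hg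
  have hg1 : ∀ e : ι × Fin n, ∑ b : Fin n, g b * LL p n c ξ e b = 0 := by
    intro e
    have h1 : ∑ b : Fin n, g b * LL p n c ξ e b =
        dotProduct g (fun b : Fin n => LL p n c ξ e b) := rfl
    rw [h1, hg, ← Matrix.dotProduct_mulVec]
    rw [dotProduct, sum_fin_split hn]
    have h2 : h ⟨0, by omega⟩ = 0 := by simp [hh]
    rw [h2, zero_mul, zero_add, ← hf e]
    apply Finset.sum_congr rfl
    intro i _
    have h3 : h ⟨(i : ℕ) + 1, by have := i.2; omega⟩ = f i := by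
      simp [hh]
    rw [h3]
  obtain ⟨b₁, hb₁, hy⟩ := exists_aa_ne_zero hn hdet
  set g' : ℕ → 𝕂 := fun b => if hb : b < n then g ⟨b, hb⟩ else 0 with hg'
  have hg'0 := span_vanish hn c hind (fun b => aa p n (b : ℤ) ξ) hb₁ hy g' (by
    intro i j hj
    rw [Finset.sum_range]
    rw [← hg1 (i, ⟨j, hj⟩)]
    apply Finset.sum_congr rfl
    intro b _
    simp [hg', LL])
  have hg0 : g = 0 := by
    funext b
    have := hg'0 b b.2
    simpa [hg'] using this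
  have hh0 : h = 0 := by
    have h1 : Matrix.vecMul g N = h := by
      rw [hg, Matrix.vecMul_vecMul, Matrix.nonsing_inv_mul _ hU, Matrix.vecMul_one]
    rw [← h1, hg0, Matrix.zero_vecMul]
  funext i
  have h3 : h ⟨(i : ℕ) + 1, by have := i.2; omega⟩ = f i := by
    simp [hh]
  rw [← h3, hh0]
  rfl

/-- **The char 0 stratum, abstract core.** -/
theorem char0_core (hn : 2 ≤ n) (hε : ‖(p : 𝕂)‖ < 1)
    {ι : Type*} [Fintype ι] [DecidableEq ι] (c : ι → 𝕂)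
    (hc : ∀ i, c i ^ (p ^ n) = c i) (hc1 : ∀ i, ‖c i‖ ≤ 1)
    (hind : ∀ g : ℕ → 𝕂, (∀ i, ∑ b ∈ Finset.range n, g b * c i ^ (p ^ b) = 0) →
      ∀ b, b < n → g b = 0)
    (ξ : Fin (n - 1) → 𝕂) (hξ : ∀ i, ‖ξ i‖ < 1)
    (F : MvPowerSeries (Fin (n - 1)) 𝕂) (hF : IntS F) (hF0 : F ≠ 0)
    (ρ : ℝ) (hρ0 : 0 ≤ ρ) (hρ1 : ρ < 1) (s₀ : ℕ)
    (w' : ℕ → (ι × Fin n → ℕ) → Fin (n - 1) → 𝕂) (κ : ℕ → (ι × Fin n → ℕ) → 𝕂)
    (θ θh : ℕ → (ι × Fin n → ℕ) → PowerSeries 𝕂)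
    (hfam : ∀ s, s₀ ≤ s → ∀ t,
      (∀ i, ‖w' s t i‖ < 1) ∧ IsBdd0 (θ s t) ∧ IsBdd0 (θh s t) ∧
      (∀ j, ‖PowerSeries.coeff j (θ s t) - PowerSeries.coeff j (θh s t)‖ ≤ ρ) ∧
      (logAt p n ξ).subst (θ s t) = κ s t • logAt p n (w' s t) ∧
      (logAt p n ξ).subst (θh s t) = logAt p n ξ + ∑ e : ι × Fin n, (t e : 𝕂) •
        (logAt p n ξ).subst (PowerSeries.C (c e.1) * PowerSeries.X ^ (p ^ ((e.2 : ℕ) + n * s)) :
          PowerSeries 𝕂) ∧
      ev F (w' s t) = 0)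
    (hlim : ∀ t, Tendsto (fun s => w' s t) atTop (𝓝 ξ) ∧ Tendsto (fun s => κ s t) atTop (𝓝 1)) :
    False := by
  classical
  have hn1 : 1 ≤ n := by omega
  have hε0 := norm_p_pos (p := p) (𝕂 := 𝕂)
  obtain ⟨hdet, ρ', C, hρ'0, hρ'1, hC, hρ'ξ, hT⟩ := C0Bridge.period_tangent_C0 (p := p) hn1 hε hξ
  obtain ⟨Q, d, r, hQ0, hQh, hr0, hr1, hrξ, hTan⟩ := exists_tangent_form hF hF0 hξ
  set N := C0Bridge.jacMat p n ξ with hN
  apply hQ0
  apply poly_on_cone (fun (e : ι × Fin n) (i : Fin (n - 1)) =>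
    (N⁻¹.mulVec (fun b : Fin n => LL p n c ξ e b)) ⟨(i : ℕ) + 1, by have := i.2; omega⟩)
    (M_span hn1 c hind hdet) Q
  intro t
  set V : Fin n → 𝕂 := fun b => ∑ e, (t e : 𝕂) * LL p n c ξ e b with hV
  have hv : ∀ a, ∑ e, (t e : 𝕂) * (N⁻¹.mulVec (fun b : Fin n => LL p n c ξ e b)) a =
      (N⁻¹.mulVec V) a := by
    intro a
    simp only [Matrix.mulVec, dotProduct, hV, Finset.mul_sum]
    rw [Finset.sum_comm]
    apply Finset.sum_congr rfl
    intro b _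
    apply Finset.sum_congr rfl
    intro e _
    ring
  simp only [hv]
  set π : 𝕂 := (p : 𝕂) with hπ
  set ε : ℝ := ‖π‖ with hεdef
  -- the vector `z`
  set z : ℕ → Fin n → 𝕂 := fun s a => if ha : (a : ℕ) = 0 then κ s t - 1 else
    w' s t ⟨(a : ℕ) - 1, by have := a.2; omega⟩ - ξ ⟨(a : ℕ) - 1, by have := a.2; omega⟩ with hz
  have hz0 : ∀ s, z s ⟨0, by omega⟩ = κ s t - 1 := fun s => by simp [hz]
  have hzS : ∀ s (i : Fin (n - 1)), z s ⟨(i : ℕ) + 1, by have := i.2; omega⟩ = w' s t i - ξ i := by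
    intro s i
    simp [hz]
  have hzlim : Tendsto (fun s => ‖z s‖) atTop (𝓝 0) := by
    rw [← tendsto_zero_iff_norm_tendsto_zero, tendsto_pi_nhds]
    intro a
    by_cases ha : (a : ℕ) = 0
    · have h1 : Tendsto (fun s => κ s t - 1) atTop (𝓝 (1 - 1)) := (hlim t).2.sub_const 1
      rw [sub_self] at h1
      simpa [hz, ha] using h1
    · have h1 := (tendsto_pi_nhds.1 (hlim t).1) ⟨(a : ℕ) - 1, by have := a.2; omega⟩
      have h2 := h1.sub_const (ξ ⟨(a : ℕ) - 1, by have := a.2; omega⟩)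
      rw [sub_self] at h2
      simpa [hz, ha] using h2
  set D : ℝ := ∑ b : Fin n, ∑ i : Fin (n - 1), ‖dd p n ((b : ℕ) : ℤ) i ξ‖ with hD
  have hD0 : 0 ≤ D := Finset.sum_nonneg fun _ _ => Finset.sum_nonneg fun _ _ => norm_nonneg _
  set E : ℕ → Fin n → 𝕂 := fun s => π ^ s • V - N.mulVec (z s) with hE
  have hsmall : ∀ᶠ s in atTop, ‖z s‖ ≤ min ρ' 1 :=
    (hzlim.eventually (gt_mem_nhds (lt_min hρ'0 one_pos))).mono fun _ h => h.le
  have hEv : ∀ᶠ s in atTop, (∀ b, ‖E s b‖ ≤ (2 * C + D) * ‖z s‖ ^ 2) ∧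
      N.mulVec (z s) = π ^ s • V - E s := by
    filter_upwards [hsmall, eventually_ge_atTop s₀] with s hs1 hs0
    refine ⟨fun b => ?_, by rw [hE]; exact (sub_sub_cancel _ _).symm⟩
    obtain ⟨h1, h2, h3, h4, h5, h6, -⟩ := hfam s hs0 t
    have hid := period_identity hn hε c hc hc1 hind hξ h1 hρ0 hρ1 h2 h3 h4 h5 s t h6 b b.2
    set R := ‖z s‖ with hR
    have hR0 : 0 ≤ R := norm_nonneg _
    have hRρ : R ≤ ρ' := hs1.trans (min_le_left _ _)
    have hR1 : R ≤ 1 := hs1.trans (min_le_right _ _)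
    set δ : Fin (n - 1) → 𝕂 := fun i => w' s t i - ξ i with hδ
    have hδn : ∀ i, ‖δ i‖ ≤ R := fun i => by
      have h7 : δ i = z s ⟨(i : ℕ) + 1, by have := i.2; omega⟩ := (hzS s i).symm
      rw [h7]
      exact norm_le_pi_norm (z s) _
    have hk : ‖κ s t - 1‖ ≤ R := by
      rw [← hz0]
      exact norm_le_pi_norm (z s) _
    have hTb := hT R hR0 hRρ δ hδn b
    have hwe : (fun i => ξ i + δ i) = w' s t := by
      funext i
      rw [hδ]
      ring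
    rw [hwe] at hTb
    set ar := aa p n ((b : ℕ) : ℤ) (w' s t) with har
    set ax := aa p n ((b : ℕ) : ℤ) ξ with hax
    set S := ∑ i, dd p n ((b : ℕ) : ℤ) i ξ * δ i with hS
    have hNz : N.mulVec (z s) b = ax * (κ s t - 1) + S := by
      rw [Matrix.mulVec, dotProduct, sum_fin_split hn1, hz0]
      congr 1
    have hEb : E s b = (ar - ax - S) + (κ s t - 1) * ((ar - ax - S) + S) := by
      have h7 : E s b = π ^ s * V b - N.mulVec (z s) b := rfl
      rw [h7, hNz]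
      have h8 : π ^ s * V b = κ s t * ar - ax := by
        rw [hid]
        simp [hV, hax, hπ]
      rw [h8]
      ring
    have hSn : ‖S‖ ≤ D * R := by
      rw [hS]
      refine (norm_sum_le _ _).trans ?_
      have h9 : ∀ i ∈ Finset.univ, ‖dd p n ((b : ℕ) : ℤ) i ξ * δ i‖ ≤
          ‖dd p n ((b : ℕ) : ℤ) i ξ‖ * R := fun i _ => by
        rw [norm_mul]
        exact mul_le_mul_of_nonneg_left (hδn i) (norm_nonneg _)
      refine (Finset.sum_le_sum h9).trans ?_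
      rw [← Finset.sum_mul]
      apply mul_le_mul_of_nonneg_right _ hR0
      exact Finset.single_le_sum (f := fun b : Fin n => ∑ i : Fin (n - 1),
        ‖dd p n ((b : ℕ) : ℤ) i ξ‖)
        (fun _ _ => Finset.sum_nonneg fun _ _ => norm_nonneg _) (Finset.mem_univ b)
    rw [hEb]
    have h10 : ‖(κ s t - 1) * ((ar - ax - S) + S)‖ ≤ (C + D) * R ^ 2 := by
      rw [norm_mul]
      have h11 : ‖(ar - ax - S) + S‖ ≤ C * R ^ 2 + D * R := (norm_add_le _ _).trans (add_le_add hTb hSn)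
      have h12 : C * R ^ 2 ≤ C * R := mul_le_mul_of_nonneg_left (by nlinarith) hC
      calc ‖κ s t - 1‖ * ‖(ar - ax - S) + S‖ ≤ R * (C * R + D * R) :=
            mul_le_mul hk (by linarith) (norm_nonneg _) hR0
        _ = (C + D) * R ^ 2 := by ring
    refine (norm_add_le _ _).trans ?_
    nlinarith
  obtain ⟨K, hK, hK2⟩ := contraction hε0 hε N hdet V (by positivity) z hzlim rfl E hEv
  have hdec : Tendsto (fun s : ℕ => K * ε ^ s) atTop (𝓝 0) := by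
    simpa using (tendsto_pow_atTop_nhds_zero_of_lt_one hε0.le hε).const_mul K
  have hKr : ∀ᶠ s in atTop, K * ε ^ s ≤ r :=
    (hdec.eventually (gt_mem_nhds hr0)).mono fun _ h => h.le
  refine tangent_limit Q hQh hr0 (rfl : ‖π‖ = ε) hε0 hε (fun s i => w' s t i - ξ i) _ hK ?_
  filter_upwards [hK2, hKr, eventually_ge_atTop s₀] with s hs hsr hs0
  obtain ⟨h1, h2⟩ := hs
  constructor
  · intro i
    rw [← hzS]
    exact h2 _
  · have hn' : ∀ i, ‖w' s t i - ξ i‖ ≤ K * ε ^ s := fun i => by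
      rw [← hzS]
      exact (norm_le_pi_norm (z s) _).trans h1
    have h3 := hTan (K * ε ^ s) (fun i => w' s t i - ξ i) (by positivity) hsr hn'
    have h4 : (fun i => ξ i + (w' s t i - ξ i)) = w' s t := by
      funext i
      ring
    rw [h4, (hfam s hs0 t).2.2.2.2.2.2, zero_sub, norm_neg] at h3
    exact h3

end Crest.Agent.Lib.LT.C0
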