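import Crest.Agent.Lib.LT.C0TowerLim

/-!
# Equivariance of the period (section (1e) of the proof of S0351)

From the formal identities `ℓ_ξ ∘ θ = κ ℓ_{w'}` and
`ℓ_ξ ∘ θ̂ = ℓ_ξ + ∑ t_i ℓ_ξ ∘ (c_i X^(p^(j_i)))`, where `θ ≡ θ̂` modulo an element of norm `ρ < 1`:
`κ ∑_b a_b(w') Z_b(x) = ∑_b a_b(ξ) Z_b(x) + ∑_i t_i ∑_b a_b(ξ) c_i^(p^b) Z_(j_i+b)(x)`,
for every exact tower `x`.
-/

namespace Crest.Agent.Lib.LT.C0

open MvPolynomial Filter Topology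
open Crest.Agent.LT.Std (logSeries)
open Crest.Agent.Lib.LT.Eval1

set_option linter.unusedSectionVars false

variable {p : ℕ} [hp : Fact p.Prime] {n : ℕ} {𝕂 : Type*} [NormedField 𝕂] [IsUltrametricDist 𝕂]

lemma pow_p_diff {A B : 𝕂} (hA : ‖A‖ ≤ 1) (hB : ‖B‖ ≤ 1) :
    ‖A ^ p - B ^ p‖ ≤ max (‖(p : 𝕂)‖ * ‖A - B‖) (‖A - B‖ ^ p) := by
  have hp' : p.Prime := hp.out
  set e := A - B with he
  have hAe : A = B + e := by rw [he]; ring
  have he1 : ‖e‖ ≤ 1 := by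
    rw [he, sub_eq_add_neg]
    refine (IsUltrametricDist.norm_add_le_max _ _).trans (max_le hA ?_)
    rwa [norm_neg]
  have h1 := add_pow_prime_eq' hp' B e
  have hS : ‖∑ k ∈ Finset.Ioo 0 p, B ^ k * e ^ (p - k) * ((p.choose k / p : ℕ) : 𝕂)‖ ≤ ‖e‖ := by
    apply IsUltrametricDist.norm_sum_le_of_forall_le_of_nonneg (norm_nonneg _)
    intro k hk
    have hk' := Finset.mem_Ioo.1 hk
    rw [norm_mul, norm_mul, norm_pow, norm_pow]
    have h2 : ‖B‖ ^ k ≤ 1 := pow_le_one₀ (norm_nonneg _) hB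
    have h3 : ‖e‖ ^ (p - k) ≤ ‖e‖ := pow_le_of_le_one (norm_nonneg _) he1 (by omega)
    have h4 : ‖((p.choose k / p : ℕ) : 𝕂)‖ ≤ 1 := IsUltrametricDist.norm_natCast_le_one 𝕂 _
    calc ‖B‖ ^ k * ‖e‖ ^ (p - k) * ‖((p.choose k / p : ℕ) : 𝕂)‖ ≤ 1 * ‖e‖ * 1 := by
          gcongr
      _ = ‖e‖ := by ring
  have h5 : A ^ p - B ^ p = e ^ p + (p : 𝕂) * ∑ k ∈ Finset.Ioo 0 p,
      B ^ k * e ^ (p - k) * ((p.choose k / p : ℕ) : 𝕂) := by
    rw [hAe, h1]; ring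
  rw [h5]
  refine (IsUltrametricDist.norm_add_le_max _ _).trans (max_le ?_ ?_)
  · rw [norm_pow]; exact le_max_right _ _
  · rw [norm_mul]
    exact (mul_le_mul_of_nonneg_left hS (norm_nonneg _)).trans (le_max_left _ _)

variable [CharZero 𝕂]

/-- differences of `p^m`-th powers of close elements decay like `ε^m`. -/
lemma pow_diff_decay (hε : ‖(p : 𝕂)‖ < 1) {ρ : ℝ} (hρ0 : 0 ≤ ρ) (hρ1 : ρ < 1) :
    ∃ K' : ℝ, 0 ≤ K' ∧ ∀ A B : 𝕂, ‖A‖ ≤ 1 → ‖B‖ ≤ 1 → ‖A - B‖ ≤ ρ → ∀ m : ℕ,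
      ‖A ^ (p ^ m) - B ^ (p ^ m)‖ ≤ K' * ‖(p : 𝕂)‖ ^ m := by
  have hε0 := norm_p_pos (p := p) (𝕂 := 𝕂)
  have hp2 := hp.out.two_le
  set ε := ‖(p : 𝕂)‖ with hεdef
  set γ : ℝ := max ε (ρ ^ (p - 1)) with hγ
  have hγ0 : 0 < γ := lt_max_of_lt_left hε0
  have hγ1 : γ < 1 := max_lt hε (pow_lt_one₀ hρ0 hρ1 (by omega))
  -- choose `m₀`
  have hlim : Tendsto (fun m : ℕ => (γ ^ m * ρ) ^ (p - 1)) atTop (𝓝 0) := by
    have h1 : Tendsto (fun m : ℕ => γ ^ m * ρ) atTop (𝓝 0) := by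
      simpa using (tendsto_pow_atTop_nhds_zero_of_lt_one hγ0.le hγ1).mul_const ρ
    have h2 := h1.pow (p - 1)
    rwa [zero_pow (by omega)] at h2
  obtain ⟨m₀, hm₀⟩ := (hlim.eventually (gt_mem_nhds hε0)).exists
  refine ⟨(ε⁻¹) ^ m₀, by positivity, fun A B hA hB hAB m => ?_⟩
  -- the powers stay in the unit ball
  have hApow : ∀ m : ℕ, ‖A ^ (p ^ m)‖ ≤ 1 := fun m => by
    rw [norm_pow]; exact pow_le_one₀ (norm_nonneg _) hA
  have hBpow : ∀ m : ℕ, ‖B ^ (p ^ m)‖ ≤ 1 := fun m => by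
    rw [norm_pow]; exact pow_le_one₀ (norm_nonneg _) hB
  set D : ℕ → ℝ := fun m => ‖A ^ (p ^ m) - B ^ (p ^ m)‖ with hD
  have hD0 : ∀ m, 0 ≤ D m := fun m => norm_nonneg _
  have hstep : ∀ m, D (m + 1) ≤ max (ε * D m) (D m ^ p) := by
    intro m
    have h := pow_p_diff (p := p) (hApow m) (hBpow m)
    simp only [hD]
    rw [pow_succ, pow_mul, pow_mul]
    exact h
  have hA1 : ∀ m, D m ≤ γ ^ m * ρ := by
    intro m
    induction m with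
    | zero => simpa [hD] using hAB
    | succ m ih =>
      have h1 : D m ≤ ρ := ih.trans (by
        have : γ ^ m ≤ 1 := pow_le_one₀ hγ0.le hγ1.le
        nlinarith)
      have h2 : D m ^ p ≤ ρ ^ (p - 1) * D m := by
        have h3 : D m ^ p = D m ^ (p - 1) * D m := by
          rw [← pow_succ]; congr 1; omega
        rw [h3]
        exact mul_le_mul_of_nonneg_right (pow_le_pow_left₀ (hD0 m) h1 _) (hD0 m)
      have h4 : D (m + 1) ≤ γ * D m := by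
        refine (hstep m).trans (max_le ?_ ?_)
        · exact mul_le_mul_of_nonneg_right (le_max_left _ _) (hD0 m)
        · exact h2.trans (mul_le_mul_of_nonneg_right (le_max_right _ _) (hD0 m))
      calc D (m + 1) ≤ γ * D m := h4
        _ ≤ γ * (γ ^ m * ρ) := mul_le_mul_of_nonneg_left ih hγ0.le
        _ = γ ^ (m + 1) * ρ := by ring
  have hsmall : ∀ k, D (m₀ + k) ^ (p - 1) ≤ ε := by
    intro k
    refine le_trans ?_ hm₀.le
    apply pow_le_pow_left₀ (hD0 _)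
    refine (hA1 _).trans ?_
    apply mul_le_mul_of_nonneg_right _ hρ0
    exact pow_le_pow_of_le_one hγ0.le hγ1.le (by omega)
  have hC : ∀ k, D (m₀ + k) ≤ ε ^ k := by
    intro k
    induction k with
    | zero =>
      have := hA1 m₀
      have h2 : γ ^ m₀ * ρ ≤ 1 := by
        have : γ ^ m₀ ≤ 1 := pow_le_one₀ hγ0.le hγ1.le
        nlinarith
      simpa using (hA1 m₀).trans h2
    | succ k ih =>
      have h1 : D (m₀ + k + 1) ≤ ε * D (m₀ + k) := by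
        refine (hstep _).trans (max_le le_rfl ?_)
        have h3 : D (m₀ + k) ^ p = D (m₀ + k) ^ (p - 1) * D (m₀ + k) := by
          rw [← pow_succ]; congr 1; omega
        rw [h3]
        exact mul_le_mul_of_nonneg_right (hsmall k) (hD0 _)
      calc D (m₀ + (k + 1)) = D (m₀ + k + 1) := by rw [add_assoc]
        _ ≤ ε * D (m₀ + k) := h1
        _ ≤ ε * ε ^ k := mul_le_mul_of_nonneg_left ih hε0.le
        _ = ε ^ (k + 1) := by ring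
  show D m ≤ _
  rcases le_total m₀ m with hm | hm
  · obtain ⟨k, rfl⟩ : ∃ k, m = m₀ + k := ⟨m - m₀, by omega⟩
    refine (hC k).trans (le_of_eq ?_)
    rw [pow_add, inv_pow]
    field_simp
  · obtain ⟨k, rfl⟩ : ∃ k, m₀ = m + k := ⟨m₀ - m, by omega⟩
    have h1 : D m ≤ 1 := by
      refine (hA1 m).trans ?_
      have : γ ^ m ≤ 1 := pow_le_one₀ hγ0.le hγ1.le
      nlinarith
    refine h1.trans ?_
    have h2 : (ε⁻¹) ^ (m + k) * ε ^ m = (ε⁻¹) ^ k := by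
      rw [pow_add, inv_pow, inv_pow]
      field_simp
    rw [h2]
    exact one_le_pow₀ ((one_le_inv₀ hε0).2 hε.le)

variable [CompleteSpace 𝕂]

/-- summability of the lacunary series. -/
lemma logAt_summable (hε : ‖(p : 𝕂)‖ < 1) {w : Fin (n - 1) → 𝕂} (hw : ∀ i, ‖w i‖ ≤ 1) {y : 𝕂}
    (hy : ‖y‖ < 1) :
    Summable (fun m : ℕ => MvPolynomial.eval w (lam p n 𝕂 m) * y ^ (p ^ m)) := by
  obtain ⟨r, hr0, hr1, hxr⟩ : ∃ r : ℝ, 0 < r ∧ r < 1 ∧ ‖y‖ < r :=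
    ⟨(‖y‖ + 1) / 2, by positivity, by linarith, by linarith⟩
  obtain ⟨K, hK⟩ := logAt_GS (n := n) (p := p) hε hr0 hr1 hw
  have hinj : Function.Injective (fun m : ℕ => p ^ m) := Nat.pow_right_injective hp.out.two_le
  have h1 := (hK.summable hr0 hxr).comp_injective hinj
  refine h1.congr fun m => ?_
  simp only [Function.comp]
  rw [logAt, Crest.Agent.LT.Std.coeff_logSeries_pow hp.out.one_lt]

/-- close points have close logarithms, uniformly. -/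
lemma log_diff_bound (hε : ‖(p : 𝕂)‖ < 1) {w : Fin (n - 1) → 𝕂} (hw : ∀ i, ‖w i‖ ≤ 1) {ρ : ℝ}
    (hρ0 : 0 ≤ ρ) (hρ1 : ρ < 1) :
    ∃ K₀ : ℝ, 0 ≤ K₀ ∧ ∀ A B : 𝕂, ‖A‖ < 1 → ‖B‖ < 1 → ‖A - B‖ ≤ ρ →
      ‖ev1 (logAt p n w) A - ev1 (logAt p n w) B‖ ≤ K₀ := by
  have hε0 := norm_p_pos (p := p) (𝕂 := 𝕂)
  obtain ⟨K', hK'0, hK'⟩ := pow_diff_decay (p := p) hε hρ0 hρ1
  refine ⟨K', hK'0, fun A B hA hB hAB => ?_⟩
  rw [logAt, ev1_logSeries, ev1_logSeries, ← (logAt_summable hε hw hA).tsum_sub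
    (logAt_summable hε hw hB)]
  apply norm_tsum_le hK'0
  intro m
  rw [← mul_sub, norm_mul]
  have h1 := norm_eval_lam_le (n := n) hε hw m
  have h2 := hK' A B hA.le hB.le hAB m
  calc _ ≤ (‖(p : 𝕂)‖⁻¹) ^ m * (K' * ‖(p : 𝕂)‖ ^ m) :=
        mul_le_mul h1 h2 (norm_nonneg _) (by positivity)
    _ = K' := by
      rw [inv_pow]
      field_simp

/-- existence of a Gauss bound. -/
def HasGS (r : ℝ) (f : PowerSeries 𝕂) : Prop := ∃ K, GS r f K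

lemma ev1_finset_sum {ι : Type*} (I : Finset ι) (a : ι → 𝕂) (f : ι → PowerSeries 𝕂) {r : ℝ}
    (hr0 : 0 < r) (hf : ∀ i ∈ I, HasGS r (f i)) {x : 𝕂} (hx : ‖x‖ < r) :
    HasGS r (∑ i ∈ I, a i • f i) ∧ ev1 (∑ i ∈ I, a i • f i) x = ∑ i ∈ I, a i * ev1 (f i) x := by
  classical
  induction I using Finset.induction_on with
  | empty =>
    refine ⟨⟨0, fun j => by simp⟩, ?_⟩
    simp [ev1]
  | insert i I hi ih =>
    obtain ⟨⟨K, hK⟩, h2⟩ := ih (fun j hj => hf j (Finset.mem_insert_of_mem hj))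
    obtain ⟨L, hL⟩ := hf i (Finset.mem_insert_self i I)
    rw [Finset.sum_insert hi, Finset.sum_insert hi]
    refine ⟨⟨_, (hL.smul (a i)).add hK hr0.le⟩, ?_⟩
    rw [ev1_add (hL.smul (a i)) hK hr0 hx, ev1_smul, h2]

lemma isBdd0_monomial {c : 𝕂} (hc : ‖c‖ ≤ 1) {d : ℕ} (hd : d ≠ 0) :
    IsBdd0 (PowerSeries.C c * PowerSeries.X ^ d : PowerSeries 𝕂) := by
  classical
  constructor
  · intro j
    rw [PowerSeries.coeff_C_mul, PowerSeries.coeff_X_pow]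
    split_ifs
    · simpa using hc
    · simp
  · simp [hd]

lemma ev1_monomial (c y : 𝕂) (d : ℕ) :
    ev1 (PowerSeries.C c * PowerSeries.X ^ d : PowerSeries 𝕂) y = c * y ^ d := by
  classical
  unfold ev1
  rw [tsum_eq_single d]
  · rw [PowerSeries.coeff_C_mul, PowerSeries.coeff_X_pow, if_pos rfl, mul_one]
  · intro j hj
    rw [PowerSeries.coeff_C_mul, PowerSeries.coeff_X_pow, if_neg hj, mul_zero, zero_mul]

/-- **Equivariance** of the period vector against the functionals `Z_c`. -/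
theorem equivariance (hn : 1 ≤ n) (hε : ‖(p : 𝕂)‖ < 1)
    {ξ w' : Fin (n - 1) → 𝕂} (hξ : ∀ i, ‖ξ i‖ < 1) (hw' : ∀ i, ‖w' i‖ < 1)
    {ρ : ℝ} (hρ0 : 0 ≤ ρ) (hρ1 : ρ < 1)
    {θ θh : PowerSeries 𝕂} (hθ : IsBdd0 θ) (hθh : IsBdd0 θh)
    (hdiff : ∀ j, ‖PowerSeries.coeff j θ - PowerSeries.coeff j θh‖ ≤ ρ) {κ : 𝕂}
    (hlog : (logAt p n ξ).subst θ = κ • logAt p n w')
    {ι : Type*} (I : Finset ι) (t : ι → ℕ) (c : ι → 𝕂) (j : ι → ℕ)
    (hc : ∀ i, c i ^ (p ^ n) = c i) (hc1 : ∀ i, ‖c i‖ ≤ 1)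
    (hlogh : (logAt p n ξ).subst θh = logAt p n ξ + ∑ i ∈ I, (t i : 𝕂) •
      (logAt p n ξ).subst (PowerSeries.C (c i) * PowerSeries.X ^ (p ^ (j i)) : PowerSeries 𝕂))
    {x : ℕ → 𝕂} (hx : IsTower p n x) :
    κ * ∑ b ∈ Finset.range n, aa p n (b : ℤ) w' * Zc p n x b =
      ∑ b ∈ Finset.range n, aa p n (b : ℤ) ξ * Zc p n x b +
      ∑ i ∈ I, (t i : 𝕂) * ∑ b ∈ Finset.range n,
        aa p n (b : ℤ) ξ * (c i ^ (p ^ b) * Zc p n x (j i + b)) := by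
  classical
  have hε0 := norm_p_pos (p := p) (𝕂 := 𝕂)
  have hξ1 : ∀ i, ‖ξ i‖ ≤ 1 := fun i => (hξ i).le
  have hw'1 : ∀ i, ‖w' i‖ ≤ 1 := fun i => (hw' i).le
  have hpj : ∀ i, p ^ j i ≠ 0 := fun i => pow_ne_zero _ hp.out.ne_zero
  -- the limits
  have L1 := (tower_limit hn hε w' hw' hx).const_mul κ
  have L2 := tower_limit hn hε ξ hξ hx
  have L3 : ∀ i, Tendsto (fun N : ℕ => (p : 𝕂) ^ N * ev1 (logAt p n ξ) (c i * x N ^ (p ^ j i)))
      atTop (𝓝 (∑ b ∈ Finset.range n, aa p n (b : ℤ) ξ * (c i ^ (p ^ b) * Zc p n x (j i + b)))) := by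
    intro i
    have h := tower_limit hn hε ξ hξ (hx.twist (hc i) (hc1 i) (j i))
    simpa only [Zc_twist (hc i)] using h
  have L4 : Tendsto (fun N : ℕ => (p : 𝕂) ^ N * ev1 (logAt p n ξ) (x N) + ∑ i ∈ I, (t i : 𝕂) *
      ((p : 𝕂) ^ N * ev1 (logAt p n ξ) (c i * x N ^ (p ^ j i)))) atTop
      (𝓝 (∑ b ∈ Finset.range n, aa p n (b : ℤ) ξ * Zc p n x b +
      ∑ i ∈ I, (t i : 𝕂) * ∑ b ∈ Finset.range n,
        aa p n (b : ℤ) ξ * (c i ^ (p ^ b) * Zc p n x (j i + b)))) :=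
    L2.add (tendsto_finsetSum _ fun i _ => (L3 i).const_mul _)
  -- pointwise identities
  obtain ⟨K₀, hK₀0, hK₀⟩ := log_diff_bound (n := n) (p := p) hε hξ1 hρ0 hρ1
  have hN : ∀ N : ℕ, ‖κ * ((p : 𝕂) ^ N * ev1 (logAt p n w') (x N)) -
      ((p : 𝕂) ^ N * ev1 (logAt p n ξ) (x N) + ∑ i ∈ I, (t i : 𝕂) *
      ((p : 𝕂) ^ N * ev1 (logAt p n ξ) (c i * x N ^ (p ^ j i))))‖ ≤ K₀ * ‖(p : 𝕂)‖ ^ N := by
    intro N
    have hxN := hx.norm_lt N
    obtain ⟨r, hr0, hr1, hxr⟩ : ∃ r : ℝ, 0 < r ∧ r < 1 ∧ ‖x N‖ < r :=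
      ⟨(‖x N‖ + 1) / 2, by positivity, by linarith, by linarith⟩
    obtain ⟨K, hK⟩ := logAt_GS (n := n) (p := p) hε hr0 hr1 hξ1
    -- first identity
    have h1 : κ * ev1 (logAt p n w') (x N) = ev1 (logAt p n ξ) (ev1 θ (x N)) := by
      rw [← ev1_smul, ← hlog]
      exact ev1_subst hK hθ hr1.le hxr
    -- second identity
    have h2 : ev1 (logAt p n ξ) (ev1 θh (x N)) = ev1 (logAt p n ξ) (x N) + ∑ i ∈ I, (t i : 𝕂) *
        ev1 (logAt p n ξ) (c i * x N ^ (p ^ j i)) := by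
      rw [← ev1_subst hK hθh hr1.le hxr, hlogh]
      have hmono : ∀ i, IsBdd0 (PowerSeries.C (c i) * PowerSeries.X ^ (p ^ (j i)) : PowerSeries 𝕂) :=
        fun i => isBdd0_monomial (hc1 i) (hpj i)
      have hsub : ∀ i ∈ I, HasGS r ((logAt p n ξ).subst
          (PowerSeries.C (c i) * PowerSeries.X ^ (p ^ (j i)) : PowerSeries 𝕂)) :=
        fun i _ => ⟨K, hK.subst (hmono i) hr0 hr1.le⟩
      obtain ⟨⟨L, hL⟩, hs⟩ := ev1_finset_sum I (fun i => (t i : 𝕂)) _ hr0 hsub hxr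
      rw [ev1_add hK hL hr0 hxr, hs]
      congr 1
      apply Finset.sum_congr rfl
      intro i _
      rw [ev1_subst hK (hmono i) hr1.le hxr, ev1_monomial]
    have hA : ‖ev1 θ (x N)‖ < 1 := (hθ.norm_ev1_le hxN.le).trans_lt hxN
    have hB : ‖ev1 θh (x N)‖ < 1 := (hθh.norm_ev1_le hxN.le).trans_lt hxN
    have hAB : ‖ev1 θ (x N) - ev1 θh (x N)‖ ≤ ρ := by
      unfold ev1
      rw [← (gs_of_bdd hr0.le hr1.le hθ.norm_le |>.summable hr0 hxr).tsum_sub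
        (gs_of_bdd hr0.le hr1.le hθh.norm_le |>.summable hr0 hxr)]
      apply norm_tsum_le hρ0
      intro m
      rw [← sub_mul, norm_mul, norm_pow]
      have h3 : ‖x N‖ ^ m ≤ 1 := pow_le_one₀ (norm_nonneg _) hxN.le
      calc _ ≤ ρ * 1 := mul_le_mul (hdiff m) h3 (by positivity) hρ0
        _ = ρ := mul_one _
    have h4 := hK₀ _ _ hA hB hAB
    have h5 : κ * ((p : 𝕂) ^ N * ev1 (logAt p n w') (x N)) -
        ((p : 𝕂) ^ N * ev1 (logAt p n ξ) (x N) + ∑ i ∈ I, (t i : 𝕂) *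
        ((p : 𝕂) ^ N * ev1 (logAt p n ξ) (c i * x N ^ (p ^ j i)))) =
        (p : 𝕂) ^ N * (ev1 (logAt p n ξ) (ev1 θ (x N)) - ev1 (logAt p n ξ) (ev1 θh (x N))) := by
      rw [h2, ← h1, mul_sub, mul_add, Finset.mul_sum]
      have : ∀ i ∈ I, (t i : 𝕂) * ((p : 𝕂) ^ N * ev1 (logAt p n ξ) (c i * x N ^ (p ^ j i))) =
          (p : 𝕂) ^ N * ((t i : 𝕂) * ev1 (logAt p n ξ) (c i * x N ^ (p ^ j i))) := fun i _ => by ring
      rw [Finset.sum_congr rfl this]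
      ring
    rw [h5, norm_mul, norm_pow, mul_comm]
    exact mul_le_mul_of_nonneg_right h4 (by positivity)
  -- conclusion
  have hlim0 : Tendsto (fun N : ℕ => K₀ * ‖(p : 𝕂)‖ ^ N) atTop (𝓝 0) := by
    simpa using (tendsto_pow_atTop_nhds_zero_of_lt_one hε0.le hε).const_mul K₀
  have hzero := squeeze_zero_norm hN hlim0
  have h6 := hzero.add L4
  simp only [sub_add_cancel, zero_add] at h6
  exact tendsto_nhds_unique L1 h6

end Crest.Agent.Lib.LT.C0
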