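import Mathlib

/-!
# Gauss bounds for polynomials over an ultrametric field

`GB r g K` says that the Gauss norm of the polynomial `g` at radius `r` is at most `K`.
All the estimates of the char-0 stratum of S0351 are run through this predicate.
-/

namespace Crest.Agent.Lib.LT.C0

open MvPolynomial

set_option linter.unusedSectionVars false

variable {𝕂 : Type*} [NormedField 𝕂] [IsUltrametricDist 𝕂] {σ : Type*}

/-- The Gauss norm of `g` at radius `r` is at most `K`. -/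
def GB (r : ℝ) (g : MvPolynomial σ 𝕂) (K : ℝ) : Prop :=
  ∀ α : σ →₀ ℕ, ‖coeff α g‖ * r ^ α.degree ≤ K

lemma GB.mono {r K L : ℝ} {g : MvPolynomial σ 𝕂} (h : GB r g K) (hKL : K ≤ L) : GB r g L :=
  fun α => (h α).trans hKL

lemma GB.nonneg {r K : ℝ} {g : MvPolynomial σ 𝕂} (h : GB r g K) (hr : 0 ≤ r) : 0 ≤ K :=
  (mul_nonneg (norm_nonneg _) (pow_nonneg hr _)).trans (h 0)

lemma GB.add {r K : ℝ} {g h : MvPolynomial σ 𝕂} (hg : GB r g K) (hh : GB r h K) (hr : 0 ≤ r) :
    GB r (g + h) K := by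
  intro α
  rw [coeff_add]
  have hpow : 0 ≤ r ^ α.degree := pow_nonneg hr _
  calc ‖coeff α g + coeff α h‖ * r ^ α.degree
      ≤ max ‖coeff α g‖ ‖coeff α h‖ * r ^ α.degree :=
        mul_le_mul_of_nonneg_right (IsUltrametricDist.norm_add_le_max _ _) hpow
    _ ≤ K := by
        rcases le_total ‖coeff α g‖ ‖coeff α h‖ with h1 | h1
        · rw [max_eq_right h1]; exact hh α
        · rw [max_eq_left h1]; exact hg α

lemma GB.neg {r K : ℝ} {g : MvPolynomial σ 𝕂} (hg : GB r g K) : GB r (-g) K := by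
  intro α
  rw [coeff_neg, norm_neg]
  exact hg α

lemma GB.sub {r K : ℝ} {g h : MvPolynomial σ 𝕂} (hg : GB r g K) (hh : GB r h K) (hr : 0 ≤ r) :
    GB r (g - h) K := by
  rw [sub_eq_add_neg]
  exact hg.add hh.neg hr

lemma GB.zero {r K : ℝ} (hK : 0 ≤ K) : GB r (0 : MvPolynomial σ 𝕂) K := by
  intro α
  simpa using hK

lemma GB.sum {ι : Type*} {s : Finset ι} {r K : ℝ} {g : ι → MvPolynomial σ 𝕂}
    (hg : ∀ i ∈ s, GB r (g i) K) (hr : 0 ≤ r) (hK : 0 ≤ K) : GB r (∑ i ∈ s, g i) K := by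
  classical
  induction s using Finset.induction_on with
  | empty => simpa using GB.zero hK
  | insert a s ha ih =>
    rw [Finset.sum_insert ha]
    exact (hg a (Finset.mem_insert_self a s)).add
      (ih fun i hi => hg i (Finset.mem_insert_of_mem hi)) hr

lemma GB.mul {r K L : ℝ} {g h : MvPolynomial σ 𝕂} (hg : GB r g K) (hh : GB r h L) (hr' : 0 < r) :
    GB r (g * h) (K * L) := by
  classical
  have hr := hr'.le
  have hK := hg.nonneg hr
  have hL := hh.nonneg hr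
  intro α
  rw [coeff_mul]
  have hpow : 0 ≤ r ^ α.degree := pow_nonneg hr _
  have key : ‖∑ x ∈ Finset.HasAntidiagonal.antidiagonal α, coeff x.1 g * coeff x.2 h‖ ≤ (K * L) / r ^ α.degree := by
    apply IsUltrametricDist.norm_sum_le_of_forall_le_of_nonneg (by positivity)
    intro x hx
    have hx' : x.1 + x.2 = α := Finset.HasAntidiagonal.mem_antidiagonal.1 hx
    rw [norm_mul, le_div_iff₀ (pow_pos hr' _), ← hx', map_add, pow_add]
    have h1 := hg x.1
    have h2 := hh x.2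
    calc ‖coeff x.1 g‖ * ‖coeff x.2 h‖ * (r ^ x.1.degree * r ^ x.2.degree)
        = (‖coeff x.1 g‖ * r ^ x.1.degree) * (‖coeff x.2 h‖ * r ^ x.2.degree) := by ring
      _ ≤ K * L := mul_le_mul h1 h2 (mul_nonneg (norm_nonneg _) (pow_nonneg hr _)) hK
  calc _ ≤ (K * L) / r ^ α.degree * r ^ α.degree := mul_le_mul_of_nonneg_right key hpow
    _ = K * L := by field_simp

lemma GB.const {r K : ℝ} {c : 𝕂} (hc : ‖c‖ ≤ K) (hK : 0 ≤ K) :
    GB r (MvPolynomial.C c : MvPolynomial σ 𝕂) K := by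
  classical
  intro α
  rw [coeff_C]
  split_ifs with h
  · subst h; simpa using hc
  · simpa using hK

lemma GB.one {r : ℝ} : GB r (1 : MvPolynomial σ 𝕂) 1 := by
  have := GB.const (σ := σ) (r := r) (c := (1 : 𝕂)) (K := 1) (by simp) zero_le_one
  simpa using this

lemma GB.X {r : ℝ} (hr : 0 ≤ r) (i : σ) : GB r (MvPolynomial.X i : MvPolynomial σ 𝕂) r := by
  classical
  intro α
  rw [coeff_X]
  split_ifs with h
  · subst h
    simp
  · simpa using hr

lemma GB.pow {r K : ℝ} {g : MvPolynomial σ 𝕂} (hg : GB r g K) (hr : 0 < r) (k : ℕ) :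
    GB r (g ^ k) (K ^ k) := by
  induction k with
  | zero => simpa using (GB.one (r := r) (σ := σ) (𝕂 := 𝕂))
  | succ k ih =>
    rw [pow_succ, pow_succ]
    exact ih.mul hg hr

lemma GB.C_mul {r K : ℝ} {c : 𝕂} {g : MvPolynomial σ 𝕂} (hg : GB r g K) :
    GB r (MvPolynomial.C c * g) (‖c‖ * K) := by
  intro α
  rw [coeff_C_mul, norm_mul, mul_assoc]
  exact mul_le_mul_of_nonneg_left (hg α) (norm_nonneg _)

lemma GB.smul_nat_le {r K : ℝ} {g : MvPolynomial σ 𝕂} (hg : GB r g K) (hr : 0 ≤ r) (k : ℕ) :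
    GB r ((k : MvPolynomial σ 𝕂) * g) K := by
  have h := GB.C_mul (c := (k : 𝕂)) hg
  have hnorm : ‖(k : 𝕂)‖ ≤ 1 := IsUltrametricDist.norm_natCast_le_one 𝕂 k
  have hK := hg.nonneg hr
  have h2 : GB r ((k : MvPolynomial σ 𝕂) * g) (‖(k : 𝕂)‖ * K) := by
    simpa using h
  exact h2.mono (by nlinarith [norm_nonneg (k : 𝕂)])

/-- evaluation is bounded by the Gauss norm on the polydisc. -/
lemma GB.eval [Fintype σ] {r K : ℝ} {g : MvPolynomial σ 𝕂} (hg : GB r g K) (hr : 0 ≤ r)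
    {w : σ → 𝕂} (hw : ∀ i, ‖w i‖ ≤ r) : ‖MvPolynomial.eval w g‖ ≤ K := by
  classical
  have hK := hg.nonneg hr
  rw [MvPolynomial.eval_eq']
  apply IsUltrametricDist.norm_sum_le_of_forall_le_of_nonneg hK
  intro α _
  rw [norm_mul, norm_prod]
  refine le_trans ?_ (hg α)
  apply mul_le_mul_of_nonneg_left _ (norm_nonneg _)
  have h1 : ∏ i, ‖w i ^ α i‖ ≤ ∏ i, r ^ α i := by
    apply Finset.prod_le_prod (fun _ _ => norm_nonneg _)
    intro i _
    rw [norm_pow]
    exact pow_le_pow_left₀ (norm_nonneg _) (hw i) _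
  refine h1.trans (le_of_eq ?_)
  rw [Finset.prod_pow_eq_pow_sum, Finsupp.degree_eq_sum]

lemma GB.pderiv {r K : ℝ} {g : MvPolynomial σ 𝕂} (hg : GB r g K) (hr : 0 < r) (i : σ) :
    GB r (MvPolynomial.pderiv i g) (K / r) := by
  classical
  intro α
  rw [coeff_pderiv, norm_mul, le_div_iff₀ hr]
  have h1 := hg (α + Finsupp.single i 1)
  have h2 : (α + Finsupp.single i 1).degree = α.degree + 1 := by
    rw [map_add]; simp
  rw [h2, pow_succ] at h1
  have h3 : ‖((α i : 𝕂) + 1)‖ ≤ 1 := by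
    have := IsUltrametricDist.norm_natCast_le_one 𝕂 (α i + 1)
    simpa using this
  calc ‖coeff (α + Finsupp.single i 1) g‖ * ‖((α i : 𝕂) + 1)‖ * r ^ α.degree * r
      ≤ ‖coeff (α + Finsupp.single i 1) g‖ * 1 * r ^ α.degree * r := by
        gcongr
    _ = ‖coeff (α + Finsupp.single i 1) g‖ * (r ^ α.degree * r) := by ring
    _ ≤ K := h1

end Crest.Agent.Lib.LT.C0
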