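import Crest.Prelude.Def_LubinTate
import Crest.Agent.Lib.LT.FGL
import Crest.Agent.Lib.LT.StdLaw

/-!
# Finite sums of series under a formal group law

`thetaHat F g t = X +_F ∑^F_e [t e]_F (g e)`, the sum being taken along `Finset.univ.toList`
(any order: what matters is only the listed properties).
-/

set_option autoImplicit false

open Crest.LubinTate

namespace Crest.Agent.LT.C0Thin

variable {R S : Type*} [CommRing R] [CommRing S] {κ : Type*} [Fintype κ]

/-- `X +_F ∑^F_e [t e]_F (g e)`. -/
noncomputable def thetaHat (F : FormalGroup R) (g : κ → PowerSeries R) (t : κ → ℕ) : PowerSeries R :=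
  (Finset.univ.toList : List κ).foldl (fun acc e => fadd F.toPowerSeries acc (nmul F (t e) (g e)))
    PowerSeries.X

variable (F : FormalGroup R) {g : κ → PowerSeries R} (t : κ → ℕ)

/-- the fold over a general list, from a general start -/
private noncomputable def foldHat (F : FormalGroup R) (g : κ → PowerSeries R) (t : κ → ℕ)
    (l : List κ) (x : PowerSeries R) : PowerSeries R :=
  l.foldl (fun acc e => fadd F.toPowerSeries acc (nmul F (t e) (g e))) x

private theorem foldHat_cons (l : List κ) (e : κ) (x : PowerSeries R) :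
    foldHat F g t (e :: l) x = foldHat F g t l (fadd F.toPowerSeries x (nmul F (t e) (g e))) := rfl

private theorem foldHat_nil (x : PowerSeries R) : foldHat F g t [] x = x := rfl

private theorem constantCoeff_foldHat (hg : ∀ e, PowerSeries.constantCoeff (g e) = 0)
    (l : List κ) {x : PowerSeries R} (hx : PowerSeries.constantCoeff x = 0) :
    PowerSeries.constantCoeff (foldHat F g t l x) = 0 := by
  induction l generalizing x with
  | nil => simpa [foldHat_nil] using hx
  | cons e l ih =>
    rw [foldHat_cons]
    exact ih (constantCoeff_fadd F hx (constantCoeff_nmul F _ (hg e)))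

theorem constantCoeff_thetaHat (hg : ∀ e, PowerSeries.constantCoeff (g e) = 0) :
    PowerSeries.constantCoeff (thetaHat F g t) = 0 :=
  constantCoeff_foldHat F t hg _ constantCoeff_PX

private theorem map_fadd (φ : R →+* S) {x y : PowerSeries R}
    (hx : PowerSeries.constantCoeff x = 0) (hy : PowerSeries.constantCoeff y = 0) :
    PowerSeries.map φ (fadd F.toPowerSeries x y) =
      fadd (F.map φ).toPowerSeries (PowerSeries.map φ x) (PowerSeries.map φ y) := by
  have hp := hasSubst_pair hx hy
  have : PowerSeries.map φ (fadd F.toPowerSeries x y) =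
      MvPowerSeries.map φ (MvPowerSeries.subst ![x, y] F.toPowerSeries) := rfl
  rw [this, MvPowerSeries.map_subst hp]
  unfold fadd
  simp only [FormalGroup.map_toPowerSeries]
  congr 1
  ext s
  fin_cases s <;> rfl

private theorem map_nmul (φ : R →+* S) (m : ℕ) {x : PowerSeries R}
    (hx : PowerSeries.constantCoeff x = 0) :
    PowerSeries.map φ (nmul F m x) = nmul (F.map φ) m (PowerSeries.map φ x) := by
  unfold nmul
  have : PowerSeries.map φ (PowerSeries.subst x (mulSeries F m)) =
      MvPowerSeries.map φ (PowerSeries.subst x (mulSeries F m)) := rfl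
  rw [mulSeries_map, this, PowerSeries.map_subst (hasSubst_one hx)]
  rfl

private theorem map_foldHat (φ : R →+* S) (hg : ∀ e, PowerSeries.constantCoeff (g e) = 0)
    (l : List κ) {x : PowerSeries R} (hx : PowerSeries.constantCoeff x = 0) :
    PowerSeries.map φ (foldHat F g t l x) =
      foldHat (F.map φ) (fun e => PowerSeries.map φ (g e)) t l (PowerSeries.map φ x) := by
  induction l generalizing x with
  | nil => rfl
  | cons e l ih =>
    rw [foldHat_cons, foldHat_cons, ih (constantCoeff_fadd F hx (constantCoeff_nmul F _ (hg e))),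
      map_fadd F φ hx (constantCoeff_nmul F _ (hg e)), map_nmul F φ _ (hg e)]

theorem map_thetaHat (φ : R →+* S) (hg : ∀ e, PowerSeries.constantCoeff (g e) = 0) :
    PowerSeries.map φ (thetaHat F g t) =
      thetaHat (F.map φ) (fun e => PowerSeries.map φ (g e)) t := by
  have := map_foldHat F t φ hg (Finset.univ.toList : List κ) (x := PowerSeries.X) constantCoeff_PX
  rw [PowerSeries.map_X] at this
  exact this

/-- The sum of two homomorphisms into a commutative law is a homomorphism. -/
private theorem isFGHom_fadd [F.IsComm] {a b : PowerSeries R} (ha : IsFGHom F F a)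
    (hb : IsFGHom F F b) : IsFGHom F F (fadd F.toPowerSeries a b) := by
  refine ⟨constantCoeff_fadd F ha.1 hb.1, ?_⟩
  have hF : MvPowerSeries.constantCoeff F.toPowerSeries = 0 := F.zero_constantCoeff
  have hX0 : MvPowerSeries.constantCoeff (MvPowerSeries.X 0 : MvPowerSeries (Fin 2) R) = 0 := by simp
  have hX1 : MvPowerSeries.constantCoeff (MvPowerSeries.X 1 : MvPowerSeries (Fin 2) R) = 0 := by simp
  rw [psubst_fadd _ ha.1 hb.1 hF, psubst_fadd _ ha.1 hb.1 hX0, psubst_fadd _ ha.1 hb.1 hX1, ha.2, hb.2]
  exact fadd_interchange F (constantCoeff_psubst hX0 ha.1) (constantCoeff_psubst hX1 ha.1)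
    (constantCoeff_psubst hX0 hb.1) (constantCoeff_psubst hX1 hb.1)

private theorem isFGHom_nmul [F.IsComm] (m : ℕ) {a : PowerSeries R} (ha : IsFGHom F F a) :
    IsFGHom F F (nmul F m a) :=
  hom_comp ha (isFGHom_mulSeries F m)

private theorem isFGHom_foldHat [F.IsComm] (hg : ∀ e, IsFGHom F F (g e)) (l : List κ)
    {x : PowerSeries R} (hx : IsFGHom F F x) : IsFGHom F F (foldHat F g t l x) := by
  induction l generalizing x with
  | nil => exact hx
  | cons e l ih =>
    rw [foldHat_cons]
    exact ih (isFGHom_fadd F hx (isFGHom_nmul F _ (hg e)))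

/-- The sum of endomorphisms of a commutative law is an endomorphism. -/
theorem isFGHom_thetaHat [F.IsComm] (hg : ∀ e, IsFGHom F F (g e)) :
    IsFGHom F F (thetaHat F g t) :=
  isFGHom_foldHat F t hg _ (isFGHom_X F)

private theorem nmul_mem_ordIdeal (m : ℕ) {M : ℕ} {x : PowerSeries R}
    (hx0 : PowerSeries.constantCoeff x = 0) (hx : x ∈ ordIdeal Unit R M) :
    nmul F m x ∈ ordIdeal Unit R M := by
  unfold nmul
  rw [PowerSeries.subst_def]
  have := subst_mem_ordIdeal (R := R) (σ := Unit) (τ := Unit) (a := fun _ => x) (b := M) (c := 1)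
    (hasSubst_one hx0).const (fun _ => hx) (Q := mulSeries F m)
    (mem_ordIdeal_one.mpr (constantCoeff_mulSeries F m))
  simpa using this

private theorem coeff_foldHat (hg0 : ∀ e, PowerSeries.constantCoeff (g e) = 0) (M : ℕ)
    (hg : ∀ e, g e ∈ ordIdeal Unit R M) (l : List κ) {x : PowerSeries R}
    (hx0 : PowerSeries.constantCoeff x = 0) (hx : x - PowerSeries.X ∈ ordIdeal Unit R M) :
    foldHat F g t l x - PowerSeries.X ∈ ordIdeal Unit R M := by
  induction l generalizing x with
  | nil => exact hx
  | cons e l ih =>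
    rw [foldHat_cons]
    refine ih (constantCoeff_fadd F hx0 (constantCoeff_nmul F _ (hg0 e))) ?_
    have hy := nmul_mem_ordIdeal F (t e) (hg0 e) (hg e)
    have hy0 := constantCoeff_nmul F (t e) (hg0 e)
    have h1 := fadd_sub_mem_ordIdeal F (x := x) (y := nmul F (t e) (g e)) (a := 0) (b := M)
      hx0 hy0 (mem_ordIdeal_zero x) hy
    rw [Nat.zero_add] at h1
    have h2 := add_mem (add_mem h1 hy) hx
    have h3 : fadd F.toPowerSeries x (nmul F (t e) (g e)) - x - nmul F (t e) (g e) +
        nmul F (t e) (g e) + (x - PowerSeries.X) =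
        fadd F.toPowerSeries x (nmul F (t e) (g e)) - PowerSeries.X := by ring
    rwa [h3] at h2

/-- If all `g e` vanish to order `M`, then `thetaHat F g t ≡ X` mod `X^M`. -/
theorem coeff_thetaHat (hg0 : ∀ e, PowerSeries.constantCoeff (g e) = 0) (M : ℕ)
    (hg : ∀ e, ∀ i < M, PowerSeries.coeff i (g e) = 0) :
    ∀ i < M, PowerSeries.coeff i (thetaHat F g t) = PowerSeries.coeff i PowerSeries.X := by
  have := coeff_foldHat F t hg0 M (fun e => mem_ordIdeal_iff_coeff.mpr (hg e))
    (Finset.univ.toList : List κ) (x := PowerSeries.X) constantCoeff_PX (by simp)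
  intro i hi
  have h2 := mem_ordIdeal_iff_coeff.mp this i hi
  rw [map_sub, sub_eq_zero] at h2
  exact h2

private theorem log_nmul {f : PowerSeries R} (hf0 : PowerSeries.constantCoeff f = 0)
    (hf : Std.IsLogSeries f F.toPowerSeries) (m : ℕ) {x : PowerSeries R}
    (hx : PowerSeries.constantCoeff x = 0) :
    f.subst (nmul F m x) = (m : R) • f.subst x := by
  unfold nmul
  have h1 : f.subst (PowerSeries.subst x (mulSeries F m)) =
      PowerSeries.subst x (f.subst (mulSeries F m)) :=
    (psubst_psubst (constantCoeff_mulSeries F m) hx f).symm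
  rw [h1, Std.log_mulSeries hf0 F hf m]
  have hs := (hasSubst_one hx)
  rw [← PowerSeries.coe_substAlgHom hs, map_mul, map_natCast, Nat.cast_smul_eq_nsmul, nsmul_eq_mul]

private theorem log_foldHat {f : PowerSeries R} (hf0 : PowerSeries.constantCoeff f = 0)
    (hf : Std.IsLogSeries f F.toPowerSeries) (hg0 : ∀ e, PowerSeries.constantCoeff (g e) = 0)
    (l : List κ) {x : PowerSeries R} (hx : PowerSeries.constantCoeff x = 0) :
    f.subst (foldHat F g t l x) = f.subst x + (l.map fun e => (t e : R) • f.subst (g e)).sum := by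
  induction l generalizing x with
  | nil => simp [foldHat_nil]
  | cons e l ih =>
    have h3 : f.subst (fadd F.toPowerSeries x (nmul F (t e) (g e))) =
        f.subst x + f.subst (nmul F (t e) (g e)) :=
      Std.log_bisubst hf0 F.zero_constantCoeff hf hx (constantCoeff_nmul F _ (hg0 e))
    rw [foldHat_cons, ih (constantCoeff_fadd F hx (constantCoeff_nmul F _ (hg0 e))), h3,
      log_nmul F hf0 hf _ (hg0 e), List.map_cons, List.sum_cons, add_assoc]

/-- The log of `thetaHat`. -/
theorem log_thetaHat {f : PowerSeries R} (hf0 : PowerSeries.constantCoeff f = 0)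
    (hf : Std.IsLogSeries f F.toPowerSeries) (hg0 : ∀ e, PowerSeries.constantCoeff (g e) = 0) :
    f.subst (thetaHat F g t) = f + ∑ e, (t e : R) • f.subst (g e) := by
  have := log_foldHat F t hf0 hf hg0 (Finset.univ.toList : List κ) (x := PowerSeries.X) constantCoeff_PX
  rw [PowerSeries.X_subst] at this
  refine this.trans ?_
  rw [Finset.sum_map_toList]

end Crest.Agent.LT.C0Thin
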