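import Crest.Agent.Lib.LT.C0Gauss

/-!
# The logarithm coefficients `λ_m` of the standard law, as polynomials

`lam M` is the coefficient of `X ^ (p ^ M)` of the logarithm of the standard (Hazewinkel) law over
`𝕂[u_1, …, u_{n-1}]`, with `u_n = 1`:
`p λ_{M+1} = ∑_{i<n, i ≤ M} λ_{M-i} u_{i+1} ^ (p ^ (M-i))`  (left recursion, the definition)
`p λ_{M+1} = ∑_{i<n, i ≤ M} u_{i+1} · σ^{i+1} (λ_{M-i})`  (right recursion, `lam_right`),
`σ : u ↦ u ^ p`.
-/

namespace Crest.Agent.Lib.LT.C0

open MvPolynomial

set_option linter.unusedSectionVars false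

variable (p : ℕ) [hp : Fact p.Prime] (n : ℕ) (𝕂 : Type*) [NormedField 𝕂] [IsUltrametricDist 𝕂]

/-- the variable `u_{i+1}` (`u_n = 1`). -/
noncomputable def vv (i : ℕ) : MvPolynomial (Fin (n - 1)) 𝕂 :=
  if h : i < n - 1 then X ⟨i, h⟩ else 1

/-- The coefficient `λ_M`. -/
noncomputable def lam : ℕ → MvPolynomial (Fin (n - 1)) 𝕂
  | 0 => 1
  | M + 1 => MvPolynomial.C ((p : 𝕂)⁻¹) *
      ∑ i ∈ Finset.range n, if i ≤ M then lam (M - i) * (vv n 𝕂 i) ^ (p ^ (M - i)) else 0
  decreasing_by omega

@[simp] lemma lam_zero : lam p n 𝕂 0 = 1 := by rw [lam]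

lemma lam_succ (M : ℕ) : lam p n 𝕂 (M + 1) = MvPolynomial.C ((p : 𝕂)⁻¹) *
      ∑ i ∈ Finset.range n, if i ≤ M then lam p n 𝕂 (M - i) * (vv n 𝕂 i) ^ (p ^ (M - i)) else 0 := by
  rw [lam]

variable {𝕂}

lemma expand_vv (k : ℕ) (i : ℕ) :
    expand k (vv n 𝕂 i) = (vv n 𝕂 i) ^ k := by
  unfold vv
  split_ifs with h
  · simp
  · simp

variable {p}

lemma p_ne [CharZero 𝕂] : (p : 𝕂) ≠ 0 := Nat.cast_ne_zero.2 hp.out.ne_zero

lemma C_p_mul_lam_succ [CharZero 𝕂] (M : ℕ) :
    MvPolynomial.C (p : 𝕂) * lam p n 𝕂 (M + 1) =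
      ∑ i ∈ Finset.range n, if i ≤ M then lam p n 𝕂 (M - i) * (vv n 𝕂 i) ^ (p ^ (M - i)) else 0 := by
  rw [lam_succ, ← mul_assoc, ← map_mul, mul_inv_cancel₀ (p_ne (𝕂 := 𝕂)), map_one, one_mul]

/-- The right recursion. -/
theorem lam_right [CharZero 𝕂] (M : ℕ) :
    MvPolynomial.C (p : 𝕂) * lam p n 𝕂 (M + 1) =
      ∑ j ∈ Finset.range n, if j ≤ M then
        vv n 𝕂 j * expand (p ^ (j + 1)) (lam p n 𝕂 (M - j)) else 0 := by
  induction M using Nat.strong_induction_on with
  | _ M ih =>
    have hC : (MvPolynomial.C (p : 𝕂) : MvPolynomial (Fin (n - 1)) 𝕂) ≠ 0 := by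
      simpa using p_ne (𝕂 := 𝕂) (p := p)
    apply mul_left_cancel₀ hC
    -- the symmetric double sum
    let T : ℕ → ℕ → MvPolynomial (Fin (n - 1)) 𝕂 := fun i j =>
      if i + j < M then
        vv n 𝕂 j * expand (p ^ (j + 1)) (lam p n 𝕂 (M - 1 - i - j)) * (vv n 𝕂 i) ^ (p ^ (M - i))
      else 0
    let D : ℕ → MvPolynomial (Fin (n - 1)) 𝕂 := fun i =>
      if i = M then MvPolynomial.C (p : 𝕂) * vv n 𝕂 i else 0
    have hL : MvPolynomial.C (p : 𝕂) * (MvPolynomial.C (p : 𝕂) * lam p n 𝕂 (M + 1)) =
        ∑ i ∈ Finset.range n, (D i + ∑ j ∈ Finset.range n, T i j) := by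
      rw [C_p_mul_lam_succ, Finset.mul_sum]
      apply Finset.sum_congr rfl
      intro i _
      rcases lt_trichotomy i M with hi | hi | hi
      · -- `i < M`
        have hle : i ≤ M := hi.le
        have hD : D i = 0 := by simp [D, hi.ne]
        rw [if_pos hle, hD, zero_add]
        obtain ⟨k, hk⟩ : ∃ k, M - i = k + 1 := ⟨M - i - 1, by omega⟩
        rw [hk, ← mul_assoc, ih k (by omega), Finset.sum_mul]
        apply Finset.sum_congr rfl
        intro j _
        by_cases hj : j ≤ k
        · have h1 : i + j < M := by omega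
          have h2 : M - 1 - i - j = k - j := by omega
          simp only [T, if_pos hj, if_pos h1, h2]
          rw [hk]
        · have h1 : ¬ i + j < M := by omega
          simp only [T, if_neg hj, if_neg h1, zero_mul]
      · -- `i = M`
        subst hi
        have hD : D i = MvPolynomial.C (p : 𝕂) * vv n 𝕂 i := by simp [D]
        rw [if_pos le_rfl, hD]
        have hT : ∑ j ∈ Finset.range n, T i j = 0 := by
          apply Finset.sum_eq_zero
          intro j _
          have : ¬ i + j < i := by omega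
          simp [T, this]
        rw [hT]
        simp
      · -- `M < i`
        have h1 : ¬ i ≤ M := by omega
        have hD : D i = 0 := by simp [D, hi.ne']
        have hT : ∑ j ∈ Finset.range n, T i j = 0 := by
          apply Finset.sum_eq_zero
          intro j _
          have : ¬ i + j < M := by omega
          simp [T, this]
        rw [if_neg h1, hD, hT]
        simp
    have hR : MvPolynomial.C (p : 𝕂) * (∑ j ∈ Finset.range n, if j ≤ M then
        vv n 𝕂 j * expand (p ^ (j + 1)) (lam p n 𝕂 (M - j)) else 0) =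
        ∑ j ∈ Finset.range n, (D j + ∑ i ∈ Finset.range n, T i j) := by
      rw [Finset.mul_sum]
      apply Finset.sum_congr rfl
      intro j _
      rcases lt_trichotomy j M with hj | hj | hj
      · -- `j < M`
        have hle : j ≤ M := hj.le
        have hD : D j = 0 := by simp [D, hj.ne]
        rw [if_pos hle, hD, zero_add]
        obtain ⟨k, hk⟩ : ∃ k, M - j = k + 1 := ⟨M - j - 1, by omega⟩
        have h3 : expand (p ^ (j + 1)) (MvPolynomial.C (p : 𝕂) * lam p n 𝕂 (k + 1)) =
            MvPolynomial.C (p : 𝕂) * expand (p ^ (j + 1)) (lam p n 𝕂 (k + 1)) := by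
          rw [map_mul, expand_C]
        have h4 : MvPolynomial.C (p : 𝕂) * (vv n 𝕂 j * expand (p ^ (j + 1)) (lam p n 𝕂 (k + 1))) =
            vv n 𝕂 j * expand (p ^ (j + 1)) (MvPolynomial.C (p : 𝕂) * lam p n 𝕂 (k + 1)) := by
          rw [h3]; ring
        rw [hk, h4, C_p_mul_lam_succ, map_sum, Finset.mul_sum]
        apply Finset.sum_congr rfl
        intro i _
        by_cases hi : i ≤ k
        · have h1 : i + j < M := by omega
          have h2 : M - 1 - i - j = k - i := by omega
          simp only [T, if_pos hi, if_pos h1, h2, map_mul, map_pow, expand_vv]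
          have h5 : ((vv n 𝕂 i ^ p ^ (j + 1)) ^ p ^ (k - i)) = vv n 𝕂 i ^ p ^ (M - i) := by
            rw [← pow_mul, ← pow_add]
            congr 2
            omega
          rw [h5]
          ring
        · have h1 : ¬ i + j < M := by omega
          simp only [T, if_neg hi, if_neg h1, map_zero, mul_zero]
      · -- `j = M`
        subst hj
        have hD : D j = MvPolynomial.C (p : 𝕂) * vv n 𝕂 j := by simp [D]
        rw [if_pos le_rfl, hD]
        have hT : ∑ i ∈ Finset.range n, T i j = 0 := by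
          apply Finset.sum_eq_zero
          intro i _
          have : ¬ i + j < j := by omega
          simp [T, this]
        rw [hT]
        simp
      · have h1 : ¬ j ≤ M := by omega
        have hD : D j = 0 := by simp [D, hj.ne']
        have hT : ∑ i ∈ Finset.range n, T i j = 0 := by
          apply Finset.sum_eq_zero
          intro i _
          have : ¬ i + j < M := by omega
          simp [T, this]
        rw [if_neg h1, hD, hT]
        simp
    rw [hL, hR, Finset.sum_add_distrib, Finset.sum_add_distrib, Finset.sum_comm]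

end Crest.Agent.Lib.LT.C0
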