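import Crest.Agent.Lib.LT.C0Lam

/-!
# The limits `a_b(w) = lim_m p^m λ_{b+nm}(w)` and their partial derivatives

Section (1a) of the proof of S0351.
-/

namespace Crest.Agent.Lib.LT.C0

open MvPolynomial Filter Topology

set_option linter.unusedSectionVars false

variable {p : ℕ} [hp : Fact p.Prime] {n : ℕ} {𝕂 : Type*} [NormedField 𝕂] [IsUltrametricDist 𝕂]

/-! ### real estimates -/

/-- super-exponential decay. -/
lemma superexp_tendsto (E r : ℝ) (hE : 0 ≤ E) (hr0 : 0 < r) (hr1 : r < 1) (hp2 : 2 ≤ p) :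
    Tendsto (fun l : ℕ => E ^ l * r ^ (p ^ l)) atTop (𝓝 0) := by
  -- eventually `r ^ l * E ≤ 1/2` and `l ^ 2 ≤ p ^ l`
  have h1 : Tendsto (fun l : ℕ => r ^ l * E) atTop (𝓝 0) := by
    simpa using (tendsto_pow_atTop_nhds_zero_of_lt_one hr0.le hr1).mul_const E
  have h2 : ∀ᶠ l : ℕ in atTop, r ^ l * E < 1 / 2 :=
    h1.eventually (gt_mem_nhds (by norm_num))
  have h3 : ∀ᶠ l : ℕ in atTop, l * l ≤ p ^ l := by
    filter_upwards [eventually_ge_atTop 4] with l hl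
    have hsq : l * l ≤ 2 ^ l := by
      induction l, hl using Nat.le_induction with
      | base => norm_num
      | succ k hk ih =>
        have : (k + 1) * (k + 1) ≤ 2 * (k * k) := by nlinarith
        calc (k + 1) * (k + 1) ≤ 2 * (k * k) := this
          _ ≤ 2 * 2 ^ k := by omega
          _ = 2 ^ (k + 1) := by ring
    exact hsq.trans (Nat.pow_le_pow_left hp2 l)
  have h4 : Tendsto (fun l : ℕ => ((1 : ℝ) / 2) ^ l) atTop (𝓝 0) :=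
    tendsto_pow_atTop_nhds_zero_of_lt_one (by norm_num) (by norm_num)
  refine squeeze_zero' (Eventually.of_forall fun l => by positivity) ?_ h4
  filter_upwards [h2, h3] with l hl2 hl3
  calc E ^ l * r ^ (p ^ l) ≤ E ^ l * r ^ (l * l) := by
        apply mul_le_mul_of_nonneg_left _ (pow_nonneg hE _)
        exact pow_le_pow_of_le_one hr0.le hr1.le hl3
    _ = (r ^ l * E) ^ l := by rw [mul_pow, ← pow_mul]; ring
    _ ≤ (1 / 2) ^ l := pow_le_pow_left₀ (by positivity) hl2.le _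

lemma ultra_cauchy {s : ℕ → 𝕂} (h : ∀ η > 0, ∃ m₀, ∀ m ≥ m₀, ‖s (m + 1) - s m‖ ≤ η) :
    CauchySeq s := by
  rw [Metric.cauchySeq_iff']
  intro η hη
  obtain ⟨m₀, hm₀⟩ := h (η / 2) (half_pos hη)
  refine ⟨m₀, fun m hm => ?_⟩
  have key : ∀ k, ∀ m ≥ m₀, ‖s (m + k) - s m‖ ≤ η / 2 := by
    intro k
    induction k with
    | zero => intro m _; simpa using (half_pos hη).le
    | succ k ih =>
      intro m hm
      have : s (m + (k + 1)) - s m = (s (m + k + 1) - s (m + k)) + (s (m + k) - s m) := by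
        rw [← add_assoc]; ring
      rw [this]
      refine (IsUltrametricDist.norm_add_le_max _ _).trans (max_le ?_ (ih m hm))
      exact hm₀ _ (by omega)
  obtain ⟨k, rfl⟩ : ∃ k, m = m₀ + k := ⟨m - m₀, by omega⟩
  rw [dist_eq_norm]
  have := key k m₀ le_rfl
  linarith

lemma exists_radius {σ : Type*} [Finite σ] (w : σ → 𝕂) (hw : ∀ i, ‖w i‖ < 1) :
    ∃ r : ℝ, 0 < r ∧ r < 1 ∧ ∀ i, ‖w i‖ ≤ r := by
  classical
  have := Fintype.ofFinite σ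
  by_cases hne : Nonempty σ
  · obtain ⟨i₀, hi₀⟩ := Finite.exists_max (fun i => ‖w i‖)
    refine ⟨max (1 / 2) ‖w i₀‖, by positivity, ?_, fun i => le_max_of_le_right (hi₀ i)⟩
    exact max_lt (by norm_num) (hw i₀)
  · exact ⟨1 / 2, by norm_num, by norm_num, fun i => (hne ⟨i⟩).elim⟩

/-! ### Gauss bounds of `lam` -/

variable [CharZero 𝕂]

lemma vv_GB {r : ℝ} (hr0 : 0 < r) (hr1 : r ≤ 1) (i : ℕ) : GB r (vv n 𝕂 i) 1 := by
  unfold vv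
  split_ifs with h
  · exact (GB.X hr0.le _).mono hr1
  · exact GB.one

lemma vv_GB_of_lt {r : ℝ} (hr0 : 0 < r) {i : ℕ} (hi : i < n - 1) : GB r (vv n 𝕂 i) r := by
  unfold vv
  rw [dif_pos hi]
  exact GB.X hr0.le _

lemma norm_p_pos : 0 < ‖(p : 𝕂)‖ := norm_pos_iff.2 (p_ne (𝕂 := 𝕂))

/-- the crude bound `‖λ_M‖_r ≤ ε^{-M}`. -/
lemma lam_GB (hε : ‖(p : 𝕂)‖ < 1) {r : ℝ} (hr0 : 0 < r) (hr1 : r ≤ 1) (M : ℕ) :
    GB r (lam p n 𝕂 M) ((‖(p : 𝕂)‖⁻¹) ^ M) := by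
  have hε0 := norm_p_pos (p := p) (𝕂 := 𝕂)
  have hEinv : 1 ≤ ‖(p : 𝕂)‖⁻¹ := (one_le_inv₀ hε0).2 hε.le
  induction M using Nat.strong_induction_on with
  | _ M ih =>
    cases M with
    | zero => simpa using GB.one
    | succ M =>
      rw [lam_succ]
      have hsum : GB r (∑ i ∈ Finset.range n,
          if i ≤ M then lam p n 𝕂 (M - i) * (vv n 𝕂 i) ^ (p ^ (M - i)) else 0)
          ((‖(p : 𝕂)‖⁻¹) ^ M) := by
        apply GB.sum _ hr0.le (by positivity)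
        intro i _
        split_ifs with hi
        · have h1 := (ih (M - i) (by omega)).mul ((vv_GB (n := n) (𝕂 := 𝕂) hr0 hr1 i).pow hr0 (p ^ (M - i))) hr0
          rw [one_pow, mul_one] at h1
          exact h1.mono (pow_le_pow_right₀ hEinv (by omega))
        · exact GB.zero (by positivity)
      have h2 := hsum.C_mul (c := (p : 𝕂)⁻¹)
      rw [norm_inv] at h2
      rwa [pow_succ']

/-- the poly `p^m λ_{b+nm}`. -/
noncomputable def gS (p n : ℕ) (𝕂 : Type*) [NormedField 𝕂] [IsUltrametricDist 𝕂] [Fact p.Prime]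
    (b : ℤ) (m : ℕ) : MvPolynomial (Fin (n - 1)) 𝕂 :=
  MvPolynomial.C ((p : 𝕂) ^ m) * lam p n 𝕂 (b + n * m).toNat

lemma gS_GB_crude (hε : ‖(p : 𝕂)‖ < 1) {r : ℝ} (hr0 : 0 < r) (hr1 : r ≤ 1) (b : ℤ) (m : ℕ) :
    GB r (gS p n 𝕂 b m) ((‖(p : 𝕂)‖⁻¹) ^ (b + n * m).toNat) := by
  have hε0 := norm_p_pos (p := p) (𝕂 := 𝕂)
  have h := (lam_GB (n := n) hε hr0 hr1 (b + n * m).toNat).C_mul (c := (p : 𝕂) ^ m)
  refine GB.mono h ?_
  rw [norm_pow]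
  have : ‖(p : 𝕂)‖ ^ m ≤ 1 := pow_le_one₀ hε0.le hε.le
  nlinarith [pow_pos (inv_pos.2 hε0) (b + n * m).toNat]

/-- `p λ_{M+1} - λ_{M+1-n}` -/
lemma lam_diff (hn : 1 ≤ n) (M : ℕ) (hM : n ≤ M + 1) :
    MvPolynomial.C (p : 𝕂) * lam p n 𝕂 (M + 1) - lam p n 𝕂 (M + 1 - n) =
      ∑ i ∈ Finset.range (n - 1), lam p n 𝕂 (M - i) * (vv n 𝕂 i) ^ (p ^ (M - i)) := by
  rw [C_p_mul_lam_succ]
  obtain ⟨k, rfl⟩ : ∃ k, n = k + 1 := ⟨n - 1, by omega⟩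
  rw [Finset.sum_range_succ]
  have h1 : vv (k + 1) 𝕂 k = 1 := by
    unfold vv
    rw [dif_neg (by omega)]
  rw [if_pos (by omega), h1, one_pow, mul_one]
  have h2 : M - k = M + 1 - (k + 1) := by omega
  rw [h2, add_sub_cancel_right]
  apply Finset.sum_congr rfl
  intro i hi
  rw [if_pos]
  have := Finset.mem_range.1 hi
  omega

/-- the Cauchy estimate of `gS` in the Gauss norm. -/
lemma gS_diff_small (hn : 1 ≤ n) (hε : ‖(p : 𝕂)‖ < 1) {r : ℝ} (hr0 : 0 < r) (hr1 : r < 1) (b : ℤ)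
    {η : ℝ} (hη : 0 < η) :
    ∃ m₀, ∀ m ≥ m₀, GB r (gS p n 𝕂 b (m + 1) - gS p n 𝕂 b m) η := by
  have hε0 := norm_p_pos (p := p) (𝕂 := 𝕂)
  have hEinv : 1 ≤ ‖(p : 𝕂)‖⁻¹ := (one_le_inv₀ hε0).2 hε.le
  have hp2 : 2 ≤ p := hp.out.two_le
  have ht := superexp_tendsto (p := p) (‖(p : 𝕂)‖⁻¹) r (by positivity) hr0 hr1 hp2
  have hev := ht.eventually (gt_mem_nhds hη)
  obtain ⟨l₀, hl₀⟩ := eventually_atTop.1 hev
  refine ⟨(l₀ + b.natAbs + 1), fun m hm => ?_⟩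
  have hnm : (m : ℤ) ≤ (n : ℤ) * m := by
    have : (1 : ℤ) ≤ n := by exact_mod_cast hn
    nlinarith [Int.natCast_nonneg m]
  have hb : 0 ≤ b + n * m := by
    have h1 : (b.natAbs : ℤ) ≤ m := by
      have : (l₀ + b.natAbs + 1 : ℤ) ≤ m := by exact_mod_cast hm
      omega
    have h2 : -(b.natAbs : ℤ) ≤ b := by omega
    omega
  obtain ⟨K, hK⟩ : ∃ K : ℕ, b + n * m = K := ⟨(b + n * m).toNat, by omega⟩
  -- `M + 1 = K + n`
  obtain ⟨M, hM⟩ : ∃ M : ℕ, K + n = M + 1 := ⟨K + n - 1, by omega⟩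
  have hKm : l₀ + 1 ≤ K + 1 := by
    have h1 : (l₀ + b.natAbs + 1 : ℤ) ≤ m := by exact_mod_cast hm
    have h2 : -(b.natAbs : ℤ) ≤ b := by omega
    have : (K : ℤ) = b + n * m := hK.symm
    omega
  have h1 : (b + (n : ℤ) * (m + 1 : ℕ)).toNat = M + 1 := by
    push_cast
    have : b + (n : ℤ) * (m + 1) = ((M + 1 : ℕ) : ℤ) := by
      rw [← hM]; push_cast; linarith [hK]
    rw [this, Int.toNat_natCast]
  have h2 : (b + (n : ℤ) * m).toNat = M + 1 - n := by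
    rw [hK, Int.toNat_natCast]; omega
  have heq : gS p n 𝕂 b (m + 1) - gS p n 𝕂 b m =
      MvPolynomial.C ((p : 𝕂) ^ m) *
        (∑ i ∈ Finset.range (n - 1), lam p n 𝕂 (M - i) * (vv n 𝕂 i) ^ (p ^ (M - i))) := by
    rw [← lam_diff hn M (by omega), gS, gS, h1, h2, mul_sub, pow_succ, map_mul]
    ring
  rw [heq]
  have hsum : GB r (∑ i ∈ Finset.range (n - 1), lam p n 𝕂 (M - i) * (vv n 𝕂 i) ^ (p ^ (M - i))) η := by
    apply GB.sum _ hr0.le hη.le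
    intro i hi
    have hi' := Finset.mem_range.1 hi
    have h3 := (lam_GB (n := n) hε hr0 hr1.le (M - i)).mul
      ((vv_GB_of_lt (n := n) (𝕂 := 𝕂) hr0 hi').pow hr0 (p ^ (M - i))) hr0
    refine h3.mono ?_
    exact (hl₀ (M - i) (by omega)).le
  have h4 := hsum.C_mul (c := (p : 𝕂) ^ m)
  refine h4.mono ?_
  rw [norm_pow]
  have : ‖(p : 𝕂)‖ ^ m ≤ 1 := pow_le_one₀ hε0.le hε.le
  nlinarith

/-- Uniform Gauss bound of `p^m λ_{b+nm}`. -/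
lemma gS_bounded (hn : 1 ≤ n) (hε : ‖(p : 𝕂)‖ < 1) {r : ℝ} (hr0 : 0 < r) (hr1 : r < 1) (b : ℤ) :
    ∃ K : ℝ, 0 ≤ K ∧ ∀ m, GB r (gS p n 𝕂 b m) K := by
  have hε0 := norm_p_pos (p := p) (𝕂 := 𝕂)
  have hEinv : 1 ≤ ‖(p : 𝕂)‖⁻¹ := (one_le_inv₀ hε0).2 hε.le
  obtain ⟨m₀, hm₀⟩ := gS_diff_small (n := n) (p := p) (𝕂 := 𝕂) hn hε hr0 hr1 b one_pos
  refine ⟨(‖(p : 𝕂)‖⁻¹) ^ (b + n * m₀).toNat, by positivity, fun m => ?_⟩
  have hK1 : (1 : ℝ) ≤ (‖(p : 𝕂)‖⁻¹) ^ (b + n * m₀).toNat := one_le_pow₀ hEinv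
  rcases le_total m m₀ with hm | hm
  · refine (gS_GB_crude (n := n) hε hr0 hr1.le b m).mono (pow_le_pow_right₀ hEinv ?_)
    have : (n : ℤ) * m ≤ n * m₀ := by
      apply mul_le_mul_of_nonneg_left _ (Int.natCast_nonneg n)
      exact_mod_cast hm
    omega
  · obtain ⟨k, rfl⟩ : ∃ k, m = m₀ + k := ⟨m - m₀, by omega⟩
    induction k with
    | zero => exact gS_GB_crude (n := n) hε hr0 hr1.le b m₀
    | succ k ih =>
      have h1 := ih (by omega)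
      have h2 : GB r (gS p n 𝕂 b (m₀ + k + 1) - gS p n 𝕂 b (m₀ + k))
          ((‖(p : 𝕂)‖⁻¹) ^ (b + n * m₀).toNat) := (hm₀ (m₀ + k) (by omega)).mono hK1
      have h3 := h2.add h1 hr0.le
      rw [sub_add_cancel] at h3
      exact h3

variable [CompleteSpace 𝕂]

/-- `a_b(w)`. -/
noncomputable def aa (p n : ℕ) {𝕂 : Type*} [NormedField 𝕂] [IsUltrametricDist 𝕂] [Fact p.Prime]
    (b : ℤ) (w : Fin (n - 1) → 𝕂) : 𝕂 :=
  limUnder atTop (fun m : ℕ => MvPolynomial.eval w (gS p n 𝕂 b m))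

/-- `∂_i a_b(w)`. -/
noncomputable def dd (p n : ℕ) {𝕂 : Type*} [NormedField 𝕂] [IsUltrametricDist 𝕂] [Fact p.Prime]
    (b : ℤ) (i : Fin (n - 1)) (w : Fin (n - 1) → 𝕂) : 𝕂 :=
  limUnder atTop (fun m : ℕ => MvPolynomial.eval w (pderiv i (gS p n 𝕂 b m)))

theorem aa_tendsto (hn : 1 ≤ n) (hε : ‖(p : 𝕂)‖ < 1) (b : ℤ) (w : Fin (n - 1) → 𝕂)
    (hw : ∀ i, ‖w i‖ < 1) :
    Tendsto (fun m : ℕ => MvPolynomial.eval w (gS p n 𝕂 b m)) atTop (𝓝 (aa p n b w)) := by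
  obtain ⟨r, hr0, hr1, hwr⟩ := exists_radius w hw
  have hc : CauchySeq (fun m : ℕ => MvPolynomial.eval w (gS p n 𝕂 b m)) := by
    apply ultra_cauchy
    intro η hη
    obtain ⟨m₀, hm₀⟩ := gS_diff_small (n := n) (p := p) (𝕂 := 𝕂) hn hε hr0 hr1 b hη
    refine ⟨m₀, fun m hm => ?_⟩
    rw [← map_sub]
    exact (hm₀ m hm).eval hr0.le hwr
  obtain ⟨a, ha⟩ := cauchySeq_tendsto_of_complete hc
  exact tendsto_nhds_limUnder ⟨a, ha⟩

theorem dd_tendsto (hn : 1 ≤ n) (hε : ‖(p : 𝕂)‖ < 1) (b : ℤ) (i : Fin (n - 1)) (w : Fin (n - 1) → 𝕂)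
    (hw : ∀ i, ‖w i‖ < 1) :
    Tendsto (fun m : ℕ => MvPolynomial.eval w (pderiv i (gS p n 𝕂 b m))) atTop
      (𝓝 (dd p n b i w)) := by
  obtain ⟨r, hr0, hr1, hwr⟩ := exists_radius w hw
  have hc : CauchySeq (fun m : ℕ => MvPolynomial.eval w (pderiv i (gS p n 𝕂 b m))) := by
    apply ultra_cauchy
    intro η hη
    obtain ⟨m₀, hm₀⟩ := gS_diff_small (n := n) (p := p) (𝕂 := 𝕂) hn hε hr0 hr1 b
      (mul_pos hη hr0)
    refine ⟨m₀, fun m hm => ?_⟩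
    rw [← map_sub, ← map_sub]
    have := ((hm₀ m hm).pderiv hr0 i).eval hr0.le hwr
    rwa [mul_div_cancel_right₀ _ hr0.ne'] at this
  obtain ⟨a, ha⟩ := cauchySeq_tendsto_of_complete hc
  exact tendsto_nhds_limUnder ⟨a, ha⟩

/-- the uniform bound for `a_b` on a polydisc. -/
theorem aa_bounded (hn : 1 ≤ n) (hε : ‖(p : 𝕂)‖ < 1) {r : ℝ} (hr0 : 0 < r) (hr1 : r < 1) (b : ℤ) :
    ∃ K : ℝ, 0 ≤ K ∧ ∀ w : Fin (n - 1) → 𝕂, (∀ i, ‖w i‖ ≤ r) → ‖aa p n b w‖ ≤ K := by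
  obtain ⟨K, hK0, hK⟩ := gS_bounded (n := n) (p := p) (𝕂 := 𝕂) hn hε hr0 hr1 b
  refine ⟨K, hK0, fun w hw => ?_⟩
  have hw' : ∀ i, ‖w i‖ < 1 := fun i => (hw i).trans_lt hr1
  have h := (aa_tendsto hn hε b w hw').norm
  exact le_of_tendsto h (Eventually.of_forall fun m => (hK m).eval hr0.le hw)

/-- `a_{b+n} = p⁻¹ a_b`. -/
theorem aa_add_n (hn : 1 ≤ n) (hε : ‖(p : 𝕂)‖ < 1) (b : ℤ) (w : Fin (n - 1) → 𝕂)
    (hw : ∀ i, ‖w i‖ < 1) : (p : 𝕂) * aa p n (b + n) w = aa p n b w := by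
  have h1 := (aa_tendsto hn hε (b + n) w hw).const_mul (p : 𝕂)
  have h2 := (tendsto_add_atTop_iff_nat 1).2 (aa_tendsto hn hε b w hw)
  refine tendsto_nhds_unique h1 (h2.congr fun m => ?_)
  rw [gS, gS, map_mul, map_mul, eval_C, eval_C, pow_succ]
  have : b + (n : ℤ) * ((m + 1 : ℕ) : ℤ) = b + n + n * m := by push_cast; ring
  rw [this]
  ring

end Crest.Agent.Lib.LT.C0
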