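import Mathlib

/-!
# Lacunary logarithms and Hazewinkel's functional equation lemma

`logSeries p c = ∑ c m X ^ (p ^ m)`.
-/

set_option autoImplicit false

namespace Crest.Agent.LT.Std

open scoped BigOperators

section Ord

variable {τ L : Type*} [CommRing L]

/-- All coefficients of degree `< N` vanish. -/
def OrdGE (N : ℕ) (w : MvPowerSeries τ L) : Prop :=
  ∀ e : τ →₀ ℕ, e.degree < N → MvPowerSeries.coeff e w = 0

lemma OrdGE.mono {a b : ℕ} {w : MvPowerSeries τ L} (h : OrdGE a w) (hb : b ≤ a) : OrdGE b w :=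
  fun e he => h e (lt_of_lt_of_le he hb)

lemma OrdGE.zero (N : ℕ) : OrdGE N (0 : MvPowerSeries τ L) := fun e _ => by simp

lemma OrdGE.add {N : ℕ} {w v : MvPowerSeries τ L} (h : OrdGE N w) (h' : OrdGE N v) :
    OrdGE N (w + v) := fun e he => by simp [h e he, h' e he]

lemma OrdGE.sub {N : ℕ} {w v : MvPowerSeries τ L} (h : OrdGE N w) (h' : OrdGE N v) :
    OrdGE N (w - v) := fun e he => by simp [h e he, h' e he]

lemma OrdGE.mul {a b : ℕ} {w v : MvPowerSeries τ L} (h : OrdGE a w) (h' : OrdGE b v) :
    OrdGE (a + b) (w * v) := by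
  classical
  intro e he
  rw [MvPowerSeries.coeff_mul]
  refine Finset.sum_eq_zero fun x hx => ?_
  have hx' : x.1 + x.2 = e := by simpa using hx
  have hd : x.1.degree + x.2.degree = e.degree := by
    rw [← hx', map_add]
  by_cases h1 : x.1.degree < a
  · rw [h _ h1, zero_mul]
  · have h2 : x.2.degree < b := by omega
    rw [h' _ h2, mul_zero]

lemma ordGE_of_constantCoeff {w : MvPowerSeries τ L} (h : MvPowerSeries.constantCoeff w = 0) :
    OrdGE 1 w := by
  intro e he
  have : e = 0 := by
    have : e.degree = 0 := by omega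
    exact (Finsupp.degree_eq_zero_iff e).mp this
  subst this
  simpa using h

lemma OrdGE.constantCoeff {N : ℕ} {w : MvPowerSeries τ L} (h : OrdGE (N + 1) w) :
    MvPowerSeries.constantCoeff w = 0 := by
  have := h 0 (by simp)
  simpa using this

lemma OrdGE.pow {N : ℕ} {w : MvPowerSeries τ L} (h : OrdGE N w) (k : ℕ) : OrdGE (k * N) (w ^ k) := by
  induction k with
  | zero =>
    intro e he
    simp at he
  | succ k ih =>
    rw [pow_succ, Nat.succ_mul]
    exact ih.mul h

/-- if `a - b` has order `≥ N` and `a, b` have order `≥ 1` then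
`a ^ (k+1) - b ^ (k+1)` has order `≥ N + k`. -/
lemma OrdGE.pow_sub_pow {N : ℕ} {a b : MvPowerSeries τ L} (ha : OrdGE 1 a) (hb : OrdGE 1 b)
    (hab : OrdGE N (a - b)) (k : ℕ) : OrdGE (N + k) (a ^ (k + 1) - b ^ (k + 1)) := by
  induction k with
  | zero => simpa using hab
  | succ k ih =>
    have e1 : a ^ (k + 1 + 1) - b ^ (k + 1 + 1)
        = a ^ (k + 1) * (a - b) + (a ^ (k + 1) - b ^ (k + 1)) * b := by ring
    rw [e1]
    apply OrdGE.add
    · have := (ha.pow (k + 1)).mul hab
      refine this.mono ?_
      omega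
    · have := ih.mul hb
      refine this.mono ?_
      omega

end Ord

section LogSeries

variable {L : Type*} [CommRing L] (p : ℕ)

/-- The lacunary series `∑ c m * X ^ (p ^ m)`. -/
noncomputable def logSeries (c : ℕ → L) : PowerSeries L :=
  PowerSeries.mk fun d => if d = p ^ Nat.log p d then c (Nat.log p d) else 0

variable {p}

lemma coeff_logSeries_pow (hp : 1 < p) (c : ℕ → L) (m : ℕ) :
    PowerSeries.coeff (p ^ m) (logSeries p c) = c m := by
  simp [logSeries, PowerSeries.coeff_mk, Nat.log_pow hp]

lemma coeff_logSeries_of_ne (c : ℕ → L) (d : ℕ) (hd : ∀ m, d ≠ p ^ m) :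
    PowerSeries.coeff d (logSeries p c) = 0 := by
  simp [logSeries, PowerSeries.coeff_mk, hd]

lemma constantCoeff_logSeries (hp : 1 < p) (c : ℕ → L) :
    PowerSeries.constantCoeff (logSeries p c) = 0 := by
  have : PowerSeries.coeff 0 (logSeries p c) = 0 := by
    apply coeff_logSeries_of_ne
    intro m h
    exact absurd h.symm (pow_ne_zero m (by omega))
  simpa using this

lemma coeff_one_logSeries (hp : 1 < p) (c : ℕ → L) :
    PowerSeries.coeff 1 (logSeries p c) = c 0 := by
  simpa using coeff_logSeries_pow (L := L) hp c 0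

lemma map_logSeries {S : Type*} [CommRing S] (φ : L →+* S) (c : ℕ → L) :
    PowerSeries.map φ (logSeries p c) = logSeries p (fun m => φ (c m)) := by
  ext d
  simp only [logSeries, PowerSeries.coeff_map, PowerSeries.coeff_mk]
  split_ifs <;> simp

variable {τ : Type*}

/-- Coefficient formula for the composition of a lacunary series with a series of zero constant
term. -/
lemma coeff_subst_logSeries (hp : 1 < p) (c : ℕ → L) {g : MvPowerSeries τ L}
    (hg : MvPowerSeries.constantCoeff g = 0) (e : τ →₀ ℕ) {K : ℕ} (hK : e.degree < K) :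
    MvPowerSeries.coeff e ((logSeries p c).subst g)
      = ∑ m ∈ Finset.range K, c m * MvPowerSeries.coeff e (g ^ (p ^ m)) := by
  classical
  have hs : PowerSeries.HasSubst g := PowerSeries.HasSubst.of_constantCoeff_zero hg
  rw [PowerSeries.coeff_subst hs]
  have hinj : Function.Injective (fun m : ℕ => p ^ m) := Nat.pow_right_injective hp
  have hg1 : OrdGE 1 g := ordGE_of_constantCoeff hg
  rw [finsum_eq_sum_of_support_subset (s := (Finset.range K).image (fun m => p ^ m))]
  · rw [Finset.sum_image (fun _ _ _ _ h => hinj h)]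
    refine Finset.sum_congr rfl fun m _ => ?_
    rw [coeff_logSeries_pow hp, smul_eq_mul]
  · intro d hd
    simp only [Function.mem_support] at hd
    have hd1 : PowerSeries.coeff d (logSeries p c) ≠ 0 := left_ne_zero_of_smul hd
    have hd2 : MvPowerSeries.coeff e (g ^ d) ≠ 0 := right_ne_zero_of_smul hd
    have : ∃ m, d = p ^ m := by
      by_contra hcon
      push Not at hcon
      exact hd1 (coeff_logSeries_of_ne c d hcon)
    obtain ⟨m, rfl⟩ := this
    simp only [Finset.coe_image, Set.mem_image, Finset.mem_coe, Finset.mem_range]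
    refine ⟨m, ?_, rfl⟩
    by_contra hm
    apply hd2
    have h3 := hg1.pow (p ^ m)
    apply h3
    have : m < p ^ m := Nat.lt_pow_self hp
    omega

end LogSeries

end Crest.Agent.LT.Std
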