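import Crest.Agent.Lib.LT.C0Rec
import Crest.Agent.Lib.LT.Eval1
import Crest.Agent.Lib.LT.StdLog

/-!
# Test towers and the functionals `Z_c`

Section (1d) of the proof of S0351, without `Psi`: for an exact tower `x` (`x (N+1) ^ q = x N`),
`p^N ℓ_w (x N) → ∑_{b<n} a_b(w) Z_b(x)`.
-/

namespace Crest.Agent.Lib.LT.C0

open MvPolynomial Filter Topology
open Crest.Agent.LT.Std (logSeries)
open Crest.Agent.Lib.LT.Eval1

set_option linter.unusedSectionVars false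

variable {p : ℕ} [hp : Fact p.Prime] {n : ℕ} {𝕂 : Type*} [NormedField 𝕂] [IsUltrametricDist 𝕂]

/-- An exact tower of `q`-th roots in the open unit ball. -/
structure IsTower (p n : ℕ) (x : ℕ → 𝕂) : Prop where
  pow : ∀ N, x (N + 1) ^ (p ^ n) = x N
  lt : ‖x 0‖ < 1

lemma q_ne_zero : p ^ n ≠ 0 := pow_ne_zero _ hp.out.ne_zero

lemma IsTower.norm_lt {x : ℕ → 𝕂} (hx : IsTower p n x) (N : ℕ) : ‖x N‖ < 1 := by
  induction N with
  | zero => exact hx.lt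
  | succ N ih =>
    have h1 : ‖x (N + 1)‖ ^ (p ^ n) < 1 := by
      rw [← norm_pow, hx.pow]; exact ih
    exact (pow_lt_one_iff_of_nonneg (norm_nonneg _) q_ne_zero).1 h1

/-- The bi-infinite sequence attached to a tower: `y t = x (-t)` for `t ≤ 0`, `y t = (x 0)^(q^t)`
for `t ≥ 0`. -/
noncomputable def yy (p n : ℕ) (x : ℕ → 𝕂) (t : ℤ) : 𝕂 :=
  if 0 ≤ t then x 0 ^ ((p ^ n) ^ t.toNat) else x (-t).toNat

lemma yy_natCast (x : ℕ → 𝕂) (k : ℕ) : yy p n x k = x 0 ^ ((p ^ n) ^ k) := by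
  simp [yy]

lemma yy_neg_succ (x : ℕ → 𝕂) (k : ℕ) : yy p n x (-((k : ℤ) + 1)) = x (k + 1) := by
  have h : ¬ (0 : ℤ) ≤ -((k : ℤ) + 1) := by omega
  have h2 : (-(-((k : ℤ) + 1))).toNat = k + 1 := by omega
  simp only [yy, if_neg h, h2]

lemma yy_pow {x : ℕ → 𝕂} (hx : IsTower p n x) (t : ℤ) :
    yy p n x t ^ (p ^ n) = yy p n x (t + 1) := by
  obtain ⟨k, rfl | rfl⟩ := t.eq_nat_or_neg
  · have : ((k : ℤ) + 1) = ((k + 1 : ℕ) : ℤ) := by push_cast; ring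
    rw [this, yy_natCast, yy_natCast, ← pow_mul, pow_succ]
  · cases k with
    | zero => 
      simp only [Nat.cast_zero, neg_zero, zero_add]
      have h1 := yy_natCast (p := p) (n := n) x 0
      have h2 := yy_natCast (p := p) (n := n) x 1
      simp only [Nat.cast_zero, Nat.cast_one] at h1 h2
      rw [h1, h2, pow_zero, pow_one, pow_one]
    | succ k =>
      have h1 : -(((k + 1 : ℕ) : ℤ)) = -((k : ℤ) + 1) := by push_cast; ring
      rw [h1, yy_neg_succ, hx.pow]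
      cases k with
      | zero =>
        have h2 : (-(((0 : ℕ) : ℤ) + 1) + 1) = ((0 : ℕ) : ℤ) := by simp
        rw [h2, yy_natCast]; simp
      | succ k =>
        have h2 : (-(((k + 1 : ℕ) : ℤ) + 1) + 1) = -((k : ℤ) + 1) := by push_cast; ring
        rw [h2, yy_neg_succ]

lemma yy_zero (x : ℕ → 𝕂) : yy p n x 0 = x 0 := by
  have := yy_natCast (p := p) (n := n) x 0
  simpa using this

lemma yy_neg_nat (x : ℕ → 𝕂) (k : ℕ) : yy p n x (-(k : ℤ)) = x k := by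
  cases k with
  | zero => simpa using yy_zero x
  | succ k =>
    have : -(((k + 1 : ℕ) : ℤ)) = -((k : ℤ) + 1) := by push_cast; ring
    rw [this, yy_neg_succ]

/-- `(x N)^(q^s) = y (s - N)`. -/
lemma pow_eq_yy {x : ℕ → 𝕂} (hx : IsTower p n x) (N s : ℕ) :
    x N ^ ((p ^ n) ^ s) = yy p n x ((s : ℤ) - N) := by
  induction s with
  | zero =>
    simp only [pow_zero, pow_one, Nat.cast_zero, zero_sub]
    exact (yy_neg_nat x N).symm
  | succ s ih =>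
    rw [pow_succ, pow_mul, ih, yy_pow hx]
    congr 1
    push_cast
    ring

lemma norm_yy_lt {x : ℕ → 𝕂} (hx : IsTower p n x) (t : ℤ) : ‖yy p n x t‖ < 1 := by
  unfold yy
  split_ifs with h
  · rw [norm_pow]
    exact pow_lt_one₀ (norm_nonneg _) hx.lt (pow_ne_zero _ q_ne_zero)
  · exact hx.norm_lt _

/-- The functional `Z_c`. -/
noncomputable def Zc (p n : ℕ) (x : ℕ → 𝕂) (c : ℕ) : 𝕂 :=
  ∑' t : ℤ, (p : 𝕂) ^ (-t) * yy p n x t ^ (p ^ c)

variable [CharZero 𝕂]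

/-- the dominating function. -/
noncomputable def tBound (p n : ℕ) (x : ℕ → 𝕂) (t : ℤ) : ℝ := ‖(p : 𝕂)‖ ^ (-t) * ‖yy p n x t‖

lemma tBound_summable (hn : 1 ≤ n) (hε : ‖(p : 𝕂)‖ < 1) {x : ℕ → 𝕂} (hx : IsTower p n x) :
    Summable (tBound p n x) := by
  have hε0 := norm_p_pos (p := p) (𝕂 := 𝕂)
  apply Summable.of_nat_of_neg_add_one
  · -- positive part
    obtain ⟨r, hr0, hr1, hxr⟩ : ∃ r : ℝ, 0 < r ∧ r < 1 ∧ ‖x 0‖ ≤ r :=
      ⟨max (1 / 2) ‖x 0‖, by positivity, max_lt (by norm_num) hx.lt, le_max_right _ _⟩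
    have ht := superexp_tendsto (p := p) (2 * ‖(p : 𝕂)‖⁻¹) r (by positivity) hr0 hr1 hp.out.two_le
    have hev : ∀ᶠ k : ℕ in atTop, (2 * ‖(p : 𝕂)‖⁻¹) ^ k * r ^ (p ^ k) < 1 :=
      ht.eventually (gt_mem_nhds one_pos)
    refine Summable.of_norm_bounded_eventually_nat (g := fun k : ℕ => ((1 : ℝ) / 2) ^ k)
      (summable_geometric_of_lt_one (by norm_num) (by norm_num)) ?_
    filter_upwards [hev] with k hk
    have h1 : tBound p n x k = (‖(p : 𝕂)‖⁻¹) ^ k * ‖x 0‖ ^ ((p ^ n) ^ k) := by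
      rw [tBound, yy_natCast, norm_pow, zpow_neg, zpow_natCast, inv_pow]
    rw [h1, Real.norm_of_nonneg (by positivity)]
    have h2 : ‖x 0‖ ^ ((p ^ n) ^ k) ≤ r ^ (p ^ k) := by
      have h3 : p ^ k ≤ (p ^ n) ^ k := by
        apply Nat.pow_le_pow_left
        calc p = p ^ 1 := (pow_one p).symm
          _ ≤ p ^ n := Nat.pow_le_pow_right hp.out.pos hn
      calc ‖x 0‖ ^ ((p ^ n) ^ k) ≤ r ^ ((p ^ n) ^ k) := pow_le_pow_left₀ (norm_nonneg _) hxr _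
        _ ≤ r ^ (p ^ k) := pow_le_pow_of_le_one hr0.le hr1.le h3
    have h4 : (2 * ‖(p : 𝕂)‖⁻¹) ^ k * r ^ (p ^ k) = 2 ^ k * ((‖(p : 𝕂)‖⁻¹) ^ k * r ^ (p ^ k)) := by
      rw [mul_pow]; ring
    rw [h4] at hk
    have h5 : (‖(p : 𝕂)‖⁻¹) ^ k * r ^ (p ^ k) ≤ (1 / 2) ^ k := by
      have h6 : (0 : ℝ) < 2 ^ k := by positivity
      have h7 : ((1 : ℝ) / 2) ^ k = 1 / 2 ^ k := by rw [one_div_pow]
      rw [h7, le_div_iff₀ h6, mul_comm]
      exact hk.le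
    exact (mul_le_mul_of_nonneg_left h2 (by positivity)).trans h5
  · -- negative part
    refine Summable.of_nonneg_of_le (fun k => ?_) (fun k => ?_)
      ((summable_geometric_of_lt_one hε0.le hε).comp_injective (add_left_injective 1) )
    · exact mul_nonneg (zpow_nonneg (norm_nonneg _) _) (norm_nonneg _)
    · have h1 : -(-((k : ℤ) + 1)) = ((k + 1 : ℕ) : ℤ) := by push_cast; ring
      simp only [Function.comp]
      rw [tBound, h1, zpow_natCast]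
      have h2 := (norm_yy_lt hx (-((k : ℤ) + 1))).le
      have h3 : 0 ≤ ‖(p : 𝕂)‖ ^ (k + 1) := by positivity
      nlinarith

lemma term_norm_le {x : ℕ → 𝕂} (hx : IsTower p n x) (c : ℕ) (t : ℤ) :
    ‖(p : 𝕂) ^ (-t) * yy p n x t ^ (p ^ c)‖ ≤ tBound p n x t := by
  rw [norm_mul, norm_zpow, norm_pow, tBound]
  apply mul_le_mul_of_nonneg_left _ (zpow_nonneg (norm_nonneg _) _)
  have h := (norm_yy_lt hx t).le
  exact pow_le_of_le_one (norm_nonneg _) h (pow_ne_zero _ hp.out.ne_zero)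

variable [CompleteSpace 𝕂]

lemma Zc_summable (hn : 1 ≤ n) (hε : ‖(p : 𝕂)‖ < 1) {x : ℕ → 𝕂} (hx : IsTower p n x) (c : ℕ) :
    Summable (fun t : ℤ => (p : 𝕂) ^ (-t) * yy p n x t ^ (p ^ c)) :=
  Summable.of_norm_bounded (tBound_summable hn hε hx) (term_norm_le hx c)

/-- `Z_{c+n} = p Z_c`. -/
lemma Zc_add_n {x : ℕ → 𝕂} (hx : IsTower p n x) (c : ℕ) :
    Zc p n x (c + n) = (p : 𝕂) * Zc p n x c := by
  have hp0 : (p : 𝕂) ≠ 0 := p_ne
  unfold Zc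
  rw [← tsum_mul_left, ← (Equiv.addRight (1 : ℤ)).tsum_eq
    (fun t : ℤ => (p : 𝕂) * ((p : 𝕂) ^ (-t) * yy p n x t ^ (p ^ c)))]
  apply tsum_congr
  intro t
  simp only [Equiv.coe_addRight]
  have h1 : yy p n x t ^ (p ^ (c + n)) = yy p n x (t + 1) ^ (p ^ c) := by
    rw [← yy_pow hx, ← pow_mul, pow_add, mul_comm]
  rw [h1, neg_add, zpow_add₀ hp0, zpow_neg_one]
  field_simp

/-- `Z_c` of the twisted tower `c₀ x^(p^j)`, `c₀^q = c₀`. -/
lemma IsTower.twist {x : ℕ → 𝕂} (hx : IsTower p n x) {c₀ : 𝕂} (hc : c₀ ^ (p ^ n) = c₀)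
    (hc1 : ‖c₀‖ ≤ 1) (j : ℕ) : IsTower p n (fun N => c₀ * x N ^ (p ^ j)) := by
  refine ⟨fun N => ?_, ?_⟩
  · rw [mul_pow, hc, ← pow_mul, mul_comm (p ^ j), pow_mul, hx.pow]
  · rw [norm_mul, norm_pow]
    have h1 : ‖x 0‖ ^ (p ^ j) < 1 := pow_lt_one₀ (norm_nonneg _) hx.lt (pow_ne_zero _ hp.out.ne_zero)
    calc ‖c₀‖ * ‖x 0‖ ^ (p ^ j) ≤ 1 * ‖x 0‖ ^ (p ^ j) :=
          mul_le_mul_of_nonneg_right hc1 (by positivity)
      _ < 1 := by simpa using h1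

lemma yy_twist {x : ℕ → 𝕂} {c₀ : 𝕂} (hc : c₀ ^ (p ^ n) = c₀) (j : ℕ) (t : ℤ) :
    yy p n (fun N => c₀ * x N ^ (p ^ j)) t = c₀ * yy p n x t ^ (p ^ j) := by
  have hcq : ∀ k : ℕ, c₀ ^ ((p ^ n) ^ k) = c₀ := by
    intro k
    induction k with
    | zero => simp
    | succ k ih => rw [pow_succ, pow_mul, ih, hc]
  unfold yy
  split_ifs with h
  · simp only
    rw [mul_pow, hcq]
    congr 1
    rw [← pow_mul, ← pow_mul, mul_comm (p ^ j)]
    exact pow_mul _ _ _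
  · rfl

lemma Zc_twist {x : ℕ → 𝕂} {c₀ : 𝕂} (hc : c₀ ^ (p ^ n) = c₀) (j c : ℕ) :
    Zc p n (fun N => c₀ * x N ^ (p ^ j)) c = c₀ ^ (p ^ c) * Zc p n x (j + c) := by
  unfold Zc
  rw [← tsum_mul_left]
  apply tsum_congr
  intro t
  rw [yy_twist hc, mul_pow, ← pow_mul, pow_add]
  ring

/-! ### The limit theorem -/

/-- the logarithm at a point. -/
noncomputable def logAt (p n : ℕ) {𝕂 : Type*} [NormedField 𝕂] [IsUltrametricDist 𝕂] [Fact p.Prime]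
    (w : Fin (n - 1) → 𝕂) : PowerSeries 𝕂 :=
  logSeries p (fun m => MvPolynomial.eval w (lam p n 𝕂 m))

lemma norm_eval_lam_le (hε : ‖(p : 𝕂)‖ < 1) {w : Fin (n - 1) → 𝕂} (hw : ∀ i, ‖w i‖ ≤ 1) (m : ℕ) :
    ‖MvPolynomial.eval w (lam p n 𝕂 m)‖ ≤ (‖(p : 𝕂)‖⁻¹) ^ m :=
  (lam_GB (n := n) hε one_pos le_rfl m).eval zero_le_one hw

/-- the log series has a finite Gauss norm at every radius `< 1`. -/
lemma logSeries_GS (E r : ℝ) (hE : 0 ≤ E) (hr0 : 0 < r) (hr1 : r < 1) (c : ℕ → 𝕂)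
    (hc : ∀ m, ‖c m‖ ≤ E ^ m) : ∃ K, GS r (logSeries p c) K := by
  have ht := superexp_tendsto (p := p) E r hE hr0 hr1 hp.out.two_le
  obtain ⟨K, hK⟩ := ht.bddAbove_range
  refine ⟨max K 0, fun j => ?_⟩
  by_cases hj : j = p ^ Nat.log p j
  · rw [hj, Crest.Agent.LT.Std.coeff_logSeries_pow hp.out.one_lt]
    refine le_trans ?_ (le_max_left _ _)
    refine le_trans ?_ (hK ⟨Nat.log p j, rfl⟩)
    exact mul_le_mul_of_nonneg_right (hc _) (by positivity)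
  · have : PowerSeries.coeff j (logSeries p c) = 0 := by
      apply Crest.Agent.LT.Std.coeff_logSeries_of_ne
      intro m hm
      apply hj
      rw [hm, Nat.log_pow hp.out.one_lt]
    rw [this]
    simp

lemma logAt_GS (hε : ‖(p : 𝕂)‖ < 1) {r : ℝ} (hr0 : 0 < r) (hr1 : r < 1) {w : Fin (n - 1) → 𝕂}
    (hw : ∀ i, ‖w i‖ ≤ 1) : ∃ K, GS r (logAt p n w) K :=
  logSeries_GS (‖(p : 𝕂)‖⁻¹) r (by positivity) hr0 hr1 _ (norm_eval_lam_le hε hw)

/-- evaluation of a lacunary series. -/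
lemma ev1_logSeries (c : ℕ → 𝕂) (y : 𝕂) :
    ev1 (logSeries p c) y = ∑' m : ℕ, c m * y ^ (p ^ m) := by
  unfold ev1
  have hinj : Function.Injective (fun m : ℕ => p ^ m) := Nat.pow_right_injective hp.out.two_le
  rw [← hinj.tsum_eq]
  · apply tsum_congr
    intro m
    rw [Crest.Agent.LT.Std.coeff_logSeries_pow hp.out.one_lt]
  · intro d hd
    by_contra hcon
    apply hd
    have : PowerSeries.coeff d (logSeries p c) = 0 := by
      apply Crest.Agent.LT.Std.coeff_logSeries_of_ne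
      intro m hm
      exact hcon ⟨m, hm.symm⟩
    simp [this]

end Crest.Agent.Lib.LT.C0
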