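import Crest.Prelude.Def_LubinTate
import Crest.Agent.Lib.LT.StdEnd
import Crest.Agent.Lib.LT.C0Tower

/-!
# Logarithms at points of characteristic 0, in the notation of `C0`

* `aeval_stdLam`: the coefficients `stdLam` of the log of the standard law are the `C0.lam`;
* `isLog_logAt`: `logAt p n (χ ∘ X)` is the log of `stdLaw.map χ`;
* `logAt_subst_of_hom`: a homomorphism `θ` of laws with logs `ℓ'`, `ℓ` satisfies
  `ℓ ∘ θ = θ'(0) ℓ'` (characteristic 0).
-/

set_option autoImplicit false

open Crest.LubinTate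

namespace Crest.Agent.LT.C0Thin

open Crest.Agent.Lib.LT.C0 (lam logAt)

variable {p : ℕ} [Fact p.Prime] {n : ℕ} {𝕂 : Type*} [NormedField 𝕂] [IsUltrametricDist 𝕂] [CharZero 𝕂]

omit [IsUltrametricDist 𝕂] in
private lemma sum_Icc_one_eq_range {M : Type*} [AddCommMonoid M] (f : ℕ → M) (n : ℕ) :
    ∑ j ∈ Finset.Icc 1 n, f j = ∑ i ∈ Finset.range n, f (i + 1) := by
  induction n with
  | zero => simp
  | succ n ih => rw [Finset.sum_Icc_succ_top (by omega), ih, Finset.sum_range_succ]

private lemma aeval_stdUA (w : Fin (n - 1) → 𝕂) (i : ℕ) (hi : i < n) :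
    MvPolynomial.aeval w (Std.stdι n (Std.stdUA n (i + 1))) =
      MvPolynomial.eval w (Crest.Agent.Lib.LT.C0.vv n 𝕂 i) := by
  unfold Std.stdUA Crest.Agent.Lib.LT.C0.vv
  by_cases h : i < n - 1
  · have h' : i + 1 - 1 < n - 1 := by simpa using h
    rw [dif_pos h', dif_pos h]
    simp [Std.stdι]
  · have h' : ¬ (i + 1 - 1 < n - 1) := by simpa using h
    rw [dif_neg h', dif_neg h]
    simp [Std.stdι]

/-- the coefficients of the log. -/
theorem aeval_stdLam (w : Fin (n - 1) → 𝕂) (m : ℕ) :
    MvPolynomial.aeval w (Std.stdLam p n m) = MvPolynomial.eval w (lam p n 𝕂 m) := by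
  induction m using Nat.strong_induction_on with
  | _ m ih =>
    rcases m with _ | M
    · simp [Std.stdLam_zero]
    · have hp0 : (p : 𝕂) ≠ 0 := Nat.cast_ne_zero.2 (Fact.out : p.Prime).ne_zero
      apply mul_left_cancel₀ hp0
      have h1 := congrArg (MvPolynomial.aeval (R := ℚ) w) (Std.stdLam_left' p n (M + 1) (by omega))
      have h2 := congrArg (MvPolynomial.eval w)
        (Crest.Agent.Lib.LT.C0.C_p_mul_lam_succ (p := p) (n := n) (𝕂 := 𝕂) M)
      rw [map_mul, map_natCast] at h1
      rw [map_mul, MvPolynomial.eval_C] at h2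
      rw [h1, h2, map_sum, map_sum, sum_Icc_one_eq_range]
      refine Finset.sum_congr rfl fun i hi => ?_
      have hi' := Finset.mem_range.mp hi
      by_cases hle : i ≤ M
      · rw [if_pos (by omega), if_pos hle, map_mul, map_mul, map_pow, map_pow,
          aeval_stdUA w i hi', show M + 1 - (i + 1) = M - i by omega, ih (M - i) (by omega)]
      · rw [if_neg (by omega), if_neg hle, map_zero, map_zero]

/-- `logAt` at `χ ∘ X` is the log of `stdLaw.map χ`. -/
theorem isLog_logAt (χ : LTRing p n →+* 𝕂) :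
    Std.IsLogSeries (logAt p n (fun i => χ (MvPowerSeries.X i)))
      ((Std.stdLaw p n).map χ).toPowerSeries := by
  have h := Std.isLog_stdLaw_map p n χ
  have h2 : (fun m => MvPolynomial.aeval (fun i => χ (MvPowerSeries.X i)) (Std.stdLam p n m)) =
      fun m => MvPolynomial.eval (fun i => χ (MvPowerSeries.X i)) (lam p n 𝕂 m) :=
    funext fun m => aeval_stdLam _ m
  rw [h2] at h
  exact h

omit [IsUltrametricDist 𝕂] [CharZero 𝕂] in
/-- The key computation: `coeff d (A ∘ u) = u'(0)^d a_d` if `A` has order `≥ d`. -/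
private lemma coeff_subst_of_order {A u : PowerSeries 𝕂} (d : ℕ)
    (hA : ∀ i < d, PowerSeries.coeff i A = 0) (hu0 : PowerSeries.constantCoeff u = 0) :
    PowerSeries.coeff d (A.subst u) = (PowerSeries.coeff 1 u) ^ d * PowerSeries.coeff d A := by
  obtain ⟨v, rfl⟩ : PowerSeries.X ∣ u := PowerSeries.X_dvd_iff.mpr hu0
  have hs : PowerSeries.HasSubst (PowerSeries.X * v) := hasSubst_one hu0
  have hpow : ∀ k : ℕ, (PowerSeries.X * v) ^ k = PowerSeries.X ^ k * v ^ k := fun k => mul_pow _ _ _
  rw [PowerSeries.coeff_subst' hs, finsum_eq_single _ d]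
  · rw [smul_eq_mul, hpow, PowerSeries.coeff_X_pow_mul', if_pos le_rfl, Nat.sub_self,
      PowerSeries.coeff_zero_eq_constantCoeff_apply, map_pow]
    have h1 : PowerSeries.coeff 1 (PowerSeries.X * v) = PowerSeries.constantCoeff v := by
      have := PowerSeries.coeff_succ_X_mul 0 v
      simpa using this
    rw [h1, mul_comm]
  · intro k hk
    rcases lt_or_gt_of_ne hk with h | h
    · rw [hA k h, zero_smul]
    · rw [hpow, PowerSeries.coeff_X_pow_mul', if_neg (by omega), smul_zero]

/-- Homomorphisms between laws over a field of characteristic 0 are determined by the log. -/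
theorem logAt_subst_of_hom (χ χ' : LTRing p n →+* 𝕂) {θ : PowerSeries 𝕂}
    (hθ : IsFGHom ((Std.stdLaw p n).map χ') ((Std.stdLaw p n).map χ) θ) :
    (logAt p n (fun i => χ (MvPowerSeries.X i))).subst θ =
      (PowerSeries.coeff 1 θ) • logAt p n (fun i => χ' (MvPowerSeries.X i)) := by
  set ℓ := logAt p n (fun i => χ (MvPowerSeries.X i)) with hℓ
  set ℓ' := logAt p n (fun i => χ' (MvPowerSeries.X i)) with hℓ'
  set G := (Std.stdLaw p n).map χ with hG
  set G' := (Std.stdLaw p n).map χ' with hG'
  have hp1 : 1 < p := (Fact.out : p.Prime).one_lt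
  have hℓ0 : PowerSeries.constantCoeff ℓ = 0 := Std.constantCoeff_logSeries hp1 _
  have hℓ'0 : PowerSeries.constantCoeff ℓ' = 0 := Std.constantCoeff_logSeries hp1 _
  have hℓ1 : PowerSeries.coeff 1 ℓ = 1 := by
    rw [hℓ, logAt, Std.coeff_one_logSeries hp1]; simp
  have hℓ'1 : PowerSeries.coeff 1 ℓ' = 1 := by
    rw [hℓ', logAt, Std.coeff_one_logSeries hp1]; simp
  have hlog : Std.IsLogSeries ℓ G.toPowerSeries := isLog_logAt χ
  have hlog' : Std.IsLogSeries ℓ' G'.toPowerSeries := isLog_logAt χ'
  set κ := PowerSeries.coeff 1 θ with hκ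
  set u := mulSeries G' 2 with hu
  have hu0 : PowerSeries.constantCoeff u = 0 := constantCoeff_mulSeries G' 2
  have hu1 : PowerSeries.coeff 1 u = 2 := by
    have := coeff_one_mulSeries G' 2
    simpa using this
  have hθ0 : PowerSeries.constantCoeff θ = 0 := hθ.1
  set A : PowerSeries 𝕂 := ℓ.subst θ - κ • ℓ' with hA
  -- `A ∘ u = 2 A`
  have hAu : A.subst u = (2 : 𝕂) • A := by
    have h1 : ℓ'.subst u = (2 : 𝕂) • ℓ' := by
      have := Std.log_mulSeries hℓ'0 G' hlog' 2
      rw [hu, this, Nat.cast_ofNat, two_mul, two_smul]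
    have h2 : PowerSeries.subst u (PowerSeries.subst θ ℓ) = (2 : 𝕂) • PowerSeries.subst θ ℓ := by
      have h3 : PowerSeries.subst u (PowerSeries.subst θ ℓ) =
          PowerSeries.subst (PowerSeries.subst u θ) ℓ :=
        psubst_psubst hθ0 hu0 ℓ
      have h4 : PowerSeries.subst u θ = PowerSeries.subst θ (mulSeries G 2) := hom_mulSeries hθ 2
      have h5 : PowerSeries.subst (PowerSeries.subst θ (mulSeries G 2)) ℓ =
          PowerSeries.subst θ (PowerSeries.subst (mulSeries G 2) ℓ) :=
        (psubst_psubst (constantCoeff_mulSeries G 2) hθ0 ℓ).symm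
      rw [h3, h4, h5, Std.log_mulSeries hℓ0 G hlog 2, Nat.cast_ofNat, two_mul,
        PowerSeries.subst_add (hasSubst_one hθ0), two_smul]
    have hs : PowerSeries.HasSubst u := hasSubst_one hu0
    rw [hA, PowerSeries.subst_sub hs, PowerSeries.subst_smul hs, h2, h1, smul_sub, smul_comm κ]
  have hcoeff : ∀ d, PowerSeries.coeff d A = 0 := by
    intro d
    induction d using Nat.strong_induction_on with
    | _ d ih =>
      rcases d with _ | _ | d
      · -- constant term
        have h0 : PowerSeries.constantCoeff (ℓ.subst θ) = 0 := constantCoeff_psubst hθ0 hℓ0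
        have h1 : PowerSeries.coeff 0 (ℓ.subst θ) = 0 := by simpa using h0
        have h2 : PowerSeries.coeff 0 ℓ' = 0 := by simpa using hℓ'0
        rw [hA, map_sub, h1, PowerSeries.coeff_smul, h2]
        simp
      · -- linear term
        have h1 : PowerSeries.coeff 1 (ℓ.subst θ) = PowerSeries.coeff 1 θ :=
          Std.coeff_psubst_of_degree_le_one hℓ0 hℓ1 hθ0 (Finsupp.single () 1) (by simp)
        rw [hA, map_sub, h1, PowerSeries.coeff_smul, hℓ'1]
        simp [hκ]
      · have h1 := coeff_subst_of_order (d + 2) ih hu0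
        rw [hAu, hu1, PowerSeries.coeff_smul, smul_eq_mul] at h1
        have h2 : ((2 : 𝕂) ^ (d + 2) - 2) * PowerSeries.coeff (d + 2) A = 0 := by
          rw [sub_mul, ← h1, sub_self]
        have h3 : ((2 : 𝕂) ^ (d + 2) - 2) ≠ 0 := by
          have : (2 : 𝕂) ^ (d + 2) - 2 = ((2 ^ (d + 2) - 2 : ℕ) : 𝕂) := by
            rw [Nat.cast_sub]
            · push_cast; ring
            · exact Nat.le_self_pow (by omega) 2
          rw [this]
          refine Nat.cast_ne_zero.2 ?_
          have h4 : 2 ^ (d + 2) ≥ 4 := by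
            calc 2 ^ (d + 2) = 2 ^ d * 4 := by ring
              _ ≥ 1 * 4 := Nat.mul_le_mul_right _ Nat.one_le_two_pow
              _ = 4 := by norm_num
          omega
        exact (mul_eq_zero.mp h2).resolve_left h3
  have hA0 : A = 0 := by
    ext k; simpa using hcoeff k
  exact sub_eq_zero.mp hA0

end Crest.Agent.LT.C0Thin
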