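import Crest.Prelude.Def_LubinTate
import Crest.Agent.Lib.LT.Std
import Crest.Agent.Lib.LT.StdEnd
import Crest.Agent.Lib.LT.Point
import Crest.Agent.Lib.LT.Action
import Crest.Agent.Lib.LT.Cont
import Crest.Agent.Lib.LT.ThetaCont
import Crest.Agent.Lib.LT.C0Cone
import Crest.Agent.Lib.LT.C0Log
import Crest.Agent.Lib.LT.C0Hat
import Crest.Agent.Lib.LT.C0Char

/-!
# The char 0 stratum of S0351: stable primes not containing `p` are zero

The assembly: a nonzero `f ∈ P` and a point `χ` of `P` with `χ(p) ≠ 0`; the family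
`θ̂(s,t) = X +_H ∑_e [t_e] (c_e X^(p^(j_e + n s)))` of automorphisms and its stabilizer maps;
`C0.char0_core` gives the contradiction.
-/

set_option autoImplicit false

open Crest.LubinTate IsLocalRing

namespace Crest.Agent.LT.C0Thin

open Crest.Agent.LT.Std
open Crest.Agent.Lib.LT.C0 (logAt char0_core)
open Crest.Agent.Lib.LT.EvalS (IntS ev)
open Crest.Agent.Lib.LT.Eval1 (IsBdd0)
open Filter Topology

variable {p : ℕ} [Fact p.Prime] {n : ℕ}

local notation "k" => GaloisField p n
local notation "W" => WittVector p (GaloisField p n)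
local notation "E" => LTRing p n
local notation "rE" => LTRing.residue p n

section Family

/-- The monomials over `k`. -/
noncomputable def gk (p n : ℕ) [Fact p.Prime] (s : ℕ) (e : (GaloisField p n)ˣ × Fin n) :
    PowerSeries (GaloisField p n) :=
  PowerSeries.C (e.1 : GaloisField p n) * PowerSeries.X ^ p ^ ((e.2 : ℕ) + n * s)

/-- The monomials over `E₀`, with Teichmüller coefficients. -/
noncomputable def gE (p n : ℕ) [Fact p.Prime] (s : ℕ) (e : (GaloisField p n)ˣ × Fin n) :
    PowerSeries (LTRing p n) :=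
  PowerSeries.C (MvPowerSeries.C (WittVector.teichmuller p (e.1 : GaloisField p n))) *
    PowerSeries.X ^ p ^ ((e.2 : ℕ) + n * s)

theorem constantCoeff_mono {A : Type*} [CommRing A] (c : A) (j : ℕ) :
    PowerSeries.constantCoeff (PowerSeries.C c * PowerSeries.X ^ p ^ j : PowerSeries A) = 0 := by
  have hpp : p.Prime := Fact.out
  simp [hpp.ne_zero]

omit [Fact p.Prime] in
theorem coeff_mono_lt {A : Type*} [CommRing A] (c : A) {j i : ℕ} (hi : i < p ^ j) :
    PowerSeries.coeff i (PowerSeries.C c * PowerSeries.X ^ p ^ j : PowerSeries A) = 0 := by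
  rw [PowerSeries.coeff_C_mul, PowerSeries.coeff_X_pow, if_neg hi.ne, mul_zero]

theorem map_gE (s : ℕ) (e : (GaloisField p n)ˣ × Fin n) :
    PowerSeries.map rE (gE p n s e) = gk p n s e := by
  simp only [gE, gk, map_mul, map_pow, PowerSeries.map_C, PowerSeries.map_X, residue_teichmuller]

theorem map_chi_gE {R : Type*} [NormedField R] (χ : E →+* R) (s : ℕ)
    (e : (GaloisField p n)ˣ × Fin n) :
    PowerSeries.map χ (gE p n s e) =
      PowerSeries.C (cc χ e.1) * PowerSeries.X ^ p ^ ((e.2 : ℕ) + n * s) := by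
  simp only [gE, map_mul, map_pow, PowerSeries.map_C, PowerSeries.map_X, cc]

theorem coeff_gk_lt {s i : ℕ} (hi : i ≤ s) (hn : 1 ≤ n) (e : (GaloisField p n)ˣ × Fin n) :
    PowerSeries.coeff i (gk p n s e) = 0 := by
  have hpp : p.Prime := Fact.out
  refine coeff_mono_lt _ (lt_of_le_of_lt hi ?_)
  have h1 : s < p ^ s := Nat.lt_pow_self hpp.one_lt
  have h2 : p ^ s ≤ p ^ ((e.2 : ℕ) + n * s) := by
    apply Nat.pow_le_pow_right hpp.pos
    nlinarith [e.2.2]
  omega

variable [Fintype (GaloisField p n)ˣ]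

/-- The automorphism of `Γ`. -/
noncomputable def aa (p n : ℕ) [Fact p.Prime] [Fintype (GaloisField p n)ˣ] (s : ℕ)
    (t : (GaloisField p n)ˣ × Fin n → ℕ) : PowerSeries (GaloisField p n) :=
  thetaHat (stdGamma p n) (gk p n s) t

/-- Its lift to `E₀`. -/
noncomputable def hatE (p n : ℕ) [Fact p.Prime] [Fintype (GaloisField p n)ˣ] (s : ℕ)
    (t : (GaloisField p n)ˣ × Fin n → ℕ) : PowerSeries (LTRing p n) :=
  thetaHat (stdLaw p n) (gE p n s) t

theorem map_hatE (s : ℕ) (t : (GaloisField p n)ˣ × Fin n → ℕ) :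
    PowerSeries.map rE (hatE p n s t) = aa p n s t := by
  unfold hatE aa
  rw [map_thetaHat (stdLaw p n) (g := gE p n s) t rE (fun e => constantCoeff_mono _ _)]
  have : (fun e => PowerSeries.map rE (gE p n s e)) = gk p n s := funext (map_gE s)
  rw [this]
  rfl

theorem coeff_aa (hn : 1 ≤ n) (s : ℕ) (t : (GaloisField p n)ˣ × Fin n → ℕ) :
    ∀ i < s + 1, PowerSeries.coeff i (aa p n s t) = PowerSeries.coeff i PowerSeries.X := by
  refine coeff_thetaHat (stdGamma p n) t (fun e => constantCoeff_mono _ _) (s + 1)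
    fun e i hi => coeff_gk_lt (by omega) hn e

theorem isFGAut_aa (hn : 1 ≤ n) {s : ℕ} (hs : 1 ≤ s) (t : (GaloisField p n)ˣ × Fin n → ℕ) :
    IsFGAut (stdGamma p n) (aa p n s t) := by
  refine ⟨isFGHom_thetaHat (stdGamma p n) t fun e => isFGHom_stdGamma_mono p n hn _ _, ?_⟩
  rw [coeff_aa hn s t 1 (by omega)]
  simp

end Family

/-- The case `n ≥ 2`. -/
theorem charZero_stable_aux (hn : 2 ≤ n)
    (hU : IsUniversalDeformation p n (stdGamma p n) (stdLaw p n)) (M : ℕ)
    (P : Ideal E) [hPp : P.IsPrime]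
    (hS : IsStableIdeal p n (stdGamma p n) (stdLaw p n) M P)
    (hp : (p : E) ∉ P) : P = ⊥ := by
  classical
  have hn1 : 1 ≤ n := by omega
  have : Fintype (GaloisField p n)ˣ := Fintype.ofFinite _
  by_contra hne
  obtain ⟨f, hfP, hf⟩ : ∃ f ∈ P, f ≠ 0 := by
    by_contra hall
    push Not at hall
    exact hne ((Submodule.eq_bot_iff _).mpr hall)
  have hpm : (p : E) ∈ maximalIdeal E := by
    rw [← Crest.Agent.LT.residue_ker, RingHom.mem_ker, map_natCast]
    exact CharP.cast_eq_zero _ p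
  obtain ⟨R, _i1, _i2, _i3, _i4, χ, hχ1, hχlt, hχP, hχp⟩ :=
    Crest.Agent.LT.exists_point P _ hpm hp
  have hχp' : (p : R) ≠ 0 := by rwa [map_natCast] at hχp
  obtain ⟨ρ, hρ0, hρ1, hρ⟩ := Crest.Agent.LT.exists_rho χ hχ1 hχlt
  have hρp : ‖(p : R)‖ ≤ ρ := by
    have := hρ _ hpm
    rwa [map_natCast] at this
  have hε : ‖(p : R)‖ < 1 := lt_of_le_of_lt hρp hρ1
  have : CharZero R := charZero_of_norm_lt hχp' hε
  have hXm : ∀ s : Fin (n - 1), (MvPowerSeries.X s : E) ∈ maximalIdeal E := fun s => by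
    rw [← Crest.Agent.LT.residue_ker, RingHom.mem_ker]
    simp [LTRing.residue]
  -- the family
  have hfam0 : ∀ (s : ℕ) (t : (GaloisField p n)ˣ × Fin n → ℕ), M + 1 ≤ s →
      ∃ (φ : E →ₐ[W] E) (θ : PowerSeries E), IsStabilizerMap p n (stdLaw p n) (aa p n s t) φ ∧
        IsFGHom ((stdLaw p n).map φ.toRingHom) (stdLaw p n) θ ∧
        PowerSeries.map rE θ = aa p n s t ∧ Ideal.comap φ.toRingHom P = P := by
    intro s t hs
    have ha := isFGAut_aa hn1 (by omega : 1 ≤ s) t
    obtain ⟨φ, hφ⟩ := Crest.Agent.LT.Action.exists_realise hU ha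
    have hst := hS _ φ ha (fun i hi => coeff_aa hn1 s t i (by omega)) hφ
    obtain ⟨θ, hθ, hθr⟩ := hφ.2
    exact ⟨φ, θ, hφ, hθ, hθr, hst⟩
  choose! φ θ hφst hθ hθr hφP using hfam0
  have hφm : ∀ s t, M + 1 ≤ s → ∀ a ∈ maximalIdeal E, φ s t a ∈ maximalIdeal E := by
    intro s t hs a ha
    rw [← Crest.Agent.LT.residue_ker, RingHom.mem_ker] at ha ⊢
    have := congrArg (fun F => F a) (hφst s t hs).1
    exact this.trans ha
  let ξ : Fin (n - 1) → R := fun i => χ (MvPowerSeries.X i)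
  let w' : ℕ → ((GaloisField p n)ˣ × Fin n → ℕ) → Fin (n - 1) → R :=
    fun s t i => χ (φ s t (MvPowerSeries.X i))
  let κ : ℕ → ((GaloisField p n)ˣ × Fin n → ℕ) → R :=
    fun s t => PowerSeries.coeff 1 (PowerSeries.map χ (θ s t))
  refine char0_core hn hε (cc χ) (cc_pow hn1 χ) (fun i => hχ1 _) (cc_indep hn1 χ) ξ
    (fun i => hχlt _ (hXm i)) (mapF χ f) (intS_mapF χ hχ1 f) (mapF_ne_zero χ hχp hf) ρ hρ0 hρ1
    (M + 1) w' κ (fun s t => PowerSeries.map χ (θ s t)) (fun s t => PowerSeries.map χ (hatE p n s t))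
    ?_ ?_
  · intro s hs t
    refine ⟨fun i => hχlt _ (hφm s t hs _ (hXm i)), ⟨fun j => ?_, ?_⟩, ⟨fun j => ?_, ?_⟩,
      fun j => ?_, ?_, ?_, ?_⟩
    · rw [PowerSeries.coeff_map]
      exact hχ1 _
    · have h0 := (hθ s t hs).1
      rw [← PowerSeries.coeff_zero_eq_constantCoeff_apply] at h0 ⊢
      rw [PowerSeries.coeff_map, h0, map_zero]
    · rw [PowerSeries.coeff_map]
      exact hχ1 _
    · have h0 : PowerSeries.constantCoeff (hatE p n s t) = 0 :=
        constantCoeff_thetaHat (stdLaw p n) t fun e => constantCoeff_mono _ _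
      rw [← PowerSeries.coeff_zero_eq_constantCoeff_apply] at h0 ⊢
      rw [PowerSeries.coeff_map, h0, map_zero]
    · -- `θ` and `θ̂` are congruent
      rw [PowerSeries.coeff_map, PowerSeries.coeff_map, ← map_sub]
      refine hρ _ ?_
      rw [← Crest.Agent.LT.residue_ker, RingHom.mem_ker, map_sub, sub_eq_zero]
      rw [← PowerSeries.coeff_map, ← PowerSeries.coeff_map, hθr s t hs, map_hatE]
    · -- the log equation
      have h1 := Crest.Agent.LT.hom_map χ (hθ s t hs)
      rw [Crest.Agent.LT.map_map_law] at h1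
      exact logAt_subst_of_hom χ (χ.comp (φ s t).toRingHom) h1
    · -- the log of `θ̂`
      have h1 : PowerSeries.map χ (hatE p n s t) = thetaHat ((stdLaw p n).map χ)
          (fun e => PowerSeries.C (cc χ e.1) * PowerSeries.X ^ p ^ ((e.2 : ℕ) + n * s)) t := by
        unfold hatE
        rw [map_thetaHat (stdLaw p n) (g := gE p n s) t χ (fun e => constantCoeff_mono _ _)]
        have : (fun e => PowerSeries.map χ (gE p n s e)) = fun e =>
            PowerSeries.C (cc χ e.1) * PowerSeries.X ^ p ^ ((e.2 : ℕ) + n * s) :=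
          funext (map_chi_gE χ s)
        rw [this]
      rw [h1]
      exact log_thetaHat ((stdLaw p n).map χ) t
        (Crest.Agent.LT.Std.constantCoeff_logSeries (Fact.out : p.Prime).one_lt _)
        (isLog_logAt χ) (fun e => constantCoeff_mono _ _)
    · -- the point is in the zero set
      have h1 := chi_phi_eq_ev χ hχ1 hχlt (φ s t) (hφst s t hs).1 f
      rw [← show χ (φ s t f) = _ from h1]
      apply hχP
      have h8 : f ∈ Ideal.comap (φ s t).toRingHom P := by
        rw [hφP s t hs]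
        exact hfP
      exact h8
  · intro t
    constructor
    · rw [tendsto_pi_nhds]
      intro i
      rw [Metric.tendsto_atTop]
      intro ε hε'
      obtain ⟨c, hc⟩ : ∃ c : ℕ, ρ ^ c < ε := exists_pow_lt_of_lt_one hε' hρ1
      obtain ⟨M₁, hM₁⟩ := Crest.Agent.LT.Cont.hcont (stdGamma p n) (stdLaw p n) hU c
      refine ⟨max (M + 1) M₁, fun s hs => ?_⟩
      have hs1 : M + 1 ≤ s := le_trans (le_max_left _ _) hs
      have hs2 : M₁ ≤ s := le_trans (le_max_right _ _) hs
      have h9 := hM₁ _ (φ s t) (fun i hi => coeff_aa hn1 s t i (by omega)) (hφst s t hs1)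
        (MvPowerSeries.X i)
      have h10 := Crest.Agent.LT.norm_le_of_mem_pow χ hχ1 hρ0 hρ c _ h9
      rw [map_sub] at h10
      rw [dist_eq_norm]
      exact lt_of_le_of_lt h10 hc
    · rw [Metric.tendsto_atTop]
      intro ε hε'
      obtain ⟨c, hc⟩ : ∃ c : ℕ, ρ ^ c < ε := exists_pow_lt_of_lt_one hε' hρ1
      obtain ⟨M₂, hM₂⟩ := Crest.Agent.LT.ThetaCont.theta_cont (stdGamma p n) (stdLaw p n) hU
        (by omega) (mulSeries_stdGamma p n hn1) c 2
      refine ⟨max (M + 1) M₂, fun s hs => ?_⟩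
      have hs1 : M + 1 ≤ s := le_trans (le_max_left _ _) hs
      have hs2 : M₂ ≤ s := le_trans (le_max_right _ _) hs
      have h11 := hM₂ _ (φ s t) (θ s t) (fun i hi => coeff_aa hn1 s t i (by omega))
        (hφst s t hs1).1 (hθ s t hs1) (hθr s t hs1) 1 (by omega)
      have h12 := Crest.Agent.LT.norm_le_of_mem_pow χ hχ1 hρ0 hρ c _ h11
      rw [map_sub, PowerSeries.coeff_one_X, map_one] at h12
      rw [dist_eq_norm]
      simp only [κ, PowerSeries.coeff_map]
      exact lt_of_le_of_lt h12 hc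

/-- The case `n = 1`: `E₀ = W(k)` is a DVR with uniformizer `p`. -/
theorem charZero_stable_one (hn : n = 1) (P : Ideal E) [hPp : P.IsPrime]
    (hp : (p : E) ∉ P) : P = ⊥ := by
  subst hn
  rw [Submodule.eq_bot_iff]
  intro f hf
  by_contra hne
  have hone : ∀ m : Fin (1 - 1) →₀ ℕ, m = 0 := fun m => by
    ext i
    exact i.elim0
  have hfC : f = MvPowerSeries.C (MvPowerSeries.coeff 0 f) := by
    refine MvPowerSeries.ext fun m => ?_
    rw [hone m, MvPowerSeries.coeff_zero_C]
  have hc : MvPowerSeries.coeff 0 f ≠ 0 := by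
    intro h0
    rw [h0, map_zero] at hfC
    exact hne hfC
  obtain ⟨m, b, hb⟩ := WittVector.exists_eq_pow_p_mul' _ hc
  rw [hb, map_mul, map_pow, map_natCast] at hfC
  rw [hfC] at hf
  have hu : IsUnit (MvPowerSeries.C (b : WittVector p (GaloisField p 1)) : LTRing p 1) :=
    b.isUnit.map _
  have h1 : ((p : LTRing p 1)) ^ m ∈ P := by
    exact (Ideal.unit_mul_mem_iff_mem P hu).mp (by rwa [mul_comm] at hf)
  exact hp (hPp.mem_of_pow_mem _ h1)

/-- **Char 0 stratum.** A prime of `E₀`, stable under the stabilizer maps of `g ≡ X mod X^M`,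
and not containing `p`, is zero. -/
theorem charZero_stable (hn : 1 ≤ n)
    (hU : IsUniversalDeformation p n (Std.stdGamma p n) (Std.stdLaw p n)) (M : ℕ)
    (P : Ideal (LTRing p n)) [P.IsPrime]
    (hS : IsStableIdeal p n (Std.stdGamma p n) (Std.stdLaw p n) M P)
    (hp : (p : LTRing p n) ∉ P) : P = ⊥ := by
  rcases Nat.lt_or_ge n 2 with h | h
  · exact charZero_stable_one (by omega) P hp
  · exact charZero_stable_aux h hU M P hS hp

end Crest.Agent.LT.C0Thin
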