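import Crest.Agent.Lib.LT.C0Limit

/-!
# Functional equations of `a_b` and of its partial derivatives
-/

namespace Crest.Agent.Lib.LT.C0

open MvPolynomial Filter Topology

set_option linter.unusedSectionVars false

variable {p : ℕ} [hp : Fact p.Prime] {n : ℕ} {𝕂 : Type*} [NormedField 𝕂] [IsUltrametricDist 𝕂]
  [CharZero 𝕂] [CompleteSpace 𝕂]

lemma pow_point_lt {w : Fin (n - 1) → 𝕂} (hw : ∀ i, ‖w i‖ < 1) {k : ℕ} (hk : k ≠ 0) (i : Fin (n - 1)) :
    ‖(w ^ k) i‖ < 1 := by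
  rw [Pi.pow_apply, norm_pow]
  exact pow_lt_one₀ (norm_nonneg _) (hw i) hk

lemma pderiv_expand {σ : Type*} (i : σ) (k : ℕ) (g : MvPolynomial σ 𝕂) :
    pderiv i (expand k g) =
      MvPolynomial.C (k : 𝕂) * X i ^ (k - 1) * expand k (pderiv i g) := by
  classical
  induction g using MvPolynomial.induction_on with
  | C a => simp
  | add f g hf hg => simp only [map_add, hf, hg, mul_add]
  | mul_X f j hf =>
    simp only [map_mul, expand_X, Derivation.leibniz, smul_eq_mul, hf, pderiv_X, Pi.single_apply,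
      pderiv_pow]
    by_cases hj : j = i
    · subst hj
      simp only [if_true, pderiv_X_self, mul_one, Pi.single_eq_same, map_one]
      simp
      ring
    · have : i ≠ j := fun h => hj h.symm
      simp [this, hj]
      ring

lemma pderiv_vv (hi : Fin (n - 1)) (j : ℕ) :
    pderiv hi (vv n 𝕂 j) = if j = (hi : ℕ) then 1 else 0 := by
  classical
  unfold vv
  split_ifs with h1 h2 h2
  · subst h2; 
    simp [pderiv_X]
  · have : (⟨j, h1⟩ : Fin (n - 1)) ≠ hi := by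
      intro h; apply h2; rw [← h]
    simp [pderiv_X, Pi.single_apply, this]
  · exfalso; apply h1; rw [h2]; exact hi.2
  · simp

/-- eventually all indices are in the recursive range. -/
lemma exists_M (hn : 1 ≤ n) (b : ℤ) : ∃ m₀ : ℕ, ∀ m ≥ m₀, ∃ M : ℕ, n ≤ M ∧ (b + n * m : ℤ) = M + 1 := by
  refine ⟨(b.natAbs + n + 1), fun m hm => ?_⟩
  have h1 : ((b.natAbs + n + 1 : ℕ) : ℤ) ≤ m := by exact_mod_cast hm
  have h2 : (m : ℤ) ≤ (n : ℤ) * m := by
    have : (1 : ℤ) ≤ n := by exact_mod_cast hn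
    nlinarith [Int.natCast_nonneg m]
  have h3 : -(b.natAbs : ℤ) ≤ b := by omega
  push_cast at h1
  refine ⟨(b + n * m - 1).toNat, ?_, ?_⟩
  · omega
  · have : 0 ≤ b + (n : ℤ) * m - 1 := by omega
    rw [Int.toNat_of_nonneg this]
    ring

/-- the right recursion for `a_b`. -/
theorem aa_rec (hn : 1 ≤ n) (hε : ‖(p : 𝕂)‖ < 1) (b : ℤ) (w : Fin (n - 1) → 𝕂)
    (hw : ∀ i, ‖w i‖ < 1) :
    (p : 𝕂) * aa p n b w =
      ∑ j ∈ Finset.range n, MvPolynomial.eval w (vv n 𝕂 j) *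
        aa p n (b - j - 1) (w ^ (p ^ (j + 1))) := by
  have h1 := (aa_tendsto hn hε b w hw).const_mul (p : 𝕂)
  have hpp : ∀ j : ℕ, p ^ (j + 1) ≠ 0 := fun j => pow_ne_zero _ hp.out.ne_zero
  have h2 : Tendsto (fun m : ℕ => ∑ j ∈ Finset.range n, MvPolynomial.eval w (vv n 𝕂 j) *
      MvPolynomial.eval (w ^ (p ^ (j + 1))) (gS p n 𝕂 (b - j - 1) m)) atTop
      (𝓝 (∑ j ∈ Finset.range n, MvPolynomial.eval w (vv n 𝕂 j) *
        aa p n (b - j - 1) (w ^ (p ^ (j + 1))))) := by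
    apply tendsto_finsetSum
    intro j _
    exact (aa_tendsto hn hε _ _ (fun i => pow_point_lt hw (hpp j) i)).const_mul _
  refine tendsto_nhds_unique h1 (h2.congr' ?_)
  obtain ⟨m₀, hm₀⟩ := exists_M (n := n) hn b
  filter_upwards [eventually_ge_atTop m₀] with m hm
  obtain ⟨M, hnM, hM⟩ := hm₀ m hm
  have h3 := congrArg (MvPolynomial.eval w) (lam_right (p := p) (𝕂 := 𝕂) n M)
  simp only [map_mul, eval_C, map_sum] at h3
  rw [gS, hM, map_mul, eval_C]
  have h4 : ((M + 1 : ℤ)).toNat = M + 1 := by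
    have : ((M : ℤ) + 1) = ((M + 1 : ℕ) : ℤ) := by push_cast; ring
    rw [this, Int.toNat_natCast]
  rw [h4]
  calc _ = (p : 𝕂) ^ m * ((p : 𝕂) * MvPolynomial.eval w (lam p n 𝕂 (M + 1))) := ?_
    _ = _ := by ring
  rw [h3, Finset.mul_sum]
  apply Finset.sum_congr rfl
  intro j hj
  have hj' := Finset.mem_range.1 hj
  rw [if_pos (by omega), map_mul, eval_expand, gS, map_mul, eval_C]
  have h5 : (b - j - 1 + (n : ℤ) * m).toNat = M - j := by
    have : b - j - 1 + (n : ℤ) * m = ((M - j : ℕ) : ℤ) := by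
      rw [Nat.cast_sub (by omega)]
      linarith
    rw [this, Int.toNat_natCast]
  rw [h5]
  ring

/-- the right recursion for `∂_i a_b`. -/
theorem dd_rec (hn : 1 ≤ n) (hε : ‖(p : 𝕂)‖ < 1) (b : ℤ) (i : Fin (n - 1)) (w : Fin (n - 1) → 𝕂)
    (hw : ∀ i, ‖w i‖ < 1) :
    (p : 𝕂) * dd p n b i w =
      aa p n (b - i - 1) (w ^ (p ^ ((i : ℕ) + 1))) +
      ∑ j ∈ Finset.range n, MvPolynomial.eval w (vv n 𝕂 j) *
        ((p : 𝕂) ^ (j + 1) * w i ^ (p ^ (j + 1) - 1) *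
          dd p n (b - j - 1) i (w ^ (p ^ (j + 1)))) := by
  have h1 := (dd_tendsto hn hε b i w hw).const_mul (p : 𝕂)
  have hpp : ∀ j : ℕ, p ^ (j + 1) ≠ 0 := fun j => pow_ne_zero _ hp.out.ne_zero
  have h2 : Tendsto (fun m : ℕ =>
      MvPolynomial.eval (w ^ (p ^ ((i : ℕ) + 1))) (gS p n 𝕂 (b - i - 1) m) +
      ∑ j ∈ Finset.range n, MvPolynomial.eval w (vv n 𝕂 j) *
        ((p : 𝕂) ^ (j + 1) * w i ^ (p ^ (j + 1) - 1) *
          MvPolynomial.eval (w ^ (p ^ (j + 1))) (pderiv i (gS p n 𝕂 (b - j - 1) m)))) atTop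
      (𝓝 (aa p n (b - i - 1) (w ^ (p ^ ((i : ℕ) + 1))) +
      ∑ j ∈ Finset.range n, MvPolynomial.eval w (vv n 𝕂 j) *
        ((p : 𝕂) ^ (j + 1) * w i ^ (p ^ (j + 1) - 1) *
          dd p n (b - j - 1) i (w ^ (p ^ (j + 1)))))) := by
    refine (aa_tendsto hn hε _ _ (fun i => pow_point_lt hw (hpp _) i)).add ?_
    apply tendsto_finsetSum
    intro j _
    exact ((dd_tendsto hn hε _ _ _ (fun i => pow_point_lt hw (hpp j) i)).const_mul _).const_mul _
  refine tendsto_nhds_unique h1 (h2.congr' ?_)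
  obtain ⟨m₀, hm₀⟩ := exists_M (n := n) hn b
  filter_upwards [eventually_ge_atTop m₀] with m hm
  obtain ⟨M, hnM, hM⟩ := hm₀ m hm
  have hi' : (i : ℕ) < n := by have := i.2; omega
  have hIdx : ∀ j ∈ Finset.range n, (b - j - 1 + (n : ℤ) * m).toNat = M - j := by
    intro j hj
    have hj' := Finset.mem_range.1 hj
    have : b - j - 1 + (n : ℤ) * m = ((M - j : ℕ) : ℤ) := by
      rw [Nat.cast_sub (by omega)]
      linarith
    rw [this, Int.toNat_natCast]
  have h3 := congrArg (fun g => MvPolynomial.eval w (pderiv i g)) (lam_right (p := p) (𝕂 := 𝕂) n M)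
  simp only [pderiv_C_mul, map_mul, eval_C, map_sum] at h3
  have h4 : ((M + 1 : ℤ)).toNat = M + 1 := by
    have : ((M : ℤ) + 1) = ((M + 1 : ℕ) : ℤ) := by push_cast; ring
    rw [this, Int.toNat_natCast]
  have hgoalR : (p : 𝕂) * MvPolynomial.eval w (pderiv i (gS p n 𝕂 b m)) =
      (p : 𝕂) ^ m * ((p : 𝕂) * MvPolynomial.eval w (pderiv i (lam p n 𝕂 (M + 1)))) := by
    rw [gS, hM, h4, pderiv_C_mul, map_mul, eval_C]; ring
  rw [hgoalR, h3, Finset.mul_sum]
  have h6 : ∀ j ∈ Finset.range n, (p : 𝕂) ^ m * MvPolynomial.eval w (pderiv i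
      (if j ≤ M then vv n 𝕂 j * expand (p ^ (j + 1)) (lam p n 𝕂 (M - j)) else 0)) =
      (if j = (i : ℕ) then (p : 𝕂) ^ m *
        MvPolynomial.eval (w ^ p ^ (j + 1)) (lam p n 𝕂 (M - j)) else 0) +
      MvPolynomial.eval w (vv n 𝕂 j) *
        ((p : 𝕂) ^ (j + 1) * w i ^ (p ^ (j + 1) - 1) *
          MvPolynomial.eval (w ^ p ^ (j + 1)) (pderiv i (gS p n 𝕂 (b - j - 1) m))) := by
    intro j hj
    have hj' := Finset.mem_range.1 hj
    rw [if_pos (by omega), Derivation.leibniz, smul_eq_mul, smul_eq_mul, map_add, map_mul, map_mul,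
      pderiv_expand, pderiv_vv, gS, hIdx j hj, pderiv_C_mul, map_mul, map_mul, map_mul, map_pow,
      eval_C, eval_C, eval_expand, eval_X]
    simp only [Nat.cast_pow, eval_expand]
    split_ifs with hji
    · simp only [map_one, one_mul]
      ring
    · simp only [map_zero, mul_zero]
      ring
  rw [Finset.sum_congr rfl h6, Finset.sum_add_distrib, Finset.sum_ite_eq']
  rw [if_pos (Finset.mem_range.2 hi')]
  congr 1
  have h7 := hIdx i (Finset.mem_range.2 hi')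
  rw [gS, map_mul, eval_C, h7]

end Crest.Agent.Lib.LT.C0
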