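import Crest.Agent.Lib.LT.C0Tower

/-!
# `p^N ℓ_w (x N) → ∑_{b<n} a_b(w) Z_b(x)`
-/

namespace Crest.Agent.Lib.LT.C0

open MvPolynomial Filter Topology
open Crest.Agent.LT.Std (logSeries)
open Crest.Agent.Lib.LT.Eval1

set_option linter.unusedSectionVars false

variable {p : ℕ} [hp : Fact p.Prime] {n : ℕ} {𝕂 : Type*} [NormedField 𝕂] [IsUltrametricDist 𝕂]
  [CharZero 𝕂] [CompleteSpace 𝕂]

lemma gS_natCast (b s : ℕ) (w : Fin (n - 1) → 𝕂) :
    MvPolynomial.eval w (gS p n 𝕂 (b : ℤ) s) =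
      (p : 𝕂) ^ s * MvPolynomial.eval w (lam p n 𝕂 (b + n * s)) := by
  have h : ((b : ℤ) + (n : ℤ) * (s : ℤ)).toNat = b + n * s := by
    have : ((b : ℤ) + (n : ℤ) * (s : ℤ)) = ((b + n * s : ℕ) : ℤ) := by push_cast; ring
    rw [this, Int.toNat_natCast]
  rw [gS, h, map_mul, eval_C]

/-- One residue class. -/
theorem tower_limit_class (hn : 1 ≤ n) (hε : ‖(p : 𝕂)‖ < 1) (w : Fin (n - 1) → 𝕂)
    (hw : ∀ i, ‖w i‖ < 1) {x : ℕ → 𝕂} (hx : IsTower p n x) (b : ℕ) :
    Tendsto (fun N : ℕ => ∑' s : ℕ, (p : 𝕂) ^ N * (MvPolynomial.eval w (lam p n 𝕂 (b + n * s)) *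
        x N ^ (p ^ (b + n * s)))) atTop (𝓝 (aa p n (b : ℤ) w * Zc p n x b)) := by
  classical
  have hp0 : (p : 𝕂) ≠ 0 := p_ne
  obtain ⟨r, hr0, hr1, hwr⟩ := exists_radius w hw
  obtain ⟨K, hK0, hK⟩ := gS_bounded (n := n) (p := p) (𝕂 := 𝕂) hn hε hr0 hr1 (b : ℤ)
  -- the family indexed by `ℤ`
  let G : ℕ → ℤ → 𝕂 := fun N t =>
    if 0 ≤ t + N then
      MvPolynomial.eval w (gS p n 𝕂 (b : ℤ) (t + N).toNat) * ((p : 𝕂) ^ (-t) * yy p n x t ^ (p ^ b))
    else 0
  have hG : ∀ N : ℕ, ∑' t : ℤ, G N t =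
      ∑' s : ℕ, (p : 𝕂) ^ N * (MvPolynomial.eval w (lam p n 𝕂 (b + n * s)) *
        x N ^ (p ^ (b + n * s))) := by
    intro N
    have hinj : Function.Injective (fun s : ℕ => (s : ℤ) - N) := by
      intro a c hac
      simpa using hac
    rw [← hinj.tsum_eq]
    · apply tsum_congr
      intro s
      have h0 : (0 : ℤ) ≤ (s : ℤ) - N + N := by simp
      have h1 : ((s : ℤ) - N + N).toNat = s := by simp
      simp only [G, if_pos h0, h1]
      rw [gS_natCast, ← pow_eq_yy hx, neg_sub, zpow_sub₀ hp0, zpow_natCast, zpow_natCast,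
        pow_add p b, pow_mul p n s]
      have h2 : (x N ^ (p ^ n) ^ s) ^ p ^ b = x N ^ (p ^ b * (p ^ n) ^ s) := by
        rw [← pow_mul, mul_comm]
      rw [h2]
      have hps : (p : 𝕂) ^ s ≠ 0 := pow_ne_zero _ hp0
      field_simp
    · intro t ht
      by_contra hcon
      apply ht
      have : ¬ 0 ≤ t + N := by
        intro h
        exact hcon ⟨(t + N).toNat, by simp; omega⟩
      simp [G, this]
  simp_rw [← hG]
  have hZ : aa p n (b : ℤ) w * Zc p n x b =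
      ∑' t : ℤ, aa p n (b : ℤ) w * ((p : 𝕂) ^ (-t) * yy p n x t ^ (p ^ b)) := by
    rw [tsum_mul_left, Zc]
  rw [hZ]
  refine tendsto_tsum_of_dominated_convergence (bound := fun t => K * tBound p n x t)
    ((tBound_summable hn hε hx).mul_left K) ?_ ?_
  · intro t
    have hφ : Tendsto (fun N : ℕ => (t + N).toNat) atTop atTop := by
      rw [tendsto_atTop_atTop]
      intro B
      refine ⟨B + t.natAbs, fun a ha => ?_⟩
      omega
    have h1 := ((aa_tendsto hn hε (b : ℤ) w hw).comp hφ).mul_const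
      ((p : 𝕂) ^ (-t) * yy p n x t ^ (p ^ b))
    refine h1.congr' ?_
    filter_upwards [eventually_ge_atTop t.natAbs] with N hN
    have h0 : 0 ≤ t + N := by omega
    simp only [G, if_pos h0, Function.comp]
  · refine Eventually.of_forall fun N t => ?_
    by_cases h0 : 0 ≤ t + N
    · simp only [G, if_pos h0]
      rw [norm_mul]
      exact mul_le_mul ((hK _).eval hr0.le hwr) (term_norm_le hx b t)
        (norm_nonneg _) hK0
    · simp only [G, if_neg h0, norm_zero]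
      exact mul_nonneg hK0 (mul_nonneg (zpow_nonneg (norm_nonneg _) _) (norm_nonneg _))

/-- The main limit. -/
theorem tower_limit (hn : 1 ≤ n) (hε : ‖(p : 𝕂)‖ < 1) (w : Fin (n - 1) → 𝕂)
    (hw : ∀ i, ‖w i‖ < 1) {x : ℕ → 𝕂} (hx : IsTower p n x) :
    Tendsto (fun N : ℕ => (p : 𝕂) ^ N * ev1 (logAt p n w) (x N)) atTop
      (𝓝 (∑ b ∈ Finset.range n, aa p n (b : ℤ) w * Zc p n x b)) := by
  have hne : NeZero n := ⟨by omega⟩
  have hw1 : ∀ i, ‖w i‖ ≤ 1 := fun i => (hw i).le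
  have key : ∀ N : ℕ, (p : 𝕂) ^ N * ev1 (logAt p n w) (x N) =
      ∑ b ∈ Finset.range n, ∑' s : ℕ, (p : 𝕂) ^ N *
        (MvPolynomial.eval w (lam p n 𝕂 (b + n * s)) * x N ^ (p ^ (b + n * s))) := by
    intro N
    have hxN := hx.norm_lt N
    -- summability
    obtain ⟨r, hr0, hr1, hxr⟩ : ∃ r : ℝ, 0 < r ∧ r < 1 ∧ ‖x N‖ < r :=
      ⟨(‖x N‖ + 1) / 2, by positivity, by linarith, by linarith⟩
    obtain ⟨K, hK⟩ := logAt_GS (n := n) (p := p) hε hr0 hr1 hw1
    have hinj : Function.Injective (fun m : ℕ => p ^ m) := Nat.pow_right_injective hp.out.two_le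
    have hsum : Summable (fun m : ℕ => MvPolynomial.eval w (lam p n 𝕂 m) * x N ^ (p ^ m)) := by
      have h1 := (hK.summable hr0 hxr).comp_injective hinj
      refine h1.congr fun m => ?_
      simp only [Function.comp]
      rw [logAt, Crest.Agent.LT.Std.coeff_logSeries_pow hp.out.one_lt]
    rw [logAt, ev1_logSeries, Nat.sumByResidueClasses hsum n, Finset.mul_sum]
    have h3 : ∀ F : ℕ → 𝕂, ∑ j : ZMod n, F j.val = ∑ b ∈ Finset.range n, F b := by
      intro F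
      obtain ⟨k, rfl⟩ : ∃ k, n = k + 1 := ⟨n - 1, by omega⟩
      rw [Finset.sum_range]
      rfl
    have h4 := h3 (fun b => (p : 𝕂) ^ N * ∑' m : ℕ,
      MvPolynomial.eval w (lam p n 𝕂 (b + n * m)) * x N ^ (p ^ (b + n * m)))
    rw [h4]
    apply Finset.sum_congr rfl
    intro b _
    rw [tsum_mul_left]
  simp_rw [key]
  apply tendsto_finsetSum
  intro b _
  exact tower_limit_class hn hε w hw hx b

end Crest.Agent.Lib.LT.C0
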