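import Mathlib
import Crest.Prelude.Def_LubinTate

/-!
# Final assembly for S0351

`final_of_interface` derives the statement of S0351 from:
* `hprime`: height ideals (`h ≤ n`) are prime,
* `hstable`: height ideals (`h ≤ n`) are stable at every level,
* `hmain`: stable primes are height ideals (at every level `M ≥ 1`),
* `hbij`: maps realising automorphisms of `Γ` are bijective,
* `hcont`: continuity: for `g` congruent to `X` modulo a high power of `X`, any `φ` realising `g`
  is congruent to the identity modulo `m ^ c`.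
-/

set_option autoImplicit false

open Crest.LubinTate IsLocalRing

namespace Crest.Agent.LT

section Krull

variable {E : Type*} [CommRing E] [IsNoetherianRing E] [IsLocalRing E]

/-- Krull: an element outside a proper ideal `Q` is outside `Q + m ^ c` for some `c`. -/
theorem exists_not_mem_sup_pow (Q : Ideal E) (hQ : Q ≠ ⊤) (y : E) (hy : y ∉ Q) :
    ∃ c : ℕ, y ∉ Q ⊔ maximalIdeal E ^ c := by
  classical
  let B := E ⧸ Q
  haveI : Nontrivial B := Ideal.Quotient.nontrivial_iff.mpr hQ
  have hs : Function.Surjective (Ideal.Quotient.mk Q) := Ideal.Quotient.mk_surjective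
  haveI : IsLocalRing B := IsLocalRing.of_surjective' (Ideal.Quotient.mk Q) hs
  have hinf : ⨅ i : ℕ, maximalIdeal B ^ i = ⊥ := Ideal.iInf_pow_eq_bot_of_isLocalRing _
    (IsLocalRing.maximalIdeal.isMaximal B).ne_top
  have hy0 : Ideal.Quotient.mk Q y ≠ 0 := fun h => hy (Ideal.Quotient.eq_zero_iff_mem.mp h)
  have : ∃ c : ℕ, Ideal.Quotient.mk Q y ∉ maximalIdeal B ^ c := by
    by_contra hall
    push Not at hall
    have hmem : Ideal.Quotient.mk Q y ∈ ⨅ i : ℕ, maximalIdeal B ^ i := Ideal.mem_iInf.mpr hall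
    rw [hinf] at hmem
    exact hy0 hmem
  obtain ⟨c, hc⟩ := this
  refine ⟨c, fun hmem => hc ?_⟩
  obtain ⟨q, hq, z, hz, hqz⟩ := Submodule.mem_sup.mp hmem
  have hmap : Ideal.map (Ideal.Quotient.mk Q) (maximalIdeal E) ≤ maximalIdeal B := by
    rw [Ideal.map_le_iff_le_comap]
    intro a ha
    rw [Ideal.mem_comap, mem_maximalIdeal, mem_nonunits_iff]
    intro hu
    obtain ⟨b, hb⟩ := hu.exists_right_inv
    obtain ⟨b', rfl⟩ := hs b
    have h1 : a * b' - 1 ∈ Q := by
      rw [← Ideal.Quotient.eq_zero_iff_mem, map_sub, map_mul, hb, map_one, sub_self]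
    have h2 : a * b' - 1 ∈ maximalIdeal E := le_maximalIdeal hQ h1
    have h3 : a * b' ∈ maximalIdeal E := Ideal.mul_mem_right _ _ ha
    have h4 : (1 : E) ∈ maximalIdeal E := by
      have := (maximalIdeal E).sub_mem h3 h2
      simp at this
    exact (Ideal.ne_top_iff_one _).mp (maximalIdeal.isMaximal E).ne_top h4
  have h5 : Ideal.Quotient.mk Q z ∈ maximalIdeal B ^ c := by
    have h6 : Ideal.Quotient.mk Q z ∈ Ideal.map (Ideal.Quotient.mk Q) (maximalIdeal E ^ c) :=
      Ideal.mem_map_of_mem _ hz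
    rw [Ideal.map_pow] at h6
    exact Ideal.pow_right_mono hmap c h6
  rw [← hqz, map_add, Ideal.Quotient.eq_zero_iff_mem.mpr hq, zero_add]
  exact h5

end Krull

section Final

variable (p : ℕ) [Fact p.Prime] (n : ℕ)

/-- The statement of S0351 follows from the interface below. -/
theorem final_of_interface
    (Γ : FormalGroup (GaloisField p n)) (H : FormalGroup (LTRing p n)) (M : ℕ)
    (hprime : ∀ h, h ≤ n → (heightIdeal p n H h).IsPrime)
    (hstable : ∀ M h, h ≤ n → IsStableIdeal p n Γ H M (heightIdeal p n H h))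
    (hmain : ∀ M, 1 ≤ M → ∀ P : Ideal (LTRing p n), P.IsPrime → IsStableIdeal p n Γ H M P →
      ∃ h, h ≤ n ∧ P = heightIdeal p n H h)
    (hbij : ∀ (g : PowerSeries (GaloisField p n))
      (φ : LTRing p n →ₐ[WittVector p (GaloisField p n)] LTRing p n),
      IsFGAut Γ g → IsStabilizerMap p n H g φ → Function.Bijective φ)
    (hcont : ∀ c : ℕ, ∃ M' : ℕ, ∀ (g : PowerSeries (GaloisField p n))
      (φ : LTRing p n →ₐ[WittVector p (GaloisField p n)] LTRing p n),
      IsFGAut Γ g → (∀ i : ℕ, i < M' → PowerSeries.coeff i g = PowerSeries.coeff i PowerSeries.X) →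
      IsStabilizerMap p n H g φ → ∀ a, φ a - a ∈ maximalIdeal (LTRing p n) ^ c)
    (hM : 1 ≤ M) :
    (∀ P : Ideal (LTRing p n),
        (P.IsPrime ∧ IsStableIdeal p n Γ H M P) ↔ ∃ h : ℕ, h ≤ n ∧ P = heightIdeal p n H h) ∧
    (∀ J : Ideal (LTRing p n),
        (J.IsRadical ∧ IsStableIdeal p n Γ H M J) ↔
          (∃ h : ℕ, h ≤ n ∧ J = heightIdeal p n H h) ∨ J = ⊤) := by
  classical
  have hmono : Monotone (heightIdeal p n H) := by
    apply monotone_nat_of_le_succ
    intro h
    exact le_sup_left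
  refine ⟨fun P => ⟨fun ⟨h1, h2⟩ => hmain M hM P h1 h2, ?_⟩, fun J => ⟨?_, ?_⟩⟩
  · rintro ⟨h, hh, rfl⟩
    exact ⟨hprime h hh, hstable M h hh⟩
  · -- radical stable ideals
    rintro ⟨hrad, hJ⟩
    by_cases htop : J = ⊤
    · exact Or.inr htop
    left
    have hfin : J.minimalPrimes.Finite := Ideal.finite_minimalPrimes_of_isNoetherianRing _ J
    -- choose separating elements
    have hsep : ∀ Q Q' : Ideal (LTRing p n), Q ∈ J.minimalPrimes → Q' ∈ J.minimalPrimes → Q ≠ Q' →
        ∃ c : ℕ, ∃ y ∈ Q', y ∉ Q ⊔ maximalIdeal (LTRing p n) ^ c := by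
      intro Q Q' hQ hQ' hne
      have hnle : ¬ Q' ≤ Q := fun hle => hne (le_antisymm (hQ.2 hQ'.1 hle) hle)
      obtain ⟨y, hy, hyQ⟩ := SetLike.not_le_iff_exists.mp hnle
      obtain ⟨c, hc⟩ := exists_not_mem_sup_pow Q hQ.1.1.ne_top y hyQ
      exact ⟨c, y, hy, hc⟩
    choose! c y hyQ' hyQ using
      (fun (x : Ideal (LTRing p n) × Ideal (LTRing p n))
          (hx : x.1 ∈ J.minimalPrimes ∧ x.2 ∈ J.minimalPrimes ∧ x.1 ≠ x.2) =>
        hsep x.1 x.2 hx.1 hx.2.1 hx.2.2)
    let pairs : Finset (Ideal (LTRing p n) × Ideal (LTRing p n)) :=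
      (hfin.toFinset ×ˢ hfin.toFinset).filter (fun x => x.1 ≠ x.2)
    let c₀ : ℕ := pairs.sup c
    obtain ⟨M', hM'⟩ := hcont c₀
    let M'' := max M M'
    have hM''1 : 1 ≤ M'' := le_trans hM (le_max_left _ _)
    -- every minimal prime is stable at level `M''`
    have hQst : ∀ Q ∈ J.minimalPrimes, IsStableIdeal p n Γ H M'' Q := by
      intro Q hQ g φ hg hgM hφ
      have hφJ : Ideal.comap φ.toRingHom J = J :=
        hJ g φ hg (fun i hi => hgM i (lt_of_lt_of_le hi (le_max_left _ _))) hφ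
      have hbi := hbij g φ hg hφ
      let φe : LTRing p n ≃+* LTRing p n := RingEquiv.ofBijective φ.toRingHom hbi
      have hQp : Q.IsPrime := hQ.1.1
      let Q' := Ideal.comap φ.toRingHom Q
      have hQ'p : Q'.IsPrime := Ideal.comap_isPrime _ _
      have hJQ' : J ≤ Q' := by
        rw [← hφJ]
        exact Ideal.comap_mono hQ.1.2
      have hQ'min : Q' ∈ J.minimalPrimes := by
        refine ⟨⟨hQ'p, hJQ'⟩, ?_⟩
        rintro R ⟨hRp, hJR⟩ hRQ'
        -- push `R` forward along the automorphism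
        let R' := Ideal.comap φe.symm.toRingHom R
        have hR'p : R'.IsPrime := Ideal.comap_isPrime _ _
        have hR'Q : R' ≤ Q := by
          intro a ha
          have h1 : φe.symm a ∈ Q' := hRQ' ha
          have h2 : φ.toRingHom (φe.symm a) ∈ Q := h1
          have h3 : φ.toRingHom (φe.symm a) = a := φe.apply_symm_apply a
          rwa [h3] at h2
        have hJR' : J ≤ R' := by
          intro a ha
          have h1 : φe.symm a ∈ J := by
            rw [← hφJ, Ideal.mem_comap]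
            have h3 : φ.toRingHom (φe.symm a) = a := φe.apply_symm_apply a
            rwa [h3]
          exact hJR h1
        have hle := hQ.2 ⟨hR'p, hJR'⟩ hR'Q
        intro a ha
        have h1 : φ.toRingHom a ∈ Q := ha
        have h2 := hle h1
        have h3 : φe.symm (φ.toRingHom a) ∈ R := h2
        have h4 : φe.symm (φ.toRingHom a) = a := φe.symm_apply_apply a
        rwa [h4] at h3
      by_contra hne
      have hne' : Q ≠ Q' := fun h => hne h.symm
      have hx : (Q, Q').1 ∈ J.minimalPrimes ∧ (Q, Q').2 ∈ J.minimalPrimes ∧ (Q, Q').1 ≠ (Q, Q').2 :=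
        ⟨hQ, hQ'min, hne'⟩
      have hymem := hyQ' (Q, Q') hx
      have hynot := hyQ (Q, Q') hx
      apply hynot
      have hc0 : c (Q, Q') ≤ c₀ := Finset.le_sup (f := c) (by
        simp only [pairs, Finset.mem_filter, Finset.mem_product, Set.Finite.mem_toFinset]
        exact ⟨⟨hQ, hQ'min⟩, hne'⟩)
      have h1 := hM' g φ hg (fun i hi => hgM i (lt_of_lt_of_le hi (le_max_right _ _))) hφ
        (y (Q, Q'))
      have h2 : φ (y (Q, Q')) ∈ Q := hymem
      have h3 : y (Q, Q') = φ (y (Q, Q')) - (φ (y (Q, Q')) - y (Q, Q')) := by ring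
      rw [h3]
      exact Ideal.sub_mem _ (Ideal.mem_sup_left h2)
        (Ideal.mem_sup_right (Ideal.pow_le_pow_right hc0 h1))
    -- so every minimal prime is a height ideal; hence there is only one
    have hQht : ∀ Q ∈ J.minimalPrimes, ∃ h, h ≤ n ∧ Q = heightIdeal p n H h := fun Q hQ =>
      hmain M'' hM''1 Q hQ.1.1 (hQst Q hQ)
    obtain ⟨⟨Q₀, hQ₀⟩⟩ := Ideal.nonempty_minimalPrimes htop
    have huniq : ∀ Q ∈ J.minimalPrimes, Q = Q₀ := by
      intro Q hQ
      obtain ⟨h, -, rfl⟩ := hQht Q hQ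
      obtain ⟨h₀, -, hh₀⟩ := hQht Q₀ hQ₀
      rcases le_total h h₀ with hle | hle
      · exact le_antisymm (by rw [hh₀]; exact hmono hle) (hQ₀.2 hQ.1 (by rw [hh₀]; exact hmono hle))
      · exact le_antisymm (hQ.2 hQ₀.1 (by rw [hh₀]; exact hmono hle)) (by rw [hh₀]; exact hmono hle)
    obtain ⟨h₀, hh₀le, hh₀⟩ := hQht Q₀ hQ₀
    refine ⟨h₀, hh₀le, ?_⟩
    rw [← hh₀]
    have hJrad : J = J.radical := hrad.radical.symm
    rw [hJrad, ← Ideal.sInf_minimalPrimes]
    apply le_antisymm
    · exact sInf_le hQ₀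
    · apply le_sInf
      intro Q hQ
      rw [huniq Q hQ]
  · rintro (⟨h, hh, rfl⟩ | rfl)
    · exact ⟨(hprime h hh).isRadical, hstable M h hh⟩
    · refine ⟨?_, ?_⟩
      · exact fun x _ => Submodule.mem_top
      · intro g φ _ _ _
        exact Ideal.comap_top

end Final

end Crest.Agent.LT
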