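import Crest.Agent.Lib.LT.LazardComb

/-!
# Two laws with the same `p`-series `X^q` over `F_q` are isomorphic
-/

set_option autoImplicit false

open Crest.LubinTate

namespace Crest.Agent.LT

variable {R : Type*} [CommRing R] {σ τ : Type*}

/-! ### Refined Lipschitz estimate -/

theorem prod_sub_prod_mem_ordIdeal {a a' : σ → MvPowerSeries τ R}
    (ha : ∀ s, a s ∈ ordIdeal τ R 1) (ha' : ∀ s, a' s ∈ ordIdeal τ R 1)
    (h : ∀ s, a s - a' s ∈ ordIdeal τ R 2) (d : σ →₀ ℕ) :
    (d.prod fun s k => a s ^ k) - (d.prod fun s k => a' s ^ k) ∈ ordIdeal τ R (d.degree + 1) := by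
  classical
  have key : ∀ T : Finset σ, (∏ s ∈ T, a s ^ d s) - (∏ s ∈ T, a' s ^ d s) ∈
      ordIdeal τ R ((∑ s ∈ T, d s) + 1) ∧ (∏ s ∈ T, a s ^ d s) ∈ ordIdeal τ R (∑ s ∈ T, d s) := by
    intro T
    induction T using Finset.induction_on with
    | empty => simp [mem_ordIdeal_zero]
    | insert s T hs ih =>
      rw [Finset.prod_insert hs, Finset.prod_insert hs, Finset.sum_insert hs]
      refine ⟨?_, ?_⟩
      · have e : a s ^ d s * ∏ x ∈ T, a x ^ d x - a' s ^ d s * ∏ x ∈ T, a' x ^ d x =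
            (a s ^ d s - a' s ^ d s) * (∏ x ∈ T, a x ^ d x) +
              a' s ^ d s * ((∏ x ∈ T, a x ^ d x) - ∏ x ∈ T, a' x ^ d x) := by ring
        rw [e]
        refine add_mem ?_ ?_
        · have h1 := add_pow_sub_pow_mem_ordIdeal (ha' s) (h s) (d s)
          rw [add_sub_cancel] at h1
          have := mul_mem_ordIdeal h1 ih.2
          rwa [show d s + 1 + ∑ x ∈ T, d x = d s + ∑ x ∈ T, d x + 1 by ring] at this
        · have h2 := pow_mem_ordIdeal (ha' s) (d s)
          rw [one_mul] at h2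
          have := mul_mem_ordIdeal h2 ih.1
          rwa [show d s + (∑ x ∈ T, d x + 1) = d s + ∑ x ∈ T, d x + 1 by ring] at this
      · have h2 := pow_mem_ordIdeal (ha s) (d s)
        rw [one_mul] at h2
        exact mul_mem_ordIdeal h2 ih.2
  exact (key d.support).1

/-- If `a ≡ a'` modulo order two, `Q` of order `c` satisfies `Q(a) ≡ Q(a')` modulo order `c + 1`. -/
theorem subst_sub_subst_of_ord {a a' : σ → MvPowerSeries τ R} (has : MvPowerSeries.HasSubst a)
    (has' : MvPowerSeries.HasSubst a') (ha : ∀ s, a s ∈ ordIdeal τ R 1)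
    (ha' : ∀ s, a' s ∈ ordIdeal τ R 1) (h : ∀ s, a s - a' s ∈ ordIdeal τ R 2)
    {Q : MvPowerSeries σ R} {c : ℕ} (hQ : Q ∈ ordIdeal σ R c) :
    MvPowerSeries.subst a Q - MvPowerSeries.subst a' Q ∈ ordIdeal τ R (c + 1) := by
  intro e he
  rw [map_sub, MvPowerSeries.coeff_subst has, MvPowerSeries.coeff_subst has',
    ← finsum_sub_distrib (MvPowerSeries.coeff_subst_finite has Q e)
      (MvPowerSeries.coeff_subst_finite has' Q e)]
  refine finsum_eq_zero_of_forall_eq_zero fun d => ?_
  rw [← smul_sub, ← map_sub]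
  by_cases hd : d.degree < c
  · rw [hQ d hd, zero_smul]
  · have := prod_sub_prod_mem_ordIdeal ha ha' h d e (by omega)
    rw [this, smul_zero]

/-- `F(x, y + u) - F(x, y) - u` has order one more than `u`. -/
theorem fadd_add_right_mem_ordIdeal (F : FormalGroup R) {x y u : MvPowerSeries τ R} {d : ℕ}
    (hx : MvPowerSeries.constantCoeff x = 0) (hy : MvPowerSeries.constantCoeff y = 0)
    (hu : MvPowerSeries.constantCoeff u = 0) (hud : u ∈ ordIdeal τ R d) :
    fadd F.toPowerSeries x (y + u) - fadd F.toPowerSeries x y - u ∈ ordIdeal τ R (d + 1) := by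
  have hyu : MvPowerSeries.constantCoeff (y + u) = 0 := by simp [hy, hu]
  rw [fadd_eq_cross F hx hyu, fadd_eq_cross F hx hy]
  set Q := cross F.toPowerSeries
  have hd : fadd Q x (y + u) - fadd Q x y ∈ ordIdeal τ R d := by
    refine subst_sub_subst_mem_ordIdeal (hasSubst_pair hx hyu) (hasSubst_pair hx hy) ?_ Q
    intro s
    fin_cases s
    · simp
    · simpa using hud
  have : x + (y + u) + x * (y + u) * fadd Q x (y + u) - (x + y + x * y * fadd Q x y) - u =
      x * u * fadd Q x (y + u) + x * y * (fadd Q x (y + u) - fadd Q x y) := by ring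
  rw [this]
  refine add_mem ?_ ?_
  · have := mul_mem_ordIdeal (mem_ordIdeal_one.mpr hx) hud
    rw [add_comm] at this
    exact Ideal.mul_mem_right _ _ this
  · have h1 := mul_mem_ordIdeal (mem_ordIdeal_one.mpr (show MvPowerSeries.constantCoeff (x * y) = 0 by simp [hx])) hd
    rw [add_comm] at h1
    exact h1

theorem fadd_sub (F G : MvPowerSeries (Fin 2) R) {x y : MvPowerSeries τ R}
    (hx : MvPowerSeries.constantCoeff x = 0) (hy : MvPowerSeries.constantCoeff y = 0) :
    fadd (F - G) x y = fadd F x y - fadd G x y :=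
  MvPowerSeries.subst_sub (hasSubst_pair hx hy) F G

theorem fadd_mem_ordIdeal {Q : MvPowerSeries (Fin 2) R} {c : ℕ} (hQ : Q ∈ ordIdeal (Fin 2) R c)
    {x y : MvPowerSeries τ R} (hx : x ∈ ordIdeal τ R 1) (hy : y ∈ ordIdeal τ R 1) :
    fadd Q x y ∈ ordIdeal τ R c := by
  have := subst_mem_ordIdeal (hasSubst_pair (mem_ordIdeal_one.mp hx) (mem_ordIdeal_one.mp hy))
    (b := 1) (c := c) (by intro s; fin_cases s <;> simpa) hQ
  rwa [one_mul] at this

/-! ### The cocycle identity -/

section Cocycle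

variable (A B : FormalGroup R)

local notation "Y0" => (MvPowerSeries.X 0 : MvPowerSeries (Fin 3) R)
local notation "Y1" => (MvPowerSeries.X 1 : MvPowerSeries (Fin 3) R)
local notation "Y2" => (MvPowerSeries.X 2 : MvPowerSeries (Fin 3) R)

theorem cocycle_identity {d : ℕ} (hΔ : B.toPowerSeries - A.toPowerSeries ∈ ordIdeal (Fin 2) R d) :
    fadd (B.toPowerSeries - A.toPowerSeries) Y0 Y1 +
      fadd (B.toPowerSeries - A.toPowerSeries) (Y0 + Y1) Y2 -
      fadd (B.toPowerSeries - A.toPowerSeries) Y1 Y2 -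
      fadd (B.toPowerSeries - A.toPowerSeries) Y0 (Y1 + Y2) ∈ ordIdeal (Fin 3) R (d + 1) := by
  set Δ := B.toPowerSeries - A.toPowerSeries with hΔdef
  have c0 : MvPowerSeries.constantCoeff Y0 = 0 := by simp
  have c1 : MvPowerSeries.constantCoeff Y1 = 0 := by simp
  have c2 : MvPowerSeries.constantCoeff Y2 = 0 := by simp
  have o0 : Y0 ∈ ordIdeal (Fin 3) R 1 := X_mem_ordIdeal_one _
  have o1 : Y1 ∈ ordIdeal (Fin 3) R 1 := X_mem_ordIdeal_one _
  have o2 : Y2 ∈ ordIdeal (Fin 3) R 1 := X_mem_ordIdeal_one _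
  -- left part
  set u := fadd B.toPowerSeries Y0 Y1 with hu
  set v := fadd A.toPowerSeries Y0 Y1 with hv
  have cu := constantCoeff_fadd B c0 c1
  have cv := constantCoeff_fadd A c0 c1
  set δ01 := fadd Δ Y0 Y1 with hδ01
  have huv : u = v + δ01 := by
    rw [hδ01, hΔdef, fadd_sub _ _ c0 c1]; ring
  have oδ01 : δ01 ∈ ordIdeal (Fin 3) R d := fadd_mem_ordIdeal hΔ o0 o1
  have cδ01 : MvPowerSeries.constantCoeff δ01 = 0 := by
    rw [hδ01, hΔdef, fadd_sub _ _ c0 c1, map_sub, constantCoeff_fadd B c0 c1, constantCoeff_fadd A c0 c1,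
      sub_zero]
  have L1 : fadd B.toPowerSeries u Y2 = fadd A.toPowerSeries u Y2 + fadd Δ u Y2 := by
    rw [hΔdef, fadd_sub _ _ cu c2]; ring
  have L2 : fadd A.toPowerSeries (v + δ01) Y2 - fadd A.toPowerSeries v Y2 - δ01 ∈ ordIdeal (Fin 3) R (d + 1) :=
    fadd_add_left_mem_ordIdeal A cv c2 cδ01 oδ01
  have L3 : fadd Δ u Y2 - fadd Δ (Y0 + Y1) Y2 ∈ ordIdeal (Fin 3) R (d + 1) := by
    refine subst_sub_subst_of_ord (hasSubst_pair cu c2) (hasSubst_pair (by simp) c2) ?_ ?_ ?_ hΔ
    · intro s; fin_cases s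
      · exact mem_ordIdeal_one.mpr cu
      · exact o2
    · intro s; fin_cases s
      · exact add_mem o0 o1
      · exact o2
    · intro s; fin_cases s
      · have := fadd_sub_mem_ordIdeal B c0 c1 o0 o1
        show u - (Y0 + Y1) ∈ _
        rwa [sub_add_eq_sub_sub]
      · simp
  -- right part
  set u' := fadd B.toPowerSeries Y1 Y2 with hu'
  set v' := fadd A.toPowerSeries Y1 Y2 with hv'
  have cu' := constantCoeff_fadd B c1 c2
  have cv' := constantCoeff_fadd A c1 c2
  set δ12 := fadd Δ Y1 Y2 with hδ12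
  have huv' : u' = v' + δ12 := by
    rw [hδ12, hΔdef, fadd_sub _ _ c1 c2]; ring
  have oδ12 : δ12 ∈ ordIdeal (Fin 3) R d := fadd_mem_ordIdeal hΔ o1 o2
  have cδ12 : MvPowerSeries.constantCoeff δ12 = 0 := by
    rw [hδ12, hΔdef, fadd_sub _ _ c1 c2, map_sub, constantCoeff_fadd B c1 c2, constantCoeff_fadd A c1 c2,
      sub_zero]
  have R1 : fadd B.toPowerSeries Y0 u' = fadd A.toPowerSeries Y0 u' + fadd Δ Y0 u' := by
    rw [hΔdef, fadd_sub _ _ c0 cu']; ring
  have R2 : fadd A.toPowerSeries Y0 (v' + δ12) - fadd A.toPowerSeries Y0 v' - δ12 ∈ ordIdeal (Fin 3) R (d + 1) :=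
    fadd_add_right_mem_ordIdeal A c0 cv' cδ12 oδ12
  have R3 : fadd Δ Y0 u' - fadd Δ Y0 (Y1 + Y2) ∈ ordIdeal (Fin 3) R (d + 1) := by
    refine subst_sub_subst_of_ord (hasSubst_pair c0 cu') (hasSubst_pair c0 (by simp)) ?_ ?_ ?_ hΔ
    · intro s; fin_cases s
      · exact o0
      · exact mem_ordIdeal_one.mpr cu'
    · intro s; fin_cases s
      · exact o0
      · exact add_mem o1 o2
    · intro s; fin_cases s
      · simp
      · have := fadd_sub_mem_ordIdeal B c1 c2 o1 o2
        show u' - (Y1 + Y2) ∈ _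
        rwa [sub_add_eq_sub_sub]
  -- associativity
  have AB : fadd B.toPowerSeries u Y2 = fadd B.toPowerSeries Y0 u' := B.assoc
  have AA : fadd A.toPowerSeries v Y2 = fadd A.toPowerSeries Y0 v' := A.assoc
  rw [← huv] at L2
  rw [← huv'] at R2
  have total : δ01 + fadd Δ (Y0 + Y1) Y2 - δ12 - fadd Δ Y0 (Y1 + Y2) =
      (fadd A.toPowerSeries Y0 u' - fadd A.toPowerSeries Y0 v' - δ12) -
      (fadd A.toPowerSeries u Y2 - fadd A.toPowerSeries v Y2 - δ01) +
      (fadd Δ Y0 u' - fadd Δ Y0 (Y1 + Y2)) - (fadd Δ u Y2 - fadd Δ (Y0 + Y1) Y2) := by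
    have h1 : fadd A.toPowerSeries u Y2 + fadd Δ u Y2 = fadd A.toPowerSeries Y0 u' + fadd Δ Y0 u' := by
      rw [← L1, ← R1, AB]
    linear_combination h1 - AA
  rw [total]
  exact sub_mem (add_mem (sub_mem R2 L2) R3) L3

/-- Coefficient of `(X s + X t)^a`. -/
theorem coeff_add_X_pow {ι : Type*} [DecidableEq ι] {s t : ι} (hst : s ≠ t) (a i j : ℕ)
    (rest : ι →₀ ℕ) (hs : rest s = 0) (ht : rest t = 0) :
    MvPowerSeries.coeff (Finsupp.single s i + Finsupp.single t j + rest)
      ((MvPowerSeries.X s + MvPowerSeries.X t : MvPowerSeries ι R) ^ a) =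
      if a = i + j ∧ rest = 0 then ((i + j).choose i : R) else 0 := by
  classical
  rw [add_pow, map_sum]
  have hterm : ∀ m ∈ Finset.range (a + 1), MvPowerSeries.coeff
      (Finsupp.single s i + Finsupp.single t j + rest)
      ((MvPowerSeries.X s : MvPowerSeries ι R) ^ m * MvPowerSeries.X t ^ (a - m) * (a.choose m : MvPowerSeries ι R)) =
      if m = i ∧ a - m = j ∧ rest = 0 then (a.choose m : R) else 0 := by
    intro m _
    have hc : (a.choose m : MvPowerSeries ι R) = MvPowerSeries.C (a.choose m : R) := by simp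
    rw [MvPowerSeries.X_pow_eq, MvPowerSeries.X_pow_eq, MvPowerSeries.monomial_mul_monomial, one_mul,
      hc, MvPowerSeries.coeff_mul_C, MvPowerSeries.coeff_monomial]
    by_cases h : m = i ∧ a - m = j ∧ rest = 0
    · obtain ⟨h1, h2, h3⟩ := h
      have he : Finsupp.single s i + Finsupp.single t j + rest =
          Finsupp.single s m + Finsupp.single t (a - m) := by rw [h1] at h2 ⊢; rw [h2, h3, add_zero]
      rw [if_pos he, if_pos (show m = i ∧ a - m = j ∧ rest = 0 from ⟨h1, h2, h3⟩), one_mul]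
    · rw [if_neg h, if_neg, zero_mul]
      intro he
      apply h
      have e1 := DFunLike.congr_fun he s
      have e2 := DFunLike.congr_fun he t
      simp [hst, hst.symm, hs, ht] at e1 e2
      refine ⟨e1.symm, e2.symm, ?_⟩
      ext x
      by_cases hxs : x = s
      · subst hxs; simp [hs]
      by_cases hxt : x = t
      · subst hxt; simp [ht]
      have e3 := DFunLike.congr_fun he x
      simp [Ne.symm hxs, Ne.symm hxt] at e3
      simpa using e3
  rw [Finset.sum_congr rfl hterm]
  by_cases h : a = i + j ∧ rest = 0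
  · obtain ⟨h1, h2⟩ := h
    rw [if_pos ⟨h1, h2⟩, Finset.sum_eq_single i]
    · rw [if_pos ⟨rfl, by omega, h2⟩, h1]
    · intro m _ hm
      rw [if_neg]
      exact fun h => hm h.1
    · intro hi
      exfalso
      apply hi
      simp [h1]
  · rw [if_neg h]
    refine Finset.sum_eq_zero fun m hm => ?_
    rw [if_neg]
    rintro ⟨h1, h2, h3⟩
    apply h
    have : m ≤ a := by simpa [Nat.lt_succ_iff] using hm
    exact ⟨by omega, h3⟩

theorem coeff_fadd (Q : MvPowerSeries (Fin 2) R) {x y : MvPowerSeries τ R}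
    (hx : MvPowerSeries.constantCoeff x = 0) (hy : MvPowerSeries.constantCoeff y = 0) (e : τ →₀ ℕ) :
    MvPowerSeries.coeff e (fadd Q x y) =
      ∑ᶠ m : Fin 2 →₀ ℕ, MvPowerSeries.coeff m Q * MvPowerSeries.coeff e (x ^ m 0 * y ^ m 1) := by
  unfold fadd
  rw [MvPowerSeries.coeff_subst (hasSubst_pair hx hy)]
  refine finsum_congr fun m => ?_
  rw [Finsupp.prod_fintype _ _ (by simp), Fin.prod_univ_two]
  simp [smul_eq_mul]

local notation "E3" i:max j:max l:max => (Finsupp.single (0 : Fin 3) i + Finsupp.single (1 : Fin 3) j + Finsupp.single (2 : Fin 3) l)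

theorem coeff_mixed_left (i j l a c : ℕ) :
    MvPowerSeries.coeff (E3 i j l) ((Y0 + Y1) ^ a * Y2 ^ c) =
      if a = i + j ∧ c = l then ((i + j).choose i : R) else 0 := by
  classical
  rw [MvPowerSeries.X_pow_eq, MvPowerSeries.coeff_mul_monomial]
  by_cases hc : c ≤ l
  · have hle : Finsupp.single (2 : Fin 3) c ≤ E3 i j l := by
      intro x
      fin_cases x <;> simp [hc]
    rw [if_pos hle, mul_one]
    have he : E3 i j l - Finsupp.single (2 : Fin 3) c =
        Finsupp.single (0 : Fin 3) i + Finsupp.single (1 : Fin 3) j + Finsupp.single (2 : Fin 3) (l - c) := by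
      ext x
      fin_cases x <;> simp
    rw [he, coeff_add_X_pow (by decide) a i j _ (by simp) (by simp)]
    have : (Finsupp.single (2 : Fin 3) (l - c) = 0) ↔ c = l := by
      rw [Finsupp.single_eq_zero]; omega
    simp only [this]
  · have hle : ¬ Finsupp.single (2 : Fin 3) c ≤ E3 i j l := by
      intro h
      have := h 2
      simp at this
      omega
    rw [if_neg hle, if_neg]
    rintro ⟨_, h⟩
    omega

theorem coeff_mixed_right (i j l a c : ℕ) :
    MvPowerSeries.coeff (E3 i j l) (Y0 ^ a * (Y1 + Y2) ^ c) =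
      if a = i ∧ c = j + l then ((j + l).choose j : R) else 0 := by
  classical
  rw [MvPowerSeries.X_pow_eq, MvPowerSeries.coeff_monomial_mul]
  by_cases hc : a ≤ i
  · have hle : Finsupp.single (0 : Fin 3) a ≤ E3 i j l := by
      intro x
      fin_cases x <;> simp [hc]
    rw [if_pos hle, one_mul]
    have he : E3 i j l - Finsupp.single (0 : Fin 3) a =
        Finsupp.single (1 : Fin 3) j + Finsupp.single (2 : Fin 3) l + Finsupp.single (0 : Fin 3) (i - a) := by
      ext x
      fin_cases x <;> simp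
    rw [he, coeff_add_X_pow (by decide) c j l _ (by simp) (by simp)]
    have : (Finsupp.single (0 : Fin 3) (i - a) = 0) ↔ a = i := by
      rw [Finsupp.single_eq_zero]; omega
    simp only [this]
    by_cases h1 : a = i
    · simp [h1]
    · simp [h1]
  · have hle : ¬ Finsupp.single (0 : Fin 3) a ≤ E3 i j l := by
      intro h
      have := h 0
      simp at this
      omega
    rw [if_neg hle, if_neg]
    rintro ⟨h, _⟩
    omega

theorem coeff_pure01 {i j l a c : ℕ} (hl : 1 ≤ l) :
    MvPowerSeries.coeff (E3 i j l) (Y0 ^ a * Y1 ^ c) = 0 := by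
  classical
  rw [MvPowerSeries.X_pow_eq, MvPowerSeries.X_pow_eq, MvPowerSeries.monomial_mul_monomial,
    MvPowerSeries.coeff_monomial, if_neg]
  intro h
  have := DFunLike.congr_fun h 2
  simp at this
  omega

theorem coeff_pure12 {i j l a c : ℕ} (hi : 1 ≤ i) :
    MvPowerSeries.coeff (E3 i j l) (Y1 ^ a * Y2 ^ c) = 0 := by
  classical
  rw [MvPowerSeries.X_pow_eq, MvPowerSeries.X_pow_eq, MvPowerSeries.monomial_mul_monomial,
    MvPowerSeries.coeff_monomial, if_neg]
  intro h
  have := DFunLike.congr_fun h 0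
  simp at this
  omega

/-- The coefficient of `X₀^x X₁^(d-x)`. -/
noncomputable def bco (Q : MvPowerSeries (Fin 2) R) (d x : ℕ) : R :=
  MvPowerSeries.coeff (Finsupp.single 0 x + Finsupp.single 1 (d - x)) Q

theorem single_add_single_ext (m : Fin 2 →₀ ℕ) : m = Finsupp.single 0 (m 0) + Finsupp.single 1 (m 1) := by
  ext i
  fin_cases i <;> simp

/-- The relation between the coefficients from the cocycle identity. -/
theorem bco_rel {d : ℕ} (hΔ : B.toPowerSeries - A.toPowerSeries ∈ ordIdeal (Fin 2) R d)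
    {i j l : ℕ} (hi : 1 ≤ i) (hj : 1 ≤ j) (hl : 1 ≤ l) (hs : i + j + l = d) :
    ((i + j).choose i : R) * bco (B.toPowerSeries - A.toPowerSeries) d (i + j) =
      ((j + l).choose j : R) * bco (B.toPowerSeries - A.toPowerSeries) d i := by
  classical
  set Δ := B.toPowerSeries - A.toPowerSeries with hΔdef
  have hid := cocycle_identity A B hΔ
  have hdeg : (E3 i j l : Fin 3 →₀ ℕ).degree < d + 1 := by
    simp only [map_add, Finsupp.degree_single]; omega
  have h0 := hid _ hdeg
  rw [map_sub, map_sub, map_add] at h0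
  have c0 : MvPowerSeries.constantCoeff Y0 = 0 := by simp
  have c1 : MvPowerSeries.constantCoeff Y1 = 0 := by simp
  have c2 : MvPowerSeries.constantCoeff Y2 = 0 := by simp
  have c01 : MvPowerSeries.constantCoeff (Y0 + Y1) = 0 := by simp
  have c12 : MvPowerSeries.constantCoeff (Y1 + Y2) = 0 := by simp
  have t1 : MvPowerSeries.coeff (E3 i j l) (fadd Δ Y0 Y1) = 0 := by
    rw [coeff_fadd Δ c0 c1]
    exact finsum_eq_zero_of_forall_eq_zero fun m => by rw [coeff_pure01 hl, mul_zero]
  have t3 : MvPowerSeries.coeff (E3 i j l) (fadd Δ Y1 Y2) = 0 := by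
    rw [coeff_fadd Δ c1 c2]
    exact finsum_eq_zero_of_forall_eq_zero fun m => by rw [coeff_pure12 hi, mul_zero]
  have t2 : MvPowerSeries.coeff (E3 i j l) (fadd Δ (Y0 + Y1) Y2) =
      ((i + j).choose i : R) * bco Δ d (i + j) := by
    rw [coeff_fadd Δ c01 c2, finsum_eq_single _ (Finsupp.single 0 (i + j) + Finsupp.single 1 l)]
    · rw [coeff_mixed_left, if_pos (by simp), mul_comm]
      unfold bco
      rw [show d - (i + j) = l by omega]
    · intro m hm
      rw [coeff_mixed_left, if_neg, mul_zero]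
      rintro ⟨h1, h2⟩
      apply hm
      rw [single_add_single_ext m, h1, h2]
  have t4 : MvPowerSeries.coeff (E3 i j l) (fadd Δ Y0 (Y1 + Y2)) =
      ((j + l).choose j : R) * bco Δ d i := by
    rw [coeff_fadd Δ c0 c12, finsum_eq_single _ (Finsupp.single 0 i + Finsupp.single 1 (j + l))]
    · rw [coeff_mixed_right, if_pos (by simp), mul_comm]
      unfold bco
      rw [show d - i = j + l by omega]
    · intro m hm
      rw [coeff_mixed_right, if_neg, mul_zero]
      rintro ⟨h1, h2⟩
      apply hm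
      rw [single_add_single_ext m, h1, h2]
  rw [t1, t2, t3, t4] at h0
  linear_combination h0

/-- Symmetry of a commutative law. -/
theorem coeff_swap (F : FormalGroup R) [F.IsComm] (a c : ℕ) :
    MvPowerSeries.coeff (Finsupp.single 0 a + Finsupp.single 1 c) F.toPowerSeries =
      MvPowerSeries.coeff (Finsupp.single 0 c + Finsupp.single 1 a) F.toPowerSeries := by
  classical
  have hc : (F.toPowerSeries) = fadd F.toPowerSeries (MvPowerSeries.X 1 : MvPowerSeries (Fin 2) R)
      (MvPowerSeries.X 0) := FormalGroup.IsComm.comm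
  conv_lhs => rw [hc]
  rw [coeff_fadd _ (by simp) (by simp), finsum_eq_single _ (Finsupp.single 0 c + Finsupp.single 1 a)]
  · have : ((MvPowerSeries.X 1 : MvPowerSeries (Fin 2) R) ^ ((Finsupp.single (0 : Fin 2) c + Finsupp.single 1 a : Fin 2 →₀ ℕ) 0)
        * MvPowerSeries.X 0 ^ ((Finsupp.single (0 : Fin 2) c + Finsupp.single 1 a : Fin 2 →₀ ℕ) 1)) =
        MvPowerSeries.monomial (Finsupp.single 0 a + Finsupp.single 1 c) 1 := by
      simp only [Finsupp.add_apply, Finsupp.single_eq_same]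
      simp only [Fin.isValue, Finsupp.single_eq_of_ne (by decide : (0 : Fin 2) ≠ 1),
        Finsupp.single_eq_of_ne (by decide : (1 : Fin 2) ≠ 0), add_zero, zero_add]
      rw [MvPowerSeries.X_pow_eq, MvPowerSeries.X_pow_eq, MvPowerSeries.monomial_mul_monomial, one_mul,
        add_comm]
    rw [this, MvPowerSeries.coeff_monomial_same, mul_one]
  · intro m hm
    rw [MvPowerSeries.X_pow_eq, MvPowerSeries.X_pow_eq, MvPowerSeries.monomial_mul_monomial,
      MvPowerSeries.coeff_monomial, if_neg, mul_zero]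
    intro h
    apply hm
    have e0 := DFunLike.congr_fun h 0
    have e1 := DFunLike.congr_fun h 1
    simp at e0 e1
    rw [single_add_single_ext m, ← e0, ← e1]

end Cocycle

/-! ### Comparing `m`-series -/

section Compare

variable (A B : FormalGroup R)

/-- The coefficient of `X^d` in `Q(n X, X)`. -/
theorem coeff_fadd_natCast {Q : MvPowerSeries (Fin 2) R} {d : ℕ} (n : ℕ)
    (h0 : MvPowerSeries.coeff (Finsupp.single 0 d) Q = 0)
    (h1 : MvPowerSeries.coeff (Finsupp.single 1 d) Q = 0) :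
    PowerSeries.coeff d (fadd Q (PowerSeries.C (n : R) * PowerSeries.X) PowerSeries.X) =
      ∑ x ∈ Finset.Ico 1 d, bco Q d x * (n : R) ^ x := by
  classical
  have c1 : MvPowerSeries.constantCoeff (PowerSeries.C (n : R) * PowerSeries.X : PowerSeries R) = 0 := by
    show PowerSeries.constantCoeff _ = 0
    simp
  have hterm : ∀ m : Fin 2 →₀ ℕ, MvPowerSeries.coeff (Finsupp.single () d)
      ((PowerSeries.C (n : R) * PowerSeries.X : PowerSeries R) ^ m 0 * (PowerSeries.X : PowerSeries R) ^ m 1) =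
      if m 0 + m 1 = d then (n : R) ^ m 0 else 0 := by
    intro m
    have : (PowerSeries.C (n : R) * PowerSeries.X : PowerSeries R) ^ m 0 * (PowerSeries.X : PowerSeries R) ^ m 1 =
        PowerSeries.C ((n : R) ^ m 0) * PowerSeries.X ^ (m 0 + m 1) := by
      rw [mul_pow, map_pow, pow_add, mul_assoc]
    rw [this]
    show PowerSeries.coeff d _ = _
    rw [PowerSeries.coeff_C_mul, PowerSeries.coeff_X_pow]
    by_cases h : m 0 + m 1 = d
    · rw [if_pos h.symm, if_pos h, mul_one]
    · rw [if_neg (Ne.symm h), if_neg h, mul_zero]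
  show MvPowerSeries.coeff (Finsupp.single () d) _ = _
  rw [coeff_fadd Q c1 constantCoeff_PX]
  simp_rw [hterm]
  set ι : ℕ → (Fin 2 →₀ ℕ) := fun x => Finsupp.single 0 x + Finsupp.single 1 (d - x) with hι
  have hinj : Function.Injective ι := by
    intro x y h
    have := DFunLike.congr_fun h 0
    simpa [hι] using this
  rw [finsum_eq_sum_of_support_subset (s := (Finset.Ico 1 d).image ι)]
  · rw [Finset.sum_image (fun x _ y _ h => hinj h)]
    refine Finset.sum_congr rfl fun x hx => ?_
    rw [Finset.mem_Ico] at hx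
    have e0 : ι x 0 = x := by simp [hι]
    have e1 : ι x 1 = d - x := by simp [hι]
    rw [if_pos (by rw [e0, e1]; omega), e0]
    rfl
  · intro m hm
    rw [Function.mem_support] at hm
    have h2 : m 0 + m 1 = d := by
      by_contra h
      apply hm
      rw [if_neg h, mul_zero]
    simp only [Finset.coe_image, Set.mem_image, Finset.coe_Ico, Set.mem_Ico]
    have hm0 : m 0 ≠ 0 := by
      intro h
      apply hm
      have e : m = Finsupp.single 1 d := by
        rw [single_add_single_ext m, h]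
        simp
        congr 1
        omega
      rw [e, h1, zero_mul]
    have hm1 : m 1 ≠ 0 := by
      intro h
      apply hm
      have e : m = Finsupp.single 0 d := by
        rw [single_add_single_ext m, h]
        simp
        congr 1
        omega
      rw [e, h0, zero_mul]
    refine ⟨m 0, ⟨by omega, by omega⟩, ?_⟩
    ext i
    fin_cases i
    · simp [hι]
    · simp [hι]; omega

variable {A B}

theorem mulSeries_diff {d : ℕ} (hd : 2 ≤ d)
    (hΔ : B.toPowerSeries - A.toPowerSeries ∈ ordIdeal (Fin 2) R d) (n : ℕ) :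
    mulSeries B n - mulSeries A n ∈ ordIdeal Unit R d ∧
      PowerSeries.coeff d (mulSeries B n - mulSeries A n) =
        ∑ t ∈ Finset.range n, ∑ x ∈ Finset.Ico 1 d,
          bco (B.toPowerSeries - A.toPowerSeries) d x * (t : R) ^ x := by
  set Δ := B.toPowerSeries - A.toPowerSeries with hΔdef
  induction n with
  | zero => simp [mulSeries_zero]
  | succ n ih =>
    obtain ⟨ih1, ih2⟩ := ih
    set a := mulSeries A n with ha
    set b := mulSeries B n with hb
    set D := b - a with hD
    have ca : MvPowerSeries.constantCoeff a = 0 := constantCoeff_mulSeries A n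
    have cb : MvPowerSeries.constantCoeff b = 0 := constantCoeff_mulSeries B n
    have cD : MvPowerSeries.constantCoeff D = 0 := by simp [hD, ca, cb]
    have hX := constantCoeff_PX (R := R)
    have e1 : mulSeries B (n + 1) = fadd A.toPowerSeries b PowerSeries.X + fadd Δ b PowerSeries.X := by
      rw [mulSeries_succ, hΔdef, fadd_sub _ _ cb hX]; ring
    have e2 : mulSeries A (n + 1) = fadd A.toPowerSeries a PowerSeries.X := mulSeries_succ A n
    have hbaD : b = a + D := by rw [hD]; ring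
    have T1 : fadd A.toPowerSeries b PowerSeries.X - fadd A.toPowerSeries a PowerSeries.X - D ∈
        ordIdeal Unit R (d + 1) := by
      rw [hbaD]
      exact fadd_add_left_mem_ordIdeal A ca hX cD ih1
    have cn : MvPowerSeries.constantCoeff (PowerSeries.C (n : R) * PowerSeries.X : PowerSeries R) = 0 := by
      show PowerSeries.constantCoeff _ = 0
      simp
    have oX : (PowerSeries.X : PowerSeries R) ∈ ordIdeal Unit R 1 := X_mem_ordIdeal_one ()
    have T2 : fadd Δ b PowerSeries.X - fadd Δ (PowerSeries.C (n : R) * PowerSeries.X) PowerSeries.X ∈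
        ordIdeal Unit R (d + 1) := by
      refine subst_sub_subst_of_ord (hasSubst_pair cb hX) (hasSubst_pair cn hX) ?_ ?_ ?_ hΔ
      · intro s; fin_cases s
        · exact mem_ordIdeal_one.mpr cb
        · exact oX
      · intro s; fin_cases s
        · exact mem_ordIdeal_one.mpr cn
        · exact oX
      · intro s; fin_cases s
        · show b - PowerSeries.C (n : R) * PowerSeries.X ∈ _
          rw [mem_ordIdeal_iff_coeff]
          intro k hk
          interval_cases k
          · rw [map_sub, PowerSeries.coeff_C_mul]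
            simp [PowerSeries.coeff_zero_eq_constantCoeff_apply]
            exact cb
          · rw [map_sub, PowerSeries.coeff_C_mul, PowerSeries.coeff_one_X, mul_one, hb,
              coeff_one_mulSeries, sub_self]
        · simp
    have e3 : mulSeries B (n + 1) - mulSeries A (n + 1) =
        (fadd A.toPowerSeries b PowerSeries.X - fadd A.toPowerSeries a PowerSeries.X - D) + D +
        (fadd Δ b PowerSeries.X - fadd Δ (PowerSeries.C (n : R) * PowerSeries.X) PowerSeries.X) +
        fadd Δ (PowerSeries.C (n : R) * PowerSeries.X) PowerSeries.X := by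
      rw [e1, e2]; ring
    have O3 : fadd Δ (PowerSeries.C (n : R) * PowerSeries.X) PowerSeries.X ∈ ordIdeal Unit R d :=
      fadd_mem_ordIdeal hΔ (mem_ordIdeal_one.mpr cn) oX
    constructor
    · rw [e3]
      exact add_mem (add_mem (add_mem (ordIdeal_mono (by omega) T1) ih1) (ordIdeal_mono (by omega) T2)) O3
    · have hdeg : (Finsupp.single () d : Unit →₀ ℕ).degree < d + 1 := by
        simp only [Finsupp.degree_single]; omega
      have v1 := T1 _ hdeg
      have v2 := T2 _ hdeg
      have p0 : MvPowerSeries.coeff (Finsupp.single 0 d) Δ = 0 := by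
        rw [hΔdef, map_sub, coeff_single_zero, coeff_single_zero, sub_self]
      have p1 : MvPowerSeries.coeff (Finsupp.single 1 d) Δ = 0 := by
        rw [hΔdef, map_sub, coeff_single_one, coeff_single_one, sub_self]
      have v3 := coeff_fadd_natCast (R := R) n p0 p1
      rw [e3, Finset.sum_range_succ, ← ih2, ← v3]
      show MvPowerSeries.coeff (Finsupp.single () d) _ = MvPowerSeries.coeff (Finsupp.single () d) _ +
        MvPowerSeries.coeff (Finsupp.single () d) _
      rw [map_add, map_add, map_add, v1, v2, zero_add, add_zero]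

end Compare

/-! ### Conjugation by `X + ε X^d` -/

section ConjStep

variable (A : FormalGroup R) (ε : R) {d : ℕ} (hd : 2 ≤ d)

/-- The series `X + ε X^d`. -/
noncomputable def betaS (ε : R) (d : ℕ) : PowerSeries R :=
  PowerSeries.X + PowerSeries.C ε * PowerSeries.X ^ d

include hd

theorem constantCoeff_betaS : PowerSeries.constantCoeff (betaS ε d) = 0 := by
  unfold betaS
  have : d ≠ 0 := by omega
  simp [this]

theorem coeff_one_betaS : PowerSeries.coeff 1 (betaS ε d) = 1 := by
  unfold betaS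
  have : (1 : ℕ) ≠ d := by omega
  rw [map_add, PowerSeries.coeff_C_mul, PowerSeries.coeff_X_pow, if_neg this, PowerSeries.coeff_one_X]
  simp

theorem isUnit_betaS : IsUnit (PowerSeries.coeff 1 (betaS ε d)) := by
  rw [coeff_one_betaS ε hd]; exact isUnit_one

theorem psubst_betaS {x : MvPowerSeries τ R} (hx : MvPowerSeries.constantCoeff x = 0) :
    PowerSeries.subst x (betaS ε d) = x + MvPowerSeries.C ε * x ^ d := by
  have hs := hasSubst_one hx
  unfold betaS
  rw [PowerSeries.subst_add hs, PowerSeries.subst_mul hs, PowerSeries.subst_pow hs, PowerSeries.subst_X hs,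
    PowerSeries.subst_C]

/-- The inverse of `X + ε X^d` is `X - ε X^d` up to order `d + 1`. -/
theorem pinv_betaS :
    pinv (betaS ε d) (isUnit_betaS ε hd) - (PowerSeries.X - PowerSeries.C ε * PowerSeries.X ^ d) ∈
      ordIdeal Unit R (d + 1) := by
  set ψ := pinv (betaS ε d) (isUnit_betaS ε hd) with hψ
  have cψ : MvPowerSeries.constantCoeff ψ = 0 := constantCoeff_pinv _
  have h1 : PowerSeries.subst ψ (betaS ε d) = PowerSeries.X :=
    PowerSeries.subst_substInvOfIsUnit_right _ (constantCoeff_betaS ε hd) _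
  rw [psubst_betaS ε hd cψ] at h1
  have oψ : ψ ∈ ordIdeal Unit R 1 := mem_ordIdeal_one.mpr cψ
  have oPow : ψ ^ d ∈ ordIdeal Unit R d := by
    have := pow_mem_ordIdeal oψ d
    rwa [one_mul] at this
  have e1 : ψ - PowerSeries.X = -(MvPowerSeries.C ε * ψ ^ d) := by
    rw [← h1]; ring
  have oX : (PowerSeries.X : PowerSeries R) ∈ ordIdeal Unit R 1 := X_mem_ordIdeal_one ()
  have o2 : ψ - PowerSeries.X ∈ ordIdeal Unit R 2 := by
    rw [e1]
    exact neg_mem (Ideal.mul_mem_left _ _ (ordIdeal_mono hd oPow))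
  have h3 := add_pow_sub_pow_mem_ordIdeal oX o2 d
  rw [add_sub_cancel] at h3
  have e2 : ψ - (PowerSeries.X - PowerSeries.C ε * PowerSeries.X ^ d) =
      -(MvPowerSeries.C ε * (ψ ^ d - PowerSeries.X ^ d)) := by
    have : ψ - PowerSeries.X + MvPowerSeries.C ε * ψ ^ d = 0 := by rw [e1]; ring
    have e3 : (PowerSeries.C ε : PowerSeries R) = MvPowerSeries.C ε := rfl
    rw [e3]
    linear_combination this
  rw [e2]
  exact neg_mem (Ideal.mul_mem_left _ _ h3)

/-- The conjugate law by `X + ε X^d` up to order `d + 1`. -/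
theorem conj_beta_approx :
    (conj A (betaS ε d) (constantCoeff_betaS ε hd) (isUnit_betaS ε hd)).toPowerSeries - A.toPowerSeries -
      MvPowerSeries.C ε * ((MvPowerSeries.X 0 + MvPowerSeries.X 1) ^ d - MvPowerSeries.X 0 ^ d - MvPowerSeries.X 1 ^ d)
      ∈ ordIdeal (Fin 2) R (d + 1) := by
  set hu := isUnit_betaS ε hd
  set hc := constantCoeff_betaS ε hd
  set ψ := pinv (betaS ε d) hu with hψ
  have cψ : PowerSeries.constantCoeff ψ = 0 := constantCoeff_pinv _
  have c0 : MvPowerSeries.constantCoeff (MvPowerSeries.X 0 : MvPowerSeries (Fin 2) R) = 0 := by simp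
  have c1 : MvPowerSeries.constantCoeff (MvPowerSeries.X 1 : MvPowerSeries (Fin 2) R) = 0 := by simp
  have o0 : (MvPowerSeries.X 0 : MvPowerSeries (Fin 2) R) ∈ ordIdeal (Fin 2) R 1 := X_mem_ordIdeal_one _
  have o1 : (MvPowerSeries.X 1 : MvPowerSeries (Fin 2) R) ∈ ordIdeal (Fin 2) R 1 := X_mem_ordIdeal_one _
  set x := PowerSeries.subst (MvPowerSeries.X 0 : MvPowerSeries (Fin 2) R) ψ with hx
  set y := PowerSeries.subst (MvPowerSeries.X 1 : MvPowerSeries (Fin 2) R) ψ with hy
  have cx : MvPowerSeries.constantCoeff x = 0 := constantCoeff_psubst c0 cψ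
  have cy : MvPowerSeries.constantCoeff y = 0 := constantCoeff_psubst c1 cψ
  set Cε := (MvPowerSeries.C ε : MvPowerSeries (Fin 2) R) with hCε
  have hψo := pinv_betaS ε hd
  have approx : ∀ {i : Fin 2}, PowerSeries.subst (MvPowerSeries.X i : MvPowerSeries (Fin 2) R) ψ -
      (MvPowerSeries.X i - Cε * MvPowerSeries.X i ^ d) ∈ ordIdeal (Fin 2) R (d + 1) := by
    intro i
    have ci : MvPowerSeries.constantCoeff (MvPowerSeries.X i : MvPowerSeries (Fin 2) R) = 0 := by simp
    have hs := hasSubst_one ci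
    have := psubst_mem_ord hψo (x := (MvPowerSeries.X i : MvPowerSeries (Fin 2) R)) (X_mem_ordIdeal_one i)
    rw [PowerSeries.subst_sub hs, PowerSeries.subst_sub hs, PowerSeries.subst_mul hs, PowerSeries.subst_pow hs,
      PowerSeries.subst_X hs, PowerSeries.subst_C] at this
    exact this
  have hCo : ∀ i : Fin 2, Cε * (MvPowerSeries.X i : MvPowerSeries (Fin 2) R) ^ d ∈ ordIdeal (Fin 2) R d := by
    intro i
    have := pow_mem_ordIdeal (X_mem_ordIdeal_one (R := R) i) d
    rw [one_mul] at this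
    exact Ideal.mul_mem_left _ _ this
  set u0 := x - MvPowerSeries.X 0 with hu0
  set u1 := y - MvPowerSeries.X 1 with hu1
  have cu0 : MvPowerSeries.constantCoeff u0 = 0 := by simp [hu0, cx]
  have cu1 : MvPowerSeries.constantCoeff u1 = 0 := by simp [hu1, cy]
  have a0 : u0 + Cε * MvPowerSeries.X 0 ^ d ∈ ordIdeal (Fin 2) R (d + 1) := by
    have := approx (i := 0)
    have e : u0 + Cε * MvPowerSeries.X 0 ^ d = x - (MvPowerSeries.X 0 - Cε * MvPowerSeries.X 0 ^ d) := by
      rw [hu0]; ring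
    rw [e]; exact this
  have a1 : u1 + Cε * MvPowerSeries.X 1 ^ d ∈ ordIdeal (Fin 2) R (d + 1) := by
    have := approx (i := 1)
    have e : u1 + Cε * MvPowerSeries.X 1 ^ d = y - (MvPowerSeries.X 1 - Cε * MvPowerSeries.X 1 ^ d) := by
      rw [hu1]; ring
    rw [e]; exact this
  have ou0 : u0 ∈ ordIdeal (Fin 2) R d := by
    have e : u0 = (u0 + Cε * MvPowerSeries.X 0 ^ d) - Cε * MvPowerSeries.X 0 ^ d := by ring
    rw [e]
    exact sub_mem (ordIdeal_mono (by omega) a0) (hCo 0)
  have ou1 : u1 ∈ ordIdeal (Fin 2) R d := by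
    have e : u1 = (u1 + Cε * MvPowerSeries.X 1 ^ d) - Cε * MvPowerSeries.X 1 ^ d := by ring
    rw [e]
    exact sub_mem (ordIdeal_mono (by omega) a1) (hCo 1)
  have cX1u1 : MvPowerSeries.constantCoeff (MvPowerSeries.X 1 + u1) = 0 := by simp [cu1]
  have s1 : fadd A.toPowerSeries (MvPowerSeries.X 0 + u0) (MvPowerSeries.X 1 + u1) -
      fadd A.toPowerSeries (MvPowerSeries.X 0) (MvPowerSeries.X 1 + u1) - u0 ∈ ordIdeal (Fin 2) R (d + 1) :=
    fadd_add_left_mem_ordIdeal A c0 cX1u1 cu0 ou0
  have s2 : fadd A.toPowerSeries (MvPowerSeries.X 0) (MvPowerSeries.X 1 + u1) -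
      fadd A.toPowerSeries (MvPowerSeries.X 0) (MvPowerSeries.X 1) - u1 ∈ ordIdeal (Fin 2) R (d + 1) :=
    fadd_add_right_mem_ordIdeal A c0 c1 cu1 ou1
  rw [fadd_subst_X_X] at s2
  have ex : (MvPowerSeries.X 0 : MvPowerSeries (Fin 2) R) + u0 = x := by rw [hu0]; ring
  have ey : (MvPowerSeries.X 1 : MvPowerSeries (Fin 2) R) + u1 = y := by rw [hu1]; ring
  rw [ex, ey] at s1
  rw [ey] at s2
  set w := fadd A.toPowerSeries x y with hw
  have cw : MvPowerSeries.constantCoeff w = 0 := constantCoeff_fadd A cx cy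
  have hT : (conj A (betaS ε d) hc hu).toPowerSeries = w + Cε * w ^ d := by
    show conjSeries A (betaS ε d) hu = _
    unfold conjSeries
    exact psubst_betaS ε hd cw
  have oA : w - A.toPowerSeries ∈ ordIdeal (Fin 2) R d := by
    have e : w - A.toPowerSeries = (w - fadd A.toPowerSeries (MvPowerSeries.X 0) y - u0) +
        (fadd A.toPowerSeries (MvPowerSeries.X 0) y - A.toPowerSeries - u1) + u0 + u1 := by ring
    rw [e]
    exact add_mem (add_mem (add_mem (ordIdeal_mono (by omega) s1) (ordIdeal_mono (by omega) s2)) ou0) ou1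
  have oS : w - (MvPowerSeries.X 0 + MvPowerSeries.X 1) ∈ ordIdeal (Fin 2) R 2 := by
    have e : w - (MvPowerSeries.X 0 + MvPowerSeries.X 1) = (w - A.toPowerSeries) +
        (A.toPowerSeries - (MvPowerSeries.X 0 + MvPowerSeries.X 1)) := by ring
    rw [e]
    exact add_mem (ordIdeal_mono hd oA) (law_sub_add_mem A)
  have oW := add_pow_sub_pow_mem_ordIdeal (add_mem o0 o1) oS d
  rw [add_sub_cancel] at oW
  rw [hT]
  have e : w + Cε * w ^ d - A.toPowerSeries - Cε * ((MvPowerSeries.X 0 + MvPowerSeries.X 1) ^ d -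
      MvPowerSeries.X 0 ^ d - MvPowerSeries.X 1 ^ d) =
      (w - fadd A.toPowerSeries (MvPowerSeries.X 0) y - u0) + (fadd A.toPowerSeries (MvPowerSeries.X 0) y -
        A.toPowerSeries - u1) + (u0 + Cε * MvPowerSeries.X 0 ^ d) + (u1 + Cε * MvPowerSeries.X 1 ^ d) +
      Cε * (w ^ d - (MvPowerSeries.X 0 + MvPowerSeries.X 1) ^ d) := by ring
  rw [e]
  exact add_mem (add_mem (add_mem (add_mem s1 s2) a0) a1) (Ideal.mul_mem_left _ _ oW)

end ConjStep

/-! ### The step and the limit -/

section Field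

variable {k : Type*} [Field k] (p : ℕ) [hp : Fact p.Prime] (hk : (p : k) = 0)

theorem bco_isCocycle {d : ℕ} {A B : FormalGroup k} [A.IsComm] [B.IsComm]
    (hΔ : B.toPowerSeries - A.toPowerSeries ∈ ordIdeal (Fin 2) k d) :
    IsCocycle d (bco (B.toPowerSeries - A.toPowerSeries) d) where
  symm := by
    intro x hx hxd
    unfold bco
    rw [map_sub, map_sub, coeff_swap B, coeff_swap A, Nat.sub_sub_self hxd.le]
  rel := by
    intro i j l hi hj hl hs
    exact bco_rel A B hΔ hi hj hl hs

theorem ord_succ_of_bco {d : ℕ} (hd : 2 ≤ d) {A B : FormalGroup k} (Q : MvPowerSeries (Fin 2) k)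
    (hQ : Q ∈ ordIdeal (Fin 2) k d) (h0 : MvPowerSeries.coeff (Finsupp.single 0 d) Q = 0)
    (h1 : MvPowerSeries.coeff (Finsupp.single 1 d) Q = 0) (hb : ∀ x, 1 ≤ x → x < d → bco Q d x = 0) :
    Q ∈ ordIdeal (Fin 2) k (d + 1) := by
  intro e he
  by_cases hed : e.degree < d
  · exact hQ e hed
  have hdeg : e 0 + e 1 = d := by
    have := Finsupp.degree_eq_sum e
    rw [Fin.sum_univ_two] at this
    omega
  have he2 := single_add_single_ext e
  by_cases h00 : e 0 = 0
  · rw [he2, h00, show e 1 = d by omega]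
    simpa using h1
  by_cases h11 : e 1 = 0
  · rw [he2, h11, show e 0 = d by omega]
    simpa using h0
  · have := hb (e 0) (by omega) (by omega)
    unfold bco at this
    rw [show d - e 0 = e 1 by omega, ← he2] at this
    exact this

/-- The coefficient of `(X₀+X₁)^d - X₀^d - X₁^d`. -/
theorem binom_form_coeff {d : ℕ} (hd : 2 ≤ d) (ε : k) :
    MvPowerSeries.C ε * ((MvPowerSeries.X 0 + MvPowerSeries.X 1) ^ d - MvPowerSeries.X 0 ^ d -
      MvPowerSeries.X 1 ^ d) ∈ ordIdeal (Fin 2) k d := by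
  have o0 : (MvPowerSeries.X 0 : MvPowerSeries (Fin 2) k) ∈ ordIdeal (Fin 2) k 1 := X_mem_ordIdeal_one _
  have o1 : (MvPowerSeries.X 1 : MvPowerSeries (Fin 2) k) ∈ ordIdeal (Fin 2) k 1 := X_mem_ordIdeal_one _
  have h1 := pow_mem_ordIdeal (add_mem o0 o1) d
  have h2 := pow_mem_ordIdeal o0 d
  have h3 := pow_mem_ordIdeal o1 d
  rw [one_mul] at h1 h2 h3
  exact Ideal.mul_mem_left _ _ (sub_mem (sub_mem h1 h2) h3)

/-- Coefficients of the binomial form. -/
theorem binom_form_coeff' (i j : ℕ) (hij : 1 ≤ i + j) :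
    MvPowerSeries.coeff (Finsupp.single 0 i + Finsupp.single 1 j)
      ((MvPowerSeries.X 0 + MvPowerSeries.X 1) ^ (i + j) - MvPowerSeries.X 0 ^ (i + j) -
        MvPowerSeries.X 1 ^ (i + j) : MvPowerSeries (Fin 2) k) =
      if i = 0 ∨ j = 0 then 0 else ((i + j).choose i : k) := by
  classical
  rw [map_sub, map_sub, coeff_X_add_X_pow]
  by_cases hi : i = 0
  · subst hi
    have hj : 1 ≤ j := by omega
    rw [coeff_X0_pow_mixed hj, if_pos (Or.inl rfl)]
    rw [MvPowerSeries.X_pow_eq, MvPowerSeries.coeff_monomial, if_pos (by simp)]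
    simp
  by_cases hj : j = 0
  · subst hj
    have hi' : 1 ≤ i := by omega
    rw [coeff_X1_pow_mixed hi', if_pos (Or.inr rfl)]
    rw [MvPowerSeries.X_pow_eq, MvPowerSeries.coeff_monomial, if_pos (by simp)]
    simp
  · rw [coeff_X0_pow_mixed (by omega), coeff_X1_pow_mixed (by omega), if_neg (by tauto)]
    simp

include hk in
/-- One step of the comparison. -/
theorem lazard_step (n : ℕ) (hq : ∀ c : k, c ^ (p ^ n) = c) {A B : FormalGroup k} [A.IsComm] [B.IsComm]
    (hA : mulSeries A p = PowerSeries.X ^ (p ^ n)) (hB : mulSeries B p = PowerSeries.X ^ (p ^ n))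
    {d : ℕ} (hd : 2 ≤ d) (hΔ : B.toPowerSeries - A.toPowerSeries ∈ ordIdeal (Fin 2) k d) :
    ∃ (β : PowerSeries k) (T : FormalGroup k), T.IsComm ∧ IsFGHom A T β ∧ PowerSeries.coeff 1 β = 1 ∧
      β - PowerSeries.X ∈ ordIdeal Unit k d ∧ mulSeries T p = PowerSeries.X ^ (p ^ n) ∧
      B.toPowerSeries - T.toPowerSeries ∈ ordIdeal (Fin 2) k (d + 1) := by
  classical
  set Δ := B.toPowerSeries - A.toPowerSeries with hΔdef
  have hcoc : IsCocycle d (bco Δ d) := bco_isCocycle hΔ
  have p0 : MvPowerSeries.coeff (Finsupp.single 0 d) Δ = 0 := by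
    rw [hΔdef, map_sub, coeff_single_zero, coeff_single_zero, sub_self]
  have p1 : MvPowerSeries.coeff (Finsupp.single 1 d) Δ = 0 := by
    rw [hΔdef, map_sub, coeff_single_one, coeff_single_one, sub_self]
  have hd0 : d ≠ 0 := by omega
  obtain ⟨e, m, hm, hdm⟩ := Nat.exists_eq_pow_mul_and_not_dvd hd0 p hp.out.ne_one
  by_cases hm1 : m = 1
  · -- `p`-power degree: no conjugation
    obtain ⟨t, rfl⟩ : ∃ t, e = t + 1 := by
      refine ⟨e - 1, ?_⟩
      have : e ≠ 0 := by
        rintro rfl
        rw [hm1] at hdm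
        simp at hdm
        omega
      omega
    rw [hm1, mul_one] at hdm
    have hS : cocSum p d (bco Δ d) = 0 := by
      have := (mulSeries_diff hd hΔ p).2
      rw [hA, hB, sub_self, map_zero] at this
      exact this.symm
    subst hdm
    have hz := cocycle_pow p hk hcoc hS
    refine ⟨PowerSeries.X, A, inferInstance, isFGHom_X A, PowerSeries.coeff_one_X, by simp, hA, ?_⟩
    exact ord_succ_of_bco (A := A) (B := B) hd _ hΔ p0 p1 hz
  · -- conjugation by `X + a X^d`
    obtain ⟨a, ha⟩ := cocycle_nonpow p hk hcoc hdm hm hm1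
    set hu := isUnit_betaS a hd
    set hc := constantCoeff_betaS a hd
    set T := conj A (betaS a d) hc hu with hT
    have hT' := conj_beta_approx A a hd
    refine ⟨betaS a d, T, inferInstance, hom_conj A _ hc hu, coeff_one_betaS a hd, ?_, ?_, ?_⟩
    · have : betaS a d - PowerSeries.X = PowerSeries.C a * PowerSeries.X ^ d := by
        unfold betaS; ring
      rw [this, mem_ordIdeal_iff_coeff]
      intro i hi
      rw [PowerSeries.coeff_C_mul, PowerSeries.coeff_X_pow, if_neg (by omega), mul_zero]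
    · -- the `p`-series
      have : CharP k p := (CharP.charP_iff_prime_eq_zero hp.out).mpr hk
      have : CharP (PowerSeries k) p := charP_of_injective_ringHom PowerSeries.C_injective p
      have h1 := mulSeries_conj A (betaS a d) hc hu p
      rw [hA, psubst_betaS a hd (by
        show PowerSeries.constantCoeff _ = 0
        simp [hp.out.ne_zero])] at h1
      have h2 : PowerSeries.subst (betaS a d) ((PowerSeries.X : PowerSeries k) ^ (p ^ n)) =
          (PowerSeries.X : PowerSeries k) ^ p ^ n + MvPowerSeries.C a * (PowerSeries.X ^ p ^ n) ^ d := by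
        have hs := hasSubst_one (constantCoeff_betaS a hd)
        rw [PowerSeries.subst_pow hs, PowerSeries.subst_X hs]
        show (PowerSeries.X + PowerSeries.C a * PowerSeries.X ^ d) ^ p ^ n = _
        rw [add_pow_char_pow, mul_pow, ← map_pow, hq a, ← pow_mul, ← pow_mul, Nat.mul_comm d]
        rfl
      have h3 : PowerSeries.subst (betaS a d) (mulSeries T p) =
          PowerSeries.subst (betaS a d) ((PowerSeries.X : PowerSeries k) ^ (p ^ n)) := by
        rw [← h1, h2]
      have h4 := congrArg (PowerSeries.subst (pinv (betaS a d) hu)) h3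
      have ccp := constantCoeff_pinv hu
      rw [psubst_psubst hc ccp, psubst_psubst hc ccp,
        PowerSeries.subst_substInvOfIsUnit_right _ hc hu, PowerSeries.X_subst, PowerSeries.X_subst] at h4
      exact h4
    · -- closeness
      have hform := binom_form_coeff hd a
      have h5 : Δ - MvPowerSeries.C a * ((MvPowerSeries.X 0 + MvPowerSeries.X 1) ^ d - MvPowerSeries.X 0 ^ d -
          MvPowerSeries.X 1 ^ d) ∈ ordIdeal (Fin 2) k (d + 1) := by
        refine ord_succ_of_bco (A := A) (B := B) hd _ (sub_mem hΔ hform) ?_ ?_ ?_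
        · have := binom_form_coeff' (k := k) d 0 (by omega)
          simp only [add_zero, Finsupp.single_zero] at this
          rw [map_sub, MvPowerSeries.coeff_C_mul, this, p0]
          simp
        · have := binom_form_coeff' (k := k) 0 d (by omega)
          simp only [zero_add, Finsupp.single_zero] at this
          rw [map_sub, MvPowerSeries.coeff_C_mul, this, p1]
          simp
        · intro x hx hxd
          have := binom_form_coeff' (k := k) x (d - x) (by omega)
          rw [show x + (d - x) = d by omega, if_neg (by omega)] at this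
          unfold bco at ha ⊢
          rw [map_sub, MvPowerSeries.coeff_C_mul, this, ha x hx hxd, sub_self]
      have e : B.toPowerSeries - T.toPowerSeries =
          (Δ - MvPowerSeries.C a * ((MvPowerSeries.X 0 + MvPowerSeries.X 1) ^ d - MvPowerSeries.X 0 ^ d -
            MvPowerSeries.X 1 ^ d)) - (T.toPowerSeries - A.toPowerSeries - MvPowerSeries.C a *
            ((MvPowerSeries.X 0 + MvPowerSeries.X 1) ^ d - MvPowerSeries.X 0 ^ d - MvPowerSeries.X 1 ^ d)) := by
        rw [hΔdef]; ring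
      rw [e]
      exact sub_mem h5 hT'

/-- The state of the induction. -/
def LazGood (p n : ℕ) (Γ₁ Γ₂ : FormalGroup k) (d : ℕ) (γ : PowerSeries k) : Prop :=
  ∃ T : FormalGroup k, T.IsComm ∧ IsFGHom Γ₁ T γ ∧ PowerSeries.coeff 1 γ = 1 ∧
    mulSeries T p = PowerSeries.X ^ (p ^ n) ∧ Γ₂.toPowerSeries - T.toPowerSeries ∈ ordIdeal (Fin 2) k d

include hk in
theorem lazGood_step (n : ℕ) (hq : ∀ c : k, c ^ (p ^ n) = c) {Γ₁ Γ₂ : FormalGroup k} [Γ₂.IsComm]
    (h₂ : mulSeries Γ₂ p = PowerSeries.X ^ (p ^ n)) {d : ℕ} (hd : 2 ≤ d) {γ : PowerSeries k}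
    (hγ : LazGood p n Γ₁ Γ₂ d γ) :
    ∃ γ', LazGood p n Γ₁ Γ₂ (d + 1) γ' ∧ γ' - γ ∈ ordIdeal Unit k d := by
  obtain ⟨T, hT, hh, hc1, hpT, hΔ⟩ := hγ
  obtain ⟨β, T', hT', hβ, hβ1, hβX, hpT', hΔ'⟩ := lazard_step p hk n hq hpT h₂ hd hΔ
  have cγ : MvPowerSeries.constantCoeff γ = 0 := hh.1
  have oγ : γ ∈ ordIdeal Unit k 1 := mem_ordIdeal_one.mpr cγ
  have hsub : PowerSeries.subst γ β - γ ∈ ordIdeal Unit k d := by
    have h1 := psubst_mem_ord hβX oγ
    rwa [PowerSeries.subst_sub (hasSubst_one cγ), PowerSeries.subst_X (hasSubst_one cγ)] at h1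
  refine ⟨PowerSeries.subst γ β, ⟨T', hT', hom_comp hh hβ, ?_, hpT', hΔ'⟩, hsub⟩
  have h2 := mem_ordIdeal_iff_coeff.mp hsub 1 (by omega)
  rw [map_sub, sub_eq_zero, hc1] at h2
  exact h2

include hk in
/-- **Two laws with `p`-series `X^q` over a field in which `c^q = c` are isomorphic.** -/
theorem exists_iso_of_pSeries (n : ℕ) (hq : ∀ c : k, c ^ (p ^ n) = c) (Γ₁ Γ₂ : FormalGroup k)
    [Γ₁.IsComm] [Γ₂.IsComm] (h₁ : mulSeries Γ₁ p = PowerSeries.X ^ (p ^ n))
    (h₂ : mulSeries Γ₂ p = PowerSeries.X ^ (p ^ n)) :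
    ∃ β : PowerSeries k, IsFGHom Γ₁ Γ₂ β ∧ PowerSeries.coeff 1 β = 1 := by
  classical
  -- the sequence
  have h0 : LazGood p n Γ₁ Γ₂ 2 PowerSeries.X := by
    refine ⟨Γ₁, inferInstance, isFGHom_X Γ₁, PowerSeries.coeff_one_X, h₁, ?_⟩
    have e : Γ₂.toPowerSeries - Γ₁.toPowerSeries =
        (Γ₂.toPowerSeries - (MvPowerSeries.X 0 + MvPowerSeries.X 1)) -
          (Γ₁.toPowerSeries - (MvPowerSeries.X 0 + MvPowerSeries.X 1)) := by ring
    rw [e]
    exact sub_mem (law_sub_add_mem Γ₂) (law_sub_add_mem Γ₁)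
  let S (i : ℕ) := {γ : PowerSeries k // LazGood p n Γ₁ Γ₂ (i + 2) γ}
  have hstep : ∀ (i : ℕ) (x : S i), ∃ y : S (i + 1), y.1 - x.1 ∈ ordIdeal Unit k (i + 2) := by
    rintro i ⟨γ, hγ⟩
    obtain ⟨γ', h1, h2⟩ := lazGood_step p hk n hq h₂ (d := i + 2) (by omega) hγ
    exact ⟨⟨γ', h1⟩, h2⟩
  choose nxt hnxt using hstep
  let seq : (i : ℕ) → S i := fun i => Nat.rec ⟨PowerSeries.X, h0⟩ (fun i x => nxt i x) i
  have hseq : ∀ i, (seq (i + 1)).1 - (seq i).1 ∈ ordIdeal Unit k (i + 2) := fun i => hnxt i (seq i)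
  have hmono : ∀ i j, i ≤ j → (seq j).1 - (seq i).1 ∈ ordIdeal Unit k (i + 2) := by
    intro i j hij
    induction j, hij using Nat.le_induction with
    | base => simp
    | succ j hij ih =>
      have e : (seq (j + 1)).1 - (seq i).1 = ((seq (j + 1)).1 - (seq j).1) + ((seq j).1 - (seq i).1) := by
        ring
      rw [e]
      exact add_mem (ordIdeal_mono (by omega) (hseq j)) ih
  set γ : PowerSeries k := PowerSeries.mk fun i => PowerSeries.coeff i (seq i).1 with hγ
  have hlim : ∀ D, γ - (seq D).1 ∈ ordIdeal Unit k (D + 2) := by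
    intro D
    rw [mem_ordIdeal_iff_coeff]
    intro i hi
    rw [map_sub, hγ, PowerSeries.coeff_mk, sub_eq_zero]
    have h1 := mem_ordIdeal_iff_coeff.mp (hmono i (max i D) (le_max_left _ _)) i (by omega)
    have h2 := mem_ordIdeal_iff_coeff.mp (hmono D (max i D) (le_max_right _ _)) i hi
    rw [map_sub, sub_eq_zero] at h1 h2
    rw [← h1, h2]
  have coe1 : PowerSeries.coeff 1 γ = 1 := by
    rw [hγ, PowerSeries.coeff_mk]
    obtain ⟨T, _, _, h, _⟩ := (seq 1).2
    exact h
  have c0 : PowerSeries.constantCoeff γ = 0 := by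
    rw [← PowerSeries.coeff_zero_eq_constantCoeff_apply, hγ, PowerSeries.coeff_mk,
      PowerSeries.coeff_zero_eq_constantCoeff_apply]
    obtain ⟨T, _, h, _⟩ := (seq 0).2
    exact h.1
  refine ⟨γ, ⟨c0, ?_⟩, coe1⟩
  -- equality, order by order
  have hX0 : MvPowerSeries.constantCoeff (MvPowerSeries.X 0 : MvPowerSeries (Fin 2) k) = 0 := by simp
  have hX1 : MvPowerSeries.constantCoeff (MvPowerSeries.X 1 : MvPowerSeries (Fin 2) k) = 0 := by simp
  have oX0 : (MvPowerSeries.X 0 : MvPowerSeries (Fin 2) k) ∈ ordIdeal (Fin 2) k 1 := X_mem_ordIdeal_one _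
  have oX1 : (MvPowerSeries.X 1 : MvPowerSeries (Fin 2) k) ∈ ordIdeal (Fin 2) k 1 := X_mem_ordIdeal_one _
  have oF : Γ₁.toPowerSeries ∈ ordIdeal (Fin 2) k 1 := mem_ordIdeal_one.mpr Γ₁.zero_constantCoeff
  have key : ∀ D, PowerSeries.subst Γ₁.toPowerSeries γ -
      Γ₂.toPowerSeries.subst ![PowerSeries.subst (MvPowerSeries.X 0 : MvPowerSeries (Fin 2) k) γ,
        PowerSeries.subst (MvPowerSeries.X 1 : MvPowerSeries (Fin 2) k) γ] ∈ ordIdeal (Fin 2) k (D + 2) := by
    intro D
    obtain ⟨T, hT, hh, _, _, hΔ⟩ := (seq D).2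
    set g := (seq D).1 with hg
    have hl := hlim D
    have cg : PowerSeries.constantCoeff g = 0 := hh.1
    have s1 : PowerSeries.subst Γ₁.toPowerSeries γ - PowerSeries.subst Γ₁.toPowerSeries g ∈
        ordIdeal (Fin 2) k (D + 2) := by
      have := psubst_mem_ord hl oF
      rwa [PowerSeries.subst_sub (hasSubst_one Γ₁.zero_constantCoeff)] at this
    have cγX0 := constantCoeff_psubst hX0 c0
    have cγX1 := constantCoeff_psubst hX1 c0
    have cgX0 := constantCoeff_psubst hX0 cg
    have cgX1 := constantCoeff_psubst hX1 cg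
    have s2 : fadd Γ₂.toPowerSeries (PowerSeries.subst (MvPowerSeries.X 0 : MvPowerSeries (Fin 2) k) γ)
        (PowerSeries.subst (MvPowerSeries.X 1 : MvPowerSeries (Fin 2) k) γ) -
        fadd Γ₂.toPowerSeries (PowerSeries.subst (MvPowerSeries.X 0 : MvPowerSeries (Fin 2) k) g)
        (PowerSeries.subst (MvPowerSeries.X 1 : MvPowerSeries (Fin 2) k) g) ∈ ordIdeal (Fin 2) k (D + 2) := by
      refine subst_sub_subst_mem_ordIdeal (hasSubst_pair cγX0 cγX1) (hasSubst_pair cgX0 cgX1) ?_ _
      intro s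
      fin_cases s
      · have := psubst_mem_ord hl oX0
        rwa [PowerSeries.subst_sub (hasSubst_one hX0)] at this
      · have := psubst_mem_ord hl oX1
        rwa [PowerSeries.subst_sub (hasSubst_one hX1)] at this
    have s3 : fadd (Γ₂.toPowerSeries - T.toPowerSeries) (PowerSeries.subst (MvPowerSeries.X 0 : MvPowerSeries (Fin 2) k) g)
        (PowerSeries.subst (MvPowerSeries.X 1 : MvPowerSeries (Fin 2) k) g) ∈ ordIdeal (Fin 2) k (D + 2) :=
      fadd_mem_ordIdeal hΔ (mem_ordIdeal_one.mpr cgX0) (mem_ordIdeal_one.mpr cgX1)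
    rw [fadd_sub _ _ cgX0 cgX1] at s3
    have hh2 : PowerSeries.subst Γ₁.toPowerSeries g = fadd T.toPowerSeries
        (PowerSeries.subst (MvPowerSeries.X 0 : MvPowerSeries (Fin 2) k) g)
        (PowerSeries.subst (MvPowerSeries.X 1 : MvPowerSeries (Fin 2) k) g) := hh.2
    rw [hh2] at s1
    have e := sub_mem (sub_mem s1 s2) s3
    have e2 : PowerSeries.subst Γ₁.toPowerSeries γ -
      Γ₂.toPowerSeries.subst ![PowerSeries.subst (MvPowerSeries.X 0 : MvPowerSeries (Fin 2) k) γ,
        PowerSeries.subst (MvPowerSeries.X 1 : MvPowerSeries (Fin 2) k) γ] =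
      PowerSeries.subst Γ₁.toPowerSeries γ - fadd Γ₂.toPowerSeries
        (PowerSeries.subst (MvPowerSeries.X 0 : MvPowerSeries (Fin 2) k) γ)
        (PowerSeries.subst (MvPowerSeries.X 1 : MvPowerSeries (Fin 2) k) γ) := rfl
    rw [e2]
    convert e using 1
    ring
  ext e
  have := key e.degree e (by omega)
  rw [map_sub, sub_eq_zero] at this
  exact this

end Field

end Crest.Agent.LT
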