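import Crest.Agent.Lib.LT.Height

/-!
# Lazard's symmetric 2-cocycle lemma over a field of characteristic `p` (combinatorial form)

`b : ℕ → k` on `1 ≤ x < d` with `b x = b (d - x)` and
`binom(i+j, i) b(i+j) = binom(j+l, j) b(i)` for `i, j, l ≥ 1`, `i + j + l = d`.
-/

set_option autoImplicit false

namespace Crest.Agent.LT

variable {k : Type*} [Field k]

/-- The symmetric cocycle conditions in degree `d`. -/
structure IsCocycle (d : ℕ) (b : ℕ → k) : Prop where
  symm : ∀ x, 1 ≤ x → x < d → b x = b (d - x)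
  rel : ∀ i j l, 1 ≤ i → 1 ≤ j → 1 ≤ l → i + j + l = d →
    ((i + j).choose i : k) * b (i + j) = ((j + l).choose j : k) * b i

section

variable (p : ℕ) [hp : Fact p.Prime]

/-- Lucas: `binom(p^s A, p^s B) ≡ binom(A, B) mod p`. -/
theorem choose_pow_mul_mul_modEq (s A B : ℕ) :
    (p ^ s * A).choose (p ^ s * B) ≡ A.choose B [MOD p] := by
  induction s with
  | zero => simp [Nat.ModEq]
  | succ s ih =>
    have hpos : 0 < p := hp.out.pos
    have h1 := Choose.choose_modEq_choose_mod_mul_choose_div_nat (n := p ^ (s + 1) * A)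
      (k := p ^ (s + 1) * B) (p := p)
    have e : ∀ X : ℕ, p ^ (s + 1) * X = p * (p ^ s * X) := by intro X; ring
    rw [e A, e B, Nat.mul_mod_right, Nat.mul_mod_right, Nat.mul_div_cancel_left _ hpos,
      Nat.mul_div_cancel_left _ hpos, Nat.choose_zero_right, one_mul] at h1
    rw [e A, e B]
    exact h1.trans ih

variable (hk : (p : k) = 0)
include hk

theorem natCast_choose_eq_of_modEq {a b : ℕ} (h : a ≡ b [MOD p]) : (a : k) = (b : k) :=
  natCast_eq_of_modEq p hk h

theorem natCast_ne_zero_of_not_dvd {m : ℕ} (hm : ¬ p ∣ m) : (m : k) ≠ 0 :=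
  (isUnit_natCast_of_not_dvd p hk hm).ne_zero

/-- Everything is determined by the values at `p`-powers. -/
theorem cocycle_zero_of_pow {d : ℕ} {b : ℕ → k} (hb : IsCocycle d b)
    (hpow : ∀ s, p ^ s < d → b (p ^ s) = 0) : ∀ x, 1 ≤ x → x < d → b x = 0 := by
  intro x
  induction x using Nat.strong_induction_on with
  | _ x ih =>
    intro hx hxd
    have hx0 : x ≠ 0 := by omega
    obtain ⟨v, y, hy, hxy⟩ := Nat.exists_eq_pow_mul_and_not_dvd hx0 p hp.out.ne_one
    by_cases hy1 : y = 1
    · rw [hxy, hy1, mul_one] at hxd ⊢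
      exact hpow v hxd
    · have hy0 : y ≠ 0 := by rintro rfl; simp at hy
      have hlt : p ^ v < x := by
        rw [hxy]
        have : 1 < y := by omega
        exact lt_mul_of_one_lt_right (pow_pos hp.out.pos v) this
      have hv : 1 ≤ p ^ v := Nat.one_le_pow _ _ hp.out.pos
      have h1 := hb.rel (x - p ^ v) (p ^ v) (d - x) (by omega) hv (by omega) (by omega)
      rw [show x - p ^ v + p ^ v = x by omega, ih (x - p ^ v) (by omega) (by omega) (by omega),
        mul_zero] at h1
      have h2 : ((x.choose (x - p ^ v) : ℕ) : k) = (y : k) := by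
        rw [Nat.choose_symm hlt.le]
        have h3 := choose_pow_mul_modEq p v y
        rw [← hxy] at h3
        exact natCast_eq_of_modEq p hk h3
      rw [h2] at h1
      exact (mul_eq_zero.mp h1).resolve_left (natCast_ne_zero_of_not_dvd p hk hy)

/-- Below the `p`-adic valuation of the degree the values at `p`-powers vanish. -/
theorem cocycle_zero_low {d : ℕ} {b : ℕ → k} (hb : IsCocycle d b) {s : ℕ}
    (hs : p ^ (s + 1) < d) (hdvd : p ^ (s + 1) ∣ d) : b (p ^ s) = 0 := by
  have hp1 : 1 < p := hp.out.one_lt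
  have hv : 1 ≤ p ^ s := Nat.one_le_pow _ _ hp.out.pos
  have hlt : p ^ s < p ^ (s + 1) := Nat.pow_lt_pow_right hp1 (Nat.lt_succ_self s)
  obtain ⟨w, hw⟩ := hdvd
  have hw2 : 2 ≤ w := by
    by_contra h
    have : w = 0 ∨ w = 1 := by omega
    rcases this with rfl | rfl <;> simp [hw] at hs
  have h1 := hb.rel (p ^ s) (p ^ (s + 1) - p ^ s) (d - p ^ (s + 1)) hv (by omega) (by omega)
    (by omega)
  rw [show p ^ s + (p ^ (s + 1) - p ^ s) = p ^ (s + 1) by omega] at h1
  have h2 : ((p ^ (s + 1)).choose (p ^ s) : k) = 0 := by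
    have hd : p ∣ (p ^ (s + 1)).choose (p ^ s) :=
      hp.out.dvd_choose_pow (by omega) (by omega)
    obtain ⟨c, hc⟩ := hd
    rw [hc]; push_cast; rw [hk, zero_mul]
  rw [h2, zero_mul] at h1
  have h3 : (p ^ (s + 1) - p ^ s + (d - p ^ (s + 1))) = p ^ s * (p * w - 1) := by
    have : d - p ^ s = p ^ s * (p * w - 1) := by
      rw [hw, pow_succ, Nat.mul_sub, mul_one, mul_assoc]
    omega
  have h4 : p ^ (s + 1) - p ^ s = p ^ s * (p - 1) := by
    rw [pow_succ, Nat.mul_sub, mul_one]
  have h5 : ((p ^ (s + 1) - p ^ s + (d - p ^ (s + 1))).choose (p ^ (s + 1) - p ^ s) : ℕ) ≡ 1 [MOD p] := by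
    rw [h3, h4]
    refine (choose_pow_mul_mul_modEq p s _ _).trans ?_
    have h6 := Choose.choose_modEq_choose_mod_mul_choose_div_nat (n := p * w - 1) (k := p - 1) (p := p)
    have h7 : (p * w - 1) % p = p - 1 := by
      have : p * w - 1 = p * (w - 1) + (p - 1) := by
        obtain ⟨w', rfl⟩ : ∃ w', w = w' + 1 := ⟨w - 1, by omega⟩
        have : p * (w' + 1) = p * w' + p := by ring
        simp only [Nat.add_sub_cancel]
        omega
      rw [this, Nat.mul_add_mod, Nat.mod_eq_of_lt (by omega)]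
    have h8 : (p - 1) % p = p - 1 := Nat.mod_eq_of_lt (by omega)
    have h9 : (p - 1) / p = 0 := Nat.div_eq_of_lt (by omega)
    rw [h7, h8, h9, Nat.choose_self, Nat.choose_zero_right, one_mul] at h6
    exact h6
  have h6 : ((p ^ (s + 1) - p ^ s + (d - p ^ (s + 1))).choose (p ^ (s + 1) - p ^ s) : k) = 1 := by
    have := natCast_eq_of_modEq (R := k) p hk h5
    simpa using this
  rw [h6, one_mul] at h1
  exact h1.symm

/-- The non-`p`-power case: vanishing at `p^e` (`e` the valuation of `d`) gives vanishing at all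
`p`-powers. -/
theorem cocycle_zero_nonpow {d e m : ℕ} {b : ℕ → k} (hb : IsCocycle d b) (hd : d = p ^ e * m)
    (hm : ¬ p ∣ m) (hm1 : m ≠ 1) (h0 : b (p ^ e) = 0) : ∀ s, p ^ s < d → b (p ^ s) = 0 := by
  have hp1 : 1 < p := hp.out.one_lt
  have hm0 : m ≠ 0 := by rintro rfl; simp at hm
  have hm2 : 1 < m := by omega
  have hdpos : p ^ e < d := by
    rw [hd]; exact lt_mul_of_one_lt_right (pow_pos hp.out.pos e) hm2
  intro s hs
  rcases lt_trichotomy s e with hse | hse | hse
  · refine cocycle_zero_low p hk hb (lt_of_le_of_lt (Nat.pow_le_pow_right hp.out.pos hse) hdpos) ?_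
    rw [hd]
    exact Dvd.dvd.mul_right (pow_dvd_pow p hse) m
  · rw [hse]; exact h0
  · -- `s > e`
    set A := p ^ e with hA
    set B := p ^ s with hB
    have hApos : 1 ≤ A := Nat.one_le_pow _ _ hp.out.pos
    have hBpos : 1 ≤ B := Nat.one_le_pow _ _ hp.out.pos
    obtain ⟨t, ht, hBt⟩ : ∃ t, 1 ≤ t ∧ B = A * p ^ t := by
      refine ⟨s - e, by omega, ?_⟩
      rw [hB, hA, ← pow_add]
      congr 1
      omega
    have hpt : p ∣ p ^ t := dvd_pow_self p (by omega)
    have hmt : p ^ t < m := by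
      have : A * p ^ t < A * m := by rw [← hBt, ← hd]; exact hs
      exact (Nat.mul_lt_mul_left (by omega)).mp this
    by_cases hsum : A + B = d
    · have h1 := hb.symm B hBpos hs
      rw [show d - B = A by omega, h0] at h1
      exact h1
    · have hlt : A + B < d := by
        have : A * (1 + p ^ t) ≤ A * m := Nat.mul_le_mul_left _ (by omega)
        have h2 : A * (1 + p ^ t) = A + B := by rw [hBt]; ring
        rw [h2, ← hd] at this
        omega
      have hl : 1 ≤ d - A - B := by omega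
      have r1 := hb.rel A B (d - A - B) hApos hBpos hl (by omega)
      have r2 := hb.rel B A (d - A - B) hBpos hApos hl (by omega)
      rw [h0, mul_zero] at r1
      -- `binom(A+B, A) ≡ 1`
      have hK : ((A + B).choose A : k) = 1 := by
        have e1 : A + B = A * (1 + p ^ t) := by rw [hBt]; ring
        have h3 := choose_pow_mul_modEq p e (1 + p ^ t)
        rw [← hA, ← e1] at h3
        have h4 : ((A + B).choose A : k) = ((1 + p ^ t : ℕ) : k) := natCast_eq_of_modEq p hk h3
        rw [h4]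
        push_cast
        rw [hk, zero_pow (by omega), add_zero]
      rw [hK, one_mul] at r1
      rw [show B + A = A + B by ring, r1, mul_zero] at r2
      -- `binom(d - B, A) ≡ m - p^t`
      have hunit : ((A + (d - A - B)).choose A : k) ≠ 0 := by
        have e1 : A + (d - A - B) = A * (m - p ^ t) := by
          rw [Nat.mul_sub, ← hBt, ← hd]; omega
        rw [e1]
        have h3 := choose_pow_mul_modEq p e (m - p ^ t)
        rw [← hA] at h3
        rw [natCast_eq_of_modEq (R := k) p hk h3]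
        refine natCast_ne_zero_of_not_dvd p hk ?_
        intro hdv
        apply hm
        have := Nat.dvd_add hdv hpt
        rwa [Nat.sub_add_cancel hmt.le] at this
      exact (mul_eq_zero.mp r2.symm).resolve_left hunit

/-- The `p`-power case. -/
theorem cocycle_zero_pow_case {t : ℕ} {b : ℕ → k} (hb : IsCocycle (p ^ (t + 1)) b)
    (h0 : b (p ^ t) = 0) : ∀ s, p ^ s < p ^ (t + 1) → b (p ^ s) = 0 := by
  have hp1 : 1 < p := hp.out.one_lt
  intro s hs
  have hst : s < t + 1 := (Nat.pow_lt_pow_iff_right hp1).mp hs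
  by_cases h : s = t
  · rw [h]; exact h0
  · have hst' : s + 1 < t + 1 := by omega
    exact cocycle_zero_low p hk hb (Nat.pow_lt_pow_right hp1 hst') (pow_dvd_pow p hst'.le)

omit hk in
/-- The binomial coefficients form a cocycle. -/
theorem choose_isCocycle (d : ℕ) : IsCocycle (k := k) d (fun x => (d.choose x : k)) where
  symm := by
    intro x hx hxd
    show (d.choose x : k) = (d.choose (d - x) : k)
    rw [Nat.choose_symm hxd.le]
  rel := by
    intro i j l hi hj hl hd
    have h := Nat.choose_mul (n := d) (k := i + j) (s := i) (by omega)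
    rw [show d - i = j + l by omega, show i + j - i = j by omega] at h
    have h2 : ((d.choose (i + j) * (i + j).choose i : ℕ) : k) = ((d.choose i * (j + l).choose j : ℕ) : k) := by
      rw [h]
    push_cast at h2
    show ((i + j).choose i : k) * (d.choose (i + j) : k) = ((j + l).choose j : k) * (d.choose i : k)
    rw [mul_comm, h2, mul_comm]

/-- Classification, non-`p`-power degree: the cocycle is `a * binom(d, x)`. -/
theorem cocycle_nonpow {d e m : ℕ} {b : ℕ → k} (hb : IsCocycle d b) (hd : d = p ^ e * m)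
    (hm : ¬ p ∣ m) (hm1 : m ≠ 1) : ∃ a : k, ∀ x, 1 ≤ x → x < d → b x = a * (d.choose x : k) := by
  have hp1 : 1 < p := hp.out.one_lt
  have hm0 : m ≠ 0 := by rintro rfl; simp at hm
  set a : k := b (p ^ e) / (m : k) with ha
  have hmk : (m : k) ≠ 0 := natCast_ne_zero_of_not_dvd p hk hm
  have hchoose : ((d.choose (p ^ e) : ℕ) : k) = (m : k) := by
    have h3 := choose_pow_mul_modEq p e m
    rw [← hd] at h3
    exact natCast_eq_of_modEq p hk h3
  refine ⟨a, ?_⟩
  set c : ℕ → k := fun x => b x - a * (d.choose x : k) with hc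
  have hcoc : IsCocycle d c := by
    refine ⟨?_, ?_⟩
    · intro x hx hxd
      simp only [hc]
      rw [hb.symm x hx hxd, (choose_isCocycle (k := k) d).symm x hx hxd]
    · intro i j l hi hj hl hs
      simp only [hc]
      have h1 := hb.rel i j l hi hj hl hs
      have h2 := (choose_isCocycle (k := k) d).rel i j l hi hj hl hs
      linear_combination h1 - a * h2
  have hc0 : c (p ^ e) = 0 := by
    simp only [hc]
    rw [hchoose, ha]
    field_simp
    simp
  have hzero := cocycle_zero_of_pow p hk hcoc (cocycle_zero_nonpow p hk hcoc hd hm hm1 hc0)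
  intro x hx hxd
  have := hzero x hx hxd
  simp only [hc] at this
  exact sub_eq_zero.mp this


/-- The power-degree cocycle `binom(p^t, x) / p`. -/
noncomputable def powCoc (p t x : ℕ) : ℕ := (p ^ t).choose x / p

omit hk in
theorem p_mul_powCoc {t x : ℕ} (hx : 1 ≤ x) (hxd : x < p ^ t) :
    p * powCoc p t x = (p ^ t).choose x :=
  Nat.mul_div_cancel' (hp.out.dvd_choose_pow (by omega) (by omega))

omit hk in
theorem powCoc_isCocycle (t : ℕ) : IsCocycle (k := k) (p ^ t) (fun x => (powCoc p t x : k)) where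
  symm := by
    intro x hx hxd
    show ((p ^ t).choose x / p : ℕ) = (((p ^ t).choose (p ^ t - x) / p : ℕ) : k)
    rw [Nat.choose_symm hxd.le]
  rel := by
    intro i j l hi hj hl hd
    have h := Nat.choose_mul (n := p ^ t) (k := i + j) (s := i) (by omega)
    rw [show p ^ t - i = j + l by omega, show i + j - i = j by omega] at h
    have hp0 : 0 < p := hp.out.pos
    rw [← p_mul_powCoc p (x := i + j) (by omega) (by omega),
      ← p_mul_powCoc p (x := i) (by omega) (by omega)] at h
    have h1 : powCoc p t (i + j) * (i + j).choose i = powCoc p t i * (j + l).choose j := by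
      apply Nat.eq_of_mul_eq_mul_left hp0
      rw [← mul_assoc, h, mul_assoc]
    have h2 : ((powCoc p t (i + j) * (i + j).choose i : ℕ) : k) =
        ((powCoc p t i * (j + l).choose j : ℕ) : k) := by rw [h1]
    push_cast at h2
    show ((i + j).choose i : k) * (powCoc p t (i + j) : k) = ((j + l).choose j : k) * (powCoc p t i : k)
    rw [mul_comm, h2, mul_comm]

/-- The sum `S(b) = ∑_{n<p} ∑_{1≤x<d} b_x n^x`. -/
noncomputable def cocSum (p d : ℕ) (b : ℕ → k) : k :=
  ∑ n ∈ Finset.range p, ∑ x ∈ Finset.Ico 1 d, b x * (n : k) ^ x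

omit hk in
theorem sum_choose_int (d : ℕ) (hd : 1 ≤ d) (n : ℕ) :
    (∑ x ∈ Finset.Ico 1 d, (d.choose x : ℤ) * (n : ℤ) ^ x) = ((n : ℤ) + 1) ^ d - (n : ℤ) ^ d - 1 := by
  have h := add_pow (n : ℤ) 1 d
  simp only [one_pow, mul_one] at h
  rw [Finset.sum_range_succ, Finset.range_eq_Ico, Finset.sum_eq_sum_Ico_succ_bot (by omega)] at h
  simp only [Nat.choose_self, Nat.cast_one, mul_one, pow_zero, Nat.choose_zero_right, zero_add] at h
  have e : (∑ x ∈ Finset.Ico 1 d, (d.choose x : ℤ) * (n : ℤ) ^ x) =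
      ∑ x ∈ Finset.Ico 1 d, (n : ℤ) ^ x * (d.choose x : ℤ) :=
    Finset.sum_congr rfl (fun _ _ => mul_comm _ _)
  rw [e, h]
  ring

omit hk in
theorem sum_powCoc_int {t : ℕ} (ht : 1 ≤ t) :
    (∑ n ∈ Finset.range p, ∑ x ∈ Finset.Ico 1 (p ^ t), (powCoc p t x : ℤ) * (n : ℤ) ^ x) =
      (p : ℤ) ^ (p ^ t - 1) - 1 := by
  have hp0 : (p : ℤ) ≠ 0 := by exact_mod_cast hp.out.ne_zero
  have hd1 : 1 ≤ p ^ t := Nat.one_le_pow _ _ hp.out.pos
  apply mul_left_cancel₀ hp0
  rw [Finset.mul_sum]
  have h1 : ∀ n ∈ Finset.range p, (p : ℤ) * ∑ x ∈ Finset.Ico 1 (p ^ t), (powCoc p t x : ℤ) * (n : ℤ) ^ x =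
      ((n : ℤ) + 1) ^ (p ^ t) - (n : ℤ) ^ (p ^ t) - 1 := by
    intro n _
    rw [← sum_choose_int (p ^ t) hd1 n, Finset.mul_sum]
    refine Finset.sum_congr rfl fun x hx => ?_
    rw [Finset.mem_Ico] at hx
    rw [← mul_assoc]
    congr 1
    have := p_mul_powCoc p (t := t) (x := x) hx.1 hx.2
    exact_mod_cast this
  rw [Finset.sum_congr rfl h1, Finset.sum_sub_distrib, Finset.sum_const, Finset.card_range]
  have h2 := Finset.sum_range_sub (fun n : ℕ => (n : ℤ) ^ (p ^ t)) p
  simp only [Nat.cast_add, Nat.cast_one] at h2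
  rw [h2]
  have h3 : ((0 : ℕ) : ℤ) ^ (p ^ t) = 0 := by
    simp; omega
  rw [h3, sub_zero, mul_sub, ← pow_succ', show p ^ t - 1 + 1 = p ^ t by omega]
  simp

theorem cocSum_powCoc {t : ℕ} (ht : 1 ≤ t) :
    cocSum p (p ^ t) (fun x => (powCoc p t x : k)) = -1 := by
  have h := congrArg (Int.cast : ℤ → k) (sum_powCoc_int p ht)
  push_cast at h
  unfold cocSum
  rw [h, hk, zero_pow, zero_sub]
  have h1 : 1 < p := hp.out.one_lt
  have h2 : p ^ 1 ≤ p ^ t := Nat.pow_le_pow_right hp.out.pos ht
  rw [pow_one] at h2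
  omega

/-- Classification, `p`-power degree: a cocycle with vanishing sum vanishes. -/
theorem cocycle_pow {t : ℕ} {b : ℕ → k} (hb : IsCocycle (p ^ (t + 1)) b)
    (hS : cocSum p (p ^ (t + 1)) b = 0) : ∀ x, 1 ≤ x → x < p ^ (t + 1) → b x = 0 := by
  set d := p ^ (t + 1) with hd
  set c : ℕ → k := fun x => (powCoc p (t + 1) x : k) with hc
  have hcoc : IsCocycle d c := powCoc_isCocycle p (t + 1)
  have hSc : cocSum p d c = -1 := cocSum_powCoc p hk (by omega)
  have hp1 : 1 < p := hp.out.one_lt
  have hxs : c (p ^ t) ≠ 0 := by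
    intro h0
    have hz := cocycle_zero_of_pow p hk hcoc (cocycle_zero_pow_case p hk hcoc h0)
    have : cocSum p d c = 0 := by
      unfold cocSum
      refine Finset.sum_eq_zero fun n _ => Finset.sum_eq_zero fun x hx => ?_
      rw [Finset.mem_Ico] at hx
      rw [hz x hx.1 hx.2, zero_mul]
    rw [this] at hSc
    exact (neg_ne_zero.mpr (one_ne_zero (α := k))) hSc.symm
  set a : k := b (p ^ t) / c (p ^ t) with ha
  set b' : ℕ → k := fun x => b x - a * c x with hb'
  have hcoc' : IsCocycle d b' := by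
    refine ⟨?_, ?_⟩
    · intro x hx hxd
      simp only [hb']
      rw [hb.symm x hx hxd, hcoc.symm x hx hxd]
    · intro i j l hi hj hl hs
      simp only [hb']
      have h1 := hb.rel i j l hi hj hl hs
      have h2 := hcoc.rel i j l hi hj hl hs
      linear_combination h1 - a * h2
  have h0 : b' (p ^ t) = 0 := by
    simp only [hb', ha]
    field_simp
    simp
  have hz := cocycle_zero_of_pow p hk hcoc' (cocycle_zero_pow_case p hk hcoc' h0)
  have hbc : ∀ x, 1 ≤ x → x < d → b x = a * c x := fun x hx hxd =>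
    sub_eq_zero.mp (hz x hx hxd)
  have hSb : cocSum p d b = a * cocSum p d c := by
    unfold cocSum
    rw [Finset.mul_sum]
    refine Finset.sum_congr rfl fun n _ => ?_
    rw [Finset.mul_sum]
    refine Finset.sum_congr rfl fun x hx => ?_
    rw [Finset.mem_Ico] at hx
    rw [hbc x hx.1 hx.2, mul_assoc]
  rw [hS, hSc, mul_neg, mul_one] at hSb
  have ha0 : a = 0 := by simpa using hSb.symm
  intro x hx hxd
  rw [hbc x hx hxd, ha0, zero_mul]

end

end Crest.Agent.LT
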