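import Mathlib

/-!
# S0351, Lemma R of finding #1130, step (2h), in abstract form (helper89).

No formal group appears here: the statement is about a complete ultrametric perfect field `R` of
characteristic `p`, a sequence of coefficients `P N` (`P N = c₁ Π_N` of #1130) with tropical hull `Y`
(`Y = Y_H + γ₀`), elements `z i` with valuations `V i`, and the consequences of
(2a)-(2d) written as hypotheses `hT`, `hE`, and of the relation as `hrel`.
-/

set_option linter.unusedSectionVars false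

open Real Filter Topology

namespace Crest.Agent.Lib.LT.LemmaR

variable {R : Type*} [NormedField R] (p : ℕ) [Fact p.Prime] [CharP R p] [PerfectRing R p]

/-- Integer powers of Frobenius on the perfect ring `R`: `fr p e x = x ^ (p ^ e)`. -/
noncomputable def fr (e : ℤ) : R ≃+* R := ((frobeniusEquiv R p : R ≃+* R) : RingAut R) ^ e

/-- The additive expansion `Ξ(y) = ∑_N P N * y ^ (p ^ (-N))`. -/
noncomputable def Xi (P : ℕ → R) (y : R) : R := ∑' N : ℕ, P N * fr (R := R) p (-(N : ℤ)) y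

/-- Tropical hull: every line `(-log ‖P N‖) + x / p ^ N` lies above `Y x`, some line touches it,
and `Y (q x) = p ^ k Y x`, all for `x ≥ xc`; `q = p ^ (k + r)`. -/
structure Lines (k r : ℕ) (P : ℕ → R) (Y : ℝ → ℝ) (xc : ℝ) : Prop where
  xc_pos : 0 < xc
  pos : ∀ x, xc ≤ x → 0 < Y x
  above : ∀ x, xc ≤ x → ∀ N : ℕ, ‖P N‖ * exp (-(x / (p : ℝ) ^ N)) ≤ exp (-Y x)
  tight : ∀ x, xc ≤ x → ∃ N : ℕ, ‖P N‖ * exp (-(x / (p : ℝ) ^ N)) = exp (-Y x)
  scale : ∀ x, xc ≤ x → Y ((p : ℝ) ^ (k + r) * x) = (p : ℝ) ^ k * Y x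


section Fr

variable {p}

@[simp] lemma fr_zero (x : R) : fr (R := R) p 0 x = x := by simp [fr]

lemma fr_add (e f : ℤ) (x : R) : fr (R := R) p (e + f) x = fr p e (fr p f x) := by
  simp only [fr, zpow_add]; rfl

lemma fr_one (x : R) : fr (R := R) p 1 x = x ^ p := by
  simp only [fr, zpow_one]; rfl

lemma fr_natCast (n : ℕ) (x : R) : fr (R := R) p (n : ℤ) x = x ^ p ^ n := by
  induction n generalizing x with
  | zero => simp
  | succ n ih =>
    have : ((n + 1 : ℕ) : ℤ) = (n : ℤ) + 1 := by push_cast; ring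
    rw [this, fr_add, fr_one, ih, ← pow_mul, pow_succ, mul_comm]

lemma fr_neg_cancel (e : ℤ) (x : R) : fr (R := R) p (-e) (fr p e x) = x := by
  rw [← fr_add]; simp

lemma fr_cancel_neg (e : ℤ) (x : R) : fr (R := R) p e (fr p (-e) x) = x := by
  rw [← fr_add]; simp

omit [CharP R p] [PerfectRing R p] in
lemma p_pos_real : (0 : ℝ) < (p : ℝ) := by
  exact_mod_cast (Fact.out : p.Prime).pos

omit [CharP R p] [PerfectRing R p] in
lemma one_lt_p_real : (1 : ℝ) < (p : ℝ) := by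
  exact_mod_cast (Fact.out : p.Prime).one_lt

/-- The norm of `fr`: `‖x ^ (p ^ e)‖ = ‖x‖ ^ (p ^ e)`, also for negative `e`. -/
lemma norm_fr (e : ℤ) (x : R) : ‖fr (R := R) p e x‖ = ‖x‖ ^ ((p : ℝ) ^ e) := by
  have hp := p_pos_real (p := p)
  have hnat : ∀ (n : ℕ) (y : R), ‖fr (R := R) p (n : ℤ) y‖ = ‖y‖ ^ ((p : ℝ) ^ (n : ℤ)) := by
    intro n y
    rw [fr_natCast, norm_pow, zpow_natCast]
    rw [← Real.rpow_natCast ‖y‖ (p ^ n)]
    push_cast
    rfl
  obtain ⟨n, rfl | rfl⟩ := e.eq_nat_or_neg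
  · exact hnat n x
  · have h := hnat n (fr (R := R) p (-(n : ℤ)) x)
    rw [fr_cancel_neg] at h
    rw [h, ← Real.rpow_mul (norm_nonneg _)]
    have : (p : ℝ) ^ (n : ℤ) * (p : ℝ) ^ (-(n : ℤ)) = 1 := by
      rw [← zpow_add₀ hp.ne']; simp
    rw [this, Real.rpow_one]

/-- Exponential form of `norm_fr`. -/
lemma norm_fr_exp (e : ℤ) {x : R} {v : ℝ} (h : ‖x‖ = exp (-v)) :
    ‖fr (R := R) p e x‖ = exp (-((p : ℝ) ^ e * v)) := by
  rw [norm_fr, h, ← Real.exp_mul]; congr 1; ring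

lemma norm_fr_lt_one (e : ℤ) {x : R} (h : ‖x‖ < 1) : ‖fr (R := R) p e x‖ < 1 := by
  rw [norm_fr]
  exact Real.rpow_lt_one (norm_nonneg _) h (zpow_pos p_pos_real _)

lemma norm_fr_eq_one (e : ℤ) {x : R} (h : ‖x‖ = 1) : ‖fr (R := R) p e x‖ = 1 := by
  rw [norm_fr, h, Real.one_rpow]

lemma norm_fr_le_one (e : ℤ) {x : R} (h : ‖x‖ ≤ 1) : ‖fr (R := R) p e x‖ ≤ 1 := by
  rw [norm_fr]
  exact Real.rpow_le_one (norm_nonneg _) h (zpow_pos p_pos_real _).le

lemma continuous_fr (e : ℤ) : Continuous (fr (R := R) p e) := by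
  refine continuous_of_continuousAt_zero (fr (R := R) p e : R →+ R) ?_
  rw [ContinuousAt, map_zero, tendsto_zero_iff_norm_tendsto_zero]
  have h : Tendsto (fun x : R => ‖x‖ ^ ((p : ℝ) ^ e)) (𝓝 0) (𝓝 0) := by
    have h1 : Tendsto (fun x : R => ‖x‖) (𝓝 0) (𝓝 0) := tendsto_norm_zero
    have h2 := h1.rpow_const (p := (p : ℝ) ^ e) (Or.inr (zpow_pos p_pos_real _).le)
    rwa [Real.zero_rpow (zpow_pos p_pos_real _).ne'] at h2
  refine h.congr (fun x => ?_)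
  exact (norm_fr e x).symm

end Fr


section Ultra

variable [IsUltrametricDist R]

omit [CharP R p] [PerfectRing R p] in
/-- Strict version of the ultrametric bound for series with terms tending to zero. -/
lemma norm_tsum_lt {f : ℕ → R} (h0 : Tendsto (fun n => ‖f n‖) atTop (𝓝 0)) {B : ℝ} (hB : 0 < B)
    (h : ∀ n, ‖f n‖ < B) : ‖∑' n, f n‖ < B := by
  have h1 : ∀ᶠ n in atTop, ‖f n‖ < B / 2 := h0.eventually (gt_mem_nhds (half_pos hB))
  obtain ⟨N0, hN0⟩ := eventually_atTop.mp h1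
  obtain ⟨m, -, hm⟩ := Finset.exists_max_image (Finset.range (N0 + 1)) (fun n => ‖f n‖)
    ⟨0, by simp⟩
  have hall : ∀ n, ‖f n‖ ≤ max (B / 2) ‖f m‖ := by
    intro n
    by_cases hn : N0 ≤ n
    · exact le_max_of_le_left (hN0 n hn).le
    · exact le_max_of_le_right (hm n (by simp; omega))
  have hb : max (B / 2) ‖f m‖ < B := max_lt (half_lt_self hB) (h m)
  exact lt_of_le_of_lt
    (IsUltrametricDist.norm_tsum_le_of_forall_le_of_nonneg (le_max_of_le_left (half_pos hB).le) hall) hb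

omit [CharP R p] [PerfectRing R p] in
lemma norm_tsum_le' {f : ℕ → R} {B : ℝ} (hB : 0 ≤ B) (h : ∀ n, ‖f n‖ ≤ B) : ‖∑' n, f n‖ ≤ B :=
  IsUltrametricDist.norm_tsum_le_of_forall_le_of_nonneg hB h

omit [CharP R p] [PerfectRing R p] in
/-- A finite sum of elements of norm `< B` has norm `< B`. -/
lemma norm_sum_lt {ι : Type*} {s : Finset ι} {f : ι → R} {B : ℝ} (hB : 0 < B)
    (h : ∀ i ∈ s, ‖f i‖ < B) : ‖∑ i ∈ s, f i‖ < B := by
  classical
  rcases s.eq_empty_or_nonempty with rfl | hs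
  · simpa using hB
  · obtain ⟨i, hi, hle⟩ := IsUltrametricDist.exists_norm_finsetSum_le_of_nonempty hs f
    exact lt_of_le_of_lt hle (h i hi)

omit [CharP R p] [PerfectRing R p] in
lemma norm_sum_le' {ι : Type*} {s : Finset ι} {f : ι → R} {B : ℝ} (hB : 0 ≤ B)
    (h : ∀ i ∈ s, ‖f i‖ ≤ B) : ‖∑ i ∈ s, f i‖ ≤ B :=
  IsUltrametricDist.norm_sum_le_of_forall_le_of_nonneg hB h

omit [CharP R p] [PerfectRing R p] in
lemma summable_of_norm_tendsto [CompleteSpace R] {f : ℕ → R}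
    (h0 : Tendsto (fun n => ‖f n‖) atTop (𝓝 0)) : Summable f := by
  apply NonarchimedeanAddGroup.summable_of_tendsto_cofinite_zero
  rw [Nat.cofinite_eq_atTop]
  exact tendsto_zero_iff_norm_tendsto_zero.mpr h0

end Ultra

namespace Lines

variable {p} {k r : ℕ} {P : ℕ → R} {Y : ℝ → ℝ} {xc : ℝ}

omit [CharP R p] [PerfectRing R p] in
include p in
lemma one_le_p_pow (m : ℕ) : (1 : ℝ) ≤ (p : ℝ) ^ m :=
  one_le_pow₀ (one_lt_p_real (p := p)).le

variable (hL : Lines p k r P Y xc)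
include hL

omit [CharP R p] [PerfectRing R p] in
/-- Additive form of `above`. -/
lemma above' {x : ℝ} (hx : xc ≤ x) (N : ℕ) {a : ℝ} (ha : ‖P N‖ = exp (-a)) :
    Y x ≤ a + x / (p : ℝ) ^ N := by
  have h := hL.above x hx N
  rw [ha, ← Real.exp_add, Real.exp_le_exp] at h
  linarith

omit [CharP R p] [PerfectRing R p] in
lemma strictMono {x y : ℝ} (hx : xc ≤ x) (hxy : x < y) : Y x < Y y := by
  obtain ⟨N, hN⟩ := hL.tight y (hx.trans hxy.le)
  have hPN : ‖P N‖ ≠ 0 := by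
    intro h0; rw [h0, zero_mul] at hN; exact (Real.exp_pos _).ne hN
  have hP : P N ≠ 0 := norm_ne_zero_iff.mp hPN
  have ha : ‖P N‖ = exp (-(-Real.log ‖P N‖)) := by
    rw [neg_neg, Real.exp_log (norm_pos_iff.mpr hP)]
  set a := -Real.log ‖P N‖ with hadef
  have h1 := hL.above' hx N ha
  rw [ha, ← Real.exp_add, Real.exp_eq_exp] at hN
  have hpos : (0 : ℝ) < (p : ℝ) ^ N := pow_pos p_pos_real _
  have h2 : x / (p : ℝ) ^ N < y / (p : ℝ) ^ N := div_lt_div_of_pos_right hxy hpos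
  linarith

omit [CharP R p] [PerfectRing R p] in
lemma mono {x y : ℝ} (hx : xc ≤ x) (hxy : x ≤ y) : Y x ≤ Y y := by
  rcases hxy.lt_or_eq with h | rfl
  · exact (hL.strictMono hx h).le
  · exact le_rfl

omit [CharP R p] [PerfectRing R p] in
lemma le_p_pow_mul {x : ℝ} (hx : xc ≤ x) (m : ℕ) : xc ≤ (p : ℝ) ^ m * x := by
  have h1 : (1 : ℝ) ≤ (p : ℝ) ^ m := one_le_p_pow (p := p) m
  have hx0 : 0 < x := lt_of_lt_of_le hL.xc_pos hx
  nlinarith

omit [CharP R p] [PerfectRing R p] in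
lemma scale_pow (a : ℕ) {x : ℝ} (hx : xc ≤ x) :
    Y ((p : ℝ) ^ ((k + r) * a) * x) = (p : ℝ) ^ (k * a) * Y x := by
  induction a with
  | zero => simp
  | succ a ih =>
    have h : (p : ℝ) ^ ((k + r) * (a + 1)) * x
        = (p : ℝ) ^ (k + r) * ((p : ℝ) ^ ((k + r) * a) * x) := by ring
    rw [h, hL.scale _ (hL.le_p_pow_mul hx _), ih]
    ring

omit [CharP R p] [PerfectRing R p] in
/-- Scaling by integer powers of `q`, between two points `≥ xc`. -/
lemma scale_zpow (b : ℤ) {x : ℝ} (hx : xc ≤ x) (hx' : xc ≤ (p : ℝ) ^ (((k + r : ℕ) : ℤ) * b) * x) :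
    Y ((p : ℝ) ^ (((k + r : ℕ) : ℤ) * b) * x) = (p : ℝ) ^ ((k : ℤ) * b) * Y x := by
  have hp : (0 : ℝ) < (p : ℝ) := p_pos_real
  obtain ⟨m, rfl | rfl⟩ := b.eq_nat_or_neg
  · have h1 : ((k + r : ℕ) : ℤ) * (m : ℤ) = (((k + r) * m : ℕ) : ℤ) := by push_cast; ring
    have h2 : (k : ℤ) * (m : ℤ) = ((k * m : ℕ) : ℤ) := by push_cast; ring
    rw [h1, h2, zpow_natCast, zpow_natCast]
    exact hL.scale_pow m hx
  · set x' := (p : ℝ) ^ (((k + r : ℕ) : ℤ) * (-(m : ℤ))) * x with hx'def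
    have hxx : x = (p : ℝ) ^ ((k + r) * m) * x' := by
      rw [hx'def, ← mul_assoc]
      have : (p : ℝ) ^ ((k + r) * m) * (p : ℝ) ^ (((k + r : ℕ) : ℤ) * (-(m : ℤ))) = 1 := by
        rw [← zpow_natCast, ← zpow_add₀ hp.ne']
        have : (((k + r) * m : ℕ) : ℤ) + ((k + r : ℕ) : ℤ) * (-(m : ℤ)) = 0 := by push_cast; ring
        rw [this, zpow_zero]
      rw [this, one_mul]
    have h3 := hL.scale_pow m hx'
    rw [← hxx] at h3
    rw [h3, ← mul_assoc]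
    have : (p : ℝ) ^ ((k : ℤ) * (-(m : ℤ))) * (p : ℝ) ^ (k * m) = 1 := by
      rw [← zpow_natCast, ← zpow_add₀ hp.ne']
      have : (k : ℤ) * (-(m : ℤ)) + ((k * m : ℕ) : ℤ) = 0 := by push_cast; ring
      rw [this, zpow_zero]
    rw [this, one_mul]

omit [CharP R p] [PerfectRing R p] in
/-- `Y` tends to infinity along `q ^ a * x`. -/
lemma tendsto_Y (hk : 1 ≤ k) {x : ℝ} (hx : xc ≤ x) :
    Tendsto (fun a : ℕ => Y ((p : ℝ) ^ ((k + r) * a) * x)) atTop atTop := by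
  have hY : 0 < Y x := hL.pos x hx
  have h1 : Tendsto (fun a : ℕ => ((p : ℝ) ^ k) ^ a) atTop atTop :=
    tendsto_pow_atTop_atTop_of_one_lt (one_lt_pow₀ (one_lt_p_real (p := p)) (by omega))
  have h2 : Tendsto (fun a : ℕ => ((p : ℝ) ^ k) ^ a * Y x) atTop atTop :=
    h1.atTop_mul_const hY
  refine h2.congr (fun a => ?_)
  rw [hL.scale_pow a hx, pow_mul]

omit [CharP R p] [PerfectRing R p] in
lemma tendsto_norm_P (hk : 1 ≤ k) : Tendsto (fun N => ‖P N‖) atTop (𝓝 0) := by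
  rw [Metric.tendsto_atTop]
  intro ε hε
  have hxc : xc ≤ xc := le_rfl
  have hε2 : 0 < ε / 2 := half_pos hε
  obtain ⟨a, ha⟩ :=
    ((hL.tendsto_Y hk hxc).eventually (eventually_ge_atTop (1 - Real.log (ε / 2)))).exists
  set x := (p : ℝ) ^ ((k + r) * a) * xc with hx
  have hxge : xc ≤ x := hL.le_p_pow_mul hxc _
  have hx0 : 0 < x := lt_of_lt_of_le hL.xc_pos hxge
  have h2 : Tendsto (fun N : ℕ => x / (p : ℝ) ^ N) atTop (𝓝 0) := by
    have := tendsto_pow_atTop_atTop_of_one_lt (one_lt_p_real (p := p))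
    exact Tendsto.div_atTop tendsto_const_nhds this
  obtain ⟨N0, hN0⟩ := eventually_atTop.mp (h2.eventually (gt_mem_nhds (zero_lt_one' ℝ)))
  refine ⟨N0, fun N hN => ?_⟩
  rw [Real.dist_eq, sub_zero, abs_of_nonneg (norm_nonneg _)]
  have h3 := hL.above x hxge N
  have h4 : x / (p : ℝ) ^ N < 1 := hN0 N hN
  have h5 : ‖P N‖ * exp (-1) ≤ exp (-Y x) := by
    refine le_trans ?_ h3
    exact mul_le_mul_of_nonneg_left (Real.exp_le_exp.mpr (by linarith)) (norm_nonneg _)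
  have h6 : exp (-Y x) ≤ (ε / 2) * exp (-1) := by
    calc exp (-Y x) ≤ exp (Real.log (ε / 2) + -1) := Real.exp_le_exp.mpr (by linarith)
      _ = (ε / 2) * exp (-1) := by rw [Real.exp_add, Real.exp_log hε2]
  have h7 : ‖P N‖ * exp (-1) ≤ (ε / 2) * exp (-1) := h5.trans h6
  have hpos : 0 < exp (-1 : ℝ) := Real.exp_pos _
  have h8 : ‖P N‖ ≤ ε / 2 := le_of_mul_le_mul_right h7 hpos
  linarith

end Lines

section XiLemmas

variable {p} [IsUltrametricDist R] {k r : ℕ} {P : ℕ → R} {Y : ℝ → ℝ} {xc : ℝ}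

lemma norm_fr_neg_natCast {y : R} {x : ℝ} (hy : ‖y‖ = exp (-x)) (N : ℕ) :
    ‖fr (R := R) p (-(N : ℤ)) y‖ = exp (-(x / (p : ℝ) ^ N)) := by
  rw [norm_fr_exp _ hy]
  congr 2
  rw [zpow_neg, zpow_natCast]
  field_simp

lemma norm_Xi_term {y : R} {x : ℝ} (hy : ‖y‖ = exp (-x)) (N : ℕ) :
    ‖P N * fr (R := R) p (-(N : ℤ)) y‖ = ‖P N‖ * exp (-(x / (p : ℝ) ^ N)) := by
  rw [norm_mul, norm_fr_neg_natCast hy]

/-- The terms of `Xi` tend to zero if `‖y‖ ≤ 1`. -/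
lemma tendsto_Xi_term (hP : Tendsto (fun N => ‖P N‖) atTop (𝓝 0)) {y : R} (hy : ‖y‖ ≤ 1) :
    Tendsto (fun N : ℕ => ‖P N * fr (R := R) p (-(N : ℤ)) y‖) atTop (𝓝 0) := by
  refine squeeze_zero (fun _ => norm_nonneg _) (fun N => ?_) hP
  rw [norm_mul]
  exact mul_le_of_le_one_right (norm_nonneg _) (norm_fr_le_one _ hy)

lemma summable_Xi [CompleteSpace R] (hP : Tendsto (fun N => ‖P N‖) atTop (𝓝 0)) {y : R}
    (hy : ‖y‖ ≤ 1) : Summable (fun N : ℕ => P N * fr (R := R) p (-(N : ℤ)) y) :=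
  summable_of_norm_tendsto (tendsto_Xi_term hP hy)

lemma norm_Xi_le (hL : Lines p k r P Y xc) {y : R} {x : ℝ} (hx : xc ≤ x) (hy : ‖y‖ = exp (-x)) :
    ‖Xi p P y‖ ≤ exp (-Y x) := by
  refine norm_tsum_le' (Real.exp_pos _).le (fun N => ?_)
  rw [norm_Xi_term hy]
  exact hL.above x hx N

/-- Frobenius commutes with `Xi`. -/
lemma fr_Xi [CompleteSpace R] (hP : Tendsto (fun N => ‖P N‖) atTop (𝓝 0)) {y : R}
    (hy : ‖y‖ ≤ 1) (e : ℤ) :
    fr (R := R) p e (Xi p P y) = ∑' N : ℕ, fr (R := R) p e (P N) * fr (R := R) p (e - N) y := by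
  have hs := summable_Xi (p := p) hP hy
  have := hs.map_tsum (fr (R := R) p e) (continuous_fr e)
  simp only [Xi]
  rw [this]
  refine tsum_congr (fun N => ?_)
  rw [map_mul, ← fr_add]
  congr 2

end XiLemmas

end Crest.Agent.Lib.LT.LemmaR
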