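import Crest.Agent.Lib.LT.LemmaRVal

/-! # S0351, Lemma R (2h): at a vertex of the hull at most `M` independent zeros of `Ξ`. -/

set_option linter.unusedSectionVars false

open Real Filter Topology Polynomial

namespace Crest.Agent.Lib.LT.LemmaR

section Card

variable {R : Type*} [NormedField R] (p : ℕ) [Fact p.Prime] [CharP R p] [PerfectRing R p]
  [IsUltrametricDist R] [CompleteSpace R]

omit [CharP R p] [PerfectRing R p] [CompleteSpace R] in
lemma norm_sub_le_of_le {a b : R} {B : ℝ} (ha : ‖a‖ ≤ B) (hb : ‖b‖ ≤ B) : ‖a - b‖ ≤ B := by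
  rw [sub_eq_add_neg]
  exact (IsUltrametricDist.norm_add_le_max a (-b)).trans (max_le ha (by simpa using hb))

omit [CharP R p] [PerfectRing R p] [CompleteSpace R] in
lemma norm_sub_lt_of_lt {a b : R} {B : ℝ} (ha : ‖a‖ < B) (hb : ‖b‖ < B) : ‖a - b‖ < B := by
  rw [sub_eq_add_neg]
  exact lt_of_le_of_lt (IsUltrametricDist.norm_add_le_max a (-b)) (max_lt ha (by simpa using hb))

omit [CharP R p] [PerfectRing R p] [CompleteSpace R] in
lemma norm_eq_of_norm_sub_lt {a b : R} (h : ‖a - b‖ < ‖a‖) : ‖b‖ = ‖a‖ := by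
  have h1 : b = a - (a - b) := by ring
  have h2 : ‖b‖ ≤ ‖a‖ := by
    rw [h1]
    exact norm_sub_le_of_le le_rfl h.le
  refine le_antisymm h2 ?_
  have h3 : a = b + (a - b) := by ring
  by_contra h4
  push Not at h4
  have h5 : ‖a‖ ≤ max ‖b‖ ‖a - b‖ := by
    conv_lhs => rw [h3]
    exact IsUltrametricDist.norm_add_le_max _ _
  rcases le_max_iff.mp h5 with h6 | h6 <;> linarith

variable {k r : ℕ} {P : ℕ → R} {Y : ℝ → ℝ} {xc : ℝ}

include p in
/-- Separation of the tight terms in `Ξ`. -/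
lemma tight_sum_lt (hP : Tendsto (fun N => ‖P N‖) atTop (𝓝 0)) {X : ℝ} (hL : Lines p k r P Y xc)
    (hXc : xc ≤ X) (Tg : Finset ℕ)
    (hTg : ∀ N, N ∈ Tg ↔ ‖P N‖ * exp (-(X / (p : ℝ) ^ N)) = exp (-Y X))
    {w : R} (hw : ‖w‖ = exp (-X)) (hsmall : ‖Xi p P w‖ < exp (-Y X)) :
    ‖∑ N ∈ Tg, P N * fr (R := R) p (-(N : ℤ)) w‖ < exp (-Y X) := by
  classical
  set f : ℕ → R := fun N => P N * fr (R := R) p (-(N : ℤ)) w with hf
  have hw1 : ‖w‖ ≤ 1 := by
    rw [hw]; refine Real.exp_le_one_iff.mpr ?_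
    have := hL.xc_pos; linarith
  have hs : Summable f := summable_Xi hP hw1
  set f' : ℕ → R := fun N => if N ∈ Tg then 0 else f N with hf'
  have hs1 : Summable (fun N => if N ∈ Tg then f N else 0) := by
    refine summable_of_hasFiniteSupport ((Tg.finite_toSet).subset ?_)
    intro N hN
    by_contra hn
    have hn' : N ∉ Tg := hn
    simp [hn'] at hN
  have hs2 : Summable f' := by
    have := hs.sub hs1
    refine this.congr (fun N => ?_)
    by_cases h : N ∈ Tg <;> simp [hf', h]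
  have hsplit : Xi p P w = ∑ N ∈ Tg, f N + ∑' N, f' N := by
    have h1 : ∑' N, (if N ∈ Tg then f N else 0) = ∑ N ∈ Tg, f N := by
      rw [tsum_eq_sum (s := Tg)]
      · exact Finset.sum_congr rfl (fun N hN => by simp [hN])
      · intro N hN; simp [hN]
    rw [← h1, ← hs1.tsum_add hs2]
    show ∑' N, f N = _
    refine tsum_congr (fun N => ?_)
    by_cases h : N ∈ Tg <;> simp [hf', h]
  have hBpos : 0 < exp (-Y X) := Real.exp_pos _
  have h2 : ‖∑' N, f' N‖ < exp (-Y X) := by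
    refine norm_tsum_lt ?_ hBpos ?_
    · refine squeeze_zero (fun _ => norm_nonneg _) (fun N => ?_) hP
      by_cases h : N ∈ Tg
      · simp [hf', h]
      · simp only [hf', h, if_false, hf, norm_mul]
        exact mul_le_of_le_one_right (norm_nonneg _) (norm_fr_le_one _ hw1)
    · intro N
      by_cases h : N ∈ Tg
      · simpa [hf', h] using hBpos
      · simp only [hf', h, if_false, hf]
        rw [norm_Xi_term hw]
        refine lt_of_le_of_ne (hL.above X hXc N) ?_
        intro heq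
        exact h ((hTg N).mpr heq)
  have h3 : ∑ N ∈ Tg, f N = Xi p P w - ∑' N, f' N := by rw [hsplit]; ring
  rw [h3]
  exact norm_sub_lt_of_lt hsmall h2

/-- **At most `M` independent zeros at a vertex of the hull.** -/
lemma card_group_le (hP : Tendsto (fun N => ‖P N‖) atTop (𝓝 0)) (hL : Lines p k r P Y xc)
    {ι : Type*} [DecidableEq ι] (z : ι → R) (V : ι → ℝ) (hz : ∀ i, ‖z i‖ = exp (-V i))
    (C : ℝ)
    (hT : ∀ (g : Finset ι) (e : ι → ℕ) (x : ℝ), xc ≤ x →
      (∀ i ∈ g, (p : ℝ) ^ ((k + r) * e i) * V i = x) →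
      ∀ n : ι → ℕ, (∃ i ∈ g, ¬ p ∣ n i) →
      ∃ w : R, ‖w‖ = exp (-x) ∧
        ‖w - ∑ i ∈ g, (n i : R) * z i ^ p ^ ((k + r) * e i)‖ < exp (-x) ∧
        ‖Xi p P w‖ ≤ exp (C - 2 * Y x))
    {X : ℝ} (hXc : xc ≤ X) (hCX : C < Y X) (Tg : Finset ℕ)
    (hTg : ∀ N, N ∈ Tg ↔ ‖P N‖ * exp (-(X / (p : ℝ) ^ N)) = exp (-Y X))
    {Np Nm : ℕ} (hNp : Np ∈ Tg) (hNm : Nm ∈ Tg) (hmax : ∀ N ∈ Tg, N ≤ Np) (hmin : ∀ N ∈ Tg, Nm ≤ N)
    (g : Finset ι) (e : ι → ℕ) (he : ∀ i ∈ g, (p : ℝ) ^ ((k + r) * e i) * V i = X)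
    {A : ι} (hA : A ∈ g) : g.card ≤ Np - Nm := by
  classical
  have hp : p.Prime := Fact.out
  haveI : CharP (Res R) p := charP_res p
  set n := k + r with hn
  set y : ι → R := fun i => z i ^ p ^ (n * e i) with hy
  have hynorm : ∀ i ∈ g, ‖y i‖ = exp (-X) := by
    intro i hi
    simp only [hy, norm_pow]
    rw [hz i, ← he i hi, ← Real.exp_nat_mul]
    congr 1
    push_cast
    ring
  set ω := y A with hω
  have hωnorm : ‖ω‖ = exp (-X) := hynorm A hA
  have hω0 : ω ≠ 0 := by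
    rw [← norm_ne_zero_iff, hωnorm]; exact (Real.exp_pos _).ne'
  have hBpos : 0 < exp (-Y X) := Real.exp_pos _
  set D := P Np * fr (R := R) p (-(Np : ℤ)) ω with hD
  have htermnorm : ∀ N, ‖P N * fr (R := R) p (-(N : ℤ)) ω‖ = ‖P N‖ * exp (-(X / (p : ℝ) ^ N)) :=
    fun N => norm_Xi_term hωnorm N
  have hDnorm : ‖D‖ = exp (-Y X) := by rw [hD, htermnorm]; exact (hTg Np).mp hNp
  have hD0 : D ≠ 0 := by rw [← norm_ne_zero_iff, hDnorm]; exact hBpos.ne'
  set c : ℕ → R := fun N => fr (R := R) p (Np : ℤ) (P N * fr (R := R) p (-(N : ℤ)) ω / D) with hc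
  have hcnorm : ∀ N ∈ Tg, ‖c N‖ = 1 := by
    intro N hN
    refine norm_fr_eq_one _ ?_
    rw [norm_div, htermnorm, hDnorm, (hTg N).mp hN, div_self hBpos.ne']
  set U : ι → Res R := fun i => rd (y i / ω) with hU
  have hunorm : ∀ i ∈ g, ‖y i / ω‖ = 1 := by
    intro i hi
    rw [norm_div, hynorm i hi, hωnorm, div_self (Real.exp_pos _).ne']
  set F : (Res R)[X] := ∑ N ∈ Tg, Polynomial.C (rd (c N)) * Polynomial.X ^ p ^ (Np - N) with hF
  -- the combination
  have hcomb : ∀ m : ι → ℕ, (∃ i ∈ g, ¬ p ∣ m i) →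
      (∑ i ∈ g, (m i : Res R) * U i ≠ 0) ∧ F.IsRoot (∑ i ∈ g, (m i : Res R) * U i) := by
    intro m hm
    obtain ⟨w, hw1, hw2, hw3⟩ := hT g e X hXc he m hm
    set s0 := ∑ i ∈ g, (m i : R) * y i with hs0
    have hs0norm : ‖s0‖ = exp (-X) := by
      have := norm_eq_of_norm_sub_lt (a := w) (b := s0) (by rw [hw1]; exact hw2)
      rw [this, hw1]
    set v := w / ω with hv
    have hvnorm : ‖v‖ = 1 := by
      rw [hv, norm_div, hw1, hωnorm, div_self (Real.exp_pos _).ne']
    have hs0d : s0 / ω = ∑ i ∈ g, (m i : R) * (y i / ω) := by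
      rw [hs0, Finset.sum_div]
      exact Finset.sum_congr rfl (fun i _ => by ring)
    have hs0dnorm : ‖s0 / ω‖ = 1 := by
      rw [norm_div, hs0norm, hωnorm, div_self (Real.exp_pos _).ne']
    have hrdsum : rd (s0 / ω) = ∑ i ∈ g, (m i : Res R) * U i := by
      rw [hs0d, rd_sum]
      · refine Finset.sum_congr rfl (fun i hi => ?_)
        exact rd_natCast_mul (hunorm i hi).le (m i)
      · intro i hi
        rw [norm_mul]
        exact mul_le_one₀ (norm_natCast_le_one _) (norm_nonneg _) (hunorm i hi).le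
    have hne : ∑ i ∈ g, (m i : Res R) * U i ≠ 0 := by
      rw [← hrdsum]
      intro h0
      have := (rd_eq_zero_iff hs0dnorm.le).mp h0
      rw [hs0dnorm] at this
      exact lt_irrefl _ this
    refine ⟨hne, ?_⟩
    have hvs : rd v = rd (s0 / ω) := by
      refine rd_eq_of_norm_sub_lt hvnorm.le hs0dnorm.le ?_
      have : v - s0 / ω = (w - s0) / ω := by rw [hv]; ring
      rw [this, norm_div, hωnorm, div_lt_one (Real.exp_pos _)]
      exact hw2
    rw [← hrdsum, ← hvs, Polynomial.IsRoot.def, hF, Polynomial.eval_finsetSum]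
    simp only [eval_mul, eval_C, eval_pow, eval_X]
    -- the sum in R
    have hmain : ‖∑ N ∈ Tg, c N * v ^ p ^ (Np - N)‖ < 1 := by
      have hsm : ‖Xi p P w‖ < exp (-Y X) :=
        lt_of_le_of_lt hw3 (Real.exp_lt_exp.mpr (by linarith))
      have h1 := tight_sum_lt p hP hL hXc Tg hTg hw1 hsm
      have h2 : ‖(∑ N ∈ Tg, P N * fr (R := R) p (-(N : ℤ)) w) / D‖ < 1 := by
        rw [norm_div, hDnorm, div_lt_one hBpos]; exact h1
      have h3 := norm_fr_lt_one (p := p) (Np : ℤ) h2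
      have h4 : fr (R := R) p (Np : ℤ) ((∑ N ∈ Tg, P N * fr (R := R) p (-(N : ℤ)) w) / D)
          = ∑ N ∈ Tg, c N * v ^ p ^ (Np - N) := by
        rw [Finset.sum_div, map_sum]
        refine Finset.sum_congr rfl (fun N hN => ?_)
        have hw' : w = ω * v := by rw [hv]; field_simp
        have : P N * fr (R := R) p (-(N : ℤ)) w / D
            = (P N * fr (R := R) p (-(N : ℤ)) ω / D) * fr (R := R) p (-(N : ℤ)) v := by
          rw [hw', map_mul]; ring
        rw [this, map_mul]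
        congr 1
        rw [← fr_add]
        have hle := hmax N hN
        have : (Np : ℤ) + -(N : ℤ) = ((Np - N : ℕ) : ℤ) := by omega
        rw [this, fr_natCast]
      rwa [h4] at h3
    have hrd0 := (rd_eq_zero_iff hmain.le).mpr hmain
    rw [rd_sum] at hrd0
    · rw [← hrd0]
      refine Finset.sum_congr rfl (fun N hN => ?_)
      have hc1 := (hcnorm N hN).le
      have hv1 : ‖v ^ p ^ (Np - N)‖ ≤ 1 := by rw [norm_pow, hvnorm, one_pow]
      rw [rd_mul hc1 hv1, rd_pow hvnorm.le]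
    · intro N hN
      rw [norm_mul, norm_pow, hvnorm, one_pow, mul_one]
      exact (hcnorm N hN).le
  -- nonvanishing of F
  have hcoeff : F.coeff (p ^ (Np - Nm)) = rd (c Nm) := by
    rw [hF, Polynomial.finsetSum_coeff]
    simp only [coeff_C_mul_X_pow]
    rw [Finset.sum_eq_single Nm]
    · simp
    · intro N hN hne
      rw [if_neg, ]
      intro heq
      have h1 := Nat.pow_right_injective hp.two_le heq
      have h2 := hmax N hN
      have h3 := hmax Nm hNm
      exact hne (by omega)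
    · intro h; exact absurd hNm h
  have hF0 : F ≠ 0 := by
    intro h0
    rw [h0, coeff_zero] at hcoeff
    have := (rd_eq_zero_iff (hcnorm Nm hNm).le).mp hcoeff.symm
    rw [hcnorm Nm hNm] at this
    exact lt_irrefl _ this
  have hdeg : F.natDegree ≤ p ^ (Np - Nm) := by
    refine Polynomial.natDegree_sum_le_of_forall_le _ _ (fun N hN => ?_)
    refine (natDegree_C_mul_X_pow_le _ _).trans ?_
    have := hmin N hN
    exact Nat.pow_le_pow_right hp.pos (by omega)
  have hroot0 : F.IsRoot 0 := by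
    rw [Polynomial.IsRoot.def, hF, Polynomial.eval_finsetSum]
    refine Finset.sum_eq_zero (fun N _ => ?_)
    simp only [eval_mul, eval_C, eval_pow, eval_X]
    rw [zero_pow (pow_ne_zero _ hp.ne_zero), mul_zero]
  exact card_le_of_roots p g U (fun m hm => (hcomb m hm).1) F hF0 _ hdeg
    (fun m hm => (hcomb m hm).2) hroot0

end Card

end Crest.Agent.Lib.LT.LemmaR
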