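import Crest.Agent.Lib.LT.LemmaRRes

/-! # S0351, Lemma R (2h): orthogonality of the characters `c ↦ c ^ (p ^ e)` on `𝔽_q^×`. -/

set_option linter.unusedSectionVars false

open Real Filter Topology

namespace Crest.Agent.Lib.LT.LemmaR

section Lagrange

variable {R : Type*} [NormedField R] (p : ℕ) [Fact p.Prime] [CharP R p] [PerfectRing R p]
variable {𝔽 : Type*} [Field 𝔽] [Fintype 𝔽] [DecidableEq 𝔽] {n : ℕ} (h𝔽 : Fintype.card 𝔽 = p ^ n) (φ : 𝔽 →+* R)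

include h𝔽

lemma fr_phi_self (c : 𝔽) : fr (R := R) p (n : ℤ) (φ c) = φ c := by
  rw [fr_natCast, ← map_pow, ← h𝔽, FiniteField.pow_card]

lemma fr_phi_neg_self (c : 𝔽) : fr (R := R) p (-(n : ℤ)) (φ c) = φ c := by
  conv_lhs => rw [← fr_phi_self p h𝔽 φ c]
  rw [fr_neg_cancel]

lemma fr_phi_mul (c : 𝔽) (w : ℤ) : fr (R := R) p ((n : ℤ) * w) (φ c) = φ c := by
  induction w using Int.induction_on with
  | zero => simp
  | succ i ih =>
    rw [mul_add, mul_one, fr_add, fr_phi_self p h𝔽, ih]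
  | pred i ih =>
    have : (n : ℤ) * (-(i : ℤ) - 1) = (n : ℤ) * (-(i : ℤ)) + -(n : ℤ) := by ring
    rw [this, fr_add, fr_phi_neg_self p h𝔽, ih]

lemma fr_phi (c : 𝔽) (m : ℤ) (hn : 0 < n) :
    fr (R := R) p m (φ c) = φ c ^ p ^ (m % (n : ℤ)).toNat := by
  have h0 : 0 ≤ m % (n : ℤ) := Int.emod_nonneg _ (by exact_mod_cast hn.ne')
  have h1 : m = m % (n : ℤ) + (n : ℤ) * (m / (n : ℤ)) := (Int.emod_add_mul_ediv m n).symm
  conv_lhs => rw [h1]
  rw [fr_add, fr_phi_mul p h𝔽]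
  conv_lhs => rw [← Int.toNat_of_nonneg h0]
  rw [fr_natCast]

lemma norm_phi_unit (hn : 0 < n) (c : 𝔽ˣ) : ‖φ (c : 𝔽)‖ = 1 := by
  have hp : p.Prime := Fact.out
  have hq : 1 < p ^ n := Nat.one_lt_pow hn.ne' hp.one_lt
  have h1 : (c : 𝔽) ^ (p ^ n - 1) = 1 := by
    rw [← h𝔽]; exact FiniteField.pow_card_sub_one_eq_one _ c.ne_zero
  have h2 : φ (c : 𝔽) ^ (p ^ n - 1) = 1 := by rw [← map_pow, h1, map_one]
  have h3 : ‖φ (c : 𝔽)‖ ^ (p ^ n - 1) = 1 := by rw [← norm_pow, h2, norm_one]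
  exact (pow_eq_one_iff_of_nonneg (norm_nonneg _) (by omega)).mp h3

lemma lagrange {e0 e : ℕ} (he0 : e0 < n) (he : e < n) :
    ∑ c : 𝔽ˣ, φ (c : 𝔽) ^ (p ^ n - 1 - p ^ e0) * φ (c : 𝔽) ^ p ^ e
      = if e = e0 then -1 else 0 := by
  classical
  have hp : p.Prime := Fact.out
  have hpn : ∀ e, e < n → p ^ e ≤ p ^ n - 1 := by
    intro e he
    have h1 : p ^ e * p ≤ p ^ n := by
      rw [← pow_succ]; exact Nat.pow_le_pow_right hp.pos he
    have h2 : 0 < p ^ e := pow_pos hp.pos _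
    have h3 := hp.two_le
    have : p ^ e * 2 ≤ p ^ e * p := Nat.mul_le_mul_left _ h3
    omega
  have h1 : ∀ c : 𝔽ˣ, φ (c : 𝔽) ^ (p ^ n - 1 - p ^ e0) * φ (c : 𝔽) ^ p ^ e
      = φ (((c : 𝔽)) ^ (p ^ n - 1 - p ^ e0 + p ^ e)) := by
    intro c; rw [map_pow, pow_add]
  simp only [h1]
  rw [← map_sum, FiniteField.sum_pow_units, h𝔽]
  have h2 : (p ^ n - 1 ∣ p ^ n - 1 - p ^ e0 + p ^ e) ↔ e = e0 := by
    have ha := hpn e0 he0
    have hb := hpn e he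
    have ha1 : 1 ≤ p ^ e0 := Nat.one_le_pow _ _ hp.pos
    have hb1 : 1 ≤ p ^ e := Nat.one_le_pow _ _ hp.pos
    constructor
    · intro hd
      by_contra hne
      have hne' : p ^ e ≠ p ^ e0 := fun h => hne (Nat.pow_right_injective hp.two_le h)
      have := Nat.eq_of_dvd_of_lt_two_mul (by omega) hd (by omega)
      omega
    · rintro rfl
      have : p ^ n - 1 - p ^ e + p ^ e = p ^ n - 1 := Nat.sub_add_cancel ha
      rw [this]
  by_cases h : e = e0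
  · rw [if_pos (h2.mpr h), if_pos h, map_neg, map_one]
  · rw [if_neg (fun hd => h (h2.mp hd)), if_neg h, map_zero]

/-- The Lagrange functional applied to `fr m ∘ φ`. -/
lemma lagrange_fr (hn : 0 < n) {e0 : ℕ} (he0 : e0 < n) (m : ℤ) :
    ∑ c : 𝔽ˣ, φ (c : 𝔽) ^ (p ^ n - 1 - p ^ e0) * fr (R := R) p m (φ (c : 𝔽))
      = if m % (n : ℤ) = (e0 : ℤ) then -1 else 0 := by
  have h0 : 0 ≤ m % (n : ℤ) := Int.emod_nonneg _ (by exact_mod_cast hn.ne')
  have h1 : m % (n : ℤ) < n := Int.emod_lt_of_pos _ (by exact_mod_cast hn)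
  have he : (m % (n : ℤ)).toNat < n := by omega
  simp only [fr_phi p h𝔽 φ _ m hn]
  rw [lagrange p h𝔽 φ he0 he]
  have : (m % (n : ℤ)).toNat = e0 ↔ m % (n : ℤ) = (e0 : ℤ) := by omega
  simp only [this]

end Lagrange

end Crest.Agent.Lib.LT.LemmaR
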