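import Crest.Agent.Lib.LT.LemmaRBase

/-! # S0351, Lemma R (2h): Moore lemma, root count and the residue field of a normed field. -/

set_option linter.unusedSectionVars false

open Real Filter Topology Polynomial

namespace Crest.Agent.Lib.LT.LemmaR

section FieldLemmas

variable {K : Type*} [Field K] (p : ℕ) [Fact p.Prime] [CharP K p]

lemma natCast_pow_p (a : ℕ) : ((a : K)) ^ p = a := by
  have := map_natCast (frobenius K p) a
  rwa [frobenius_def] at this

/-- The fixed points of Frobenius are the natural number casts. -/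
lemma exists_natCast_of_pow_eq {x : K} (hx : x ^ p = x) : ∃ a : ℕ, x = a := by
  classical
  have hp : p.Prime := Fact.out
  by_contra hno
  push Not at hno
  set S : Finset K := (Finset.range p).image (fun a : ℕ => (a : K)) with hS
  have hcard : S.card = p := by
    rw [hS, Finset.card_image_of_injOn, Finset.card_range]
    intro a ha b hb hab
    have := (CharP.natCast_eq_natCast K p).mp hab
    simp only [Finset.coe_range, Set.mem_Iio] at ha hb
    exact Nat.ModEq.eq_of_lt_of_lt this ha hb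
  have hxS : x ∉ S := by
    intro hx'
    obtain ⟨a, -, ha⟩ := Finset.mem_image.mp hx'
    exact hno a ha.symm
  set F : K[X] := X ^ p - X with hF
  have hF0 : F ≠ 0 := FiniteField.X_pow_card_sub_X_ne_zero K hp.one_lt
  have hFd : F.natDegree = p := FiniteField.X_pow_card_sub_X_natDegree_eq K hp.one_lt
  have hsub : (insert x S).val ⊆ F.roots := by
    intro y hy
    rw [Polynomial.mem_roots hF0, Polynomial.IsRoot.def]
    have hy' : y = x ∨ y ∈ S := by simpa using hy
    simp only [hF, eval_sub, eval_pow, eval_X]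
    rcases hy' with rfl | hy'
    · rw [hx, sub_self]
    · obtain ⟨a, -, rfl⟩ := Finset.mem_image.mp hy'
      rw [natCast_pow_p, sub_self]
  have := Polynomial.card_le_degree_of_subset_roots hsub
  rw [Finset.card_insert_of_notMem hxS, hcard, hFd] at this
  omega

/-- Moore's lemma in column form. -/
lemma moore {ι : Type*} [DecidableEq ι] : ∀ (m : ℕ) (g : Finset ι) (u c : ι → K), g.card ≤ m →
    (∀ n : ι → ℕ, (∃ i ∈ g, ¬ p ∣ n i) → ∑ i ∈ g, (n i : K) * u i ≠ 0) →
    (∀ s, 1 ≤ s → s ≤ m → ∑ i ∈ g, c i * u i ^ p ^ s = 0) → ∀ i ∈ g, c i = 0 := by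
  intro m
  induction m with
  | zero =>
    intro g u c hg _ _ i hi
    have : g = ∅ := Finset.card_eq_zero.mp (by omega)
    simp [this] at hi
  | succ m ih =>
    intro g u c hg hind hrel A hA
    by_contra hcA
    set c' : ι → K := fun i => c i / c A with hc'
    have hc'A : c' A = 1 := div_self hcA
    have hrel' : ∀ s, 1 ≤ s → s ≤ m + 1 → ∑ i ∈ g, c' i * u i ^ p ^ s = 0 := by
      intro s h1 h2
      have := hrel s h1 h2
      simp only [hc', div_mul_eq_mul_div, ← Finset.sum_div, this, zero_div]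
    set g' := g.erase A with hg'
    have hg'card : g'.card ≤ m := by
      rw [hg', Finset.card_erase_of_mem hA]; omega
    have hrest : ∀ (f : ι → K), f A = 0 → ∑ i ∈ g', f i = ∑ i ∈ g, f i := by
      intro f hf
      rw [← Finset.add_sum_erase g f hA, hf, zero_add]
    have hIH := ih g' (fun i => u i ^ p) (fun i => c' i - c' i ^ p) hg'card ?_ ?_
    · -- all coefficients are in the prime field
      have hfix : ∀ i ∈ g', ∃ a : ℕ, c' i = a := by
        intro i hi
        have := hIH i hi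
        exact exists_natCast_of_pow_eq p (sub_eq_zero.mp this).symm
      choose! a ha using hfix
      set a' : ι → ℕ := fun i => if i = A then 1 else a i with ha'
      have hc'a : ∀ i ∈ g, c' i = (a' i : K) := by
        intro i hi
        by_cases hiA : i = A
        · subst hiA; simp [ha', hc'A]
        · simp only [ha', hiA, if_false]
          exact ha i (Finset.mem_erase.mpr ⟨hiA, hi⟩)
      have h1 := hrel' 1 le_rfl (by omega)
      have h2 : (∑ i ∈ g, (a' i : K) * u i) ^ p = 0 := by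
        rw [sum_pow_char]
        rw [← h1]
        refine Finset.sum_congr rfl (fun i hi => ?_)
        rw [mul_pow, natCast_pow_p, hc'a i hi, pow_one]
      have h3 : ∑ i ∈ g, (a' i : K) * u i = 0 := pow_eq_zero_iff (Fact.out : p.Prime).ne_zero |>.mp h2
      refine hind a' ⟨A, hA, ?_⟩ h3
      simp [ha']
      exact (Nat.Prime.one_lt (Fact.out : p.Prime)).ne'
    · intro n hn h0
      obtain ⟨i, hi, hni⟩ := hn
      set n' : ι → ℕ := fun j => if j = A then 0 else n j with hn'
      have hiA : i ≠ A := (Finset.mem_erase.mp hi).1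
      have hi' : i ∈ g := (Finset.mem_erase.mp hi).2
      refine hind n' ⟨i, hi', by simpa [hn', hiA] using hni⟩ ?_
      have h1 : (∑ j ∈ g', (n j : K) * u j) ^ p = 0 := by
        rw [sum_pow_char, ← h0]
        refine Finset.sum_congr rfl (fun j _ => ?_)
        rw [mul_pow, natCast_pow_p]
      have h2 : ∑ j ∈ g', (n j : K) * u j = 0 :=
        pow_eq_zero_iff (Fact.out : p.Prime).ne_zero |>.mp h1
      rw [← hrest _ (by simp [hn'])]
      rw [← h2]
      refine Finset.sum_congr rfl (fun j hj => ?_)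
      have : j ≠ A := (Finset.mem_erase.mp hj).1
      simp [hn', this]
    · intro s h1 h2
      have hR1 := hrel' (s + 1) (by omega) (by omega)
      have hR0 := hrel' s h1 (by omega)
      have hR0p : ∑ i ∈ g, c' i ^ p * u i ^ p ^ (s + 1) = 0 := by
        have : (∑ i ∈ g, c' i * u i ^ p ^ s) ^ p = 0 := by
          rw [hR0, zero_pow (Fact.out : p.Prime).ne_zero]
        rw [sum_pow_char] at this
        rw [← this]
        refine Finset.sum_congr rfl (fun i _ => ?_)
        rw [mul_pow, ← pow_mul, pow_succ]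
      rw [hrest (fun i => (c' i - c' i ^ p) * (u i ^ p) ^ p ^ s) (by simp [hc'A])]
      have : ∀ i, (c' i - c' i ^ p) * (u i ^ p) ^ p ^ s
          = c' i * u i ^ p ^ (s + 1) - c' i ^ p * u i ^ p ^ (s + 1) := by
        intro i
        rw [← pow_mul, pow_succ, mul_comm (p ^ s) p]
        ring
      simp only [this]
      rw [Finset.sum_sub_distrib, hR1, hR0p, sub_zero]

/-- A nonzero polynomial of degree at most `p ^ M` vanishing on the `𝔽_p`-span of `g`-many
independent elements has `g.card ≤ M`. -/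
lemma card_le_of_roots {ι : Type*} [DecidableEq ι] (g : Finset ι) (u : ι → K)
    (hind : ∀ n : ι → ℕ, (∃ i ∈ g, ¬ p ∣ n i) → ∑ i ∈ g, (n i : K) * u i ≠ 0)
    (F : K[X]) (hF : F ≠ 0) (M : ℕ) (hdeg : F.natDegree ≤ p ^ M)
    (hroot : ∀ n : ι → ℕ, (∃ i ∈ g, ¬ p ∣ n i) → F.IsRoot (∑ i ∈ g, (n i : K) * u i))
    (h0 : F.IsRoot 0) : g.card ≤ M := by
  classical
  have hp : p.Prime := Fact.out
  -- the combinations, indexed by functions from `g` to `Fin p`
  let Φ : (g → Fin p) → K := fun n => ∑ i : g, ((n i : ℕ) : K) * u i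
  have hsum : ∀ (f : ι → K), ∑ i : g, f i = ∑ i ∈ g, f i := fun f => Finset.sum_coe_sort g f
  have ext' : ∀ n : g → Fin p, ∃ n' : ι → ℕ, (∀ i : g, n' i = n i) ∧ ∀ i, i ∉ g → n' i = 0 := by
    intro n
    refine ⟨fun i => if h : i ∈ g then n ⟨i, h⟩ else 0, fun i => ?_, fun i hi => ?_⟩
    · simp
    · simp [hi]
  have hΦ : ∀ n : g → Fin p, ∀ n' : ι → ℕ, (∀ i : g, n' i = n i) →
      Φ n = ∑ i ∈ g, (n' i : K) * u i := by
    intro n n' h
    rw [← hsum]
    refine Finset.sum_congr rfl (fun i _ => ?_)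
    rw [h i]
  have hinj : Function.Injective Φ := by
    intro n₁ n₂ h
    by_contra hne
    obtain ⟨i0, hi0⟩ := Function.ne_iff.mp hne
    obtain ⟨m₁, hm₁, -⟩ := ext' n₁
    obtain ⟨m₂, hm₂, -⟩ := ext' n₂
    -- difference
    set d : ι → ℕ := fun i => m₁ i + (p - 1) * m₂ i with hd
    have hsumd : ∑ i ∈ g, (d i : K) * u i = 0 := by
      have : ∑ i ∈ g, (d i : K) * u i
          = ∑ i ∈ g, (m₁ i : K) * u i + ((p - 1 : ℕ) : K) * ∑ i ∈ g, (m₂ i : K) * u i := by
        rw [Finset.mul_sum, ← Finset.sum_add_distrib]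
        refine Finset.sum_congr rfl (fun i _ => ?_)
        simp only [hd]; push_cast; ring
      rw [this, ← hΦ n₁ m₁ hm₁, ← hΦ n₂ m₂ hm₂, ← h]
      have hp1 : ((p - 1 : ℕ) : K) = -1 := by
        have : ((p - 1 : ℕ) : K) + 1 = 0 := by
          have h2 : p - 1 + 1 = p := Nat.sub_add_cancel hp.one_lt.le
          exact_mod_cast (by rw [h2]; exact CharP.cast_eq_zero K p : ((p - 1 + 1 : ℕ) : K) = 0)
        exact eq_neg_of_add_eq_zero_left this
      rw [hp1]; ring
    refine hind d ⟨i0, i0.2, ?_⟩ hsumd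
    intro hdvd
    have h3 : (m₁ i0 + (p - 1) * m₂ i0) % p = 0 := Nat.mod_eq_zero_of_dvd hdvd
    rw [hm₁ i0, hm₂ i0] at h3
    have hlt1 := (n₁ i0).2
    have hlt2 := (n₂ i0).2
    have hi0' : ((n₁ i0 : Fin p) : ℕ) ≠ (n₂ i0 : Fin p) := fun h => hi0 (Fin.ext h)
    -- modular arithmetic: a + (p-1) b ≡ a - b
    have h4 : (n₁ i0 : ℕ) ≡ (n₂ i0 : ℕ) [MOD p] := by
      have h5 : (n₁ i0 : ℕ) + (p - 1) * (n₂ i0 : ℕ) + (n₂ i0 : ℕ)
          = (n₁ i0 : ℕ) + p * (n₂ i0 : ℕ) := by
        generalize (n₁ i0 : ℕ) = a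
        generalize (n₂ i0 : ℕ) = b
        have : (p - 1) * b + b = p * b := by
          calc (p - 1) * b + b = (p - 1 + 1) * b := by ring
            _ = p * b := by rw [Nat.sub_add_cancel hp.one_lt.le]
        omega
      have h6 : ((n₁ i0 : ℕ) + (p - 1) * (n₂ i0 : ℕ) + (n₂ i0 : ℕ)) % p = (n₂ i0 : ℕ) % p := by
        rw [Nat.add_mod, h3]; simp
      rw [h5] at h6
      simpa [Nat.ModEq, Nat.add_mul_mod_self_left] using h6
    exact hi0' (Nat.ModEq.eq_of_lt_of_lt h4 hlt1 hlt2)
  have hrootΦ : ∀ n : g → Fin p, F.IsRoot (Φ n) := by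
    intro n
    obtain ⟨m, hm, -⟩ := ext' n
    rw [hΦ n m hm]
    by_cases hall : ∃ i ∈ g, ¬ p ∣ m i
    · exact hroot m hall
    · push Not at hall
      have : ∑ i ∈ g, (m i : K) * u i = 0 := by
        refine Finset.sum_eq_zero (fun i hi => ?_)
        rw [(CharP.cast_eq_zero_iff K p (m i)).mpr (hall i hi), zero_mul]
      rw [this]; exact h0
  have hcard : (Finset.univ.image Φ).card = p ^ g.card := by
    rw [Finset.card_image_of_injective _ hinj, Finset.card_univ]
    simp
  have hsub : (Finset.univ.image Φ).val ⊆ F.roots := by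
    intro y hy
    rw [Polynomial.mem_roots hF]
    have hy' : y ∈ Finset.univ.image Φ := hy
    obtain ⟨n, -, rfl⟩ := Finset.mem_image.mp hy'
    exact hrootΦ n
  have h5 := Polynomial.card_le_degree_of_subset_roots hsub
  rw [hcard] at h5
  have h6 : p ^ g.card ≤ p ^ M := h5.trans hdeg
  exact (Nat.pow_le_pow_iff_right hp.one_lt).mp h6

end FieldLemmas

section Residue

variable {R : Type*} [NormedField R] [IsUltrametricDist R]

/-- The closed unit ball as a subring. -/
def Oo : Subring R where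
  carrier := {x | ‖x‖ ≤ 1}
  mul_mem' := by
    intro a b ha hb
    simp only [Set.mem_ofPred_eq, norm_mul] at *
    exact mul_le_one₀ ha (norm_nonneg _) hb
  one_mem' := by simp
  add_mem' := by
    intro a b ha hb
    simp only [Set.mem_ofPred_eq] at *
    exact (IsUltrametricDist.norm_add_le_max a b).trans (max_le ha hb)
  zero_mem' := by simp
  neg_mem' := by simp

/-- The open unit ball as an ideal. -/
def mm : Ideal (Oo (R := R)) where
  carrier := {x | ‖(x : R)‖ < 1}
  add_mem' := by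
    intro a b ha hb
    simp only [Set.mem_ofPred_eq] at *
    exact lt_of_le_of_lt (IsUltrametricDist.norm_add_le_max (a : R) b) (max_lt ha hb)
  zero_mem' := by simp
  smul_mem' := by
    intro c x hx
    simp only [Set.mem_ofPred_eq, smul_eq_mul, Subring.coe_mul, norm_mul] at *
    exact lt_of_le_of_lt (mul_le_of_le_one_left (norm_nonneg _) c.2) hx

instance mm_isMaximal : (mm (R := R)).IsMaximal := by
  rw [Ideal.isMaximal_iff]
  refine ⟨by simp [mm], ?_⟩
  intro J x hJ hx hxJ
  have hx1 : ‖(x : R)‖ ≤ 1 := x.2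
  have hx2 : ¬ ‖(x : R)‖ < 1 := hx
  have hx3 : ‖(x : R)‖ = 1 := le_antisymm hx1 (not_lt.mp hx2)
  have hx0 : (x : R) ≠ 0 := by
    intro h; rw [h, norm_zero] at hx3; exact zero_ne_one hx3
  have hinv : ‖(x : R)⁻¹‖ ≤ 1 := by rw [norm_inv, hx3, inv_one]
  have : (⟨(x : R)⁻¹, hinv⟩ : Oo (R := R)) * x = 1 := by
    apply Subtype.ext
    simp [hx0]
  rw [← this]
  exact J.mul_mem_left _ hxJ

/-- The residue field. -/
abbrev Res (R : Type*) [NormedField R] [IsUltrametricDist R] : Type _ := (Oo (R := R)) ⧸ (mm (R := R))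

noncomputable instance : Field (Res R) := Ideal.Quotient.field _

open Classical in
/-- Total residue map. -/
noncomputable def rd (x : R) : Res R :=
  if h : ‖x‖ ≤ 1 then Ideal.Quotient.mk (mm (R := R)) ⟨x, h⟩ else 0

lemma rd_of {x : R} (h : ‖x‖ ≤ 1) : rd x = Ideal.Quotient.mk (mm (R := R)) ⟨x, h⟩ := by
  simp [rd, h]

lemma rd_add {x y : R} (hx : ‖x‖ ≤ 1) (hy : ‖y‖ ≤ 1) : rd (x + y) = rd x + rd y := by
  have h : ‖x + y‖ ≤ 1 := (IsUltrametricDist.norm_add_le_max x y).trans (max_le hx hy)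
  rw [rd_of h, rd_of hx, rd_of hy, ← map_add]; rfl

lemma rd_mul {x y : R} (hx : ‖x‖ ≤ 1) (hy : ‖y‖ ≤ 1) : rd (x * y) = rd x * rd y := by
  have h : ‖x * y‖ ≤ 1 := by rw [norm_mul]; exact mul_le_one₀ hx (norm_nonneg _) hy
  rw [rd_of h, rd_of hx, rd_of hy, ← map_mul]; rfl

lemma rd_zero : rd (0 : R) = 0 := by
  rw [rd_of (by simp)]
  exact Ideal.Quotient.eq_zero_iff_mem.mpr (by simp [mm])

lemma rd_one : rd (1 : R) = 1 := by
  rw [rd_of (by simp)]
  exact map_one _

lemma rd_eq_zero_iff {x : R} (hx : ‖x‖ ≤ 1) : rd x = 0 ↔ ‖x‖ < 1 := by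
  rw [rd_of hx, Ideal.Quotient.eq_zero_iff_mem]; rfl

lemma rd_pow {x : R} (hx : ‖x‖ ≤ 1) (n : ℕ) : rd (x ^ n) = rd x ^ n := by
  induction n with
  | zero => simp [rd_one]
  | succ n ih =>
    have h : ‖x ^ n‖ ≤ 1 := by rw [norm_pow]; exact pow_le_one₀ (norm_nonneg _) hx
    rw [pow_succ, rd_mul h hx, ih, pow_succ]

lemma norm_natCast_le_one (n : ℕ) : ‖(n : R)‖ ≤ 1 := by
  simpa using IsUltrametricDist.norm_natCast_le_one R n

lemma rd_natCast_mul {x : R} (hx : ‖x‖ ≤ 1) (n : ℕ) : rd ((n : R) * x) = (n : Res R) * rd x := by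
  rw [rd_mul (norm_natCast_le_one n) hx]
  congr 1
  rw [rd_of (norm_natCast_le_one n)]
  have : (⟨(n : R), norm_natCast_le_one n⟩ : Oo (R := R)) = (n : Oo (R := R)) := by
    apply Subtype.ext; simp
  rw [this, map_natCast]

lemma rd_sum {ι : Type*} (s : Finset ι) (f : ι → R) (h : ∀ i ∈ s, ‖f i‖ ≤ 1) :
    rd (∑ i ∈ s, f i) = ∑ i ∈ s, rd (f i) := by
  classical
  induction s using Finset.induction_on with
  | empty => simp [rd_zero]
  | insert a s ha ih =>
    rw [Finset.sum_insert ha, Finset.sum_insert ha]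
    have h1 : ‖f a‖ ≤ 1 := h a (Finset.mem_insert_self _ _)
    have h2 : ∀ i ∈ s, ‖f i‖ ≤ 1 := fun i hi => h i (Finset.mem_insert_of_mem hi)
    have h3 : ‖∑ i ∈ s, f i‖ ≤ 1 := norm_sum_le' zero_le_one h2
    rw [rd_add h1 h3, ih h2]

lemma rd_eq_of_norm_sub_lt {x y : R} (hx : ‖x‖ ≤ 1) (hy : ‖y‖ ≤ 1) (h : ‖x - y‖ < 1) :
    rd x = rd y := by
  have hneg : ‖-y‖ ≤ 1 := by simpa using hy
  have h1 : rd (x - y) = 0 := (rd_eq_zero_iff (by
    rw [sub_eq_add_neg]; exact (IsUltrametricDist.norm_add_le_max x (-y)).trans (max_le hx hneg))).mpr h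
  have h2 : x = (x - y) + y := by ring
  have h3 : ‖x - y‖ ≤ 1 := h.le
  rw [h2, rd_add h3 hy, h1, zero_add]

lemma charP_res (p : ℕ) [Fact p.Prime] [CharP R p] : CharP (Res R) p := by
  have hp : p.Prime := Fact.out
  rw [CharP.charP_iff_prime_eq_zero hp]
  have : (p : Oo (R := R)) = 0 := by
    apply Subtype.ext
    simp
  have h2 : (p : Res R) = Ideal.Quotient.mk (mm (R := R)) (p : Oo (R := R)) := (map_natCast _ p).symm
  rw [h2, this, map_zero]

end Residue

end Crest.Agent.Lib.LT.LemmaR
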