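import Crest.Agent.Lib.LT.LemmaRCard

/-! # S0351, Lemma R (2h): the Lagrange row identity, the Moore contradiction. -/

set_option linter.unusedSectionVars false

open Real Filter Topology

namespace Crest.Agent.Lib.LT.LemmaR

section Row

variable {R : Type*} [NormedField R] (p : ℕ) [Fact p.Prime] [CharP R p] [PerfectRing R p]
  [IsUltrametricDist R] [CompleteSpace R]

/-- The terms produced by the row extraction. -/
noncomputable def termA (P : ℕ → R) (L j : ℕ) (w : R) (N : ℕ) : R :=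
  fr (R := R) p (L : ℤ) (P N) * fr (R := R) p ((L : ℤ) - N + j) w

omit [CompleteSpace R] in
lemma norm_termA_le (P : ℕ → R) (L j : ℕ) {w : R} (hw : ‖w‖ ≤ 1) (N : ℕ) :
    ‖termA p P L j w N‖ ≤ ‖P N‖ ^ p ^ L := by
  rw [termA, norm_mul, fr_natCast, norm_pow]
  exact mul_le_of_le_one_right (pow_nonneg (norm_nonneg _) _) (norm_fr_le_one _ hw)

omit [CompleteSpace R] in
lemma tendsto_termA {P : ℕ → R} (hP : Tendsto (fun N => ‖P N‖) atTop (𝓝 0)) (L j : ℕ) {w : R}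
    (hw : ‖w‖ ≤ 1) : Tendsto (fun N => ‖termA p P L j w N‖) atTop (𝓝 0) := by
  have hp : p.Prime := Fact.out
  have h1 : Tendsto (fun N => ‖P N‖ ^ p ^ L) atTop (𝓝 0) := by
    have := hP.pow (p ^ L)
    rwa [zero_pow (pow_ne_zero _ hp.ne_zero)] at this
  exact squeeze_zero (fun _ => norm_nonneg _) (norm_termA_le p P L j hw) h1

omit [CharP R p] [PerfectRing R p] [CompleteSpace R] in
lemma tendsto_ite_norm {f : ℕ → R} (h0 : Tendsto (fun N => ‖f N‖) atTop (𝓝 0)) (Q : ℕ → Prop)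
    [DecidablePred Q] : Tendsto (fun N => ‖if Q N then f N else 0‖) atTop (𝓝 0) := by
  refine squeeze_zero (fun _ => norm_nonneg _) (fun N => ?_) h0
  by_cases h : Q N <;> simp [h]

omit [CharP R p] [PerfectRing R p] in
lemma norm_tsum_sub_lt {f : ℕ → R} (h0 : Tendsto (fun N => ‖f N‖) atTop (𝓝 0)) {B : ℝ} (hB : 0 < B)
    {N0 : ℕ} (h : ∀ N, N ≠ N0 → ‖f N‖ < B) : ‖∑' N, f N - f N0‖ < B := by
  have hs : Summable f := summable_of_norm_tendsto h0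
  rw [hs.tsum_eq_add_tsum_ite N0, add_sub_cancel_left]
  refine norm_tsum_lt ?_ hB ?_
  · refine squeeze_zero (fun _ => norm_nonneg _) (fun N => ?_) h0
    by_cases h' : N = N0 <;> simp [h']
  · intro N
    by_cases h' : N = N0
    · simpa [h'] using hB
    · simpa [h'] using h N h'

variable {𝔽 : Type*} [Field 𝔽] [Fintype 𝔽] [DecidableEq 𝔽] {n : ℕ}

/-- Lagrange extraction, one index. -/
lemma extract_one (h𝔽 : Fintype.card 𝔽 = p ^ n) (φ : 𝔽 →+* R) {P : ℕ → R}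
    (hP : Tendsto (fun N => ‖P N‖) atTop (𝓝 0)) (hn : 0 < n) {e0 : ℕ} (he0 : e0 < n) {w : R}
    (hw : ‖w‖ ≤ 1) (L j : ℕ) :
    ∑ c : 𝔽ˣ, φ (c : 𝔽) ^ (p ^ n - 1 - p ^ e0) *
        fr (R := R) p (L : ℤ) (Xi p P (φ (c : 𝔽) * w ^ p ^ j))
      = - ∑' N : ℕ, if ((L : ℤ) - N) % (n : ℤ) = (e0 : ℤ) then termA p P L j w N else 0 := by
  classical
  have hphi : ∀ c : 𝔽ˣ, ‖φ (c : 𝔽)‖ = 1 := norm_phi_unit p h𝔽 φ hn
  have hpow : ∀ (c : 𝔽ˣ), ‖φ (c : 𝔽) * w ^ p ^ j‖ ≤ 1 := by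
    intro c
    rw [norm_mul, hphi, one_mul, norm_pow]
    exact pow_le_one₀ (norm_nonneg _) hw
  have hterm : ∀ (c : 𝔽ˣ) (N : ℕ), fr (R := R) p (L : ℤ) (P N) *
      fr (R := R) p ((L : ℤ) - N) (φ (c : 𝔽) * w ^ p ^ j)
      = fr (R := R) p ((L : ℤ) - N) (φ (c : 𝔽)) * termA p P L j w N := by
    intro c N
    rw [map_mul, ← fr_natCast (p := p) j w, ← fr_add, termA]
    ring
  have hsum : ∀ c : 𝔽ˣ, Summable (fun N : ℕ => φ (c : 𝔽) ^ (p ^ n - 1 - p ^ e0) *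
      (fr (R := R) p ((L : ℤ) - N) (φ (c : 𝔽)) * termA p P L j w N)) := by
    intro c
    refine summable_of_norm_tendsto ?_
    refine squeeze_zero (fun _ => norm_nonneg _) (fun N => ?_) (tendsto_termA p hP L j hw)
    rw [norm_mul, norm_mul, norm_pow, hphi, one_pow, one_mul, norm_fr_eq_one _ (hphi c), one_mul]
  calc ∑ c : 𝔽ˣ, φ (c : 𝔽) ^ (p ^ n - 1 - p ^ e0) *
        fr (R := R) p (L : ℤ) (Xi p P (φ (c : 𝔽) * w ^ p ^ j))
      = ∑ c : 𝔽ˣ, ∑' N : ℕ, φ (c : 𝔽) ^ (p ^ n - 1 - p ^ e0) *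
          (fr (R := R) p ((L : ℤ) - N) (φ (c : 𝔽)) * termA p P L j w N) := by
        refine Finset.sum_congr rfl (fun c _ => ?_)
        rw [fr_Xi hP (hpow c), ← tsum_mul_left]
        refine tsum_congr (fun N => ?_)
        rw [hterm]
    _ = ∑' N : ℕ, ∑ c : 𝔽ˣ, φ (c : 𝔽) ^ (p ^ n - 1 - p ^ e0) *
          (fr (R := R) p ((L : ℤ) - N) (φ (c : 𝔽)) * termA p P L j w N) :=
        (Summable.tsum_finsetSum (fun c _ => hsum c)).symm
    _ = ∑' N : ℕ, - (if ((L : ℤ) - N) % (n : ℤ) = (e0 : ℤ) then termA p P L j w N else 0) := by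
        refine tsum_congr (fun N => ?_)
        have h1 := lagrange_fr p h𝔽 φ hn he0 ((L : ℤ) - N)
        have h2 : ∑ c : 𝔽ˣ, φ (c : 𝔽) ^ (p ^ n - 1 - p ^ e0) *
            (fr (R := R) p ((L : ℤ) - N) (φ (c : 𝔽)) * termA p P L j w N)
            = (∑ c : 𝔽ˣ, φ (c : 𝔽) ^ (p ^ n - 1 - p ^ e0) *
                fr (R := R) p ((L : ℤ) - N) (φ (c : 𝔽))) * termA p P L j w N := by
          rw [Finset.sum_mul]
          exact Finset.sum_congr rfl (fun c _ => by ring)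
        rw [h2, h1]
        split_ifs <;> simp
    _ = _ := tsum_neg

/-- The row identity. -/
lemma row_identity (h𝔽 : Fintype.card 𝔽 = p ^ n) (φ : 𝔽 →+* R) {P : ℕ → R}
    (hP : Tendsto (fun N => ‖P N‖) atTop (𝓝 0)) (hn : 0 < n) {e0 : ℕ} (he0 : e0 < n)
    {ι : Type*} (S : Finset ι) (κ : ι → R) (l : ι → ℕ) (z : ι → R) (hz : ∀ i ∈ S, ‖z i‖ ≤ 1)
    (j : ℕ) (ell : ι → 𝔽 → R) :
    ∑ c : 𝔽ˣ, φ (c : 𝔽) ^ (p ^ n - 1 - p ^ e0) * ∑ i ∈ S, κ i * ell i (c : 𝔽) ^ p ^ l i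
      = - ∑ i ∈ S, κ i *
            (∑' N : ℕ, if ((l i : ℤ) - N) % (n : ℤ) = (e0 : ℤ) then termA p P (l i) j (z i) N else 0)
        + ∑ c : 𝔽ˣ, φ (c : 𝔽) ^ (p ^ n - 1 - p ^ e0) * ∑ i ∈ S, κ i *
            fr (R := R) p (l i : ℤ) (ell i (c : 𝔽) - Xi p P (φ (c : 𝔽) * z i ^ p ^ j)) := by
  have h1 : ∀ (c : 𝔽ˣ) (i : ι), κ i * ell i (c : 𝔽) ^ p ^ l i
      = κ i * fr (R := R) p (l i : ℤ) (Xi p P (φ (c : 𝔽) * z i ^ p ^ j)) + κ i *
        fr (R := R) p (l i : ℤ) (ell i (c : 𝔽) - Xi p P (φ (c : 𝔽) * z i ^ p ^ j)) := by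
    intro c i
    rw [← mul_add, ← map_add, add_sub_cancel, fr_natCast]
  simp only [h1, Finset.sum_add_distrib, mul_add]
  congr 1
  simp only [Finset.mul_sum]
  rw [Finset.sum_comm, ← Finset.sum_neg_distrib]
  refine Finset.sum_congr rfl (fun i hi => ?_)
  rw [← mul_neg, ← extract_one p h𝔽 φ hP hn he0 (hz i hi) (l i) j, Finset.mul_sum]
  refine Finset.sum_congr rfl (fun c _ => ?_)
  ring

/-- The row bound, abstract form. -/
lemma row_core (h𝔽 : Fintype.card 𝔽 = p ^ n) (φ : 𝔽 →+* R) {P : ℕ → R}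
    (hP : Tendsto (fun N => ‖P N‖) atTop (𝓝 0)) (hn : 0 < n) {e0 : ℕ} (he0 : e0 < n)
    {ι : Type*} [DecidableEq ι] (S g : Finset ι) (hg : g ⊆ S) (κ : ι → R) (hκ : ∀ i ∈ S, ‖κ i‖ = 1)
    (l : ι → ℕ) (z : ι → R) (hz : ∀ i ∈ S, ‖z i‖ ≤ 1)
    (j : ℕ) (ell : ι → 𝔽 → R) (Ni : ι → ℕ)
    (hcls : ∀ i ∈ g, ((l i : ℤ) - Ni i) % (n : ℤ) = (e0 : ℤ))
    {B : ℝ} (hB : 0 < B)
    (hrest : ∀ i ∈ S, ∀ N : ℕ, ((l i : ℤ) - N) % (n : ℤ) = (e0 : ℤ) → (i ∈ g → N ≠ Ni i) →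
      ‖termA p P (l i) j (z i) N‖ < B)
    (hD : ∀ c : 𝔽ˣ, ‖∑ i ∈ S, κ i * ell i (c : 𝔽) ^ p ^ l i‖ < B)
    (hE1 : ∀ c : 𝔽ˣ, ∀ i ∈ S,
      ‖fr (R := R) p (l i : ℤ) (ell i (c : 𝔽) - Xi p P (φ (c : 𝔽) * z i ^ p ^ j))‖ < B) :
    ‖∑ i ∈ g, κ i * termA p P (l i) j (z i) (Ni i)‖ < B := by
  classical
  have hphi : ∀ c : 𝔽ˣ, ‖φ (c : 𝔽) ^ (p ^ n - 1 - p ^ e0)‖ = 1 := by
    intro c
    rw [norm_pow, norm_phi_unit p h𝔽 φ hn, one_pow]
  set F : ι → ℕ → R := fun i N =>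
    if ((l i : ℤ) - N) % (n : ℤ) = (e0 : ℤ) then termA p P (l i) j (z i) N else 0 with hF
  set ρ : ι → R := fun i => ∑' N, F i N - (if i ∈ g then termA p P (l i) j (z i) (Ni i) else 0)
    with hρ
  have hρnorm : ∀ i ∈ S, ‖ρ i‖ < B := by
    intro i hi
    have hlim : Tendsto (fun N => ‖F i N‖) atTop (𝓝 0) :=
      tendsto_ite_norm (tendsto_termA p hP (l i) j (hz i hi)) _
    by_cases hig : i ∈ g
    · have h1 : F i (Ni i) = termA p P (l i) j (z i) (Ni i) := by simp only [hF, hcls i hig, if_true]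
      simp only [hρ, hig, if_true]
      rw [← h1]
      refine norm_tsum_sub_lt hlim hB (fun N hN => ?_)
      by_cases hc : ((l i : ℤ) - N) % (n : ℤ) = (e0 : ℤ)
      · simp only [hF, hc, if_true]
        exact hrest i hi N hc (fun _ => hN)
      · simpa [hF, hc] using hB
    · simp only [hρ, hig, if_false, sub_zero]
      refine norm_tsum_lt hlim hB (fun N => ?_)
      by_cases hc : ((l i : ℤ) - N) % (n : ℤ) = (e0 : ℤ)
      · simp only [hF, hc, if_true]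
        exact hrest i hi N hc (fun h => absurd h hig)
      · simpa [hF, hc] using hB
  have hid := row_identity p h𝔽 φ hP hn he0 S κ l z hz j ell
  have hgS : ∑ i ∈ g, κ i * termA p P (l i) j (z i) (Ni i)
      = ∑ i ∈ S, κ i * (if i ∈ g then termA p P (l i) j (z i) (Ni i) else 0) := by
    rw [← Finset.sum_subset hg]
    · exact Finset.sum_congr rfl (fun i hi => by simp [hi])
    · intro i _ hi; simp [hi]
  set D := ∑ c : 𝔽ˣ, φ (c : 𝔽) ^ (p ^ n - 1 - p ^ e0) * ∑ i ∈ S, κ i * ell i (c : 𝔽) ^ p ^ l i with hDdef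
  set E1 := ∑ c : 𝔽ˣ, φ (c : 𝔽) ^ (p ^ n - 1 - p ^ e0) * ∑ i ∈ S, κ i *
            fr (R := R) p (l i : ℤ) (ell i (c : 𝔽) - Xi p P (φ (c : 𝔽) * z i ^ p ^ j)) with hE1def
  have hDn : ‖D‖ < B := by
    refine norm_sum_lt hB (fun c _ => ?_)
    rw [norm_mul, hphi, one_mul]
    exact hD c
  have hEn : ‖E1‖ < B := by
    refine norm_sum_lt hB (fun c _ => ?_)
    rw [norm_mul, hphi, one_mul]
    refine norm_sum_lt hB (fun i hi => ?_)
    rw [norm_mul, hκ i hi, one_mul]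
    exact hE1 c i hi
  have hρsum : ‖∑ i ∈ S, κ i * ρ i‖ < B := by
    refine norm_sum_lt hB (fun i hi => ?_)
    rw [norm_mul, hκ i hi, one_mul]
    exact hρnorm i hi
  have hfinal : ∑ i ∈ g, κ i * termA p P (l i) j (z i) (Ni i) = (E1 - D) - ∑ i ∈ S, κ i * ρ i := by
    rw [hgS]
    have h2 : ∑ i ∈ S, κ i * (∑' N, F i N) = E1 - D := by
      rw [hid]; ring
    rw [← h2, ← Finset.sum_sub_distrib]
    refine Finset.sum_congr rfl (fun i _ => ?_)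
    simp only [hρ]
    ring
  rw [hfinal]
  exact norm_sub_lt_of_lt (norm_sub_lt_of_lt hEn hDn) hρsum

omit [CompleteSpace R] in
/-- The Moore contradiction. -/
lemma residue_contra {ι : Type*} [DecidableEq ι] (g : Finset ι) {A : ι} (hA : A ∈ g)
    (κt ζ : ι → R) (hκA : κt A ≠ 0) (hζA : ζ A ≠ 0) (hκ : ∀ i ∈ g, ‖κt i‖ ≤ ‖κt A‖)
    (hζ : ∀ i ∈ g, ‖ζ i‖ = ‖ζ A‖)
    (hind : ∀ m : ι → ℕ, (∃ i ∈ g, ¬ p ∣ m i) → ‖∑ i ∈ g, (m i : R) * ζ i‖ = ‖ζ A‖)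
    (hrow : ∀ s, 1 ≤ s → s ≤ g.card →
      ‖∑ i ∈ g, κt i * ζ i ^ p ^ s‖ < ‖κt A‖ * ‖ζ A‖ ^ p ^ s) : False := by
  classical
  have : CharP (Res R) p := charP_res p
  set K : ι → R := fun i => κt i / κt A with hK
  set u : ι → R := fun i => ζ i / ζ A with hu
  have hκApos : 0 < ‖κt A‖ := norm_pos_iff.mpr hκA
  have hζApos : 0 < ‖ζ A‖ := norm_pos_iff.mpr hζA
  have hKn : ∀ i ∈ g, ‖K i‖ ≤ 1 := by
    intro i hi
    rw [hK]; simp only [norm_div]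
    rw [div_le_one hκApos]
    exact hκ i hi
  have hun : ∀ i ∈ g, ‖u i‖ = 1 := by
    intro i hi
    rw [hu]; simp only [norm_div]
    rw [hζ i hi, div_self hζApos.ne']
  have h1 := moore p g.card g (fun i => rd (u i)) (fun i => rd (K i)) le_rfl ?_ ?_ A hA
  · have hKA : K A = 1 := div_self hκA
    simp only [hKA, rd_one] at h1
    exact one_ne_zero h1
  · intro m hm h0
    have hsumn : ‖∑ i ∈ g, (m i : R) * u i‖ = 1 := by
      have : ∑ i ∈ g, (m i : R) * u i = (∑ i ∈ g, (m i : R) * ζ i) / ζ A := by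
        rw [Finset.sum_div]
        exact Finset.sum_congr rfl (fun i _ => by simp only [hu]; ring)
      rw [this, norm_div, hind m hm, div_self hζApos.ne']
    have h2 : rd (∑ i ∈ g, (m i : R) * u i) = ∑ i ∈ g, (m i : Res R) * rd (u i) := by
      rw [rd_sum]
      · exact Finset.sum_congr rfl (fun i hi => rd_natCast_mul (hun i hi).le (m i))
      · intro i hi
        rw [norm_mul]
        exact mul_le_one₀ (norm_natCast_le_one _) (norm_nonneg _) (hun i hi).le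
    rw [← h2] at h0
    have := (rd_eq_zero_iff hsumn.le).mp h0
    rw [hsumn] at this
    exact lt_irrefl _ this
  · intro s h1 h2
    have hs := hrow s h1 h2
    have h3 : ‖∑ i ∈ g, K i * u i ^ p ^ s‖ < 1 := by
      have : ∑ i ∈ g, K i * u i ^ p ^ s
          = (∑ i ∈ g, κt i * ζ i ^ p ^ s) / (κt A * ζ A ^ p ^ s) := by
        rw [Finset.sum_div]
        refine Finset.sum_congr rfl (fun i _ => ?_)
        simp only [hK, hu, div_pow]
        have : ζ A ^ p ^ s ≠ 0 := pow_ne_zero _ hζA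
        field_simp
      rw [this, norm_div, norm_mul, norm_pow, div_lt_one (mul_pos hκApos (pow_pos hζApos _))]
      exact hs
    have h4 := (rd_eq_zero_iff h3.le).mpr h3
    rw [rd_sum] at h4
    · rw [← h4]
      refine Finset.sum_congr rfl (fun i hi => ?_)
      have h5 : ‖u i ^ p ^ s‖ ≤ 1 := by rw [norm_pow, hun i hi, one_pow]
      rw [rd_mul (hKn i hi) h5, rd_pow (hun i hi).le]
    · intro i hi
      rw [norm_mul, norm_pow, hun i hi, one_pow, mul_one]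
      exact hKn i hi

end Row

end Crest.Agent.Lib.LT.LemmaR
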