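import Crest.Agent.Lib.LT.LemmaRLag

/-! # S0351, Lemma R (2h): the valuation inequalities (competitors against the target line). -/

set_option linter.unusedSectionVars false

open Real Filter Topology

namespace Crest.Agent.Lib.LT.LemmaR

section Vertex

variable {R : Type*} [NormedField R] {p : ℕ} [Fact p.Prime]
  {k r : ℕ} {P : ℕ → R} {Y : ℝ → ℝ} {xc : ℝ}

lemma p_zpow_pos (m : ℤ) : (0 : ℝ) < (p : ℝ) ^ m := zpow_pos p_pos_real m

lemma p_pow_pos (m : ℕ) : (0 : ℝ) < (p : ℝ) ^ m := pow_pos p_pos_real m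

/-- The intercept of a line which is tight at `x` is positive. -/
lemma tight_intercept_pos [CharP R p] [PerfectRing R p] (hL : Lines p k r P Y xc) (hk : 1 ≤ k) (hr : 1 ≤ r) {x : ℝ}
    (hx : xc * (p : ℝ) ^ (k + r) ≤ x) {N : ℕ} {a : ℝ} (ha : ‖P N‖ = exp (-a))
    (ht : a + x / (p : ℝ) ^ N = Y x) : 0 < a := by
  have hq : (0 : ℝ) < (p : ℝ) ^ (k + r) := p_pow_pos _
  have hpp : (1 : ℝ) < p := one_lt_p_real
  set x0 := x / (p : ℝ) ^ (k + r) with hx0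
  have hxx : x = (p : ℝ) ^ (k + r) * x0 := by rw [hx0]; field_simp
  have hx0c : xc ≤ x0 := by rw [hx0, le_div_iff₀ hq]; exact hx
  have hxc := hL.xc_pos
  have hx0pos : 0 < x0 := lt_of_lt_of_le hxc hx0c
  have h1 : Y x = (p : ℝ) ^ k * Y x0 := by rw [hxx]; exact hL.scale x0 hx0c
  have h2 := hL.above' hx0c N ha
  set w := x / (p : ℝ) ^ N with hw
  have hwpos : 0 < w := div_pos (by nlinarith [hq]) (p_pow_pos N)
  have hw0 : x0 / (p : ℝ) ^ N * (p : ℝ) ^ r * (p : ℝ) ^ k = w := by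
    rw [hw, hxx, pow_add]; field_simp
  have hpk : 1 < (p : ℝ) ^ k := one_lt_pow₀ hpp (by omega)
  have hpr : 1 < (p : ℝ) ^ r := one_lt_pow₀ hpp (by omega)
  have hpkpos : (0 : ℝ) < (p : ℝ) ^ k := by linarith
  have hprpos : (0 : ℝ) < (p : ℝ) ^ r := by linarith
  set u := x0 / (p : ℝ) ^ N with hu
  have hupos : 0 < u := div_pos hx0pos (p_pow_pos N)
  -- a + w = p^k Y x0 ≤ p^k a + p^k u, with w = u p^r p^k
  have h3 : a + w ≤ (p : ℝ) ^ k * (a + u) := by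
    rw [ht, h1]; exact mul_le_mul_of_nonneg_left h2 hpkpos.le
  have h4 : ((p : ℝ) ^ k - 1) * a ≥ (p : ℝ) ^ k * u * ((p : ℝ) ^ r - 1) := by
    rw [← hw0] at h3; nlinarith
  have h5 : 0 < (p : ℝ) ^ k * u * ((p : ℝ) ^ r - 1) :=
    mul_pos (mul_pos hpkpos hupos) (by linarith)
  have h6 : 0 < ((p : ℝ) ^ k - 1) * a := by linarith
  exact (pos_iff_pos_of_mul_pos h6).mp (by linarith)

/-- Slope bound for a tight line. -/
lemma tight_slope_lower [CharP R p] [PerfectRing R p] (hL : Lines p k r P Y xc) {x : ℝ} (hx : xc ≤ x) {N : ℕ} {a : ℝ}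
    (ha : ‖P N‖ = exp (-a)) (ht : a + x / (p : ℝ) ^ N = Y x) :
    ((p : ℝ) ^ k - 1) * Y x ≤ ((p : ℝ) ^ (k + r) - 1) * (x / (p : ℝ) ^ N) := by
  have hxq : xc ≤ (p : ℝ) ^ (k + r) * x := by
    have := hL.le_p_pow_mul hx (k + r); simpa using this
  have h1 := hL.above' hxq N ha
  rw [hL.scale x hx] at h1
  have h2 : (p : ℝ) ^ (k + r) * x / (p : ℝ) ^ N = (p : ℝ) ^ (k + r) * (x / (p : ℝ) ^ N) := by ring
  rw [h2] at h1
  nlinarith

/-- **The competitor inequality.** -/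
lemma competitor [CharP R p] [PerfectRing R p] (hL : Lines p k r P Y xc) (hk : 1 ≤ k) (hr : 1 ≤ r)
    {VA Vi : ℝ} (hVA : 0 < VA) (hVi : 0 < Vi) {t : ℕ}
    (hxi : xc ≤ (p : ℝ) ^ ((k + r) * t) * Vi) (hxA : xc ≤ (p : ℝ) ^ ((k + r) * t) * VA)
    {lA li Np Nm N : ℕ} {ap am a : ℝ}
    (htp : ap + (p : ℝ) ^ ((k + r) * t) * VA / (p : ℝ) ^ Np = Y ((p : ℝ) ^ ((k + r) * t) * VA))
    (htm : am + (p : ℝ) ^ ((k + r) * t) * VA / (p : ℝ) ^ Nm = Y ((p : ℝ) ^ ((k + r) * t) * VA))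
    (hamp : 0 < am) (hNm : Nm ≤ Np)
    (ha : ‖P N‖ = exp (-a)) {b : ℤ}
    (hb : (li : ℤ) - N = (lA : ℤ) - Np + ((k + r : ℕ) : ℤ) * b)
    (hmin : (p : ℝ) ^ lA * Y ((p : ℝ) ^ ((k + r) * t) * VA)
      ≤ (p : ℝ) ^ li * Y ((p : ℝ) ^ ((k + r) * t) * Vi))
    {s : ℕ} (hs1 : 1 ≤ s) (hs2 : s ≤ Np - Nm) :
    (p : ℝ) ^ lA * ap + (p : ℝ) ^ ((lA : ℤ) - Np + ((k + r : ℕ) : ℤ) * t) * VA * (p : ℝ) ^ s
      ≤ (p : ℝ) ^ li * a + (p : ℝ) ^ ((lA : ℤ) - Np + ((k + r : ℕ) : ℤ) * t)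
          * ((p : ℝ) ^ (((k + r : ℕ) : ℤ) * b) * Vi) * (p : ℝ) ^ s ∧
    (¬ ((p : ℝ) ^ (((k + r : ℕ) : ℤ) * b) * Vi = VA ∧ (li : ℤ) - (k : ℤ) * b = lA) →
      (p : ℝ) ^ lA * ap + (p : ℝ) ^ ((lA : ℤ) - Np + ((k + r : ℕ) : ℤ) * t) * VA * (p : ℝ) ^ s
      < (p : ℝ) ^ li * a + (p : ℝ) ^ ((lA : ℤ) - Np + ((k + r : ℕ) : ℤ) * t)
          * ((p : ℝ) ^ (((k + r : ℕ) : ℤ) * b) * Vi) * (p : ℝ) ^ s) := by
  have hpp : (1 : ℝ) < p := one_lt_p_real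
  have hp0 : (0 : ℝ) < p := p_pos_real
  have hp2 : (2 : ℝ) ≤ p := by exact_mod_cast (Fact.out : p.Prime).two_le
  set n := k + r with hn
  set X := (p : ℝ) ^ (n * t) * VA with hX
  set E := (p : ℝ) ^ ((lA : ℤ) - Np + (n : ℤ) * t) with hE
  set x' := (p : ℝ) ^ ((n : ℤ) * b) * Vi with hx'
  have hEpos : 0 < E := p_zpow_pos _
  have hx'pos : 0 < x' := mul_pos (p_zpow_pos _) hVi
  have hXpos : 0 < X := mul_pos (p_pow_pos _) hVA
  have hYX : 0 < Y X := hL.pos X hxA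
  have hlA : 0 < (p : ℝ) ^ lA := p_pow_pos _
  have hli : 0 < (p : ℝ) ^ li := p_pow_pos _
  have hps : 1 < (p : ℝ) ^ s := one_lt_pow₀ hpp (by omega)
  -- E * VA = p ^ lA * (X / p ^ Np)
  have hF1 : E * VA = (p : ℝ) ^ lA * (X / (p : ℝ) ^ Np) := by
    rw [hE, hX, zpow_add₀ hp0.ne', zpow_sub₀ hp0.ne', zpow_natCast, zpow_natCast, zpow_mul,
      zpow_natCast, zpow_natCast, pow_mul]
    field_simp
  -- target rewritten
  have hyA : (p : ℝ) ^ lA * Y X = (p : ℝ) ^ lA * ap + E * VA := by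
    rw [hF1, ← htp]; ring
  set yA := (p : ℝ) ^ lA * Y X with hyAdef
  have hyApos : 0 < yA := mul_pos hlA hYX
  -- p ^ li * (p ^ (n t) Vi) / p ^ N = E x'
  have hF2 : (p : ℝ) ^ li * ((p : ℝ) ^ (n * t) * Vi / (p : ℝ) ^ N) = E * x' := by
    have h1 : ((p : ℝ) ^ li / (p : ℝ) ^ N) = (p : ℝ) ^ ((li : ℤ) - N) := by
      rw [zpow_sub₀ hp0.ne', zpow_natCast, zpow_natCast]
    have h2 : (p : ℝ) ^ ((li : ℤ) - N) = (p : ℝ) ^ ((lA : ℤ) - Np) * (p : ℝ) ^ ((n : ℤ) * b) := by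
      rw [hb, zpow_add₀ hp0.ne']
    have h3 : E = (p : ℝ) ^ ((lA : ℤ) - Np) * (p : ℝ) ^ (n * t) := by
      rw [hE, zpow_add₀ hp0.ne']
      congr 1
    calc (p : ℝ) ^ li * ((p : ℝ) ^ (n * t) * Vi / (p : ℝ) ^ N)
        = ((p : ℝ) ^ li / (p : ℝ) ^ N) * ((p : ℝ) ^ (n * t) * Vi) := by ring
      _ = E * x' := by rw [h1, h2, h3, hx']; ring
  rcases lt_or_ge VA x' with hcase | hcase
  · -- Case 1: x' > VA
    have hline := hL.above' hxi N ha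
    have h1 : yA ≤ (p : ℝ) ^ li * a + E * x' := by
      calc yA ≤ (p : ℝ) ^ li * Y ((p : ℝ) ^ (n * t) * Vi) := hmin
        _ ≤ (p : ℝ) ^ li * (a + (p : ℝ) ^ (n * t) * Vi / (p : ℝ) ^ N) :=
            mul_le_mul_of_nonneg_left hline hli.le
        _ = (p : ℝ) ^ li * a + E * x' := by rw [mul_add, hF2]
    have h2 : 0 < E * (x' - VA) * ((p : ℝ) ^ s - 1) :=
      mul_pos (mul_pos hEpos (by linarith)) (by linarith)
    have h3 : (p : ℝ) ^ lA * ap + E * VA * (p : ℝ) ^ s < (p : ℝ) ^ li * a + E * x' * (p : ℝ) ^ s := by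
      nlinarith
    exact ⟨h3.le, fun _ => h3⟩
  · -- Case 2: x' ≤ VA
    set y := (p : ℝ) ^ ((n : ℤ) * (-b)) * X with hy
    have hzz : (p : ℝ) ^ ((n : ℤ) * (-b)) * (p : ℝ) ^ ((n : ℤ) * b) = 1 := by
      rw [← zpow_add₀ hp0.ne']; simp
    have hzzpos : 0 < (p : ℝ) ^ ((n : ℤ) * (-b)) := p_zpow_pos _
    have hViy : (p : ℝ) ^ (n * t) * Vi = y - (p : ℝ) ^ (n * t) * (p : ℝ) ^ ((n : ℤ) * (-b)) * (VA - x') := by
      rw [hy, hX, hx']
      have : (p : ℝ) ^ (n * t) * (p : ℝ) ^ ((n : ℤ) * (-b)) * ((p : ℝ) ^ ((n : ℤ) * b) * Vi)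
          = (p : ℝ) ^ (n * t) * Vi * ((p : ℝ) ^ ((n : ℤ) * (-b)) * (p : ℝ) ^ ((n : ℤ) * b)) := by ring
      rw [hzz, mul_one] at this
      linear_combination -this
    have hconst : 0 < (p : ℝ) ^ (n * t) * (p : ℝ) ^ ((n : ℤ) * (-b)) := mul_pos (p_pow_pos _) hzzpos
    have hViy_le : (p : ℝ) ^ (n * t) * Vi ≤ y := by
      rw [hViy]; nlinarith [mul_nonneg hconst.le (sub_nonneg.mpr hcase)]
    have hyc : xc ≤ y := hxi.trans hViy_le
    have hYy : Y y = (p : ℝ) ^ ((k : ℤ) * (-b)) * Y X := hL.scale_zpow (-b) hxA hyc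
    have hline := hL.above' hyc N ha
    -- p ^ li * (y / p ^ N) = E * VA
    have hF3 : (p : ℝ) ^ li * (y / (p : ℝ) ^ N) = E * VA := by
      have h1 : ((p : ℝ) ^ li / (p : ℝ) ^ N) = (p : ℝ) ^ ((li : ℤ) - N) := by
        rw [zpow_sub₀ hp0.ne', zpow_natCast, zpow_natCast]
      have h2 : (p : ℝ) ^ ((li : ℤ) - N) = (p : ℝ) ^ ((lA : ℤ) - Np) * (p : ℝ) ^ ((n : ℤ) * b) := by
        rw [hb, zpow_add₀ hp0.ne']
      have h3 : E = (p : ℝ) ^ ((lA : ℤ) - Np) * (p : ℝ) ^ (n * t) := by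
        rw [hE, zpow_add₀ hp0.ne']
        congr 1
      calc (p : ℝ) ^ li * (y / (p : ℝ) ^ N) = ((p : ℝ) ^ li / (p : ℝ) ^ N) * y := by ring
        _ = (p : ℝ) ^ ((lA : ℤ) - Np) * (p : ℝ) ^ ((n : ℤ) * b) * ((p : ℝ) ^ ((n : ℤ) * (-b)) * X) := by
            rw [h1, h2, hy]
        _ = (p : ℝ) ^ ((lA : ℤ) - Np) * X * ((p : ℝ) ^ ((n : ℤ) * (-b)) * (p : ℝ) ^ ((n : ℤ) * b)) := by ring
        _ = E * VA := by rw [hzz, h3, hX]; ring
    set L : ℤ := (li : ℤ) - (k : ℤ) * b - lA with hL'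
    have hG : (p : ℝ) ^ li * Y y = (p : ℝ) ^ L * yA := by
      rw [hYy, hyAdef, hL']
      have : (p : ℝ) ^ ((li : ℤ) - (k : ℤ) * b - lA) * (p : ℝ) ^ lA * (p : ℝ) ^ ((k : ℤ) * b)
          = (p : ℝ) ^ li := by
        rw [← zpow_natCast (p : ℝ) lA, ← zpow_natCast (p : ℝ) li, ← zpow_add₀ hp0.ne', ← zpow_add₀ hp0.ne']
        congr 1; ring
      have h2 : (p : ℝ) ^ ((k : ℤ) * (-b)) * (p : ℝ) ^ ((k : ℤ) * b) = 1 := by
        rw [← zpow_add₀ hp0.ne']; simp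
      calc (p : ℝ) ^ li * ((p : ℝ) ^ ((k : ℤ) * (-b)) * Y X)
          = ((p : ℝ) ^ L * (p : ℝ) ^ lA * (p : ℝ) ^ ((k : ℤ) * b)) * ((p : ℝ) ^ ((k : ℤ) * (-b)) * Y X) := by
              rw [this]
        _ = (p : ℝ) ^ L * ((p : ℝ) ^ lA * Y X) * ((p : ℝ) ^ ((k : ℤ) * (-b)) * (p : ℝ) ^ ((k : ℤ) * b)) := by ring
        _ = _ := by rw [h2, mul_one]
    have hlow : (p : ℝ) ^ L * yA - E * VA ≤ (p : ℝ) ^ li * a := by
      have := mul_le_mul_of_nonneg_left hline hli.le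
      rw [mul_add, hF3, hG] at this
      linarith
    have hmin2 : yA ≤ (p : ℝ) ^ L * yA := by
      rw [← hG]
      exact hmin.trans (mul_le_mul_of_nonneg_left (hL.mono hxi hViy_le) hli.le)
    have hL1 : (1 : ℝ) ≤ (p : ℝ) ^ L := by
      by_contra h
      push Not at h
      nlinarith
    have hL0 : 0 ≤ L := by
      by_contra h
      push Not at h
      have : (p : ℝ) ^ L < 1 := zpow_lt_one_of_neg₀ hpp h
      linarith
    have hdiff : (p : ℝ) ^ lA * ap + E * VA * (p : ℝ) ^ s + ((p : ℝ) ^ L - 1) * yA - E * (p : ℝ) ^ s * (VA - x')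
        ≤ (p : ℝ) ^ li * a + E * x' * (p : ℝ) ^ s := by
      nlinarith
    have hnn : 0 ≤ E * (p : ℝ) ^ s * (VA - x') :=
      mul_nonneg (mul_pos hEpos (by linarith)).le (sub_nonneg.mpr hcase)
    rcases hcase.lt_or_eq with hlt | heq
    · -- x' < VA
      have hstrict : (p : ℝ) ^ (n * t) * Vi < y := by
        rw [hViy]; nlinarith [mul_pos hconst (sub_pos.mpr hlt)]
      have hmin3 : yA < (p : ℝ) ^ L * yA := by
        rw [← hG]
        exact lt_of_le_of_lt hmin (mul_lt_mul_of_pos_left (hL.strictMono hxi hstrict) hli)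
      have hL2 : 1 ≤ L := by
        by_contra h
        have hL3 : L = 0 := by omega
        rw [hL3, zpow_zero, one_mul] at hmin3
        exact lt_irrefl _ hmin3
      have hpL : (2 : ℝ) ≤ (p : ℝ) ^ L := by
        calc (2 : ℝ) ≤ p := hp2
          _ = (p : ℝ) ^ (1 : ℤ) := (zpow_one _).symm
          _ ≤ (p : ℝ) ^ L := zpow_le_zpow_right₀ hpp.le hL2
      -- yA = p ^ lA * am + E * VA * p ^ (Np - Nm)
      have hyAm : yA = (p : ℝ) ^ lA * am + E * VA * (p : ℝ) ^ (Np - Nm) := by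
        have h1 : X / (p : ℝ) ^ Nm = X / (p : ℝ) ^ Np * (p : ℝ) ^ (Np - Nm) := by
          have : (p : ℝ) ^ Np = (p : ℝ) ^ Nm * (p : ℝ) ^ (Np - Nm) := by
            rw [← pow_add]; congr 1; omega
          rw [this]
          have h2 := p_pow_pos (p := p) Nm
          have h3 := p_pow_pos (p := p) (Np - Nm)
          field_simp
        rw [hyAdef, ← htm, hF1, h1]; ring
      have hps2 : (p : ℝ) ^ s ≤ (p : ℝ) ^ (Np - Nm) := pow_le_pow_right₀ hpp.le hs2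
      have h5 : 0 < (p : ℝ) ^ lA * am := mul_pos hlA hamp
      have h6 : E * VA * (p : ℝ) ^ s ≤ E * VA * (p : ℝ) ^ (Np - Nm) :=
        mul_le_mul_of_nonneg_left hps2 (mul_pos hEpos hVA).le
      have h7 : 0 < E * x' * (p : ℝ) ^ s := mul_pos (mul_pos hEpos hx'pos) (by linarith)
      have h8 : yA ≤ ((p : ℝ) ^ L - 1) * yA := by nlinarith
      have h9 : (p : ℝ) ^ lA * ap + E * VA * (p : ℝ) ^ s < (p : ℝ) ^ li * a + E * x' * (p : ℝ) ^ s := by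
        have h10 : E * (p : ℝ) ^ s * (VA - x') = E * VA * (p : ℝ) ^ s - E * x' * (p : ℝ) ^ s := by ring
        nlinarith
      exact ⟨h9.le, fun _ => h9⟩
    · -- x' = VA
      have hx'VA : x' = VA := heq
      have h1 : E * (p : ℝ) ^ s * (VA - x') = 0 := by rw [hx'VA]; simp
      have h2 : (p : ℝ) ^ lA * ap + E * VA * (p : ℝ) ^ s + ((p : ℝ) ^ L - 1) * yA
          ≤ (p : ℝ) ^ li * a + E * x' * (p : ℝ) ^ s := by linarith
      have h3 : 0 ≤ ((p : ℝ) ^ L - 1) * yA := mul_nonneg (by linarith) hyApos.le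
      refine ⟨by linarith, fun hne => ?_⟩
      have hL4 : L ≠ 0 := by
        intro h0
        apply hne
        refine ⟨hx'VA, ?_⟩
        rw [hL'] at h0
        omega
      have hL5 : 1 ≤ L := by omega
      have hpL : (2 : ℝ) ≤ (p : ℝ) ^ L := by
        calc (2 : ℝ) ≤ p := hp2
          _ = (p : ℝ) ^ (1 : ℤ) := (zpow_one _).symm
          _ ≤ (p : ℝ) ^ L := zpow_le_zpow_right₀ hpp.le hL5
      have h4 : 0 < ((p : ℝ) ^ L - 1) * yA := mul_pos (by linarith) hyApos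
      linarith

end Vertex

end Crest.Agent.Lib.LT.LemmaR
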