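import Mathlib
import Crest.Agent.Lib.LT.AddExpLines
import Crest.Agent.Lib.LT.PsiAt

/-!
# S0351: Lemma R for a general `Stratum`: `Stratum.lemmaR_wrap`.

Apply `LemmaR.no_relation` with `P N = c₁ Π_N`, `Y = AddExp.YY`; the hypotheses are supplied by
`AddExp.Hyp.lines_inst`, `hE_core`, `hT_core`.
-/

set_option autoImplicit false
set_option linter.unusedSectionVars false

open Crest.LubinTate

namespace Crest.Agent.LT.Chart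

open Crest.Agent.Lib.LT.EvalS
open Crest.Agent.LT.PsiCore
open Crest.Agent.LT.Linearize (Growth)

variable {p k r : ℕ} [hp : Fact p.Prime] {K : Type*} [Field K] [Finite K] (D : Stratum p k r K)
variable {R : Type*} [NontriviallyNormedField R] [IsUltrametricDist R] [CompleteSpace R]
  [Algebra K R] [CharP R p] [PerfectRing R p]

/-- The coefficients `w_j` of the additive polynomial `A` at a point: `w_j = ξ_j`, `w_r = 1`. -/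
noncomputable def wOf (ξ : Pt r R) (j : ℕ) : R := if h : j < r then ξ.1 ⟨j, h⟩ else 1

theorem wOf_of_lt (ξ : Pt r R) {j : ℕ} (h : j < r) : wOf ξ j = ξ.1 ⟨j, h⟩ := dif_pos h

theorem hyp_wOf (hk : 1 ≤ k) (ξ : Pt r R) : AddExp.Hyp p k r (wOf ξ) ‖ξ.1‖ where
  hk := hk
  hwr := by simp [wOf]
  hρ0 := norm_nonneg _
  hρ1 := ξ.2
  hwlt := fun j hj => by
    rw [wOf_of_lt ξ hj]
    exact norm_le_pi_norm ξ.1 _

/-- Lemma R in the form used by the assembly. -/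
theorem Stratum.lemmaR_wrap (hcard : Nat.card K = p ^ (k + r))
    (ξ : Pt r R) (hξ0 : ξ.1 ⟨0, D.hr⟩ ≠ 0)
    (hP : ∀ u : R, ‖u‖ < 1 → ‖D.pAt ξ u - AddExp.Aadd p k r (wOf ξ) u‖ ≤
      AddExp.gg p k r (wOf ξ) (AddExp.gg p k r (wOf ξ) ‖u‖))
    {ι : PowerSeries R} (hι0 : PowerSeries.constantCoeff ι = 0)
    (hι1 : PowerSeries.coeff 1 ι ≠ 0) (hιlt : ‖PowerSeries.coeff 1 ι‖ < 1) (hιg : Growth ι)
    (hιp : (PowerSeries.coeff 1 ι) ^ (p ^ k - 1) = ξ.1 ⟨0, D.hr⟩)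
    {z : Fin r → R} (hz1 : ∀ i, ‖z i‖ < 1) (hz : ∀ i, z i ≠ 0) (_hz0 : ∀ i, D.PsiAt ξ (z i) = 0)
    (hT : ∀ (g : Finset (Fin r)) (e : Fin r → ℕ) (x : ℝ), (∀ i ∈ g,
        (p : ℝ) ^ ((k + r) * e i) * (- Real.log ‖z i‖) = x) → 0 < x →
      ∀ n : Fin r → ℕ, (∃ i ∈ g, ¬ p ∣ n i) →
      ∃ u : R, ‖u‖ = Real.exp (-x) ∧ D.PsiAt ξ u = 0 ∧
        ‖u - ∑ i ∈ g, (n i : R) * z i ^ p ^ ((k + r) * e i)‖ < Real.exp (-x))
    (S : Finset (Fin r)) (hS : S.Nonempty) (κ : Fin r → R) (hκ : ∀ i ∈ S, ‖κ i‖ = 1) (e : Fin r → ℕ)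
    (j0 : ℕ)
    (hrel : ∀ j, j0 ≤ j → ∀ c : K, c ≠ 0 → ∃ i0 ∈ S,
      ‖∑ i ∈ S, κ i * ev1 ι (D.PsiAt ξ (algebraMap K R c * z i ^ p ^ j)) ^ p ^ e i‖ ≤
        ‖ev1 ι (D.PsiAt ξ (algebraMap K R c * z i0 ^ p ^ j))‖ ^ (2 * p ^ e i0)) : False := by
  classical
  have hk := D.hk
  have hr := D.hr
  have hc1 : ‖PowerSeries.coeff 1 ι‖ ≤ 1 := hιlt.le
  have hcpos : 0 < ‖PowerSeries.coeff 1 ι‖ := norm_pos_iff.mpr hι1
  have h := hyp_wOf (p := p) hk ξ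
  have hw00 : wOf ξ 0 = ξ.1 ⟨0, D.hr⟩ := wOf_of_lt ξ _
  have hw0 : wOf ξ 0 ≠ 0 := by rw [hw00]; exact hξ0
  have hcw : (PowerSeries.coeff 1 ι) ^ (p ^ k - 1) = wOf ξ 0 := by rw [hw00]; exact hιp
  obtain ⟨x₁, hx₁, hsmall⟩ := h.NN_small (ε := ‖PowerSeries.coeff 1 ι‖ / 2) (half_pos hcpos)
  obtain ⟨xc, hxc, hL⟩ := h.lines_inst hι1 hc1 hw0 hcw x₁
  set V : Fin r → ℝ := fun i => - Real.log ‖z i‖ with hVdef
  have hV : ∀ i, 0 < V i := by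
    intro i
    have := Real.log_neg (norm_pos_iff.mpr (hz i)) (hz1 i)
    simp only [hVdef]
    linarith
  have hzV : ∀ i, ‖z i‖ = Real.exp (-V i) := by
    intro i
    simp only [hVdef, neg_neg]
    rw [Real.exp_log (norm_pos_iff.mpr (hz i))]
  have := Fintype.ofFinite K
  have h𝔽 : Fintype.card K = p ^ (k + r) := by rw [← Nat.card_eq_fintype_card]; exact hcard
  have hphi : ∀ c : K, c ≠ 0 → ‖algebraMap K R c‖ = 1 := fun c hc =>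
    Crest.Agent.Lib.LT.LemmaR.norm_phi_unit p h𝔽 (algebraMap K R) (by omega) (Units.mk0 c hc)
  have hΨ : ∀ y : R, ‖y‖ < 1 → D.PsiAt ξ y = D.pAt ξ (D.PsiAt ξ (AddExp.rt p (k + r) y)) := by
    intro y hy
    have h1 := D.PsiAt_pow ξ (AddExp.norm_rt_lt_one (p := p) (k + r) hy)
    rwa [AddExp.rt_pow] at h1
  have hΨ1 : ∀ y : R, ‖y‖ < 1 → ‖D.PsiAt ξ y - y‖ ≤ ‖ξ.1‖ := fun y hy => D.PsiAt_sub_le ξ hy
  have hpp : (1 : ℝ) < p := Crest.Agent.LT.AddExp.one_lt_p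
  obtain ⟨j1, hj1⟩ : ∃ j1 : ℕ, ∀ j, j1 ≤ j → ∀ i, x₁ ≤ (p : ℝ) ^ j * V i := by
    have h1 : ∀ᶠ j : ℕ in Filter.atTop, ∀ i ∈ (Finset.univ : Finset (Fin r)),
        x₁ ≤ (p : ℝ) ^ j * V i :=
      (Filter.eventually_all_finset _).mpr (fun i _ =>
        ((tendsto_pow_atTop_atTop_of_one_lt hpp).atTop_mul_const (hV i)).eventually_ge_atTop _)
    obtain ⟨j1, hj1⟩ := Filter.eventually_atTop.mp h1
    exact ⟨j1, fun j hj i => hj1 j hj i (Finset.mem_univ _)⟩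
  refine Crest.Agent.Lib.LT.LemmaR.no_relation p k r hk hr h𝔽 (algebraMap K R) hL z V hV hzV
    (-2 * Real.log ‖PowerSeries.coeff 1 ι‖) ?_ S hS κ hκ e (max j0 j1)
    (fun i j c => ev1 ι (D.PsiAt ξ (algebraMap K R c * z i ^ p ^ j))) ?_ ?_
  · intro g e' x hx hg n hn
    have hxpos : 0 < x := lt_of_lt_of_le hL.xc_pos hx
    obtain ⟨u, hu1, hu2, hu3⟩ := hT g e' x hg hxpos n hn
    exact ⟨u, hu1, hu3, h.hT_core hι1 hc1 (D.pAt ξ) (D.PsiAt ξ) hP hΨ hΨ1 hxpos hu1 hu2⟩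
  · intro i hi j hj c hc
    have hx : x₁ ≤ (p : ℝ) ^ j * V i := hj1 j ((le_max_right _ _).trans hj) i
    have hxpos : 0 < (p : ℝ) ^ j * V i := lt_of_lt_of_le hx₁ hx
    have hy : ‖algebraMap K R c * z i ^ p ^ j‖ = Real.exp (-((p : ℝ) ^ j * V i)) := by
      rw [norm_mul, hphi c hc, one_mul, norm_pow, hzV i, ← Real.exp_nat_mul]
      congr 1
      push_cast
      ring
    have hNx : AddExp.NN p k r (wOf ξ) ((p : ℝ) ^ j * V i) < ‖PowerSeries.coeff 1 ι‖ :=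
      lt_of_le_of_lt (hsmall _ hx) (half_lt_self hcpos)
    exact h.hE_core hιg hι0 hι1 hc1 (D.pAt ξ) (D.PsiAt ξ) hP hΨ hΨ1 hxpos hNx hy
  · intro j hj c hc
    exact hrel j ((le_max_left _ _).trans hj) c hc

end Crest.Agent.LT.Chart
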