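import Mathlib

/-!
# Orthogonal `p`-bases (S0351, (2b) of finding #1130), abstract form

`G` is an abelian group with a "norm" `ν` satisfying the ultrametric inequality and
`ν (p • a) = ν a ^ q`.  For a subgroup `T` such that `T / pT` has a finite basis `z0`, with `ν` bounded
below on `T \ pT` and bounded away from `1` on `T`, there is a basis `z` of `T / pT` which is
orthogonal: `ν (m i • z i) ≤ ν (∑ j, m j • z j)`, for all integers `m`.

Proof: `ν (T \ pT)` is finite (`p`-adic expansion).  A basis minimising `∏ i, ν (z i)` is orthogonal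
(replacement argument).
-/

set_option autoImplicit false
set_option linter.unusedSectionVars false
set_option linter.unusedVariables false

namespace Crest.Agent.LT.OrthBasis

open Filter Topology

variable {G : Type*} [AddCommGroup G]

/-- The structure of `(G, ν)`: ultrametric norm, with values in `[0, 1)`, and `[p] = q`-th power. -/
structure PNorm (p q : ℕ) (ν : G → ℝ) : Prop where
  prime : p.Prime
  two_le_q : 2 ≤ q
  nonneg : ∀ a, 0 ≤ ν a
  lt_one : ∀ a, ν a < 1
  eq_zero : ∀ a, ν a = 0 ↔ a = 0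
  add_le : ∀ a b, ν (a + b) ≤ max (ν a) (ν b)
  neg : ∀ a, ν (-a) = ν a
  smul_p : ∀ a, ν (p • a) = ν a ^ q

namespace PNorm

variable {p q : ℕ} {ν : G → ℝ} (h : PNorm p q ν)
include h

theorem zero : ν 0 = 0 := (h.eq_zero 0).2 rfl

theorem sub_le (a b : G) : ν (a - b) ≤ max (ν a) (ν b) := by
  rw [sub_eq_add_neg, ← h.neg b]
  exact h.add_le a (-b)

theorem pos {a : G} (ha : a ≠ 0) : 0 < ν a :=
  lt_of_le_of_ne (h.nonneg a) (fun e => ha ((h.eq_zero a).1 e.symm))

theorem nsmul_le (n : ℕ) (a : G) : ν (n • a) ≤ ν a := by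
  induction n with
  | zero => simpa [h.zero] using h.nonneg a
  | succ n ih =>
    rw [succ_nsmul]
    exact (h.add_le _ _).trans (max_le ih le_rfl)

theorem zsmul_le (n : ℤ) (a : G) : ν (n • a) ≤ ν a := by
  cases n with
  | ofNat n => simpa using h.nsmul_le n a
  | negSucc n =>
    rw [negSucc_zsmul, h.neg]
    exact h.nsmul_le _ a

theorem sum_le {ι : Type*} (s : Finset ι) (f : ι → G) {C : ℝ} (hC : 0 ≤ C)
    (hf : ∀ i ∈ s, ν (f i) ≤ C) : ν (∑ i ∈ s, f i) ≤ C := by
  classical
  induction s using Finset.induction_on with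
  | empty => simpa [h.zero] using hC
  | insert a s ha ih =>
    rw [Finset.sum_insert ha]
    exact (h.add_le _ _).trans
      (max_le (hf a (Finset.mem_insert_self _ _)) (ih fun i hi => hf i (Finset.mem_insert_of_mem hi)))

/-- Strict ultrametric inequality. -/
theorem add_eq_left {a b : G} (hab : ν b < ν a) : ν (a + b) = ν a := by
  apply le_antisymm
  · exact (h.add_le a b).trans (max_le le_rfl hab.le)
  · have h1 : ν a ≤ max (ν (a + b)) (ν b) := by
      have := h.sub_le (a + b) b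
      simpa using this
    rcases le_max_iff.1 h1 with h2 | h2
    · exact h2
    · exact absurd hab (not_lt.2 h2)

theorem sub_eq_left {a b : G} (hab : ν b < ν a) : ν (a - b) = ν a := by
  rw [sub_eq_add_neg]
  exact h.add_eq_left (by rwa [h.neg])

theorem pow_lt {a : G} (ha : a ≠ 0) : ν a ^ q < ν a := by
  have h0 := h.pos ha
  have h1 := h.lt_one a
  calc ν a ^ q < ν a ^ 1 := pow_lt_pow_right_of_lt_one₀ h0 h1 (by have := h.two_le_q; omega)
    _ = ν a := pow_one _

theorem pow_smul (e : ℕ) (a : G) : ν ((p ^ e) • a) = ν a ^ (q ^ e) := by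
  induction e generalizing a with
  | zero => simp
  | succ e ih =>
    rw [pow_succ, mul_smul, ih, h.smul_p, ← pow_mul, pow_succ' q e]

/-- Multiplication by a `p`-adic unit does not change the norm. -/
theorem zsmul_coprime {u : ℤ} (hu : ¬ (p : ℤ) ∣ u) (a : G) : ν (u • a) = ν a := by
  apply le_antisymm (h.zsmul_le u a)
  by_cases ha : a = 0
  · simp [ha, h.zero]
  have hc : IsCoprime (p : ℤ) u :=
    (Prime.coprime_iff_not_dvd (Nat.prime_iff_prime_int.1 h.prime)).2 hu
  obtain ⟨s, t, hst⟩ := hc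
  -- `s * p + t * u = 1`
  have h1 : a = (s • (p • a)) + t • (u • a) := by
    have : a = ((s * p + t * u) : ℤ) • a := by rw [hst, one_zsmul]
    conv_lhs => rw [this]
    rw [add_smul, mul_smul, mul_smul, natCast_zsmul]
  have h2 : ν a ≤ max (ν (s • (p • a))) (ν (t • (u • a))) := by
    conv_lhs => rw [h1]
    exact h.add_le _ _
  rcases le_max_iff.1 h2 with h3 | h3
  · have h4 := (h3.trans (h.zsmul_le _ _))
    rw [h.smul_p] at h4
    exact absurd h4 (not_le.2 (h.pow_lt ha))
  · exact h3.trans (h.zsmul_le _ _)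

theorem zsmul_pow_mul (e : ℕ) {u : ℤ} (hu : ¬ (p : ℤ) ∣ u) (a : G) :
    ν ((((p : ℤ) ^ e) * u) • a) = ν a ^ (q ^ e) := by
  have h1 : (((p : ℤ) ^ e) * u) • a = (p ^ e) • (u • a) := by
    rw [mul_smul]
    have : ((p : ℤ) ^ e) = ((p ^ e : ℕ) : ℤ) := by push_cast; ring
    rw [this, natCast_zsmul]
  rw [h1, h.pow_smul, h.zsmul_coprime hu]

end PNorm

/-- `pT`. -/
def pMul (T : AddSubgroup G) (p : ℕ) : AddSubgroup G := T.map (nsmulAddMonoidHom p)

theorem mem_pMul {T : AddSubgroup G} {p : ℕ} {x : G} : x ∈ pMul T p ↔ ∃ t ∈ T, p • t = x := by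
  simp [pMul, AddSubgroup.mem_map]

theorem pMul_le {T : AddSubgroup G} {p : ℕ} : pMul T p ≤ T := by
  intro x hx
  obtain ⟨t, ht, rfl⟩ := mem_pMul.1 hx
  exact T.nsmul_mem ht p

theorem nsmul_mem_pMul {T : AddSubgroup G} {p : ℕ} {t : G} (ht : t ∈ T) : p • t ∈ pMul T p :=
  mem_pMul.2 ⟨t, ht, rfl⟩

variable {ι : Type*} [Fintype ι]

/-- `z` is a basis of `T / pT` over `F_p`. -/
structure IsPBasis (T : AddSubgroup G) (p : ℕ) (z : ι → G) : Prop where
  mem : ∀ i, z i ∈ T
  gen : ∀ t ∈ T, ∃ m : ι → ℤ, t - ∑ i, m i • z i ∈ pMul T p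
  indep : ∀ m : ι → ℤ, ∑ i, m i • z i ∈ pMul T p → ∀ i, (p : ℤ) ∣ m i

section Expansion

variable {T : AddSubgroup G} {p : ℕ} {z : ι → G}

theorem IsPBasis.sum_mem (hz : IsPBasis T p z) (m : ι → ℤ) : ∑ i, m i • z i ∈ T :=
  T.sum_mem fun i _ => T.zsmul_mem (hz.mem i) _

theorem IsPBasis.exists_expansion (hp : 0 < p) (hz : IsPBasis T p z) (L : ℕ) {t : G} (ht : t ∈ T) :
    ∃ m : ι → ℤ, (∀ i, 0 ≤ m i ∧ m i < (p : ℤ) ^ L) ∧
      ∃ t' ∈ T, t = ∑ i, m i • z i + (p ^ L) • t' := by
  induction L with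
  | zero =>
    exact ⟨fun _ => 0, fun i => by simp, t, ht, by simp⟩
  | succ L ih =>
    obtain ⟨m, hm, t', ht', rfl⟩ := ih
    obtain ⟨a, ha⟩ := hz.gen t' ht'
    obtain ⟨t'', ht'', hsub⟩ := mem_pMul.1 ha
    have hp' : (0 : ℤ) < p := by exact_mod_cast hp
    -- `t' = ∑ (a % p) z + p • (∑ (a / p) z + t'')`
    have hz1 : t' = ∑ i, (a i % (p : ℤ)) • z i + p • (∑ i, (a i / (p : ℤ)) • z i + t'') := by
      have h1 : t' = ∑ i, a i • z i + p • t'' := by rw [hsub]; abel
      have h2 : ∀ i, a i • z i = (a i % (p : ℤ)) • z i + p • ((a i / (p : ℤ)) • z i) := by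
        intro i
        rw [← natCast_zsmul, ← mul_smul, ← add_smul, Int.emod_add_mul_ediv]
      rw [nsmul_add, Finset.smul_sum, ← add_assoc, ← Finset.sum_add_distrib, ← Finset.sum_congr rfl (fun i _ => h2 i)]
      exact h1
    refine ⟨fun i => m i + (p : ℤ) ^ L * (a i % (p : ℤ)), fun i => ?_,
      ∑ i, (a i / (p : ℤ)) • z i + t'', T.add_mem (hz.sum_mem _) ht'', ?_⟩
    · have h3 := Int.emod_nonneg (a i) hp'.ne'
      have h4 := Int.emod_lt_of_pos (a i) hp'
      have h5 := hm i
      have hpow : (0 : ℤ) < (p : ℤ) ^ L := pow_pos hp' L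
      constructor
      · have := mul_nonneg hpow.le h3
        linarith [h5.1]
      · have h6 : (p : ℤ) ^ L * (a i % (p : ℤ) + 1) ≤ (p : ℤ) ^ L * p :=
          mul_le_mul_of_nonneg_left (by linarith) hpow.le
        rw [pow_succ]
        nlinarith [h5.2]
    · have h7 : ∑ i, ((p : ℤ) ^ L * (a i % (p : ℤ))) • z i = (p ^ L) • ∑ i, (a i % (p : ℤ)) • z i := by
        rw [Finset.smul_sum]
        refine Finset.sum_congr rfl fun i _ => ?_
        rw [mul_smul]
        have : ((p : ℤ) ^ L) = ((p ^ L : ℕ) : ℤ) := by push_cast; ring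
        rw [this, natCast_zsmul]
      conv_lhs => rw [hz1]
      simp only [add_smul]
      rw [Finset.sum_add_distrib, h7, smul_add, pow_succ, mul_smul, add_assoc]

theorem IsPBasis.not_mem_pMul (hp : p.Prime) (hz : IsPBasis T p z) (i : ι) : z i ∉ pMul T p := by
  classical
  intro h
  have h1 := hz.indep (fun j => if j = i then 1 else 0) (by
    have : ∑ j, (if j = i then (1 : ℤ) else 0) • z j = z i := by
      rw [Finset.sum_eq_single i]
      · simp
      · intro j _ hj; simp [hj]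
      · simp
    rwa [this]) i
  simp only [if_true] at h1
  exact hp.one_lt.ne' (by simpa [Int.natAbs_one] using Int.natAbs_dvd_natAbs.2 h1)

end Expansion

section Finite

variable {p q : ℕ} {ν : G → ℝ} (h : PNorm p q ν) {T : AddSubgroup G} {z0 : ι → G}
include h

/-- The set of values of `ν` on `T \ pT` is finite. -/
theorem finite_values (hz0 : IsPBasis T p z0) {τ ρ : ℝ} (hτ : 0 < τ) (hρ : ρ < 1)
    (hτT : ∀ t ∈ T, t ∉ pMul T p → τ ≤ ν t) (hρT : ∀ t ∈ T, ν t ≤ ρ) :
    ∃ S : Finset ℝ, ∀ t ∈ T, t ∉ pMul T p → ν t ∈ S := by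
  classical
  have hρ0 : 0 ≤ ρ := (h.nonneg 0).trans (hρT 0 T.zero_mem)
  have hq := h.two_le_q
  have hlim : Tendsto (fun L : ℕ => ρ ^ (q ^ L)) atTop (𝓝 0) :=
    (tendsto_pow_atTop_nhds_zero_of_lt_one hρ0 hρ).comp
      (tendsto_pow_atTop_atTop_of_one_lt (by omega))
  obtain ⟨L, hL⟩ := ((tendsto_order.1 hlim).2 τ hτ).exists
  refine ⟨(Fintype.piFinset (fun _ : ι => Finset.Ico (0 : ℤ) ((p : ℤ) ^ L))).image
    (fun m => ν (∑ i, m i • z0 i)), fun t ht htp => ?_⟩
  obtain ⟨m, hm, t', ht', rfl⟩ := hz0.exists_expansion h.prime.pos L ht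
  rw [Finset.mem_image]
  refine ⟨m, ?_, ?_⟩
  · simp only [Fintype.mem_piFinset, Finset.mem_Ico]
    exact hm
  · have hsmall : ν ((p ^ L) • t') < ν (∑ i, m i • z0 i + (p ^ L) • t') := by
      have h1 : ν ((p ^ L) • t') ≤ ρ ^ (q ^ L) := by
        rw [h.pow_smul]
        exact pow_le_pow_left₀ (h.nonneg _) (hρT _ ht') _
      exact lt_of_lt_of_le (h1.trans_lt hL) (hτT _ ht htp)
    have h2 := h.sub_eq_left hsmall
    simpa using h2

end Finite

section Replace

variable {T : AddSubgroup G} {p : ℕ} {z : ι → G}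

theorem sum_update [DecidableEq ι] (z : ι → G) (i0 : ι) (m c : ι → ℤ) :
    ∑ j, c j • Function.update z i0 (∑ j, m j • z j) j =
      ∑ j, ((if j = i0 then 0 else c j) + c i0 * m j) • z j := by
  simp only [add_smul, mul_smul]
  rw [Finset.sum_add_distrib, ← Finset.smul_sum]
  rw [← Finset.add_sum_erase Finset.univ _ (Finset.mem_univ i0)]
  rw [← Finset.add_sum_erase Finset.univ (fun j => (if j = i0 then (0 : ℤ) else c j) • z j)
    (Finset.mem_univ i0)]
  simp only [Function.update_self, if_true, zero_smul, zero_add]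
  rw [add_comm]
  congr 1
  refine Finset.sum_congr rfl fun j hj => ?_
  have hji : j ≠ i0 := Finset.ne_of_mem_erase hj
  simp [hji]

/-- Replacement: if `p ∤ m i0`, the basis remains a basis after replacing `z i0` by `∑ m j z j`. -/
theorem IsPBasis.update [DecidableEq ι] (hp : p.Prime) (hz : IsPBasis T p z) (i0 : ι) (m : ι → ℤ)
    (hm : ¬ (p : ℤ) ∣ m i0) : IsPBasis T p (Function.update z i0 (∑ j, m j • z j)) := by
  have hpi : Prime (p : ℤ) := Nat.prime_iff_prime_int.1 hp
  refine ⟨?_, ?_, ?_⟩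
  · intro i
    by_cases hi : i = i0
    · subst hi; simpa using hz.sum_mem m
    · simpa [Function.update_of_ne hi] using hz.mem i
  · intro t ht
    obtain ⟨a, ha⟩ := hz.gen t ht
    obtain ⟨s, u, hsu⟩ := (Prime.coprime_iff_not_dvd hpi).2 hm
    -- `s * p + u * m i0 = 1`
    let c : ι → ℤ := fun j => if j = i0 then a i0 * u else a j - a i0 * u * m j
    refine ⟨c, ?_⟩
    rw [sum_update]
    have hcoef : ∀ j, ((if j = i0 then 0 else c j) + c i0 * m j) =
        a j - (if j = i0 then a i0 * s * p else 0) := by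
      intro j
      by_cases hj : j = i0
      · subst hj
        simp only [if_true, c]
        have : a j * u * m j = a j * (u * m j) := by ring
        rw [zero_add, this, show u * m j = 1 - s * p by linarith]
        ring
      · simp only [hj, if_false, c, if_true]
        ring
    simp only [hcoef, sub_smul]
    rw [Finset.sum_sub_distrib]
    have h1 : t - (∑ i, a i • z i - ∑ i, (if i = i0 then a i0 * s * p else 0) • z i) =
        (t - ∑ i, a i • z i) + ∑ i, (if i = i0 then a i0 * s * p else 0) • z i := by abel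
    rw [h1]
    refine (pMul T p).add_mem ha ?_
    have h2 : ∑ i, (if i = i0 then a i0 * s * p else 0) • z i = p • ((a i0 * s) • z i0) := by
      rw [Finset.sum_eq_single i0]
      · simp only [if_true]
        rw [mul_smul, smul_comm, natCast_zsmul, smul_comm]
      · intro j _ hj; simp [hj]
      · simp
    rw [h2]
    exact nsmul_mem_pMul (T.zsmul_mem (hz.mem i0) _)
  · intro c hc i
    rw [sum_update] at hc
    have h1 := hz.indep _ hc
    have h2 : (p : ℤ) ∣ c i0 := by
      have := h1 i0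
      simp only [if_true, zero_add] at this
      exact (hpi.dvd_or_dvd this).resolve_right hm
    by_cases hi : i = i0
    · subst hi; exact h2
    · have := h1 i
      simp only [hi, if_false] at this
      exact (Int.dvd_add_left (Dvd.dvd.mul_right h2 _)).1 this

end Replace

section Main

variable {p q : ℕ} {ν : G → ℝ} (h : PNorm p q ν) {T : AddSubgroup G} {z : ι → G}

/-- The score of a basis. -/
noncomputable def score (ν : G → ℝ) (z : ι → G) : ℝ := ∏ i, ν (z i)

include h in
/-- Existence of a basis minimising the score. -/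
theorem exists_min_score {z0 : ι → G} (hz0 : IsPBasis T p z0) {τ ρ : ℝ} (hτ : 0 < τ) (hρ : ρ < 1)
    (hτT : ∀ t ∈ T, t ∉ pMul T p → τ ≤ ν t) (hρT : ∀ t ∈ T, ν t ≤ ρ) :
    ∃ z : ι → G, IsPBasis T p z ∧ ∀ z' : ι → G, IsPBasis T p z' → score ν z ≤ score ν z' := by
  classical
  obtain ⟨S, hS⟩ := finite_values h hz0 hτ hρ hτT hρT
  let F : Finset ℝ := (Fintype.piFinset (fun _ : ι => S)).image (fun v => ∏ i, v i)
  have hsub : (score ν '' {z : ι → G | IsPBasis T p z}).Finite := by
    refine (F.finite_toSet).subset ?_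
    rintro _ ⟨z, hz, rfl⟩
    simp only [Finset.mem_coe, F, Finset.mem_image, Fintype.mem_piFinset]
    exact ⟨fun i => ν (z i), fun i => hS _ (hz.mem i) (hz.not_mem_pMul h.prime i), rfl⟩
  have hne : (score ν '' {z : ι → G | IsPBasis T p z}).Nonempty := ⟨_, z0, hz0, rfl⟩
  obtain ⟨a, ⟨z, hz, rfl⟩, hmin⟩ := Set.exists_min_image _ id hsub hne
  refine ⟨z, hz, fun z' hz' => hmin _ ⟨z', hz', rfl⟩⟩

include h in
/-- From minimality to the replacement inequality. -/
theorem le_of_min_score [DecidableEq ι] (hz : IsPBasis T p z)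
    (hmin : ∀ z' : ι → G, IsPBasis T p z' → score ν z ≤ score ν z') (i0 : ι) (m : ι → ℤ)
    (hm : ¬ (p : ℤ) ∣ m i0) : ν (z i0) ≤ ν (∑ j, m j • z j) := by
  have hz' := hz.update h.prime i0 m hm
  have h1 := hmin _ hz'
  unfold score at h1
  rw [← Finset.mul_prod_erase Finset.univ _ (Finset.mem_univ i0),
    ← Finset.mul_prod_erase Finset.univ (fun i => ν (Function.update z i0 (∑ j, m j • z j) i))
      (Finset.mem_univ i0)] at h1
  simp only [Function.update_self] at h1
  have h2 : ∏ x ∈ Finset.univ.erase i0, ν (Function.update z i0 (∑ j, m j • z j) x) =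
      ∏ x ∈ Finset.univ.erase i0, ν (z x) := by
    refine Finset.prod_congr rfl fun j hj => ?_
    rw [Function.update_of_ne (Finset.ne_of_mem_erase hj)]
  rw [h2] at h1
  have hzne : ∀ i, z i ≠ 0 := by
    intro i hi
    apply hz.not_mem_pMul h.prime i
    rw [hi]; exact (pMul T p).zero_mem
  have h3 : 0 < ∏ x ∈ Finset.univ.erase i0, ν (z x) :=
    Finset.prod_pos fun j _ => h.pos (hzne j)
  exact le_of_mul_le_mul_right h1 h3

include h in
/-- A score-minimal basis is orthogonal. -/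
theorem orth_of_min_score (hz : IsPBasis T p z)
    (hmin : ∀ z' : ι → G, IsPBasis T p z' → score ν z ≤ score ν z') (m : ι → ℤ) (i : ι) :
    ν (m i • z i) ≤ ν (∑ j, m j • z j) := by
  classical
  -- the largest norm `D`
  obtain ⟨i1, -, hi1⟩ := Finset.exists_max_image Finset.univ (fun j => ν (m j • z j))
    ⟨i, Finset.mem_univ i⟩
  set D := ν (m i1 • z i1) with hD
  have hD' : ∀ j, ν (m j • z j) ≤ D := fun j => hi1 j (Finset.mem_univ j)
  suffices hsuff : D ≤ ν (∑ j, m j • z j) from (hD' i).trans hsuff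
  by_cases hD0 : D = 0
  · rw [hD0]; exact h.nonneg _
  have hDpos : 0 < D := lt_of_le_of_ne (h.nonneg _) (Ne.symm hD0)
  -- the set `B` of maximal terms
  let B : Finset ι := Finset.univ.filter (fun j => ν (m j • z j) = D)
  have hi1B : i1 ∈ B := by simp [B, hD]
  have hBne : ∀ j ∈ B, m j ≠ 0 := by
    intro j hj hj0
    have : ν (m j • z j) = D := (Finset.mem_filter.1 hj).2
    rw [hj0, zero_smul, h.zero] at this
    exact hD0 this.symm
  -- the minimal `p`-adic valuation on `B`
  have hp1 := h.prime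
  have : Fact p.Prime := ⟨hp1⟩
  obtain ⟨j0, hj0B, hj0⟩ := Finset.exists_min_image B (fun j => padicValNat p (m j).natAbs) ⟨i1, hi1B⟩
  set e := padicValNat p (m j0).natAbs with he
  have hdiv : ∀ j ∈ B, ((p : ℤ) ^ e) ∣ m j := by
    intro j hj
    have h1 : p ^ e ∣ (m j).natAbs :=
      (pow_dvd_pow p (hj0 j hj)).trans pow_padicValNat_dvd
    have h2 : ((p ^ e : ℕ) : ℤ) ∣ m j := Int.natCast_dvd.2 h1
    simpa using h2
  -- the quotients
  let m' : ι → ℤ := fun j => if j ∈ B then m j / ((p : ℤ) ^ e) else 0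
  have hm' : ∀ j ∈ B, ((p : ℤ) ^ e) * m' j = m j := by
    intro j hj
    simp only [m', hj, if_true]
    exact Int.mul_ediv_cancel' (hdiv j hj)
  have hj0' : ¬ (p : ℤ) ∣ m' j0 := by
    intro hdvd
    have h1 : ((p : ℤ) ^ (e + 1)) ∣ m j0 := by
      rw [← hm' j0 hj0B, pow_succ]
      exact mul_dvd_mul_left _ hdvd
    have h2 : p ^ (e + 1) ∣ (m j0).natAbs := by
      have : ((p ^ (e + 1) : ℕ) : ℤ) ∣ m j0 := by simpa using h1
      exact Int.natCast_dvd.1 this
    exact pow_succ_padicValNat_not_dvd (Int.natAbs_ne_zero.2 (hBne j0 hj0B)) h2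
  have hrepl := le_of_min_score h hz hmin j0 m' hj0'
  -- the sum over `B` is `p^e` times the new element
  have hsumB : ∑ j ∈ B, m j • z j = (p ^ e) • ∑ j, m' j • z j := by
    rw [Finset.smul_sum, ← Finset.sum_filter_add_sum_filter_not Finset.univ (fun j => j ∈ B)
      (fun j => (p ^ e) • (m' j • z j))]
    have h0 : ∑ x ∈ Finset.univ.filter (fun j => ¬ j ∈ B), (p ^ e) • (m' x • z x) = 0 := by
      refine Finset.sum_eq_zero fun j hj => ?_
      have : j ∉ B := (Finset.mem_filter.1 hj).2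
      simp [m', this]
    rw [h0, add_zero, Finset.filter_mem_eq_inter, Finset.univ_inter]
    refine Finset.sum_congr rfl fun j hj => ?_
    rw [← hm' j hj, mul_smul]
    have : ((p : ℤ) ^ e) = ((p ^ e : ℕ) : ℤ) := by push_cast; ring
    rw [this, natCast_zsmul]
  -- the norm of `∑_B` is `D`
  have hj0D : ν (z j0) ^ (q ^ e) = D := by
    have h1 : ν (m j0 • z j0) = D := (Finset.mem_filter.1 hj0B).2
    rw [← hm' j0 hj0B, h.zsmul_pow_mul e hj0'] at h1
    exact h1
  have hB : D ≤ ν (∑ j ∈ B, m j • z j) := by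
    rw [hsumB, h.pow_smul, ← hj0D]
    exact pow_le_pow_left₀ (h.nonneg _) hrepl _
  -- the rest has smaller norm
  have hrest : ν (∑ j ∈ Finset.univ.filter (fun j => ¬ j ∈ B), m j • z j) < ν (∑ j ∈ B, m j • z j) := by
    by_cases hemp : (Finset.univ.filter (fun j => ¬ j ∈ B)) = ∅
    · rw [hemp, Finset.sum_empty, h.zero]
      exact hDpos.trans_le hB
    · obtain ⟨j1, hj1, hj1max⟩ := Finset.exists_max_image (Finset.univ.filter (fun j => ¬ j ∈ B))
        (fun j => ν (m j • z j)) (Finset.nonempty_iff_ne_empty.2 hemp)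
      have h2 : ν (∑ j ∈ Finset.univ.filter (fun j => ¬ j ∈ B), m j • z j) ≤ ν (m j1 • z j1) :=
        h.sum_le _ _ (h.nonneg _) hj1max
      have h3 : ν (m j1 • z j1) < D := by
        refine lt_of_le_of_ne (hD' j1) ?_
        intro e1
        exact (Finset.mem_filter.1 hj1).2 (Finset.mem_filter.2 ⟨Finset.mem_univ _, e1⟩)
      exact (h2.trans_lt h3).trans_le hB
  -- conclusion
  have hsplit : ∑ j, m j • z j = ∑ j ∈ B, m j • z j + ∑ j ∈ Finset.univ.filter (fun j => ¬ j ∈ B), m j • z j := by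
    rw [← Finset.sum_filter_add_sum_filter_not Finset.univ (fun j => j ∈ B)]
    rw [Finset.filter_mem_eq_inter, Finset.univ_inter]
  rw [hsplit, h.add_eq_left hrest]
  exact hB

include h in
/-- **Existence of an orthogonal `p`-basis.** -/
theorem exists_orth_basis {z0 : ι → G} (hz0 : IsPBasis T p z0) {τ ρ : ℝ} (hτ : 0 < τ) (hρ : ρ < 1)
    (hτT : ∀ t ∈ T, t ∉ pMul T p → τ ≤ ν t) (hρT : ∀ t ∈ T, ν t ≤ ρ) :
    ∃ z : ι → G, IsPBasis T p z ∧ ∀ (m : ι → ℤ) (i : ι), ν (m i • z i) ≤ ν (∑ j, m j • z j) := by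
  obtain ⟨z, hz, hmin⟩ := exists_min_score h hz0 hτ hρ hτT hρT
  exact ⟨z, hz, orth_of_min_score h hz hmin⟩

/-- natural number coefficients -/
theorem orth_nat {z : ι → G} (hz : ∀ (m : ι → ℤ) (i : ι), ν (m i • z i) ≤ ν (∑ j, m j • z j))
    (m : ι → ℕ) (i : ι) : ν (m i • z i) ≤ ν (∑ j, m j • z j) := by
  have h1 := hz (fun j => (m j : ℤ)) i
  simpa only [natCast_zsmul] using h1

end Main

end Crest.Agent.LT.OrthBasis
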