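import Crest.Agent.Lib.LT.StdLog

/-!
# Hazewinkel's functional equation lemma, abstract form
-/

set_option autoImplicit false

namespace Crest.Agent.LT.Std

open scoped BigOperators

section Tser

variable {R S : Type*} [CommRing R] [CommRing S]
variable {τ : Type*}

/-- `h ↦ (σ^j)_* h (x ^ (q ^ j))`. -/
noncomputable def Tser (s : R →+* R) {q : ℕ} (hq : q ≠ 0) (j : ℕ) :
    MvPowerSeries τ R →+* MvPowerSeries τ R :=
  ((MvPowerSeries.expand (q ^ j) (pow_ne_zero j hq) :
      MvPowerSeries τ R →ₐ[R] MvPowerSeries τ R) : MvPowerSeries τ R →+* MvPowerSeries τ R).comp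
    (MvPowerSeries.map (s ^ j))

lemma Tser_apply (s : R →+* R) {q : ℕ} (hq : q ≠ 0) (j : ℕ) (h : MvPowerSeries τ R) :
    Tser s hq j h = MvPowerSeries.expand (q ^ j) (pow_ne_zero j hq) (MvPowerSeries.map (s ^ j) h) :=
  rfl

lemma constantCoeff_Tser (s : R →+* R) {q : ℕ} (hq : q ≠ 0) (j : ℕ) (h : MvPowerSeries τ R)
    (hh : MvPowerSeries.constantCoeff h = 0) :
    MvPowerSeries.constantCoeff (Tser s hq j h) = 0 := by
  rw [Tser_apply, MvPowerSeries.constantCoeff_expand, MvPowerSeries.constantCoeff_map, hh, map_zero]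

lemma Tser_zero (s : R →+* R) {q : ℕ} (hq : q ≠ 0) (h : MvPowerSeries τ R) :
    Tser s hq 0 h = h := by
  rw [Tser_apply]
  ext e
  simp [MvPowerSeries.coeff_map]

lemma Tser_succ (s : R →+* R) {q : ℕ} (hq : q ≠ 0) (j : ℕ) (h : MvPowerSeries τ R) :
    Tser s hq (j + 1) h
      = MvPowerSeries.expand q hq (MvPowerSeries.map s (Tser s hq j h)) := by
  rw [Tser_apply, Tser_apply, MvPowerSeries.map_expand]
  have e1 : q ^ (j + 1) = q * q ^ j := by ring
  have : MvPowerSeries.expand (q ^ (j + 1)) (pow_ne_zero (j + 1) hq)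
      (MvPowerSeries.map (s ^ (j + 1)) h)
      = MvPowerSeries.expand (q * q ^ j) (mul_ne_zero hq (pow_ne_zero j hq))
      (MvPowerSeries.map (s ^ (j + 1)) h) := by
    congr 1
    simp [e1]
  rw [this, MvPowerSeries.expand_mul q hq (q ^ j) (pow_ne_zero j hq)]
  congr 2
  ext e
  simp [MvPowerSeries.coeff_map, pow_succ', RingHom.mul_def]

/-- Compatibility of `Tser` with a ring homomorphism. -/
lemma map_Tser {ι : R →+* S} {sR : R →+* R} {sS : S →+* S} (hs : sS.comp ι = ι.comp sR)
    {q : ℕ} (hq : q ≠ 0) (j : ℕ) (h : MvPowerSeries τ R) :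
    MvPowerSeries.map ι (Tser sR hq j h) = Tser sS hq j (MvPowerSeries.map ι h) := by
  have hsj : ∀ j, (sS ^ j).comp ι = ι.comp (sR ^ j) := by
    intro j
    induction j with
    | zero => ext x; simp
    | succ j ih =>
      ext x
      have h1 := RingHom.congr_fun ih x
      have h2 := RingHom.congr_fun hs ((sR ^ j) x)
      simp only [RingHom.comp_apply] at h1 h2
      simp only [pow_succ', RingHom.mul_def, RingHom.comp_apply, ← h2, h1]
  rw [Tser_apply, Tser_apply, MvPowerSeries.map_expand]
  congr 1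
  ext e
  have := RingHom.congr_fun (hsj j) (MvPowerSeries.coeff e h)
  simpa [MvPowerSeries.coeff_map] using this.symm

lemma OrdGE.expand {q : ℕ} (hq : q ≠ 0) {M : ℕ} {w : MvPowerSeries τ R} (h : OrdGE M w) :
    OrdGE (M * q) (MvPowerSeries.expand q hq w) := by
  classical
  intro e he
  by_cases hd : ∀ i, q ∣ e i
  · obtain ⟨m, hm⟩ : ∃ m : τ →₀ ℕ, q • m = e := ⟨e.mapRange (fun a ↦ a / q) (by simp),
      by ext i; simp [(Nat.mul_div_cancel' (hd i))]⟩
    subst hm
    rw [MvPowerSeries.coeff_expand_smul]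
    apply h
    rw [map_nsmul] at he
    simp only [smul_eq_mul] at he
    have hqpos : 0 < q := Nat.pos_of_ne_zero hq
    rw [mul_comm] at he
    exact Nat.lt_of_mul_lt_mul_left (a := q) (by linarith [he, mul_comm q M])
  · push Not at hd
    obtain ⟨i, hi⟩ := hd
    exact MvPowerSeries.coeff_expand_of_not_dvd q hq w hi

lemma OrdGE.map {M : ℕ} {w : MvPowerSeries τ R} (h : OrdGE M w) (φ : R →+* S) :
    OrdGE M (MvPowerSeries.map φ w) := by
  intro e he
  rw [MvPowerSeries.coeff_map, h e he, map_zero]

lemma OrdGE.Tser (s : R →+* R) {q : ℕ} (hq : q ≠ 0) (j : ℕ) {M : ℕ} {w : MvPowerSeries τ R}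
    (h : OrdGE M w) : OrdGE (M * q ^ j) (Std.Tser s hq j w) := by
  rw [Tser_apply]
  exact (h.map _).expand (pow_ne_zero j hq)

end Tser

section Subst

variable {L : Type*} [CommRing L] {p : ℕ} {τ : Type*}

lemma Tser_subst_logSeries (s : L →+* L) (hp : p ≠ 0) (j : ℕ) (c : ℕ → L) (g : MvPowerSeries τ L)
    (hg : MvPowerSeries.constantCoeff g = 0) :
    Tser s hp j ((logSeries p c).subst g)
      = (logSeries p (fun m => (s ^ j) (c m))).subst (Tser s hp j g) := by
  have hs : PowerSeries.HasSubst g := PowerSeries.HasSubst.of_constantCoeff_zero hg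
  rw [Tser_apply, Tser_apply, PowerSeries.map_subst hs, PowerSeries.expand_subst _ _
    (PowerSeries.HasSubst.of_constantCoeff_zero (by simp [hg])), map_logSeries]

end Subst

section Cong

variable {A : Type*} [CommRing A] {p : ℕ} [hp : Fact p.Prime] {τ : Type*}

/-- Divisibility by `p` of a power series from the divisibility of all its coefficients. -/
lemma natCast_dvd_of_coeff {B : Type*} [CommRing B] {w : MvPowerSeries τ B}
    (h : ∀ e, (p : B) ∣ MvPowerSeries.coeff e w) : (p : MvPowerSeries τ B) ∣ w := by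
  choose b hb using h
  refine ⟨fun e => b e, ?_⟩
  ext e
  rw [hb e]
  have : ((p : MvPowerSeries τ B)) = MvPowerSeries.C (p : B) := by simp
  rw [this, MvPowerSeries.coeff_C_mul]
  rfl

lemma coeff_dvd_of_natCast_dvd {B : Type*} [CommRing B] {w : MvPowerSeries τ B}
    (h : (p : MvPowerSeries τ B) ∣ w) (e : τ →₀ ℕ) : (p : B) ∣ MvPowerSeries.coeff e w := by
  obtain ⟨v, rfl⟩ := h
  have : ((p : MvPowerSeries τ B)) = MvPowerSeries.C (p : B) := by simp
  rw [this, MvPowerSeries.coeff_C_mul]
  exact dvd_mul_right _ _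

/-- `g ^ p ≡ (σ_* g)(x ^ p)` modulo `p`, when `σ` lifts Frobenius modulo `p`. -/
lemma dvd_pow_sub_expand_map (hpnu : (p : A) ∈ nonunits A) (σA : A →+* A)
    (hcong : ∀ a, (p : A) ∣ σA a - a ^ p) (g : MvPowerSeries τ A) :
    (p : MvPowerSeries τ A) ∣
      g ^ p - MvPowerSeries.expand p hp.out.ne_zero (MvPowerSeries.map σA g) := by
  classical
  apply natCast_dvd_of_coeff (p := p)
  intro e
  let I : Ideal A := Ideal.span {(p : A)}
  haveI : CharP (A ⧸ I) p := CharP.quotient A p hpnu
  haveI : ExpChar (A ⧸ I) p := ExpChar.prime hp.out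
  let mk : A →+* A ⧸ I := Ideal.Quotient.mk I
  have hfrob : (frobenius (A ⧸ I) p).comp mk = mk.comp σA := by
    ext a
    simp only [RingHom.comp_apply, frobenius_def]
    have := hcong a
    have h2 : mk (σA a - a ^ p) = 0 := by
      apply Ideal.Quotient.eq_zero_iff_mem.mpr
      exact Ideal.mem_span_singleton.mpr this
    rw [map_sub, map_pow, sub_eq_zero] at h2
    exact h2.symm
  have key : MvPowerSeries.map mk (g ^ p)
      = MvPowerSeries.map mk (MvPowerSeries.expand p hp.out.ne_zero (MvPowerSeries.map σA g)) := by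
    rw [map_pow, ← MvPowerSeries.map_frobenius_expand (p := p) (hp := hp.out.ne_zero),
      MvPowerSeries.map_expand, MvPowerSeries.map_expand]
    congr 1
    ext d
    have := RingHom.congr_fun hfrob (MvPowerSeries.coeff d g)
    simpa [MvPowerSeries.coeff_map] using this
  have h3 := congrArg (MvPowerSeries.coeff e) key
  simp only [MvPowerSeries.coeff_map] at h3
  have h4 : mk (MvPowerSeries.coeff e
      (g ^ p - MvPowerSeries.expand p hp.out.ne_zero (MvPowerSeries.map σA g))) = 0 := by
    rw [map_sub, map_sub, h3, sub_self]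
  exact Ideal.mem_span_singleton.mp (Ideal.Quotient.eq_zero_iff_mem.mp h4)

lemma dvd_pow_pow_sub_Tser (hpnu : (p : A) ∈ nonunits A) (σA : A →+* A)
    (hcong : ∀ a, (p : A) ∣ σA a - a ^ p) (g : MvPowerSeries τ A) (j : ℕ) :
    (p : MvPowerSeries τ A) ∣ g ^ (p ^ j) - Tser σA hp.out.ne_zero j g := by
  induction j with
  | zero => simp [Tser_zero]
  | succ j ih =>
    rw [Tser_succ]
    set b := Tser σA hp.out.ne_zero j g
    have e1 : g ^ (p ^ (j + 1)) - MvPowerSeries.expand p hp.out.ne_zero (MvPowerSeries.map σA b)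
        = ((g ^ (p ^ j)) ^ p - b ^ p)
          + (b ^ p - MvPowerSeries.expand p hp.out.ne_zero (MvPowerSeries.map σA b)) := by
      rw [pow_succ, pow_mul]
      ring
    rw [e1]
    refine dvd_add (dvd_trans ih (sub_dvd_pow_sub_pow _ _ _)) ?_
    exact dvd_pow_sub_expand_map hpnu σA hcong b

end Cong

section FEL

variable {A L : Type*} [CommRing A] [CommRing L] {p : ℕ} [hp : Fact p.Prime]
variable {τ : Type*}

/-- All coefficients lie in the image of `ι`. -/
def IsInt (ι : A →+* L) (h : MvPowerSeries τ L) : Prop :=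
  ∀ e, MvPowerSeries.coeff e h ∈ ι.range

lemma IsInt.add {ι : A →+* L} {h k : MvPowerSeries τ L} (h1 : IsInt ι h) (h2 : IsInt ι k) :
    IsInt ι (h + k) := fun e => by
  rw [map_add]; exact add_mem (h1 e) (h2 e)

lemma IsInt.sub {ι : A →+* L} {h k : MvPowerSeries τ L} (h1 : IsInt ι h) (h2 : IsInt ι k) :
    IsInt ι (h - k) := fun e => by
  rw [map_sub]; exact sub_mem (h1 e) (h2 e)

lemma isInt_map (ι : A →+* L) (g : MvPowerSeries τ A) : IsInt ι (MvPowerSeries.map ι g) :=
  fun e => by rw [MvPowerSeries.coeff_map]; exact ⟨_, rfl⟩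

lemma IsInt.exists_map {ι : A →+* L} {h : MvPowerSeries τ L} (h1 : IsInt ι h) :
    ∃ g : MvPowerSeries τ A, MvPowerSeries.map ι g = h := by
  choose b hb using h1
  refine ⟨fun e => b e, ?_⟩
  ext e
  rw [MvPowerSeries.coeff_map, ← hb e]
  rfl

/-- The key estimate: if `a ≡ b mod p` in `A⟦x⟧` and `p ^ i * c i` is integral for all `i`,
then `c(a) ≡ c(b) mod p`. -/
lemma subst_logSeries_sub (ι : A →+* L) (c : ℕ → L) (hc : ∀ i, ∃ a, (p : L) ^ i * c i = ι a)
    {a b : MvPowerSeries τ A} (ha : MvPowerSeries.constantCoeff a = 0)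
    (hb : MvPowerSeries.constantCoeff b = 0) (hab : (p : MvPowerSeries τ A) ∣ a - b)
    (e : τ →₀ ℕ) :
    ∃ r : A, MvPowerSeries.coeff e
        ((logSeries p c).subst (MvPowerSeries.map ι a)
          - (logSeries p c).subst (MvPowerSeries.map ι b)) = (p : L) * ι r := by
  classical
  have hp1 : 1 < p := hp.out.one_lt
  have hA : MvPowerSeries.constantCoeff (MvPowerSeries.map ι a) = 0 := by
    rw [MvPowerSeries.constantCoeff_map, ha, map_zero]
  have hB : MvPowerSeries.constantCoeff (MvPowerSeries.map ι b) = 0 := by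
    rw [MvPowerSeries.constantCoeff_map, hb, map_zero]
  choose d hd using hc
  have hterm : ∀ m, ∃ r : A, c m * MvPowerSeries.coeff e
      ((MvPowerSeries.map ι a) ^ (p ^ m) - (MvPowerSeries.map ι b) ^ (p ^ m)) = (p : L) * ι r := by
    intro m
    obtain ⟨v, hv⟩ := dvd_sub_pow_of_dvd_sub hab m
    have h1 : (MvPowerSeries.map ι a) ^ (p ^ m) - (MvPowerSeries.map ι b) ^ (p ^ m)
        = MvPowerSeries.map ι (a ^ (p ^ m) - b ^ (p ^ m)) := by
      simp [map_sub, map_pow]
    rw [h1, hv]
    have h2 : ((p : MvPowerSeries τ A) ^ (m + 1)) = MvPowerSeries.C ((p : A) ^ (m + 1)) := by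
      simp
    rw [h2, MvPowerSeries.coeff_map, MvPowerSeries.coeff_C_mul, map_mul, map_pow, map_natCast]
    refine ⟨d m * MvPowerSeries.coeff e v, ?_⟩
    rw [map_mul, ← hd m]
    ring
  choose r hr using hterm
  refine ⟨∑ m ∈ Finset.range (e.degree + 1), r m, ?_⟩
  rw [map_sub, coeff_subst_logSeries hp1 c hA e (Nat.lt_succ_self _),
    coeff_subst_logSeries hp1 c hB e (Nat.lt_succ_self _), ← Finset.sum_sub_distrib, map_sum,
    Finset.mul_sum]
  refine Finset.sum_congr rfl fun m _ => ?_
  rw [← hr m, map_sub]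
  ring

/-- The hypotheses of the functional equation lemma. -/
structure FEData (ι : A →+* L) (p : ℕ) (pinv : L) (σA : A →+* A) (σL : L →+* L) (n : ℕ)
    (u : ℕ → A) (lam : ℕ → L) : Prop where
  hι : Function.Injective ι
  hpinv : (p : L) * pinv = 1
  hσ : σL.comp ι = ι.comp σA
  hcong : ∀ a, (p : A) ∣ σA a - a ^ p
  hpnu : (p : A) ∈ nonunits A
  h0 : lam 0 = 1
  hrec : ∀ m, 1 ≤ m → (p : L) * lam m =
    ∑ j ∈ Finset.Icc 1 (min n m), ι (u j) * (σL ^ j) (lam (m - j))

variable {ι : A →+* L} {pinv : L} {σA : A →+* A} {σL : L →+* L} {n : ℕ} {u : ℕ → A} {lam : ℕ → L}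

lemma FEData.pow_comp (D : FEData ι p pinv σA σL n u lam) (j : ℕ) (a : A) :
    (σL ^ j) (ι a) = ι ((σA ^ j) a) := by
  induction j generalizing a with
  | zero => simp
  | succ j ih =>
    have h2 := RingHom.congr_fun D.hσ ((σA ^ j) a)
    simp only [RingHom.comp_apply] at h2
    simp only [pow_succ', RingHom.mul_def, RingHom.comp_apply, ← h2, ih]

lemma FEData.lam_int (D : FEData ι p pinv σA σL n u lam) (m : ℕ) :
    ∃ a, (p : L) ^ m * lam m = ι a := by
  induction m using Nat.strong_induction_on with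
  | _ m ih =>
    rcases Nat.eq_zero_or_pos m with rfl | hm
    · exact ⟨1, by simp [D.h0]⟩
    · have hterm : ∀ j ∈ Finset.Icc 1 (min n m), ∃ a, (p : L) ^ (m - 1) *
          (ι (u j) * (σL ^ j) (lam (m - j))) = ι a := by
        intro j hj
        rw [Finset.mem_Icc] at hj
        have hj1 : 1 ≤ j := hj.1
        have hjm : j ≤ m := le_trans hj.2 (min_le_right _ _)
        obtain ⟨a, ha⟩ := ih (m - j) (by omega)
        have hσp : (σL ^ j) ((p : L) ^ (m - j) * lam (m - j))
            = (p : L) ^ (m - j) * (σL ^ j) (lam (m - j)) := by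
          rw [map_mul, map_pow, map_natCast]
        refine ⟨u j * (p : A) ^ (j - 1) * (σA ^ j) a, ?_⟩
        rw [map_mul, map_mul, map_pow, map_natCast, ← D.pow_comp, ← ha, hσp]
        have : (p : L) ^ (m - 1) = (p : L) ^ (j - 1) * (p : L) ^ (m - j) := by
          rw [← pow_add]
          congr 1
          omega
        rw [this]
        ring
      choose! a ha using hterm
      refine ⟨∑ j ∈ Finset.Icc 1 (min n m), a j, ?_⟩
      have e1 : (p : L) ^ m = (p : L) ^ (m - 1) * p := by
        rw [← pow_succ]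
        congr 1
        omega
      rw [e1, mul_assoc, D.hrec m hm, Finset.mul_sum, map_sum]
      exact Finset.sum_congr rfl ha

/-- The operator `h ↦ h - ∑ⱼ (uⱼ / p) (σʲ_* h)(x ^ (p ^ j))`. -/
noncomputable def Phi (ι : A →+* L) (p : ℕ) [hp : Fact p.Prime] (pinv : L) (σL : L →+* L) (n : ℕ)
    (u : ℕ → A) (h : MvPowerSeries τ L) : MvPowerSeries τ L :=
  h - ∑ j ∈ Finset.Icc 1 n, MvPowerSeries.C (pinv * ι (u j)) * Tser σL hp.out.ne_zero j h

lemma Phi_sub (h k : MvPowerSeries τ L) :
    Phi ι p pinv σL n u (h - k) = Phi ι p pinv σL n u h - Phi ι p pinv σL n u k := by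
  simp only [Phi, map_sub, mul_sub, Finset.sum_sub_distrib]
  ring

lemma Phi_add (h k : MvPowerSeries τ L) :
    Phi ι p pinv σL n u (h + k) = Phi ι p pinv σL n u h + Phi ι p pinv σL n u k := by
  simp only [Phi, map_add, mul_add, Finset.sum_add_distrib]
  ring

/-- The functional equation. -/
lemma FEData.functional_eq (D : FEData ι p pinv σA σL n u lam) {G : MvPowerSeries τ L}
    (hG : MvPowerSeries.constantCoeff G = 0) :
    (logSeries p lam).subst G = G + ∑ j ∈ Finset.Icc 1 n, MvPowerSeries.C (pinv * ι (u j)) *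
      (logSeries p (fun i => (σL ^ j) (lam i))).subst (G ^ (p ^ j)) := by
  classical
  have hp1 : 1 < p := hp.out.one_lt
  have hG1 : OrdGE 1 G := ordGE_of_constantCoeff hG
  ext e
  set K := e.degree + 1 with hK
  have hKlt : e.degree < K := Nat.lt_succ_self _
  have hGj : ∀ j : ℕ, MvPowerSeries.constantCoeff (G ^ (p ^ j)) = 0 := by
    intro j
    rw [map_pow, hG, zero_pow (pow_ne_zero j (by omega))]
  have hvan : ∀ q : ℕ, K ≤ q → MvPowerSeries.coeff e (G ^ (p ^ q)) = 0 := by
    intro q hq
    have h3 := hG1.pow (p ^ q)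
    apply h3
    have : q < p ^ q := Nat.lt_pow_self hp1
    simp only [mul_one]
    omega
  rw [coeff_subst_logSeries hp1 lam hG e hKlt, map_add, map_sum]
  -- the right-hand side
  have hR : ∀ j ∈ Finset.Icc 1 n, MvPowerSeries.coeff e (MvPowerSeries.C (pinv * ι (u j)) *
      (logSeries p (fun i => (σL ^ j) (lam i))).subst (G ^ (p ^ j)))
      = ∑ m ∈ Finset.Ico j K, pinv * (ι (u j) * (σL ^ j) (lam (m - j)))
          * MvPowerSeries.coeff e (G ^ (p ^ m)) := by
    intro j hj
    rw [Finset.mem_Icc] at hj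
    rw [MvPowerSeries.coeff_C_mul, coeff_subst_logSeries hp1 _ (hGj j) e hKlt, Finset.mul_sum]
    -- restrict the range
    have h4 : ∑ i ∈ Finset.range K, (pinv * ι (u j)) * ((σL ^ j) (lam i) *
          MvPowerSeries.coeff e ((G ^ (p ^ j)) ^ (p ^ i)))
        = ∑ i ∈ Finset.range (K - j), (pinv * ι (u j)) * ((σL ^ j) (lam i) *
          MvPowerSeries.coeff e ((G ^ (p ^ j)) ^ (p ^ i))) := by
      symm
      apply Finset.sum_subset
      · intro i hi
        simp only [Finset.mem_range] at hi ⊢
        omega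
      · intro i _ hi
        simp only [Finset.mem_range, not_lt] at hi
        have : (G ^ (p ^ j)) ^ (p ^ i) = G ^ (p ^ (j + i)) := by
          rw [← pow_mul, ← pow_add]
        rw [this, hvan _ (by omega)]
        simp
    rw [h4, Finset.sum_Ico_eq_sum_range]
    refine Finset.sum_congr rfl fun i _ => ?_
    have : (G ^ (p ^ j)) ^ (p ^ i) = G ^ (p ^ (j + i)) := by
      rw [← pow_mul, ← pow_add]
    rw [this, Nat.add_sub_cancel_left]
    ring
  rw [Finset.sum_congr rfl hR]
  -- the left-hand side
  have hK1 : 0 < K := Nat.succ_pos _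
  rw [Finset.range_eq_Ico, Finset.sum_eq_sum_Ico_succ_bot hK1, D.h0, pow_zero, pow_one, one_mul]
  congr 1
  have hL : ∀ m ∈ Finset.Ico (0 + 1) K, lam m * MvPowerSeries.coeff e (G ^ (p ^ m))
      = ∑ j ∈ Finset.Icc 1 (min n m), pinv * (ι (u j) * (σL ^ j) (lam (m - j)))
          * MvPowerSeries.coeff e (G ^ (p ^ m)) := by
    intro m hm
    rw [Finset.mem_Ico] at hm
    have h5 : lam m = pinv * ((p : L) * lam m) := by
      rw [← mul_assoc, mul_comm pinv, D.hpinv, one_mul]
    rw [← Finset.sum_mul, ← Finset.mul_sum, ← D.hrec m (by omega), ← h5]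
  rw [Finset.sum_congr rfl hL]
  apply Finset.sum_comm'
  intro m j
  simp only [Finset.mem_Ico, Finset.mem_Icc, le_min_iff]
  omega

lemma FEData.phi_int (D : FEData ι p pinv σA σL n u lam) (g : MvPowerSeries τ A)
    (hg : MvPowerSeries.constantCoeff g = 0) :
    IsInt ι (Phi ι p pinv σL n u ((logSeries p lam).subst (MvPowerSeries.map ι g))) := by
  classical
  have hp1 : 1 < p := hp.out.one_lt
  set G := MvPowerSeries.map ι g with hGdef
  have hG : MvPowerSeries.constantCoeff G = 0 := by
    rw [hGdef, MvPowerSeries.constantCoeff_map, hg, map_zero]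
  have hexp : Phi ι p pinv σL n u ((logSeries p lam).subst G)
      = G + ∑ j ∈ Finset.Icc 1 n, MvPowerSeries.C (pinv * ι (u j)) *
        ((logSeries p (fun i => (σL ^ j) (lam i))).subst (G ^ (p ^ j))
          - (logSeries p (fun i => (σL ^ j) (lam i))).subst (Tser σL hp.out.ne_zero j G)) := by
    rw [Phi]
    nth_rw 1 [D.functional_eq hG]
    simp only [mul_sub, Finset.sum_sub_distrib, Tser_subst_logSeries σL hp.out.ne_zero _ lam G hG]
    ring
  rw [hexp]
  intro e
  rw [map_add, map_sum]
  refine add_mem (isInt_map ι g e) (sum_mem fun j hj => ?_)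
  rw [MvPowerSeries.coeff_C_mul]
  have hc : ∀ i, ∃ a, (p : L) ^ i * (σL ^ j) (lam i) = ι a := by
    intro i
    obtain ⟨a, ha⟩ := D.lam_int i
    refine ⟨(σA ^ j) a, ?_⟩
    rw [← D.pow_comp, ← ha, map_mul, map_pow, map_natCast]
  have ha : MvPowerSeries.constantCoeff (g ^ (p ^ j)) = 0 := by
    rw [map_pow, hg, zero_pow (pow_ne_zero j (by omega))]
  have hb : MvPowerSeries.constantCoeff (Tser σA hp.out.ne_zero j g) = 0 :=
    constantCoeff_Tser _ _ _ _ hg
  obtain ⟨r, hr⟩ := subst_logSeries_sub ι _ hc ha hb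
    (dvd_pow_pow_sub_Tser D.hpnu σA D.hcong g j) e
  rw [map_pow, map_Tser D.hσ] at hr
  rw [hr]
  refine ⟨u j * r, ?_⟩
  have h6 : pinv * (p : L) = 1 := by rw [mul_comm]; exact D.hpinv
  rw [map_mul]
  calc ι (u j) * ι r = (pinv * (p : L)) * (ι (u j) * ι r) := by rw [h6, one_mul]
    _ = _ := by ring

/-- **Functional equation lemma**, integrality part. -/
theorem FEData.isInt_of_phi (D : FEData ι p pinv σA σL n u lam) {g : MvPowerSeries τ L}
    (hg : MvPowerSeries.constantCoeff g = 0)
    (hΦ : IsInt ι (Phi ι p pinv σL n u ((logSeries p lam).subst g))) : IsInt ι g := by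
  classical
  have hp1 : 1 < p := hp.out.one_lt
  have hg1 : OrdGE 1 g := ordGE_of_constantCoeff hg
  have main : ∀ N, ∀ e : τ →₀ ℕ, e.degree = N → MvPowerSeries.coeff e g ∈ ι.range := by
    intro N
    induction N using Nat.strong_induction_on with
    | _ N ih =>
      intro e he
      rcases Nat.eq_zero_or_pos N with rfl | hN
      · have : e = 0 := (Finsupp.degree_eq_zero_iff e).mp he
        subst this
        have h0 : MvPowerSeries.coeff (0 : τ →₀ ℕ) g = 0 := by simpa using hg
        rw [h0]
        exact zero_mem _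
      · have hpre : ∀ e' : τ →₀ ℕ, ∃ r : A, e'.degree < N → ι r = MvPowerSeries.coeff e' g := by
          intro e'
          by_cases h : e'.degree < N
          · obtain ⟨r, hr⟩ := ih _ h e' rfl
            exact ⟨r, fun _ => hr⟩
          · exact ⟨0, fun h' => absurd h' h⟩
        choose r hr using hpre
        let g'' : MvPowerSeries τ A := fun e' => if e'.degree < N then r e' else 0
        have hg'' : ∀ e', MvPowerSeries.coeff e' g'' = if e'.degree < N then r e' else 0 :=
          fun _ => rfl
        set G' := MvPowerSeries.map ι g'' with hG'def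
        have hG'c : ∀ e', MvPowerSeries.coeff e' G' =
            if e'.degree < N then MvPowerSeries.coeff e' g else 0 := by
          intro e'
          rw [hG'def, MvPowerSeries.coeff_map, hg'']
          split_ifs with h
          · exact hr e' h
          · exact map_zero _
        have hg''0 : MvPowerSeries.constantCoeff g'' = 0 := by
          apply D.hι
          have h7 := hG'c 0
          rw [hG'def, MvPowerSeries.coeff_map] at h7
          have h8 : (0 : τ →₀ ℕ).degree < N := by simpa using hN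
          rw [if_pos h8] at h7
          have h9 : MvPowerSeries.coeff (0 : τ →₀ ℕ) g = 0 := by simpa using hg
          rw [h9] at h7
          rw [map_zero]
          simpa using h7
        have hG'0 : MvPowerSeries.constantCoeff G' = 0 := by
          rw [hG'def, MvPowerSeries.constantCoeff_map, hg''0, map_zero]
        have hG'1 : OrdGE 1 G' := ordGE_of_constantCoeff hG'0
        have hd : OrdGE N (g - G') := by
          intro e' he'
          rw [map_sub, hG'c, if_pos he', sub_self]
        -- coefficient comparison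
        have hcmp : ∀ e' : τ →₀ ℕ, e'.degree ≤ N →
            MvPowerSeries.coeff e' ((logSeries p lam).subst g - (logSeries p lam).subst G')
              = MvPowerSeries.coeff e' (g - G') := by
          intro e' he'
          have hK : e'.degree < N + 1 := Nat.lt_succ_of_le he'
          rw [map_sub, coeff_subst_logSeries hp1 lam hg e' hK,
            coeff_subst_logSeries hp1 lam hG'0 e' hK, ← Finset.sum_sub_distrib,
            Finset.sum_eq_single 0]
          · simp [D.h0]
          · intro m _ hm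
            rw [← mul_sub, ← map_sub]
            have hm1 : 1 ≤ m := Nat.pos_of_ne_zero hm
            have hp2 : p ^ m = (p ^ m - 1) + 1 := by
              have : 0 < p ^ m := pow_pos (by omega) m
              omega
            have hp3 : 1 ≤ p ^ m - 1 := by
              have : p ^ 1 ≤ p ^ m := Nat.pow_le_pow_right (by omega) hm1
              have : 2 ≤ p := hp.out.two_le
              simp only [pow_one] at *
              omega
            have h10 := OrdGE.pow_sub_pow hg1 hG'1 hd (p ^ m - 1)
            rw [← hp2] at h10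
            rw [h10 e' (by omega), mul_zero]
          · intro h
            exact absurd (Finset.mem_range.mpr (Nat.succ_pos N)) h
        set w := (logSeries p lam).subst g - (logSeries p lam).subst G' with hw
        have hw1 : OrdGE N w := by
          intro e' he'
          rw [hcmp e' he'.le, hd e' he']
        have hPhi : IsInt ι (Phi ι p pinv σL n u w) := by
          rw [hw, Phi_sub]
          exact IsInt.sub hΦ (D.phi_int g'' hg''0)
        have hfin : MvPowerSeries.coeff e (Phi ι p pinv σL n u w) = MvPowerSeries.coeff e g := by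
          rw [Phi, map_sub, map_sum, hcmp e he.le, map_sub, hG'c, if_neg (by omega),
            sub_zero]
          rw [Finset.sum_eq_zero, sub_zero]
          intro j hj
          rw [Finset.mem_Icc] at hj
          rw [MvPowerSeries.coeff_C_mul]
          have h11 := OrdGE.Tser σL hp.out.ne_zero j hw1
          have h12 : N < N * p ^ j := by
            have : 2 ≤ p ^ j := by
              calc 2 ≤ p := hp.out.two_le
                _ = p ^ 1 := (pow_one p).symm
                _ ≤ p ^ j := Nat.pow_le_pow_right (by omega) hj.1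
            nlinarith
          rw [h11 e (by omega), mul_zero]
        rw [← hfin]
        exact hPhi e
  exact fun e => main _ e rfl

end FEL

end Crest.Agent.LT.Std
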