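import Crest.Agent.Lib.LT.StdFEL

/-!
# The concrete data of the standard law

`A = ℤ[u_1,…,u_{n-1}]`, `L = ℚ[u_1,…,u_{n-1}]`, `σ = expand p`, `u_n = 1`, and `lam` with the left
recursion `p lam_M = ∑_{1 ≤ j ≤ min(M,n)} lam_{M-j} (u_j)^(p^(M-j))`.  The right recursion
`p lam_M = ∑_j u_j σ^j(lam_{M-j})` is derived from it, which gives `FEData`.
-/

set_option autoImplicit false

open Finset

namespace Crest.Agent.LT.Std

section Rec

variable {K : Type*} [CommRing K] {p n : ℕ} (σ : K →+* K) {pinv : K}

/-- uniform form of the left recursion, valid for all `M` -/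
theorem lam_left_uniform {v : ℕ → K} {lam : ℕ → K} (h0 : lam 0 = 1)
    (hrec : ∀ M, 1 ≤ M → (p : K) * lam M =
      ∑ j ∈ Icc 1 n, if j ≤ M then lam (M - j) * v j ^ p ^ (M - j) else 0) (M : ℕ) :
    (p : K) * lam M = (if M = 0 then (p : K) else 0) +
      ∑ j ∈ Icc 1 n, if j ≤ M then lam (M - j) * v j ^ p ^ (M - j) else 0 := by
  rcases Nat.eq_zero_or_pos M with rfl | hM
  · simp only [if_true, h0, mul_one]
    rw [Finset.sum_eq_zero, add_zero]
    intro j hj
    have := (mem_Icc.mp hj).1
    rw [if_neg (by omega)]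
  · rw [if_neg (by omega), zero_add, hrec M hM]

theorem pow_apply_v {v : ℕ → K} (hv : ∀ j, σ (v j) = v j ^ p) (j i : ℕ) :
    (σ ^ j) (v i) = v i ^ p ^ j := by
  induction j with
  | zero => simp
  | succ j ih =>
    rw [pow_succ', RingHom.mul_def, RingHom.comp_apply, ih, map_pow, hv, ← pow_mul, pow_succ']

/-- the right recursion, from the left one -/
theorem lam_right_uniform (hpinv : (p : K) * pinv = 1) {v : ℕ → K}
    (hv : ∀ j, σ (v j) = v j ^ p) {lam : ℕ → K} (h0 : lam 0 = 1)
    (hrec : ∀ M, 1 ≤ M → (p : K) * lam M =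
      ∑ j ∈ Icc 1 n, if j ≤ M then lam (M - j) * v j ^ p ^ (M - j) else 0) (M : ℕ) :
    (p : K) * lam M = (if M = 0 then (p : K) else 0) +
      ∑ j ∈ Icc 1 n, if j ≤ M then v j * (σ ^ j) (lam (M - j)) else 0 := by
  have p_cancel : ∀ {x y : K}, (p : K) * x = (p : K) * y → x = y := by
    intro x y h
    have h' := congrArg (fun z => pinv * z) h
    simp only [← mul_assoc] at h'
    have h1 : pinv * (p : K) = 1 := by rw [mul_comm]; exact hpinv
    rwa [h1, one_mul, one_mul] at h'
  induction M using Nat.strong_induction_on with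
  | _ M ih =>
    rcases Nat.eq_zero_or_pos M with rfl | hM
    · simp only [if_true, h0, mul_one]
      rw [Finset.sum_eq_zero, add_zero]
      intro j hj
      have := (mem_Icc.mp hj).1
      rw [if_neg (by omega)]
    · rw [if_neg (by omega), zero_add]
      apply p_cancel
      -- left side
      have hL : (p : K) * ((p : K) * lam M) = ∑ i ∈ Icc 1 n, if i ≤ M then
          v i ^ p ^ (M - i) * ((if M - i = 0 then (p : K) else 0) +
            ∑ j ∈ Icc 1 n, if j ≤ M - i then
              v j * (σ ^ j) (lam (M - i - j)) else 0) else 0 := by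
        rw [hrec M hM, Finset.mul_sum]
        refine Finset.sum_congr rfl fun i hi => ?_
        have hi1 := (mem_Icc.mp hi).1
        by_cases hiM : i ≤ M
        · rw [if_pos hiM, if_pos hiM, ← ih (M - i) (by omega)]
          ring
        · rw [if_neg hiM, if_neg hiM, mul_zero]
      have hR : (p : K) * ∑ j ∈ Icc 1 n, (if j ≤ M then
            v j * (σ ^ j) (lam (M - j)) else 0) =
          ∑ j ∈ Icc 1 n, if j ≤ M then v j * ((if M - j = 0 then (p : K) else 0) +
            ∑ i ∈ Icc 1 n, if i ≤ M - j then
              (σ ^ j) (lam (M - j - i)) * v i ^ p ^ (M - i) else 0) else 0 := by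
        rw [Finset.mul_sum]
        refine Finset.sum_congr rfl fun j hj => ?_
        have hj1 := (mem_Icc.mp hj).1
        by_cases hjM : j ≤ M
        · rw [if_pos hjM, if_pos hjM]
          have h1 : (σ ^ j) ((p : K) * lam (M - j)) = (p : K) * (σ ^ j) (lam (M - j)) := by
            rw [map_mul, map_natCast]
          have h2 := lam_left_uniform (p := p) (n := n) h0 hrec (M - j)
          have h3 : (p : K) * (σ ^ j) (lam (M - j)) =
              (if M - j = 0 then (p : K) else 0) + ∑ i ∈ Icc 1 n, if i ≤ M - j then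
              (σ ^ j) (lam (M - j - i)) * v i ^ p ^ (M - i) else 0 := by
            rw [← h1, h2, map_add, map_sum]
            congr 1
            · split_ifs <;> simp
            · refine Finset.sum_congr rfl fun i hi => ?_
              have hi1 := (mem_Icc.mp hi).1
              by_cases hiM : i ≤ M - j
              · rw [if_pos hiM, if_pos hiM, map_mul, map_pow, pow_apply_v σ hv, ← pow_mul,
                  ← pow_add]
                congr 3
                omega
              · rw [if_neg hiM, if_neg hiM, map_zero]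
          rw [← h3]
          ring
        · rw [if_neg hjM, if_neg hjM, mul_zero]
      rw [hL, hR]
      -- expand both
      have e1 : ∀ i ∈ Icc 1 n, (if i ≤ M then
          v i ^ p ^ (M - i) * ((if M - i = 0 then (p : K) else 0) +
            ∑ j ∈ Icc 1 n, if j ≤ M - i then
              v j * (σ ^ j) (lam (M - i - j)) else 0) else 0) =
          (if i = M then v i * (p : K) else 0) + ∑ j ∈ Icc 1 n, if i + j ≤ M then
              v i ^ p ^ (M - i) * (v j * (σ ^ j) (lam (M - i - j))) else 0 := by
        intro i hi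
        have hi1 := (mem_Icc.mp hi).1
        by_cases hiM : i ≤ M
        · rw [if_pos hiM, mul_add, Finset.mul_sum]
          congr 1
          · by_cases h : i = M
            · subst h; simp
            · rw [if_neg (by omega), if_neg h, mul_zero]
          · refine Finset.sum_congr rfl fun j _ => ?_
            by_cases h : j ≤ M - i
            · rw [if_pos h, if_pos (by omega)]
            · rw [if_neg h, if_neg (by omega), mul_zero]
        · rw [if_neg hiM, if_neg (by omega), zero_add, Finset.sum_eq_zero]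
          intro j hj
          rw [if_neg (by omega)]
      have e2 : ∀ j ∈ Icc 1 n, (if j ≤ M then v j * ((if M - j = 0 then (p : K) else 0) +
            ∑ i ∈ Icc 1 n, if i ≤ M - j then
              (σ ^ j) (lam (M - j - i)) * v i ^ p ^ (M - i) else 0) else 0) =
          (if j = M then v j * (p : K) else 0) + ∑ i ∈ Icc 1 n, if i + j ≤ M then
              v i ^ p ^ (M - i) * (v j * (σ ^ j) (lam (M - i - j))) else 0 := by
        intro j hj
        have hj1 := (mem_Icc.mp hj).1
        by_cases hjM : j ≤ M
        · rw [if_pos hjM, mul_add, Finset.mul_sum]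
          congr 1
          · by_cases h : j = M
            · subst h; simp
            · rw [if_neg (by omega), if_neg h, mul_zero]
          · refine Finset.sum_congr rfl fun i _ => ?_
            by_cases h : i ≤ M - j
            · rw [if_pos h, if_pos (by omega)]
              have : M - j - i = M - i - j := by omega
              rw [this]
              ring
            · rw [if_neg h, if_neg (by omega), mul_zero]
        · rw [if_neg hjM, if_neg (by omega), zero_add, Finset.sum_eq_zero]
          intro i hi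
          rw [if_neg (by omega)]
      rw [Finset.sum_congr rfl e1, Finset.sum_congr rfl e2, Finset.sum_add_distrib,
        Finset.sum_add_distrib]
      congr 1
      exact Finset.sum_comm

theorem sum_Icc_min (f : ℕ → K) (M : ℕ) :
    ∑ j ∈ Icc 1 n, (if j ≤ M then f j else 0) = ∑ j ∈ Icc 1 (min n M), f j := by
  rw [← Finset.sum_filter]
  refine Finset.sum_congr ?_ fun _ _ => rfl
  ext j
  simp only [mem_filter, mem_Icc, le_min_iff]
  tauto

end Rec

section Concrete

open MvPolynomial

variable (p n : ℕ) [hp : Fact p.Prime]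

/-- `ℤ[u_1,…,u_{n-1}]` -/
abbrev StdA : Type := MvPolynomial (Fin (n - 1)) ℤ
/-- `ℚ[u_1,…,u_{n-1}]` -/
abbrev StdL : Type := MvPolynomial (Fin (n - 1)) ℚ

/-- inclusion `ℤ[u] → ℚ[u]` -/
noncomputable def stdι : StdA n →+* StdL n := MvPolynomial.map (Int.castRingHom ℚ)

theorem stdι_inj : Function.Injective (stdι n) :=
  MvPolynomial.map_injective _ Int.cast_injective

/-- the Frobenius lift `u ↦ u ^ p` on `ℤ[u]` -/
noncomputable def stdσA : StdA n →+* StdA n := (expand p : StdA n →ₐ[ℤ] StdA n).toRingHom
/-- the Frobenius lift `u ↦ u ^ p` on `ℚ[u]` -/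
noncomputable def stdσL : StdL n →+* StdL n := (expand p : StdL n →ₐ[ℚ] StdL n).toRingHom

/-- the inverse of `p` in `ℚ[u]` -/
noncomputable def stdPinv : StdL n := C ((p : ℚ)⁻¹)

/-- `u_j`: the variable of index `j - 1` for `1 ≤ j < n`, and `u_j = 1` for `j ≥ n`. -/
noncomputable def stdUA (j : ℕ) : StdA n :=
  if h : j - 1 < n - 1 then X ⟨j - 1, h⟩ else 1

theorem stdPinv_spec : ((p : StdL n)) * stdPinv p n = 1 := by
  have hp0 : (p : ℚ) ≠ 0 := by exact_mod_cast hp.out.ne_zero
  have : (p : StdL n) = C (p : ℚ) := by simp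
  rw [this, stdPinv, ← C_mul, mul_inv_cancel₀ hp0, C_1]

theorem stdσ_comm : (stdσL p n).comp (stdι n) = (stdι n).comp (stdσA p n) := by
  apply MvPolynomial.ringHom_ext
  · intro r; simp [stdσL, stdσA, stdι]
  · intro i; simp [stdσL, stdσA, stdι]

theorem stdσA_cong (a : StdA n) : (p : StdA n) ∣ stdσA p n a - a ^ p := by
  -- reduction mod `p`
  induction a using MvPolynomial.induction_on with
  | C r =>
    have h1 : stdσA p n (C r) = C r := by simp [stdσA]
    rw [h1, ← C_pow]
    have h2 : (p : ℤ) ∣ r - r ^ p := by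
      have h3 : ((r ^ p : ℤ) : ZMod p) = (r : ZMod p) := by
        push_cast
        exact ZMod.pow_card _
      exact (ZMod.intCast_eq_intCast_iff_dvd_sub _ _ p).mp h3
    obtain ⟨c, hc⟩ := h2
    refine ⟨C c, ?_⟩
    rw [← C_sub, hc, C_mul]
    simp
  | add a b ha hb =>
    obtain ⟨r, hr⟩ := exists_add_pow_prime_eq hp.out a b
    rw [map_add, hr]
    obtain ⟨c, hc⟩ := ha
    obtain ⟨d, hd⟩ := hb
    refine ⟨c + d - a * b * r, ?_⟩
    have : stdσA p n a + stdσA p n b - (a ^ p + b ^ p + (p : StdA n) * a * b * r) =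
        (stdσA p n a - a ^ p) + (stdσA p n b - b ^ p) - (p : StdA n) * a * b * r := by ring
    rw [this, hc, hd]
    ring
  | mul_X a i ha =>
    have h1 : stdσA p n (X i) = X i ^ p := by simp [stdσA]
    rw [map_mul, h1, mul_pow]
    obtain ⟨c, hc⟩ := ha
    refine ⟨c * X i ^ p, ?_⟩
    have : stdσA p n a * X i ^ p - a ^ p * X i ^ p = (stdσA p n a - a ^ p) * X i ^ p := by ring
    rw [this, hc]
    ring

theorem stdp_nonunit : (p : StdA n) ∈ nonunits (StdA n) := by
  rw [mem_nonunits_iff]
  intro h
  -- constant coefficient is a unit in ℤ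
  have h2 := h.map (MvPolynomial.constantCoeff : StdA n →+* ℤ)
  have h3 : (MvPolynomial.constantCoeff : StdA n →+* ℤ) (p : StdA n) = (p : ℤ) := by simp
  rw [h3] at h2
  have h4 := Int.isUnit_iff.mp h2
  have := hp.out.two_le
  omega

theorem stdσ_u (j : ℕ) : stdσL p n (stdι n (stdUA n j)) = stdι n (stdUA n j) ^ p := by
  unfold stdUA
  split_ifs with h <;> simp [stdσL, stdι]

/-- The sequence `lam` : `lam 0 = 1`, `p lam_M = ∑_j lam_{M-j} (u_j)^(p^(M-j))`. -/
noncomputable def stdLam : ℕ → StdL n
  | M => if hM : M = 0 then 1 else stdPinv p n * ∑ j ∈ (Icc 1 (min n M)).attach,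
      have : M - j.1 < M := by
        have := (mem_Icc.mp j.2).1
        omega
      stdLam (M - j.1) * stdι n (stdUA n j.1) ^ p ^ (M - j.1)
termination_by M => M

theorem stdLam_zero : stdLam p n 0 = 1 := by
  rw [stdLam]; simp

theorem stdLam_left (M : ℕ) (hM : 1 ≤ M) : (p : StdL n) * stdLam p n M =
    ∑ j ∈ Icc 1 (min n M), stdLam p n (M - j) * stdι n (stdUA n j) ^ p ^ (M - j) := by
  rw [stdLam, dif_neg (by omega), ← mul_assoc, stdPinv_spec, one_mul]
  exact Finset.sum_attach (Icc 1 (min n M))
    (fun j => stdLam p n (M - j) * stdι n (stdUA n j) ^ p ^ (M - j))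

theorem stdLam_left' (M : ℕ) (hM : 1 ≤ M) : (p : StdL n) * stdLam p n M =
    ∑ j ∈ Icc 1 n, if j ≤ M then stdLam p n (M - j) * stdι n (stdUA n j) ^ p ^ (M - j) else 0 := by
  rw [stdLam_left p n M hM]
  exact (sum_Icc_min _ M).symm

theorem stdLam_right (M : ℕ) (hM : 1 ≤ M) : (p : StdL n) * stdLam p n M =
    ∑ j ∈ Icc 1 (min n M), stdι n (stdUA n j) * (stdσL p n ^ j) (stdLam p n (M - j)) := by
  have := lam_right_uniform (p := p) (n := n) (stdσL p n) (stdPinv_spec p n)
    (v := fun j => stdι n (stdUA n j)) (stdσ_u p n) (stdLam_zero p n) (stdLam_left' p n) M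
  rw [if_neg (by omega), zero_add] at this
  rw [this]
  exact sum_Icc_min (n := n) (fun j => stdι n (stdUA n j) * (stdσL p n ^ j) (stdLam p n (M - j))) M

/-- the hypotheses of the functional equation lemma hold for the concrete data. -/
theorem stdFEData : FEData (stdι n) p (stdPinv p n) (stdσA p n) (stdσL p n) n (stdUA n)
    (stdLam p n) where
  hι := stdι_inj n
  hpinv := stdPinv_spec p n
  hσ := stdσ_comm p n
  hcong := stdσA_cong p n
  hpnu := stdp_nonunit p n
  h0 := stdLam_zero p n
  hrec := stdLam_right p n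

end Concrete

end Crest.Agent.LT.Std
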