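import Mathlib
import Crest.Prelude.Def_LubinTate
import Crest.Agent.Lib.LT.Strata
import Crest.Agent.Lib.LT.C0Main

/-!
# S0351: stable primes for the standard law

`stable_prime_std`: the classification for the standard law, from `Strata` (char `p` strata) and
`C0Main` (char `0` stratum).
-/

set_option autoImplicit false

open Crest.LubinTate IsLocalRing

namespace Crest.Agent.LT

open Crest.Agent.LT.Std

variable {p : ℕ} [Fact p.Prime] {n : ℕ}

local notation "E" => LTRing p n

/-- **Stable primes of the standard law.** -/
theorem stable_prime_std (hn : 1 ≤ n)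
    (hU : IsUniversalDeformation p n (stdGamma p n) (stdLaw p n))
    {M : ℕ} {P : Ideal E} (hP : P.IsPrime)
    (hS : IsStableIdeal p n (stdGamma p n) (stdLaw p n) M P) :
    ∃ h, h ≤ n ∧ P = heightIdeal p n (stdLaw p n) h :=
  stable_prime_std_of_charZero hn hU hP hS fun hp => C0Thin.charZero_stable hn hU M P hS hp

end Crest.Agent.LT
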