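import Mathlib
import Crest.Prelude.Def_LubinTate
import Crest.Agent.Lib.LT.Transport
import Crest.Agent.Lib.LT.Final
import Crest.Agent.Lib.LT.Action
import Crest.Agent.Lib.LT.Cont

/-!
# S0351: reduction to a comparison law

`S0351_of_std`: the statement of S0351 for `(Γ, H)` follows from a law `Hs` over `E₀` with reduction
`Γs`, with `I_n(Hs) = m`, with prime height ideals, with `Γ ≅ Γs` over `k`, and from the classification
of the stable primes for `(Γs, Hs)`, which may use that `Hs` is universal.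
-/

set_option autoImplicit false

open Crest.LubinTate IsLocalRing

namespace Crest.Agent.LT

variable {p : ℕ} [Fact p.Prime] {n : ℕ}

local notation "k" => GaloisField p n
local notation "W" => WittVector p (GaloisField p n)
local notation "E" => LTRing p n
local notation "rE" => LTRing.residue p n

/-- The height ideals are stable. -/
theorem heightIdeal_isStable {Γ : FormalGroup k} {H : FormalGroup E} [H.IsComm]
    (hH : IsUniversalDeformation p n Γ H) (M h : ℕ) :
    IsStableIdeal p n Γ H M (heightIdeal p n H h) := by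
  intro g φ hg _ hφ
  have hbij := Action.realise_bijective hH hg hφ
  obtain ⟨-, θ, hθ, hθr⟩ := hφ
  have hu := isUnit_coeff_one_of_reduces hθr hg.2
  have := isComm_map H φ.toRingHom
  have h1 : (heightIdeal p n H h).map φ.toRingHom = heightIdeal p n H h := by
    rw [← heightIdeal_map, heightIdeal_iso p n hθ hu]
  conv_lhs => rw [← h1]
  exact Ideal.comap_map_of_bijective _ hbij

/-- **Reduction of S0351 to a comparison law.** -/
theorem S0351_of_std (Γ : FormalGroup k) (hΓ : mulSeries Γ p = PowerSeries.X ^ (p ^ n))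
    (H : FormalGroup E) [H.IsComm] (hH : IsUniversalDeformation p n Γ H) (M : ℕ) (hM : 1 ≤ M)
    (Γs : FormalGroup k) (Hs : FormalGroup E) [Hs.IsComm] (hred : Hs.map rE = Γs)
    (hmax : heightIdeal p n Hs n = maximalIdeal E)
    (hprime : ∀ h, h ≤ n → (heightIdeal p n Hs h).IsPrime)
    (hiso : ∃ β, IsFGHom Γ Γs β ∧ IsUnit (PowerSeries.coeff 1 β))
    (hmain : IsUniversalDeformation p n Γs Hs → ∀ M, 1 ≤ M → ∀ P : Ideal E, P.IsPrime →
      IsStableIdeal p n Γs Hs M P → ∃ h, h ≤ n ∧ P = heightIdeal p n Hs h) :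
    (∀ P : Ideal (LTRing p n),
        (P.IsPrime ∧ IsStableIdeal p n Γ H M P) ↔ ∃ h : ℕ, h ≤ n ∧ P = heightIdeal p n H h) ∧
    (∀ J : Ideal (LTRing p n),
        (J.IsRadical ∧ IsStableIdeal p n Γ H M J) ↔
          (∃ h : ℕ, h ≤ n ∧ J = heightIdeal p n H h) ∨ J = ⊤) := by
  obtain ⟨β, hβ, hβu⟩ := hiso
  obtain ⟨Φ, θ, hΦ, hθ, hθr⟩ := exists_comparison_equiv hH hΓ hred hmax hβ hβu
  have hU := isUniversal_of_comparison hH hred Φ hΦ hθ hθr hβ hβu
  have hθu := isUnit_coeff_one_of_reduces hθr hβu
  have hht := heightIdeal_of_comparison Φ hθ hθu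
  have hbijΦ : Function.Bijective Φ.toRingEquiv.toRingHom := Φ.bijective
  have hcom : ∀ I : Ideal E, (I.map Φ.toRingEquiv.toRingHom).comap Φ.toRingEquiv.toRingHom = I :=
    fun I => Ideal.comap_map_of_bijective _ hbijΦ
  refine final_of_interface p n Γ H M ?_ (fun M h _ => heightIdeal_isStable hH M h) ?_ ?_ ?_ hM
  · intro h hh
    have h1 := hprime h hh
    rw [← hht h] at h1
    have h2 := Ideal.comap_isPrime Φ.toRingEquiv.toRingHom
      ((heightIdeal p n H h).map Φ.toRingEquiv.toRingHom)
    rwa [hcom] at h2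
  · intro M hM P hP hS
    have hP' : (P.map Φ.toRingEquiv.toRingHom).IsPrime := by
      have := Ideal.map_isPrime_of_equiv (I := P) Φ.toRingEquiv
      exact this
    obtain ⟨h, hh, he⟩ := hmain hU M hM _ hP' (isStable_of_comparison Φ hΦ hθ hθr hβ hβu hS)
    refine ⟨h, hh, ?_⟩
    rw [← hht h] at he
    rw [← hcom P, he, hcom]
  · intro g φ hg hφ
    exact Action.realise_bijective hH hg hφ
  · intro c
    obtain ⟨M', hM'⟩ := Cont.hcont Γ H hH c
    exact ⟨M', fun g φ _ hgM hφ a => hM' g φ hgM hφ a⟩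

end Crest.Agent.LT
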