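import Mathlib
import Crest.Prelude.Def_LubinTate
import Crest.Agent.Lib.LT.Wire
import Crest.Agent.Lib.LT.Std

/-!
# S0351: top assembly with the standard law

`S0351_of_main`: the statement of S0351 from the isomorphism `Γ ≅ Γ^std` (Lazard, `hiso`) and the
classification of stable primes for the standard law (`hmain`), which may use universality of the
standard law.
-/

set_option autoImplicit false

open Crest.LubinTate IsLocalRing

namespace Crest.Agent.LT

variable {p : ℕ} [Fact p.Prime] {n : ℕ}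

/-- `I_n` of the standard law is the maximal ideal. -/
theorem heightIdeal_stdLaw_self (hn : 1 ≤ n) :
    heightIdeal p n (Std.stdLaw p n) n = maximalIdeal (LTRing p n) := by
  rw [Std.heightIdeal_stdLaw p n hn le_rfl, genIdeal_self p n hn]

/-- **Top assembly.** -/
theorem S0351_of_main (hn : 1 ≤ n) (Γ : FormalGroup (GaloisField p n))
    (hΓ : mulSeries Γ p = PowerSeries.X ^ (p ^ n))
    (H : FormalGroup (LTRing p n)) [H.IsComm] (hH : IsUniversalDeformation p n Γ H) (M : ℕ)
    (hM : 1 ≤ M)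
    (hiso : ∃ β, IsFGHom Γ (Std.stdGamma p n) β ∧ IsUnit (PowerSeries.coeff 1 β))
    (hmain : IsUniversalDeformation p n (Std.stdGamma p n) (Std.stdLaw p n) →
      ∀ M, 1 ≤ M → ∀ P : Ideal (LTRing p n), P.IsPrime →
      IsStableIdeal p n (Std.stdGamma p n) (Std.stdLaw p n) M P →
        ∃ h, h ≤ n ∧ P = heightIdeal p n (Std.stdLaw p n) h) :
    (∀ P : Ideal (LTRing p n),
        (P.IsPrime ∧ IsStableIdeal p n Γ H M P) ↔ ∃ h : ℕ, h ≤ n ∧ P = heightIdeal p n H h) ∧
    (∀ J : Ideal (LTRing p n),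
        (J.IsRadical ∧ IsStableIdeal p n Γ H M J) ↔
          (∃ h : ℕ, h ≤ n ∧ J = heightIdeal p n H h) ∨ J = ⊤) :=
  S0351_of_std Γ hΓ H hH M hM (Std.stdGamma p n) (Std.stdLaw p n) rfl (heightIdeal_stdLaw_self hn)
    (fun _ hh => Std.heightIdeal_stdLaw_isPrime p n hh) hiso hmain

end Crest.Agent.LT
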